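import Vale.Agent.Lib.P161.Final

/-!
P161, critical value.  Definitions shared by all modules (see notes/P161crit/proof.md).
No proofs here; do not edit without telling helper13.
-/

open Finset MeasureTheory

namespace Vale.Agent.P161C
open Vale.Agent.P161

variable {V : Type*} [DecidableEq V]

/-- The standing hypotheses: `(b+1)`-regular tree, `b ≥ 2`, `b tanh(β)^2 = 1`. -/
structure Crit (G : SimpleGraph V) [G.LocallyFinite] (b : ℕ) (β : ℝ) : Prop where
  tree : G.IsTree
  reg : G.IsRegularOfDegree (b + 1)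
  hb : 2 ≤ b
  hβ : 0 ≤ β
  crit : (b : ℝ) * Real.tanh β ^ 2 = 1

/-- Fields of the own messages. -/
noncomputable def fld (p : V → ℝ) : V → ℝ := fun v => Real.artanh (p v)

section Defs

variable (G : SimpleGraph V) [DecidableRel G.Adj]

/-- Magnetization at `v` in volume `S` with own messages `p`. -/
noncomputable def mg (β : ℝ) (S : Finset V) (p : V → ℝ) (v : V) : ℝ := mag G β S (fld p) v

/-- Covariance in volume `S` with own messages `p`. -/
noncomputable def cv (β : ℝ) (S : Finset V) (p : V → ℝ) (v u : V) : ℝ := cov G β S (fld p) v u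

/-- Ising weights in volume `S` (a configuration is the set `T` of plus spins). -/
noncomputable def isw (β : ℝ) (S T : Finset V) : ℝ :=
  Real.exp (en G β S 0 T) / gs G β S 0 (fun _ => 1)

/-- Density of the planted law with respect to the product of the own laws. -/
noncomputable def Zd (β : ℝ) (S : Finset V) (p : V → ℝ) : ℝ :=
  ∑ T ∈ S.powerset, isw G β S T * ∏ v ∈ S, (1 + p v * sp T v)

/-- The planted law of the own messages. -/
noncomputable def PL (β : ℝ) (ν : V → Measure ℝ) (S : Finset V) : Measure (V → ℝ) :=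
  (Measure.infinitePi ν).withDensity (fun p => ENNReal.ofReal (Zd G β S p))

/-- Planted expectation. -/
noncomputable def EE (β : ℝ) (ν : V → Measure ℝ) (S : Finset V) (F : (V → ℝ) → ℝ) : ℝ :=
  ∫ p, F p ∂(PL G β ν S)

/-- `2q`-th moment of the magnetization at `v` under the planted law. -/
noncomputable def mom (β : ℝ) (ν : V → Measure ℝ) (S : Finset V) (v : V) (q : ℕ) : ℝ :=
  EE G β ν S (fun p => mg G β S p v ^ (2 * q))

end Defs

/-- Symmetrization of `φ` along an edge. -/
noncomputable def symf (φ : ℝ → ℝ) (u w : ℝ) : ℝ :=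
  1 / 2 * ((1 + u * w) * φ ((u + w) / (1 + u * w)) + (1 - u * w) * φ ((u - w) / (1 - u * w)))

/-- Geodesic convexity (in a tree: connectedness). -/
def Cvx (G : SimpleGraph V) (S : Finset V) : Prop :=
  ∀ u ∈ S, ∀ v ∈ S, ∀ i, G.dist u i + G.dist i v = G.dist u v → i ∈ S

/-- Every vertex at distance `≤ m` from `c`, on the side of `c` of the edge `v c`, is in `H`. -/
def Full (G : SimpleGraph V) (H : Finset V) (v c : V) (m : ℕ) : Prop :=
  ∀ u, G.dist c u ≤ m → G.dist c u < G.dist v u → u ∈ H

/-- Admissible own laws: symmetric probability measures on `(-1,1)`. -/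
structure IsOwn (ν : Measure ℝ) : Prop where
  prob : IsProbabilityMeasure ν
  symm : ν.map (fun x => -x) = ν
  supp : ∀ᵐ x ∂ν, |x| < 1

/-- Own laws at scale `t`. -/
structure Scale (κ t : ℝ) (ν : Measure ℝ) : Prop extends IsOwn ν where
  lo : t / κ ≤ ∫ x, x ^ 2 ∂ν
  hi : ∀ᵐ x ∂ν, x ^ 2 ≤ κ * t

/-- Bounded measurable functionals of the own messages in `S`. -/
structure Fn (S : Finset V) (F : (V → ℝ) → ℝ) : Prop where
  meas : Measurable F
  bdd : ∃ C : ℝ, ∀ p, |F p| ≤ C
  dep : ∀ p q : V → ℝ, (∀ v ∈ S, p v = q v) → F p = F q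

/-- Even bounded measurable functionals of the own messages in `S`. -/
structure EvFn (S : Finset V) (F : (V → ℝ) → ℝ) : Prop extends Fn S F where
  even : ∀ p : V → ℝ, F (fun v => - p v) = F p

section Rooted

variable (G : SimpleGraph V) [DecidableRel G.Adj]

/-- Branch of `D` at `i` seen from `x`: vertices `u` such that `i` is on the geodesic `x u`. -/
noncomputable def br (D : Finset V) (x i : V) : Finset V :=
  {u ∈ D | G.dist x i + G.dist i u = G.dist x u}

/-- Children of `i` in `D`, seen from `x`. -/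
noncomputable def ch (D : Finset V) (x i : V) : Finset V :=
  {c ∈ D | G.Adj i c ∧ G.dist x c = G.dist x i + 1}

/-- Vertices of `D` on the geodesic from `j` (excluded) to `u` (included). -/
noncomputable def pth (D : Finset V) (j u : V) : Finset V :=
  {i ∈ D | i ≠ j ∧ G.dist j i + G.dist i u = G.dist j u}

/-- Part of `D` hanging at the vertex `i` of the geodesic from `x` to `u`. -/
noncomputable def hang (D : Finset V) (x u i : V) : Finset V :=
  {y ∈ D | G.dist x i + G.dist i y = G.dist x y ∧ G.dist u i + G.dist i y = G.dist u y}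

/-- Message of the branch at `i`, seen from `x`. -/
noncomputable def ms (β : ℝ) (D : Finset V) (x : V) (p : V → ℝ) (i : V) : ℝ :=
  mg G β (br G D x i) p i

/-- `A(u) = ∑ m_i^2` over the geodesic from `x` (excluded) to `u`. -/
noncomputable def Ac (β : ℝ) (D : Finset V) (x u : V) (p : V → ℝ) : ℝ :=
  ∑ i ∈ pth G D x u, ms G β D x p i ^ 2

/-- `W(j,c) = ∏ (slope(m_i)/θ)^2` over the geodesic from `j` (excluded) to `c`. -/
noncomputable def Wt (β : ℝ) (D : Finset V) (x j c : V) (p : V → ℝ) : ℝ :=
  ∏ i ∈ pth G D j c, (slope (Real.tanh β) (ms G β D x p i) / Real.tanh β) ^ 2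

/-- Truncated susceptibility. -/
noncomputable def Pf (β : ℝ) (D : Finset V) (x : V) : ℕ → V → (V → ℝ) → ℝ
  | 0, _, _ => 1
  | n + 1, i, p => 1 + ∑ c ∈ ch G D x i,
      slope (Real.tanh β) (ms G β D x p c) ^ 2 * Pf β D x n c p

/-- Truncated susceptibility with the exponential weights. -/
noncomputable def Qf (β : ℝ) (D : Finset V) (x : V) : ℕ → V → (V → ℝ) → ℝ
  | 0, _, _ => 1
  | n + 1, i, p => 1 + ∑ c ∈ ch G D x i,
      Real.tanh β ^ 2 * Real.exp (-(ms G β D x p c ^ 2) / 4) * Qf β D x n c p

/-- Susceptibility with prescribed constants `q` at depth `r`. -/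
noncomputable def Lf (β : ℝ) (D : Finset V) (x : V) (q : V → ℝ) : ℕ → V → (V → ℝ) → ℝ
  | 0, i, _ => q i
  | r + 1, i, p => 1 + ∑ c ∈ ch G D x i,
      slope (Real.tanh β) (ms G β D x p c) ^ 2 * Lf β D x q r c p

/-- `p` has the planted law in `D` (homogeneous own law `ν`) under `P`. -/
def PLaw (β : ℝ) (ν : Measure ℝ) (D : Finset V) {Ω : Type*} [MeasurableSpace Ω] (P : Measure Ω)
    (p : Ω → V → ℝ) : Prop :=
  Measurable p ∧ ∀ F : (V → ℝ) → ℝ, Fn D F → ∫ ω, F (p ω) ∂P = EE G β (fun _ => ν) D F

end Rooted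

/-! ### The process -/

/-- Strength of the observations in round `j`. -/
noncomputable def str (j : ℤ) : ℝ := 1 / 4 * (2 : ℝ) ^ (min j 0)

/-- Numbering of the rounds used for the noise variables. -/
def eZ : ℤ ≃ ℕ := Equiv.intEquivNat

section Process

variable (G : SimpleGraph V) [DecidableRel G.Adj]

open Classical in
/-- A round up to label time `l`: the vertices of `D` with label `< l` are treated in the order of
their labels. -/
noncomputable def rnd (β a : ℝ) (D : Finset V) (l : ℝ) (lab ξ h : V → ℝ) : V → ℝ :=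
  ∑ L ∈ (D.filter (fun v => lab v < l)).toList.permutations.toFinset,
    if L.Pairwise (fun x y => lab x < lab y) then run G β a D L ξ h else 0

/-- State after `m` complete rounds, the first one being round `-n`. -/
noncomputable def st (β : ℝ) (D : Finset V) (n : ℕ) : ℕ → (V × ℕ → unitInterval) → V → ℝ
  | 0, _ => 0
  | m + 1, ω => rnd G β (str ((m : ℤ) - n)) D (1 / 2) (label (eZ ((m : ℤ) - n)) ω)
      (noise (eZ ((m : ℤ) - n)) ω) (st β D n m ω)

/-- State at label time `l` of round `j` (`j ≥ -n`). -/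
noncomputable def sj (β : ℝ) (D : Finset V) (n : ℕ) (j : ℤ) (l : ℝ)
    (ω : V × ℕ → unitInterval) : V → ℝ :=
  rnd G β (str j) D l (label (eZ j) ω) (noise (eZ j) ω) (st G β D n (j + n).toNat ω)

/-- Bound for the increment of the mean square difference. -/
noncomputable def Sx (β a : ℝ) (D D' : Finset V) (x : V) (h h' : V → ℝ) : ℝ :=
  ∑ u ∈ D ∩ D', (8 * a ^ 2 * (cov G β D h x u - cov G β D' h' x u) ^ 2 +
    128 * a ^ 4 * cov G β D' h' x u ^ 2 * (mag G β D h u - mag G β D' h' u) ^ 2) +
  4 * a ^ 2 * ∑ u ∈ D \ D', cov G β D h x u ^ 2 + 4 * a ^ 2 * ∑ u ∈ D' \ D, cov G β D' h' x u ^ 2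

/-- Mean square difference of the magnetizations at `x`. -/
noncomputable def dd (β : ℝ) (D : Finset V) (n : ℕ) (D' : Finset V) (n' : ℕ) (x : V) (j : ℤ)
    (l : ℝ) : ℝ :=
  ∫ ω, (mag G β D (sj G β D n j l ω) x - mag G β D' (sj G β D' n' j l ω) x) ^ 2
    ∂iidLaw (V × ℕ)

end Process

/-- Combination of two independent observations of the same spin, at the level of messages. -/
noncomputable def comb (α γ : Measure ℝ) : Measure ℝ :=
  ((α.prod γ).withDensity (fun z => ENNReal.ofReal (1 + z.1 * z.2))).map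
    (fun z => (z.1 + z.2) / (1 + z.1 * z.2))

/-- Message of an observation of strength `a` made with probability `q`. -/
noncomputable def obs (a q : ℝ) : Measure ℝ :=
  ENNReal.ofReal q • Measure.map (fun r : unitInterval => a * (2 * (r : ℝ) - 1)) volume +
    ENNReal.ofReal (1 - q) • Measure.dirac 0

/-- Own law after `m` complete rounds starting with round `-n`. -/
noncomputable def nuR (n : ℕ) : ℕ → Measure ℝ
  | 0 => Measure.dirac 0
  | m + 1 => comb (nuR n m) (obs (str ((m : ℤ) - n)) (1 / 2))

/-- Own law at label time `l` of round `j`. -/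
noncomputable def nuS (n : ℕ) (j : ℤ) (l : ℝ) : Measure ℝ :=
  comb (nuR n (j + n).toNat) (obs (str j) l)

/-- The time scale of round `j`. -/
noncomputable def tj (j : ℤ) : ℝ := (4 : ℝ) ^ (min j 0)

section Mu

variable (G : SimpleGraph V) [DecidableRel G.Adj] [G.LocallyFinite]

/-- Supremum of the mean square differences over all pairs of approximants that contain the ball of
radius `R` about the vertex considered and start early enough. -/
noncomputable def GG (β : ℝ) (R : ℕ) (j : ℤ) (l : ℝ) : ℝ :=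
  sSup {y : ℝ | ∃ (x c c' : V) (r r' n n' : ℕ), bal G x R ⊆ bal G c r ∧ bal G x R ⊆ bal G c' r' ∧
    R + j.natAbs + 2 ≤ n ∧ R + j.natAbs + 2 ≤ n' ∧
    y = dd G β (bal G c r) n (bal G c' r') n' x j l}

/-- The limit of `GG` as `R → ∞`. -/
noncomputable def muf (β : ℝ) (j : ℤ) (l : ℝ) : ℝ := ⨅ R : ℕ, GG G β R j l

end Mu

end Vale.Agent.P161C
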