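import Vale.Agent.Lib.P161C.Core

/-!
P161 critical, module CVX: convex sets of a tree.  Uses the existing library (`Tree`, `Sphere`,
`dist_across` of `CylLaw`).
-/

open Finset MeasureTheory

namespace Vale.Agent.P161C
open Vale.Agent.P161

variable {V : Type*} [DecidableEq V] {G : SimpleGraph V} [DecidableRel G.Adj] {β : ℝ}
  {S : Finset V}

/-! ### Convex sets -/

omit [DecidableEq V] [DecidableRel G.Adj] in
lemma cvx_empty : Cvx G (∅ : Finset V) := by
  intro u hu; simp at hu

omit [DecidableEq V] [DecidableRel G.Adj] in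
lemma side_cases (hG : G.IsTree) {v w : V} (hvw : G.Adj v w) (x : V) :
    (G.dist x v < G.dist x w ∧ G.dist x w = G.dist x v + 1) ∨
      (G.dist x w < G.dist x v ∧ G.dist x v = G.dist x w + 1) := by
  rcases hG.dist_eq_dist_add_one_of_adj x hvw with h | h
  · right; omega
  · left; omega

omit [DecidableEq V] [DecidableRel G.Adj] in
lemma across (hG : G.IsTree) {v w x y : V} (hvw : G.Adj v w)
    (hx : G.dist x v < G.dist x w) (hy : G.dist y w < G.dist y v) :
    G.dist x y = G.dist x v + 1 + G.dist w y :=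
  dist_across hG hvw hy _ x hx rfl

omit [DecidableEq V] [DecidableRel G.Adj] in
lemma cvx_side (hG : G.IsTree) (hS : Cvx G S) {v w : V} (hvw : G.Adj v w) :
    Cvx G (side G S v w) := by
  intro u hu u' hu' i hi
  rw [mem_side] at hu hu' ⊢
  refine ⟨hS u hu.1 u' hu'.1 i hi, ?_⟩
  rcases side_cases hG hvw i with h | h
  · exact h.1
  · exfalso
    have h1 := across hG hvw hu.2 h.1
    have h2 := across hG hvw hu'.2 h.1
    have h3 := hG.connected.dist_triangle (u := u) (v := v) (w := u')
    rw [G.dist_comm (u := i) (v := u')] at hi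
    rw [G.dist_comm (u := v) (v := u')] at h3
    omega

omit [DecidableEq V] [DecidableRel G.Adj] in
/-- A convex set that does not contain both ends of an edge lies on one side. -/
lemma cvx_side_cases (hG : G.IsTree) {B : Finset V} (hB : Cvx G B) (hBS : B ⊆ S) {v w : V}
    (hvw : G.Adj v w) (h : ¬ (v ∈ B ∧ w ∈ B)) : B ⊆ side G S v w ∨ B ⊆ side G S w v := by
  by_contra hcon
  push Not at hcon
  obtain ⟨h1, h2⟩ := hcon
  rw [Finset.not_subset] at h1 h2
  obtain ⟨x, hxB, hx⟩ := h1
  obtain ⟨y, hyB, hy⟩ := h2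
  rw [mem_side] at hx hy
  have hx' : G.dist x w < G.dist x v := by
    rcases side_cases hG hvw x with h | h
    · exact absurd ⟨hBS hxB, h.1⟩ hx
    · exact h.1
  have hy' : G.dist y v < G.dist y w := by
    rcases side_cases hG hvw y with h | h
    · exact h.1
    · exact absurd ⟨hBS hyB, h.1⟩ hy
  have hvw1 : G.dist v w = 1 := SimpleGraph.dist_eq_one_iff_adj.mpr hvw
  have e1 := across hG hvw hy' hx'
  have e2 := across hG hvw (x := v) (by rw [SimpleGraph.dist_self, hvw1]; norm_num) hx'
  rw [SimpleGraph.dist_self] at e2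
  have e3 : G.dist y w = G.dist y v + 1 := by
    rcases side_cases hG hvw y with h | h <;> omega
  apply h
  constructor
  · exact hB y hyB x hxB v (by omega)
  · exact hB y hyB x hxB w (by omega)

omit [DecidableEq V] [DecidableRel G.Adj] in
lemma side_eq_self (hG : G.IsTree) (hS : Cvx G S) {v w : V} (hvw : G.Adj v w) (hv : v ∈ S)
    (hw : w ∉ S) : side G S v w = S := by
  ext x
  rw [mem_side]
  constructor
  · exact fun h => h.1
  · intro hx
    refine ⟨hx, ?_⟩
    rcases side_cases hG hvw x with h | h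
    · exact h.1
    · exfalso
      have hvw1 : G.dist v w = 1 := SimpleGraph.dist_eq_one_iff_adj.mpr hvw
      have e2 := across hG hvw (x := v) (by rw [SimpleGraph.dist_self, hvw1]; norm_num) h.1
      rw [SimpleGraph.dist_self] at e2
      exact hw (hS v hv x hx w (by omega))

omit [DecidableRel G.Adj] in
/-- If `B ⊊ S` is nonempty, both convex, there is an edge of `S` leaving `B`. -/
lemma exists_edge_out (hG : G.IsTree) (hS : Cvx G S) {B : Finset V} (hBS : B ⊆ S)
    (hne : B.Nonempty) (hB : B ≠ S) : ∃ v w, G.Adj v w ∧ v ∈ B ∧ w ∈ S ∧ w ∉ B := by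
  obtain ⟨u, hu⟩ := hne
  have hne' : (S \ B).Nonempty := by
    rw [Finset.sdiff_nonempty]
    intro h
    exact hB (Finset.Subset.antisymm hBS h)
  obtain ⟨z, hz, hmin⟩ := Finset.exists_min_image (S \ B) (fun z => G.dist z u) hne'
  rw [Finset.mem_sdiff] at hz
  have hzu : z ≠ u := by
    rintro rfl; exact hz.2 hu
  obtain ⟨y, hzy, hy⟩ := exists_adj_closer hG.connected hzu
  have hzy1 : G.dist z y = 1 := SimpleGraph.dist_eq_one_iff_adj.mpr hzy
  have hyS : y ∈ S := hS z hz.1 u (hBS hu) y (by omega)
  refine ⟨y, z, hzy.symm, ?_, hz.1, hz.2⟩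
  by_contra hyB
  have := hmin y (Finset.mem_sdiff.mpr ⟨hyS, hyB⟩)
  omega

omit [DecidableRel G.Adj] in
lemma cvx_bal [G.LocallyFinite] (hG : G.IsTree) (c : V) (R : ℕ) : Cvx G (bal G c R) := by
  intro u hu v hv i hi
  rw [mem_bal hG.connected] at hu hv ⊢
  by_contra hcon
  push Not at hcon
  have hic : i ≠ c := by
    rintro rfl; rw [SimpleGraph.dist_self] at hcon; omega
  obtain ⟨z, hiz, hz⟩ := exists_adj_closer hG.connected hic
  have hcz : G.dist c z < G.dist c i := by
    rw [G.dist_comm (u := c) (v := z), G.dist_comm (u := c) (v := i)]; omega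
  have key : ∀ y, G.dist c y ≤ R → G.dist y z < G.dist y i ∧ G.dist y i = G.dist y z + 1 := by
    intro y hy
    rcases side_cases hG hiz y with h | h
    · exfalso
      have e := across hG hiz.symm hcz h.1
      rw [G.dist_comm (u := c) (v := i)] at hcon
      rw [G.dist_comm (u := c) (v := z)] at e
      omega
    · exact h
  have k1 := key u hu
  have k2 := key v hv
  have h3 := hG.connected.dist_triangle (u := u) (v := z) (w := v)
  rw [G.dist_comm (u := i) (v := v)] at hi
  rw [G.dist_comm (u := z) (v := v)] at h3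
  omega

end Vale.Agent.P161C
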