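import Vale.Agent.Lib.P161C.EvAux

/-!
P161 critical, module EV ((12.4) of notes/P161crit/proof.md): evolution of the mean square
difference in the label time.  Uses PROC and the existing `two_step`, `integral_mag_step_sub_sq`,
`qinc_le`, `integral_step`, `measurePreserving_merge`, `integral_resam`.

Plan.  Quenched labels: the state at label time `l₂` is obtained from the state at `l₁` by the
updates at the vertices with label in `[l₁, l₂)`, in increasing order; an update at `u` increases
the mean of `(M - M')²` by at most the mean of `T_u` (the `u`-summand of `Sx`) at the state just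
before, which is the state at label time `lab u`.  For a fixed `u`, the state at label time
`λ = lab u` computed with the label of `u` ignored does not depend on `lab u`; averaging over
`lab u ∈ [l₁,l₂)` gives `∫_{l₁}^{l₂} E[T_u(state^{(u)}(λ))] dλ`, and
`E[T_u(state^{(u)}(λ))] = E[T_u(state(λ)) 1{lab u ≥ λ}] / (1-λ) ≤ 2 E[T_u(state(λ))]`.
-/

open Finset MeasureTheory Filter Topology

namespace Vale.Agent.P161C
open Vale.Agent.P161

variable {V : Type*} [DecidableEq V] {G : SimpleGraph V} [DecidableRel G.Adj] {β : ℝ}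

variable (G) in
/-- The contribution of the vertex `u` to `Sx`. -/
noncomputable def Tu (β a : ℝ) (D D' : Finset V) (x u : V) (h h' : V → ℝ) : ℝ :=
  (if u ∈ D ∧ u ∈ D' then 8 * a ^ 2 * (cov G β D h x u - cov G β D' h' x u) ^ 2 +
    128 * a ^ 4 * cov G β D' h' x u ^ 2 * (mag G β D h u - mag G β D' h' u) ^ 2 else 0) +
  (if u ∈ D ∧ u ∉ D' then 4 * a ^ 2 * cov G β D h x u ^ 2 else 0) +
  (if u ∉ D ∧ u ∈ D' then 4 * a ^ 2 * cov G β D' h' x u ^ 2 else 0)

lemma Sx_eq_sum (β a : ℝ) (D D' : Finset V) (x : V) (h h' : V → ℝ) :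
    Sx G β a D D' x h h' = ∑ u ∈ D ∪ D', Tu G β a D D' x u h h' := by
  have e1 : (D ∪ D').filter (fun u => u ∈ D ∧ u ∈ D') = D ∩ D' := by
    ext u; simp only [Finset.mem_filter, mem_union, mem_inter]; tauto
  have e2 : (D ∪ D').filter (fun u => u ∈ D ∧ u ∉ D') = D \ D' := by
    ext u; simp only [Finset.mem_filter, mem_union, Finset.mem_sdiff]; tauto
  have e3 : (D ∪ D').filter (fun u => u ∉ D ∧ u ∈ D') = D' \ D := by
    ext u; simp only [Finset.mem_filter, mem_union, Finset.mem_sdiff]; tauto
  have r1 := Finset.sum_filter (s := D ∪ D') (fun u => u ∈ D ∧ u ∈ D')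
    (fun u => 8 * a ^ 2 * (cov G β D h x u - cov G β D' h' x u) ^ 2 +
    128 * a ^ 4 * cov G β D' h' x u ^ 2 * (mag G β D h u - mag G β D' h' u) ^ 2)
  have r2 := Finset.sum_filter (s := D ∪ D') (fun u => u ∈ D ∧ u ∉ D')
    (fun u => 4 * a ^ 2 * cov G β D h x u ^ 2)
  have r3 := Finset.sum_filter (s := D ∪ D') (fun u => u ∉ D ∧ u ∈ D')
    (fun u => 4 * a ^ 2 * cov G β D' h' x u ^ 2)
  rw [e1] at r1
  rw [e2] at r2
  rw [e3] at r3
  unfold Tu
  rw [Finset.sum_add_distrib, Finset.sum_add_distrib, ← r1, ← r2, ← r3]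
  unfold Sx
  rw [Finset.mul_sum, Finset.mul_sum]

lemma Tu_both (a : ℝ) {D D' : Finset V} (x : V) {u : V} (h h' : V → ℝ) (hu : u ∈ D)
    (hu' : u ∈ D') : Tu G β a D D' x u h h' =
    8 * a ^ 2 * (cov G β D h x u - cov G β D' h' x u) ^ 2 +
    128 * a ^ 4 * cov G β D' h' x u ^ 2 * (mag G β D h u - mag G β D' h' u) ^ 2 := by
  unfold Tu
  simp only [hu, hu', and_self, not_true_eq_false, and_false, false_and, if_true, if_false,
    add_zero]

lemma Tu_left (a : ℝ) {D D' : Finset V} (x : V) {u : V} (h h' : V → ℝ) (hu : u ∈ D)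
    (hu' : u ∉ D') : Tu G β a D D' x u h h' = 4 * a ^ 2 * cov G β D h x u ^ 2 := by
  unfold Tu
  simp only [hu, hu', and_false, not_true_eq_false, not_false_eq_true, and_self, if_true,
    if_false, add_zero, zero_add]

lemma Tu_right (a : ℝ) {D D' : Finset V} (x : V) {u : V} (h h' : V → ℝ) (hu : u ∉ D)
    (hu' : u ∈ D') : Tu G β a D D' x u h h' = 4 * a ^ 2 * cov G β D' h' x u ^ 2 := by
  unfold Tu
  simp only [hu, hu', false_and, not_true_eq_false, not_false_eq_true, and_self,
    if_true, if_false, add_zero, zero_add]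

lemma Tu_nonneg (a : ℝ) (D D' : Finset V) (x u : V) (h h' : V → ℝ) :
    0 ≤ Tu G β a D D' x u h h' := by
  unfold Tu
  have h1 : (0 : ℝ) ≤ if u ∈ D ∧ u ∈ D' then 8 * a ^ 2 * (cov G β D h x u - cov G β D' h' x u) ^ 2 +
    128 * a ^ 4 * cov G β D' h' x u ^ 2 * (mag G β D h u - mag G β D' h' u) ^ 2 else 0 := by
    split_ifs <;> positivity
  have h2 : (0 : ℝ) ≤ if u ∈ D ∧ u ∉ D' then 4 * a ^ 2 * cov G β D h x u ^ 2 else 0 := by
    split_ifs <;> positivity
  have h3 : (0 : ℝ) ≤ if u ∉ D ∧ u ∈ D' then 4 * a ^ 2 * cov G β D' h' x u ^ 2 else 0 := by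
    split_ifs <;> positivity
  linarith

lemma abs_cov_le_two (D : Finset V) (h : V → ℝ) (x u : V) : |cov G β D h x u| ≤ 2 := by
  unfold cov
  have h1 : |gx G β D h (fun S => sp S x * sp S u)| ≤ 1 := by
    apply abs_gx_le
    intro S _
    rw [abs_mul, abs_sp, abs_sp, one_mul]
  have h2 := abs_mag_le (G := G) (β := β) (D := D) (h := h) x
  have h3 := abs_mag_le (G := G) (β := β) (D := D) (h := h) u
  have h4 : |mag G β D h x * mag G β D h u| ≤ 1 := by
    rw [abs_mul]
    calc |mag G β D h x| * |mag G β D h u| ≤ 1 * 1 := by gcongr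
      _ = 1 := one_mul 1
  calc _ ≤ |gx G β D h (fun S => sp S x * sp S u)| + |mag G β D h x * mag G β D h u| := abs_sub _ _
    _ ≤ 2 := by linarith

lemma Tu_le {a : ℝ} (ha0 : 0 ≤ a) (ha : a ≤ 1 / 2) (D D' : Finset V) (x u : V) (h h' : V → ℝ) :
    Tu G β a D D' x u h h' ≤ 168 := by
  have c1 := abs_le.mp (abs_cov_le_two (G := G) (β := β) D h x u)
  have c2 := abs_le.mp (abs_cov_le_two (G := G) (β := β) D' h' x u)
  have m1 := abs_le.mp (abs_mag_le (G := G) (β := β) (D := D) (h := h) u)
  have m2 := abs_le.mp (abs_mag_le (G := G) (β := β) (D := D') (h := h') u)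
  have s1 : (cov G β D h x u - cov G β D' h' x u) ^ 2 ≤ 16 := by nlinarith
  have s2 : cov G β D h x u ^ 2 ≤ 4 := by nlinarith
  have s3 : cov G β D' h' x u ^ 2 ≤ 4 := by nlinarith
  have s4 : (mag G β D h u - mag G β D' h' u) ^ 2 ≤ 4 := by nlinarith
  have a2 : a ^ 2 ≤ 1 / 4 := by nlinarith
  have a4 : a ^ 4 ≤ 1 / 16 := by
    have : a ^ 4 = a ^ 2 * a ^ 2 := by ring
    rw [this]; nlinarith [sq_nonneg a]
  have t1 : 8 * a ^ 2 * (cov G β D h x u - cov G β D' h' x u) ^ 2 ≤ 32 := by
    calc _ ≤ 8 * (1 / 4 : ℝ) * 16 := by gcongr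
      _ = 32 := by norm_num
  have t2 : 128 * a ^ 4 * cov G β D' h' x u ^ 2 * (mag G β D h u - mag G β D' h' u) ^ 2 ≤ 128 := by
    calc _ ≤ 128 * (1 / 16 : ℝ) * 4 * 4 := by gcongr
      _ = 128 := by norm_num
  have t3 : 4 * a ^ 2 * cov G β D h x u ^ 2 ≤ 4 := by
    calc _ ≤ 4 * (1 / 4 : ℝ) * 4 := by gcongr
      _ = 4 := by norm_num
  have t4 : 4 * a ^ 2 * cov G β D' h' x u ^ 2 ≤ 4 := by
    calc _ ≤ 4 * (1 / 4 : ℝ) * 4 := by gcongr
      _ = 4 := by norm_num
  unfold Tu
  split_ifs <;> linarith

lemma measurable_Tu (a : ℝ) (D D' : Finset V) (x u : V) :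
    Measurable fun p : (V → ℝ) × (V → ℝ) => Tu G β a D D' x u p.1 p.2 := by
  have c1 : Measurable fun p : (V → ℝ) × (V → ℝ) => cov G β D p.1 x u :=
    (measurable_cov β D x u).comp measurable_fst
  have c2 : Measurable fun p : (V → ℝ) × (V → ℝ) => cov G β D' p.2 x u :=
    (measurable_cov β D' x u).comp measurable_snd
  have m1 : Measurable fun p : (V → ℝ) × (V → ℝ) => mag G β D p.1 u :=
    (measurable_mag β D u).comp measurable_fst
  have m2 : Measurable fun p : (V → ℝ) × (V → ℝ) => mag G β D' p.2 u :=
    (measurable_mag β D' u).comp measurable_snd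
  unfold Tu
  refine (Measurable.add ?_ ?_).add ?_
  · split_ifs
    · exact (((c1.sub c2).pow_const 2).const_mul _).add
        (((c2.pow_const 2).const_mul _).mul ((m1.sub m2).pow_const 2))
    · exact measurable_const
  · split_ifs
    · exact (c1.pow_const 2).const_mul _
    · exact measurable_const
  · split_ifs
    · exact (c2.pow_const 2).const_mul _
    · exact measurable_const

/-- One update at `u`, in both volumes, with the same noise. -/
lemma step_le {a : ℝ} (ha0 : 0 ≤ a) (ha : a ≤ 1 / 2) (D D' : Finset V) (x u : V)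
    (h h' : V → ℝ) :
    ∫ r in (0 : ℝ)..1, (mag G β D (stepF G β a D u r h) x -
        mag G β D' (stepF G β a D' u r h') x) ^ 2 ≤
      (mag G β D h x - mag G β D' h' x) ^ 2 + Tu G β a D D' x u h h' := by
  by_cases hu : u ∈ D
  · by_cases hu' : u ∈ D'
    · have h1 := two_step (G := G) (β := β) (h := h) (h' := h') ha0 ha x u hu hu'
      rw [Tu_both a x h h' hu hu']
      linarith
    · have h1 := qinc_le (G := G) (β := β) (D := D) (h := h) ha0 ha x u
      have h2 := integral_mag_step_sub_sq (G := G) (β := β) (D := D) (h := h) ha0 ha x u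
        (mag G β D' h' x)
      rw [Tu_left a x h h' hu hu']
      simp only [stepF_of_notMem hu']
      linarith
  · by_cases hu' : u ∈ D'
    · have h1 := qinc_le (G := G) (β := β) (D := D') (h := h') ha0 ha x u
      have h2 := integral_mag_step_sub_sq (G := G) (β := β) (D := D') (h := h') ha0 ha x u
        (mag G β D h x)
      rw [Tu_right a x h h' hu hu']
      simp only [stepF_of_notMem hu]
      have e : ∀ r : ℝ, (mag G β D h x - mag G β D' (stepF G β a D' u r h') x) ^ 2 =
          (mag G β D' (stepF G β a D' u r h') x - mag G β D h x) ^ 2 := fun r => by ring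
      simp only [e]
      have e2 : (mag G β D' h' x - mag G β D h x) ^ 2 = (mag G β D h x - mag G β D' h' x) ^ 2 := by
        ring
      linarith
    · simp only [stepF_of_notMem hu, stepF_of_notMem hu']
      have := Tu_nonneg (G := G) (β := β) a D D' x u h h'
      simp only [intervalIntegral.integral_const, sub_zero, one_smul]
      linarith

lemma integrable_Tu {a : ℝ} (ha0 : 0 ≤ a) (ha : a ≤ 1 / 2) (D D' : Finset V) (x u : V)
    {Ω : Type*} [MeasurableSpace Ω] {P : Measure Ω} [IsProbabilityMeasure P]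
    {Y Y' : Ω → V → ℝ} (hY : Measurable Y) (hY' : Measurable Y') :
    Integrable (fun ω => Tu G β a D D' x u (Y ω) (Y' ω)) P := by
  have h1 := (measurable_Tu (G := G) (β := β) a D D' x u).comp (hY.prodMk hY')
  apply integrable_of_meas_bdd (c := 168)
  · exact h1
  · intro ω
    rw [abs_of_nonneg (Tu_nonneg _ _ _ _ _ _ _)]
    exact Tu_le ha0 ha _ _ _ _ _ _

lemma integrable_mag_sub (D D' : Finset V) (x : V)
    {Ω : Type*} [MeasurableSpace Ω] {P : Measure Ω} [IsProbabilityMeasure P]
    {Y Y' : Ω → V → ℝ} (hY : Measurable Y) (hY' : Measurable Y') :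
    Integrable (fun ω => (mag G β D (Y ω) x - mag G β D' (Y' ω) x) ^ 2) P := by
  apply integrable_of_meas_bdd (c := 4)
  · exact (((measurable_mag β D x).comp hY).sub ((measurable_mag β D' x).comp hY')).pow_const 2
  · intro ω
    exact mag_sub_sq_le x

/-- One update in mean. -/
lemma integral_step_le {a : ℝ} (ha0 : 0 ≤ a) (ha : a ≤ 1 / 2) (D D' : Finset V) (x u : V)
    {Y Y' : (V × ℕ → unitInterval) → V → ℝ} (hY : Measurable Y) (hY' : Measurable Y') {k : ℕ}
    (hdep : ∀ ω r, Y (Function.update ω (u, 2 * k + 1) r) = Y ω)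
    (hdep' : ∀ ω r, Y' (Function.update ω (u, 2 * k + 1) r) = Y' ω) :
    ∫ ω, (mag G β D (stepF G β a D u (noise k ω u) (Y ω)) x -
        mag G β D' (stepF G β a D' u (noise k ω u) (Y' ω)) x) ^ 2 ∂iidLaw (V × ℕ) ≤
      ∫ ω, (mag G β D (Y ω) x - mag G β D' (Y' ω) x) ^ 2 ∂iidLaw (V × ℕ) +
        ∫ ω, Tu G β a D D' x u (Y ω) (Y' ω) ∂iidLaw (V × ℕ) := by
  have key := integral_resam (ι := V × ℕ) (u, 2 * k + 1) (hY.prodMk hY')
    (fun ω r => by rw [hdep ω r, hdep' ω r])
    (measurable_stepDiff (G := G) (β := β) (a := a) (D := D) (D' := D') u x) (c := 4)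
    (fun e r => mag_sub_sq_le x)
  have e1 : ∫ ω, (mag G β D (stepF G β a D u (noise k ω u) (Y ω)) x -
        mag G β D' (stepF G β a D' u (noise k ω u) (Y' ω)) x) ^ 2 ∂iidLaw (V × ℕ) =
      ∫ ω, stepDiff G β a D D' u x (Y ω, Y' ω) (ω (u, 2 * k + 1)) ∂iidLaw (V × ℕ) := rfl
  rw [e1, key, ← integral_add (integrable_mag_sub D D' x hY hY')
    (integrable_Tu ha0 ha D D' x u hY hY')]
  apply integral_mono_of_nonneg
  · exact Filter.Eventually.of_forall fun ω => integral_nonneg fun r => sq_nonneg _
  · exact (integrable_mag_sub D D' x hY hY').add (integrable_Tu ha0 ha D D' x u hY hY')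
  · apply Filter.Eventually.of_forall
    intro ω
    have e2 : ∫ r : unitInterval, stepDiff G β a D D' u x (Y ω, Y' ω) r =
        ∫ r in (0 : ℝ)..1, (mag G β D (stepF G β a D u r (Y ω)) x -
          mag G β D' (stepF G β a D' u r (Y' ω)) x) ^ 2 :=
      integral_unitInterval (fun r => (mag G β D (stepF G β a D u r (Y ω)) x -
          mag G β D' (stepF G β a D' u r (Y' ω)) x) ^ 2)
    simp only [e2]
    exact step_le ha0 ha D D' x u (Y ω) (Y' ω)

/-- Updates along a sorted list. -/
lemma run_sum_le {a : ℝ} (ha0 : 0 ≤ a) (ha : a ≤ 1 / 2) (D D' : Finset V) (x : V)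
    {X X' : (V × ℕ → unitInterval) → V → ℝ} (hX : Measurable X) (hX' : Measurable X') {k : ℕ}
    (hdep : ∀ u ω r, X (Function.update ω (u, 2 * k + 1) r) = X ω)
    (hdep' : ∀ u ω r, X' (Function.update ω (u, 2 * k + 1) r) = X' ω)
    (lab : V → ℝ) (l₁ : ℝ) (L : List V) (hnd : L.Nodup)
    (hs : L.Pairwise (fun x y => lab x < lab y)) :
    ∫ ω, (mag G β D (run G β a D L (noise k ω) (X ω)) x -
        mag G β D' (run G β a D' L (noise k ω) (X' ω)) x) ^ 2 ∂iidLaw (V × ℕ) ≤
      ∫ ω, (mag G β D (run G β a D (L.filter (fun v => lab v < l₁)) (noise k ω) (X ω)) x -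
        mag G β D' (run G β a D' (L.filter (fun v => lab v < l₁)) (noise k ω) (X' ω)) x) ^ 2
          ∂iidLaw (V × ℕ) +
      ∑ u ∈ L.toFinset, if l₁ ≤ lab u then
        ∫ ω, Tu G β a D D' x u
          (run G β a D (L.filter (fun v => lab v < lab u)) (noise k ω) (X ω))
          (run G β a D' (L.filter (fun v => lab v < lab u)) (noise k ω) (X' ω))
          ∂iidLaw (V × ℕ) else 0 := by
  induction L using List.reverseRecOn with
  | nil => simp
  | append_singleton L u ih =>
    have hnd' := List.nodup_append.mp hnd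
    have huL : u ∉ L := by
      intro hmem
      exact hnd'.2.2 u hmem u (by simp) rfl
    have hs' := List.pairwise_append.mp hs
    have hlt : ∀ w ∈ L, lab w < lab u := fun w hw => hs'.2.2 w hw u (by simp)
    have ih' := ih hnd'.1 hs'.1
    simp only [run_append]
    have h1 := integral_step_le (G := G) (β := β) ha0 ha D D' x u
      (measurable_run_comp (G := G) (β := β) (a := a) (k := k) L D hX)
      (measurable_run_comp (G := G) (β := β) (a := a) (k := k) L D' hX') (k := k)
      (run_dep huL D (hdep u)) (run_dep huL D' (hdep' u))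
    have efin : (L ++ [u]).toFinset = insert u L.toFinset := by
      ext y; simp only [List.toFinset_append, mem_union, List.mem_toFinset, List.mem_singleton,
        mem_insert]; tauto
    rw [efin, Finset.sum_insert (by rw [List.mem_toFinset]; exact huL)]
    have hfu : (L ++ [u]).filter (fun v => lab v < lab u) = L := by
      rw [List.filter_append]
      have : L.filter (fun v => decide (lab v < lab u)) = L := by
        rw [List.filter_eq_self]
        intro w hw
        simpa using hlt w hw
      rw [this]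
      simp
    have hfw : ∀ w ∈ L.toFinset, (L ++ [u]).filter (fun v => lab v < lab w) =
        L.filter (fun v => lab v < lab w) := by
      intro w hw
      rw [List.mem_toFinset] at hw
      have := hlt w hw
      rw [List.filter_append]
      simp [not_lt.mpr this.le]
    have esum : ∑ w ∈ L.toFinset, (if l₁ ≤ lab w then
        ∫ ω, Tu G β a D D' x w
          (run G β a D ((L ++ [u]).filter (fun v => lab v < lab w)) (noise k ω) (X ω))
          (run G β a D' ((L ++ [u]).filter (fun v => lab v < lab w)) (noise k ω) (X' ω))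
          ∂iidLaw (V × ℕ) else 0) =
        ∑ w ∈ L.toFinset, (if l₁ ≤ lab w then
        ∫ ω, Tu G β a D D' x w
          (run G β a D (L.filter (fun v => lab v < lab w)) (noise k ω) (X ω))
          (run G β a D' (L.filter (fun v => lab v < lab w)) (noise k ω) (X' ω))
          ∂iidLaw (V × ℕ) else 0) := by
      apply Finset.sum_congr rfl
      intro w hw
      rw [hfw w hw]
    rw [esum, hfu]
    by_cases hl : l₁ ≤ lab u
    · rw [if_pos hl]
      have hf1 : (L ++ [u]).filter (fun v => lab v < l₁) = L.filter (fun v => lab v < l₁) := by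
        rw [List.filter_append]
        simp [not_lt.mpr hl]
      rw [hf1]
      linarith
    · rw [if_neg hl]
      push Not at hl
      have hf1 : (L ++ [u]).filter (fun v => lab v < l₁) = L ++ [u] := by
        rw [List.filter_eq_self]
        intro w hw
        rw [List.mem_append, List.mem_singleton] at hw
        rcases hw with hw | hw
        · simpa using (hlt w hw).trans hl
        · subst hw; simpa using hl
      rw [hf1]
      simp only [run_append]
      have hnn : 0 ≤ ∑ w ∈ L.toFinset, (if l₁ ≤ lab w then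
        ∫ ω, Tu G β a D D' x w
          (run G β a D (L.filter (fun v => lab v < lab w)) (noise k ω) (X ω))
          (run G β a D' (L.filter (fun v => lab v < lab w)) (noise k ω) (X' ω))
          ∂iidLaw (V × ℕ) else 0) := by
        apply Finset.sum_nonneg
        intro w _
        split_ifs
        · exact integral_nonneg fun ω => Tu_nonneg _ _ _ _ _ _ _
        · exact le_rfl
      linarith

/-- The state at label time `l`, for all labels of round `j` at most `l` the same. -/
lemma sj_update_label (β : ℝ) (D : Finset V) (n : ℕ) (j : ℤ) (l : ℝ)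
    (ω : V × ℕ → unitInterval) (u : V) {r r' : unitInterval} (hr : l ≤ r) (hr' : l ≤ r') :
    sj G β D n j l (Function.update ω (u, 2 * eZ j) r) =
      sj G β D n j l (Function.update ω (u, 2 * eZ j) r') := by
  unfold sj
  rw [st_update β D n _ eZ_ne ω u (Nat.mul_div_cancel_left _ (by norm_num)) r,
    st_update β D n _ eZ_ne ω u (Nat.mul_div_cancel_left _ (by norm_num)) r',
    noise_update_label, noise_update_label]
  apply rnd_congr_lab
  intro v hv
  unfold label at *
  by_cases hvu : v = u
  · subst hvu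
    simp only [Function.update_self] at hv ⊢
    exfalso
    rcases hv with h | h
    · exact absurd h (not_lt.mpr hr)
    · exact absurd h (not_lt.mpr hr')
  · have hne : ((v, 2 * eZ j) : V × ℕ) ≠ (u, 2 * eZ j) := fun h => hvu (Prod.mk.inj h).1
    rw [Function.update_of_ne hne, Function.update_of_ne hne]

/-- The state at label time `l` without the vertex `u`. -/
noncomputable def su (G : SimpleGraph V) [DecidableRel G.Adj] (β : ℝ) (D : Finset V) (n : ℕ)
    (j : ℤ) (u : V) (l : ℝ) (ω : V × ℕ → unitInterval) : V → ℝ :=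
  sj G β D n j l (Function.update ω (u, 2 * eZ j) 1)

omit [DecidableEq V] in
lemma measurable_update_one [DecidableEq V] (i : V × ℕ) (r : unitInterval) :
    Measurable fun ω : V × ℕ → unitInterval => Function.update ω i r := by
  rw [measurable_pi_iff]
  intro i'
  by_cases h : i' = i
  · subst h; simp only [Function.update_self]; exact measurable_const
  · simp only [Function.update_of_ne h]; exact measurable_pi_apply i'

lemma measurable_su (β : ℝ) (D : Finset V) (n : ℕ) (j : ℤ) (u : V) :
    Measurable fun z : ℝ × (V × ℕ → unitInterval) => su G β D n j u z.1 z.2 := by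
  have h1 : Measurable fun z : ℝ × (V × ℕ → unitInterval) =>
      (z.1, Function.update z.2 (u, 2 * eZ j) (1 : unitInterval)) :=
    measurable_fst.prodMk ((measurable_update_one _ _).comp measurable_snd)
  have h2 := (measurable_sj_uncurry (G := G) β D n j).comp h1
  exact h2

/-- Mean contribution of the vertex `u` at label time `r`, its own label being ignored. -/
noncomputable def yu (G : SimpleGraph V) [DecidableRel G.Adj] (β a : ℝ) (D D' : Finset V)
    (n n' : ℕ) (x u : V) (j : ℤ) (r : ℝ) : ℝ :=
  ∫ ω, Tu G β a D D' x u (su G β D n j u r ω) (su G β D' n' j u r ω) ∂iidLaw (V × ℕ)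

lemma measurable_Tu_su (a : ℝ) (D D' : Finset V) (n n' : ℕ) (x u : V) (j : ℤ) :
    Measurable fun z : ℝ × (V × ℕ → unitInterval) =>
      Tu G β a D D' x u (su G β D n j u z.1 z.2) (su G β D' n' j u z.1 z.2) := by
  have h1 := (measurable_su (G := G) β D n j u).prodMk (measurable_su (G := G) β D' n' j u)
  have h2 := (measurable_Tu (G := G) (β := β) a D D' x u).comp h1
  exact h2

lemma measurable_yu (a : ℝ) (D D' : Finset V) (n n' : ℕ) (x u : V) (j : ℤ) :
    Measurable (yu G β a D D' n n' x u j) := by
  have h1 := (measurable_Tu_su (G := G) (β := β) a D D' n n' x u j).stronglyMeasurable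
  have h2 := (h1.integral_prod_right' (ν := iidLaw (V × ℕ))).measurable
  exact h2

lemma yu_nonneg (a : ℝ) (D D' : Finset V) (n n' : ℕ) (x u : V) (j : ℤ) (r : ℝ) :
    0 ≤ yu G β a D D' n n' x u j r :=
  integral_nonneg fun _ => Tu_nonneg _ _ _ _ _ _ _

lemma yu_le {a : ℝ} (ha0 : 0 ≤ a) (ha : a ≤ 1 / 2) (D D' : Finset V) (n n' : ℕ) (x u : V)
    (j : ℤ) (r : ℝ) : yu G β a D D' n n' x u j r ≤ 168 := by
  have h1 : ∀ ω : V × ℕ → unitInterval,
      ‖Tu G β a D D' x u (su G β D n j u r ω) (su G β D' n' j u r ω)‖ ≤ 168 := by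
    intro ω
    rw [Real.norm_eq_abs, abs_of_nonneg (Tu_nonneg _ _ _ _ _ _ _)]
    exact Tu_le ha0 ha _ _ _ _ _ _
  have h2 := norm_integral_le_of_norm_le_const (μ := iidLaw (V × ℕ))
    (Filter.Eventually.of_forall h1)
  rw [measureReal_def, measure_univ, ENNReal.toReal_one, mul_one] at h2
  exact (Real.le_norm_self _).trans h2

/-- Averaging over the label of `u`. -/
lemma contrib_eq {a : ℝ} (ha0 : 0 ≤ a) (ha : a ≤ 1 / 2) (D D' : Finset V) (n n' : ℕ) (x u : V)
    (j : ℤ) {l₁ l₂ : ℝ} (h0 : 0 ≤ l₁) (h12 : l₁ ≤ l₂) (h2 : l₂ ≤ 1 / 2) :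
    ∫ ω, (if l₁ ≤ label (eZ j) ω u ∧ label (eZ j) ω u < l₂ then
      Tu G β a D D' x u (sj G β D n j (label (eZ j) ω u) ω)
        (sj G β D' n' j (label (eZ j) ω u) ω) else 0) ∂iidLaw (V × ℕ) =
    ∫ r in l₁..l₂, yu G β a D D' n n' x u j r := by
  set P := iidLaw (V × ℕ) with hP
  set f : (V × ℕ → unitInterval) → ℝ := fun ω =>
    (if l₁ ≤ label (eZ j) ω u ∧ label (eZ j) ω u < l₂ then
      Tu G β a D D' x u (sj G β D n j (label (eZ j) ω u) ω)
        (sj G β D' n' j (label (eZ j) ω u) ω) else 0) with hf
  have hlab : Measurable fun ω : V × ℕ → unitInterval => label (eZ j) ω u :=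
    (measurable_pi_apply u).comp (measurable_label (eZ j))
  have hT : Measurable fun ω : V × ℕ → unitInterval =>
      Tu G β a D D' x u (sj G β D n j (label (eZ j) ω u) ω)
        (sj G β D' n' j (label (eZ j) ω u) ω) := by
    have h1 := (measurable_sj_uncurry (G := G) β D n j).comp (hlab.prodMk measurable_id)
    have h2 := (measurable_sj_uncurry (G := G) β D' n' j).comp (hlab.prodMk measurable_id)
    have h3 := (measurable_Tu (G := G) (β := β) a D D' x u).comp (h1.prodMk h2)
    exact h3
  have hfm : Measurable f := by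
    apply Measurable.ite _ hT measurable_const
    exact (measurableSet_le measurable_const hlab).inter (measurableSet_lt hlab measurable_const)
  set g : (V × ℕ → unitInterval) × unitInterval → ℝ := fun p =>
    if l₁ ≤ (p.2 : ℝ) ∧ (p.2 : ℝ) < l₂ then
      Tu G β a D D' x u (su G β D n j u p.2 p.1) (su G β D' n' j u p.2 p.1) else 0 with hg
  have hfg : ∀ p, f (resam (u, 2 * eZ j) p) = g p := by
    rintro ⟨ω, r⟩
    have hl : label (eZ j) (resam (u, 2 * eZ j) (ω, r)) u = r := by
      unfold label resam
      rw [Function.update_self]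
    have e1 : sj G β D n j r (resam (u, 2 * eZ j) (ω, r)) = su G β D n j u r ω :=
      sj_update_label β D n j r ω u le_rfl (by rw [Set.Icc.coe_one]; exact r.2.2)
    have e2 : sj G β D' n' j r (resam (u, 2 * eZ j) (ω, r)) = su G β D' n' j u r ω :=
      sj_update_label β D' n' j r ω u le_rfl (by rw [Set.Icc.coe_one]; exact r.2.2)
    rw [hf, hg]
    simp only [hl, e1, e2]
  have hgm : Measurable g := by
    have h2 : Measurable fun p : (V × ℕ → unitInterval) × unitInterval => (p.2 : ℝ) :=
      measurable_subtype_coe.comp measurable_snd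
    have h3 := (measurable_Tu_su (G := G) (β := β) a D D' n n' x u j).comp
      (h2.prodMk measurable_fst)
    apply Measurable.ite _ h3 measurable_const
    exact (measurableSet_le measurable_const h2).inter (measurableSet_lt h2 measurable_const)
  have hgi : Integrable g (P.prod volume) := by
    apply integrable_of_meas_bdd hgm (c := 168)
    intro p
    rw [hg]
    simp only
    split_ifs
    · rw [abs_of_nonneg (Tu_nonneg _ _ _ _ _ _ _)]
      exact Tu_le ha0 ha _ _ _ _ _ _
    · norm_num
  have key : ∫ ω, f ω ∂P = ∫ p, g p ∂(P.prod volume) := by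
    conv_lhs => rw [hP, ← (measurePreserving_resam (u, 2 * eZ j)).map_eq]
    rw [integral_map (measurable_resam _).aemeasurable hfm.aestronglyMeasurable]
    exact integral_congr_ae (Filter.Eventually.of_forall hfg)
  rw [key, integral_prod_symm g hgi]
  have e3 : ∀ r : unitInterval, ∫ ω, g (ω, r) ∂P =
      (Set.Ico l₁ l₂).indicator (yu G β a D D' n n' x u j) (r : ℝ) := by
    intro r
    by_cases hr : l₁ ≤ (r : ℝ) ∧ (r : ℝ) < l₂
    · rw [Set.indicator_of_mem (Set.mem_Ico.mpr hr), hg]
      simp only [if_pos hr]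
      rfl
    · rw [Set.indicator_of_notMem (fun h => hr (Set.mem_Ico.mp h)), hg]
      simp only [if_neg hr]
      exact integral_zero _ _
  simp only [e3]
  have e4 : ∫ r : unitInterval, (Set.Ico l₁ l₂).indicator (yu G β a D D' n n' x u j) (r : ℝ) =
      ∫ r in Set.Icc (0 : ℝ) 1, (Set.Ico l₁ l₂).indicator (yu G β a D D' n n' x u j) r :=
    integral_subtype_comap measurableSet_Icc _
  rw [e4, setIntegral_indicator measurableSet_Ico]
  have e5 : Set.Icc (0 : ℝ) 1 ∩ Set.Ico l₁ l₂ = Set.Ico l₁ l₂ := by
    apply Set.inter_eq_self_of_subset_right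
    intro r hr
    exact ⟨h0.trans hr.1, by linarith [hr.2.le]⟩
  rw [e5, integral_Ico_eq_integral_Ioc, intervalIntegral.integral_of_le h12]

/-- Ignoring the label of `u` costs a factor `2`. -/
lemma yu_le_two {a : ℝ} (ha0 : 0 ≤ a) (ha : a ≤ 1 / 2) (D D' : Finset V) (n n' : ℕ) (x u : V)
    (j : ℤ) {r : ℝ} (h0 : 0 ≤ r) (h2 : r ≤ 1 / 2) :
    yu G β a D D' n n' x u j r ≤
      2 * ∫ ω, Tu G β a D D' x u (sj G β D n j r ω) (sj G β D' n' j r ω) ∂iidLaw (V × ℕ) := by
  set P := iidLaw (V × ℕ) with hP
  have hm1 := measurable_sj (G := G) β D n j r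
  have hm2 := measurable_sj (G := G) β D' n' j r
  set f : (V × ℕ → unitInterval) → ℝ := fun ω =>
    Tu G β a D D' x u (sj G β D n j r ω) (sj G β D' n' j r ω) with hf
  have hfm : Measurable f := by
    have h3 := (measurable_Tu (G := G) (β := β) a D D' x u).comp (hm1.prodMk hm2)
    exact h3
  have key : ∫ ω, f ω ∂P = ∫ p, f (resam (u, 2 * eZ j) p) ∂(P.prod volume) := by
    conv_lhs => rw [hP, ← (measurePreserving_resam (u, 2 * eZ j)).map_eq]
    rw [integral_map (measurable_resam _).aemeasurable hfm.aestronglyMeasurable]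
  set g : (V × ℕ → unitInterval) × unitInterval → ℝ := fun p =>
    if r ≤ (p.2 : ℝ) then
      Tu G β a D D' x u (su G β D n j u r p.1) (su G β D' n' j u r p.1) else 0 with hg
  have hgm : Measurable g := by
    have h2 : Measurable fun p : (V × ℕ → unitInterval) × unitInterval => (p.2 : ℝ) :=
      measurable_subtype_coe.comp measurable_snd
    have h4 : Measurable fun p : (V × ℕ → unitInterval) × unitInterval => (r, p.1) :=
      measurable_const.prodMk measurable_fst
    have h3 := (measurable_Tu_su (G := G) (β := β) a D D' n n' x u j).comp h4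
    apply Measurable.ite _ h3 measurable_const
    exact measurableSet_le measurable_const h2
  have hgi : Integrable g (P.prod volume) := by
    apply integrable_of_meas_bdd hgm (c := 168)
    intro p
    rw [hg]
    simp only
    split_ifs
    · rw [abs_of_nonneg (Tu_nonneg _ _ _ _ _ _ _)]
      exact Tu_le ha0 ha _ _ _ _ _ _
    · norm_num
  have hfi : Integrable (fun p => f (resam (u, 2 * eZ j) p)) (P.prod volume) := by
    apply integrable_of_meas_bdd (hfm.comp (measurable_resam _)) (c := 168)
    intro p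
    rw [hf]
    simp only [Function.comp]
    rw [abs_of_nonneg (Tu_nonneg _ _ _ _ _ _ _)]
    exact Tu_le ha0 ha _ _ _ _ _ _
  have hle : ∫ p, g p ∂(P.prod volume) ≤ ∫ p, f (resam (u, 2 * eZ j) p) ∂(P.prod volume) := by
    apply integral_mono hgi hfi
    rintro ⟨ω, s⟩
    rw [hg]
    simp only
    split_ifs with hs
    · have e1 : su G β D n j u r ω = sj G β D n j r (resam (u, 2 * eZ j) (ω, s)) :=
        sj_update_label β D n j r ω u (by rw [Set.Icc.coe_one]; linarith) hs
      have e2 : su G β D' n' j u r ω = sj G β D' n' j r (resam (u, 2 * eZ j) (ω, s)) :=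
        sj_update_label β D' n' j r ω u (by rw [Set.Icc.coe_one]; linarith) hs
      rw [e1, e2]
    · exact Tu_nonneg _ _ _ _ _ _ _
  have hgv : ∫ p, g p ∂(P.prod volume) = (1 - r) * yu G β a D D' n n' x u j r := by
    rw [integral_prod_symm g hgi]
    have e3 : ∀ s : unitInterval, ∫ ω, g (ω, s) ∂P =
        (Set.Ici r).indicator (fun _ => yu G β a D D' n n' x u j r) (s : ℝ) := by
      intro s
      by_cases hs : r ≤ (s : ℝ)
      · rw [Set.indicator_of_mem (Set.mem_Ici.mpr hs), hg]
        simp only [if_pos hs]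
        rfl
      · rw [Set.indicator_of_notMem (fun h => hs (Set.mem_Ici.mp h)), hg]
        simp only [if_neg hs]
        exact integral_zero _ _
    simp only [e3]
    have e4 : ∫ s : unitInterval,
        (Set.Ici r).indicator (fun _ => yu G β a D D' n n' x u j r) (s : ℝ) =
        ∫ s in Set.Icc (0 : ℝ) 1, (Set.Ici r).indicator (fun _ => yu G β a D D' n n' x u j r) s :=
      integral_subtype_comap measurableSet_Icc _
    rw [e4, setIntegral_indicator measurableSet_Ici]
    have e5 : Set.Icc (0 : ℝ) 1 ∩ Set.Ici r = Set.Icc r 1 := by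
      ext s
      simp only [Set.mem_inter_iff, Set.mem_Icc, Set.mem_Ici]
      constructor
      · rintro ⟨⟨_, h4⟩, h5⟩; exact ⟨h5, h4⟩
      · rintro ⟨h4, h5⟩; exact ⟨⟨h0.trans h4, h5⟩, h4⟩
    rw [e5, setIntegral_const, smul_eq_mul, measureReal_def, Real.volume_Icc,
      ENNReal.toReal_ofReal (by linarith)]
  have hy := yu_nonneg (G := G) (β := β) a D D' n n' x u j r
  have h3 : (1 - r) * yu G β a D D' n n' x u j r ≤ ∫ ω, f ω ∂P := by
    rw [key, ← hgv]; exact hle
  have h4 : 1 / 2 * yu G β a D D' n n' x u j r ≤ (1 - r) * yu G β a D D' n n' x u j r := by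
    apply mul_le_mul_of_nonneg_right _ hy
    linarith
  linarith

/-- Quenched labels: the inequality for fixed labels of the round. -/
lemma quenched_le [Countable V] (D D' : Finset V) (n n' : ℕ) (x : V) (j : ℤ) {l₁ l₂ : ℝ}
    (h12 : l₁ ≤ l₂) :
    dd G β D n D' n' x j l₂ ≤ dd G β D n D' n' x j l₁ +
      ∑ u ∈ D ∪ D', ∫ ω, (if l₁ ≤ label (eZ j) ω u ∧ label (eZ j) ω u < l₂ then
        Tu G β (str j) D D' x u (sj G β D n j (label (eZ j) ω u) ω)
          (sj G β D' n' j (label (eZ j) ω u) ω) else 0) ∂iidLaw (V × ℕ) := by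
  have ha0 : 0 ≤ str j := (str_pos j).le
  have ha : str j ≤ 1 / 2 := (str_le j).trans (by norm_num)
  set a := str j with hadef
  set P := iidLaw (V × ℕ) with hP
  set k := eZ j with hk
  have hlab : ∀ u, Measurable fun ω : V × ℕ → unitInterval => label k ω u := fun u =>
    (measurable_pi_apply u).comp (measurable_label k)
  set A : ℝ → (V × ℕ → unitInterval) → ℝ := fun l ω =>
    (mag G β D (sj G β D n j l ω) x - mag G β D' (sj G β D' n' j l ω) x) ^ 2 with hA
  set f : V → (V × ℕ → unitInterval) → ℝ := fun u ω =>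
    (if l₁ ≤ label k ω u ∧ label k ω u < l₂ then
      Tu G β a D D' x u (sj G β D n j (label k ω u) ω)
        (sj G β D' n' j (label k ω u) ω) else 0) with hf
  have hfm : ∀ u, Measurable (f u) := by
    intro u
    have h1 := (measurable_sj_uncurry (G := G) β D n j).comp ((hlab u).prodMk measurable_id)
    have h2 := (measurable_sj_uncurry (G := G) β D' n' j).comp ((hlab u).prodMk measurable_id)
    have h3 := (measurable_Tu (G := G) (β := β) a D D' x u).comp (h1.prodMk h2)
    apply Measurable.ite _ h3 measurable_const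
    exact (measurableSet_le measurable_const (hlab u)).inter
      (measurableSet_lt (hlab u) measurable_const)
  have hfb : ∀ u ω, |f u ω| ≤ 168 := by
    intro u ω
    rw [hf]
    simp only
    split_ifs
    · rw [abs_of_nonneg (Tu_nonneg _ _ _ _ _ _ _)]
      exact Tu_le ha0 ha _ _ _ _ _ _
    · norm_num
  have hAm : ∀ l, Measurable (A l) := by
    intro l
    have h1 := (measurable_mag (G := G) β D x).comp (measurable_sj (G := G) β D n j l)
    have h2 := (measurable_mag (G := G) β D' x).comp (measurable_sj (G := G) β D' n' j l)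
    exact (h1.sub h2).pow_const 2
  have hAb : ∀ l ω, |A l ω| ≤ 4 := fun l ω => mag_sub_sq_le x
  -- the difference has nonpositive mean
  have key : ∫ ω, (A l₂ ω - A l₁ ω - ∑ u ∈ D ∪ D', f u ω) ∂P ≤ 0 := by
    apply integral_le_of_merge (lab1 V k) (c := 8 + (D ∪ D').card * 168)
    · exact ((hAm l₂).sub (hAm l₁)).sub (Finset.measurable_sum _ fun u _ => hfm u)
    · intro ω
      have b1 := abs_le.mp (hAb l₂ ω)
      have b2 := abs_le.mp (hAb l₁ ω)
      have b3 : |∑ u ∈ D ∪ D', f u ω| ≤ (D ∪ D').card * 168 := by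
        calc |∑ u ∈ D ∪ D', f u ω| ≤ ∑ u ∈ D ∪ D', |f u ω| := Finset.abs_sum_le_sum_abs _ _
          _ ≤ ∑ u ∈ D ∪ D', (168 : ℝ) := Finset.sum_le_sum fun u _ => hfb u ω
          _ = _ := by simp
      have b4 := abs_le.mp b3
      rw [abs_le]
      constructor <;> linarith [b1.1, b1.2, b2.1, b2.2, b4.1, b4.2]
    · filter_upwards [ae_injective (V := V)] with ω hω
      set lab := label k ω with hlabdef
      obtain ⟨L, hL1, hL2, hL3⟩ := exists_sorted lab (D ∪ D') (hω k).injOn
      set X : (V × ℕ → unitInterval) → V → ℝ := st G β D n (j + n).toNat with hX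
      set X' : (V × ℕ → unitInterval) → V → ℝ := st G β D' n' (j + n').toNat with hX'
      have hXm : Measurable X := measurable_st β D n _
      have hXm' : Measurable X' := measurable_st β D' n' _
      have e1 : ∀ l ω', sj G β D n j l (merge (lab1 V k) (ω, ω')) =
          run G β a D (L.filter (fun v => lab v < l)) (noise k ω') (X ω') := by
        intro l ω'
        unfold sj
        rw [st_merge1 β D n _ eZ_ne, label_merge1, noise_merge1]
        exact rnd_eq_run β a subset_union_left l _ _ hL1 hL2 hL3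
      have e2 : ∀ l ω', sj G β D' n' j l (merge (lab1 V k) (ω, ω')) =
          run G β a D' (L.filter (fun v => lab v < l)) (noise k ω') (X' ω') := by
        intro l ω'
        unfold sj
        rw [st_merge1 β D' n' _ eZ_ne, label_merge1, noise_merge1]
        exact rnd_eq_run β a subset_union_right l _ _ hL1 hL2 hL3
      have hr := run_sum_le (G := G) (β := β) ha0 ha D D' x hXm hXm' (k := k)
        (fun u ω r => st_update β D n _ eZ_ne ω u (by omega) r)
        (fun u ω r => st_update β D' n' _ eZ_ne ω u (by omega) r) lab l₁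
        (L.filter (fun v => lab v < l₂)) (hL1.filter _) (hL3.filter _)
      have hff : ∀ l ≤ l₂, (L.filter (fun v => lab v < l₂)).filter (fun v => lab v < l) =
          L.filter (fun v => lab v < l) := by
        intro l hl
        rw [List.filter_filter]
        apply List.filter_congr
        intro v _
        by_cases hv : lab v < l
        · simp [hv, lt_of_lt_of_le hv hl]
        · simp [hv]
      rw [hff l₁ h12] at hr
      have i1 : ∀ l, Integrable (fun ω' => A l (merge (lab1 V k) (ω, ω'))) P := by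
        intro l
        apply integrable_of_meas_bdd _ (fun ω' => hAb l _)
        exact (hAm l).comp ((measurable_merge _).comp (measurable_const.prodMk measurable_id))
      have i2 : ∀ u, Integrable (fun ω' => f u (merge (lab1 V k) (ω, ω'))) P := by
        intro u
        apply integrable_of_meas_bdd _ (fun ω' => hfb u _)
        exact (hfm u).comp ((measurable_merge _).comp (measurable_const.prodMk measurable_id))
      have i3 : Integrable (fun ω' => A l₂ (merge (lab1 V k) (ω, ω')) -
          A l₁ (merge (lab1 V k) (ω, ω'))) P := (i1 l₂).sub (i1 l₁)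
      have i4 : Integrable (fun ω' => ∑ u ∈ D ∪ D', f u (merge (lab1 V k) (ω, ω'))) P :=
        integrable_finsetSum _ fun u _ => i2 u
      rw [← hP]
      rw [← hP] at hr
      rw [integral_sub i3 i4, integral_sub (i1 l₂) (i1 l₁), integral_finsetSum _ fun u _ => i2 u]
      have e3 : ∀ l, ∫ ω', A l (merge (lab1 V k) (ω, ω')) ∂P =
          ∫ ω', (mag G β D (run G β a D (L.filter (fun v => lab v < l)) (noise k ω') (X ω')) x -
            mag G β D' (run G β a D' (L.filter (fun v => lab v < l)) (noise k ω') (X' ω')) x) ^ 2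
            ∂P := by
        intro l
        apply integral_congr_ae
        apply Filter.Eventually.of_forall
        intro ω'
        simp only [hA, e1, e2]
      have e4 : ∑ u ∈ (L.filter (fun v => lab v < l₂)).toFinset, (if l₁ ≤ lab u then
          ∫ ω', Tu G β a D D' x u
            (run G β a D ((L.filter (fun v => lab v < l₂)).filter (fun v => lab v < lab u))
              (noise k ω') (X ω'))
            (run G β a D' ((L.filter (fun v => lab v < l₂)).filter (fun v => lab v < lab u))
              (noise k ω') (X' ω')) ∂P else 0) =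
          ∑ u ∈ D ∪ D', ∫ ω', f u (merge (lab1 V k) (ω, ω')) ∂P := by
        have e5 : (L.filter (fun v => lab v < l₂)).toFinset =
            (D ∪ D').filter (fun v => lab v < l₂) := by
          ext v
          rw [List.mem_toFinset, List.mem_filter, Finset.mem_filter, ← hL2, List.mem_toFinset]
          simp
        rw [e5, Finset.sum_filter]
        apply Finset.sum_congr rfl
        intro u _
        by_cases hu2 : lab u < l₂
        · rw [if_pos hu2, hff _ hu2.le]
          by_cases hu1 : l₁ ≤ lab u
          · rw [if_pos hu1]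
            apply integral_congr_ae
            apply Filter.Eventually.of_forall
            intro ω'
            simp only [hf, label_merge1]
            rw [if_pos ⟨hu1, hu2⟩, e1, e2]
          · rw [if_neg hu1]
            have : ∀ ω', f u (merge (lab1 V k) (ω, ω')) = 0 := by
              intro ω'
              simp only [hf, label_merge1]
              rw [if_neg (fun h => hu1 h.1)]
            simp only [this]
            exact (integral_zero _ _).symm
        · rw [if_neg hu2]
          have : ∀ ω', f u (merge (lab1 V k) (ω, ω')) = 0 := by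
            intro ω'
            simp only [hf, label_merge1]
            rw [if_neg (fun h => hu2 h.2)]
          simp only [this]
          exact (integral_zero _ _).symm
      rw [e3, e3, ← e4]
      linarith
  rw [integral_sub, integral_sub, integral_finsetSum] at key
  · have d1 : ∀ l, dd G β D n D' n' x j l = ∫ ω, A l ω ∂P := fun l => rfl
    rw [d1, d1]
    linarith
  · exact fun u _ => integrable_of_meas_bdd (hfm u) (hfb u)
  · exact integrable_of_meas_bdd (hAm l₂) (hAb l₂)
  · exact integrable_of_meas_bdd (hAm l₁) (hAb l₁)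
  · exact (integrable_of_meas_bdd (hAm l₂) (hAb l₂)).sub
      (integrable_of_meas_bdd (hAm l₁) (hAb l₁))
  · exact integrable_finsetSum _ fun u _ => integrable_of_meas_bdd (hfm u) (hfb u)

/-- (12.4) -/
theorem ev [Countable V] (β : ℝ) (D D' : Finset V) (n n' : ℕ) (x : V) {j : ℤ}
    (hj : -(n : ℤ) ≤ j) (hj' : -(n' : ℤ) ≤ j) {B : ℝ → ℝ} {l₁ l₂ : ℝ} (h0 : 0 ≤ l₁)
    (h12 : l₁ ≤ l₂) (h2 : l₂ ≤ 1 / 2) (hB : IntervalIntegrable B volume l₁ l₂)
    (hS : ∀ l, l₁ ≤ l → l ≤ l₂ →
      ∫ ω, Sx G β (str j) D D' x (sj G β D n j l ω) (sj G β D' n' j l ω) ∂iidLaw (V × ℕ) ≤ B l) :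
    dd G β D n D' n' x j l₂ ≤ dd G β D n D' n' x j l₁ + 2 * ∫ l in l₁..l₂, B l := by
  have ha0 : 0 ≤ str j := (str_pos j).le
  have ha : str j ≤ 1 / 2 := (str_le j).trans (by norm_num)
  have h1 := quenched_le (G := G) (β := β) D D' n n' x j h12
  have h3 : ∑ u ∈ D ∪ D', ∫ ω, (if l₁ ≤ label (eZ j) ω u ∧ label (eZ j) ω u < l₂ then
        Tu G β (str j) D D' x u (sj G β D n j (label (eZ j) ω u) ω)
          (sj G β D' n' j (label (eZ j) ω u) ω) else 0) ∂iidLaw (V × ℕ) =
      ∫ r in l₁..l₂, ∑ u ∈ D ∪ D', yu G β (str j) D D' n n' x u j r := by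
    rw [intervalIntegral.integral_finsetSum]
    · apply Finset.sum_congr rfl
      intro u _
      exact contrib_eq ha0 ha D D' n n' x u j h0 h12 h2
    · intro u _
      rw [intervalIntegrable_iff, Set.uIoc_of_le h12]
      apply Measure.integrableOn_of_bounded (M := 168) (by simp)
        (measurable_yu (G := G) (β := β) (str j) D D' n n' x u j).aestronglyMeasurable
      apply Filter.Eventually.of_forall
      intro r
      rw [Real.norm_eq_abs, abs_of_nonneg (yu_nonneg _ _ _ _ _ _ _ _ _)]
      exact yu_le ha0 ha D D' n n' x u j r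
  have h4 : ∫ r in l₁..l₂, ∑ u ∈ D ∪ D', yu G β (str j) D D' n n' x u j r ≤
      ∫ r in l₁..l₂, 2 * B r := by
    apply intervalIntegral.integral_mono_on h12
    · rw [intervalIntegrable_iff, Set.uIoc_of_le h12]
      apply Measure.integrableOn_of_bounded (M := (D ∪ D').card * 168) (by simp)
        (Finset.measurable_sum _ fun u _ =>
          measurable_yu (G := G) (β := β) (str j) D D' n n' x u j).aestronglyMeasurable
      apply Filter.Eventually.of_forall
      intro r
      rw [Real.norm_eq_abs, abs_of_nonneg (Finset.sum_nonneg fun u _ =>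
        yu_nonneg _ _ _ _ _ _ _ _ _)]
      calc ∑ u ∈ D ∪ D', yu G β (str j) D D' n n' x u j r ≤ ∑ u ∈ D ∪ D', (168 : ℝ) :=
            Finset.sum_le_sum fun u _ => yu_le ha0 ha D D' n n' x u j r
        _ = _ := by simp
    · exact hB.const_mul 2
    · intro r hr
      have h5 := hS r hr.1 hr.2
      have h6 : ∫ ω, Sx G β (str j) D D' x (sj G β D n j r ω) (sj G β D' n' j r ω)
          ∂iidLaw (V × ℕ) = ∑ u ∈ D ∪ D',
          ∫ ω, Tu G β (str j) D D' x u (sj G β D n j r ω) (sj G β D' n' j r ω)
            ∂iidLaw (V × ℕ) := by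
        simp only [Sx_eq_sum]
        rw [integral_finsetSum]
        intro u _
        exact integrable_Tu ha0 ha D D' x u (measurable_sj β D n j r) (measurable_sj β D' n' j r)
      calc ∑ u ∈ D ∪ D', yu G β (str j) D D' n n' x u j r ≤
          ∑ u ∈ D ∪ D', 2 * ∫ ω, Tu G β (str j) D D' x u (sj G β D n j r ω)
            (sj G β D' n' j r ω) ∂iidLaw (V × ℕ) :=
            Finset.sum_le_sum fun u _ =>
              yu_le_two ha0 ha D D' n n' x u j (h0.trans hr.1) (hr.2.trans h2)
        _ = 2 * ∑ u ∈ D ∪ D', ∫ ω, Tu G β (str j) D D' x u (sj G β D n j r ω)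
            (sj G β D' n' j r ω) ∂iidLaw (V × ℕ) := by rw [Finset.mul_sum]
        _ ≤ 2 * B r := by rw [← h6]; linarith
  rw [intervalIntegral.integral_const_mul] at h4
  rw [h3] at h1
  linarith

end Vale.Agent.P161C
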