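import Vale.Agent.Lib.P161C.Proc

/-!
P161 critical, tools shared by EV and LAW: rounds as runs through sorted lists, dependence of the
process on the coordinates, splitting off the labels of one round.
-/

open Finset MeasureTheory Filter Topology

namespace Vale.Agent.P161C
open Vale.Agent.P161

variable {V : Type*} [DecidableEq V] {G : SimpleGraph V} [DecidableRel G.Adj] {β : ℝ}

/-- The round through a sorted list of a larger set. -/
lemma rnd_eq_run (β a : ℝ) {D F : Finset V} (hDF : D ⊆ F) (l : ℝ) {lab : V → ℝ} (ξ h : V → ℝ)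
    {L : List V} (hnd : L.Nodup) (hL : L.toFinset = F)
    (hs : L.Pairwise (fun x y => lab x < lab y)) :
    rnd G β a D l lab ξ h = run G β a D (L.filter (fun v => lab v < l)) ξ h := by
  rw [← run_filter]
  apply rnd_eq
  · exact (hnd.filter _).filter _
  · ext v
    simp only [List.mem_toFinset, List.mem_filter, decide_eq_true_eq, Finset.mem_filter]
    constructor
    · rintro ⟨⟨_, h2⟩, h3⟩; exact ⟨h3, h2⟩
    · rintro ⟨h1, h2⟩
      refine ⟨⟨?_, h2⟩, h1⟩
      rw [← List.mem_toFinset, hL]; exact hDF h1
  · exact (hs.filter _).filter _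

/-- Only the labels below the current label time matter. -/
lemma rnd_congr_lab (β a : ℝ) (D : Finset V) (l : ℝ) {lab lab' : V → ℝ} (ξ h : V → ℝ)
    (hl : ∀ v, (lab v < l ∨ lab' v < l) → lab v = lab' v) :
    rnd G β a D l lab ξ h = rnd G β a D l lab' ξ h := by
  classical
  unfold rnd
  have hf : D.filter (fun v => lab v < l) = D.filter (fun v => lab' v < l) := by
    apply Finset.filter_congr
    intro v _
    constructor
    · intro h1; rw [← hl v (Or.inl h1)]; exact h1
    · intro h1; rw [hl v (Or.inr h1)]; exact h1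
  rw [hf]
  apply Finset.sum_congr rfl
  intro L hL
  rw [List.mem_toFinset, List.mem_permutations] at hL
  have hmem : ∀ v ∈ L, lab v = lab' v := by
    intro v hv
    have h1 : v ∈ (D.filter (fun v => lab' v < l)).toList := hL.mem_iff.mp hv
    rw [Finset.mem_toList, Finset.mem_filter] at h1
    exact hl v (Or.inr h1.2)
  have hiff : L.Pairwise (fun x y => lab x < lab y) ↔ L.Pairwise (fun x y => lab' x < lab' y) := by
    constructor
    · intro h1
      exact h1.imp_of_mem fun {x y} hx hy hxy => by rw [← hmem x hx, ← hmem y hy]; exact hxy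
    · intro h1
      exact h1.imp_of_mem fun {x y} hx hy hxy => by rw [hmem x hx, hmem y hy]; exact hxy
  by_cases h1 : L.Pairwise (fun x y => lab x < lab y)
  · rw [if_pos h1, if_pos (hiff.mp h1)]
  · rw [if_neg h1, if_neg (fun h2 => h1 (hiff.mpr h2))]

/-- The state after `m` rounds depends only on the coordinates of these rounds. -/
lemma st_dep1 (β : ℝ) (D : Finset V) (n m : ℕ) {k : ℕ} (hk : ∀ i < m, eZ ((i : ℤ) - n) ≠ k)
    {ω ω' : V × ℕ → unitInterval} (h : ∀ v c, c / 2 ≠ k → ω (v, c) = ω' (v, c)) :
    st G β D n m ω = st G β D n m ω' := by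
  induction m with
  | zero => rfl
  | succ m ih =>
    have ih' := ih (fun i hi => hk i (by omega))
    have hm := hk m (by omega)
    unfold st
    rw [ih']
    have e1 : label (eZ ((m : ℤ) - n)) ω = label (eZ ((m : ℤ) - n)) ω' := by
      ext v
      unfold label
      rw [h v _ (by rw [Nat.mul_div_cancel_left _ (by norm_num)]; exact hm)]
    have e2 : noise (eZ ((m : ℤ) - n)) ω = noise (eZ ((m : ℤ) - n)) ω' := by
      ext v
      unfold noise
      rw [h v _ (by
        have : (2 * eZ ((m : ℤ) - n) + 1) / 2 = eZ ((m : ℤ) - n) := by omega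
        rw [this]; exact hm)]
    rw [e1, e2]

lemma eZ_ne {n : ℕ} {j : ℤ} : ∀ i < (j + n).toNat, eZ ((i : ℤ) - n) ≠ eZ j := by
  intro i hi heq
  have := eZ.injective heq
  omega

/-- The coordinates carrying the labels of round `k`. -/
def lab1 (V : Type*) (k : ℕ) : Set (V × ℕ) := {p | p.2 = 2 * k}

omit [DecidableEq V] in
lemma label_merge1 (k : ℕ) (p : (V × ℕ → unitInterval) × (V × ℕ → unitInterval)) :
    label k (merge (lab1 V k) p) = label k p.1 := by
  ext v
  unfold label merge
  have : ((v, 2 * k) : V × ℕ) ∈ lab1 V k := by simp [lab1]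
  rw [if_pos this]

omit [DecidableEq V] in
lemma noise_merge1 (k : ℕ) (p : (V × ℕ → unitInterval) × (V × ℕ → unitInterval)) :
    noise k (merge (lab1 V k) p) = noise k p.2 := by
  ext v
  unfold noise merge
  have : ((v, 2 * k + 1) : V × ℕ) ∉ lab1 V k := by
    simp only [lab1, Set.mem_setOf_eq]; omega
  rw [if_neg this]

lemma st_merge1 (β : ℝ) (D : Finset V) (n m : ℕ) {k : ℕ} (hk : ∀ i < m, eZ ((i : ℤ) - n) ≠ k)
    (p : (V × ℕ → unitInterval) × (V × ℕ → unitInterval)) :
    st G β D n m (merge (lab1 V k) p) = st G β D n m p.2 := by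
  apply st_dep1 β D n m hk
  intro v c hc
  unfold merge
  have : ((v, c) : V × ℕ) ∉ lab1 V k := by
    simp only [lab1, Set.mem_setOf_eq]; omega
  rw [if_neg this]

lemma st_update (β : ℝ) (D : Finset V) (n m : ℕ) {k : ℕ} (hk : ∀ i < m, eZ ((i : ℤ) - n) ≠ k)
    (ω : V × ℕ → unitInterval) (u : V) {c : ℕ} (hc : c / 2 = k) (r : unitInterval) :
    st G β D n m (Function.update ω (u, c) r) = st G β D n m ω := by
  apply st_dep1 β D n m hk
  intro v c' hc'
  rw [Function.update_of_ne]
  intro heq
  have := (Prod.mk.inj heq).2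
  subst this
  exact hc' hc

omit [DecidableEq V] in
lemma label_update_noise [DecidableEq V] (k : ℕ) (ω : V × ℕ → unitInterval) (u : V)
    (r : unitInterval) : label k (Function.update ω (u, 2 * k + 1) r) = label k ω := by
  ext v
  unfold label
  rw [Function.update_of_ne]
  intro heq
  have := (Prod.mk.inj heq).2
  omega

omit [DecidableEq V] in
lemma noise_update_label [DecidableEq V] (k : ℕ) (ω : V × ℕ → unitInterval) (u : V)
    (r : unitInterval) : noise k (Function.update ω (u, 2 * k) r) = noise k ω := by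
  ext v
  unfold noise
  rw [Function.update_of_ne]
  intro heq
  have := (Prod.mk.inj heq).2
  omega

end Vale.Agent.P161C
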