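import Vale.Agent.Lib.P161C.Proc

/-!
P161 critical: quenched form of the process, martingale property, polarization, later rounds.
-/

open Finset MeasureTheory Filter Topology

namespace Vale.Agent.P161C
open Vale.Agent.P161

variable {V : Type*} [DecidableEq V] {G : SimpleGraph V} [DecidableRel G.Adj] {β : ℝ}
  {D : Finset V}

lemma merge_update_label {i : V × ℕ} (hi : i ∈ labSet V) (ω ω' : V × ℕ → unitInterval)
    (r : unitInterval) : merge (labSet V) (Function.update ω i r, ω') =
      Function.update (merge (labSet V) (ω, ω')) i r := by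
  ext j
  unfold merge
  by_cases hj : j = i
  · subst hj
    simp [hi]
  · simp [Function.update_of_ne hj]

lemma merge_update_noise {i : V × ℕ} (hi : i ∉ labSet V) (ω ω' : V × ℕ → unitInterval)
    (r : unitInterval) : merge (labSet V) (ω, Function.update ω' i r) =
      Function.update (merge (labSet V) (ω, ω')) i r := by
  ext j
  unfold merge
  by_cases hj : j = i
  · subst hj
    simp [hi]
  · simp [Function.update_of_ne hj]

/-- The state before a round does not depend on the variables of this or later rounds. -/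
lemma st_dep (β : ℝ) (D : Finset V) (n : ℕ) {m M : ℕ} (hmM : m ≤ M) (u : V) {ε : ℕ} (hε : ε < 2)
    (ω : V × ℕ → unitInterval) (r : unitInterval) :
    st G β D n m (Function.update ω (u, 2 * eZ ((M : ℤ) - n) + ε) r) = st G β D n m ω := by
  induction m with
  | zero => rfl
  | succ m ih =>
    have hne : eZ ((m : ℤ) - n) ≠ eZ ((M : ℤ) - n) := by
      intro h
      have := eZ.injective h
      omega
    have h1 : label (eZ ((m : ℤ) - n))
        (Function.update ω (u, 2 * eZ ((M : ℤ) - n) + ε) r) = label (eZ ((m : ℤ) - n)) ω := by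
      ext v
      unfold label
      rw [Function.update_of_ne]
      intro h
      have := (Prod.mk.inj h).2
      omega
    have h2 : noise (eZ ((m : ℤ) - n))
        (Function.update ω (u, 2 * eZ ((M : ℤ) - n) + ε) r) = noise (eZ ((m : ℤ) - n)) ω := by
      ext v
      unfold noise
      rw [Function.update_of_ne]
      intro h
      have := (Prod.mk.inj h).2
      omega
    unfold st
    rw [ih (by omega), h1, h2]

/-- One round, quenched labels. -/
lemma st_succ_merge (β : ℝ) (D : Finset V) (n m : ℕ) {ω : V × ℕ → unitInterval}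
    (hinj : ∀ k, Function.Injective (label (V := V) k ω)) :
    ∃ L : List V, L.Nodup ∧
      L.toFinset = D.filter (fun v => label (eZ ((m : ℤ) - n)) ω v < 1 / 2) ∧
      ∀ ω', st G β D n (m + 1) (merge (labSet V) (ω, ω')) =
        run G β (str ((m : ℤ) - n)) D L (noise (eZ ((m : ℤ) - n)) ω')
          (st G β D n m (merge (labSet V) (ω, ω'))) := by
  obtain ⟨L, h1, h2, h3⟩ := exists_sorted (label (eZ ((m : ℤ) - n)) ω)
    (D.filter (fun v => label (eZ ((m : ℤ) - n)) ω v < 1 / 2)) (hinj _).injOn
  refine ⟨L, h1, h2, fun ω' => ?_⟩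
  conv_lhs => unfold st
  rw [label_merge, noise_merge]
  exact rnd_eq β _ D (1 / 2) _ _ h1 h2 h3

lemma measurable_st_merge (β : ℝ) (D : Finset V) (n m : ℕ) (ω : V × ℕ → unitInterval) :
    Measurable fun ω' => st G β D n m (merge (labSet V) (ω, ω')) := by
  have h1 : Measurable fun ω' : V × ℕ → unitInterval => (ω, ω') := by fun_prop
  exact (measurable_st (G := G) β D n m).comp ((measurable_merge (labSet V)).comp h1)

lemma st_merge_dep (β : ℝ) (D : Finset V) (n m : ℕ) (ω : V × ℕ → unitInterval) {M : ℕ}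
    (hmM : m ≤ M) (u : V) (ω' : V × ℕ → unitInterval) (r : unitInterval) :
    st G β D n m (merge (labSet V) (ω, Function.update ω' (u, 2 * eZ ((M : ℤ) - n) + 1) r)) =
      st G β D n m (merge (labSet V) (ω, ω')) := by
  rw [merge_update_noise (by simp [labSet, Nat.add_mod])]
  exact st_dep β D n hmM u (by norm_num) _ r

lemma str_le_half (j : ℤ) : str j ≤ 1 / 2 := (str_le j).trans (by norm_num)

/-- Martingale property of Gibbs expectations. -/
lemma st_gx [Countable V] (β : ℝ) (D : Finset V) (f : Finset V → ℝ) (n m : ℕ) :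
    ∫ ω, gx G β D (st G β D n m ω) f ∂iidLaw (V × ℕ) = gx G β D 0 f := by
  obtain ⟨c, hc⟩ : ∃ c : ℝ, ∀ S ⊆ D, |f S| ≤ c := by
    refine ⟨∑ S ∈ D.powerset, |f S|, fun S hS => ?_⟩
    exact Finset.single_le_sum (f := fun S => |f S|) (fun i _ => abs_nonneg _)
      (mem_powerset.mpr hS)
  induction m with
  | zero => simp [st]
  | succ m ih =>
    rw [← ih]
    rw [integral_merge (labSet V) (H := fun ω => gx G β D (st G β D n (m + 1) ω) f)
      ((measurable_gx β D f).comp (measurable_st β D n (m + 1)))
      (c := c) (fun ω => abs_gx_le hc),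
      integral_merge (labSet V) (H := fun ω => gx G β D (st G β D n m ω) f)
      ((measurable_gx β D f).comp (measurable_st β D n m))
      (c := c) (fun ω => abs_gx_le hc)]
    apply integral_congr_ae
    filter_upwards [ae_injective (V := V)] with ω hω
    obtain ⟨L, h1, _, h3⟩ := st_succ_merge (G := G) β D n m hω
    simp only [h3]
    exact integral_gx_run (str_pos _).le (str_le_half _) f (measurable_st_merge β D n m ω)
      (fun u ω' r => st_merge_dep β D n m ω le_rfl u ω' r) L h1

/-- Quenched conditional loss. -/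
noncomputable def yq (G : SimpleGraph V) [DecidableRel G.Adj] (β : ℝ) (D : Finset V) (n : ℕ)
    (v : V) (m : ℕ) (ω : V × ℕ → unitInterval) : ℝ :=
  ∫ ω', (1 - mag G β D (st G β D n m (merge (labSet V) (ω, ω'))) v ^ 2) ∂iidLaw (V × ℕ)

lemma measurable_loss (β : ℝ) (D : Finset V) (n : ℕ) (v : V) (m : ℕ) :
    Measurable fun ω => 1 - mag G β D (st G β D n m ω) v ^ 2 :=
  (((measurable_mag β D v).comp (measurable_st β D n m)).pow_const 2).const_sub 1

lemma loss_bd (β : ℝ) (D : Finset V) (h : V → ℝ) (v : V) :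
    0 ≤ 1 - mag G β D h v ^ 2 ∧ 1 - mag G β D h v ^ 2 ≤ 1 := by
  have h4 := sq_le_one_of_abs (abs_mag_le (G := G) (β := β) (D := D) (h := h) v)
  have h5 := sq_nonneg (mag G β D h v)
  constructor <;> linarith

lemma yq_bd (β : ℝ) (D : Finset V) (n : ℕ) (v : V) (m : ℕ) (ω : V × ℕ → unitInterval) :
    0 ≤ yq G β D n v m ω ∧ yq G β D n v m ω ≤ 1 := by
  constructor
  · exact integral_nonneg fun ω' => (loss_bd β D _ v).1
  · have h := abs_inner_le (A := labSet V) (c := 1)
      (H := fun ω => 1 - mag G β D (st G β D n m ω) v ^ 2) (fun ω => by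
        have := loss_bd (G := G) β D (st G β D n m ω) v
        rw [abs_le]; constructor <;> linarith) ω
    exact (le_abs_self _).trans h

lemma measurable_yq (β : ℝ) (D : Finset V) (n : ℕ) (v : V) (m : ℕ) :
    Measurable (yq G β D n v m) :=
  measurable_inner (labSet V) (measurable_loss β D n v m)

lemma yq_dep (β : ℝ) (D : Finset V) (n : ℕ) (v : V) (m : ℕ) (u : V)
    (ω : V × ℕ → unitInterval) (r : unitInterval) :
    yq G β D n v m (Function.update ω (u, 2 * eZ ((m : ℤ) - n)) r) = yq G β D n v m ω := by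
  unfold yq
  congr 1
  ext ω'
  rw [merge_update_label (by simp [labSet])]
  have h := st_dep (G := G) β D n (le_refl m) u (ε := 0) (by norm_num)
    (merge (labSet V) (ω, ω')) r
  rw [add_zero] at h
  rw [h]

lemma integral_yq (β : ℝ) (D : Finset V) (n : ℕ) (v : V) (m : ℕ) :
    ∫ ω, yq G β D n v m ω ∂iidLaw (V × ℕ) =
      ∫ ω, (1 - mag G β D (st G β D n m ω) v ^ 2) ∂iidLaw (V × ℕ) := by
  rw [integral_merge (labSet V) (measurable_loss β D n v m) (c := 1) (fun ω => by
        have := loss_bd (G := G) β D (st G β D n m ω) v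
        rw [abs_le]; constructor <;> linarith)]
  rfl

/-- Quenched decrease of the loss in one round. -/
lemma yq_succ_le (β : ℝ) {D : Finset V} (n : ℕ) {v : V} (hv : v ∈ D) (m : ℕ)
    {ω : V × ℕ → unitInterval} (hinj : ∀ k, Function.Injective (label (V := V) k ω)) :
    yq G β D n v (m + 1) ω ≤ yq G β D n v m ω -
      (if label (eZ ((m : ℤ) - n)) ω v < 1 / 2 then
        str ((m : ℤ) - n) ^ 2 / 6 * yq G β D n v m ω ^ 2 else 0) := by
  obtain ⟨L, h1, h2, h3⟩ := st_succ_merge (G := G) β D n m hinj
  have hm := measurable_st_merge (G := G) β D n m ω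
  have hr := run_polar (G := G) (β := β) (D := D) (a := str ((m : ℤ) - n)) (str_pos _).le
    (str_le_half _) hv hm (k := eZ ((m : ℤ) - n))
    (fun u ω' r => st_merge_dep β D n m ω le_rfl u ω' r) L h1
  have e1 : yq G β D n v m ω = 1 - ∫ ω', mag G β D
      (st G β D n m (merge (labSet V) (ω, ω'))) v ^ 2 ∂iidLaw (V × ℕ) := by
    unfold yq
    rw [integral_sub (integrable_const _) (integrable_mag_sq hm v)]
    simp
  have hm2 := measurable_st_merge (G := G) β D n (m + 1) ω
  have e2 : yq G β D n v (m + 1) ω = 1 - ∫ ω', mag G β D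
      (run G β (str ((m : ℤ) - n)) D L (noise (eZ ((m : ℤ) - n)) ω')
        (st G β D n m (merge (labSet V) (ω, ω')))) v ^ 2 ∂iidLaw (V × ℕ) := by
    unfold yq
    rw [integral_sub (integrable_const _) (integrable_mag_sq hm2 v)]
    simp only [h3]
    simp
  rw [e1, e2]
  by_cases hl : label (eZ ((m : ℤ) - n)) ω v < 1 / 2
  · rw [if_pos hl]
    apply hr.2
    rw [← List.mem_toFinset, h2, mem_filter]
    exact ⟨hv, hl⟩
  · rw [if_neg hl, sub_zero]
    exact hr.1

lemma integral_half_ind (A : ℝ) :
    ∫ r in (0 : ℝ)..1, (if r < 1 / 2 then A else 0) = A / 2 := by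
  have hm : Measurable fun r : ℝ => if r < 1 / 2 then A else 0 := by
    apply Measurable.ite _ measurable_const measurable_const
    exact measurableSet_lt measurable_id measurable_const
  have hb : ∀ r : ℝ, ‖(if r < 1 / 2 then A else 0)‖ ≤ |A| := by
    intro r
    rw [Real.norm_eq_abs]
    split_ifs
    · exact le_rfl
    · simp
  have hi : ∀ a b : ℝ, IntervalIntegrable (fun r : ℝ => if r < 1 / 2 then A else 0) volume a b := by
    intro a b
    constructor
    · exact Measure.integrableOn_of_bounded (M := |A|) (by simp) hm.aestronglyMeasurable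
        (Filter.Eventually.of_forall hb)
    · exact Measure.integrableOn_of_bounded (M := |A|) (by simp) hm.aestronglyMeasurable
        (Filter.Eventually.of_forall hb)
  rw [← intervalIntegral.integral_add_adjacent_intervals (hi 0 (1 / 2)) (hi (1 / 2) 1)]
  have e1 : ∫ r in (0 : ℝ)..(1 / 2), (if r < 1 / 2 then A else 0) =
      ∫ r in (0 : ℝ)..(1 / 2), A := by
    apply intervalIntegral.integral_congr_ae
    have : ∀ᵐ x : ℝ, x ≠ 1 / 2 := by
      simp [ae_iff, measure_singleton]
    filter_upwards [this] with x hx hxm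
    rw [Set.uIoc_of_le (by norm_num)] at hxm
    rw [if_pos (lt_of_le_of_ne hxm.2 hx)]
  have e2 : ∫ r in (1 / 2 : ℝ)..1, (if r < 1 / 2 then A else 0) =
      ∫ r in (1 / 2 : ℝ)..1, (0 : ℝ) := by
    apply intervalIntegral.integral_congr
    intro x hx
    rw [Set.uIcc_of_le (by norm_num)] at hx
    simp only
    rw [if_neg (not_lt.mpr hx.1)]
  rw [e1, e2, intervalIntegral.integral_const, intervalIntegral.integral_const]
  simp
  ring

/-- Annealed decrease of the loss in one round. -/
lemma loss_succ_le [Countable V] (β : ℝ) {D : Finset V} (n : ℕ) {v : V} (hv : v ∈ D) (m : ℕ) :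
    ∫ ω, yq G β D n v (m + 1) ω ∂iidLaw (V × ℕ) ≤ ∫ ω, yq G β D n v m ω ∂iidLaw (V × ℕ) -
      str ((m : ℤ) - n) ^ 2 / 12 * (∫ ω, yq G β D n v m ω ∂iidLaw (V × ℕ)) ^ 2 := by
  set c := str ((m : ℤ) - n) ^ 2 / 6 with hc
  have hc0 : 0 ≤ c := by positivity
  have hym := measurable_yq (G := G) β D n v m
  have hyi : ∀ m, Integrable (yq G β D n v m) (iidLaw (V × ℕ)) := fun m =>
    integrable_of_meas_bdd (c := 1) (measurable_yq (G := G) β D n v m) (fun ω => by
      have := yq_bd (G := G) β D n v m ω
      rw [abs_le]; constructor <;> linarith)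
  have hlab : Measurable fun ω : V × ℕ → unitInterval => label (eZ ((m : ℤ) - n)) ω v :=
    (measurable_pi_apply v).comp (measurable_label _)
  have hset : MeasurableSet {ω : V × ℕ → unitInterval | label (eZ ((m : ℤ) - n)) ω v < 1 / 2} :=
    measurableSet_lt hlab measurable_const
  have hjm : Measurable fun ω => if label (eZ ((m : ℤ) - n)) ω v < 1 / 2 then
      c * yq G β D n v m ω ^ 2 else 0 :=
    Measurable.ite hset ((hym.pow_const 2).const_mul c) measurable_const
  have hji : Integrable (fun ω => if label (eZ ((m : ℤ) - n)) ω v < 1 / 2 then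
      c * yq G β D n v m ω ^ 2 else 0) (iidLaw (V × ℕ)) := by
    apply integrable_of_meas_bdd (c := c) hjm
    intro ω
    have h1 := yq_bd (G := G) β D n v m ω
    split_ifs
    · rw [abs_of_nonneg (by positivity)]
      have : yq G β D n v m ω ^ 2 ≤ 1 := by nlinarith
      nlinarith
    · simpa using hc0
  have h1 : ∫ ω, yq G β D n v (m + 1) ω ∂iidLaw (V × ℕ) ≤
      ∫ ω, (yq G β D n v m ω - (if label (eZ ((m : ℤ) - n)) ω v < 1 / 2 then
        c * yq G β D n v m ω ^ 2 else 0)) ∂iidLaw (V × ℕ) := by
    apply integral_mono_ae (hyi _) ((hyi m).sub hji)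
    filter_upwards [ae_injective (V := V)] with ω hω
    exact yq_succ_le β n hv m hω
  rw [integral_sub (hyi m) hji] at h1
  -- the indicator is independent
  have h2 : ∫ ω, (if label (eZ ((m : ℤ) - n)) ω v < 1 / 2 then
        c * yq G β D n v m ω ^ 2 else 0) ∂iidLaw (V × ℕ) =
      ∫ ω, (c / 2 * yq G β D n v m ω ^ 2) ∂iidLaw (V × ℕ) := by
    have key := integral_resam (ι := V × ℕ) (v, 2 * eZ ((m : ℤ) - n)) hym
      (fun ω r => yq_dep β D n v m v ω r)
      (F := fun (y : ℝ) (r : unitInterval) => if (r : ℝ) < 1 / 2 then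
        c * (max (-1) (min 1 y)) ^ 2 else 0) (by
        have hs : MeasurableSet {z : ℝ × unitInterval | (z.2 : ℝ) < 1 / 2} :=
          measurableSet_lt (measurable_subtype_coe.comp measurable_snd) measurable_const
        exact Measurable.ite hs (by fun_prop) measurable_const) (c := c) (by
        intro y r
        split_ifs
        · rw [abs_of_nonneg (by positivity)]
          have h3 : -1 ≤ max (-1) (min 1 y) := le_max_left _ _
          have h4 : max (-1) (min 1 y) ≤ 1 := max_le (by norm_num) (min_le_left _ _)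
          have : (max (-1) (min 1 y)) ^ 2 ≤ 1 := by nlinarith
          nlinarith
        · simpa using hc0)
    have htr : ∀ ω, max (-1) (min 1 (yq G β D n v m ω)) = yq G β D n v m ω := by
      intro ω
      have h1 := yq_bd (G := G) β D n v m ω
      rw [min_eq_right h1.2, max_eq_right (by linarith)]
    simp only [htr] at key
    have e1 : ∀ ω : V × ℕ → unitInterval, label (eZ ((m : ℤ) - n)) ω v =
      ((ω (v, 2 * eZ ((m : ℤ) - n)) : unitInterval) : ℝ) := fun ω => rfl
    simp only [e1]
    rw [key]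
    congr 1
    ext ω
    have e2 := integral_unitInterval (fun r => if r < 1 / 2 then c * yq G β D n v m ω ^ 2 else 0)
    rw [e2]
    rw [integral_half_ind]
    ring
  rw [h2, integral_const_mul] at h1
  -- Jensen
  have hyi2 : Integrable (fun ω => yq G β D n v m ω ^ 2) (iidLaw (V × ℕ)) :=
    integrable_of_meas_bdd (c := 1) (hym.pow_const 2) (fun ω => by
      have := yq_bd (G := G) β D n v m ω
      rw [abs_of_nonneg (by positivity)]
      nlinarith)
  have h5 : (∫ ω, yq G β D n v m ω ∂iidLaw (V × ℕ)) ^ 2 ≤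
      ∫ ω, yq G β D n v m ω ^ 2 ∂iidLaw (V × ℕ) := by
    set I := ∫ ω, yq G β D n v m ω ∂iidLaw (V × ℕ) with hI
    have h6 : 0 ≤ ∫ ω, (yq G β D n v m ω - I) ^ 2 ∂iidLaw (V × ℕ) :=
      integral_nonneg fun ω => sq_nonneg _
    have h7 : ∫ ω, (yq G β D n v m ω - I) ^ 2 ∂iidLaw (V × ℕ) =
        ∫ ω, yq G β D n v m ω ^ 2 ∂iidLaw (V × ℕ) - I ^ 2 := by
      have e : ∀ ω, (yq G β D n v m ω - I) ^ 2 =
          yq G β D n v m ω ^ 2 - 2 * I * yq G β D n v m ω + I ^ 2 := fun ω => by ring
      simp only [e]
      have i1 : Integrable (fun ω => 2 * I * yq G β D n v m ω) (iidLaw (V × ℕ)) :=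
        (hyi m).const_mul _
      have i2 : Integrable (fun ω => yq G β D n v m ω ^ 2 - 2 * I * yq G β D n v m ω)
        (iidLaw (V × ℕ)) := hyi2.sub i1
      rw [integral_add i2 (integrable_const _), integral_sub hyi2 i1, integral_const_mul, ← hI]
      simp
      ring
    linarith
  have h8 : c / 2 = str ((m : ℤ) - n) ^ 2 / 12 := by rw [hc]; ring
  rw [h8] at h1
  have h9 : 0 ≤ str ((m : ℤ) - n) ^ 2 / 12 := by positivity
  nlinarith

/-- Polarization. -/
lemma st_polar [Countable V] (β : ℝ) {D : Finset V} (n : ℕ) {v : V} (hv : v ∈ D) (J : ℕ) :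
    ∫ ω, yq G β D n v (n + J) ω ∂iidLaw (V × ℕ) ≤ 1 / (1 + 1 / 192 * (J : ℝ)) := by
  have hb : ∀ m, 0 ≤ ∫ ω, yq G β D n v m ω ∂iidLaw (V × ℕ) ∧
      ∫ ω, yq G β D n v m ω ∂iidLaw (V × ℕ) ≤ 1 := by
    intro m
    constructor
    · exact integral_nonneg fun ω => (yq_bd β D n v m ω).1
    · have hyi : Integrable (yq G β D n v m) (iidLaw (V × ℕ)) :=
        integrable_of_meas_bdd (c := 1) (measurable_yq (G := G) β D n v m) (fun ω => by
          have := yq_bd (G := G) β D n v m ω
          rw [abs_le]; constructor <;> linarith)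
      calc ∫ ω, yq G β D n v m ω ∂iidLaw (V × ℕ) ≤ ∫ _ω, (1 : ℝ) ∂iidLaw (V × ℕ) :=
            integral_mono hyi (integrable_const _) fun ω => (yq_bd β D n v m ω).2
        _ = 1 := by simp
  induction J with
  | zero => simpa using (hb n).2
  | succ J ih =>
    have h1 := loss_succ_le (G := G) β n hv (n + J)
    have hstr : str (((n + J : ℕ) : ℤ) - n) = 1 / 4 := by
      unfold str
      have : min (((n + J : ℕ) : ℤ) - n) 0 = 0 := by
        push_cast
        omega
      rw [this]; norm_num
    rw [hstr] at h1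
    have hc : (1 / 4 : ℝ) ^ 2 / 12 = 1 / 192 := by norm_num
    rw [hc] at h1
    set c : ℝ := 1 / 192 with hcdef
    have hc0 : 0 ≤ c := by norm_num
    have hd : (0 : ℝ) < 1 + c * J := by positivity
    have hb1 : 1 / (1 + c * (J : ℝ)) ≤ 1 := by
      rw [div_le_one hd]
      have : 0 ≤ c * (J : ℝ) := by positivity
      linarith
    have hmono := mono_aux hc0 (by norm_num : c ≤ 1 / 2) (hb (n + J)).1 ih hb1
    have hfin : 1 / (1 + c * (J : ℝ)) - c * (1 / (1 + c * (J : ℝ))) ^ 2 ≤
        1 / (1 + c * ((J + 1 : ℕ) : ℝ)) := by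
      have hd2 : (0 : ℝ) < 1 + c * ((J + 1 : ℕ) : ℝ) := by positivity
      have e1 : 1 / (1 + c * (J : ℝ)) - c * (1 / (1 + c * (J : ℝ))) ^ 2 =
          (1 + c * J - c) / (1 + c * J) ^ 2 := by
        field_simp
      rw [e1, div_le_div_iff₀ (by positivity) hd2]
      push_cast
      nlinarith [sq_nonneg c]
    exact (h1.trans hmono).trans hfin

/-- Later states, quenched. -/
lemma st_cauchy_quenched (β : ℝ) (D : Finset V) (n : ℕ) (v : V) {m : ℕ}
    {ω : V × ℕ → unitInterval} (hinj : ∀ k, Function.Injective (label (V := V) k ω)) {m' : ℕ}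
    (hm : m ≤ m') :
    ∫ ω', (mag G β D (st G β D n m' (merge (labSet V) (ω, ω'))) v -
        mag G β D (st G β D n m (merge (labSet V) (ω, ω'))) v) ^ 2 ∂iidLaw (V × ℕ) ≤
      yq G β D n v m ω := by
  have hms := measurable_st_merge (G := G) β D n m ω
  have hZ : Measurable fun ω' => mag G β D (st G β D n m (merge (labSet V) (ω, ω'))) v :=
    (measurable_mag β D v).comp hms
  have key : ∀ k, m ≤ k →
      ∫ ω', ((mag G β D (st G β D n k (merge (labSet V) (ω, ω'))) v -
          mag G β D (st G β D n m (merge (labSet V) (ω, ω'))) v) ^ 2 -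
        mag G β D (st G β D n k (merge (labSet V) (ω, ω'))) v ^ 2) ∂iidLaw (V × ℕ) =
      -∫ ω', mag G β D (st G β D n m (merge (labSet V) (ω, ω'))) v ^ 2 ∂iidLaw (V × ℕ) := by
    intro k hk
    induction k, hk using Nat.le_induction with
    | base =>
      rw [← integral_neg]
      congr 1
      ext ω
      ring
    | succ k hk ih =>
      obtain ⟨L, h1, _, h3⟩ := st_succ_merge (G := G) β D n k hinj
      rw [← ih]
      simp only [h3]
      exact integral_sub_sq_run (str_pos _).le (str_le_half _) v
        (measurable_st_merge β D n k ω) hZ (fun ω' => abs_mag_le v)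
        (fun u ω' r => st_merge_dep β D n k ω le_rfl u ω' r)
        (fun u ω' r => by rw [st_merge_dep β D n m ω hk u ω' r]) L h1
  have hk := key m' hm
  have hms' := measurable_st_merge (G := G) β D n m' ω
  have i1 : Integrable (fun ω' => (mag G β D (st G β D n m' (merge (labSet V) (ω, ω'))) v -
      mag G β D (st G β D n m (merge (labSet V) (ω, ω'))) v) ^ 2) (iidLaw (V × ℕ)) := by
    apply integrable_of_meas_bdd (c := 4)
    · exact (((measurable_mag β D v).comp hms').sub hZ).pow_const 2
    · intro ω; exact mag_sub_sq_le v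
  have i2 := integrable_mag_sq (G := G) (β := β) (D := D) hms' v
  rw [integral_sub i1 i2] at hk
  have h1 := integral_mag_sq_le_one (G := G) (β := β) (D := D) hms' v
  have e1 : yq G β D n v m ω = 1 - ∫ ω', mag G β D
      (st G β D n m (merge (labSet V) (ω, ω'))) v ^ 2 ∂iidLaw (V × ℕ) := by
    unfold yq
    rw [integral_sub (integrable_const _) (integrable_mag_sq hms v)]
    simp
  rw [e1]
  linarith

lemma st_cauchy [Countable V] (β : ℝ) (D : Finset V) (n : ℕ) (v : V) {m m' : ℕ} (hm : m ≤ m') :
    ∫ ω, (mag G β D (st G β D n m' ω) v - mag G β D (st G β D n m ω) v) ^ 2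
      ∂iidLaw (V × ℕ) ≤ ∫ ω, yq G β D n v m ω ∂iidLaw (V × ℕ) := by
  have hH : Measurable fun ω => (mag G β D (st G β D n m' ω) v -
      mag G β D (st G β D n m ω) v) ^ 2 :=
    (((measurable_mag β D v).comp (measurable_st β D n m')).sub
      ((measurable_mag β D v).comp (measurable_st β D n m))).pow_const 2
  rw [integral_merge (labSet V) hH (c := 4) (fun ω => mag_sub_sq_le v)]
  apply integral_mono_ae
  · exact integrable_of_meas_bdd (measurable_inner (labSet V) hH)
      (abs_inner_le (c := 4) (fun ω => mag_sub_sq_le v))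
  · exact integrable_of_meas_bdd (c := 1) (measurable_yq (G := G) β D n v m) (fun ω => by
      have := yq_bd (G := G) β D n v m ω
      rw [abs_le]; constructor <;> linarith)
  · filter_upwards [ae_injective (V := V)] with ω hω
    exact st_cauchy_quenched β D n v hω hm

end Vale.Agent.P161C
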