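import Vale.Agent.Lib.P161C.MuA
import Vale.Agent.Lib.P161C.Quench

/-!
P161 critical, module FIN (section 15 of notes/P161crit/proof.md): if `muf = 0` the free Ising
measure is a factor of i.i.d.  Follows `Main.lean`/`Final.lean` of the subcritical proof, with
`compare_vol` replaced by `dd_le_GG` and the convergence of `GG`.
-/

open Finset MeasureTheory Filter Topology

namespace Vale.Agent.P161C
open Vale.Agent.P161

variable {V : Type*} [DecidableEq V] {G : SimpleGraph V} [DecidableRel G.Adj]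
  {b : ℕ} {β : ℝ}

/-- Conservation of the Gibbs expectations. -/
theorem sj_gx [Countable V] (β : ℝ) (D : Finset V) (f : Finset V → ℝ) (n : ℕ) (j : ℤ) :
    ∫ ω, gx G β D (sj G β D n j 0 ω) f ∂iidLaw (V × ℕ) = gx G β D 0 f := by
  simp only [sj_zero]
  exact st_gx β D f n _

/-- Polarization after `J` rounds of strength `1/4`. -/
theorem sj_polar [Countable V] (β : ℝ) {D : Finset V} {v : V} (hv : v ∈ D) (n J : ℕ) :
    ∫ ω, (1 - mag G β D (sj G β D n J 0 ω) v ^ 2) ∂iidLaw (V × ℕ) ≤ 200 / ((J : ℝ) + 1) := by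
  simp only [sj_zero]
  have e : ((J : ℤ) + n).toNat = n + J := by omega
  rw [e, ← integral_yq]
  refine (st_polar β n hv J).trans ?_
  rw [div_le_div_iff₀ (by positivity) (by positivity)]
  have : (0 : ℝ) ≤ J := by positivity
  nlinarith

/-- Later rounds. -/
theorem sj_cauchy [Countable V] (β : ℝ) {D : Finset V} {v : V} (hv : v ∈ D) (n : ℕ) {J K : ℕ}
    (hJK : J ≤ K) :
    ∫ ω, (mag G β D (sj G β D n K 0 ω) v - mag G β D (sj G β D n J 0 ω) v) ^ 2
      ∂iidLaw (V × ℕ) ≤ 200 / ((J : ℝ) + 1) := by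
  have h1 := sj_polar (G := G) β hv n J
  simp only [sj_zero] at h1 ⊢
  refine (st_cauchy β D n v (by omega)).trans ?_
  rw [integral_yq]
  exact h1

/-- The approximating magnetizations. -/
noncomputable def zc (G : SimpleGraph V) [DecidableRel G.Adj] [G.LocallyFinite] (β : ℝ) (o : V)
    (R J : ℕ → ℕ) (v : V) (k : ℕ) (ω : V × ℕ → unitInterval) : ℝ :=
  mag G β (bal G o (R k)) (sj G β (bal G o (R k)) (R k + J k + 2) (J k) 0 ω) v

/-- Radii and numbers of rounds growing fast enough. -/
structure CSched (G : SimpleGraph V) [DecidableRel G.Adj] [G.LocallyFinite] (β : ℝ)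
    (R J : ℕ → ℕ) : Prop where
  hR : Monotone R
  hJ : Monotone J
  hk : ∀ k, k ≤ R k
  hJ' : ∀ k, 200 / ((J k : ℝ) + 1) ≤ (1 / 4) ^ k
  hR' : ∀ k, GG G β (R k - k) (J k) 0 ≤ (1 / 4) ^ k

lemma exists_csched [G.LocallyFinite] [Nonempty V] (hG : G.Connected)
    (hmu : ∀ j : ℕ, muf G β (j : ℤ) 0 = 0) : ∃ R J : ℕ → ℕ, CSched G β R J := by
  have hex : ∀ k : ℕ, ∃ N : ℕ, ∀ R, N ≤ R → GG G β R ((200 * 4 ^ k : ℕ) : ℤ) 0 ≤ (1 / 4) ^ k := by
    intro k
    have h1 := tendsto_GG hG β ((200 * 4 ^ k : ℕ) : ℤ) 0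
    rw [hmu] at h1
    have h2 : ∀ᶠ R in atTop, GG G β R ((200 * 4 ^ k : ℕ) : ℤ) 0 ≤ (1 / 4) ^ k := by
      have := h1.eventually_lt_const (u := (1 / 4 : ℝ) ^ k) (by positivity)
      filter_upwards [this] with R hR using hR.le
    obtain ⟨N, hN⟩ := Filter.eventually_atTop.mp h2
    exact ⟨N, hN⟩
  choose N hN using hex
  refine ⟨fun k => ∑ i ∈ range (k + 1), (N i + 1) + k, fun k => 200 * 4 ^ k, ?_, ?_, ?_, ?_, ?_⟩
  · intro i j hij
    have : ∑ i ∈ range (i + 1), (N i + 1) ≤ ∑ i ∈ range (j + 1), (N i + 1) := by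
      apply Finset.sum_le_sum_of_subset
      intro x hx
      rw [mem_range] at hx ⊢
      omega
    show _ + i ≤ _ + j
    omega
  · intro i j hij
    exact Nat.mul_le_mul_left _ (Nat.pow_le_pow_right (by norm_num) hij)
  · intro k
    show k ≤ _ + k
    omega
  · intro k
    push_cast
    rw [div_le_iff₀ (by positivity), one_div_pow]
    have : (1 / 4 ^ k : ℝ) * (200 * 4 ^ k + 1) = 200 + 1 / 4 ^ k := by field_simp
    rw [this]
    have : (0 : ℝ) ≤ 1 / 4 ^ k := by positivity
    linarith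
  · intro k
    apply hN
    show N k ≤ _ + k - k
    have : N k + 1 ≤ ∑ i ∈ range (k + 1), (N i + 1) :=
      Finset.single_le_sum (f := fun i => N i + 1) (fun i _ => Nat.zero_le _)
        (mem_range.mpr (Nat.lt_succ_self k))
    omega

variable [G.LocallyFinite] {R J : ℕ → ℕ}

lemma measurable_zc (β : ℝ) (o : V) (R J : ℕ → ℕ) (v : V) (k : ℕ) :
    Measurable (zc G β o R J v k) := by
  have h := (measurable_mag (G := G) β (bal G o (R k)) v).comp
    (measurable_sj (G := G) β (bal G o (R k)) (R k + J k + 2) (J k) 0)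
  exact h

lemma abs_zc_le (β : ℝ) (o : V) (R J : ℕ → ℕ) (v : V) (k : ℕ) (ω : V × ℕ → unitInterval) :
    |zc G β o R J v k ω| ≤ 1 := abs_mag_le v

/-- Comparison of the approximation with the process in another ball. -/
lemma compare_zc (hG : G.Connected) (hs : CSched G β R J) (o v : V) {k : ℕ}
    (hk : G.dist o v ≤ k) (o' : V) (r' n' : ℕ) (h1 : ∀ x, G.dist v x + k ≤ R k → x ∈ bal G o' r')
    (h2 : R k + J k + 2 ≤ n') :
    ∫ ω, (zc G β o R J v k ω - mag G β (bal G o' r') (sj G β (bal G o' r') n' (J k) 0 ω) v) ^ 2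
      ∂iidLaw (V × ℕ) ≤ (1 / 4) ^ k := by
  have hkR := hs.hk k
  have ha : bal G v (R k - k) ⊆ bal G o (R k) := by
    intro x hx
    rw [mem_bal hG] at hx ⊢
    have := hG.dist_triangle (u := o) (v := v) (w := x)
    omega
  have hb : bal G v (R k - k) ⊆ bal G o' r' := by
    intro x hx
    rw [mem_bal hG] at hx
    exact h1 x (by omega)
  have h := dd_le_GG (G := G) β (R := R k - k) (j := (J k : ℤ)) 0 (x := v) (o := o) (o' := o')
    (r := R k) (r' := r') (n := R k + J k + 2) (n' := n') ha hb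
    (by rw [Int.natAbs_natCast]; omega) (by rw [Int.natAbs_natCast]; omega)
  exact h.trans (hs.hR' k)

lemma zc_tendsto [Countable V] (hG : G.IsTree) (hs : CSched G β R J) (o : V) (v : V) :
    ∀ᵐ ω ∂iidLaw (V × ℕ), Tendsto (fun k => zc G β o R J v k ω) atTop
      (𝓝 (sv (sgnLim (fun k => zc G β o R J v k ω)))) := by
  have hzm := measurable_zc (G := G) β o R J v
  have hzb := abs_zc_le (G := G) β o R J v
  have hvR : ∀ k, G.dist o v ≤ k → v ∈ bal G o (R k) := by
    intro k hk
    rw [mem_bal hG.connected]; exact hk.trans (hs.hk k)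
  -- polarization
  have hpol : ∀ᵐ ω ∂iidLaw (V × ℕ),
      Tendsto (fun k => 1 - zc G β o R J v k ω ^ 2) atTop (𝓝 0) := by
    apply ae_tendsto_zero (c := 1) (C := 1) (j0 := G.dist o v)
    · intro j; exact ((hzm j).pow_const 2).const_sub 1
    · intro j ω
      have := sq_le_one_of_abs (hzb j ω)
      linarith
    · intro j ω
      have := sq_nonneg (zc G β o R J v j ω)
      linarith
    · norm_num
    · intro j hj
      have h1 := sj_polar (G := G) β (hvR j hj) (R j + J j + 2) (J j)
      rw [one_mul]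
      exact h1.trans (hs.hJ' j)
  -- increments
  have hinc : ∀ᵐ ω ∂iidLaw (V × ℕ),
      Tendsto (fun j => (zc G β o R J v (j + 1) ω - zc G β o R J v j ω) ^ 2) atTop (𝓝 0) := by
    apply ae_tendsto_zero (c := 4) (C := 2 + 2) (j0 := G.dist o v)
    · intro j; exact ((hzm (j + 1)).sub (hzm j)).pow_const 2
    · intro j ω; exact sq_nonneg _
    · intro j ω
      exact (le_abs_self _).trans (mag_sub_sq_le v)
    · positivity
    · intro j hj
      have hv1 : v ∈ bal G o (R (j + 1)) := hvR (j + 1) (by omega)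
      have h1 := sj_cauchy (G := G) β hv1 (R (j + 1) + J (j + 1) + 2) (hs.hJ (Nat.le_succ j))
      have hRm := hs.hR (Nat.le_succ j)
      have hJm := hs.hJ (Nat.le_succ j)
      simp only [Nat.succ_eq_add_one] at hRm hJm h1
      have h2 := compare_zc hG.connected hs o v hj o (R (j + 1)) (R (j + 1) + J (j + 1) + 2)
        (fun x hx => by
          rw [mem_bal hG.connected]
          have := hG.connected.dist_triangle (u := o) (v := v) (w := x)
          omega) (by omega)
      have hwm : Measurable fun ω => mag G β (bal G o (R (j + 1)))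
          (sj G β (bal G o (R (j + 1))) (R (j + 1) + J (j + 1) + 2) (J j) 0 ω) v := by
        have h := (measurable_mag (G := G) β (bal G o (R (j + 1))) v).comp
          (measurable_sj (G := G) β (bal G o (R (j + 1))) (R (j + 1) + J (j + 1) + 2) (J j) 0)
        exact h
      set W := fun ω => mag G β (bal G o (R (j + 1)))
          (sj G β (bal G o (R (j + 1))) (R (j + 1) + J (j + 1) + 2) (J j) 0 ω) v with hW
      have i1 : Integrable (fun ω => (zc G β o R J v (j + 1) ω - W ω) ^ 2)
          (iidLaw (V × ℕ)) :=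
        integrable_of_meas_bdd (c := 4) (((hzm (j + 1)).sub hwm).pow_const 2)
          (fun ω => mag_sub_sq_le v)
      have i2 : Integrable (fun ω => (zc G β o R J v j ω - W ω) ^ 2)
          (iidLaw (V × ℕ)) :=
        integrable_of_meas_bdd (c := 4) (((hzm j).sub hwm).pow_const 2)
          (fun ω => mag_sub_sq_le v)
      have i3 : Integrable (fun ω => (zc G β o R J v (j + 1) ω - zc G β o R J v j ω) ^ 2)
          (iidLaw (V × ℕ)) :=
        integrable_of_meas_bdd (c := 4) (((hzm (j + 1)).sub (hzm j)).pow_const 2)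
          (fun ω => mag_sub_sq_le v)
      have h3 : ∫ ω, (zc G β o R J v (j + 1) ω - zc G β o R J v j ω) ^ 2 ∂iidLaw (V × ℕ) ≤
          2 * ∫ ω, (zc G β o R J v (j + 1) ω - W ω) ^ 2 ∂iidLaw (V × ℕ) +
          2 * ∫ ω, (zc G β o R J v j ω - W ω) ^ 2 ∂iidLaw (V × ℕ) := by
        rw [← integral_const_mul, ← integral_const_mul,
          ← integral_add (i1.const_mul 2) (i2.const_mul 2)]
        apply integral_mono i3 ((i1.const_mul 2).add (i2.const_mul 2))
        intro ω
        show (zc G β o R J v (j + 1) ω - zc G β o R J v j ω) ^ 2 ≤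
          2 * (zc G β o R J v (j + 1) ω - W ω) ^ 2 + 2 * (zc G β o R J v j ω - W ω) ^ 2
        nlinarith [sq_nonneg ((zc G β o R J v (j + 1) ω - W ω) +
          (zc G β o R J v j ω - W ω))]
      have h1' : ∫ ω, (zc G β o R J v (j + 1) ω - W ω) ^ 2 ∂iidLaw (V × ℕ) ≤ (1 / 4) ^ j :=
        h1.trans (hs.hJ' j)
      calc _ ≤ _ := h3
        _ ≤ 2 * (1 / 4) ^ j + 2 * (1 / 4) ^ j := by
            gcongr
        _ = _ := by ring
  filter_upwards [hpol, hinc] with ω h1 h2
  exact tendsto_sgnLim (fun j => hzb j ω) h1 h2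

/-- The factor map on the big label space. -/
noncomputable def bigC (G : SimpleGraph V) [DecidableRel G.Adj] [G.LocallyFinite] (β : ℝ) (o : V)
    (R J : ℕ → ℕ) (ω : V × ℕ → unitInterval) : V → ℤˣ :=
  fun v => sgnLim (fun k => zc G β o R J v k ω)

lemma measurable_bigC (β : ℝ) (o : V) (R J : ℕ → ℕ) : Measurable (bigC G β o R J) := by
  rw [measurable_pi_iff]
  intro v
  exact measurable_sgnLim (fun j => measurable_zc β o R J v j)

lemma dist_aut (hG : G.Connected) (e : G ≃g G) (x y : V) : G.dist (e x) (e y) = G.dist x y := by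
  apply le_antisymm
  · obtain ⟨p, hp⟩ := hG.exists_walk_length_eq_dist x y
    rw [← hp, ← SimpleGraph.Walk.length_map e.toHom p]
    exact SimpleGraph.dist_le (p.map e.toHom)
  · obtain ⟨p, hp⟩ := hG.exists_walk_length_eq_dist (e x) (e y)
    have h2 : G.dist (e.symm (e x)) (e.symm (e y)) ≤ G.dist (e x) (e y) := by
      rw [← hp, ← SimpleGraph.Walk.length_map e.symm.toHom p]
      exact SimpleGraph.dist_le (p.map e.symm.toHom)
    rwa [e.symm_apply_apply, e.symm_apply_apply] at h2

lemma bal_map (hG : G.Connected) (e : G ≃g G) (o : V) (r : ℕ) :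
    (bal G o r).map e.toEquiv.toEmbedding = bal G (e o) r := by
  ext x
  rw [Finset.mem_map_equiv, mem_bal hG, mem_bal hG]
  have h2 : G.dist o (e.toEquiv.symm x) = G.dist (e o) x := by
    rw [← dist_aut hG e o (e.toEquiv.symm x)]
    have : e (e.toEquiv.symm x) = x := e.toEquiv.apply_symm_apply x
    rw [this]
  rw [h2]

lemma bigC_equivariant [Countable V] (hG : G.IsTree) (hs : CSched G β R J) (o : V)
    (e : G ≃g G) :
    ∀ᵐ ω ∂iidLaw (V × ℕ), ∀ v, bigC G β o R J (shiftL e ω) v = bigC G β o R J ω (e v) := by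
  rw [ae_all_iff]
  intro v
  have h1 := zc_tendsto hG hs o (e v)
  have heq : ∀ j ω, zc G β o R J v j (shiftL e ω) =
      mag G β (bal G (e o) (R j))
        (sj G β (bal G (e o) (R j)) (R j + J j + 2) (J j) 0 ω) (e v) := by
    intro j ω
    have h := mag_sj_map e β (bal G o (R j)) (R j + J j + 2) (J j) 0 ω v
    rw [bal_map hG.connected] at h
    exact h
  have hdiff : ∀ᵐ ω ∂iidLaw (V × ℕ),
      Tendsto (fun j => (zc G β o R J (e v) j ω - zc G β o R J v j (shiftL e ω)) ^ 2)
        atTop (𝓝 0) := by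
    simp only [heq]
    apply ae_tendsto_zero (c := 4) (C := 1) (j0 := G.dist o v + G.dist o (e v))
    · intro j
      have h := (measurable_mag (G := G) β (bal G (e o) (R j)) (e v)).comp
          (measurable_sj (G := G) β (bal G (e o) (R j)) (R j + J j + 2) (J j) 0)
      exact ((measurable_zc β o R J (e v) j).sub h).pow_const 2
    · intro j ω; exact sq_nonneg _
    · intro j ω; exact (le_abs_self _).trans (mag_sub_sq_le (e v))
    · positivity
    · intro j hj
      rw [one_mul]
      apply compare_zc hG.connected hs o (e v) (by omega) (e o) (R j) (R j + J j + 2)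
      · intro x hx
        rw [mem_bal hG.connected]
        have := hG.connected.dist_triangle (u := e o) (v := e v) (w := x)
        rw [dist_aut hG.connected] at this
        omega
      · exact le_rfl
  filter_upwards [h1, hdiff] with ω hω1 hω2
  apply sgnLim_eq_of_tendsto
  have h3 : Tendsto (fun j => |zc G β o R J (e v) j ω - zc G β o R J v j (shiftL e ω)|)
      atTop (𝓝 0) := by
    have h4 := hω2.sqrt
    rw [Real.sqrt_zero] at h4
    refine h4.congr (fun j => ?_)
    exact Real.sqrt_sq_eq_abs _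
  have h5 := (tendsto_zero_iff_abs_tendsto_zero _).mpr h3
  have h6 := hω1.sub h5
  rw [sub_zero] at h6
  refine h6.congr (fun j => ?_)
  ring

lemma bigC_law [Countable V] (hG : G.IsTree) (hs : CSched G β R J)
    (o : V) (D₀ : Finset V) (hD₀ : (G.induce (D₀ : Set V)).Connected) (η : V → ℤˣ) :
    iidLaw (V × ℕ) {ω | ∀ v ∈ D₀, bigC G β o R J ω v = η v} =
      ENNReal.ofReal (1 / 2 * ∏ e ∈ edgesIn G D₀,
        (1 + Real.tanh β * (((e.map η).mul : ℤˣ) : ℤ)) / 2) := by
  classical
  set μ := 1 / 2 * ∏ e ∈ edgesIn G D₀,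
        (1 + Real.tanh β * (((e.map η).mul : ℤˣ) : ℤ)) / 2 with hμ
  set A := {ω | ∀ v ∈ D₀, bigC G β o R J ω v = η v} with hA
  have hAm : MeasurableSet A := by
    have : A = ⋂ v ∈ D₀, (fun ω => bigC G β o R J ω v) ⁻¹' {η v} := by
      ext ω; simp [hA]
    rw [this]
    apply Finset.measurableSet_biInter
    intro v _
    exact (measurable_pi_iff.mp (measurable_bigC β o R J) v) (measurableSet_singleton_units _)
  -- root of `D₀`
  obtain ⟨⟨r, hr⟩⟩ := hD₀.nonempty
  have hr' : r ∈ D₀ := hr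
  have hcl := closedTo_of_connected hG hD₀ hr'
  have hcard : D₀.card = (D₀.card - 1) + 1 := by
    have : 0 < D₀.card := Finset.card_pos.mpr ⟨r, hr'⟩
    omega
  set F : ℕ → (V × ℕ → unitInterval) → ℝ := fun j ω =>
    gx G β (bal G o (R j)) (sj G β (bal G o (R j)) (R j + J j + 2) (J j) 0 ω)
      (cyl D₀ (fun v => sv (η v))) with hF
  have hFm : ∀ j, Measurable (F j) := by
    intro j
    have h := (measurable_gx (G := G) β (bal G o (R j)) (cyl D₀ (fun v => sv (η v)))).comp
      (measurable_sj (G := G) β (bal G o (R j)) (R j + J j + 2) (J j) 0)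
    exact h
  have hFb : ∀ j ω, |F j ω| ≤ 1 := fun j ω => abs_gx_le fun S _ => abs_cyl_le D₀ η S
  -- expectations are eventually equal to `μ`
  obtain ⟨N, hN⟩ : ∃ N, ∀ j, N ≤ j → D₀ ⊆ bal G o (R j) := by
    refine ⟨D₀.sup (fun x => G.dist o x), fun j hj x hx => ?_⟩
    rw [mem_bal hG.connected]
    have h1 : G.dist o x ≤ D₀.sup (fun x => G.dist o x) :=
      Finset.le_sup (f := fun x => G.dist o x) hx
    exact (h1.trans hj).trans (hs.hk j)
  have hFi : ∀ j, N ≤ j → ∫ ω, F j ω ∂iidLaw (V × ℕ) = μ := by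
    intro j hj
    have h1 := sj_gx (G := G) β (bal G o (R j)) (cyl D₀ (fun v => sv (η v)))
      (R j + J j + 2) (J j)
    rw [hF]
    rw [h1]
    exact cyl_law hG β η r (D₀.card - 1) D₀ hcard (hN j hj) hcl
  -- almost sure convergence
  have hz : ∀ᵐ ω ∂iidLaw (V × ℕ), ∀ v, Tendsto (fun j => zc G β o R J v j ω) atTop
      (𝓝 (sv (bigC G β o R J ω v))) := by
    rw [ae_all_iff]
    intro v
    exact zc_tendsto hG hs o v
  have hconv : ∀ᵐ ω ∂iidLaw (V × ℕ), Tendsto (fun j => F j ω) atTop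
      (𝓝 (A.indicator (fun _ => (1 : ℝ)) ω)) := by
    filter_upwards [hz] with ω hω
    have hind : A.indicator (fun _ => (1 : ℝ)) ω = cylP D₀ η (bigC G β o R J ω) := by
      rw [cylP_eq]
      by_cases h : ∀ v ∈ D₀, bigC G β o R J ω v = η v
      · rw [if_pos h]
        exact Set.indicator_of_mem (s := A) h _
      · rw [if_neg h]
        exact Set.indicator_of_notMem (s := A) h _
    rw [hind]
    have hbound : ∀ j, |F j ω - cylP D₀ η (bigC G β o R J ω)| ≤
        ∑ v ∈ D₀, (1 - sv (bigC G β o R J ω v) * zc G β o R J v j ω) / 2 :=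
      fun j => abs_gx_cyl_sub_le D₀ η (bigC G β o R J ω)
    have hlim : Tendsto (fun j => ∑ v ∈ D₀,
        (1 - sv (bigC G β o R J ω v) * zc G β o R J v j ω) / 2) atTop (𝓝 0) := by
      have h0 : (0 : ℝ) = ∑ v ∈ D₀, (0 : ℝ) := by simp
      rw [h0]
      apply tendsto_finsetSum
      intro v _
      have h1 := ((tendsto_const_nhds (x := (1 : ℝ))).sub
        ((hω v).const_mul (sv (bigC G β o R J ω v)))).div_const 2
      rw [sv_mul_self, sub_self, zero_div] at h1
      exact h1
    rw [tendsto_iff_norm_sub_tendsto_zero]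
    exact squeeze_zero (fun j => norm_nonneg _) hbound hlim
  have hlimI : Tendsto (fun j => ∫ ω, F j ω ∂iidLaw (V × ℕ)) atTop
      (𝓝 (∫ ω, A.indicator (fun _ => (1 : ℝ)) ω ∂iidLaw (V × ℕ))) := by
    apply tendsto_integral_of_dominated_convergence (fun _ => (1 : ℝ))
    · intro j; exact (hFm j).aestronglyMeasurable
    · exact integrable_const _
    · intro j; exact Eventually.of_forall fun ω => hFb j ω
    · exact hconv
  have hlimI' : Tendsto (fun j => ∫ ω, F j ω ∂iidLaw (V × ℕ)) atTop (𝓝 μ) := by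
    apply tendsto_const_nhds.congr'
    filter_upwards [eventually_ge_atTop N] with j hj
    exact (hFi j hj).symm
  have hfin := tendsto_nhds_unique hlimI hlimI'
  rw [integral_indicator hAm, setIntegral_const, smul_eq_mul, mul_one] at hfin
  rw [← hfin]
  exact (ofReal_measureReal (measure_ne_top _ _)).symm

/-- The factor on the big label space. -/
theorem crit_factor [Countable V] (hC : Crit G b β)
    (hmu : ∀ j : ℕ, muf G β (j : ℤ) 0 = 0) (o : V) :
    ∃ Φ : (V × ℕ → unitInterval) → V → ℤˣ, Measurable Φ ∧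
      (∀ e : G ≃g G, ∀ᵐ ω ∂iidLaw (V × ℕ), ∀ v, Φ (shiftL e ω) v = Φ ω (e v)) ∧
      ∀ (D₀ : Finset V), (G.induce (D₀ : Set V)).Connected → ∀ η : V → ℤˣ,
        iidLaw (V × ℕ) {ω | ∀ v ∈ D₀, Φ ω v = η v} =
          ENNReal.ofReal (1 / 2 * ∏ e ∈ edgesIn G D₀,
            (1 + Real.tanh β * (((e.map η).mul : ℤˣ) : ℤ)) / 2) := by
  have : Nonempty V := ⟨o⟩
  obtain ⟨R, J, hs⟩ := exists_csched hC.tree.connected hmu
  exact ⟨bigC G β o R J, measurable_bigC β o R J, fun e => bigC_equivariant hC.tree hs o e,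
    fun D₀ hD₀ η => bigC_law hC.tree hs o D₀ hD₀ η⟩

end Vale.Agent.P161C
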