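import Vale.Agent.Lib.P161C.Scalar

/-!
P161 critical, module LAYER (sections 11, 12.2 of notes/P161crit/proof.md): combination of own
laws (pure measure theory on `ℝ`), own laws of the process.
-/

open Finset MeasureTheory

namespace Vale.Agent.P161C
open Vale.Agent.P161
open scoped ENNReal

/-! ### Helpers -/

lemma IsOwn.ae_prod {α γ : Measure ℝ} (hα : IsOwn α) (hγ : IsOwn γ) :
    ∀ᵐ z ∂α.prod γ, |z.1| < 1 ∧ |z.2| < 1 := by
  have := hα.prob
  have := hγ.prob
  have h1 := (Measure.quasiMeasurePreserving_fst (μ := α) (ν := γ)).ae hα.supp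
  have h2 := (Measure.quasiMeasurePreserving_snd (μ := α) (ν := γ)).ae hγ.supp
  filter_upwards [h1, h2] with z hz1 hz2
  exact ⟨hz1, hz2⟩

lemma ly_one_add_mul_pos {x y : ℝ} (hx : |x| < 1) (hy : |y| < 1) : 0 < 1 + x * y := by
  have h : |x * y| < 1 := by
    rw [abs_mul]
    calc |x| * |y| ≤ |x| * 1 := mul_le_mul_of_nonneg_left hy.le (abs_nonneg x)
      _ = |x| := mul_one _
      _ < 1 := hx
  linarith [(abs_lt.mp h).1]

lemma ly_abs_vadd_lt {x y : ℝ} (hx : |x| < 1) (hy : |y| < 1) : |(x + y) / (1 + x * y)| < 1 := by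
  have h := ly_one_add_mul_pos hx hy
  rw [abs_div, abs_of_pos h, div_lt_one h, abs_lt]
  rw [abs_lt] at hx hy
  constructor
  · nlinarith [mul_pos (show 0 < 1 + x by linarith) (show 0 < 1 + y by linarith)]
  · nlinarith [mul_pos (show 0 < 1 - x by linarith) (show 0 < 1 - y by linarith)]

lemma ly_measurable_vadd : Measurable (fun z : ℝ × ℝ => (z.1 + z.2) / (1 + z.1 * z.2)) := by
  fun_prop

lemma ly_measurable_vden : Measurable (fun z : ℝ × ℝ => ENNReal.ofReal (1 + z.1 * z.2)) := by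
  fun_prop

lemma lintegral_comb (α γ : Measure ℝ) {F : ℝ → ℝ≥0∞} (hF : Measurable F) :
    ∫⁻ x, F x ∂comb α γ = ∫⁻ z, ENNReal.ofReal (1 + z.1 * z.2) *
      F ((z.1 + z.2) / (1 + z.1 * z.2)) ∂α.prod γ := by
  unfold comb
  rw [lintegral_map hF ly_measurable_vadd]
  exact lintegral_withDensity_eq_lintegral_mul _ ly_measurable_vden (hF.comp ly_measurable_vadd)

lemma lintegral_comb' (α γ : Measure ℝ) [SFinite γ] {F : ℝ → ℝ≥0∞}
    (hF : Measurable F) :
    ∫⁻ x, F x ∂comb α γ = ∫⁻ x, ∫⁻ y, ENNReal.ofReal (1 + x * y) *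
      F ((x + y) / (1 + x * y)) ∂γ ∂α := by
  rw [lintegral_comb α γ hF, lintegral_prod]
  exact (ly_measurable_vden.mul (hF.comp ly_measurable_vadd)).aemeasurable

lemma IsOwn.integrable_id {α : Measure ℝ} (hα : IsOwn α) : Integrable (fun x : ℝ => x) α := by
  have := hα.prob
  refine Integrable.of_bound measurable_id.aestronglyMeasurable 1 ?_
  filter_upwards [hα.supp] with x hx
  rw [Real.norm_eq_abs]; exact hx.le

lemma IsOwn.integral_neg {α : Measure ℝ} (hα : IsOwn α) {F : ℝ → ℝ} (hF : Measurable F) :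
    ∫ x, F (-x) ∂α = ∫ x, F x ∂α := by
  conv_rhs => rw [← hα.symm]
  rw [integral_map measurable_neg.aemeasurable hF.aestronglyMeasurable]

lemma IsOwn.integral_id {α : Measure ℝ} (hα : IsOwn α) : ∫ x, x ∂α = 0 := by
  have h := hα.integral_neg (F := fun x => x) measurable_id
  rw [MeasureTheory.integral_neg] at h
  linarith

lemma IsOwn.integrable_mul {α γ : Measure ℝ} (hα : IsOwn α) (hγ : IsOwn γ) :
    Integrable (fun z : ℝ × ℝ => z.1 * z.2) (α.prod γ) := by
  have := hα.prob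
  have := hγ.prob
  exact hα.integrable_id.mul_prod hγ.integrable_id

lemma IsOwn.integral_den {α γ : Measure ℝ} (hα : IsOwn α) (hγ : IsOwn γ) :
    ∫ z : ℝ × ℝ, (1 + z.1 * z.2) ∂α.prod γ = 1 := by
  have := hα.prob
  have := hγ.prob
  rw [integral_add (integrable_const _) (hα.integrable_mul hγ),
    integral_prod_mul (fun x : ℝ => x) (fun y : ℝ => y), hα.integral_id]
  simp

/-! ### `comb` -/

lemma integral_comb {α γ : Measure ℝ} (hα : IsOwn α) (hγ : IsOwn γ) {F : ℝ → ℝ}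
    (hF : Measurable F) :
    ∫ x, F x ∂comb α γ = ∫ z, F ((z.1 + z.2) / (1 + z.1 * z.2)) * (1 + z.1 * z.2) ∂α.prod γ := by
  unfold comb
  rw [integral_map ly_measurable_vadd.aemeasurable hF.aestronglyMeasurable,
    integral_withDensity_eq_integral_toReal_smul ly_measurable_vden
      (Filter.Eventually.of_forall fun _ => ENNReal.ofReal_lt_top)]
  refine integral_congr_ae ?_
  filter_upwards [hα.ae_prod hγ] with z hz
  rw [ENNReal.toReal_ofReal (ly_one_add_mul_pos hz.1 hz.2).le, smul_eq_mul, mul_comm]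


lemma ae_comb {α γ : Measure ℝ} {P : ℝ → Prop} (hP : MeasurableSet {x | P x})
    (h : ∀ᵐ z ∂α.prod γ, P ((z.1 + z.2) / (1 + z.1 * z.2))) : ∀ᵐ x ∂comb α γ, P x := by
  unfold comb
  rw [ae_map_iff ly_measurable_vadd.aemeasurable hP]
  exact (withDensity_absolutelyContinuous _ _).ae_le h

lemma IsOwn.lintegral_neg {α : Measure ℝ} (hα : IsOwn α) {F : ℝ → ℝ≥0∞} (hF : Measurable F) :
    ∫⁻ x, F (-x) ∂α = ∫⁻ x, F x ∂α := by
  conv_rhs => rw [← hα.symm]
  rw [lintegral_map hF measurable_neg]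

lemma ly_measurable_inner (γ : Measure ℝ) [SFinite γ] {F : ℝ → ℝ≥0∞} (hF : Measurable F) :
    Measurable (fun x : ℝ => ∫⁻ y, ENNReal.ofReal (1 + x * y) *
      F ((x + y) / (1 + x * y)) ∂γ) :=
  (ly_measurable_vden.mul (hF.comp ly_measurable_vadd)).lintegral_prod_right'

lemma isOwn_comb {α γ : Measure ℝ} (hα : IsOwn α) (hγ : IsOwn γ) : IsOwn (comb α γ) := by
  have := hα.prob
  have := hγ.prob
  refine ⟨⟨?_⟩, ?_, ?_⟩
  · have h := lintegral_comb α γ (F := fun _ => 1) measurable_const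
    rw [lintegral_one] at h
    rw [h]
    simp only [mul_one]
    rw [← ofReal_integral_eq_lintegral_ofReal, hα.integral_den hγ, ENNReal.ofReal_one]
    · exact (integrable_const _).add (hα.integrable_mul hγ)
    · filter_upwards [hα.ae_prod hγ] with z hz using (ly_one_add_mul_pos hz.1 hz.2).le
  · refine Measure.ext_of_lintegral _ (fun F hF => ?_)
    rw [lintegral_map hF measurable_neg,
      show ∫⁻ x, F (-x) ∂comb α γ = _ from lintegral_comb' α γ (hF.comp measurable_neg),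
      lintegral_comb' α γ hF, ← hα.lintegral_neg (ly_measurable_inner γ hF)]
    refine lintegral_congr (fun x => ?_)
    rw [← hγ.lintegral_neg]
    · refine lintegral_congr (fun y => ?_)
      rw [show (1 : ℝ) + x * -y = 1 + -x * y by ring,
        show (-x + y) / (1 + -x * y) = -((x + -y) / (1 + -x * y)) by ring]
    · fun_prop
  · refine ae_comb (measurableSet_lt (by fun_prop) measurable_const) ?_
    filter_upwards [hα.ae_prod hγ] with z hz using ly_abs_vadd_lt hz.1 hz.2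

lemma isOwn_dirac : IsOwn (Measure.dirac 0) := by
  refine ⟨inferInstance, ?_, ?_⟩
  · rw [Measure.map_dirac' measurable_neg, neg_zero]
  · rw [ae_dirac_eq]; simp

lemma comb_dirac {α : Measure ℝ} (hα : IsOwn α) : comb α (Measure.dirac 0) = α := by
  refine Measure.ext_of_lintegral _ (fun F hF => ?_)
  rw [lintegral_comb' α _ hF]
  refine lintegral_congr (fun x => ?_)
  rw [lintegral_dirac]; simp

lemma comb_comm {α γ : Measure ℝ} (hα : IsOwn α) (hγ : IsOwn γ) : comb α γ = comb γ α := by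
  have := hα.prob
  have := hγ.prob
  refine Measure.ext_of_lintegral _ (fun F hF => ?_)
  rw [lintegral_comb α γ hF, lintegral_comb γ α hF, ← lintegral_prod_swap]
  refine lintegral_congr (fun z => ?_)
  simp only [Prod.fst_swap, Prod.snd_swap]
  rw [mul_comm z.2 z.1, add_comm z.2 z.1]

lemma dirac_comb {α : Measure ℝ} (hα : IsOwn α) : comb (Measure.dirac 0) α = α := by
  rw [comb_comm isOwn_dirac hα, comb_dirac hα]

/-- Density `(1+xy)(1+z(x+y)/(1+xy)) = 1+xy+xz+yz`, and velocity addition is associative. -/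
lemma comb_assoc {α γ δ : Measure ℝ} (hα : IsOwn α) (hγ : IsOwn γ) (hδ : IsOwn δ) :
    comb (comb α γ) δ = comb α (comb γ δ) := by
  have := hα.prob
  have := hγ.prob
  have := hδ.prob
  have := (isOwn_comb hα hγ).prob
  have := (isOwn_comb hγ hδ).prob
  refine Measure.ext_of_lintegral _ (fun F hF => ?_)
  rw [lintegral_comb' (comb α γ) δ hF, lintegral_comb' α (comb γ δ) hF,
    lintegral_comb' α γ (ly_measurable_inner δ hF)]
  refine lintegral_congr_ae ?_
  filter_upwards [hα.supp] with x hx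
  rw [lintegral_comb' γ δ (by fun_prop)]
  refine lintegral_congr_ae ?_
  filter_upwards [hγ.supp] with y hy
  have h1 := ly_one_add_mul_pos hx hy
  rw [← lintegral_const_mul _ (by fun_prop)]
  refine lintegral_congr_ae ?_
  filter_upwards [hδ.supp] with z hz
  have h2 := ly_one_add_mul_pos hy hz
  have h3 := ly_one_add_mul_pos (ly_abs_vadd_lt hx hy) hz
  have h4 := ly_one_add_mul_pos hx (ly_abs_vadd_lt hy hz)
  rw [← mul_assoc, ← mul_assoc, ← ENNReal.ofReal_mul h1.le, ← ENNReal.ofReal_mul h2.le]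
  have h5 : 0 < 1 + x * y + x * z + y * z := by
    have : (1 + x * y) * (1 + (x + y) / (1 + x * y) * z) = 1 + x * y + x * z + y * z := by
      field_simp; ring
    rw [← this]; exact mul_pos h1 h3
  congr 2
  · field_simp; ring
  · rw [div_eq_div_iff h3.ne' h4.ne']
    field_simp
    ring

/-- Second moments: `max ≤ . ≤ sum` (2.1). -/
lemma comb_sq_ge_left {α γ : Measure ℝ} (hα : IsOwn α) (hγ : IsOwn γ) :
    ∫ x, x ^ 2 ∂α ≤ ∫ x, x ^ 2 ∂comb α γ := by
  have := hα.prob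
  have := hγ.prob
  rw [integral_comb hα hγ (by fun_prop)]
  have hb : ∀ᵐ z ∂α.prod γ, ((z.1 + z.2) / (1 + z.1 * z.2)) ^ 2 * (1 + z.1 * z.2) ≤ 2 ∧
      0 ≤ ((z.1 + z.2) / (1 + z.1 * z.2)) ^ 2 * (1 + z.1 * z.2) := by
    filter_upwards [hα.ae_prod hγ] with z hz
    have h1 := ly_one_add_mul_pos hz.1 hz.2
    have h2 := ly_abs_vadd_lt hz.1 hz.2
    have h3 : ((z.1 + z.2) / (1 + z.1 * z.2)) ^ 2 ≤ 1 := by
      rw [← sq_abs]; exact pow_le_one₀ (abs_nonneg _) h2.le
    have h4 : 1 + z.1 * z.2 ≤ 2 := by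
      have := ly_one_add_mul_pos (x := z.1) (y := -z.2) hz.1 (by rw [abs_neg]; exact hz.2)
      linarith [mul_neg z.1 z.2]
    constructor
    · nlinarith [sq_nonneg ((z.1 + z.2) / (1 + z.1 * z.2))]
    · positivity
  have hI1 : Integrable (fun z : ℝ × ℝ => ((z.1 + z.2) / (1 + z.1 * z.2)) ^ 2 * (1 + z.1 * z.2))
      (α.prod γ) := by
    refine Integrable.of_bound (Measurable.aestronglyMeasurable (by fun_prop)) 2 ?_
    filter_upwards [hb] with z hz
    rw [Real.norm_eq_abs, abs_of_nonneg hz.2]; exact hz.1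
  have hpow : ∀ k : ℕ, Integrable (fun x : ℝ => x ^ k) α := by
    intro k
    refine Integrable.of_bound (Measurable.aestronglyMeasurable (by fun_prop)) 1 ?_
    filter_upwards [hα.supp] with x hx
    rw [Real.norm_eq_abs, abs_pow]
    exact pow_le_one₀ (abs_nonneg _) hx.le
  have hI2 : Integrable (fun z : ℝ × ℝ => z.1 ^ 2) (α.prod γ) := by
    simpa using (hpow 2).mul_prod (integrable_const (1 : ℝ) (μ := γ))
  have hI3 : Integrable (fun z : ℝ × ℝ => (2 * z.1 - z.1 ^ 3) * z.2) (α.prod γ) :=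
    (((hα.integrable_id.const_mul 2).sub (hpow 3)).mul_prod hγ.integrable_id :)
  have key : ∫ z : ℝ × ℝ, (z.1 ^ 2 + (2 * z.1 - z.1 ^ 3) * z.2) ∂α.prod γ ≤
      ∫ z : ℝ × ℝ, ((z.1 + z.2) / (1 + z.1 * z.2)) ^ 2 * (1 + z.1 * z.2) ∂α.prod γ := by
    refine integral_mono_ae (hI2.add hI3) hI1 ?_
    filter_upwards [hα.ae_prod hγ] with z hz
    have h1 := ly_one_add_mul_pos hz.1 hz.2
    have : ((z.1 + z.2) / (1 + z.1 * z.2)) ^ 2 * (1 + z.1 * z.2) -
        (z.1 ^ 2 + (2 * z.1 - z.1 ^ 3) * z.2) =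
        ((z.1 + z.2) / (1 + z.1 * z.2) - z.1) ^ 2 * (1 + z.1 * z.2) := by
      field_simp; ring
    have h2 : 0 ≤ ((z.1 + z.2) / (1 + z.1 * z.2) - z.1) ^ 2 * (1 + z.1 * z.2) := by positivity
    linarith
  refine le_trans (le_of_eq ?_) key
  rw [integral_add hI2 hI3, integral_prod_mul (fun x : ℝ => 2 * x - x ^ 3) (fun y : ℝ => y),
    hγ.integral_id, integral_fun_fst (fun x : ℝ => x ^ 2)]
  simp

lemma comb_sq_ge {α γ : Measure ℝ} (hα : IsOwn α) (hγ : IsOwn γ) :
    ∫ x, x ^ 2 ∂α ≤ ∫ x, x ^ 2 ∂comb α γ ∧ ∫ x, x ^ 2 ∂γ ≤ ∫ x, x ^ 2 ∂comb α γ := by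
  refine ⟨comb_sq_ge_left hα hγ, ?_⟩
  rw [comb_comm hα hγ]
  exact comb_sq_ge_left hγ hα

lemma ly_artanh_vadd {x y : ℝ} (hx : |x| < 1) (hy : |y| < 1) :
    Real.artanh ((x + y) / (1 + x * y)) = Real.artanh x + Real.artanh y := by
  have h1 := ly_one_add_mul_pos hx hy
  have h2 := ly_abs_vadd_lt hx hy
  rw [abs_lt] at hx hy h2
  rw [Real.artanh_eq_half_log ⟨h2.1.le, h2.2.le⟩, Real.artanh_eq_half_log ⟨hx.1.le, hx.2.le⟩,
    Real.artanh_eq_half_log ⟨hy.1.le, hy.2.le⟩, ← mul_add,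
    ← Real.log_mul (div_pos (by linarith) (by linarith)).ne'
      (div_pos (by linarith) (by linarith)).ne']
  congr 2
  have h3 : 1 + x * y - (x + y) ≠ 0 := by
    have : 1 + x * y - (x + y) = (1 - x) * (1 - y) := by ring
    rw [this]; exact (mul_pos (by linarith) (by linarith)).ne'
  have h4 : (1 : ℝ) - x ≠ 0 := by linarith
  have h5 : (1 : ℝ) - y ≠ 0 := by linarith
  have h6 : 1 - (x + y) / (1 + x * y) ≠ 0 := by
    rw [ne_eq, sub_eq_zero]; intro h; linarith [h2.2]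
  rw [div_mul_div_comm, div_eq_div_iff h6 (mul_ne_zero h4 h5)]
  field_simp
  ring

/-- Essential bounds in terms of the fields. -/
lemma comb_supp {α γ : Measure ℝ} (hα : IsOwn α) (hγ : IsOwn γ) {A B : ℝ}
    (hA : ∀ᵐ x ∂α, |Real.artanh x| ≤ A) (hB : ∀ᵐ x ∂γ, |Real.artanh x| ≤ B) :
    ∀ᵐ x ∂comb α γ, |Real.artanh x| ≤ A + B := by
  have := hα.prob
  have := hγ.prob
  refine ae_comb (measurableSet_le (measurable_artanh.abs) measurable_const) ?_
  have h1 := (Measure.quasiMeasurePreserving_fst (μ := α) (ν := γ)).ae hA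
  have h2 := (Measure.quasiMeasurePreserving_snd (μ := α) (ν := γ)).ae hB
  filter_upwards [hα.ae_prod hγ, h1, h2] with z hz hz1 hz2
  rw [ly_artanh_vadd hz.1 hz.2]
  exact (abs_add_le _ _).trans (add_le_add hz1 hz2)

/-! ### Observations -/

/-- The law of an observation of strength `a`. -/
noncomputable def ob (a : ℝ) : Measure ℝ :=
  Measure.map (fun r : unitInterval => a * (2 * (r : ℝ) - 1)) volume

lemma ly_measurable_obf (a : ℝ) : Measurable (fun r : unitInterval => a * (2 * (r : ℝ) - 1)) := by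
  fun_prop

lemma obs_eq (a q : ℝ) :
    obs a q = ENNReal.ofReal q • ob a + ENNReal.ofReal (1 - q) • Measure.dirac 0 := rfl

lemma obs_one (a : ℝ) : obs a 1 = ob a := by
  rw [obs_eq]; simp

lemma prob_ob (a : ℝ) : IsProbabilityMeasure (ob a) :=
  Measure.isProbabilityMeasure_map (ly_measurable_obf a).aemeasurable

lemma ob_neg (a : ℝ) : (ob a).map (fun x => -x) = ob a := by
  unfold ob
  rw [Measure.map_map measurable_neg (ly_measurable_obf a)]
  have h : ((fun x : ℝ => -x) ∘ fun r : unitInterval => a * (2 * (r : ℝ) - 1)) =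
      (fun r : unitInterval => a * (2 * (r : ℝ) - 1)) ∘ unitInterval.symm := by
    funext r
    simp only [Function.comp_apply, unitInterval.coe_symm_eq]
    ring
  rw [h, ← Measure.map_map (ly_measurable_obf a) unitInterval.measurable_symm,
    unitInterval.measurePreserving_symm.map_eq]

lemma ae_ob {a : ℝ} (ha0 : 0 ≤ a) : ∀ᵐ x ∂ob a, |x| ≤ a := by
  unfold ob
  rw [ae_map_iff (ly_measurable_obf a).aemeasurable (measurableSet_le (by fun_prop) measurable_const)]
  refine Filter.Eventually.of_forall (fun r => ?_)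
  rw [abs_mul, abs_of_nonneg ha0]
  have h : |2 * (r : ℝ) - 1| ≤ 1 := by
    rw [abs_le]; constructor <;> linarith [r.2.1, r.2.2]
  calc a * |2 * (r : ℝ) - 1| ≤ a * 1 := mul_le_mul_of_nonneg_left h ha0
    _ = a := mul_one a

lemma ae_obs {a q : ℝ} (ha0 : 0 ≤ a) : ∀ᵐ x ∂obs a q, |x| ≤ a := by
  rw [obs_eq, ae_add_measure_iff]
  refine ⟨Measure.ae_smul_measure (ae_ob ha0) _, Measure.ae_smul_measure ?_ _⟩
  rw [ae_dirac_eq]; simpa using ha0

lemma isOwn_obs {a q : ℝ} (ha0 : 0 ≤ a) (ha : a < 1) (hq0 : 0 ≤ q) (hq1 : q ≤ 1) :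
    IsOwn (obs a q) := by
  have := prob_ob a
  refine ⟨⟨?_⟩, ?_, ?_⟩
  · rw [obs_eq]
    simp only [Measure.add_apply, Measure.smul_apply, measure_univ, smul_eq_mul, mul_one]
    rw [← ENNReal.ofReal_add hq0 (by linarith)]
    simp
  · rw [obs_eq, Measure.map_add _ _ measurable_neg, Measure.map_smul, Measure.map_smul, ob_neg,
      Measure.map_dirac' measurable_neg, neg_zero]
  · filter_upwards [ae_obs ha0 (q := q)] with x hx using hx.trans_lt ha

lemma comb_obs {α : Measure ℝ} (hα : IsOwn α) (a q : ℝ) :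
    comb α (obs a q) = ENNReal.ofReal q • comb α (obs a 1) + ENNReal.ofReal (1 - q) • α := by
  have := hα.prob
  have := prob_ob a
  refine Measure.ext_of_lintegral _ (fun F hF => ?_)
  have hs : SFinite (obs a q) := by rw [obs_eq]; infer_instance
  rw [lintegral_comb' α _ hF, lintegral_add_measure, lintegral_smul_measure,
    lintegral_smul_measure, obs_one, lintegral_comb' α _ hF, smul_eq_mul, smul_eq_mul,
    ← lintegral_const_mul _ (ly_measurable_inner _ hF), ← lintegral_const_mul _ hF,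
    ← lintegral_add_right _ (hF.const_mul _)]
  refine lintegral_congr (fun x => ?_)
  rw [obs_eq, lintegral_add_measure, lintegral_smul_measure, lintegral_smul_measure,
    lintegral_dirac, smul_eq_mul, smul_eq_mul]
  simp

lemma integral_comb_obs {α : Measure ℝ} (hα : IsOwn α) {a q : ℝ} (ha0 : 0 ≤ a) (ha : a < 1)
    (hq0 : 0 ≤ q) (hq1 : q ≤ 1) {F : ℝ → ℝ} (hF : Measurable F) {C : ℝ} (hb : ∀ x, |F x| ≤ C) :
    ∫ x, F x ∂comb α (obs a q) =
      q * ∫ x, F x ∂comb α (obs a 1) + (1 - q) * ∫ x, F x ∂α := by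
  have h1 := (isOwn_comb hα (isOwn_obs ha0 ha zero_le_one le_rfl)).prob
  have h2 := hα.prob
  have hI : ∀ (μ : Measure ℝ) [IsFiniteMeasure μ], Integrable F μ := fun μ _ =>
    Integrable.of_bound hF.aestronglyMeasurable C (Filter.Eventually.of_forall hb)
  rw [comb_obs hα a q, integral_add_measure, integral_smul_measure, integral_smul_measure,
    ENNReal.toReal_ofReal hq0, ENNReal.toReal_ofReal (by linarith), smul_eq_mul, smul_eq_mul]
  · exact (hI _).smul_measure ENNReal.ofReal_ne_top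
  · exact (hI _).smul_measure ENNReal.ofReal_ne_top

lemma nuR_succ (n m : ℕ) :
    nuR n (m + 1) = comb (nuR n m) (obs (str ((m : ℤ) - n)) (1 / 2)) := rfl

lemma ly_str_pos (j : ℤ) : 0 < str j := by
  unfold str; positivity

lemma ly_str_le (j : ℤ) : str j ≤ 1 / 4 := by
  unfold str
  have h : (2 : ℝ) ^ (min j 0) ≤ 1 := zpow_le_one_of_nonpos₀ (by norm_num) (min_le_right _ _)
  linarith

lemma isOwn_obs_str (j : ℤ) {q : ℝ} (hq0 : 0 ≤ q) (hq1 : q ≤ 1) : IsOwn (obs (str j) q) :=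
  isOwn_obs (ly_str_pos j).le (by linarith [ly_str_le j]) hq0 hq1

lemma isOwn_nuR (n m : ℕ) : IsOwn (nuR n m) := by
  induction m with
  | zero => exact isOwn_dirac
  | succ m ih => exact isOwn_comb ih (isOwn_obs_str _ (by norm_num) (by norm_num))

lemma isOwn_nuS (n : ℕ) (j : ℤ) {l : ℝ} (hl0 : 0 ≤ l) (hl : l ≤ 1) : IsOwn (nuS n j l) :=
  isOwn_comb (isOwn_nuR _ _) (isOwn_obs_str _ hl0 hl)

lemma comb_right_comm {α γ δ : Measure ℝ} (hα : IsOwn α) (hγ : IsOwn γ) (hδ : IsOwn δ) :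
    comb (comb α γ) δ = comb (comb α δ) γ := by
  rw [comb_assoc hα hγ hδ, comb_comm hγ hδ, ← comb_assoc hα hδ hγ]

lemma nuR_eq_comb (n k m : ℕ) : nuR (n + k) (m + k) = comb (nuR n m) (nuR (n + k) k) := by
  induction m with
  | zero =>
    rw [Nat.zero_add]
    exact (dirac_comb (isOwn_nuR _ _)).symm
  | succ m ih =>
    have h : m + 1 + k = (m + k) + 1 := by ring
    rw [h, nuR_succ, ih, nuR_succ,
      show ((m + k : ℕ) : ℤ) - ((n + k : ℕ) : ℤ) = (m : ℤ) - n by push_cast; ring]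
    exact comb_right_comm (isOwn_nuR _ _) (isOwn_nuR _ _)
      (isOwn_obs_str _ (by norm_num) (by norm_num))

/-- Earlier starts: the own law of the process started at `-n'` is the own law of the process
started at `-n ≥ -n'`, combined with the rounds `-n', …, -n-1`. -/
lemma nuS_eq_comb {n n' : ℕ} (hn : n ≤ n') {j : ℤ} (hj : -(n : ℤ) ≤ j) {l : ℝ} (hl0 : 0 ≤ l)
    (hl : l ≤ 1) : ∃ γ : Measure ℝ, IsOwn γ ∧ nuS n' j l = comb (nuS n j l) γ := by
  obtain ⟨k, rfl⟩ := Nat.exists_eq_add_of_le hn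
  refine ⟨nuR (n + k) k, isOwn_nuR _ _, ?_⟩
  unfold nuS
  have h : (j + ((n + k : ℕ) : ℤ)).toNat = (j + n).toNat + k := by
    push_cast; omega
  rw [h, nuR_eq_comb]
  exact comb_right_comm (isOwn_nuR _ _) (isOwn_nuR _ _) (isOwn_obs_str _ hl0 hl)

/-! ### Scales -/

lemma integral_ob_sq (a : ℝ) : ∫ x, x ^ 2 ∂ob a = a ^ 2 / 3 := by
  unfold ob
  rw [integral_map (ly_measurable_obf a).aemeasurable (Measurable.aestronglyMeasurable (by fun_prop)),
    integral_unitInterval (fun r => (a * (2 * r - 1)) ^ 2)]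
  have h : ∀ r : ℝ, (a * (2 * r - 1)) ^ 2 = a ^ 2 * (4 * r ^ 2 - 4 * r + 1) := fun r => by ring
  simp only [h]
  rw [intervalIntegral.integral_const_mul]
  have h2 : ∫ r in (0 : ℝ)..1, (4 * r ^ 2 - 4 * r + 1) = 1 / 3 := by
    rw [intervalIntegral.integral_add, intervalIntegral.integral_sub]
    · rw [intervalIntegral.integral_const_mul, intervalIntegral.integral_const_mul 4 (fun x => x),
        _root_.integral_id]
      simp only [integral_pow, intervalIntegral.integral_const]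
      norm_num
    all_goals exact Continuous.intervalIntegrable (by fun_prop) _ _
  rw [h2]; ring

lemma integral_obs_sq {a q : ℝ} (ha0 : 0 ≤ a) (ha : a < 1) (hq0 : 0 ≤ q) (hq1 : q ≤ 1) :
    ∫ x, x ^ 2 ∂obs a q = q * (a ^ 2 / 3) := by
  have := prob_ob a
  have hI1 : Integrable (fun x : ℝ => x ^ 2) (ob a) := by
    refine Integrable.of_bound (Measurable.aestronglyMeasurable (by fun_prop)) 1 ?_
    filter_upwards [ae_ob ha0] with x hx
    rw [Real.norm_eq_abs, abs_pow]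
    exact pow_le_one₀ (abs_nonneg _) (hx.trans ha.le)
  have hI2 : Integrable (fun x : ℝ => x ^ 2) (Measure.dirac 0) :=
    (integrable_dirac (by simp))
  rw [obs_eq, integral_add_measure (hI1.smul_measure ENNReal.ofReal_ne_top)
    (hI2.smul_measure ENNReal.ofReal_ne_top), integral_smul_measure, integral_smul_measure,
    integral_ob_sq, ENNReal.toReal_ofReal hq0, integral_dirac]
  simp


lemma ly_artanh_neg {x : ℝ} (hx : |x| < 1) : Real.artanh (-x) = -Real.artanh x := by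
  have h := ly_artanh_vadd hx (y := -x) (by rwa [abs_neg])
  rw [add_neg_cancel, zero_div, Real.artanh_zero] at h
  linarith

lemma ly_abs_artanh_eq {x : ℝ} (hx : |x| < 1) : |Real.artanh x| = Real.artanh |x| := by
  rcases le_total 0 x with h | h
  · rw [abs_of_nonneg h, abs_of_nonneg (Real.artanh_nonneg h)]
  · rw [abs_of_nonpos h, abs_of_nonpos (Real.artanh_nonpos h), ly_artanh_neg hx]

lemma ly_abs_le_artanh {x : ℝ} (hx : |x| < 1) : |x| ≤ 2 * |Real.artanh x| := by
  rw [ly_abs_artanh_eq hx]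
  have h0 := abs_nonneg x
  set y := |x|
  rw [Real.artanh_eq_half_log ⟨by linarith, hx.le⟩, Real.log_div (by linarith) (by linarith)]
  have h1 : 0 ≤ Real.log (1 + y) := Real.log_nonneg (by linarith)
  have h2 : Real.log (1 - y) ≤ (1 - y) - 1 := Real.log_le_sub_one_of_pos (by linarith)
  linarith

lemma ly_abs_artanh_le {x a : ℝ} (ha : a ≤ 1 / 4) (hx : |x| ≤ a) : |Real.artanh x| ≤ 2 * a := by
  rw [ly_abs_artanh_eq (by linarith)]
  have h0 := abs_nonneg x
  set y := |x|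
  rw [Real.artanh_eq_half_log ⟨by linarith, by linarith⟩,
    Real.log_div (by linarith) (by linarith)]
  have h1 : Real.log (1 + y) ≤ (1 + y) - 1 := Real.log_le_sub_one_of_pos (by linarith)
  have h2 := Real.one_sub_inv_le_log_of_pos (show 0 < 1 - y by linarith)
  have h3 : (1 - y)⁻¹ ≤ 1 + 4 / 3 * y := by
    rw [inv_le_comm₀ (by linarith) (by positivity), inv_eq_one_div, div_le_iff₀ (by positivity)]
    nlinarith
  linarith

lemma ly_two_zpow_succ (k : ℤ) : (2 : ℝ) ^ (k + 1) = 2 * (2 : ℝ) ^ k := by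
  rw [zpow_add_one₀ (by norm_num)]; ring

lemma ly_str_of_nonpos {j : ℤ} (hj : j ≤ 0) : str j = 1 / 4 * (2 : ℝ) ^ j := by
  unfold str; rw [min_eq_left hj]

lemma ly_ae_artanh_obs_str (j : ℤ) (q : ℝ) :
    ∀ᵐ x ∂obs (str j) q, |Real.artanh x| ≤ 2 * str j := by
  filter_upwards [ae_obs (ly_str_pos j).le (q := q)] with x hx using ly_abs_artanh_le (ly_str_le j) hx

lemma nuR_supp (n m : ℕ) (hm : m ≤ n) :
    ∀ᵐ x ∂nuR n m, |Real.artanh x| ≤ 1 / 2 * (2 : ℝ) ^ ((m : ℤ) - n) := by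
  induction m with
  | zero =>
    show ∀ᵐ x ∂Measure.dirac (0 : ℝ), _
    rw [ae_dirac_eq]
    simp
  | succ m ih =>
    have h1 := ih (by omega)
    rw [nuR_succ]
    have h2 := ly_ae_artanh_obs_str ((m : ℤ) - n) (1 / 2)
    rw [ly_str_of_nonpos (by omega)] at h2
    rw [ly_str_of_nonpos (by omega)]
    have h3 := comb_supp (isOwn_nuR n m)
      (by rw [← ly_str_of_nonpos (by omega)]; exact isOwn_obs_str _ (by norm_num) (by norm_num)) h1 h2
    filter_upwards [h3] with x hx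
    refine hx.trans (le_of_eq ?_)
    rw [show ((m + 1 : ℕ) : ℤ) - n = ((m : ℤ) - n) + 1 by push_cast; ring, ly_two_zpow_succ]
    ring

lemma ly_four_zpow (k : ℤ) : (4 : ℝ) ^ k = ((2 : ℝ) ^ k) ^ 2 := by
  rw [← zpow_natCast, ← zpow_mul, mul_comm, zpow_mul]; norm_num

lemma ly_tj_eq (j : ℤ) : tj j = ((2 : ℝ) ^ (min j 0)) ^ 2 := ly_four_zpow _

/-- (12.2) scales of the own laws of the process; `κ = 400` works. -/
lemma scale_nuS {n : ℕ} {j : ℤ} (hn : j.natAbs + 2 ≤ n) {l : ℝ} (hl0 : 0 ≤ l) (hl : l ≤ 1 / 2) :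
    Scale 400 (tj j) (nuS n j l) := by
  have hown := isOwn_nuS n j hl0 (hl.trans (by norm_num))
  refine ⟨hown, ?_, ?_⟩
  · have h1 : ∫ x, x ^ 2 ∂nuR n (j + n).toNat ≤ ∫ x, x ^ 2 ∂nuS n j l :=
      (comb_sq_ge (isOwn_nuR _ _) (isOwn_obs_str _ hl0 (hl.trans (by norm_num)))).1
    obtain ⟨m, hm⟩ : ∃ m, (j + n).toNat = m + 1 := ⟨(j + n).toNat - 1, by omega⟩
    have hmj : (m : ℤ) - n = j - 1 := by omega
    rw [hm, nuR_succ, hmj] at h1
    have h2 := (comb_sq_ge (isOwn_nuR n m)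
      (isOwn_obs_str (j - 1) (q := 1 / 2) (by norm_num) (by norm_num))).2
    rw [integral_obs_sq (ly_str_pos _).le (by linarith [ly_str_le (j - 1)]) (by norm_num)
      (by norm_num)] at h2
    have h3 : 1 / 8 * (2 : ℝ) ^ (min j 0) ≤ str (j - 1) := by
      unfold str
      have h4 : (2 : ℝ) ^ (min j 0 - 1) ≤ (2 : ℝ) ^ (min (j - 1) 0) :=
        zpow_le_zpow_right₀ (by norm_num) (by omega)
      rw [zpow_sub_one₀ (by norm_num)] at h4
      linarith
    have h5 : (1 / 8 * (2 : ℝ) ^ (min j 0)) ^ 2 ≤ str (j - 1) ^ 2 :=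
      pow_le_pow_left₀ (by positivity) h3 2
    rw [ly_tj_eq]
    nlinarith [sq_nonneg ((2 : ℝ) ^ (min j 0))]
  · rcases le_or_gt j 0 with hj | hj
    · have h1 := nuR_supp n (j + n).toNat (by omega)
      rw [show (((j + n).toNat : ℕ) : ℤ) - n = j by omega] at h1
      have h2 := ly_ae_artanh_obs_str j l
      rw [ly_str_of_nonpos hj] at h2
      have h3 : ∀ᵐ x ∂nuS n j l, |Real.artanh x| ≤ 1 / 2 * (2 : ℝ) ^ j + 2 * (1 / 4 * (2 : ℝ) ^ j) := by
        unfold nuS
        rw [ly_str_of_nonpos hj]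
        refine comb_supp (isOwn_nuR _ _) ?_ h1 h2
        rw [← ly_str_of_nonpos hj]; exact isOwn_obs_str _ hl0 (hl.trans (by norm_num))
      filter_upwards [h3, hown.supp] with x hx hx1
      have h4 := ly_abs_le_artanh hx1
      have h5 : |x| ≤ 2 * (2 : ℝ) ^ j := by linarith
      rw [ly_tj_eq, min_eq_left hj, ← sq_abs]
      have h6 : |x| ^ 2 ≤ (2 * (2 : ℝ) ^ j) ^ 2 := pow_le_pow_left₀ (abs_nonneg _) h5 2
      nlinarith [sq_nonneg ((2 : ℝ) ^ j)]
    · filter_upwards [hown.supp] with x hx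
      rw [ly_tj_eq, min_eq_right hj.le, ← sq_abs]
      have h6 : |x| ^ 2 ≤ 1 := pow_le_one₀ (abs_nonneg _) hx.le
      norm_num
      linarith [sq_abs x]

end Vale.Agent.P161C
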