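import Vale.Agent.Lib.P161C.ModelA

/-!
P161 critical, module MODEL-B (section 1 of notes/P161crit/proof.md): the planted law as a
probability measure.  Uses only statements of MODEL-A.
-/

open Finset MeasureTheory

namespace Vale.Agent.P161C
open Vale.Agent.P161

variable {V : Type*} [DecidableEq V] {G : SimpleGraph V} [DecidableRel G.Adj] {β : ℝ}
  {S A : Finset V} {ν : V → Measure ℝ} {F F' : (V → ℝ) → ℝ}

omit [DecidableEq V] in
lemma ae_abs_lt (hν : ∀ v, IsOwn (ν v)) (S : Finset V) :
    ∀ᵐ p ∂Measure.infinitePi ν, ∀ v ∈ S, |p v| < 1 := by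
  have := fun v => (hν v).prob
  rw [Finset.eventually_all]
  intro v _
  have h := (measurePreserving_eval_infinitePi ν v).quasiMeasurePreserving.ae (hν v).supp
  exact h

/-- extension by zero -/
noncomputable def mb_ext (A : Finset V) (y : A → ℝ) : V → ℝ :=
  fun v => if h : v ∈ A then y ⟨v, h⟩ else 0

lemma mb_ext_meas (A : Finset V) : Measurable (mb_ext A) := by
  rw [measurable_pi_iff]
  intro v
  unfold mb_ext
  by_cases h : v ∈ A
  · simp only [h, dif_pos]
    exact measurable_pi_apply _
  · simp only [h, dif_neg, not_false_iff]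
    exact measurable_const

lemma mb_ext_restrict (A : Finset V) (p : V → ℝ) (v : V) (hv : v ∈ A) :
    mb_ext A (fun i : A => p i) v = p v := by
  unfold mb_ext
  rw [dif_pos hv]

/-- Independence of disjoint sets of coordinates. -/
lemma infinitePi_mul (hν : ∀ v, IsOwn (ν v)) {A B : Finset V} (hAB : Disjoint A B)
    (hF : Measurable F) (hF' : Measurable F')
    (hdF : ∀ p q : V → ℝ, (∀ v ∈ A, p v = q v) → F p = F q)
    (hdF' : ∀ p q : V → ℝ, (∀ v ∈ B, p v = q v) → F' p = F' q) :
    ∫ p, F p * F' p ∂Measure.infinitePi ν =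
      (∫ p, F p ∂Measure.infinitePi ν) * ∫ p, F' p ∂Measure.infinitePi ν := by
  have := fun v => (hν v).prob
  have hind : ProbabilityTheory.iIndepFun (fun (i : V) (ω : V → ℝ) => ω i)
      (Measure.infinitePi ν) :=
    ProbabilityTheory.iIndepFun_infinitePi (X := fun _ x => x) (fun _ => measurable_id)
  have h2 := hind.indepFun_finset A B hAB (fun i => measurable_pi_apply i)
  have h3 := h2.comp (hF.comp (mb_ext_meas A)) (hF'.comp (mb_ext_meas B))
  have e1 : (F ∘ mb_ext A) ∘ (fun (a : V → ℝ) (i : A) => a i) = F := by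
    funext p
    exact hdF _ _ (fun v hv => mb_ext_restrict A p v hv)
  have e2 : (F' ∘ mb_ext B) ∘ (fun (a : V → ℝ) (i : B) => a i) = F' := by
    funext p
    exact hdF' _ _ (fun v hv => mb_ext_restrict B p v hv)
  rw [e1, e2] at h3
  have h4 := h3.integral_mul_eq_mul_integral hF.aestronglyMeasurable hF'.aestronglyMeasurable
  simpa only [Pi.mul_apply] using h4

omit [DecidableEq V] in
/-- The product law is symmetric. -/
lemma infinitePi_neg (hν : ∀ v, IsOwn (ν v)) (hF : Measurable F) :
    ∫ p, F (fun v => -p v) ∂Measure.infinitePi ν = ∫ p, F p ∂Measure.infinitePi ν := by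
  have := fun v => (hν v).prob
  have h1 := Measure.infinitePi_map_pi ν (f := fun _ (x : ℝ) => -x) (fun _ => measurable_neg)
  have h2 : (fun v => (ν v).map (fun x : ℝ => -x)) = ν := by
    funext v
    exact (hν v).symm
  rw [h2] at h1
  conv_rhs => rw [← h1]
  rw [integral_map]
  · exact (measurable_pi_iff.2 fun v => (measurable_pi_apply v).neg).aemeasurable
  · exact hF.aestronglyMeasurable

omit [DecidableEq V] in
lemma mb_integrable_coord (hν : ∀ v, IsOwn (ν v)) (a : V) :
    Integrable (fun p : V → ℝ => p a) (Measure.infinitePi ν) := by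
  have := fun v => (hν v).prob
  refine Integrable.of_bound (measurable_pi_apply a).aestronglyMeasurable 1 ?_
  have h := ae_abs_lt hν {a}
  filter_upwards [h] with p hp
  rw [Real.norm_eq_abs]
  exact (hp a (by simp)).le

omit [DecidableEq V] in
lemma mb_mean_zero (hν : ∀ v, IsOwn (ν v)) (a : V) :
    ∫ p, p a ∂Measure.infinitePi ν = 0 := by
  have h := infinitePi_neg (F := fun p => p a) hν (measurable_pi_apply a)
  rw [integral_neg] at h
  linarith

lemma mb_integral_prod (hν : ∀ v, IsOwn (ν v)) (S : Finset V) (c : V → ℝ) :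
    ∫ p, ∏ v ∈ S, (1 + p v * c v) ∂Measure.infinitePi ν = 1 := by
  have := fun v => (hν v).prob
  induction S using Finset.induction_on with
  | empty => simp
  | insert a S ha ih =>
    have h1 : ∀ p : V → ℝ, ∏ v ∈ insert a S, (1 + p v * c v) =
        (1 + p a * c a) * ∏ v ∈ S, (1 + p v * c v) := fun p => Finset.prod_insert ha
    simp only [h1]
    rw [infinitePi_mul (A := {a}) (B := S) hν (by simpa using ha)]
    · rw [ih, mul_one, integral_add (integrable_const _) ((mb_integrable_coord hν a).mul_const _),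
        integral_mul_const, mb_mean_zero hν]
      simp
    · fun_prop
    · fun_prop
    · intro p q hpq
      rw [hpq a (by simp)]
    · intro p q hpq
      exact Finset.prod_congr rfl fun v hv => by rw [hpq v hv]

lemma mb_Zd_integrable (hν : ∀ v, IsOwn (ν v)) (S : Finset V) :
    Integrable (Zd G β S) (Measure.infinitePi ν) := by
  have := fun v => (hν v).prob
  refine Integrable.of_bound (measurable_Zd S).aestronglyMeasurable (2 ^ S.card) ?_
  filter_upwards [ae_abs_lt hν S] with p hp
  rw [Real.norm_eq_abs, abs_of_nonneg (Zd_nonneg fun v hv => (hp v hv).le)]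
  exact Zd_le fun v hv => (hp v hv).le

/-- Each own message has mean zero: hence `∫ Z_S = 1`. -/
lemma integral_Zd (hν : ∀ v, IsOwn (ν v)) (S : Finset V) :
    ∫ p, Zd G β S p ∂Measure.infinitePi ν = 1 := by
  have := fun v => (hν v).prob
  unfold Zd
  rw [integral_finsetSum]
  · refine Eq.trans (Finset.sum_congr rfl fun T _ => ?_) (sum_isw (G := G) (β := β) S)
    rw [integral_const_mul, mb_integral_prod hν S (fun v => sp T v), mul_one]
  · intro T _
    have hm : Measurable (fun p : V → ℝ => isw G β S T * ∏ v ∈ S, (1 + p v * sp T v)) := by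
      fun_prop
    refine Integrable.of_bound hm.aestronglyMeasurable (isw G β S T * 2 ^ S.card) ?_
    filter_upwards [ae_abs_lt hν S] with p hp
    have h1 : ∀ v ∈ S, 0 ≤ 1 + p v * sp T v ∧ 1 + p v * sp T v ≤ 2 :=
      fun v hv => one_add_mul_sp_nonneg (hp v hv).le T v
    have h2 : 0 ≤ ∏ v ∈ S, (1 + p v * sp T v) := Finset.prod_nonneg fun v hv => (h1 v hv).1
    rw [Real.norm_eq_abs, abs_of_nonneg (mul_nonneg (isw_pos S T).le h2)]
    refine mul_le_mul_of_nonneg_left ?_ (isw_pos S T).le
    calc ∏ v ∈ S, (1 + p v * sp T v) ≤ ∏ v ∈ S, (2 : ℝ) :=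
          Finset.prod_le_prod (fun v hv => (h1 v hv).1) (fun v hv => (h1 v hv).2)
      _ = 2 ^ S.card := by rw [Finset.prod_const]

lemma isProb_PL (hν : ∀ v, IsOwn (ν v)) (S : Finset V) : IsProbabilityMeasure (PL G β ν S) := by
  have := fun v => (hν v).prob
  constructor
  unfold PL
  rw [withDensity_apply _ MeasurableSet.univ, Measure.restrict_univ,
    ← ofReal_integral_eq_lintegral_ofReal (mb_Zd_integrable hν S), integral_Zd hν,
    ENNReal.ofReal_one]
  filter_upwards [ae_abs_lt hν S] with p hp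
  exact Zd_nonneg fun v hv => (hp v hv).le

lemma ae_PL (hν : ∀ v, IsOwn (ν v)) (S T : Finset V) :
    ∀ᵐ p ∂PL G β ν S, ∀ v ∈ T, |p v| < 1 := by
  unfold PL
  exact (withDensity_absolutelyContinuous _ _).ae_le (ae_abs_lt hν T)

lemma EE_eq (hν : ∀ v, IsOwn (ν v)) (S : Finset V) (F : (V → ℝ) → ℝ) :
    EE G β ν S F = ∫ p, F p * Zd G β S p ∂Measure.infinitePi ν := by
  unfold EE PL
  rw [integral_withDensity_eq_integral_toReal_smul (measurable_Zd S).ennreal_ofReal
    (Filter.Eventually.of_forall fun _ => ENNReal.ofReal_lt_top)]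
  apply integral_congr_ae
  filter_upwards [ae_abs_lt hν S] with p hp
  rw [ENNReal.toReal_ofReal (Zd_nonneg fun v hv => (hp v hv).le), smul_eq_mul, mul_comm]

/-- Bounded measurable functionals are integrable. -/
lemma integrable_PL (hν : ∀ v, IsOwn (ν v)) (S : Finset V) (hF : Measurable F) {C : ℝ}
    (hb : ∀ p, |F p| ≤ C) : Integrable F (PL G β ν S) := by
  have := isProb_PL (G := G) (β := β) hν S
  exact Integrable.of_bound hF.aestronglyMeasurable C (Filter.Eventually.of_forall hb)

lemma EE_const (hν : ∀ v, IsOwn (ν v)) (S : Finset V) (c : ℝ) :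
    EE G β ν S (fun _ => c) = c := by
  have := isProb_PL (G := G) (β := β) hν S
  unfold EE
  simp

/-- Monotonicity, for functionals compared at admissible points only. -/
lemma EE_mono (hν : ∀ v, IsOwn (ν v)) (S : Finset V) (hF : Integrable F (PL G β ν S))
    (hF' : Integrable F' (PL G β ν S)) {T : Finset V}
    (h : ∀ p : V → ℝ, (∀ v ∈ T, |p v| < 1) → F p ≤ F' p) :
    EE G β ν S F ≤ EE G β ν S F' := by
  unfold EE
  refine integral_mono_ae hF hF' ?_
  filter_upwards [ae_PL hν S T] with p hp
  exact h p hp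

lemma EE_congr (hν : ∀ v, IsOwn (ν v)) (S : Finset V) {T : Finset V}
    (h : ∀ p : V → ℝ, (∀ v ∈ T, |p v| < 1) → F p = F' p) :
    EE G β ν S F = EE G β ν S F' := by
  unfold EE
  apply integral_congr_ae
  filter_upwards [ae_PL hν S T] with p hp
  exact h p hp

lemma mb_integral_congr_law {ν' : V → Measure ℝ} (hν : ∀ v, IsOwn (ν v))
    (hν' : ∀ v, IsOwn (ν' v)) (h : ∀ v ∈ S, ν v = ν' v) (hF : Measurable F)
    (hd : ∀ p q : V → ℝ, (∀ v ∈ S, p v = q v) → F p = F q) :
    ∫ p, F p ∂Measure.infinitePi ν = ∫ p, F p ∂Measure.infinitePi ν' := by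
  have key : ∀ μ : V → Measure ℝ, (∀ v, IsOwn (μ v)) →
      ∫ p, F p ∂Measure.infinitePi μ =
        ∫ y, F (mb_ext S y) ∂Measure.pi (fun i : S => μ i) := by
    intro μ hμ
    have := fun v => (hμ v).prob
    rw [← Measure.infinitePi_map_restrict μ (I := S), integral_map]
    · apply integral_congr_ae
      filter_upwards with p
      exact (hd _ _ (fun v hv => mb_ext_restrict S p v hv)).symm
    · exact (Finset.measurable_restrict S).aemeasurable
    · exact (hF.comp (mb_ext_meas S)).aestronglyMeasurable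
  rw [key ν hν, key ν' hν']
  have e : (fun i : S => ν i) = (fun i : S => ν' i) := by
    funext i
    exact h i i.2
  rw [e]

/-- The planted law depends only on the own laws in `S`, on functionals of `S`. -/
lemma EE_congr_law {ν' : V → Measure ℝ} (hν : ∀ v, IsOwn (ν v)) (hν' : ∀ v, IsOwn (ν' v))
    (h : ∀ v ∈ S, ν v = ν' v) (hF : Measurable F)
    (hd : ∀ p q : V → ℝ, (∀ v ∈ S, p v = q v) → F p = F q) :
    EE G β ν S F = EE G β ν' S F := by
  rw [EE_eq hν, EE_eq hν']
  refine mb_integral_congr_law hν hν' h (hF.mul (measurable_Zd S)) ?_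
  intro p q hpq
  rw [hd p q hpq, Zd_congr hpq]

/-- Oddness. -/
lemma EE_odd (hν : ∀ v, IsOwn (ν v)) (S : Finset V) (hF : Measurable F)
    (hodd : ∀ p : V → ℝ, F (fun v => -p v) = -F p) : EE G β ν S F = 0 := by
  rw [EE_eq hν]
  have h := infinitePi_neg (F := fun p => F p * Zd G β S p) hν (hF.mul (measurable_Zd S))
  have h2 : ∀ p : V → ℝ, F (fun v => -p v) * Zd G β S (fun v => -p v) =
      -(F p * Zd G β S p) := by
    intro p
    rw [hodd, Zd_neg]
    ring
  simp only [h2] at h
  rw [integral_neg] at h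
  linarith

end Vale.Agent.P161C
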