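import Vale.Agent.Lib.P161C.EvAux
import Vale.Agent.Lib.P161C.ModelB
import Vale.Agent.Lib.P161C.Layer

/-!
P161 critical, module LAW ((12.1) of notes/P161crit/proof.md): the fields of the process have the
planted law.  Uses MODEL-A/B (`Zd_update`, `EE_eq`, `EE_congr_law`), LAYER (`integral_comb`,
`integral_comb_obs`), PROC.
-/

open Finset MeasureTheory Filter Topology

namespace Vale.Agent.P161C
open Vale.Agent.P161

variable {V : Type*} [DecidableEq V] {G : SimpleGraph V} [DecidableRel G.Adj] {β : ℝ}

/-! ### Velocity addition -/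

/-- Velocity addition. -/
noncomputable def vel (x y : ℝ) : ℝ := (x + y) / (1 + x * y)

lemma abs_vel_lt {x y : ℝ} (hx : |x| < 1) (hy : |y| < 1) : |vel x y| < 1 := by
  have h1 := abs_lt.mp hx
  have h2 := abs_lt.mp hy
  have h3 : 0 < 1 + x * y := by nlinarith
  unfold vel
  rw [abs_div, abs_of_pos h3, div_lt_one h3, abs_lt]
  constructor <;> nlinarith

lemma tanh_add_eq (x y : ℝ) : Real.tanh (x + y) = vel (Real.tanh x) (Real.tanh y) := by
  have h1 := Real.cosh_pos x
  have h2 := Real.cosh_pos y
  have h3 := Real.cosh_pos (x + y)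
  unfold vel
  rw [Real.tanh_eq_sinh_div_cosh, Real.tanh_eq_sinh_div_cosh, Real.tanh_eq_sinh_div_cosh,
    Real.sinh_add]
  rw [Real.cosh_add] at h3 ⊢
  have h4 : 1 + Real.sinh x / Real.cosh x * (Real.sinh y / Real.cosh y) =
      (Real.cosh x * Real.cosh y + Real.sinh x * Real.sinh y) / (Real.cosh x * Real.cosh y) := by
    field_simp
  rw [h4]
  field_simp

lemma tanh_artanh' {x : ℝ} (hx : |x| < 1) : Real.tanh (Real.artanh x) = x :=
  Real.tanh_artanh (abs_lt.mp hx)

lemma measurable_vel : Measurable fun z : ℝ × ℝ => vel z.1 z.2 := by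
  unfold vel
  fun_prop

/-! ### Change of variables for the observation -/

/-- Change of variables for the quantile function, for measurable functions. -/
lemma integral_qf_meas {c : ℝ} (hc : |c| < 1) {f : ℝ → ℝ} (hf : Measurable f) :
    ∫ r : unitInterval, f (qf c r) =
      ∫ r : unitInterval, f (2 * (r : ℝ) - 1) * (1 + c * (2 * (r : ℝ) - 1)) := by
  have m1 : Measurable fun r : unitInterval => qf c r := by
    have : (fun r : unitInterval => qf c r) = (fun p : ℝ × ℝ => qf p.1 p.2) ∘
      (fun r : unitInterval => (c, (r : ℝ))) := rfl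
    rw [this]
    exact qf_measurable.comp (measurable_const.prodMk measurable_subtype_coe)
  have m2 : Measurable fun r : unitInterval => 2 * (r : ℝ) - 1 :=
    (measurable_subtype_coe.const_mul 2).sub_const 1
  have hpos : ∀ r : unitInterval, 0 ≤ 1 + c * (2 * (r : ℝ) - 1) := by
    intro r
    have h1 := r.2.1
    have h2 := r.2.2
    have h3 := abs_lt.mp hc
    nlinarith
  set μ₁ : Measure ℝ := Measure.map (fun r : unitInterval => qf c r) volume with hμ₁
  set μ₂ : Measure ℝ := Measure.map (fun r : unitInterval => 2 * (r : ℝ) - 1)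
    ((volume : Measure unitInterval).withDensity
      (fun r => ENNReal.ofReal (1 + c * (2 * (r : ℝ) - 1)))) with hμ₂
  have m3 : Measurable fun r : unitInterval => ENNReal.ofReal (1 + c * (2 * (r : ℝ) - 1)) :=
    ENNReal.measurable_ofReal.comp ((m2.const_mul c).const_add 1)
  have hfin : IsFiniteMeasure ((volume : Measure unitInterval).withDensity
      (fun r => ENNReal.ofReal (1 + c * (2 * (r : ℝ) - 1)))) := by
    apply isFiniteMeasure_withDensity_ofReal
    apply Integrable.hasFiniteIntegral
    apply integrable_of_meas_bdd ((m2.const_mul c).const_add 1) (c := 2)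
    intro r
    have h1 := r.2.1
    have h2 := r.2.2
    have h3 := abs_lt.mp hc
    rw [abs_of_nonneg (hpos r)]
    nlinarith
  have hp1 : IsFiniteMeasure μ₁ := by rw [hμ₁]; infer_instance
  have hp2 : IsFiniteMeasure μ₂ := by rw [hμ₂]; infer_instance
  have i1 : ∀ g : ℝ → ℝ, Measurable g → ∫ y, g y ∂μ₁ = ∫ r : unitInterval, g (qf c r) := by
    intro g hg
    rw [hμ₁, integral_map m1.aemeasurable hg.aestronglyMeasurable]
  have i2 : ∀ g : ℝ → ℝ, Measurable g → ∫ y, g y ∂μ₂ =
      ∫ r : unitInterval, g (2 * (r : ℝ) - 1) * (1 + c * (2 * (r : ℝ) - 1)) := by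
    intro g hg
    rw [hμ₂, integral_map m2.aemeasurable hg.aestronglyMeasurable,
      integral_withDensity_eq_integral_toReal_smul m3
        (Filter.Eventually.of_forall fun _ => ENNReal.ofReal_lt_top)]
    apply integral_congr_ae
    apply Filter.Eventually.of_forall
    intro r
    simp only
    rw [ENNReal.toReal_ofReal (hpos r), smul_eq_mul]
    ring
  have heq : μ₁ = μ₂ := by
    apply ext_of_forall_integral_eq_of_IsFiniteMeasure
    intro g
    rw [i1 _ g.continuous.measurable, i2 _ g.continuous.measurable]
    rw [integral_unitInterval (fun r => g (qf c r)), integral_qf hc g.continuous.continuousOn]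
    have e := integral_unitInterval (fun r => g (2 * r - 1) * (1 + c * (2 * r - 1)))
    rw [e]
    have e2 := intervalIntegral.integral_comp_mul_sub (a := 0) (b := 1) (c := (2 : ℝ))
      (fun y => g y * ((1 + c * y) / 2)) (by norm_num) 1
    have e3 : ∫ r in (0 : ℝ)..1, g (2 * r - 1) * (1 + c * (2 * r - 1)) =
        2 * ∫ r in (0 : ℝ)..1, g (2 * r - 1) * ((1 + c * (2 * r - 1)) / 2) := by
      rw [← intervalIntegral.integral_const_mul]
      apply intervalIntegral.integral_congr
      intro r _
      simp only
      ring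
    rw [e3, e2]
    norm_num
    ring
  rw [← i1 f hf, heq, i2 f hf]

/-! ### Replacing one coordinate -/

lemma isOwn_update {ν : V → Measure ℝ} (hν : ∀ v, IsOwn (ν v)) (u : V) {ρ : Measure ℝ}
    (hρ : IsOwn ρ) : ∀ v, IsOwn (Function.update ν u ρ v) := by
  intro v
  by_cases h : v = u
  · subst h; rw [Function.update_self]; exact hρ
  · rw [Function.update_of_ne h]; exact hν v

lemma measurable_upd (u : V) : Measurable fun z : (V → ℝ) × ℝ => Function.update z.1 u z.2 := by
  rw [measurable_pi_iff]
  intro v
  by_cases h : v = u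
  · subst h; simp only [Function.update_self]; exact measurable_snd
  · simp only [Function.update_of_ne h]; exact (measurable_pi_apply v).comp measurable_fst

lemma map_update {ν : V → Measure ℝ} (hν : ∀ v, IsOwn (ν v)) (u : V) {ρ : Measure ℝ}
    (hρ : IsOwn ρ) :
    ((Measure.infinitePi ν).prod ρ).map (fun z => Function.update z.1 u z.2) =
      Measure.infinitePi (Function.update ν u ρ) := by
  have hi1 : ∀ v, IsProbabilityMeasure (ν v) := fun v => (hν v).prob
  have hi2 : IsProbabilityMeasure ρ := hρ.prob
  have hi3 : ∀ v, IsProbabilityMeasure (Function.update ν u ρ v) :=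
    fun v => (isOwn_update hν u hρ v).prob
  apply Measure.eq_infinitePi
  intro s t ht
  have hbox : MeasurableSet (Set.pi (s : Set V) t) :=
    MeasurableSet.pi s.countable_toSet (fun i _ => ht i)
  rw [Measure.map_apply (measurable_upd u) hbox]
  by_cases hu : u ∈ s
  · have hpre : (fun z : (V → ℝ) × ℝ => Function.update z.1 u z.2) ⁻¹' (Set.pi (s : Set V) t) =
        (Set.pi ((s.erase u : Finset V) : Set V) t) ×ˢ (t u) := by
      ext z
      simp only [Set.mem_preimage, Set.mem_pi, Finset.mem_coe, Set.mem_prod, Finset.mem_erase]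
      constructor
      · intro h
        constructor
        · rintro i ⟨hiu, his⟩
          have := h i his
          rwa [Function.update_of_ne hiu] at this
        · have := h u hu
          rwa [Function.update_self] at this
      · rintro ⟨h1, h2⟩ i his
        by_cases hiu : i = u
        · subst hiu; rw [Function.update_self]; exact h2
        · rw [Function.update_of_ne hiu]; exact h1 i ⟨hiu, his⟩
    rw [hpre, Measure.prod_prod, Measure.infinitePi_pi _ (fun i _ => ht i),
      ← Finset.prod_erase_mul s _ hu, Function.update_self]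
    congr 1
    apply Finset.prod_congr rfl
    intro i hi
    rw [Function.update_of_ne (Finset.ne_of_mem_erase hi)]
  · have hpre : (fun z : (V → ℝ) × ℝ => Function.update z.1 u z.2) ⁻¹' (Set.pi (s : Set V) t) =
        (Set.pi (s : Set V) t) ×ˢ Set.univ := by
      ext z
      simp only [Set.mem_preimage, Set.mem_pi, Finset.mem_coe, Set.mem_prod, Set.mem_univ,
        and_true]
      constructor
      · intro h i his
        have hiu : i ≠ u := fun h => hu (h ▸ his)
        have := h i his
        rwa [Function.update_of_ne hiu] at this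
      · intro h i his
        have hiu : i ≠ u := fun h => hu (h ▸ his)
        rw [Function.update_of_ne hiu]; exact h i his
    rw [hpre, Measure.prod_prod, Measure.infinitePi_pi _ (fun i _ => ht i), measure_univ, mul_one]
    apply Finset.prod_congr rfl
    intro i hi
    have hiu : i ≠ u := fun h => hu (h ▸ hi)
    rw [Function.update_of_ne hiu]

lemma integral_update_law {ν : V → Measure ℝ} (hν : ∀ v, IsOwn (ν v)) (u : V) {ρ : Measure ℝ}
    (hρ : IsOwn ρ) {K : (V → ℝ) → ℝ} (hK : Measurable K) {C : ℝ}
    (hb : ∀ᵐ p ∂Measure.infinitePi (Function.update ν u ρ), |K p| ≤ C) :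
    ∫ p, K p ∂Measure.infinitePi (Function.update ν u ρ) =
      ∫ p, (∫ y, K (Function.update p u y) ∂ρ) ∂Measure.infinitePi ν := by
  have hi1 : ∀ v, IsProbabilityMeasure (ν v) := fun v => (hν v).prob
  have hi2 : IsProbabilityMeasure ρ := hρ.prob
  have hi3 : ∀ v, IsProbabilityMeasure (Function.update ν u ρ v) :=
    fun v => (isOwn_update hν u hρ v).prob
  have hint : Integrable K (Measure.infinitePi (Function.update ν u ρ)) :=
    Integrable.of_bound hK.aestronglyMeasurable C hb
  rw [← map_update hν u hρ] at hint ⊢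
  rw [integral_map (measurable_upd u).aemeasurable hK.aestronglyMeasurable, integral_prod]
  exact (integrable_map_measure hK.aestronglyMeasurable (measurable_upd u).aemeasurable).mp hint

lemma Fn.mul_Zd_le {S : Finset V} {F : (V → ℝ) → ℝ} {C : ℝ} (hC : ∀ p, |F p| ≤ C)
    {p : V → ℝ} (hp : ∀ v ∈ S, |p v| < 1) : |F p * Zd G β S p| ≤ C * 2 ^ S.card := by
  rw [abs_mul, abs_of_pos (Zd_pos hp)]
  have h1 : 0 ≤ C := (abs_nonneg _).trans (hC p)
  have h2 := Zd_le (G := G) (β := β) (fun v hv => (hp v hv).le)
  have h3 := Zd_pos (G := G) (β := β) hp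
  calc |F p| * Zd G β S p ≤ C * 2 ^ S.card := by
        apply mul_le_mul (hC p) h2 h3.le h1

/-- One coordinate of the planted law. -/
lemma EE_update_law {ν : V → Measure ℝ} (hν : ∀ v, IsOwn (ν v)) {S : Finset V} {u : V}
    {ρ : Measure ℝ} (hρ : IsOwn ρ) {F : (V → ℝ) → ℝ} (hF : Fn S F) :
    EE G β (Function.update ν u ρ) S F =
      ∫ p, (∫ y, F (Function.update p u y) * Zd G β S (Function.update p u y) ∂ρ)
        ∂Measure.infinitePi ν := by
  obtain ⟨C, hC⟩ := hF.bdd
  have hν' := isOwn_update hν u hρ
  rw [EE_eq hν' S F]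
  apply integral_update_law hν u hρ (hF.meas.mul (measurable_Zd S)) (C := C * 2 ^ S.card)
  filter_upwards [ae_abs_lt hν' S] with p hp
  exact Fn.mul_Zd_le hC hp

/-! ### One observation -/

lemma tanh_stepF {S : Finset V} {u : V} (hu : u ∈ S) {a : ℝ} (ha0 : 0 ≤ a) (ha : a ≤ 1 / 2)
    {p : V → ℝ} (hp : ∀ v ∈ S, |p v| < 1) {r : ℝ} (hr : r ∈ Set.Icc (0 : ℝ) 1) :
    ∀ v ∈ S, Real.tanh (stepF G β a S u r (fld p) v) =
      Function.update p u (vel (p u) (a * qf (a * mg G β S p u) r)) v := by
  intro v hv
  unfold stepF
  rw [if_pos hu]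
  by_cases h : v = u
  · subst h
    rw [Function.update_self, Function.update_self, tanh_add_eq]
    unfold fld
    rw [tanh_artanh' (hp v hv), tanh_artanh']
    · rfl
    · exact abs_obs_lt (G := G) (β := β) (D := S) (h := fld p) (v := v) ha0 ha hr
  · rw [Function.update_of_ne h, Function.update_of_ne h]
    unfold fld
    exact tanh_artanh' (hp v hv)

/-- The common kernel of both sides of `EE_observe`. -/
noncomputable def hker (G : SimpleGraph V) [DecidableRel G.Adj] (β : ℝ) (S : Finset V) (u : V)
    (F : (V → ℝ) → ℝ) (p : V → ℝ) (z y : ℝ) : ℝ :=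
  F (Function.update p u (vel z y)) * Zd G β S (Function.update p u (vel z y)) * (1 + z * y)

lemma measurable_hker (S : Finset V) (u : V) {F : (V → ℝ) → ℝ} (hF : Measurable F) :
    Measurable fun w : (V → ℝ) × ℝ × ℝ => hker G β S u F w.1 w.2.1 w.2.2 := by
  have h1 : Measurable fun w : (V → ℝ) × ℝ × ℝ => vel w.2.1 w.2.2 :=
    measurable_vel.comp measurable_snd
  have h2 : Measurable fun w : (V → ℝ) × ℝ × ℝ => Function.update w.1 u (vel w.2.1 w.2.2) :=
    (measurable_upd u).comp (measurable_fst.prodMk h1)
  unfold hker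
  exact ((hF.comp h2).mul ((measurable_Zd S).comp h2)).mul (by fun_prop)

lemma abs_hker_le {S : Finset V} (u : V) {F : (V → ℝ) → ℝ} {C : ℝ}
    (hC : ∀ p, |F p| ≤ C) {p : V → ℝ} (hp : ∀ v ∈ S, |p v| < 1) {z y : ℝ} (hz : |z| < 1)
    (hy : |y| < 1) : |hker G β S u F p z y| ≤ C * 2 ^ S.card * 2 := by
  have hp' : ∀ v ∈ S, |Function.update p u (vel z y) v| < 1 := by
    intro v hv
    by_cases h : v = u
    · subst h; rw [Function.update_self]; exact abs_vel_lt hz hy
    · rw [Function.update_of_ne h]; exact hp v hv
  unfold hker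
  rw [abs_mul]
  have h1 := Fn.mul_Zd_le (G := G) (β := β) hC hp'
  have h2 : |1 + z * y| ≤ 2 := by
    have h3 := abs_lt.mp hz
    have h4 := abs_lt.mp hy
    rw [abs_le]; constructor <;> nlinarith
  exact mul_le_mul h1 h2 (abs_nonneg _) ((abs_nonneg _).trans h1)

lemma obs_one_law {a : ℝ} : obs a 1 =
    Measure.map (fun r : unitInterval => a * (2 * (r : ℝ) - 1)) volume := by
  unfold obs
  simp

lemma abs_obsval {a : ℝ} (ha0 : 0 ≤ a) (ha : a < 1) (r : unitInterval) :
    |a * (2 * (r : ℝ) - 1)| < 1 := by
  have h1 := r.2.1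
  have h2 := r.2.2
  rw [abs_lt]; constructor <;> nlinarith

/-- Quenched: one observation at `u ∈ S` replaces the own law of `u` by its combination with
`obs a 1`. -/
lemma EE_observe {ν : V → Measure ℝ} (hν : ∀ v, IsOwn (ν v)) {S : Finset V} {u : V}
    (hu : u ∈ S) {a : ℝ} (ha0 : 0 ≤ a) (ha : a ≤ 1 / 2) {F : (V → ℝ) → ℝ} (hF : Fn S F) :
    EE G β ν S (fun p => ∫ r in (0 : ℝ)..1,
        F (fun v => Real.tanh (stepF G β a S u r (fld p) v))) =
      EE G β (Function.update ν u (comb (ν u) (obs a 1))) S F := by
  obtain ⟨C, hC⟩ := hF.bdd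
  have hi1 : ∀ v, IsProbabilityMeasure (ν v) := fun v => (hν v).prob
  have hobs : IsOwn (obs a 1) := isOwn_obs ha0 (by linarith) zero_le_one le_rfl
  have hi2 : IsProbabilityMeasure (obs a 1) := hobs.prob
  have hcomb : IsOwn (comb (ν u) (obs a 1)) := isOwn_comb (hν u) hobs
  have mval : Measurable fun r : unitInterval => a * (2 * (r : ℝ) - 1) :=
    ((measurable_subtype_coe.const_mul 2).sub_const 1).const_mul a
  -- the inner integral over the observation
  set H : (V → ℝ) → ℝ → ℝ := fun p z =>
    ∫ r : unitInterval, hker G β S u F p z (a * (2 * (r : ℝ) - 1)) with hH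
  have hHm : Measurable fun w : (V → ℝ) × ℝ => H w.1 w.2 := by
    have h0 : Measurable fun w : ((V → ℝ) × ℝ) × unitInterval =>
        (w.1.1, w.1.2, a * (2 * (w.2 : ℝ) - 1)) :=
      (measurable_fst.comp measurable_fst).prodMk
        ((measurable_snd.comp measurable_fst).prodMk (mval.comp measurable_snd))
    have h1 := ((measurable_hker (G := G) (β := β) S u hF.meas).comp h0).stronglyMeasurable
    have h2 := (h1.integral_prod_right' (ν := (volume : Measure unitInterval))).measurable
    exact h2
  have hHb : ∀ p : V → ℝ, (∀ v ∈ S, |p v| < 1) → ∀ z, |z| < 1 →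
      |H p z| ≤ C * 2 ^ S.card * 2 := by
    intro p hp z hz
    have h1 : ∀ r : unitInterval, ‖hker G β S u F p z (a * (2 * (r : ℝ) - 1))‖ ≤
        C * 2 ^ S.card * 2 := fun r =>
      abs_hker_le u hC hp hz (abs_obsval ha0 (by linarith) r)
    have h2 := norm_integral_le_of_norm_le_const (μ := (volume : Measure unitInterval))
      (Filter.Eventually.of_forall h1)
    simpa using h2
  -- left side
  have hL : EE G β ν S (fun p => ∫ r in (0 : ℝ)..1,
        F (fun v => Real.tanh (stepF G β a S u r (fld p) v))) =
      ∫ p, H p (p u) ∂Measure.infinitePi ν := by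
    rw [EE_eq hν S]
    apply integral_congr_ae
    filter_upwards [ae_abs_lt hν S] with p hp
    have hm : |a * mg G β S p u| < 1 := by
      have := abs_am_le ha0 ha (abs_mg_le (G := G) (β := β) S p u)
      linarith
    have e1 : ∫ r in (0 : ℝ)..1, F (fun v => Real.tanh (stepF G β a S u r (fld p) v)) =
        ∫ r : unitInterval, F (Function.update p u (vel (p u) (a * qf (a * mg G β S p u) r))) := by
      rw [← integral_unitInterval (fun r =>
        F (fun v => Real.tanh (stepF G β a S u r (fld p) v)))]
      apply integral_congr_ae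
      apply Filter.Eventually.of_forall
      intro r
      exact hF.dep _ _ (tanh_stepF hu ha0 ha hp r.2)
    have e2 := integral_qf_meas hm (f := fun y => F (Function.update p u (vel (p u) (a * y))))
      (by
        have h1 : Measurable fun y : ℝ => (p, vel (p u) (a * y)) :=
          measurable_const.prodMk (measurable_vel.comp
            (measurable_const.prodMk (measurable_id.const_mul a)))
        exact hF.meas.comp ((measurable_upd u).comp h1))
    rw [e1, e2, ← integral_mul_const]
    apply integral_congr_ae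
    apply Filter.Eventually.of_forall
    intro r
    have hy := abs_obsval ha0 (by linarith : a < 1) r
    have h3 := Zd_update (G := G) (β := β) hu hp hy
    simp only
    unfold hker
    have h4 : (p u + a * (2 * (r : ℝ) - 1)) / (1 + p u * (a * (2 * (r : ℝ) - 1))) =
        vel (p u) (a * (2 * (r : ℝ) - 1)) := rfl
    rw [h4] at h3
    have h5 : (1 + a * mg G β S p u * (2 * (r : ℝ) - 1)) * Zd G β S p =
        (1 + p u * (a * (2 * (r : ℝ) - 1))) *
          Zd G β S (Function.update p u (vel (p u) (a * (2 * (r : ℝ) - 1)))) := by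
      rw [← h3]; ring
    rw [mul_assoc, h5]
    ring
  -- right side
  have hR : EE G β (Function.update ν u (comb (ν u) (obs a 1))) S F =
      ∫ p, (∫ z, H p z ∂(ν u)) ∂Measure.infinitePi ν := by
    rw [EE_update_law hν hcomb hF]
    apply integral_congr_ae
    filter_upwards [ae_abs_lt hν S] with p hp
    have h1 : Measurable fun y : ℝ => (p, y) := measurable_const.prodMk measurable_id
    have h2 := hF.meas.comp ((measurable_upd u).comp h1)
    have h3 := (measurable_Zd (G := G) (β := β) S).comp ((measurable_upd u).comp h1)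
    have h4 := integral_comb (hν u) hobs (h2.mul h3)
    have e0 : ∀ z : ℝ × ℝ, (((F ∘ (fun z : (V → ℝ) × ℝ => Function.update z.1 u z.2) ∘
        fun y => (p, y)) * (Zd G β S ∘ (fun z : (V → ℝ) × ℝ => Function.update z.1 u z.2) ∘
        fun y => (p, y))) ((z.1 + z.2) / (1 + z.1 * z.2))) * (1 + z.1 * z.2) =
        hker G β S u F p z.1 z.2 := fun z => rfl
    simp only [e0] at h4
    have e1 : ∫ y, F (Function.update p u y) * Zd G β S (Function.update p u y)
        ∂comb (ν u) (obs a 1) = ∫ z : ℝ × ℝ, hker G β S u F p z.1 z.2 ∂(ν u).prod (obs a 1) := h4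
    rw [e1]
    have mk : Measurable fun z : ℝ × ℝ => hker G β S u F p z.1 z.2 :=
      (measurable_hker (G := G) (β := β) S u hF.meas).comp
        (measurable_const.prodMk measurable_id)
    rw [integral_prod]
    · apply integral_congr_ae
      apply Filter.Eventually.of_forall
      intro z
      simp only [hH]
      rw [obs_one_law, integral_map mval.aemeasurable]
      exact (mk.comp (measurable_const.prodMk measurable_id)).aestronglyMeasurable
    · apply Integrable.of_bound mk.aestronglyMeasurable (C * 2 ^ S.card * 2)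
      have a1 : ∀ᵐ z ∂(ν u).prod (obs a 1), |z.1| < 1 :=
        Measure.quasiMeasurePreserving_fst.ae (hν u).supp
      have a2 : ∀ᵐ z ∂(ν u).prod (obs a 1), |z.2| < 1 :=
        Measure.quasiMeasurePreserving_snd.ae hobs.supp
      filter_upwards [a1, a2] with z h5 h6
      exact abs_hker_le u hC hp h5 h6
  rw [hL, hR]
  have hself : Function.update ν u (ν u) = ν := Function.update_eq_self u ν
  have hK : Measurable fun p : V → ℝ => H p (p u) :=
    hHm.comp (measurable_id.prodMk (measurable_pi_apply u))
  have hb : ∀ᵐ p ∂Measure.infinitePi (Function.update ν u (ν u)), |H p (p u)| ≤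
      C * 2 ^ S.card * 2 := by
    rw [hself]
    filter_upwards [ae_abs_lt hν S] with p hp
    exact hHb p hp _ (hp u hu)
  have h6 := integral_update_law hν u (hν u) hK hb
  rw [hself] at h6
  rw [h6]
  apply integral_congr_ae
  apply Filter.Eventually.of_forall
  intro p
  apply integral_congr_ae
  apply Filter.Eventually.of_forall
  intro z
  simp only [hH, hker, Function.update_self, Function.update_idem]

/-! ### Average over the set of the observed vertices -/

lemma integral_trunc {α : Measure ℝ} (hα : IsOwn α) (K : ℝ → ℝ) :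
    ∫ y, K y ∂α = ∫ y, (if |y| < 1 then K y else 0) ∂α := by
  apply integral_congr_ae
  filter_upwards [hα.supp] with y hy
  rw [if_pos hy]

/-- The law of one coordinate enters linearly. -/
lemma EE_affine {ν' : V → Measure ℝ} (hν' : ∀ v, IsOwn (ν' v)) {ν : Measure ℝ} (hν : IsOwn ν)
    (S : Finset V) (u : V) {a q : ℝ} (ha0 : 0 ≤ a) (ha : a < 1) (hq0 : 0 ≤ q) (hq1 : q ≤ 1)
    {F : (V → ℝ) → ℝ} (hF : Fn S F) :
    EE G β (Function.update ν' u (comb ν (obs a q))) S F =
      q * EE G β (Function.update ν' u (comb ν (obs a 1))) S F +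
      (1 - q) * EE G β (Function.update ν' u ν) S F := by
  obtain ⟨C, hC⟩ := hF.bdd
  have hi1 : ∀ v, IsProbabilityMeasure (ν' v) := fun v => (hν' v).prob
  have hc1 : IsOwn (comb ν (obs a 1)) :=
    isOwn_comb hν (isOwn_obs ha0 ha zero_le_one le_rfl)
  have hcq : IsOwn (comb ν (obs a q)) := isOwn_comb hν (isOwn_obs ha0 ha hq0 hq1)
  rw [EE_update_law hν' hcq hF, EE_update_law hν' hc1 hF, EE_update_law hν' hν hF]
  set K : (V → ℝ) → ℝ → ℝ := fun p y =>
    F (Function.update p u y) * Zd G β S (Function.update p u y) with hK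
  have hKm : Measurable fun w : (V → ℝ) × ℝ => K w.1 w.2 :=
    (hF.meas.comp (measurable_upd u)).mul ((measurable_Zd S).comp (measurable_upd u))
  have hKb : ∀ p : V → ℝ, (∀ v ∈ S, |p v| < 1) → ∀ y, |y| < 1 → |K p y| ≤ C * 2 ^ S.card := by
    intro p hp y hy
    apply Fn.mul_Zd_le hC
    intro v hv
    by_cases h : v = u
    · subst h; rw [Function.update_self]; exact hy
    · rw [Function.update_of_ne h]; exact hp v hv
  have hint : ∀ {α : Measure ℝ}, IsOwn α →
      Integrable (fun p => ∫ y, K p y ∂α) (Measure.infinitePi ν') := by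
    intro α hα
    have hp := hα.prob
    apply Integrable.of_bound _ (C * 2 ^ S.card)
    · filter_upwards [ae_abs_lt hν' S] with p hp
      have h2 := norm_integral_le_of_norm_le_const (μ := α) (f := fun y => K p y)
        (C := C * 2 ^ S.card) (by
          filter_upwards [hα.supp] with y hy
          exact hKb p hp y hy)
      simpa using h2
    · have h1 := hKm.stronglyMeasurable
      exact (h1.integral_prod_right' (ν := α)).aestronglyMeasurable
  rw [← integral_const_mul, ← integral_const_mul,
    ← integral_add ((hint hc1).const_mul q) ((hint hν).const_mul (1 - q))]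
  apply integral_congr_ae
  filter_upwards [ae_abs_lt hν' S] with p hp
  have hKp : Measurable (K p) := hKm.comp (measurable_const.prodMk measurable_id)
  have hTm : Measurable fun y : ℝ => if |y| < 1 then K p y else 0 := by
    apply Measurable.ite _ hKp measurable_const
    exact measurableSet_lt measurable_norm measurable_const
  have hCn : 0 ≤ C * 2 ^ S.card := (abs_nonneg _).trans (hKb p hp 0 (by norm_num))
  have h3 := integral_comb_obs hν ha0 ha hq0 hq1 hTm (C := C * 2 ^ S.card) (by
    intro y
    split_ifs with hy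
    · exact hKb p hp y hy
    · rw [abs_zero]; exact hCn)
  rw [← integral_trunc hcq, ← integral_trunc hc1, ← integral_trunc hν] at h3
  exact h3

/-- The own laws used in the induction for `EE_average`. -/
noncomputable def mixl (ν c1 cq : Measure ℝ) (A T : Finset V) : V → Measure ℝ :=
  fun v => if v ∈ T then c1 else if v ∈ A then ν else cq

lemma isOwn_mixl {ν c1 cq : Measure ℝ} (h1 : IsOwn ν) (h2 : IsOwn c1) (h3 : IsOwn cq)
    (A T : Finset V) (v : V) : IsOwn (mixl ν c1 cq A T v) := by
  unfold mixl
  split_ifs
  · exact h2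
  · exact h1
  · exact h3

lemma EE_average_aux {ν : Measure ℝ} (hν : IsOwn ν) (S : Finset V) {a q : ℝ} (ha0 : 0 ≤ a)
    (ha : a < 1) (hq0 : 0 ≤ q) (hq1 : q ≤ 1) {F : (V → ℝ) → ℝ} (hF : Fn S F) (A : Finset V) :
    ∑ T ∈ A.powerset, q ^ T.card * (1 - q) ^ (A \ T).card *
        EE G β (mixl ν (comb ν (obs a 1)) (comb ν (obs a q)) A T) S F =
      EE G β (fun _ => comb ν (obs a q)) S F := by
  have hc1 : IsOwn (comb ν (obs a 1)) :=
    isOwn_comb hν (isOwn_obs ha0 ha zero_le_one le_rfl)
  have hcq : IsOwn (comb ν (obs a q)) := isOwn_comb hν (isOwn_obs ha0 ha hq0 hq1)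
  induction A using Finset.induction_on with
  | empty =>
    simp only [Finset.powerset_empty, Finset.sum_singleton, Finset.card_empty, pow_zero,
      Finset.empty_sdiff, one_mul]
    congr 1
  | insert u A huA ih =>
    rw [Finset.sum_powerset_insert huA, ← Finset.sum_add_distrib, ← ih]
    apply Finset.sum_congr rfl
    intro T hT
    rw [mem_powerset] at hT
    have huT : u ∉ T := fun h => huA (hT h)
    have e1 : insert u A \ T = insert u (A \ T) := by
      rw [Finset.insert_sdiff_of_notMem _ huT]
    have e2 : insert u A \ insert u T = A \ T := by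
      ext v
      simp only [Finset.mem_sdiff, mem_insert]
      constructor
      · rintro ⟨h1 | h1, h2⟩
        · exact absurd (Or.inl h1) h2
        · exact ⟨h1, fun h => h2 (Or.inr h)⟩
      · rintro ⟨h1, h2⟩
        refine ⟨Or.inr h1, ?_⟩
        rintro (h | h)
        · subst h; exact huA h1
        · exact h2 h
    have e3 : (insert u (A \ T)).card = (A \ T).card + 1 :=
      Finset.card_insert_of_notMem (fun h => huA (Finset.mem_sdiff.mp h).1)
    have e4 : (insert u T).card = T.card + 1 := Finset.card_insert_of_notMem huT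
    have l1 : mixl ν (comb ν (obs a 1)) (comb ν (obs a q)) (insert u A) T =
        Function.update (mixl ν (comb ν (obs a 1)) (comb ν (obs a q)) A T) u ν := by
      ext1 v
      by_cases hv : v = u
      · subst hv
        rw [Function.update_self]
        unfold mixl
        rw [if_neg huT, if_pos (mem_insert_self _ _)]
      · rw [Function.update_of_ne hv]
        unfold mixl
        simp only [mem_insert, hv, false_or]
    have l2 : mixl ν (comb ν (obs a 1)) (comb ν (obs a q)) (insert u A) (insert u T) =
        Function.update (mixl ν (comb ν (obs a 1)) (comb ν (obs a q)) A T) u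
          (comb ν (obs a 1)) := by
      ext1 v
      by_cases hv : v = u
      · subst hv
        rw [Function.update_self]
        unfold mixl
        rw [if_pos (mem_insert_self _ _)]
      · rw [Function.update_of_ne hv]
        unfold mixl
        simp only [mem_insert, hv, false_or]
    have l3 : mixl ν (comb ν (obs a 1)) (comb ν (obs a q)) A T =
        Function.update (mixl ν (comb ν (obs a 1)) (comb ν (obs a q)) A T) u
          (comb ν (obs a q)) := by
      rw [eq_comm, Function.update_eq_self_iff]
      unfold mixl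
      rw [if_neg huT, if_neg huA]
    have haff := EE_affine (G := G) (β := β) (isOwn_mixl hν hc1 hcq A T) hν S u ha0 ha hq0 hq1 hF
    rw [← l3] at haff
    rw [e1, e2, e3, e4, l1, l2, haff, pow_succ, pow_succ]
    ring

/-- Average over the set of the observed vertices. -/
lemma EE_average {ν : Measure ℝ} (hν : IsOwn ν) (S : Finset V) {a q : ℝ} (ha0 : 0 ≤ a)
    (ha : a < 1) (hq0 : 0 ≤ q) (hq1 : q ≤ 1) {F : (V → ℝ) → ℝ} (hF : Fn S F) :
    ∑ T ∈ S.powerset, q ^ T.card * (1 - q) ^ (S \ T).card *
        EE G β (fun v => if v ∈ T then comb ν (obs a 1) else ν) S F =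
      EE G β (fun _ => comb ν (obs a q)) S F := by
  have hc1 : IsOwn (comb ν (obs a 1)) :=
    isOwn_comb hν (isOwn_obs ha0 ha zero_le_one le_rfl)
  have hcq : IsOwn (comb ν (obs a q)) := isOwn_comb hν (isOwn_obs ha0 ha hq0 hq1)
  rw [← EE_average_aux hν S ha0 ha hq0 hq1 hF S]
  apply Finset.sum_congr rfl
  intro T _
  congr 1
  apply EE_congr_law _ (isOwn_mixl hν hc1 hcq S T) _ hF.meas hF.dep
  · intro v
    split_ifs
    · exact hc1
    · exact hν
  · intro v hv
    unfold mixl
    rw [if_pos hv]

/-! ### The process -/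

lemma measurable_tanh' : Measurable Real.tanh := by
  have : Real.tanh = fun x => Real.sinh x / Real.cosh x := funext Real.tanh_eq_sinh_div_cosh
  rw [this]
  fun_prop

omit [DecidableEq V] in
lemma measurable_tanhv : Measurable fun h : V → ℝ => (fun v => Real.tanh (h v)) := by
  rw [measurable_pi_iff]
  intro v
  exact measurable_tanh'.comp (measurable_pi_apply v)

omit [DecidableEq V] in
lemma fld_tanh (h : V → ℝ) : fld (fun v => Real.tanh (h v)) = h := by
  ext v
  unfold fld
  exact Real.artanh_tanh (h v)

/-- The law statement for a random field configuration, without the measurability. -/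
def HasLaw (G : SimpleGraph V) [DecidableRel G.Adj] (β : ℝ) (ν : V → Measure ℝ) (D : Finset V)
    (X : (V × ℕ → unitInterval) → V → ℝ) : Prop :=
  ∀ F : (V → ℝ) → ℝ, Fn D F →
    ∫ ω, F (fun v => Real.tanh (X ω v)) ∂iidLaw (V × ℕ) = EE G β ν D F

lemma stepF_congr {D : Finset V} {u : V} {a r : ℝ} {h h' : V → ℝ} (hh : ∀ v ∈ D, h v = h' v) :
    ∀ v ∈ D, stepF G β a D u r h v = stepF G β a D u r h' v := by
  intro v hv
  unfold stepF
  by_cases hu : u ∈ D
  · rw [if_pos hu, if_pos hu, mag_congr_field hh u]
    by_cases hvu : v = u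
    · subst hvu; rw [Function.update_self, Function.update_self, hh v hv]
    · rw [Function.update_of_ne hvu, Function.update_of_ne hvu, hh v hv]
  · rw [if_neg hu, if_neg hu, hh v hv]

/-- The functional after one more observation. -/
lemma fn_step {D : Finset V} {u : V} {a : ℝ} {F : (V → ℝ) → ℝ} (hF : Fn D F) :
    Fn D (fun p => ∫ r in (0 : ℝ)..1, F (fun v => Real.tanh (stepF G β a D u r (fld p) v))) := by
  obtain ⟨C, hC⟩ := hF.bdd
  constructor
  · have h0 : Measurable fun w : (V → ℝ) × unitInterval => ((w.2 : ℝ), fld w.1) :=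
      (measurable_subtype_coe.comp measurable_snd).prodMk (measurable_fld.comp measurable_fst)
    have h1 := (measurable_stepF (G := G) β a D u).comp h0
    have h2 := (hF.meas.comp (measurable_tanhv.comp h1)).stronglyMeasurable
    have h3 := (h2.integral_prod_right' (ν := (volume : Measure unitInterval))).measurable
    have e : (fun p : V → ℝ => ∫ r in (0 : ℝ)..1,
        F (fun v => Real.tanh (stepF G β a D u r (fld p) v))) =
        fun p => ∫ r : unitInterval, F (fun v => Real.tanh (stepF G β a D u r (fld p) v)) := by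
      ext p
      exact (integral_unitInterval (fun r =>
        F (fun v => Real.tanh (stepF G β a D u r (fld p) v)))).symm
    rw [e]
    exact h3
  · refine ⟨C, fun p => ?_⟩
    rw [← integral_unitInterval (fun r =>
        F (fun v => Real.tanh (stepF G β a D u r (fld p) v)))]
    have h2 := norm_integral_le_of_norm_le_const (μ := (volume : Measure unitInterval))
      (f := fun r : unitInterval => F (fun v => Real.tanh (stepF G β a D u r (fld p) v)))
      (C := C) (Filter.Eventually.of_forall fun r => hC _)
    simpa using h2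
  · intro p q hpq
    apply intervalIntegral.integral_congr
    intro r _
    apply hF.dep
    intro v hv
    rw [stepF_congr (h := fld p) (h' := fld q) (fun w hw => by unfold fld; rw [hpq w hw]) v hv]

/-- Quenched: run through a list. -/
lemma run_law {ν : Measure ℝ} (hν : IsOwn ν) (D : Finset V) {a : ℝ} (ha0 : 0 ≤ a)
    (ha : a ≤ 1 / 2) {X : (V × ℕ → unitInterval) → V → ℝ} (hX : Measurable X) {k : ℕ}
    (hdep : ∀ u ω r, X (Function.update ω (u, 2 * k + 1) r) = X ω)
    (hlaw : HasLaw G β (fun _ => ν) D X) (L : List V) (hnd : L.Nodup) :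
    HasLaw G β (fun v => if v ∈ L.toFinset ∩ D then comb ν (obs a 1) else ν) D
      (fun ω => run G β a D L (noise k ω) (X ω)) := by
  have hc1 : IsOwn (comb ν (obs a 1)) :=
    isOwn_comb hν (isOwn_obs ha0 (by linarith) zero_le_one le_rfl)
  induction L using List.reverseRecOn with
  | nil =>
    intro F hF
    simp only [List.toFinset_nil, Finset.empty_inter, Finset.notMem_empty, if_false]
    exact hlaw F hF
  | append_singleton L u ih =>
    have hnd' := List.nodup_append.mp hnd
    have huL : u ∉ L := by
      intro hmem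
      exact hnd'.2.2 u hmem u (by simp) rfl
    have ih' := ih hnd'.1
    intro F hF
    simp only [run_append]
    by_cases hu : u ∈ D
    · obtain ⟨C, hC⟩ := hF.bdd
      have h1 := integral_step (G := G) (β := β) (a := a) (D := D) (E := Unit)
        (measurable_run_comp (G := G) (β := β) (a := a) (k := k) L D hX)
        (Z := fun _ => ()) measurable_const (k := k) (u := u) (run_dep huL D (hdep u))
        (fun _ _ => rfl) (F := fun h _ => F (fun v => Real.tanh (h v)))
        ((hF.meas.comp measurable_tanhv).comp measurable_fst) (c := C) (fun h _ => hC _)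
      rw [h1]
      have h2 := ih' _ (fn_step (G := G) (β := β) (u := u) (a := a) hF)
      simp only [fld_tanh] at h2
      rw [h2]
      have hown : ∀ v, IsOwn ((fun v => if v ∈ L.toFinset ∩ D then comb ν (obs a 1) else ν) v) := by
        intro v
        simp only
        split_ifs
        · exact hc1
        · exact hν
      rw [EE_observe hown hu ha0 ha hF]
      congr 1
      ext1 v
      by_cases hv : v = u
      · subst hv
        rw [Function.update_self, if_neg (fun h => huL (by
          rw [← List.mem_toFinset]; exact (mem_inter.mp h).1)), if_pos]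
        simp [hu]
      · rw [Function.update_of_ne hv]
        simp only [List.toFinset_append, mem_inter, mem_union, List.mem_toFinset,
          List.mem_singleton, hv, or_false]
    · simp only [stepF_of_notMem hu]
      have e : (L ++ [u]).toFinset ∩ D = L.toFinset ∩ D := by
        ext v
        simp only [List.toFinset_append, mem_inter, mem_union, List.mem_toFinset,
          List.mem_singleton]
        constructor
        · rintro ⟨h1 | h1, h2⟩
          · exact ⟨h1, h2⟩
          · subst h1; exact absurd h2 hu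
        · rintro ⟨h1, h2⟩; exact ⟨Or.inl h1, h2⟩
      rw [e]
      exact ih' F hF

/-! ### The law of the set of observed vertices -/

lemma vol_lt {l : ℝ} (hl0 : 0 ≤ l) (hl1 : l ≤ 1) :
    (volume : Measure unitInterval) {x | (x : ℝ) < l} = ENNReal.ofReal l :=
  unitInterval.volume_Iio ⟨l, hl0, hl1⟩

lemma vol_ge {l : ℝ} (hl0 : 0 ≤ l) (hl1 : l ≤ 1) :
    (volume : Measure unitInterval) {x | l ≤ (x : ℝ)} = ENNReal.ofReal (1 - l) :=
  unitInterval.volume_Ici ⟨l, hl0, hl1⟩

/-- The box for the labels. -/
def lbox (T : Finset V) (l : ℝ) (p : V × ℕ) : Set unitInterval :=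
  if p.1 ∈ T then {x | (x : ℝ) < l} else {x | l ≤ (x : ℝ)}

lemma measurableSet_lbox (T : Finset V) (l : ℝ) (p : V × ℕ) : MeasurableSet (lbox T l p) := by
  unfold lbox
  split_ifs
  · exact measurableSet_lt measurable_subtype_coe measurable_const
  · exact measurableSet_le measurable_const measurable_subtype_coe

lemma labset_eq {D T : Finset V} (hT : T ⊆ D) (k : ℕ) (l : ℝ) :
    {ω : V × ℕ → unitInterval | D.filter (fun v => label k ω v < l) = T} =
      Set.pi ((D.image (fun v => ((v, 2 * k) : V × ℕ)) : Finset (V × ℕ)) : Set (V × ℕ))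
        (lbox T l) := by
  ext ω
  simp only [Set.mem_ofPred_eq, Set.mem_pi, Finset.coe_image, Set.mem_image, Finset.mem_coe]
  constructor
  · rintro h p ⟨v, hv, rfl⟩
    unfold lbox
    by_cases hvT : v ∈ T
    · rw [if_pos hvT]
      rw [← h, Finset.mem_filter] at hvT
      exact hvT.2
    · rw [if_neg hvT]
      rw [← h, Finset.mem_filter] at hvT
      simp only [Set.mem_ofPred_eq]
      by_contra hcon
      exact hvT ⟨hv, not_le.mp hcon⟩
  · intro h
    ext v
    rw [Finset.mem_filter]
    constructor
    · rintro ⟨hv, hl⟩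
      by_contra hvT
      have := h (v, 2 * k) ⟨v, hv, rfl⟩
      unfold lbox at this
      rw [if_neg hvT] at this
      exact absurd hl (not_lt.mpr this)
    · intro hvT
      have := h (v, 2 * k) ⟨v, hT hvT, rfl⟩
      unfold lbox at this
      rw [if_pos hvT] at this
      exact ⟨hT hvT, this⟩

lemma measurableSet_labset {D T : Finset V} (hT : T ⊆ D) (k : ℕ) (l : ℝ) :
    MeasurableSet {ω : V × ℕ → unitInterval | D.filter (fun v => label k ω v < l) = T} := by
  rw [labset_eq hT]
  exact MeasurableSet.pi (Finset.countable_toSet _) fun p _ => measurableSet_lbox T l p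

lemma prob_labset {D T : Finset V} (hT : T ⊆ D) (k : ℕ) {l : ℝ} (hl0 : 0 ≤ l) (hl1 : l ≤ 1) :
    (iidLaw (V × ℕ)).real {ω | D.filter (fun v => label k ω v < l) = T} =
      l ^ T.card * (1 - l) ^ (D \ T).card := by
  rw [measureReal_def, labset_eq hT]
  unfold iidLaw
  rw [Measure.infinitePi_pi _ (fun p _ => measurableSet_lbox T l p),
    Finset.prod_image (by intro v _ w _ h; exact (Prod.mk.inj h).1), ← Finset.prod_sdiff hT]
  have e1 : ∏ v ∈ D \ T, (volume : Measure unitInterval) (lbox T l (v, 2 * k)) =
      ENNReal.ofReal (1 - l) ^ (D \ T).card := by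
    rw [← Finset.prod_const]
    apply Finset.prod_congr rfl
    intro v hv
    unfold lbox
    rw [if_neg (Finset.mem_sdiff.mp hv).2, vol_ge hl0 hl1]
  have e2 : ∏ v ∈ T, (volume : Measure unitInterval) (lbox T l (v, 2 * k)) =
      ENNReal.ofReal l ^ T.card := by
    rw [← Finset.prod_const]
    apply Finset.prod_congr rfl
    intro v hv
    unfold lbox
    rw [if_pos hv, vol_lt hl0 hl1]
  rw [e1, e2, ENNReal.toReal_mul, ENNReal.toReal_pow, ENNReal.toReal_pow,
    ENNReal.toReal_ofReal (by linarith), ENNReal.toReal_ofReal hl0]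
  ring

lemma integral_labset (D : Finset V) (k : ℕ) {l : ℝ} (hl0 : 0 ≤ l) (hl1 : l ≤ 1)
    (φ : Finset V → ℝ) :
    ∫ ω, φ (D.filter (fun v => label k ω v < l)) ∂iidLaw (V × ℕ) =
      ∑ T ∈ D.powerset, l ^ T.card * (1 - l) ^ (D \ T).card * φ T := by
  have e : ∀ ω : V × ℕ → unitInterval, φ (D.filter (fun v => label k ω v < l)) =
      ∑ T ∈ D.powerset, φ T *
        ({ω | D.filter (fun v => label k ω v < l) = T} : Set (V × ℕ → unitInterval)).indicator
          (1 : (V × ℕ → unitInterval) → ℝ) ω := by
    intro ω
    rw [Finset.sum_eq_single (D.filter (fun v => label k ω v < l))]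
    · rw [Set.indicator_of_mem (by simp), Pi.one_apply, mul_one]
    · intro T _ hne
      rw [Set.indicator_of_notMem (fun h => hne (by
        simp only [Set.mem_ofPred_eq] at h; exact h.symm)), mul_zero]
    · intro h
      exact absurd (mem_powerset.mpr (Finset.filter_subset _ _)) h
  simp only [e]
  rw [integral_finsetSum]
  · apply Finset.sum_congr rfl
    intro T hT
    rw [mem_powerset] at hT
    rw [integral_const_mul, integral_indicator_one (measurableSet_labset hT k l),
      prob_labset hT k hl0 hl1]
    ring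
  · intro T hT
    rw [mem_powerset] at hT
    apply Integrable.const_mul
    exact (integrable_const (1 : ℝ)).indicator (measurableSet_labset hT k l)

/-- One round. -/
lemma round_law [Countable V] {ν : Measure ℝ} (hν : IsOwn ν) (D : Finset V) {a : ℝ}
    (ha0 : 0 ≤ a) (ha : a ≤ 1 / 2) {l : ℝ} (hl0 : 0 ≤ l) (hl1 : l ≤ 1)
    {X : (V × ℕ → unitInterval) → V → ℝ} (hX : Measurable X) {k : ℕ}
    (hdep : ∀ ω ω' : V × ℕ → unitInterval, (∀ v c, c / 2 ≠ k → ω (v, c) = ω' (v, c)) →
      X ω = X ω')
    (hlaw : HasLaw G β (fun _ => ν) D X) :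
    HasLaw G β (fun _ => comb ν (obs a l)) D
      (fun ω => rnd G β a D l (label k ω) (noise k ω) (X ω)) := by
  intro F hF
  obtain ⟨C, hC⟩ := hF.bdd
  set H : (V × ℕ → unitInterval) → ℝ := fun ω =>
    F (fun v => Real.tanh (rnd G β a D l (label k ω) (noise k ω) (X ω) v)) with hH
  have hHm : Measurable H := by
    have h1 : Measurable fun ω : V × ℕ → unitInterval => (l, label k ω, noise k ω, X ω) :=
      measurable_const.prodMk ((measurable_label k).prodMk ((measurable_noise k).prodMk hX))
    have h2 := (measurable_rnd (G := G) β a D).comp h1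
    exact hF.meas.comp (measurable_tanhv.comp h2)
  have hHb : ∀ ω, |H ω| ≤ C := fun ω => hC _
  have hdep1 : ∀ u ω r, X (Function.update ω (u, 2 * k + 1) r) = X ω := by
    intro u ω r
    apply hdep
    intro v c hc
    rw [Function.update_of_ne]
    intro h
    have := (Prod.mk.inj h).2
    omega
  have hmerge : ∀ ω ω', X (merge (lab1 V k) (ω, ω')) = X ω' := by
    intro ω ω'
    apply hdep
    intro v c hc
    unfold merge
    have : ((v, c) : V × ℕ) ∉ lab1 V k := by
      simp only [lab1, Set.mem_ofPred_eq]; omega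
    rw [if_neg this]
  have key : ∀ᵐ ω ∂iidLaw (V × ℕ), ∫ ω', H (merge (lab1 V k) (ω, ω')) ∂iidLaw (V × ℕ) =
      EE G β (fun v => if v ∈ D.filter (fun v => label k ω v < l) then comb ν (obs a 1) else ν)
        D F := by
    filter_upwards [ae_injective (V := V)] with ω hω
    obtain ⟨L, hL1, hL2, hL3⟩ := exists_sorted (label k ω) D (hω k).injOn
    have e1 : ∀ ω', H (merge (lab1 V k) (ω, ω')) = F (fun v => Real.tanh
        (run G β a D (L.filter (fun v => label k ω v < l)) (noise k ω') (X ω') v)) := by
      intro ω'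
      simp only [hH]
      rw [label_merge1, noise_merge1, hmerge,
        rnd_eq_run β a (Finset.Subset.refl D) l _ _ hL1 hL2 hL3]
    simp only [e1]
    have h1 := run_law (G := G) (β := β) hν D ha0 ha hX hdep1 hlaw
      (L.filter (fun v => label k ω v < l)) (hL1.filter _) F hF
    have e2 : (L.filter (fun v => label k ω v < l)).toFinset ∩ D =
        D.filter (fun v => label k ω v < l) := by
      ext v
      simp only [mem_inter, List.mem_toFinset, List.mem_filter, decide_eq_true_eq,
        Finset.mem_filter]
      constructor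
      · rintro ⟨⟨_, h2⟩, h3⟩; exact ⟨h3, h2⟩
      · rintro ⟨h2, h3⟩
        refine ⟨⟨?_, h3⟩, h2⟩
        rw [← List.mem_toFinset, hL2]; exact h2
    rw [e2] at h1
    exact h1
  rw [integral_merge (lab1 V k) hHm hHb, integral_congr_ae key,
    integral_labset D k hl0 hl1
      (fun T => EE G β (fun v => if v ∈ T then comb ν (obs a 1) else ν) D F)]
  exact EE_average hν D ha0 (by linarith) hl0 hl1 hF

/-- The law after complete rounds. -/
lemma st_law [Countable V] (β : ℝ) (D : Finset V) (n m : ℕ) :
    HasLaw G β (fun _ => nuR n m) D (st G β D n m) := by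
  induction m with
  | zero =>
    intro F hF
    have hown : ∀ _ : V, IsOwn (nuR n 0) := fun _ => isOwn_nuR n 0
    rw [EE_eq hown D F]
    have e1 : Measure.infinitePi (fun _ : V => nuR n 0) = Measure.dirac (fun _ : V => (0 : ℝ)) :=
      Measure.infinitePi_dirac (fun _ : V => (0 : ℝ))
    have e3 : ∫ p, F p * Zd G β D p ∂Measure.dirac (fun _ : V => (0 : ℝ)) =
        F (fun _ => 0) * Zd G β D (fun _ => 0) :=
      integral_dirac' (fun p => F p * Zd G β D p) _
        (hF.meas.mul (measurable_Zd D)).stronglyMeasurable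
    rw [e1, e3]
    have e2 : Zd G β D (fun _ : V => (0 : ℝ)) = 1 := by
      unfold Zd
      simp only [zero_mul, add_zero, Finset.prod_const_one, mul_one]
      exact sum_isw D
    rw [e2, mul_one]
    simp [st]
  | succ m ih =>
    have h := round_law (G := G) (β := β) (isOwn_nuR n m) D
      (a := str ((m : ℤ) - n)) (str_pos _).le ((str_le _).trans (by norm_num))
      (l := 1 / 2) (by norm_num) (by norm_num) (measurable_st (G := G) β D n m)
      (k := eZ ((m : ℤ) - n)) (fun ω ω' h => st_dep1 β D n m (by
        intro i hi heq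
        have := eZ.injective heq
        omega) h) ih
    exact h

/-- (12.1) -/
theorem plaw_sj [Countable V] (β : ℝ) (D : Finset V) (n : ℕ) {j : ℤ} (hj : -(n : ℤ) ≤ j)
    {l : ℝ} (hl0 : 0 ≤ l) (hl : l ≤ 1 / 2) :
    PLaw G β (nuS n j l) D (iidLaw (V × ℕ))
      (fun ω v => Real.tanh (sj G β D n j l ω v)) := by
  constructor
  · exact measurable_tanhv.comp (measurable_sj (G := G) β D n j l)
  · exact round_law (G := G) (β := β) (isOwn_nuR n (j + n).toNat) D (a := str j)
      (str_pos _).le ((str_le _).trans (by norm_num)) hl0 (by linarith)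
      (measurable_st (G := G) β D n (j + n).toNat) (k := eZ j)
      (fun ω ω' h => st_dep1 β D n _ eZ_ne h) (st_law β D n (j + n).toNat)

end Vale.Agent.P161C
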