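import Vale.Agent.Lib.P161C.ModelC
import Vale.Agent.Lib.P161C.Layer

/-!
P161 critical, module LAYER-B (section 11 of notes/P161crit/proof.md): law of the magnetization
along an edge, two-layer planted law.  Uses MODEL-A/B/C, CVX, LAYER.
-/

open Finset MeasureTheory

namespace Vale.Agent.P161C
open Vale.Agent.P161

variable {V : Type*} [DecidableEq V] {G : SimpleGraph V} [DecidableRel G.Adj] {β : ℝ}

/-! ### Auxiliary measure theory -/

lemma lb_map_withDensity {X Y : Type*} [MeasurableSpace X] [MeasurableSpace Y] (μ : Measure X)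
    {f : X → Y} (hf : Measurable f) {h : Y → ENNReal} (hh : Measurable h) :
    (μ.withDensity (fun x => h (f x))).map f = (μ.map f).withDensity h := by
  ext s hs
  rw [Measure.map_apply hf hs, withDensity_apply _ (hf hs), withDensity_apply _ hs,
    setLIntegral_map hs hh hf]

section Indep

variable {X : Type*} [MeasurableSpace X]

/-- extension by a default value -/
noncomputable def lb_ext (x₀ : X) (A : Finset V) (y : A → X) : V → X :=
  fun v => if h : v ∈ A then y ⟨v, h⟩ else x₀

lemma lb_ext_meas (x₀ : X) (A : Finset V) : Measurable (lb_ext x₀ A) := by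
  rw [measurable_pi_iff]
  intro v
  unfold lb_ext
  by_cases h : v ∈ A
  · simp only [h, dif_pos]
    exact measurable_pi_apply _
  · simp only [h, dif_neg, not_false_iff]
    exact measurable_const

omit [MeasurableSpace X] in
lemma lb_ext_restrict (x₀ : X) (A : Finset V) (p : V → X) (v : V) (hv : v ∈ A) :
    lb_ext x₀ A (fun i : A => p i) v = p v := by
  unfold lb_ext
  rw [dif_pos hv]

lemma lb_indep (κ : V → Measure X) [∀ v, IsProbabilityMeasure (κ v)] (x₀ : X) {Y Z : Type*}
    [MeasurableSpace Y] [MeasurableSpace Z] {A B : Finset V} (hAB : Disjoint A B)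
    {F : (V → X) → Y} {F' : (V → X) → Z} (hF : Measurable F) (hF' : Measurable F')
    (hdF : ∀ p q : V → X, (∀ v ∈ A, p v = q v) → F p = F q)
    (hdF' : ∀ p q : V → X, (∀ v ∈ B, p v = q v) → F' p = F' q) :
    ProbabilityTheory.IndepFun F F' (Measure.infinitePi κ) := by
  have hind : ProbabilityTheory.iIndepFun (fun (i : V) (ω : V → X) => ω i)
      (Measure.infinitePi κ) :=
    ProbabilityTheory.iIndepFun_infinitePi (X := fun _ x => x) (fun _ => measurable_id)
  have h2 := hind.indepFun_finset A B hAB (fun i => measurable_pi_apply i)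
  have h3 := h2.comp (hF.comp (lb_ext_meas x₀ A)) (hF'.comp (lb_ext_meas x₀ B))
  have e1 : (F ∘ lb_ext x₀ A) ∘ (fun (a : V → X) (i : A) => a i) = F := by
    funext p
    exact hdF _ _ (fun v hv => lb_ext_restrict x₀ A p v hv)
  have e2 : (F' ∘ lb_ext x₀ B) ∘ (fun (a : V → X) (i : B) => a i) = F' := by
    funext p
    exact hdF' _ _ (fun v hv => lb_ext_restrict x₀ B p v hv)
  rw [e1, e2] at h3
  exact h3

/-- Resampling one coordinate. -/
lemma lb_resample (κ : V → Measure X) [∀ v, IsProbabilityMeasure (κ v)] (a : V) :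
    ((Measure.infinitePi κ).prod (κ a)).map (fun x => Function.update x.1 a x.2) =
      Measure.infinitePi κ := by
  have hm : Measurable (fun x : (V → X) × X => Function.update x.1 a x.2) := by
    rw [measurable_pi_iff]
    intro v
    by_cases h : v = a
    · subst h
      simp only [Function.update_self]
      exact measurable_snd
    · simp only [Function.update_of_ne h]
      exact (measurable_pi_apply v).comp measurable_fst
  apply Measure.eq_infinitePi
  intro s t ht
  rw [Measure.map_apply hm (MeasurableSet.pi s.countable_toSet fun i _ => ht i)]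
  by_cases has : a ∈ s
  · have e : (fun x : (V → X) × X => Function.update x.1 a x.2) ⁻¹' (Set.pi s t) =
        (Set.pi (s.erase a) t) ×ˢ (t a) := by
      ext ⟨ω, z⟩
      simp only [Set.mem_preimage, Set.mem_pi, Finset.mem_coe, Set.mem_prod, Finset.mem_erase]
      constructor
      · intro h
        refine ⟨fun i hi => ?_, ?_⟩
        · have := h i hi.2
          rwa [Function.update_of_ne hi.1] at this
        · have := h a has
          rwa [Function.update_self] at this
      · rintro ⟨h1, h2⟩ i hi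
        by_cases hia : i = a
        · subst hia
          rw [Function.update_self]; exact h2
        · rw [Function.update_of_ne hia]
          exact h1 i ⟨hia, hi⟩
    rw [e, Measure.prod_prod, Measure.infinitePi_pi _ (fun i _ => ht i),
      Finset.prod_erase_mul s _ has]
  · have e : (fun x : (V → X) × X => Function.update x.1 a x.2) ⁻¹' (Set.pi s t) =
        (Set.pi s t) ×ˢ Set.univ := by
      ext ⟨ω, z⟩
      simp only [Set.mem_preimage, Set.mem_pi, Finset.mem_coe, Set.mem_prod, Set.mem_univ,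
        and_true]
      refine forall₂_congr fun i hi => ?_
      rw [Function.update_of_ne]
      rintro rfl
      exact has hi
    rw [e, Measure.prod_prod, Measure.infinitePi_pi _ (fun i _ => ht i), measure_univ, mul_one]

end Indep

/-! ### Law of the magnetization at a vertex -/

/-- The law of the magnetization along an edge is a combination. -/
lemma map_mg_edge (hG : G.IsTree) {ν : V → Measure ℝ} (hν : ∀ v, IsOwn (ν v)) {S : Finset V}
    {v w : V} (hvw : G.Adj v w) (hv : v ∈ S) (hw : w ∈ S) :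
    (PL G β ν S).map (fun p => mg G β S p v) =
      comb ((PL G β ν (side G S v w)).map (fun p => mg G β (side G S v w) p v))
        ((PL G β ν (side G S w v)).map
          (fun p => Real.tanh β * mg G β (side G S w v) p w)) := by
  have hd := side_disjoint (G := G) S v w
  have hAS : side G S v w ⊆ S := fun u hu => (mem_side.mp hu).1
  have hBS : side G S w v ⊆ S := fun u hu => (mem_side.mp hu).1
  have hZ := fun p hp => Zd_split (β := β) (p := p) hG hvw hv hw hp
  have hM := fun p => mg_split (β := β) hG hvw hv hw p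
  set A := side G S v w with hA
  set B := side G S w v with hB
  have := fun v => (hν v).prob
  have hPA := isProb_PL (G := G) (β := β) hν A
  have hPB := isProb_PL (G := G) (β := β) hν B
  have hmX : Measurable (fun p => mg G β A p v) := measurable_mg A v
  have hmY : Measurable (fun p => Real.tanh β * mg G β B p w) := (measurable_mg B w).const_mul _
  have hPA' := Measure.isProbabilityMeasure_map (μ := PL G β ν A) hmX.aemeasurable
  have hPB' := Measure.isProbabilityMeasure_map (μ := PL G β ν B) hmY.aemeasurable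
  have hmXY : Measurable (fun p => (mg G β A p v, Real.tanh β * mg G β B p w)) :=
    hmX.prodMk hmY
  -- the product law
  have hprod : ((PL G β ν A).map (fun p => mg G β A p v)).prod
      ((PL G β ν B).map (fun p => Real.tanh β * mg G β B p w)) =
      ((Measure.infinitePi ν).withDensity ((fun p => ENNReal.ofReal (Zd G β A p)) *
        fun p => ENNReal.ofReal (Zd G β B p))).map
        (fun p => (mg G β A p v, Real.tanh β * mg G β B p w)) := by
    apply Measure.prod_eq
    intro s t hs ht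
    rw [Measure.map_apply hmXY (hs.prod ht), Measure.map_apply hmX hs, Measure.map_apply hmY ht]
    unfold PL
    rw [withDensity_apply _ (hmXY (hs.prod ht)), withDensity_apply _ (hmX hs),
      withDensity_apply _ (hmY ht), ← lintegral_indicator (hmXY (hs.prod ht)),
      ← lintegral_indicator (hmX hs), ← lintegral_indicator (hmY ht)]
    have hf : Measurable (((fun p => mg G β A p v) ⁻¹' s).indicator
        (fun p => ENNReal.ofReal (Zd G β A p))) :=
      (measurable_Zd A).ennreal_ofReal.indicator (hmX hs)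
    have hg : Measurable (((fun p => Real.tanh β * mg G β B p w) ⁻¹' t).indicator
        (fun p => ENNReal.ofReal (Zd G β B p))) :=
      (measurable_Zd B).ennreal_ofReal.indicator (hmY ht)
    rw [← ProbabilityTheory.lintegral_mul_eq_lintegral_mul_lintegral_of_indepFun hf hg]
    · apply lintegral_congr
      intro p
      simp only [Pi.mul_apply, Set.indicator, Set.mem_preimage, Set.mem_prod]
      by_cases h1 : mg G β A p v ∈ s <;> by_cases h2 : Real.tanh β * mg G β B p w ∈ t <;>
        simp [h1, h2]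
    · apply lb_indep ν 0 hd hf hg
      · intro p q hpq
        have e : (p ∈ (fun p => mg G β A p v) ⁻¹' s) = (q ∈ (fun p => mg G β A p v) ⁻¹' s) := by
          rw [Set.mem_preimage, Set.mem_preimage, mg_congr hpq v]
        by_cases h : p ∈ (fun p => mg G β A p v) ⁻¹' s
        · rw [Set.indicator_of_mem h, Set.indicator_of_mem (e ▸ h), Zd_congr hpq]
        · rw [Set.indicator_of_notMem h, Set.indicator_of_notMem (e ▸ h)]
      · intro p q hpq
        have e : (p ∈ (fun p => Real.tanh β * mg G β B p w) ⁻¹' t) =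
            (q ∈ (fun p => Real.tanh β * mg G β B p w) ⁻¹' t) := by
          rw [Set.mem_preimage, Set.mem_preimage, mg_congr hpq w]
        by_cases h : p ∈ (fun p => Real.tanh β * mg G β B p w) ⁻¹' t
        · rw [Set.indicator_of_mem h, Set.indicator_of_mem (e ▸ h), Zd_congr hpq]
        · rw [Set.indicator_of_notMem h, Set.indicator_of_notMem (e ▸ h)]
  -- density of the planted law
  have hdens : PL G β ν S = ((Measure.infinitePi ν).withDensity
      ((fun p => ENNReal.ofReal (Zd G β A p)) * fun p => ENNReal.ofReal (Zd G β B p))).withDensity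
        (fun p => (fun z : ℝ × ℝ => ENNReal.ofReal (1 + z.1 * z.2))
          ((fun p => (mg G β A p v, Real.tanh β * mg G β B p w)) p)) := by
    rw [← withDensity_mul]
    · unfold PL
      apply withDensity_congr_ae
      filter_upwards [ae_abs_lt hν S] with p hp
      simp only [Pi.mul_apply]
      rw [hZ p hp, ENNReal.ofReal_mul, ENNReal.ofReal_mul]
      · congr 2
        ring
      · exact Zd_nonneg fun u hu => (hp u (hAS hu)).le
      · exact mul_nonneg (Zd_nonneg fun u hu => (hp u (hAS hu)).le)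
          (Zd_nonneg fun u hu => (hp u (hBS hu)).le)
    · exact (measurable_Zd A).ennreal_ofReal.mul (measurable_Zd B).ennreal_ofReal
    · have : Measurable (fun z : ℝ × ℝ => ENNReal.ofReal (1 + z.1 * z.2)) := by fun_prop
      exact this.comp hmXY
  unfold comb
  rw [hprod, ← lb_map_withDensity _ hmXY (by fun_prop), Measure.map_map (by fun_prop) hmXY]
  conv_lhs => rw [hdens]
  congr 1
  funext p
  rw [hM p]
  simp only [Function.comp]
  ring_nf

/-- The law of the magnetization is an own law. -/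
lemma isOwn_map_mg {ν : V → Measure ℝ} (hν : ∀ v, IsOwn (ν v)) {S : Finset V} {v : V}
    (hv : v ∈ S) : IsOwn ((PL G β ν S).map (fun p => mg G β S p v)) := by
  have hprob := fun v => (hν v).prob
  have hP := isProb_PL (G := G) (β := β) hν S
  have hmX : Measurable (fun p => mg G β S p v) := measurable_mg S v
  have hneg : Measurable (fun p : V → ℝ => fun u => -p u) :=
    measurable_pi_iff.2 fun u => (measurable_pi_apply u).neg
  refine ⟨Measure.isProbabilityMeasure_map hmX.aemeasurable, ?_, ?_⟩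
  · have h1 : (PL G β ν S).map (fun p : V → ℝ => fun u => -p u) = PL G β ν S := by
      have h2 := lb_map_withDensity (Measure.infinitePi ν) hneg
        (measurable_Zd (G := G) (β := β) S).ennreal_ofReal
      simp only [Zd_neg] at h2
      have h3 := Measure.infinitePi_map_pi ν (f := fun _ (x : ℝ) => -x) (fun _ => measurable_neg)
      have h4 : (fun v => (ν v).map (fun x : ℝ => -x)) = ν := by
        funext v
        exact (hν v).symm
      rw [h4] at h3
      rw [h3] at h2
      exact h2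
    rw [Measure.map_map measurable_neg hmX]
    conv_rhs => rw [← h1]
    rw [Measure.map_map hmX hneg]
    congr 1
    funext p
    simp only [Function.comp]
    rw [mg_neg hv]
  · rw [ae_map_iff hmX.aemeasurable (measurableSet_lt (by fun_prop) measurable_const)]
    filter_upwards [ae_PL hν S S] with p hp
    exact abs_mg_lt hv hp

/-! ### Marginals of the Ising weights -/

lemma lb_sum_isw_sp {S : Finset V} {v : V} (hv : v ∈ S) :
    ∑ T ∈ S.powerset, isw G β S T * sp T v = 0 := by
  have h := gs_zero_sp (G := G) (β := β) hv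
  unfold gs at h
  unfold isw
  simp only [div_mul_eq_mul_div]
  rw [← Finset.sum_div, h, zero_div]

lemma lb_isw_marg (hG : G.IsTree) {S : Finset V} (hS : Cvx G S) {A : Finset V} (hA : Cvx G A)
    (hAS : A ⊆ S) (f : Finset V → ℝ) :
    ∑ T ∈ S.powerset, isw G β S T * f (T ∩ A) = ∑ T ∈ A.powerset, isw G β A T * f T := by
  induction hn : S.card using Nat.strong_induction_on generalizing S with
  | _ n ih =>
    rcases Finset.eq_empty_or_nonempty A with hA0 | hA0
    · subst hA0
      simp only [Finset.inter_empty]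
      rw [← Finset.sum_mul, sum_isw, one_mul]
      have h := sum_isw (G := G) (β := β) (∅ : Finset V)
      simp only [Finset.powerset_empty, Finset.sum_singleton] at h ⊢
      rw [h, one_mul]
    · by_cases hAS' : A = S
      · subst hAS'
        refine Finset.sum_congr rfl fun T hT => ?_
        rw [Finset.inter_eq_left.mpr (mem_powerset.mp hT)]
      · obtain ⟨v, w, hvw, hv, hw, hwA⟩ := exists_edge_out hG hS hAS hA0 hAS'
        have hd := side_disjoint (G := G) S v w
        have hvS := hAS hv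
        have hA1 : A ⊆ side G S v w := by
          rcases cvx_side_cases hG hA hAS hvw (fun h => hwA h.2) with h | h
          · exact h
          · exfalso
            have h1 := h hv
            have h2 := mem_side_left hG hvw hvS
            exact (Finset.disjoint_left.mp hd) h2 h1
        have e := sum_isw_split (β := β) hG hvw hvS hw (fun T => f (T ∩ A)) (fun T => f (T ∩ A))
          (fun _ => 1) (by
            intro T₁ T₂ h1 h2
            have h3 : T₂ ∩ A = ∅ := by
              rw [← Finset.disjoint_iff_inter_eq_empty]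
              exact (hd.mono_left hA1).symm.mono_left h2
            rw [Finset.union_inter_distrib_right, h3, Finset.union_empty, mul_one])
        simp only [mul_one] at e
        rw [e, lb_sum_isw_sp (mem_side_left hG hvw.symm hw), sum_isw, mul_one, mul_zero, add_zero]
        refine ih _ ?_ (cvx_side hG hS hvw) hA1 rfl
        rw [← hn]
        apply Finset.card_lt_card
        rw [Finset.ssubset_iff_of_subset (fun u hu => (mem_side.mp hu).1)]
        refine ⟨w, hw, fun h => ?_⟩
        exact (Finset.disjoint_left.mp hd) h (mem_side_left hG hvw.symm hw)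

/-! ### The pair law -/

/-- Joint law of the two observations. -/
noncomputable def lb_pair (ν₀ γ : Measure ℝ) : Measure (ℝ × ℝ) :=
  (ν₀.prod γ).withDensity (fun z => ENNReal.ofReal (1 + z.1 * z.2))

/-- The combined message. -/
noncomputable def lb_g (z : ℝ × ℝ) : ℝ := (z.1 + z.2) / (1 + z.1 * z.2)

lemma lb_g_meas : Measurable lb_g := by
  unfold lb_g
  fun_prop

lemma lb_map_g (ν₀ γ : Measure ℝ) : (lb_pair ν₀ γ).map lb_g = comb ν₀ γ := rfl

lemma lb_pair_prob {ν₀ γ : Measure ℝ} (hν₀ : IsOwn ν₀) (hγ : IsOwn γ) :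
    IsProbabilityMeasure (lb_pair ν₀ γ) := by
  have h := (isOwn_comb hν₀ hγ).prob
  constructor
  have h1 := h.measure_univ
  rw [← lb_map_g, Measure.map_apply lb_g_meas MeasurableSet.univ, Set.preimage_univ] at h1
  exact h1

lemma lb_integrable_id {γ : Measure ℝ} (hγ : IsOwn γ) : Integrable (fun x : ℝ => x) γ := by
  have := hγ.prob
  refine Integrable.of_bound measurable_id.aestronglyMeasurable 1 ?_
  filter_upwards [hγ.supp] with x hx
  rw [Real.norm_eq_abs]
  exact hx.le

lemma lb_mean_zero {γ : Measure ℝ} (hγ : IsOwn γ) : ∫ x, x ∂γ = 0 := by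
  have h : ∫ x, x ∂γ = ∫ x, -x ∂γ := by
    conv_lhs => rw [← hγ.symm]
    exact integral_map (f := fun x : ℝ => x) measurable_neg.aemeasurable
      measurable_id.aestronglyMeasurable
  rw [integral_neg] at h
  linarith

lemma lb_ae_prod {ν₀ γ : Measure ℝ} (hν₀ : IsOwn ν₀) (hγ : IsOwn γ) :
    ∀ᵐ z ∂ν₀.prod γ, |z.1| < 1 ∧ |z.2| < 1 := by
  have := hν₀.prob
  have := hγ.prob
  have h1 : ∀ᵐ z ∂ν₀.prod γ, |z.1| < 1 :=
    Measure.quasiMeasurePreserving_fst.ae hν₀.supp
  have h2 : ∀ᵐ z ∂ν₀.prod γ, |z.2| < 1 :=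
    Measure.quasiMeasurePreserving_snd.ae hγ.supp
  filter_upwards [h1, h2] with z a b using ⟨a, b⟩

lemma lb_pos {x y : ℝ} (hx : |x| < 1) (hy : |y| < 1) : 0 < 1 + x * y := by
  have h : |x * y| < 1 := by
    rw [abs_mul]
    calc |x| * |y| ≤ |x| * 1 := mul_le_mul_of_nonneg_left hy.le (abs_nonneg _)
      _ < 1 := by linarith
  have := (abs_lt.mp h).1
  linarith

lemma lb_integral_pair {ν₀ γ : Measure ℝ} (hν₀ : IsOwn ν₀) (hγ : IsOwn γ) (F : ℝ × ℝ → ℝ) :
    ∫ z, F z ∂lb_pair ν₀ γ = ∫ z, F z * (1 + z.1 * z.2) ∂ν₀.prod γ := by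
  unfold lb_pair
  rw [integral_withDensity_eq_integral_toReal_smul (by fun_prop)
    (Filter.Eventually.of_forall fun _ => ENNReal.ofReal_lt_top)]
  apply integral_congr_ae
  filter_upwards [lb_ae_prod hν₀ hγ] with z hz
  rw [ENNReal.toReal_ofReal (lb_pos hz.1 hz.2).le, smul_eq_mul, mul_comm]

/-- The first marginal. -/
lemma lb_pair_fst {ν₀ γ : Measure ℝ} (hν₀ : IsOwn ν₀) (hγ : IsOwn γ) :
    (lb_pair ν₀ γ).map Prod.fst = ν₀ := by
  have := hν₀.prob
  have := hγ.prob
  ext s hs
  have hm : Measurable (fun z : ℝ × ℝ => ENNReal.ofReal (1 + z.1 * z.2)) := by fun_prop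
  rw [Measure.map_apply measurable_fst hs]
  unfold lb_pair
  rw [withDensity_apply _ (measurable_fst hs), ← lintegral_indicator (measurable_fst hs),
    lintegral_prod _ (hm.indicator (measurable_fst hs)).aemeasurable]
  have key : ∀ᵐ x ∂ν₀, ∫⁻ y, (Prod.fst ⁻¹' s).indicator
      (fun z : ℝ × ℝ => ENNReal.ofReal (1 + z.1 * z.2)) (x, y) ∂γ = s.indicator 1 x := by
    filter_upwards [hν₀.supp] with x hx
    by_cases hxs : x ∈ s
    · have e : ∀ y, (Prod.fst ⁻¹' s).indicator
          (fun z : ℝ × ℝ => ENNReal.ofReal (1 + z.1 * z.2)) (x, y) =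
            ENNReal.ofReal (1 + x * y) := by
        intro y
        rw [Set.indicator_of_mem]
        exact hxs
      simp only [e]
      rw [← ofReal_integral_eq_lintegral_ofReal, integral_add (integrable_const _)
        ((lb_integrable_id hγ).const_mul x), integral_const_mul, lb_mean_zero hγ,
        Set.indicator_of_mem hxs]
      · simp
      · exact (integrable_const _).add ((lb_integrable_id hγ).const_mul x)
      · filter_upwards [hγ.supp] with y hy
        exact (lb_pos hx hy).le
    · have e : ∀ y, (Prod.fst ⁻¹' s).indicator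
          (fun z : ℝ × ℝ => ENNReal.ofReal (1 + z.1 * z.2)) (x, y) = 0 := by
        intro y
        rw [Set.indicator_of_notMem]
        exact hxs
      simp only [e]
      rw [lintegral_zero, Set.indicator_of_notMem hxs]
  rw [lintegral_congr_ae key, lintegral_indicator_one hs]

/-- The combined message has conditional mean the first message. -/
lemma lb_pair_resample {ν₀ γ : Measure ℝ} (hν₀ : IsOwn ν₀) (hγ : IsOwn γ) (φ : ℝ → ℝ) :
    ∫ z, φ z.1 * (lb_g z - z.1) ∂lb_pair ν₀ γ = 0 := by
  have := hν₀.prob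
  have := hγ.prob
  rw [lb_integral_pair hν₀ hγ]
  have e : ∫ z, φ z.1 * (lb_g z - z.1) * (1 + z.1 * z.2) ∂ν₀.prod γ =
      ∫ z, (φ z.1 * (1 - z.1 ^ 2)) * z.2 ∂ν₀.prod γ := by
    apply integral_congr_ae
    filter_upwards [lb_ae_prod hν₀ hγ] with z hz
    have := (lb_pos hz.1 hz.2).ne'
    unfold lb_g
    field_simp
    ring
  rw [e, integral_prod_mul (fun x => φ x * (1 - x ^ 2)) (fun y => y), lb_mean_zero hγ, mul_zero]

/-! ### The random fields -/

/-- Field of the combined messages. -/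
noncomputable def lb_pp (ω : V → ℝ × ℝ) : V → ℝ := fun v => lb_g (ω v)

/-- Field of the first messages. -/
noncomputable def lb_rr (ω : V → ℝ × ℝ) : V → ℝ := fun v => (ω v).1

omit [DecidableEq V] in
lemma lb_pp_meas : Measurable (lb_pp (V := V)) :=
  measurable_pi_iff.2 fun v => lb_g_meas.comp (measurable_pi_apply v)

omit [DecidableEq V] in
lemma lb_rr_meas : Measurable (lb_rr (V := V)) :=
  measurable_pi_iff.2 fun v => measurable_fst.comp (measurable_pi_apply v)

/-- The product of the pair laws. -/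
noncomputable def lb_Pi (V : Type*) (ν₀ γ : Measure ℝ) : Measure (V → ℝ × ℝ) :=
  Measure.infinitePi (fun _ : V => lb_pair ν₀ γ)

section

variable {ν₀ γ : Measure ℝ}

omit [DecidableEq V] in
lemma lb_Pi_prob (hν₀ : IsOwn ν₀) (hγ : IsOwn γ) : IsProbabilityMeasure (lb_Pi V ν₀ γ) := by
  have := lb_pair_prob hν₀ hγ
  unfold lb_Pi
  infer_instance

omit [DecidableEq V] in
lemma lb_Pi_pp (hν₀ : IsOwn ν₀) (hγ : IsOwn γ) :
    (lb_Pi V ν₀ γ).map lb_pp = Measure.infinitePi (fun _ => comb ν₀ γ) := by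
  have := lb_pair_prob hν₀ hγ
  exact Measure.infinitePi_map_pi (fun _ : V => lb_pair ν₀ γ) (f := fun _ => lb_g)
    (fun _ => lb_g_meas)

omit [DecidableEq V] in
lemma lb_Pi_rr (hν₀ : IsOwn ν₀) (hγ : IsOwn γ) :
    (lb_Pi V ν₀ γ).map lb_rr = Measure.infinitePi (fun _ => ν₀) := by
  have := lb_pair_prob hν₀ hγ
  have h := Measure.infinitePi_map_pi (fun _ : V => lb_pair ν₀ γ) (f := fun _ => Prod.fst)
    (fun _ => measurable_fst)
  simp only [lb_pair_fst hν₀ hγ] at h
  exact h

omit [DecidableEq V] in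
lemma lb_ae (hν₀ : IsOwn ν₀) (hγ : IsOwn γ) (S : Finset V) :
    ∀ᵐ ω ∂lb_Pi V ν₀ γ, ∀ v ∈ S, |lb_pp ω v| < 1 ∧ |lb_rr ω v| < 1 := by
  have h1 := ae_abs_lt (fun _ : V => isOwn_comb hν₀ hγ) S
  have h2 := ae_abs_lt (fun _ : V => hν₀) S
  rw [← lb_Pi_pp hν₀ hγ] at h1
  rw [← lb_Pi_rr hν₀ hγ] at h2
  have h3 := ae_of_ae_map lb_pp_meas.aemeasurable h1
  have h4 := ae_of_ae_map lb_rr_meas.aemeasurable h2
  filter_upwards [h3, h4] with ω a b v hv using ⟨a v hv, b v hv⟩

/-- Marginalization for functionals of the pairs in `A`. -/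
lemma lb_marg (hG : G.IsTree) (hν₀ : IsOwn ν₀) (hγ : IsOwn γ) {S : Finset V} (hS : Cvx G S)
    {A : Finset V} (hA : Cvx G A) (hAS : A ⊆ S) {Φ : (V → ℝ × ℝ) → ℝ} (hΦ : Measurable Φ)
    {C : ℝ} (hb : ∀ ω, |Φ ω| ≤ C)
    (hd : ∀ ω ω' : V → ℝ × ℝ, (∀ v ∈ A, ω v = ω' v) → Φ ω = Φ ω') :
    ∫ ω, Φ ω * Zd G β S (lb_pp ω) ∂lb_Pi V ν₀ γ = ∫ ω, Φ ω * Zd G β A (lb_pp ω) ∂lb_Pi V ν₀ γ := by
  have hprob := lb_Pi_prob (V := V) hν₀ hγ
  have hpair := lb_pair_prob hν₀ hγ
  have hcomb : ∀ _ : V, IsOwn (comb ν₀ γ) := fun _ => isOwn_comb hν₀ hγ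
  have hmeas : ∀ (B T : Finset V), Measurable (fun ω : V → ℝ × ℝ =>
      ∏ v ∈ B, (1 + lb_pp ω v * sp T v)) := by
    intro B T
    have h : Measurable (fun p : V → ℝ => ∏ v ∈ B, (1 + p v * sp T v)) := by fun_prop
    exact h.comp lb_pp_meas
  have hC : 0 ≤ C := (abs_nonneg _).trans (hb (fun _ => (0, 0)))
  have hint : ∀ (B T : Finset V), Integrable (fun ω : V → ℝ × ℝ =>
      Φ ω * ∏ v ∈ B, (1 + lb_pp ω v * sp T v)) (lb_Pi V ν₀ γ) := by
    intro B T
    refine Integrable.of_bound (hΦ.mul (hmeas B T)).aestronglyMeasurable (C * 2 ^ B.card) ?_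
    filter_upwards [lb_ae hν₀ hγ B] with ω hω
    rw [Real.norm_eq_abs, abs_mul]
    refine mul_le_mul (hb ω) ?_ (abs_nonneg _) hC
    rw [Finset.abs_prod]
    calc ∏ v ∈ B, |1 + lb_pp ω v * sp T v| ≤ ∏ v ∈ B, (2 : ℝ) := by
          refine Finset.prod_le_prod (fun v _ => abs_nonneg _) fun v hv => ?_
          have h := one_add_mul_sp_nonneg (hω v hv).1.le T v
          rw [abs_of_nonneg h.1]
          exact h.2
      _ = 2 ^ B.card := by rw [Finset.prod_const]
  -- one factor
  have hsplit : ∀ T : Finset V, ∫ ω, Φ ω * ∏ v ∈ S, (1 + lb_pp ω v * sp T v) ∂lb_Pi V ν₀ γ =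
      ∫ ω, Φ ω * ∏ v ∈ A, (1 + lb_pp ω v * sp (T ∩ A) v) ∂lb_Pi V ν₀ γ := by
    intro T
    have e1 : ∀ ω : V → ℝ × ℝ, Φ ω * ∏ v ∈ S, (1 + lb_pp ω v * sp T v) =
        (Φ ω * ∏ v ∈ A, (1 + lb_pp ω v * sp T v)) * ∏ v ∈ S \ A, (1 + lb_pp ω v * sp T v) := by
      intro ω
      rw [mul_assoc, mul_comm (∏ v ∈ A, _) (∏ v ∈ S \ A, _), Finset.prod_sdiff hAS]
    simp only [e1]
    have hind : ProbabilityTheory.IndepFun
        (fun ω : V → ℝ × ℝ => Φ ω * ∏ v ∈ A, (1 + lb_pp ω v * sp T v))
        (fun ω : V → ℝ × ℝ => ∏ v ∈ S \ A, (1 + lb_pp ω v * sp T v)) (lb_Pi V ν₀ γ) := by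
      refine lb_indep (fun _ : V => lb_pair ν₀ γ) (0, 0) (A := A) (B := S \ A)
        Finset.disjoint_sdiff (hΦ.mul (hmeas A T)) (hmeas _ T) ?_ ?_
      · intro p q hpq
        rw [hd p q hpq]
        congr 1
        exact Finset.prod_congr rfl fun v hv => by unfold lb_pp; rw [hpq v hv]
      · intro p q hpq
        exact Finset.prod_congr rfl fun v hv => by unfold lb_pp; rw [hpq v hv]
    have h4 := hind.integral_mul_eq_mul_integral (hΦ.mul (hmeas A T)).aestronglyMeasurable
      (hmeas _ T).aestronglyMeasurable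
    simp only [Pi.mul_apply] at h4
    rw [h4]
    have h5 : ∫ ω, ∏ v ∈ S \ A, (1 + lb_pp ω v * sp T v) ∂lb_Pi V ν₀ γ = 1 := by
      have h6 := mb_integral_prod hcomb (S \ A) (fun v => sp T v)
      rw [← lb_Pi_pp hν₀ hγ, integral_map lb_pp_meas.aemeasurable] at h6
      · exact h6
      · have h : Measurable (fun p : V → ℝ => ∏ v ∈ S \ A, (1 + p v * sp T v)) := by fun_prop
        exact h.aestronglyMeasurable
    rw [h5, mul_one]
    congr 1
    funext ω
    congr 1
    refine Finset.prod_congr rfl fun v hv => ?_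
    have : sp (T ∩ A) v = sp T v := by
      unfold sp
      simp [hv]
    rw [this]
  unfold Zd
  simp only [Finset.mul_sum]
  rw [integral_finsetSum, integral_finsetSum]
  · have e2 : ∀ (B T : Finset V), ∫ ω, Φ ω * (isw G β B T * ∏ v ∈ B, (1 + lb_pp ω v * sp T v))
        ∂lb_Pi V ν₀ γ =
        isw G β B T * ∫ ω, Φ ω * ∏ v ∈ B, (1 + lb_pp ω v * sp T v) ∂lb_Pi V ν₀ γ := by
      intro B T
      rw [← integral_const_mul]
      congr 1
      funext ω
      ring
    simp only [e2]
    simp only [hsplit]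
    exact lb_isw_marg hG hS hA hAS
      (fun T => ∫ ω, Φ ω * ∏ v ∈ A, (1 + lb_pp ω v * sp T v) ∂lb_Pi V ν₀ γ)
  · intro T _
    have h := (hint A T).const_mul (isw G β A T)
    refine h.congr (Filter.Eventually.of_forall fun ω => ?_)
    simp only
    ring
  · intro T _
    have h := (hint S T).const_mul (isw G β S T)
    refine h.congr (Filter.Eventually.of_forall fun ω => ?_)
    simp only
    ring

/-- One step of the replacement of the combined messages by the first messages. -/
lemma lb_step (hν₀ : IsOwn ν₀) (hγ : IsOwn γ) (a : V) {F : (V → ℝ) → ℝ}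
    {H : (V → ℝ × ℝ) → ℝ} (hH : ∀ ω z, H (Function.update ω a z) = H ω)
    (hm : Measurable (fun ω : V → ℝ × ℝ => F (lb_rr ω) * (lb_pp ω a - lb_rr ω a) * H ω))
    (hint : Integrable (fun ω : V → ℝ × ℝ => F (lb_rr ω) * (lb_pp ω a - lb_rr ω a) * H ω)
      (lb_Pi V ν₀ γ)) :
    ∫ ω, F (lb_rr ω) * (lb_pp ω a - lb_rr ω a) * H ω ∂lb_Pi V ν₀ γ = 0 := by
  have hprob := lb_Pi_prob (V := V) hν₀ hγ
  have hpair := lb_pair_prob hν₀ hγ
  have hres := lb_resample (fun _ : V => lb_pair ν₀ γ) a
  have hmu : Measurable (fun x : (V → ℝ × ℝ) × (ℝ × ℝ) => Function.update x.1 a x.2) := by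
    rw [measurable_pi_iff]
    intro v
    by_cases h : v = a
    · subst h
      simp only [Function.update_self]
      exact measurable_snd
    · simp only [Function.update_of_ne h]
      exact (measurable_pi_apply v).comp measurable_fst
  change ((lb_Pi V ν₀ γ).prod (lb_pair ν₀ γ)).map _ = lb_Pi V ν₀ γ at hres
  have hint' := hint
  rw [← hres] at hint'
  rw [integrable_map_measure hm.aestronglyMeasurable hmu.aemeasurable] at hint'
  rw [← hres, integral_map hmu.aemeasurable hm.aestronglyMeasurable]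
  refine (integral_prod _ hint').trans ?_
  have key : ∀ ω : V → ℝ × ℝ, ∫ z : ℝ × ℝ, (F (lb_rr (Function.update ω a z)) *
      (lb_pp (Function.update ω a z) a - lb_rr (Function.update ω a z) a) *
        H (Function.update ω a z)) ∂lb_pair ν₀ γ = 0 := by
    intro ω
    have e : ∀ z : ℝ × ℝ, (F (lb_rr (Function.update ω a z)) *
      (lb_pp (Function.update ω a z) a - lb_rr (Function.update ω a z) a) *
        H (Function.update ω a z)) =
        ((fun x : ℝ => F (Function.update (lb_rr ω) a x)) z.1 * (lb_g z - z.1)) * H ω := by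
      intro z
      rw [hH]
      have e1 : lb_rr (Function.update ω a z) = Function.update (lb_rr ω) a z.1 := by
        funext v
        unfold lb_rr
        by_cases h : v = a
        · subst h
          simp
        · simp [Function.update_of_ne h]
      have e2 : lb_pp (Function.update ω a z) a = lb_g z := by
        unfold lb_pp
        simp
      rw [e2, e1, Function.update_self]
    simp only [e]
    rw [integral_mul_const, lb_pair_resample hν₀ hγ
      (fun x : ℝ => F (Function.update (lb_rr ω) a x)), zero_mul]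
  simp only [Function.comp, key, integral_zero]

/-- Replacement of the combined messages by the first messages in a multilinear functional. -/
lemma lb_replace (hν₀ : IsOwn ν₀) (hγ : IsOwn γ) {F : (V → ℝ) → ℝ} (hF : Measurable F) {C : ℝ}
    (hb : ∀ p, |F p| ≤ C) (T A : Finset V) :
    ∫ ω, F (lb_rr ω) * ∏ v ∈ A, (1 + lb_pp ω v * sp T v) ∂lb_Pi V ν₀ γ =
      ∫ ω, F (lb_rr ω) * ∏ v ∈ A, (1 + lb_rr ω v * sp T v) ∂lb_Pi V ν₀ γ := by
  have hprob := lb_Pi_prob (V := V) hν₀ hγ
  have hC : 0 ≤ C := (abs_nonneg _).trans (hb 0)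
  have hm1 : ∀ B : Finset V, Measurable (fun ω : V → ℝ × ℝ =>
      ∏ v ∈ B, (1 + lb_pp ω v * sp T v)) := by
    intro B
    have h : Measurable (fun p : V → ℝ => ∏ v ∈ B, (1 + p v * sp T v)) := by fun_prop
    exact h.comp lb_pp_meas
  have hm2 : ∀ B : Finset V, Measurable (fun ω : V → ℝ × ℝ =>
      ∏ v ∈ B, (1 + lb_rr ω v * sp T v)) := by
    intro B
    have h : Measurable (fun p : V → ℝ => ∏ v ∈ B, (1 + p v * sp T v)) := by fun_prop
    exact h.comp lb_rr_meas
  have hFm : Measurable (fun ω : V → ℝ × ℝ => F (lb_rr ω)) := hF.comp lb_rr_meas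
  have hbd : ∀ (B : Finset V) (p : V → ℝ), (∀ v ∈ B, |p v| < 1) →
      |∏ v ∈ B, (1 + p v * sp T v)| ≤ 2 ^ B.card := by
    intro B p hp
    rw [Finset.abs_prod]
    calc ∏ v ∈ B, |1 + p v * sp T v| ≤ ∏ v ∈ B, (2 : ℝ) := by
          refine Finset.prod_le_prod (fun v _ => abs_nonneg _) fun v hv => ?_
          have h := one_add_mul_sp_nonneg (hp v hv).le T v
          rw [abs_of_nonneg h.1]
          exact h.2
      _ = 2 ^ B.card := by rw [Finset.prod_const]
  have hint : ∀ (B D : Finset V), Integrable (fun ω : V → ℝ × ℝ => F (lb_rr ω) *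
      ((∏ v ∈ B, (1 + lb_rr ω v * sp T v)) * ∏ v ∈ D, (1 + lb_pp ω v * sp T v)))
      (lb_Pi V ν₀ γ) := by
    intro B D
    refine Integrable.of_bound (hFm.mul ((hm2 B).mul (hm1 D))).aestronglyMeasurable
      (C * (2 ^ B.card * 2 ^ D.card)) ?_
    filter_upwards [lb_ae hν₀ hγ B, lb_ae hν₀ hγ D] with ω h1 h2
    rw [Real.norm_eq_abs, abs_mul, abs_mul]
    refine mul_le_mul (hb _) ?_ (by positivity) hC
    exact mul_le_mul (hbd B _ fun v hv => (h1 v hv).2) (hbd D _ fun v hv => (h2 v hv).1)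
      (abs_nonneg _) (by positivity)
  -- one vertex
  have hstep : ∀ (a : V) (B D : Finset V), a ∉ B → a ∉ D →
      ∫ ω, F (lb_rr ω) * ((∏ v ∈ B, (1 + lb_rr ω v * sp T v)) *
        ∏ v ∈ insert a D, (1 + lb_pp ω v * sp T v)) ∂lb_Pi V ν₀ γ =
      ∫ ω, F (lb_rr ω) * ((∏ v ∈ insert a B, (1 + lb_rr ω v * sp T v)) *
        ∏ v ∈ D, (1 + lb_pp ω v * sp T v)) ∂lb_Pi V ν₀ γ := by
    intro a B D haB haD
    rw [← sub_eq_zero, ← integral_sub (hint _ _) (hint _ _)]
    have e : ∀ ω : V → ℝ × ℝ, F (lb_rr ω) * ((∏ v ∈ B, (1 + lb_rr ω v * sp T v)) *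
        ∏ v ∈ insert a D, (1 + lb_pp ω v * sp T v)) -
        F (lb_rr ω) * ((∏ v ∈ insert a B, (1 + lb_rr ω v * sp T v)) *
        ∏ v ∈ D, (1 + lb_pp ω v * sp T v)) =
        F (lb_rr ω) * (lb_pp ω a - lb_rr ω a) *
          (sp T a * ((∏ v ∈ B, (1 + lb_rr ω v * sp T v)) *
            ∏ v ∈ D, (1 + lb_pp ω v * sp T v))) := by
      intro ω
      rw [Finset.prod_insert haD, Finset.prod_insert haB]
      ring
    simp only [e]
    apply lb_step hν₀ hγ a
    · intro ω z
      congr 2
      · refine Finset.prod_congr rfl fun v hv => ?_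
        have hva : v ≠ a := by rintro rfl; exact haB hv
        unfold lb_rr
        rw [Function.update_of_ne hva]
      · refine Finset.prod_congr rfl fun v hv => ?_
        have hva : v ≠ a := by rintro rfl; exact haD hv
        unfold lb_pp
        rw [Function.update_of_ne hva]
    · exact (hFm.mul (((measurable_pi_apply a).comp lb_pp_meas).sub
        ((measurable_pi_apply a).comp lb_rr_meas))).mul (((hm2 B).mul (hm1 D)).const_mul _)
    · have h := (hint B (insert a D)).sub (hint (insert a B) D)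
      refine h.congr (Filter.Eventually.of_forall fun ω => ?_)
      simp only [Pi.sub_apply]
      exact e ω
  have hall : ∀ (D B : Finset V), Disjoint D B →
      ∫ ω, F (lb_rr ω) * ((∏ v ∈ B, (1 + lb_rr ω v * sp T v)) *
        ∏ v ∈ D, (1 + lb_pp ω v * sp T v)) ∂lb_Pi V ν₀ γ =
      ∫ ω, F (lb_rr ω) * ((∏ v ∈ D ∪ B, (1 + lb_rr ω v * sp T v)) *
        ∏ v ∈ (∅ : Finset V), (1 + lb_pp ω v * sp T v)) ∂lb_Pi V ν₀ γ := by
    intro D
    induction D using Finset.induction_on with
    | empty =>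
      intro B _
      rw [Finset.empty_union]
    | insert a D ha ih =>
      intro B hdis
      rw [Finset.disjoint_insert_left] at hdis
      rw [hstep a B D hdis.1 ha, ih (insert a B)]
      · rw [Finset.insert_union, Finset.union_insert]
      · rw [Finset.disjoint_insert_right]
        exact ⟨ha, hdis.2⟩
  have h := hall A ∅ (Finset.disjoint_empty_right A)
  simp only [Finset.prod_empty, one_mul, mul_one, Finset.union_empty] at h
  exact h

/-- The same with the density. -/
lemma lb_replace_Zd (hν₀ : IsOwn ν₀) (hγ : IsOwn γ) {F : (V → ℝ) → ℝ} (hF : Measurable F)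
    {C : ℝ} (hb : ∀ p, |F p| ≤ C) (A : Finset V) (f : Finset V → ℝ) :
    ∫ ω, F (lb_rr ω) * ∑ T ∈ A.powerset, isw G β A T * (f T *
        ∏ v ∈ A, (1 + lb_pp ω v * sp T v)) ∂lb_Pi V ν₀ γ =
      ∫ ω, F (lb_rr ω) * ∑ T ∈ A.powerset, isw G β A T * (f T *
        ∏ v ∈ A, (1 + lb_rr ω v * sp T v)) ∂lb_Pi V ν₀ γ := by
  have hprob := lb_Pi_prob (V := V) hν₀ hγ
  have hC : 0 ≤ C := (abs_nonneg _).trans (hb 0)
  have hbd : ∀ (T : Finset V) (p : V → ℝ), (∀ v ∈ A, |p v| < 1) →
      |∏ v ∈ A, (1 + p v * sp T v)| ≤ 2 ^ A.card := by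
    intro T p hp
    rw [Finset.abs_prod]
    calc ∏ v ∈ A, |1 + p v * sp T v| ≤ ∏ v ∈ A, (2 : ℝ) := by
          refine Finset.prod_le_prod (fun v _ => abs_nonneg _) fun v hv => ?_
          have h := one_add_mul_sp_nonneg (hp v hv).le T v
          rw [abs_of_nonneg h.1]
          exact h.2
      _ = 2 ^ A.card := by rw [Finset.prod_const]
  have hm : ∀ T : Finset V, Measurable (fun p : V → ℝ => ∏ v ∈ A, (1 + p v * sp T v)) := by
    intro T; fun_prop
  have hFm : Measurable (fun ω : V → ℝ × ℝ => F (lb_rr ω)) := hF.comp lb_rr_meas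
  have hint : ∀ (T : Finset V) (q : (V → ℝ × ℝ) → V → ℝ), Measurable q →
      (∀ᵐ ω ∂lb_Pi V ν₀ γ, ∀ v ∈ A, |q ω v| < 1) →
      Integrable (fun ω => F (lb_rr ω) * (isw G β A T * (f T *
        ∏ v ∈ A, (1 + q ω v * sp T v)))) (lb_Pi V ν₀ γ) := by
    intro T q hq hae
    refine Integrable.of_bound
      (hFm.mul ((((hm T).comp hq).const_mul _).const_mul _)).aestronglyMeasurable
      (C * (isw G β A T * (|f T| * 2 ^ A.card))) ?_
    filter_upwards [hae] with ω h1
    rw [Real.norm_eq_abs, abs_mul, abs_mul, abs_mul, abs_of_pos (isw_pos A T)]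
    refine mul_le_mul (hb _) ?_ (mul_nonneg (isw_pos A T).le (by positivity)) hC
    refine mul_le_mul_of_nonneg_left ?_ (isw_pos A T).le
    exact mul_le_mul_of_nonneg_left (hbd T _ h1) (abs_nonneg _)
  have hpp : ∀ᵐ ω ∂lb_Pi V ν₀ γ, ∀ v ∈ A, |lb_pp ω v| < 1 := by
    filter_upwards [lb_ae hν₀ hγ A] with ω h v hv using (h v hv).1
  have hrr : ∀ᵐ ω ∂lb_Pi V ν₀ γ, ∀ v ∈ A, |lb_rr ω v| < 1 := by
    filter_upwards [lb_ae hν₀ hγ A] with ω h v hv using (h v hv).2
  simp only [Finset.mul_sum]
  rw [integral_finsetSum _ (fun T _ => hint T _ lb_pp_meas hpp),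
    integral_finsetSum _ (fun T _ => hint T _ lb_rr_meas hrr)]
  refine Finset.sum_congr rfl fun T _ => ?_
  have e : ∀ (ω : V → ℝ × ℝ) (x : ℝ), F (lb_rr ω) * (isw G β A T * (f T * x)) =
      (isw G β A T * f T) * (F (lb_rr ω) * x) := fun ω x => by ring
  simp only [e]
  rw [integral_const_mul, integral_const_mul, lb_replace hν₀ hγ hF hb T A]

end

/-! ### Two layers -/

/-- Two-layer coupling.  `ν = comb ν₀ γ`, `S₀ ⊆ S` convex: random fields `p` (law: own law `ν`,
volume `S`) and `p₀` (own law `ν₀`, volume `S₀`) on a common probability space such that for all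
convex `A₀ ⊆ A` with `A₀ ⊆ S₀`, `A ⊆ S`, and `y ∈ A₀`, the magnetization of `A₀` at `y` for `p₀` is
the conditional expectation of the magnetization of `A` at `y` for `p`. Consequently the `L²`
distance is given by the difference of the second moments. -/
theorem two_layer (hG : G.IsTree) {ν₀ γ : Measure ℝ} (hν₀ : IsOwn ν₀) (hγ : IsOwn γ)
    {S S₀ : Finset V} (hS : Cvx G S) (hS₀ : Cvx G S₀) (hSS : S₀ ⊆ S) :
    ∃ (Q : Measure ((V → ℝ) × (V → ℝ))) (p p₀ : (V → ℝ) × (V → ℝ) → V → ℝ),
      IsProbabilityMeasure Q ∧ PLaw G β (comb ν₀ γ) S Q p ∧ PLaw G β ν₀ S₀ Q p₀ ∧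
      ∀ A A₀ : Finset V, Cvx G A → Cvx G A₀ → A₀ ⊆ A → A₀ ⊆ S₀ → A ⊆ S → ∀ y ∈ A₀,
        ∫ ω, (mg G β A (p ω) y - mg G β A₀ (p₀ ω) y) ^ 2 ∂Q =
          mom G β (fun _ => comb ν₀ γ) A y 1 - mom G β (fun _ => ν₀) A₀ y 1 := by
  have hprob := lb_Pi_prob (V := V) hν₀ hγ
  have hcomb : ∀ _ : V, IsOwn (comb ν₀ γ) := fun _ => isOwn_comb hν₀ hγ
  have hown : ∀ _ : V, IsOwn ν₀ := fun _ => hν₀
  -- the tilted law
  set Q' : Measure (V → ℝ × ℝ) := (lb_Pi V ν₀ γ).withDensity
    (fun ω => ENNReal.ofReal (Zd G β S (lb_pp ω))) with hQ'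
  have hQ'pp : Q'.map lb_pp = PL G β (fun _ => comb ν₀ γ) S := by
    have h := lb_map_withDensity (lb_Pi V ν₀ γ) lb_pp_meas
      (measurable_Zd (G := G) (β := β) S).ennreal_ofReal
    rw [lb_Pi_pp hν₀ hγ] at h
    exact h
  have hQ'prob : IsProbabilityMeasure Q' := by
    have h := (isProb_PL (G := G) (β := β) hcomb S).measure_univ
    rw [← hQ'pp, Measure.map_apply lb_pp_meas MeasurableSet.univ, Set.preimage_univ] at h
    exact ⟨h⟩
  have hZm : Measurable (fun ω : V → ℝ × ℝ => Zd G β S (lb_pp ω)) :=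
    (measurable_Zd S).comp lb_pp_meas
  have hQ'int : ∀ Φ : (V → ℝ × ℝ) → ℝ,
      ∫ ω, Φ ω ∂Q' = ∫ ω, Φ ω * Zd G β S (lb_pp ω) ∂lb_Pi V ν₀ γ := by
    intro Φ
    rw [hQ', integral_withDensity_eq_integral_toReal_smul hZm.ennreal_ofReal
      (Filter.Eventually.of_forall fun _ => ENNReal.ofReal_lt_top)]
    apply integral_congr_ae
    filter_upwards [lb_ae hν₀ hγ S] with ω hω
    rw [ENNReal.toReal_ofReal (Zd_nonneg fun v hv => (hω v hv).1.le), smul_eq_mul, mul_comm]
  -- law of the combined messages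
  have hpp : ∀ F : (V → ℝ) → ℝ, Measurable F →
      ∫ ω, F (lb_pp ω) ∂Q' = EE G β (fun _ => comb ν₀ γ) S F := by
    intro F hF
    unfold EE
    rw [← hQ'pp, integral_map lb_pp_meas.aemeasurable hF.aestronglyMeasurable]
  -- law of the first messages
  have hrrint : ∀ (F : (V → ℝ) → ℝ), Measurable F →
      ∫ ω, F (lb_rr ω) ∂lb_Pi V ν₀ γ = ∫ p, F p ∂Measure.infinitePi (fun _ : V => ν₀) := by
    intro F hF
    rw [← lb_Pi_rr hν₀ hγ, integral_map lb_rr_meas.aemeasurable hF.aestronglyMeasurable]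
  have hrr : ∀ F : (V → ℝ) → ℝ, Measurable F → (∃ C : ℝ, ∀ p, |F p| ≤ C) →
      ∫ ω, F (lb_rr ω) ∂Q' = EE G β (fun _ => ν₀) S F := by
    rintro F hF ⟨C, hb⟩
    rw [hQ'int, EE_eq hown]
    have h := lb_replace_Zd (G := G) (β := β) hν₀ hγ hF hb S (fun _ => 1)
    simp only [one_mul] at h
    change ∫ ω, F (lb_rr ω) * Zd G β S (lb_pp ω) ∂lb_Pi V ν₀ γ =
      ∫ ω, F (lb_rr ω) * Zd G β S (lb_rr ω) ∂lb_Pi V ν₀ γ at h
    rw [h]
    exact hrrint (fun p => F p * Zd G β S p) (hF.mul (measurable_Zd S))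
  have hmpair : Measurable (fun ω : V → ℝ × ℝ => (lb_pp ω, lb_rr ω)) :=
    lb_pp_meas.prodMk lb_rr_meas
  have hsqFn : ∀ (B : Finset V) (y : V), Fn B (fun p => mg G β B p y ^ 2) := by
    intro B y
    refine ⟨(measurable_mg B y).pow_const 2, ⟨1, fun p => ?_⟩, fun p q hpq => by
      simp only [mg_congr hpq y]⟩
    rw [abs_pow]
    exact pow_le_one₀ (abs_nonneg _) (abs_mg_le B p y)
  refine ⟨Q'.map (fun ω => (lb_pp ω, lb_rr ω)), Prod.fst, Prod.snd,
    Measure.isProbabilityMeasure_map hmpair.aemeasurable, ⟨measurable_fst, ?_⟩,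
    ⟨measurable_snd, ?_⟩, ?_⟩
  · intro F hF
    have h := integral_map (f := fun ω : (V → ℝ) × (V → ℝ) => F ω.1) (μ := Q')
      hmpair.aemeasurable (hF.meas.comp measurable_fst).aestronglyMeasurable
    rw [h]
    exact hpp F hF.meas
  · intro F hF
    have h := integral_map (f := fun ω : (V → ℝ) × (V → ℝ) => F ω.2) (μ := Q')
      hmpair.aemeasurable (hF.meas.comp measurable_snd).aestronglyMeasurable
    rw [h]
    simp only
    rw [hrr F hF.meas hF.bdd]
    exact EE_cons hG hown hS hS₀ hSS hF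
  · intro A A₀ hA hA₀ hAA hAS₀ hAS y hy
    have hyA := hAA hy
    have hA₀S := hAA.trans hAS
    have hmX := measurable_mg (G := G) (β := β) A y
    have hmY := measurable_mg (G := G) (β := β) A₀ y
    rw [integral_map hmpair.aemeasurable]
    swap
    · exact (((hmX.comp measurable_fst).sub
        (hmY.comp measurable_snd)).pow_const 2).aestronglyMeasurable
    simp only
    have hmXp : Measurable (fun ω : V → ℝ × ℝ => mg G β A (lb_pp ω) y) := hmX.comp lb_pp_meas
    have hmYr : Measurable (fun ω : V → ℝ × ℝ => mg G β A₀ (lb_rr ω) y) := hmY.comp lb_rr_meas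
    have iX : Integrable (fun ω : V → ℝ × ℝ => mg G β A (lb_pp ω) y ^ 2) Q' := by
      refine Integrable.of_bound (hmXp.pow_const 2).aestronglyMeasurable 1
        (Filter.Eventually.of_forall fun ω => ?_)
      rw [Real.norm_eq_abs, abs_pow]
      exact pow_le_one₀ (abs_nonneg _) (abs_mg_le A _ y)
    have iY : Integrable (fun ω : V → ℝ × ℝ => mg G β A₀ (lb_rr ω) y ^ 2) Q' := by
      refine Integrable.of_bound (hmYr.pow_const 2).aestronglyMeasurable 1
        (Filter.Eventually.of_forall fun ω => ?_)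
      rw [Real.norm_eq_abs, abs_pow]
      exact pow_le_one₀ (abs_nonneg _) (abs_mg_le A₀ _ y)
    have iXY : Integrable (fun ω : V → ℝ × ℝ =>
        mg G β A (lb_pp ω) y * mg G β A₀ (lb_rr ω) y) Q' := by
      refine Integrable.of_bound (hmXp.mul hmYr).aestronglyMeasurable 1
        (Filter.Eventually.of_forall fun ω => ?_)
      rw [Real.norm_eq_abs, abs_mul]
      exact mul_le_one₀ (abs_mg_le A _ y) (abs_nonneg _) (abs_mg_le A₀ _ y)
    have e1 : ∀ ω : V → ℝ × ℝ, (mg G β A (lb_pp ω) y - mg G β A₀ (lb_rr ω) y) ^ 2 =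
        mg G β A (lb_pp ω) y ^ 2 + mg G β A₀ (lb_rr ω) y ^ 2 -
          2 * (mg G β A (lb_pp ω) y * mg G β A₀ (lb_rr ω) y) := fun ω => by ring
    simp only [e1]
    have e2 := integral_sub (iX.add iY) (iXY.const_mul 2)
    simp only [Pi.add_apply] at e2
    rw [e2, integral_add iX iY, integral_const_mul]
    have eX : ∫ ω, mg G β A (lb_pp ω) y ^ 2 ∂Q' = mom G β (fun _ => comb ν₀ γ) A y 1 := by
      rw [hpp (fun p => mg G β A p y ^ 2) (hsqFn A y).meas,
        EE_cons hG hcomb hS hA hAS (hsqFn A y)]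
      rfl
    have eY : ∫ ω, mg G β A₀ (lb_rr ω) y ^ 2 ∂Q' = mom G β (fun _ => ν₀) A₀ y 1 := by
      rw [hrr (fun p => mg G β A₀ p y ^ 2) (hsqFn A₀ y).meas (hsqFn A₀ y).bdd,
        EE_cons hG hown hS hA₀ hA₀S (hsqFn A₀ y)]
      rfl
    have eXY : ∫ ω, mg G β A (lb_pp ω) y * mg G β A₀ (lb_rr ω) y ∂Q' =
        mom G β (fun _ => ν₀) A₀ y 1 := by
      rw [hQ'int, lb_marg (Φ := fun ω : V → ℝ × ℝ =>
        mg G β A (lb_pp ω) y * mg G β A₀ (lb_rr ω) y) hG hν₀ hγ hS hA hAS (hmXp.mul hmYr) (C := 1)]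
      · have h1 : ∫ ω, mg G β A (lb_pp ω) y * mg G β A₀ (lb_rr ω) y * Zd G β A (lb_pp ω)
            ∂lb_Pi V ν₀ γ = ∫ ω, mg G β A₀ (lb_rr ω) y *
              ∑ T ∈ A.powerset, isw G β A T * (sp T y *
                ∏ v ∈ A, (1 + lb_pp ω v * sp T v)) ∂lb_Pi V ν₀ γ := by
          apply integral_congr_ae
          filter_upwards [lb_ae hν₀ hγ A] with ω hω
          rw [← mg_mul_Zd (fun v hv => (hω v hv).1) y]
          ring
        have h2 : ∫ ω, mg G β A₀ (lb_rr ω) y *
              ∑ T ∈ A.powerset, isw G β A T * (sp T y *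
                ∏ v ∈ A, (1 + lb_rr ω v * sp T v)) ∂lb_Pi V ν₀ γ =
            ∫ ω, (mg G β A (lb_rr ω) y * mg G β A₀ (lb_rr ω) y) * Zd G β A (lb_rr ω)
              ∂lb_Pi V ν₀ γ := by
          apply integral_congr_ae
          filter_upwards [lb_ae hν₀ hγ A] with ω hω
          rw [← mg_mul_Zd (fun v hv => (hω v hv).2) y]
          ring
        rw [h1, lb_replace_Zd (F := fun p => mg G β A₀ p y) hν₀ hγ hmY
          (fun p => abs_mg_le A₀ p y) A (fun T => sp T y), h2,
          hrrint (fun p => (mg G β A p y * mg G β A₀ p y) * Zd G β A p)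
            ((hmX.mul hmY).mul (measurable_Zd A)), ← EE_eq hown,
          EE_mart hG hown hA hA₀ hAA (F := fun p => mg G β A₀ p y)
            ⟨hmY, ⟨1, fun p => abs_mg_le A₀ p y⟩, fun p q hpq => mg_congr hpq y⟩ hy]
        unfold mom
        congr 1
        funext p
        ring
      · intro ω
        rw [abs_mul]
        exact mul_le_one₀ (abs_mg_le A _ y) (abs_nonneg _) (abs_mg_le A₀ _ y)
      · intro ω ω' h
        have h1 : mg G β A (lb_pp ω) y = mg G β A (lb_pp ω') y :=
          mg_congr (fun v hv => by unfold lb_pp; rw [h v hv]) y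
        have h2 : mg G β A₀ (lb_rr ω) y = mg G β A₀ (lb_rr ω') y :=
          mg_congr (fun v hv => by unfold lb_rr; rw [h v (hAA hv)]) y
        rw [h1, h2]
    rw [eX, eY, eXY]
    ring

end Vale.Agent.P161C
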