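import Vale.Agent.Lib.P161C.Cvx

/-!
P161 critical, module ROOTED (section 4 of notes/P161crit/proof.md): combinatorics of the tree
seen from a vertex `x`.
Uses only statements of CVX and the existing library (`Tree`, `Sphere`, `CylLaw`).
-/

open Finset MeasureTheory

namespace Vale.Agent.P161C
open Vale.Agent.P161

variable {V : Type*} [DecidableEq V] {G : SimpleGraph V} [DecidableRel G.Adj]
  {b : ℕ} {β : ℝ} {D : Finset V} {x i c u j : V}

/-! ### Geodesics in a tree -/

omit [DecidableEq V] [DecidableRel G.Adj] in
/-- Four-point formula: if `i` is on the geodesic `x u` and `u` on the geodesic `i y`,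
`i ≠ u`, then `u` is on the geodesic `x y`. -/
lemma geo_trans (hG : G.IsTree) {x i u y : V} (h1 : G.dist x i + G.dist i u = G.dist x u)
    (h2 : G.dist i u + G.dist u y = G.dist i y) (hne : i ≠ u) :
    G.dist x u + G.dist u y = G.dist x y := by
  obtain ⟨k, huk, hk⟩ := exists_adj_closer hG.connected hne.symm
  have c1 := G.dist_comm (u := u) (v := i)
  have c2 := G.dist_comm (u := k) (v := i)
  have c3 := G.dist_comm (u := u) (v := y)
  have c4 := G.dist_comm (u := k) (v := y)
  have t1 := hG.connected.dist_triangle (u := x) (v := i) (w := k)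
  have hx : G.dist x k < G.dist x u := by omega
  have hy : G.dist y u < G.dist y k := by
    rcases side_cases hG huk y with h | h
    · exact h.1
    · exfalso
      have t2 := hG.connected.dist_triangle (u := i) (v := k) (w := y)
      omega
  have e := across hG huk.symm hx hy
  have e2 : G.dist x u = G.dist x k + 1 := by
    rcases side_cases hG huk x with h | h <;> omega
  omega

omit [DecidableEq V] [DecidableRel G.Adj] in
/-- On a geodesic: nested intervals. -/
lemma geo_mid (hG : G.IsTree) {x i u y : V} (h1 : G.dist x i + G.dist i u = G.dist x u)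
    (h2 : G.dist x u + G.dist u y = G.dist x y) :
    G.dist x i + G.dist i y = G.dist x y ∧ G.dist i u + G.dist u y = G.dist i y := by
  have t1 := hG.connected.dist_triangle (u := i) (v := u) (w := y)
  have t2 := hG.connected.dist_triangle (u := x) (v := i) (w := y)
  omega

omit [DecidableEq V] [DecidableRel G.Adj] in
/-- Existence of the vertex at distance `k` on the geodesic, with its uniqueness. -/
lemma geo_exists (hG : G.IsTree) (x u : V) {k : ℕ} (hk : k ≤ G.dist x u) :
    ∃! i, G.dist x i = k ∧ G.dist x i + G.dist i u = G.dist x u := by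
  have hex : ∀ m, m ≤ G.dist x u → ∃ i, G.dist x i + m = G.dist x u ∧ G.dist i u = m := by
    intro m
    induction m with
    | zero => intro _; exact ⟨u, by simp, SimpleGraph.dist_self⟩
    | succ m ih =>
      intro hm
      obtain ⟨i, h1, h2⟩ := ih (by omega)
      have hix : i ≠ x := by
        rintro rfl; rw [SimpleGraph.dist_self] at h1; omega
      obtain ⟨z, hiz, hz⟩ := exists_adj_closer hG.connected hix
      have c1 := G.dist_comm (u := x) (v := i)
      have c2 := G.dist_comm (u := x) (v := z)
      have hiz1 : G.dist i z = 1 := SimpleGraph.dist_eq_one_iff_adj.mpr hiz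
      have c3 := G.dist_comm (u := z) (v := i)
      have t1 := hG.connected.dist_triangle (u := z) (v := i) (w := u)
      have t2 := hG.connected.dist_triangle (u := x) (v := z) (w := u)
      exact ⟨z, by omega, by omega⟩
  have huniq : ∀ m i i', G.dist i u = m → G.dist i' u = m →
      G.dist x i + m = G.dist x u → G.dist x i' + m = G.dist x u → i = i' := by
    intro m
    induction m with
    | zero =>
      intro i i' h1 h2 _ _
      rw [hG.connected.dist_eq_zero_iff] at h1 h2
      rw [h1, h2]
    | succ m ih =>
      intro i i' h1 h2 h3 h4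
      have hiu : i ≠ u := by
        rintro rfl; rw [SimpleGraph.dist_self] at h1; omega
      have hiu' : i' ≠ u := by
        rintro rfl; rw [SimpleGraph.dist_self] at h2; omega
      obtain ⟨z, hiz, hz⟩ := exists_adj_closer hG.connected hiu
      obtain ⟨z', hiz', hz'⟩ := exists_adj_closer hG.connected hiu'
      have hiz1 : G.dist i z = 1 := SimpleGraph.dist_eq_one_iff_adj.mpr hiz
      have hiz1' : G.dist i' z' = 1 := SimpleGraph.dist_eq_one_iff_adj.mpr hiz'
      have t1 := hG.connected.dist_triangle (u := x) (v := i) (w := z)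
      have t2 := hG.connected.dist_triangle (u := x) (v := z) (w := u)
      have t3 := hG.connected.dist_triangle (u := x) (v := i') (w := z')
      have t4 := hG.connected.dist_triangle (u := x) (v := z') (w := u)
      have hzz : z = z' := ih z z' (by omega) (by omega) (by omega) (by omega)
      subst hzz
      have c1 := G.dist_comm (u := x) (v := i)
      have c2 := G.dist_comm (u := x) (v := z)
      have c3 := G.dist_comm (u := x) (v := i')
      exact closer_unique hG hiz.symm hiz'.symm (w := x) (by omega) (by omega)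
  obtain ⟨i, h1, h2⟩ := hex (G.dist x u - k) (by omega)
  refine ⟨i, ⟨by omega, by omega⟩, ?_⟩
  rintro i' ⟨h3, h4⟩
  exact huniq (G.dist x u - k) i' i (by omega) (by omega) (by omega) (by omega)

/-! ### Branches -/

omit [DecidableEq V] [DecidableRel G.Adj] in
lemma mem_br : u ∈ br G D x i ↔ u ∈ D ∧ G.dist x i + G.dist i u = G.dist x u := by
  unfold br; simp

omit [DecidableEq V] in
lemma mem_ch : c ∈ ch G D x i ↔ c ∈ D ∧ G.Adj i c ∧ G.dist x c = G.dist x i + 1 := by
  unfold ch; simp

omit [DecidableEq V] [DecidableRel G.Adj] in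
lemma br_self (D : Finset V) (x : V) : br G D x x = D := by
  ext u
  rw [mem_br, SimpleGraph.dist_self]
  simp

omit [DecidableEq V] [DecidableRel G.Adj] in
lemma br_eq_side' (hG : G.IsTree) (hic : G.Adj i c) (h : G.dist x c = G.dist x i + 1) :
    br G D x c = side G D c i := by
  ext u
  rw [mem_br, mem_side]
  have c1 := G.dist_comm (u := u) (v := c)
  have c2 := G.dist_comm (u := u) (v := i)
  constructor
  · rintro ⟨h1, h2⟩
    refine ⟨h1, ?_⟩
    have t1 := hG.connected.dist_triangle (u := x) (v := i) (w := u)
    omega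
  · rintro ⟨h1, h2⟩
    refine ⟨h1, ?_⟩
    have e := across hG hic (x := x) (y := u) (by omega) h2
    omega

omit [DecidableEq V] in
/-- The branch at a child is one side of the edge to the parent. -/
lemma br_eq_side (hG : G.IsTree) (hc : c ∈ ch G D x i) : br G D x c = side G D c i := by
  rw [mem_ch] at hc
  exact br_eq_side' hG hc.2.1 hc.2.2

omit [DecidableEq V] [DecidableRel G.Adj] in
lemma exists_closer (hG : G.IsTree) (hne : i ≠ x) : ∃ k, G.Adj k i ∧
    G.dist x i = G.dist x k + 1 := by
  obtain ⟨k, h1, h2⟩ := exists_adj_closer hG.connected hne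
  have c1 := G.dist_comm (u := x) (v := i)
  have c2 := G.dist_comm (u := x) (v := k)
  exact ⟨k, h1.symm, by omega⟩

omit [DecidableEq V] [DecidableRel G.Adj] in
lemma cvx_br (hG : G.IsTree) (hD : Cvx G D) (x i : V) : Cvx G (br G D x i) := by
  by_cases hix : i = x
  · subst hix; rw [br_self]; exact hD
  · obtain ⟨k, h1, h2⟩ := exists_closer hG hix
    rw [br_eq_side' hG h1 h2]
    exact cvx_side hG hD h1.symm

omit [DecidableEq V] [DecidableRel G.Adj] in
lemma br_subset (D : Finset V) (x i : V) : br G D x i ⊆ D := by
  exact Finset.filter_subset _ _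

omit [DecidableEq V] [DecidableRel G.Adj] in
lemma mem_br_self (hi : i ∈ D) : i ∈ br G D x i := by
  rw [mem_br, SimpleGraph.dist_self]
  exact ⟨hi, by simp⟩

omit [DecidableEq V] [DecidableRel G.Adj] in
lemma br_disjoint (hG : G.IsTree) {c c' : V} (hne : c ≠ c') (h : G.dist x c = G.dist x c') :
    Disjoint (br G D x c) (br G D x c') := by
  rw [Finset.disjoint_left]
  intro u hu hu'
  rw [mem_br] at hu hu'
  apply hne
  obtain ⟨i, _, hi⟩ := geo_exists hG x u (k := G.dist x c) (by omega)
  rw [hi c ⟨rfl, hu.2⟩, hi c' ⟨h.symm, hu'.2⟩]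

omit [DecidableEq V] [DecidableRel G.Adj] in
/-- Branches inside a branch. -/
lemma br_br (hG : G.IsTree) (h : G.dist x i + G.dist i u = G.dist x u) :
    br G (br G D x i) x u = br G D x u := by
  ext y
  rw [mem_br, mem_br, mem_br]
  constructor
  · rintro ⟨⟨h1, _⟩, h3⟩; exact ⟨h1, h3⟩
  · rintro ⟨h1, h2⟩; exact ⟨⟨h1, (geo_mid hG h h2).1⟩, h2⟩

omit [DecidableEq V] [DecidableRel G.Adj] in
/-- Beyond `j`, the branches seen from `x` and from `j` are the same. -/
lemma br_root (hG : G.IsTree) (h : G.dist x j + G.dist j i = G.dist x i) (hij : i ≠ j) :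
    br G D j i = br G D x i := by
  ext y
  rw [mem_br, mem_br]
  constructor
  · rintro ⟨h1, h2⟩; exact ⟨h1, geo_trans hG h h2 hij.symm⟩
  · rintro ⟨h1, h2⟩; exact ⟨h1, (geo_mid hG h h2).2⟩

omit [DecidableEq V] in
lemma ch_subset_br (hG : G.IsTree) (hc : c ∈ ch G D x i) : br G D x c ⊆ br G D x i := by
  rw [mem_ch] at hc
  have h1 : G.dist i c = 1 := SimpleGraph.dist_eq_one_iff_adj.mpr hc.2.1
  intro y hy
  rw [mem_br] at hy ⊢
  exact ⟨hy.1, (geo_mid hG (by omega) hy.2).1⟩

omit [DecidableEq V] in
/-- The parent. -/
lemma exists_parent (hG : G.IsTree) (hD : Cvx G D) (hx : x ∈ D) (hi : i ∈ D) (hne : i ≠ x) :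
    ∃ k, k ∈ D ∧ i ∈ ch G D x k ∧ ∀ k', i ∈ ch G D x k' → k' = k := by
  obtain ⟨k, h1, h2⟩ := exists_closer hG hne
  have hki : G.dist k i = 1 := SimpleGraph.dist_eq_one_iff_adj.mpr h1
  have hk : k ∈ D := hD x hx i hi k (by omega)
  refine ⟨k, hk, mem_ch.mpr ⟨hi, h1, h2⟩, ?_⟩
  intro k' hk'
  rw [mem_ch] at hk'
  have c1 := G.dist_comm (u := x) (v := i)
  have c2 := G.dist_comm (u := x) (v := k)
  have c3 := G.dist_comm (u := x) (v := k')
  exact closer_unique hG hk'.2.1.symm h1.symm (w := x) (by omega) (by omega)

omit [DecidableRel G.Adj] in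
/-- Neighbours further away from `x`. -/
lemma card_far_le [G.LocallyFinite] (hC : Crit G b β) (hne : i ≠ x) :
    ((G.neighborFinset i).filter (fun c => G.dist x c = G.dist x i + 1)).card ≤ b := by
  obtain ⟨k, h1, h2⟩ := exists_closer hC.tree hne
  have hsub : (G.neighborFinset i).filter (fun c => G.dist x c = G.dist x i + 1) ⊆
      (G.neighborFinset i).erase k := by
    intro c hc
    rw [mem_filter] at hc
    rw [mem_erase]
    refine ⟨?_, hc.1⟩
    rintro rfl; omega
  have hk : k ∈ G.neighborFinset i := by
    rw [SimpleGraph.mem_neighborFinset]; exact h1.symm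
  calc _ ≤ ((G.neighborFinset i).erase k).card := card_le_card hsub
    _ = (G.neighborFinset i).card - 1 := card_erase_of_mem hk
    _ = b := by rw [SimpleGraph.card_neighborFinset_eq_degree, hC.reg i]; rfl

lemma card_ch_le [G.LocallyFinite] (hC : Crit G b β) (hne : i ≠ x) :
    (ch G D x i).card ≤ b := by
  refine (card_le_card ?_).trans (card_far_le hC hne)
  intro c hc
  rw [mem_ch] at hc
  rw [mem_filter, SimpleGraph.mem_neighborFinset]
  exact hc.2

omit [DecidableEq V] in
lemma card_ch_root_le [G.LocallyFinite] (hC : Crit G b β) : (ch G D x i).card ≤ b + 1 := by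
  have hsub : ch G D x i ⊆ G.neighborFinset i := by
    intro c hc
    rw [mem_ch] at hc
    rw [SimpleGraph.mem_neighborFinset]
    exact hc.2.1
  calc _ ≤ (G.neighborFinset i).card := card_le_card hsub
    _ = b + 1 := by rw [SimpleGraph.card_neighborFinset_eq_degree, hC.reg i]

omit [DecidableRel G.Adj] in
/-- Number of vertices at distance `k` beyond `i`. -/
lemma card_beyond_le [G.LocallyFinite] (hC : Crit G b β) (hne : i ≠ x) (k : ℕ) :
    ({u ∈ br G D x i | G.dist i u = k}).card ≤ b ^ k := by
  have key : ∀ k, ((sph G i k).filter (fun u => G.dist x i + k = G.dist x u)).card ≤ b ^ k := by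
    intro k
    induction k with
    | zero =>
      calc _ ≤ (sph G i 0).card := card_filter_le _ _
        _ = b ^ 0 := by simp [sph]
    | succ k ih =>
      have hsub : (sph G i (k + 1)).filter (fun u => G.dist x i + (k + 1) = G.dist x u) ⊆
          ((sph G i k).filter (fun u => G.dist x i + k = G.dist x u)).biUnion
            (fun w => (G.neighborFinset w).filter (fun c => G.dist x c = G.dist x w + 1)) := by
        intro u hu
        rw [mem_filter, mem_sph hC.tree.connected] at hu
        have hui : u ≠ i := by
          rintro rfl; rw [SimpleGraph.dist_self] at hu; omega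
        obtain ⟨w, h1, h2⟩ := exists_closer hC.tree hui
        have hwu : G.dist w u = 1 := SimpleGraph.dist_eq_one_iff_adj.mpr h1
        have t1 := hC.tree.connected.dist_triangle (u := x) (v := i) (w := w)
        have t2 := hC.tree.connected.dist_triangle (u := x) (v := w) (w := u)
        rw [mem_biUnion]
        refine ⟨w, ?_, ?_⟩
        · rw [mem_filter, mem_sph hC.tree.connected]
          exact ⟨by omega, by omega⟩
        · rw [mem_filter, SimpleGraph.mem_neighborFinset]
          exact ⟨h1, by omega⟩
      calc _ ≤ _ := card_le_card hsub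
        _ ≤ ((sph G i k).filter (fun u => G.dist x i + k = G.dist x u)).card * b := by
            apply Finset.card_biUnion_le_card_mul
            intro w hw
            rw [mem_filter] at hw
            apply card_far_le hC
            rintro rfl
            rw [SimpleGraph.dist_self] at hw
            have h0 : G.dist w i = 0 := by omega
            rw [hC.tree.connected.dist_eq_zero_iff] at h0
            exact hne h0.symm
        _ ≤ b ^ k * b := Nat.mul_le_mul_right _ ih
        _ = b ^ (k + 1) := (pow_succ _ _).symm
  refine (card_le_card ?_).trans (key k)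
  intro u hu
  rw [mem_filter, mem_br] at hu
  rw [mem_filter, mem_sph hC.tree.connected]
  exact ⟨hu.2, by omega⟩

omit [DecidableRel G.Adj] in
lemma card_sphere_le [G.LocallyFinite] (hC : Crit G b β) (k : ℕ) :
    2 * ({u ∈ D | G.dist x u = k}).card ≤ 3 * b ^ k := by
  have hb := hC.hb
  have key : ∀ k, (sph G x (k + 1)).card ≤ (b + 1) * b ^ k := by
    intro k
    induction k with
    | zero => simpa using card_sph_one_le hC.reg x
    | succ k ih =>
      have h1 := card_sph_succ_le hC.tree.connected hC.reg x k
      calc _ ≤ (sph G x (k + 1)).card * (b + 1 - 1) := h1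
        _ ≤ (b + 1) * b ^ k * b := by
            rw [Nat.add_sub_cancel]; exact Nat.mul_le_mul_right _ ih
        _ = _ := by ring
  have hsub : ({u ∈ D | G.dist x u = k} : Finset V) ⊆ sph G x k := by
    intro u hu
    rw [mem_filter] at hu
    rw [mem_sph hC.tree.connected]
    exact hu.2
  have h2 := card_le_card hsub
  match k with
  | 0 =>
    have : (sph G x 0).card = 1 := by simp [sph]
    rw [pow_zero]
    omega
  | k + 1 =>
    have h3 := key k
    calc 2 * _ ≤ 2 * ((b + 1) * b ^ k) := by omega
      _ = (2 * b + 2) * b ^ k := by ring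
      _ ≤ (3 * b) * b ^ k := Nat.mul_le_mul_right _ (by omega)
      _ = _ := by ring

end Vale.Agent.P161C
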