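import Vale.Agent.Lib.P161C.ModelA
import Vale.Agent.Lib.P161C.Rooted

/-!
P161 critical, module ROOTED-B (section 4 of notes/P161crit/proof.md): messages, product formula
for the covariances, truncated susceptibilities as sums.  Uses MODEL-A, CVX, ROOTED.
-/

open Finset MeasureTheory

namespace Vale.Agent.P161C
open Vale.Agent.P161

variable {V : Type*} [DecidableEq V] {G : SimpleGraph V} [DecidableRel G.Adj]
  {b : ℕ} {β : ℝ} {D : Finset V} {x i c u j : V}

/-! ### Messages -/

lemma mem_pth : i ∈ pth G D j u ↔ i ∈ D ∧ i ≠ j ∧ G.dist j i + G.dist i u = G.dist j u := by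
  unfold pth; simp

lemma ms_root (x : V) (p : V → ℝ) : ms G β D x p x = mg G β D p x := by
  unfold ms
  rw [br_self]

lemma pth_self (D : Finset V) (x : V) (hG : G.IsTree) : pth G D x x = ∅ := by
  ext i
  rw [mem_pth]
  constructor
  · rintro ⟨_, h1, h2⟩
    rw [SimpleGraph.dist_self] at h2
    have h0 : G.dist x i = 0 := by omega
    rw [hG.connected.dist_eq_zero_iff] at h0
    exact absurd h0.symm h1
  · intro h; simp at h

/-- One more step at the far end. -/
lemma pth_child (hG : G.IsTree) (hD : Cvx G D) (hx : x ∈ D)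
    (hj : G.dist x j + G.dist j i = G.dist x i) (hjD : j ∈ D) (hc : c ∈ ch G D x i) :
    pth G D j c = insert c (pth G D j i) ∧ c ∉ pth G D j i := by
  rw [mem_ch] at hc
  have hic1 : G.dist i c = 1 := SimpleGraph.dist_eq_one_iff_adj.mpr hc.2.1
  have hci1 : G.dist c i = 1 := by rw [G.dist_comm]; exact hic1
  have hm := geo_mid hG hj (y := c) (by omega)
  have hjc : c ≠ j := by
    rintro rfl; rw [SimpleGraph.dist_self] at hm; omega
  constructor
  · ext i'
    rw [mem_insert, mem_pth, mem_pth]
    constructor
    · rintro ⟨h1, h2, h3⟩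
      by_cases hi' : i' = c
      · left; exact hi'
      · right
        refine ⟨h1, h2, ?_⟩
        obtain ⟨z, hz1, hz2⟩ := exists_adj_closer hG.connected (Ne.symm hi')
        have t1 := hG.connected.dist_triangle (u := z) (v := i') (w := j)
        have c1 := G.dist_comm (u := j) (v := i')
        have c2 := G.dist_comm (u := c) (v := i')
        have c3 := G.dist_comm (u := c) (v := j)
        have c4 := G.dist_comm (u := i) (v := j)
        have hz : z = i := closer_unique hG hz1 hc.2.1.symm (w := j) (by omega) (by omega)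
        subst hz
        have c5 := G.dist_comm (u := z) (v := i')
        omega
    · rintro (h1 | ⟨h1, h2, h3⟩)
      · subst h1
        exact ⟨hc.1, hjc, by rw [SimpleGraph.dist_self]; omega⟩
      · exact ⟨h1, h2, (geo_mid hG h3 (y := c) (by omega)).1⟩
  · rw [mem_pth]
    rintro ⟨_, _, h3⟩
    omega

/-- One more step at the near end: `u` beyond the child `c` of `j`. -/
lemma pth_cons (hG : G.IsTree) (hD : Cvx G D) (hx : x ∈ D) (hc : c ∈ ch G D x j)
    (hu : u ∈ br G D x c) : pth G D j u = insert c (pth G D c u) ∧ c ∉ pth G D c u := by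
  rw [mem_ch] at hc
  rw [mem_br] at hu
  have hjc1 : G.dist j c = 1 := SimpleGraph.dist_eq_one_iff_adj.mpr hc.2.1
  have hcj1 : G.dist c j = 1 := by rw [G.dist_comm]; exact hjc1
  have hm := geo_mid hG (x := x) (i := j) (u := c) (y := u) (by omega) hu.2
  constructor
  · ext i
    rw [mem_insert, mem_pth, mem_pth]
    constructor
    · rintro ⟨h1, h2, h3⟩
      by_cases hi : i = c
      · left; exact hi
      · right
        refine ⟨h1, hi, ?_⟩
        obtain ⟨z, hz1, hz2⟩ := exists_adj_closer hG.connected (Ne.symm h2)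
        have t1 := hG.connected.dist_triangle (u := z) (v := i) (w := u)
        have hz : z = c := closer_unique hG hz1 hc.2.1 (w := u) (by omega) (by omega)
        subst hz
        omega
    · rintro (h1 | ⟨h1, h2, h3⟩)
      · subst h1
        exact ⟨hc.1, hc.2.1.ne', by omega⟩
      · have t1 := hG.connected.dist_triangle (u := j) (v := c) (w := i)
        have t2 := hG.connected.dist_triangle (u := j) (v := i) (w := u)
        refine ⟨h1, ?_, by omega⟩
        rintro rfl
        omega
  · rw [mem_pth]
    rintro ⟨_, h2, _⟩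
    exact h2 rfl

lemma card_pth (hG : G.IsTree) (hD : Cvx G D) (hj : j ∈ D) (hu : u ∈ D) :
    (pth G D j u).card = G.dist j u := by
  induction hn : G.dist j u generalizing u with
  | zero =>
    have : j = u := (hG.connected.dist_eq_zero_iff).mp hn
    subst this
    rw [pth_self D j hG, card_empty]
  | succ n ih =>
    have hne : u ≠ j := by
      rintro rfl; rw [SimpleGraph.dist_self] at hn; omega
    obtain ⟨k, hk, hku, _⟩ := exists_parent hG hD hj hu hne
    obtain ⟨h1, h2⟩ := pth_child hG hD hj (x := j) (j := j) (i := k)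
      (by rw [SimpleGraph.dist_self]; omega) hj hku
    rw [h1, card_insert_of_notMem h2, ih hk (by have := (mem_ch.mp hku).2.2; omega)]

/-- (4.2) product formula. -/
lemma cv_eq_prod [G.LocallyFinite] (hG : G.IsTree) (hD : Cvx G D) (hx : x ∈ D) (hu : u ∈ D)
    (p : V → ℝ) :
    cv G β D p x u = (1 - mg G β D p x ^ 2) *
      ∏ i ∈ pth G D x u, slope (Real.tanh β) (ms G β D x p i) := by
  induction hn : G.dist x u generalizing u with
  | zero =>
    have : x = u := (hG.connected.dist_eq_zero_iff).mp hn
    subst this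
    rw [pth_self D x hG, prod_empty, mul_one]
    exact cov_self x
  | succ n ih =>
    have hne : u ≠ x := by
      rintro rfl; rw [SimpleGraph.dist_self] at hn; omega
    obtain ⟨k, hk, hku, _⟩ := exists_parent hG hD hx hu hne
    obtain ⟨h1, h2⟩ := pth_child hG hD hx (x := x) (j := x) (i := k)
      (by rw [SimpleGraph.dist_self]; omega) hx hku
    have hbr := br_eq_side hG hku
    have hku' := mem_ch.mp hku
    rw [h1, prod_insert h2]
    have ih' := ih hk (by omega)
    have e := cov_msg (β := β) hG hku'.2.1.symm hu hk (u := x)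
      (by rw [G.dist_comm (u := x) (v := k), G.dist_comm (u := x) (v := u)] at *; omega) (fld p)
    have e2 : cv G β D p x u = cov G β D (fld p) u x := cov_comm x u
    have e3 : cv G β D p x k = cov G β D (fld p) k x := cov_comm x k
    have e4 : ms G β D x p u = mag G β (side G D u k) (fld p) u := by
      unfold ms mg; rw [hbr]
    rw [e2, e, ← e3, ih', e4]
    ring

/-- The vertices beyond `i`, other than `i`, are in the branches of the children. -/
lemma br_eq_insert_biUnion (hG : G.IsTree) (hD : Cvx G D) (hx : x ∈ D) (hi : i ∈ D) :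
    br G D x i = insert i ((ch G D x i).biUnion (fun c => br G D x c)) := by
  ext u
  rw [mem_insert, mem_biUnion]
  constructor
  · intro hu
    by_cases hui : u = i
    · left; exact hui
    · right
      rw [mem_br] at hu
      obtain ⟨c, hc1, hc2⟩ := exists_adj_closer hG.connected (Ne.symm hui)
      have hic1 : G.dist i c = 1 := SimpleGraph.dist_eq_one_iff_adj.mpr hc1
      have t1 := hG.connected.dist_triangle (u := x) (v := c) (w := u)
      have t2 := hG.connected.dist_triangle (u := x) (v := i) (w := c)
      have hcD : c ∈ D := hD i hi u hu.1 c (by omega)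
      exact ⟨c, mem_ch.mpr ⟨hcD, hc1, by omega⟩, mem_br.mpr ⟨hu.1, by omega⟩⟩
  · rintro (h | ⟨c, hc, hu⟩)
    · subst h; exact mem_br_self hi
    · exact ch_subset_br hG hc hu

/-- Recursion for sums of products over the geodesics. -/
lemma sum_beyond_succ (hG : G.IsTree) (hD : Cvx G D) (hx : x ∈ D) (hi : i ∈ D) (n : ℕ)
    (g : V → ℝ) :
    ∑ u ∈ (br G D x i).filter (fun u => G.dist i u ≤ n + 1), ∏ k ∈ pth G D i u, g k =
      1 + ∑ c ∈ ch G D x i, g c *
        ∑ u ∈ (br G D x c).filter (fun u => G.dist c u ≤ n), ∏ k ∈ pth G D c u, g k := by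
  have hset : (br G D x i).filter (fun u => G.dist i u ≤ n + 1) =
      insert i ((ch G D x i).biUnion
        (fun c => (br G D x c).filter (fun u => G.dist c u ≤ n))) := by
    rw [br_eq_insert_biUnion hG hD hx hi]
    ext u
    rw [mem_filter, mem_insert, mem_insert, mem_biUnion, mem_biUnion]
    have hdist : ∀ c ∈ ch G D x i, u ∈ br G D x c → G.dist i u = G.dist c u + 1 := by
      intro c hc hu
      rw [mem_ch] at hc
      rw [mem_br] at hu
      have hic1 : G.dist i c = 1 := SimpleGraph.dist_eq_one_iff_adj.mpr hc.2.1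
      have := (geo_mid hG (x := x) (i := i) (u := c) (y := u) (by omega) hu.2).2
      omega
    constructor
    · rintro ⟨h1 | ⟨c, hc, hu⟩, h2⟩
      · left; exact h1
      · right
        refine ⟨c, hc, ?_⟩
        rw [mem_filter]
        have := hdist c hc hu
        exact ⟨hu, by omega⟩
    · rintro (h1 | ⟨c, hc, hu⟩)
      · subst h1
        rw [SimpleGraph.dist_self]
        exact ⟨Or.inl rfl, by omega⟩
      · rw [mem_filter] at hu
        have := hdist c hc hu.1
        exact ⟨Or.inr ⟨c, hc, hu.1⟩, by omega⟩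
  have hnot : i ∉ (ch G D x i).biUnion
        (fun c => (br G D x c).filter (fun u => G.dist c u ≤ n)) := by
    rw [mem_biUnion]
    rintro ⟨c, hc, hu⟩
    rw [mem_filter, mem_br] at hu
    rw [mem_ch] at hc
    omega
  rw [hset, sum_insert hnot, pth_self D i hG, prod_empty]
  congr 1
  rw [sum_biUnion]
  · refine sum_congr rfl fun c hc => ?_
    rw [mul_sum]
    refine sum_congr rfl fun u hu => ?_
    rw [mem_filter] at hu
    obtain ⟨h1, h2⟩ := pth_cons hG hD hx hc hu.1
    rw [h1, prod_insert h2]
  · intro c hc c' hc' hne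
    have hc1 := mem_ch.mp hc
    have hc2 := mem_ch.mp hc'
    have hd := br_disjoint (D := D) (x := x) hG hne (by omega)
    exact Finset.disjoint_of_subset_left (filter_subset _ _)
      (Finset.disjoint_of_subset_right (filter_subset _ _) hd)

lemma sum_beyond_zero (hG : G.IsTree) (hi : i ∈ D) (g : V → ℝ) :
    ∑ u ∈ (br G D x i).filter (fun u => G.dist i u ≤ 0), ∏ k ∈ pth G D i u, g k = 1 := by
  have hset : (br G D x i).filter (fun u => G.dist i u ≤ 0) = {i} := by
    ext u
    rw [mem_filter, mem_singleton]
    constructor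
    · rintro ⟨_, h⟩
      have h0 : G.dist i u = 0 := by omega
      rw [hG.connected.dist_eq_zero_iff] at h0
      exact h0.symm
    · rintro rfl
      exact ⟨mem_br_self hi, by rw [SimpleGraph.dist_self]⟩
  rw [hset, sum_singleton, pth_self D i hG, prod_empty]

/-- The truncated susceptibility is the sum of the products over the geodesics. -/
lemma Pf_eq_sum (hG : G.IsTree) (hD : Cvx G D) (hx : x ∈ D) (hi : i ∈ D) (n : ℕ) (p : V → ℝ) :
    Pf G β D x n i p = ∑ u ∈ (br G D x i).filter (fun u => G.dist i u ≤ n),
      ∏ k ∈ pth G D i u, slope (Real.tanh β) (ms G β D x p k) ^ 2 := by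
  induction n generalizing i with
  | zero => rw [sum_beyond_zero hG hi]; rfl
  | succ n ih =>
    rw [sum_beyond_succ hG hD hx hi]
    unfold Pf
    congr 1
    refine sum_congr rfl fun c hc => ?_
    rw [ih (mem_ch.mp hc).1]

lemma Qf_eq_sum (hG : G.IsTree) (hD : Cvx G D) (hx : x ∈ D) (hi : i ∈ D) (n : ℕ) (p : V → ℝ) :
    Qf G β D x n i p = ∑ u ∈ (br G D x i).filter (fun u => G.dist i u ≤ n),
      ∏ k ∈ pth G D i u, (Real.tanh β ^ 2 * Real.exp (-(ms G β D x p k ^ 2) / 4)) := by
  induction n generalizing i with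
  | zero => rw [sum_beyond_zero hG hi]; rfl
  | succ n ih =>
    rw [sum_beyond_succ hG hD hx hi]
    unfold Qf
    congr 1
    refine sum_congr rfl fun c hc => ?_
    rw [ih (mem_ch.mp hc).1]

/-- Messages are Lipschitz functions of the full magnetizations (`cavity_lip`, `mag_msg`);
`k` is the parent of `i`. -/
lemma ms_lip [G.LocallyFinite] (hC : Crit G b β) {D D' : Finset V} {x i k : V}
    (hi : i ∈ ch G D x k) (hi' : i ∈ ch G D' x k) (hk : k ∈ D) (hk' : k ∈ D') (p p' : V → ℝ) :
    |ms G β D x p i - ms G β D' x p' i| ≤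
      6 * (|mg G β D p i - mg G β D' p' i| + |mg G β D p k - mg G β D' p' k|) := by
  have hG := hC.tree
  have h1 := mem_ch.mp hi
  have h1' := mem_ch.mp hi'
  have h0 := tanh_nonneg hC.hβ
  have hlt := Real.tanh_lt_one β
  have hb : (2 : ℝ) ≤ b := by exact_mod_cast hC.hb
  have hcr := hC.crit
  have hθ : Real.tanh β ^ 2 ≤ 1 / 2 := by nlinarith [sq_nonneg (Real.tanh β)]
  have e1 := mag_msg (β := β) hG h1.2.1.symm h1.1 hk (fld p)
  have e2 := mag_msg (β := β) hG h1'.2.1.symm h1'.1 hk' (fld p')
  have key := cavity_lip h0 hlt (abs_mag_le i) (abs_mag_le i) (abs_mag_le k) e1 e2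
  have e3 : ms G β D x p i = mag G β (side G D i k) (fld p) i := by
    unfold ms mg; rw [br_eq_side hG hi]
  have e4 : ms G β D' x p' i = mag G β (side G D' i k) (fld p') i := by
    unfold ms mg; rw [br_eq_side hG hi']
  rw [e3, e4]
  refine key.trans ?_
  have h6 : (1 + Real.tanh β) / (1 - Real.tanh β) ≤ 6 := by
    rw [div_le_iff₀ (by linarith)]
    nlinarith
  have hnn : 0 ≤ |mag G β D (fld p) i - mag G β D' (fld p') i| +
      |mag G β D (fld p) k - mag G β D' (fld p') k| := by positivity
  exact mul_le_mul_of_nonneg_right h6 hnn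

end Vale.Agent.P161C
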