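import Vale.Agent.Lib.P161C.Core

/-!
P161 critical, module SCALAR (sections 0, 2.1 of notes/P161crit/proof.md): real inequalities.
Independent of the rest.
-/

open Finset MeasureTheory

namespace Vale.Agent.P161C
open Vale.Agent.P161

/-! ### Slopes.  `θ` is the slope at `0`. -/

lemma scl_den {θ m : ℝ} (h1 : θ ^ 2 ≤ 1 / 2) (hm : |m| ≤ 1) :
    m ^ 2 ≤ 1 ∧ 1 / 2 ≤ 1 - θ ^ 2 * m ^ 2 ∧ 1 - θ ^ 2 ≤ 1 - θ ^ 2 * m ^ 2 := by
  have h2 : m ^ 2 ≤ 1 := by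
    rw [← sq_abs]
    exact pow_le_one₀ (abs_nonneg _) hm
  have h3 : θ ^ 2 * m ^ 2 ≤ θ ^ 2 * 1 := mul_le_mul_of_nonneg_left h2 (sq_nonneg _)
  exact ⟨h2, by linarith, by linarith⟩

lemma scl_lt_one {θ : ℝ} (h0 : 0 ≤ θ) (h1 : θ ^ 2 ≤ 1 / 2) : θ < 1 := by nlinarith

lemma slope_le_exp {θ m : ℝ} (h0 : 0 ≤ θ) (h1 : θ ^ 2 ≤ 1 / 2) (hm : |m| ≤ 1) :
    slope θ m ≤ θ * Real.exp (-(m ^ 2) / 2) := by
  obtain ⟨hx, hd, _⟩ := scl_den h1 hm
  have hx0 := sq_nonneg m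
  have h2 : (1 - m ^ 2) / (1 - θ ^ 2 * m ^ 2) ≤ 1 - m ^ 2 / 2 := by
    rw [div_le_iff₀ (by linarith)]
    nlinarith [mul_nonneg hx0 (sub_nonneg.2 h1), mul_nonneg (sq_nonneg θ) (mul_nonneg hx0 hx0)]
  have h3 : 1 - m ^ 2 / 2 ≤ Real.exp (-(m ^ 2) / 2) := by
    have := Real.add_one_le_exp (-(m ^ 2) / 2)
    linarith
  unfold P161.slope
  rw [mul_div_assoc]
  exact mul_le_mul_of_nonneg_left (h2.trans h3) h0

/-- (0.1) for the squares. -/
lemma slope_sq_le_exp {θ m : ℝ} (h0 : 0 ≤ θ) (h1 : θ ^ 2 ≤ 1 / 2) (hm : |m| ≤ 1) :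
    slope θ m ^ 2 ≤ θ ^ 2 * Real.exp (-(m ^ 2)) := by
  have h2 := pow_le_pow_left₀ (slope_nonneg h0 (scl_lt_one h0 h1) hm) (slope_le_exp h0 h1 hm) 2
  rw [mul_pow, ← Real.exp_nat_mul] at h2
  have e : ((2 : ℕ) : ℝ) * (-(m ^ 2) / 2) = -(m ^ 2) := by push_cast; ring
  rwa [e] at h2

/-- (0.2) -/
lemma abs_slope_sub_le {θ m m' : ℝ} (h0 : 0 ≤ θ) (h1 : θ ^ 2 ≤ 1 / 2) (hm : |m| ≤ 1)
    (hm' : |m'| ≤ 1) : |slope θ m - slope θ m'| ≤ 2 * θ * (|m + m'| * |m - m'|) := by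
  obtain ⟨hx, hd, hd'⟩ := scl_den h1 hm
  obtain ⟨hy, he, he'⟩ := scl_den h1 hm'
  have hd0 : 0 < 1 - θ ^ 2 * m ^ 2 := by linarith
  have he0 : 0 < 1 - θ ^ 2 * m' ^ 2 := by linarith
  have e : slope θ m - slope θ m' = θ * ((1 - θ ^ 2) / ((1 - θ ^ 2 * m ^ 2) *
      (1 - θ ^ 2 * m' ^ 2))) * (m' ^ 2 - m ^ 2) := by
    unfold P161.slope
    rw [div_sub_div _ _ hd0.ne' he0.ne']
    field_simp
    ring
  have h2 : (1 - θ ^ 2) / ((1 - θ ^ 2 * m ^ 2) * (1 - θ ^ 2 * m' ^ 2)) ≤ 2 := by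
    rw [div_le_iff₀ (by positivity)]
    nlinarith
  have h3 : 0 ≤ (1 - θ ^ 2) / ((1 - θ ^ 2 * m ^ 2) * (1 - θ ^ 2 * m' ^ 2)) :=
    div_nonneg (by linarith) (by positivity)
  have h4 : |m' ^ 2 - m ^ 2| = |m + m'| * |m - m'| := by
    rw [← abs_mul, ← abs_neg]
    congr 1
    ring
  rw [e, abs_mul, h4, abs_mul, abs_of_nonneg h0, abs_of_nonneg h3]
  apply mul_le_mul_of_nonneg_right _ (by positivity)
  nlinarith

/-- (0.3) -/
lemma abs_slope_sq_sub_le {θ m m' : ℝ} (h0 : 0 ≤ θ) (h1 : θ ^ 2 ≤ 1 / 2) (hm : |m| ≤ 1)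
    (hm' : |m'| ≤ 1) :
    |slope θ m ^ 2 - slope θ m' ^ 2| ≤ 4 * θ ^ 2 * (|m + m'| * |m - m'|) := by
  have hlt := scl_lt_one h0 h1
  have h2 := abs_slope_sub_le h0 h1 hm hm'
  have h3 := slope_nonneg h0 hlt hm
  have h4 := slope_nonneg h0 hlt hm'
  have h5 := slope_le h0 hlt hm
  have h6 := slope_le h0 hlt hm'
  have e : slope θ m ^ 2 - slope θ m' ^ 2 =
      (slope θ m - slope θ m') * (slope θ m + slope θ m') := by ring
  rw [e, abs_mul, abs_of_nonneg (by linarith : 0 ≤ slope θ m + slope θ m')]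
  calc |slope θ m - slope θ m'| * (slope θ m + slope θ m') ≤
      (2 * θ * (|m + m'| * |m - m'|)) * (θ + θ) :=
        mul_le_mul h2 (by linarith) (by linarith) (by positivity)
    _ = _ := by ring

/-- `1 - (slope(m)/θ)² ≤ 2 m²`. -/
lemma one_sub_slope_sq_le {θ m : ℝ} (h0 : 0 < θ) (h1 : θ ^ 2 ≤ 1 / 2) (hm : |m| ≤ 1) :
    1 - (slope θ m / θ) ^ 2 ≤ 2 * m ^ 2 := by
  obtain ⟨hx, hd, _⟩ := scl_den h1 hm
  have hd0 : 0 < 1 - θ ^ 2 * m ^ 2 := by linarith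
  have e : slope θ m / θ = (1 - m ^ 2) / (1 - θ ^ 2 * m ^ 2) := by
    unfold P161.slope
    field_simp
  have h2 : 1 - m ^ 2 ≤ slope θ m / θ := by
    rw [e, le_div_iff₀ hd0]
    have : 0 ≤ θ ^ 2 * m ^ 2 := by positivity
    nlinarith
  have h3 : (1 - m ^ 2) ^ 2 ≤ (slope θ m / θ) ^ 2 := pow_le_pow_left₀ (by linarith) h2 2
  nlinarith [sq_nonneg (m ^ 2)]

/-! ### (2.1) second moments -/

/-- `symf (·²)`. -/
noncomputable def ff (U W : ℝ) : ℝ := (U + W - 2 * U * W) / (1 - U * W)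

lemma scl_one_sub {U W : ℝ} (hU0 : 0 ≤ U) (hU1 : U ≤ 1) (hW0 : 0 ≤ W) (hW1 : W < 1) :
    0 < 1 - U * W := by nlinarith

lemma symf_sq {u w : ℝ} (hu : |u| < 1) (hw : |w| < 1) :
    symf (fun x => x ^ 2) u w = ff (u ^ 2) (w ^ 2) := by
  have h1 : |u * w| < 1 := by
    rw [abs_mul]
    have := abs_nonneg u
    have := abs_nonneg w
    nlinarith
  have h2 := abs_lt.1 h1
  have h3 : 1 + u * w ≠ 0 := by linarith [h2.1] |> fun h : 0 < 1 + u * w => h.ne'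
  have h4 : 1 - u * w ≠ 0 := by linarith [h2.2] |> fun h : 0 < 1 - u * w => h.ne'
  have h5 : 1 - u ^ 2 * w ^ 2 ≠ 0 := by
    have : 1 - u ^ 2 * w ^ 2 = (1 + u * w) * (1 - u * w) := by ring
    rw [this]
    exact mul_ne_zero h3 h4
  unfold symf ff
  field_simp
  ring

lemma ff_le {U W : ℝ} (hU0 : 0 ≤ U) (hU1 : U ≤ 1) (hW0 : 0 ≤ W) (hW1 : W < 1) :
    ff U W ≤ U + W - U * W := by
  unfold ff
  rw [div_le_iff₀ (scl_one_sub hU0 hU1 hW0 hW1)]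
  nlinarith [mul_nonneg (mul_nonneg hU0 hW0) (mul_nonneg (sub_nonneg.2 hU1) (sub_nonneg.2 hW1.le))]

lemma ff_ge_left {U W : ℝ} (hU0 : 0 ≤ U) (hU1 : U ≤ 1) (hW0 : 0 ≤ W) (hW1 : W < 1) :
    U ≤ ff U W := by
  unfold ff
  rw [le_div_iff₀ (scl_one_sub hU0 hU1 hW0 hW1)]
  nlinarith [mul_nonneg hW0 (sq_nonneg (1 - U))]

lemma ff_ge {U W : ℝ} (hU0 : 0 ≤ U) (hU1 : U ≤ 1) (hW0 : 0 ≤ W) (hW1 : W < 1) :
    U + W - 2 * U * W ≤ ff U W := by
  unfold ff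
  have h := scl_one_sub hU0 hU1 hW0 hW1
  rw [le_div_iff₀ h]
  have h1 : 0 ≤ U + W - 2 * U * W := by nlinarith
  have h2 : 1 - U * W ≤ 1 := by nlinarith
  nlinarith

lemma scl_ff_sub {U U' W : ℝ} (h : 1 - U * W ≠ 0) (h' : 1 - U' * W ≠ 0) :
    ff U' W - ff U W = (U' - U) * ((1 - W) ^ 2 / ((1 - U' * W) * (1 - U * W))) := by
  unfold ff
  rw [div_sub_div _ _ h' h, mul_div_assoc', div_left_inj' (mul_ne_zero h' h)]
  ring

lemma scl_ff_comm (U W : ℝ) : ff U W = ff W U := by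
  unfold ff
  rw [mul_comm W U]
  congr 1
  ring

lemma scl_mono_left {U W U' : ℝ} (hU0 : 0 ≤ U) (hUU : U ≤ U') (hU1 : U' ≤ 1) (hW0 : 0 ≤ W)
    (hW1 : W < 1) : ff U W ≤ ff U' W := by
  have h := scl_one_sub hU0 (hUU.trans hU1) hW0 hW1
  have h' := scl_one_sub (hU0.trans hUU) hU1 hW0 hW1
  have e := scl_ff_sub h.ne' h'.ne'
  have : 0 ≤ (U' - U) * ((1 - W) ^ 2 / ((1 - U' * W) * (1 - U * W))) :=
    mul_nonneg (sub_nonneg.2 hUU) (by positivity)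
  linarith

lemma ff_mono {U W U' W' : ℝ} (hU0 : 0 ≤ U) (hUU : U ≤ U') (hU1 : U' ≤ 1) (hW0 : 0 ≤ W)
    (hWW : W ≤ W') (hW1 : W' < 1) : ff U W ≤ ff U' W' := by
  refine (scl_mono_left hU0 hUU hU1 hW0 (hWW.trans_lt hW1)).trans ?_
  have h := scl_one_sub (hU0.trans hUU) hU1 hW0 (hWW.trans_lt hW1)
  have h' := scl_one_sub (hU0.trans hUU) hU1 (hW0.trans hWW) hW1
  rw [scl_ff_comm U' W, scl_ff_comm U' W']
  rw [mul_comm] at h h'
  have e := scl_ff_sub h.ne' h'.ne'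
  have : 0 ≤ (W' - W) * ((1 - U') ^ 2 / ((1 - W' * U') * (1 - W * U'))) :=
    mul_nonneg (sub_nonneg.2 hWW) (by positivity)
  linarith

lemma scl_tangent {U W a : ℝ} (h : 0 < 1 - U * W) (h' : 0 < 1 - a * W) (hW0 : 0 ≤ W) :
    ff a W + (U - a) * ((1 - W) ^ 2 / (1 - a * W) ^ 2) ≤ ff U W := by
  have e := scl_ff_sub h'.ne' h.ne'
  have e2 : (U - a) * ((1 - W) ^ 2 / ((1 - U * W) * (1 - a * W))) -
      (U - a) * ((1 - W) ^ 2 / (1 - a * W) ^ 2) =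
      (U - a) ^ 2 * W * (1 - W) ^ 2 / ((1 - U * W) * (1 - a * W) ^ 2) := by
    field_simp
    ring
  have h3 : 0 ≤ (U - a) ^ 2 * W * (1 - W) ^ 2 / ((1 - U * W) * (1 - a * W) ^ 2) := by positivity
  linarith

/-- Tangent lines (convexity in each variable): for `ū, w̄` fixed,
`ff U W ≥ ff ū W + (U - ū) ∂ff(ū, W)`, with `∂ff(ū,W) = (1-W)²/(1-ūW)²`. -/
lemma ff_tangent {U W a : ℝ} (hU0 : 0 ≤ U) (hU1 : U ≤ 1) (ha0 : 0 ≤ a) (ha1 : a ≤ 1)
    (hW0 : 0 ≤ W) (hW1 : W < 1) :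
    ff a W + (U - a) * ((1 - W) ^ 2 / (1 - a * W) ^ 2) ≤ ff U W :=
  scl_tangent (scl_one_sub hU0 hU1 hW0 hW1) (scl_one_sub ha0 ha1 hW0 hW1) hW0

/-- Two independent variables: `ff (E U) (E W) ≤ E ff U W ≤ EU + EW - EU EW`. -/
lemma ff_jensen {Ω Ω' : Type*} [MeasurableSpace Ω] [MeasurableSpace Ω'] {P : Measure Ω}
    {Q : Measure Ω'} [IsProbabilityMeasure P] [IsProbabilityMeasure Q] {X : Ω → ℝ} {Y : Ω' → ℝ}
    (hX : Measurable X) (hY : Measurable Y) (hX0 : ∀ ω, 0 ≤ X ω) (hX1 : ∀ ω, X ω ≤ 1)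
    {c : ℝ} (hc : c < 1) (hY0 : ∀ ω, 0 ≤ Y ω) (hY1 : ∀ ω, Y ω ≤ c) :
    ff (∫ ω, X ω ∂P) (∫ ω, Y ω ∂Q) ≤ ∫ z, ff (X z.1) (Y z.2) ∂(P.prod Q) ∧
      ∫ z, ff (X z.1) (Y z.2) ∂(P.prod Q) ≤
        (∫ ω, X ω ∂P) + (∫ ω, Y ω ∂Q) - (∫ ω, X ω ∂P) * ∫ ω, Y ω ∂Q := by
  have hY1' : ∀ ω, Y ω < 1 := fun ω => (hY1 ω).trans_lt hc
  have iX : Integrable X P := Integrable.of_bound hX.aestronglyMeasurable 1
    (Filter.Eventually.of_forall fun ω => by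
      rw [Real.norm_eq_abs, abs_of_nonneg (hX0 ω)]; exact hX1 ω)
  have iY : Integrable Y Q := Integrable.of_bound hY.aestronglyMeasurable 1
    (Filter.Eventually.of_forall fun ω => by
      rw [Real.norm_eq_abs, abs_of_nonneg (hY0 ω)]; exact (hY1' ω).le)
  set a := ∫ ω, X ω ∂P with ha
  set a' := ∫ ω, Y ω ∂Q with ha'
  have ha0 : 0 ≤ a := integral_nonneg hX0
  have ha1 : a ≤ 1 := by
    have := integral_mono iX (integrable_const (1 : ℝ)) hX1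
    simpa using this
  have ha'0 : 0 ≤ a' := integral_nonneg hY0
  have ha'1 : a' < 1 := by
    have := integral_mono iY (integrable_const c) hY1
    have h2 : a' ≤ c := by simpa using this
    linarith
  have hfm : Measurable fun z : Ω × Ω' => ff (X z.1) (Y z.2) := by
    unfold ff
    fun_prop
  have iff' : Integrable (fun z : Ω × Ω' => ff (X z.1) (Y z.2)) (P.prod Q) :=
    Integrable.of_bound hfm.aestronglyMeasurable 1 (Filter.Eventually.of_forall fun z => by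
      have h1 := ff_ge_left (hX0 z.1) (hX1 z.1) (hY0 z.2) (hY1' z.2)
      have h2 := ff_le (hX0 z.1) (hX1 z.1) (hY0 z.2) (hY1' z.2)
      have h3 := hX0 z.1
      have h4 := hX1 z.1
      have h5 := hY0 z.2
      have h6 := hY1' z.2
      rw [Real.norm_eq_abs, abs_of_nonneg (h3.trans h1)]
      nlinarith [mul_nonneg (sub_nonneg.2 h4) (sub_nonneg.2 h6.le)])
  have iX1 : Integrable (fun z : Ω × Ω' => X z.1) (P.prod Q) := iX.comp_fst Q
  have iY2 : Integrable (fun z : Ω × Ω' => Y z.2) (P.prod Q) := iY.comp_snd P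
  have eX : ∫ z : Ω × Ω', X z.1 ∂(P.prod Q) = a := by
    have := integral_prod_mul (μ := P) (ν := Q) X (fun _ => (1 : ℝ))
    simpa using this
  have eY : ∫ z : Ω × Ω', Y z.2 ∂(P.prod Q) = a' := by
    have := integral_prod_mul (μ := P) (ν := Q) (fun _ => (1 : ℝ)) Y
    simpa using this
  constructor
  · -- lower bound
    have hgm : Measurable fun ω : Ω' => (1 - Y ω) ^ 2 / (1 - a * Y ω) ^ 2 := by fun_prop
    have hgb : ∀ ω, ‖(1 - Y ω) ^ 2 / (1 - a * Y ω) ^ 2‖ ≤ 1 := by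
      intro ω
      have h1 := scl_one_sub ha0 ha1 (hY0 ω) (hY1' ω)
      have h2 := hY1' ω
      have h3 := hY0 ω
      rw [Real.norm_eq_abs, abs_of_nonneg (by positivity), div_le_one (by positivity)]
      apply pow_le_pow_left₀ (by linarith)
      nlinarith
    have ig : Integrable (fun ω : Ω' => (1 - Y ω) ^ 2 / (1 - a * Y ω) ^ 2) Q :=
      Integrable.of_bound hgm.aestronglyMeasurable 1 (Filter.Eventually.of_forall hgb)
    have iXa : Integrable (fun ω => X ω - a) P := iX.sub (integrable_const a)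
    have ip : Integrable (fun z : Ω × Ω' => (X z.1 - a) *
        ((1 - Y z.2) ^ 2 / (1 - a * Y z.2) ^ 2)) (P.prod Q) := iXa.mul_prod ig
    have ep : ∫ z : Ω × Ω', (X z.1 - a) * ((1 - Y z.2) ^ 2 / (1 - a * Y z.2) ^ 2)
        ∂(P.prod Q) = 0 := by
      rw [integral_prod_mul (μ := P) (ν := Q) (fun ω => X ω - a)
        (fun ω => (1 - Y ω) ^ 2 / (1 - a * Y ω) ^ 2)]
      rw [integral_sub iX (integrable_const a)]
      simp [← ha]
    set k := (1 - a) ^ 2 / (1 - a' * a) ^ 2 with hk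
    have hpt : ∀ z : Ω × Ω', (ff a a' + k * (Y z.2 - a')) +
        (X z.1 - a) * ((1 - Y z.2) ^ 2 / (1 - a * Y z.2) ^ 2) ≤ ff (X z.1) (Y z.2) := by
      intro z
      have h1 := ff_tangent (hX0 z.1) (hX1 z.1) ha0 ha1 (hY0 z.2) (hY1' z.2)
      have h2 := scl_tangent (U := Y z.2) (W := a) (a := a')
        (by have := scl_one_sub ha0 ha1 (hY0 z.2) (hY1' z.2); linarith [mul_comm a (Y z.2)])
        (by have := scl_one_sub ha0 ha1 ha'0 ha'1; linarith [mul_comm a a']) ha0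
      rw [scl_ff_comm a' a, scl_ff_comm (Y z.2) a] at h2
      have h3 : (Y z.2 - a') * ((1 - a) ^ 2 / (1 - a' * a) ^ 2) = k * (Y z.2 - a') := by
        rw [hk]; ring
      linarith
    have i00 : Integrable (fun z : Ω × Ω' => Y z.2 - a') (P.prod Q) :=
      iY2.sub (integrable_const _)
    have i0 : Integrable (fun z : Ω × Ω' => k * (Y z.2 - a')) (P.prod Q) := i00.const_mul k
    have i1 : Integrable (fun z : Ω × Ω' => ff a a' + k * (Y z.2 - a')) (P.prod Q) :=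
      (integrable_const _).add i0
    have i2 : Integrable (fun z : Ω × Ω' => (ff a a' + k * (Y z.2 - a')) +
        (X z.1 - a) * ((1 - Y z.2) ^ 2 / (1 - a * Y z.2) ^ 2)) (P.prod Q) := i1.add ip
    have h4 := integral_mono i2 iff' hpt
    rw [integral_add i1 ip, ep, integral_add (integrable_const _) i0, integral_const_mul,
      integral_sub iY2 (integrable_const _), eY] at h4
    simpa using h4
  · -- upper bound
    have iXY : Integrable (fun z : Ω × Ω' => X z.1 * Y z.2) (P.prod Q) := iX.mul_prod iY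
    have i1 : Integrable (fun z : Ω × Ω' => X z.1 + Y z.2) (P.prod Q) := iX1.add iY2
    have i2 : Integrable (fun z : Ω × Ω' => X z.1 + Y z.2 - X z.1 * Y z.2) (P.prod Q) :=
      i1.sub iXY
    have h1 := integral_mono iff' i2 (fun z =>
      ff_le (hX0 z.1) (hX1 z.1) (hY0 z.2) (hY1' z.2))
    rw [integral_sub i1 iXY, integral_add iX1 iY2, eX, eY,
      integral_prod_mul (μ := P) (ν := Q) X Y] at h1
    exact h1

end Vale.Agent.P161C
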