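import Vale.Agent.Lib.P161C.ModelC
import Vale.Agent.Lib.P161C.Scalar
import Vale.Agent.Lib.P161C.RootedB

/-!
P161 critical, module LLN (section 9 of notes/P161crit/proof.md): law of large numbers for the
truncated susceptibility, single copy.
Uses MODEL-A/B (`EE_prod_indep`, `EE_cons`), ROOTED, SCALAR (`one_sub_slope_sq_le`).
-/

open Finset MeasureTheory

namespace Vale.Agent.P161C
open Vale.Agent.P161

/-! ### Bounded measurable functions and `L²` facts -/

section Gen

variable {X : Type*} [MeasurableSpace X] {P : Measure X} {F F' : X → ℝ}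

/-- bounded measurable -/
def LlnB (F : X → ℝ) : Prop := Measurable F ∧ ∃ C : ℝ, ∀ p, |F p| ≤ C

lemma LlnB.const (c : ℝ) : LlnB (fun _ : X => c) := ⟨measurable_const, |c|, fun _ => le_rfl⟩

lemma LlnB.add (h : LlnB F) (h' : LlnB F') : LlnB (fun p => F p + F' p) := by
  obtain ⟨m, C, hC⟩ := h
  obtain ⟨m', C', hC'⟩ := h'
  exact ⟨m.add m', C + C', fun p => (abs_add_le _ _).trans (add_le_add (hC p) (hC' p))⟩

lemma LlnB.mul (h : LlnB F) (h' : LlnB F') : LlnB (fun p => F p * F' p) := by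
  obtain ⟨m, C, hC⟩ := h
  obtain ⟨m', C', hC'⟩ := h'
  refine ⟨m.mul m', |C| * |C'|, fun p => ?_⟩
  rw [abs_mul]
  exact mul_le_mul ((hC p).trans (le_abs_self _)) ((hC' p).trans (le_abs_self _)) (abs_nonneg _)
    (abs_nonneg _)

lemma LlnB.sub (h : LlnB F) (h' : LlnB F') : LlnB (fun p => F p - F' p) := by
  have := h.add ((LlnB.const (-1)).mul h')
  have e : (fun p => F p - F' p) = fun p => F p + (-1) * F' p := by funext p; ring
  rw [e]
  exact this

lemma LlnB.sq (h : LlnB F) : LlnB (fun p => F p ^ 2) := by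
  have := h.mul h
  have e : (fun p => F p ^ 2) = fun p => F p * F p := by funext p; ring
  rw [e]
  exact this

lemma LlnB.sum {ι : Type*} (I : Finset ι) {f : ι → X → ℝ} (h : ∀ i ∈ I, LlnB (f i)) :
    LlnB (fun p => ∑ i ∈ I, f i p) := by
  classical
  induction I using Finset.induction_on with
  | empty => simpa using LlnB.const 0
  | insert i I hi ih =>
    have h1 := (h i (mem_insert_self _ _)).add (ih fun k hk => h k (mem_insert_of_mem hk))
    have e : (fun p => ∑ k ∈ insert i I, f k p) = fun p => f i p + ∑ k ∈ I, f k p := by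
      funext p
      rw [sum_insert hi]
    rw [e]
    exact h1

lemma LlnB.int [IsProbabilityMeasure P] (h : LlnB F) : Integrable F P := by
  obtain ⟨m, C, hC⟩ := h
  exact Integrable.of_bound m.aestronglyMeasurable C (Filter.Eventually.of_forall hC)

/-- Cauchy-Schwarz -/
lemma lln_cs [IsProbabilityMeasure P] (h : LlnB F) (h' : LlnB F') :
    (∫ p, F p * F' p ∂P) ^ 2 ≤ (∫ p, F p ^ 2 ∂P) * ∫ p, F' p ^ 2 ∂P := by
  have key : ∀ t : ℝ, 0 ≤ (∫ p, F' p ^ 2 ∂P) * (t * t) + (2 * ∫ p, F p * F' p ∂P) * t +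
      ∫ p, F p ^ 2 ∂P := by
    intro t
    have h1 : 0 ≤ ∫ p, (F p + t * F' p) ^ 2 ∂P := integral_nonneg fun p => sq_nonneg _
    have h2 : ∫ p, (F p + t * F' p) ^ 2 ∂P = (∫ p, F' p ^ 2 ∂P) * (t * t) +
        (2 * ∫ p, F p * F' p ∂P) * t + ∫ p, F p ^ 2 ∂P := by
      have e : (fun p => (F p + t * F' p) ^ 2) = fun p => (F' p ^ 2 * (t * t) +
          2 * t * (F p * F' p)) + F p ^ 2 := by funext p; ring
      rw [e, integral_add ((h'.sq.mul (LlnB.const _)).add ((LlnB.const _).mul (h.mul h'))).int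
        h.sq.int, integral_add (h'.sq.mul (LlnB.const _)).int ((LlnB.const _).mul (h.mul h')).int,
        integral_mul_const, integral_const_mul]
      ring
    rw [h2] at h1
    exact h1
  have hd := discrim_le_zero key
  unfold discrim at hd
  nlinarith

lemma lln_abs_cs [IsProbabilityMeasure P] (h : LlnB F) (h' : LlnB F') {a c : ℝ} (ha : 0 ≤ a)
    (hc : 0 ≤ c) (h1 : ∫ p, F p ^ 2 ∂P ≤ a ^ 2) (h2 : ∫ p, F' p ^ 2 ∂P ≤ c ^ 2) :
    |∫ p, F p * F' p ∂P| ≤ a * c := by
  have h3 := lln_cs (P := P) h h'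
  have h4 : (∫ p, F p ^ 2 ∂P) * ∫ p, F' p ^ 2 ∂P ≤ a ^ 2 * c ^ 2 :=
    mul_le_mul h1 h2 (integral_nonneg fun p => sq_nonneg _) (sq_nonneg _)
  apply abs_le_of_sq_le_sq _ (by positivity)
  calc _ ≤ _ := h3
    _ ≤ _ := h4
    _ = (a * c) ^ 2 := by ring

/-- Minkowski -/
lemma lln_mink [IsProbabilityMeasure P] (h : LlnB F) (h' : LlnB F') {a c : ℝ} (ha : 0 ≤ a)
    (hc : 0 ≤ c) (h1 : ∫ p, F p ^ 2 ∂P ≤ a ^ 2) (h2 : ∫ p, F' p ^ 2 ∂P ≤ c ^ 2) :
    ∫ p, (F p + F' p) ^ 2 ∂P ≤ (a + c) ^ 2 := by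
  have h3 := (abs_le.1 (lln_abs_cs (P := P) h h' ha hc h1 h2)).2
  have e : (fun p => (F p + F' p) ^ 2) = fun p => (F p ^ 2 + 2 * (F p * F' p)) + F' p ^ 2 := by
    funext p; ring
  rw [e, integral_add (h.sq.add ((LlnB.const _).mul (h.mul h'))).int h'.sq.int,
    integral_add h.sq.int ((LlnB.const _).mul (h.mul h')).int, integral_const_mul]
  nlinarith

lemma lln_var_eq [IsProbabilityMeasure P] (h : LlnB F) (a : ℝ) :
    ∫ p, (F p - a) ^ 2 ∂P = ∫ p, F p ^ 2 ∂P - 2 * a * ∫ p, F p ∂P + a ^ 2 := by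
  have e : (fun p => (F p - a) ^ 2) = fun p => (F p ^ 2 + (-2 * a) * F p) + a ^ 2 := by
    funext p; ring
  rw [e, integral_add (h.sq.add ((LlnB.const _).mul h)).int (LlnB.const _).int,
    integral_add h.sq.int ((LlnB.const _).mul h).int, integral_const_mul]
  simp
  ring

lemma lln_var_le [IsProbabilityMeasure P] (h : LlnB F) (a : ℝ) :
    ∫ p, F p ^ 2 ∂P - (∫ p, F p ∂P) ^ 2 ≤ ∫ p, (F p - a) ^ 2 ∂P := by
  rw [lln_var_eq h]
  nlinarith [sq_nonneg (∫ p, F p ∂P - a)]

lemma lln_var_self [IsProbabilityMeasure P] (h : LlnB F) :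
    ∫ p, (F p - ∫ p, F p ∂P) ^ 2 ∂P = ∫ p, F p ^ 2 ∂P - (∫ p, F p ∂P) ^ 2 := by
  rw [lln_var_eq h]
  ring

/-- second moment controls first moment -/
lemma lln_first [IsProbabilityMeasure P] (h : LlnB F) {a : ℝ} (ha : 0 ≤ a)
    (h1 : ∫ p, F p ^ 2 ∂P ≤ a ^ 2) : |∫ p, F p ∂P| ≤ a := by
  have := lln_abs_cs (P := P) h (LlnB.const 1) ha zero_le_one h1 (by simp)
  simpa using this

/-- variance of a sum of pairwise uncorrelated variables -/
lemma lln_var_sum [IsProbabilityMeasure P] {ι : Type*} [DecidableEq ι] (I : Finset ι)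
    {f : ι → X → ℝ} (h : ∀ i ∈ I, LlnB (f i))
    (hind : ∀ i ∈ I, ∀ k ∈ I, i ≠ k → ∫ p, f i p * f k p ∂P = (∫ p, f i p ∂P) * ∫ p, f k p ∂P) :
    ∫ p, (∑ i ∈ I, f i p) ^ 2 ∂P - (∫ p, ∑ i ∈ I, f i p ∂P) ^ 2 =
      ∑ i ∈ I, (∫ p, f i p ^ 2 ∂P - (∫ p, f i p ∂P) ^ 2) := by
  have e1 : ∫ p, (∑ i ∈ I, f i p) ^ 2 ∂P = ∑ i ∈ I, ∑ k ∈ I, ∫ p, f i p * f k p ∂P := by
    have e : (fun p => (∑ i ∈ I, f i p) ^ 2) = fun p => ∑ i ∈ I, ∑ k ∈ I, f i p * f k p := by
      funext p
      rw [sq, sum_mul_sum]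
    rw [e, integral_finsetSum _ fun i hi => (LlnB.sum I fun k hk => (h i hi).mul (h k hk)).int]
    refine sum_congr rfl fun i hi => ?_
    rw [integral_finsetSum _ fun k hk => ((h i hi).mul (h k hk)).int]
  have e2 : (∫ p, ∑ i ∈ I, f i p ∂P) ^ 2 =
      ∑ i ∈ I, ∑ k ∈ I, (∫ p, f i p ∂P) * ∫ p, f k p ∂P := by
    rw [integral_finsetSum _ fun i hi => (h i hi).int, sq, sum_mul_sum]
  rw [e1, e2, ← sum_sub_distrib]
  refine sum_congr rfl fun i hi => ?_
  rw [← sum_sub_distrib, sum_eq_single i]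
  · congr 1
    · refine integral_congr_ae (Filter.Eventually.of_forall fun p => ?_)
      simp only
      ring
    · ring
  · intro k hk hki
    rw [hind i hi k hk (Ne.symm hki), sub_self]
  · intro hi'
    exact absurd hi hi'

lemma lln_one_sub_prod {ι : Type*} [DecidableEq ι] (I : Finset ι) (f : ι → ℝ)
    (h0 : ∀ i ∈ I, 0 ≤ f i) (h1 : ∀ i ∈ I, f i ≤ 1) :
    1 - ∏ i ∈ I, f i ≤ ∑ i ∈ I, (1 - f i) := by
  induction I using Finset.induction_on with
  | empty => simp
  | insert i I hi ih =>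
    have h2 := ih (fun k hk => h0 k (mem_insert_of_mem hk)) fun k hk => h1 k (mem_insert_of_mem hk)
    rw [prod_insert hi, sum_insert hi]
    have h3 : 0 ≤ ∏ i ∈ I, f i := prod_nonneg fun k hk => h0 k (mem_insert_of_mem hk)
    have h4 : ∏ i ∈ I, f i ≤ 1 := prod_le_one (fun k hk => h0 k (mem_insert_of_mem hk))
      fun k hk => h1 k (mem_insert_of_mem hk)
    have h5 := h0 i (mem_insert_self _ _)
    have h6 := h1 i (mem_insert_self _ _)
    nlinarith

end Gen

set_option linter.unusedSectionVars false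

variable {V : Type*} [DecidableEq V] {G : SimpleGraph V} [DecidableRel G.Adj] [G.LocallyFinite]
  {b : ℕ} {β : ℝ} {D : Finset V} {x : V}

/-! ### Elementary facts -/

lemma lln_b (hC : Crit G b β) : (2 : ℝ) ≤ b := by exact_mod_cast hC.hb

lemma lln_th0 (hC : Crit G b β) : 0 < Real.tanh β := by
  have h := hC.crit
  rcases (tanh_nonneg hC.hβ).lt_or_eq with h0 | h0
  · exact h0
  · rw [← h0] at h
    norm_num at h

lemma lln_thsq (hC : Crit G b β) : Real.tanh β ^ 2 ≤ 1 / 2 := by
  have h := hC.crit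
  have h2 := lln_b hC
  nlinarith [sq_nonneg (Real.tanh β)]

lemma lln_th1 (hC : Crit G b β) : Real.tanh β < 1 := by
  have h := lln_thsq hC
  have h0 := lln_th0 hC
  nlinarith

lemma lln_abs_ms (p : V → ℝ) (i : V) : |ms G β D x p i| ≤ 1 := abs_mg_le _ _ _

lemma lln_sl0 (hC : Crit G b β) (p : V → ℝ) (i : V) :
    0 ≤ slope (Real.tanh β) (ms G β D x p i) :=
  slope_nonneg (lln_th0 hC).le (lln_th1 hC) (lln_abs_ms p i)

lemma lln_sl1 (hC : Crit G b β) (p : V → ℝ) (i : V) :
    slope (Real.tanh β) (ms G β D x p i) ≤ Real.tanh β :=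
  slope_le (lln_th0 hC).le (lln_th1 hC) (lln_abs_ms p i)

lemma lln_slsq (hC : Crit G b β) (p : V → ℝ) (i : V) :
    slope (Real.tanh β) (ms G β D x p i) ^ 2 ≤ Real.tanh β ^ 2 :=
  pow_le_pow_left₀ (lln_sl0 hC p i) (lln_sl1 hC p i) 2

lemma lln_ch_ne {i c : V} (hc : c ∈ ch G D x i) : c ≠ x := by
  rw [mem_ch] at hc
  rintro rfl
  have := hc.2.2
  rw [SimpleGraph.dist_self] at this
  omega

/-- `0 ≤ P_n ≤ n + 1` below the root. -/
lemma Pf_le (hC : Crit G b β) {i : V} (hne : i ≠ x) (n : ℕ) (p : V → ℝ) :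
    0 ≤ Pf G β D x n i p ∧ Pf G β D x n i p ≤ n + 1 := by
  induction n generalizing i with
  | zero => simp [Pf]
  | succ n ih =>
    have e : Pf G β D x (n + 1) i p = 1 + ∑ c ∈ ch G D x i,
      slope (Real.tanh β) (ms G β D x p c) ^ 2 * Pf G β D x n c p := rfl
    rw [e]
    constructor
    · have : 0 ≤ ∑ c ∈ ch G D x i,
          slope (Real.tanh β) (ms G β D x p c) ^ 2 * Pf G β D x n c p :=
        sum_nonneg fun c hc => mul_nonneg (sq_nonneg _) (ih (lln_ch_ne hc)).1
      linarith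
    · have h1 : ∑ c ∈ ch G D x i, slope (Real.tanh β) (ms G β D x p c) ^ 2 * Pf G β D x n c p ≤
          ∑ _c ∈ ch G D x i, Real.tanh β ^ 2 * ((n : ℝ) + 1) :=
        sum_le_sum fun c hc => mul_le_mul (lln_slsq hC p c) (ih (lln_ch_ne hc)).2
          (ih (lln_ch_ne hc)).1 (sq_nonneg _)
      rw [sum_const, nsmul_eq_mul] at h1
      have h2 : ((ch G D x i).card : ℝ) ≤ b := by exact_mod_cast card_ch_le hC hne
      have h3 : ((ch G D x i).card : ℝ) * (Real.tanh β ^ 2 * ((n : ℝ) + 1)) ≤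
          b * (Real.tanh β ^ 2 * ((n : ℝ) + 1)) :=
        mul_le_mul_of_nonneg_right h2 (by positivity)
      have h4 : (b : ℝ) * (Real.tanh β ^ 2 * ((n : ℝ) + 1)) = n + 1 := by
        rw [← mul_assoc, hC.crit, one_mul]
      push_cast
      linarith

/-- `P_n ≤ 2 (n + 1)` at the root. -/
lemma Pf_root_le (hC : Crit G b β) (n : ℕ) (p : V → ℝ) :
    0 ≤ Pf G β D x n x p ∧ Pf G β D x n x p ≤ 2 * (n + 1) := by
  cases n with
  | zero => simp [Pf]
  | succ n =>
    have e : Pf G β D x (n + 1) x p = 1 + ∑ c ∈ ch G D x x,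
      slope (Real.tanh β) (ms G β D x p c) ^ 2 * Pf G β D x n c p := rfl
    rw [e]
    constructor
    · have : 0 ≤ ∑ c ∈ ch G D x x,
          slope (Real.tanh β) (ms G β D x p c) ^ 2 * Pf G β D x n c p :=
        sum_nonneg fun c hc => mul_nonneg (sq_nonneg _) (Pf_le hC (lln_ch_ne hc) n p).1
      linarith
    · have h1 : ∑ c ∈ ch G D x x, slope (Real.tanh β) (ms G β D x p c) ^ 2 * Pf G β D x n c p ≤
          ∑ _c ∈ ch G D x x, Real.tanh β ^ 2 * ((n : ℝ) + 1) :=
        sum_le_sum fun c hc => mul_le_mul (lln_slsq hC p c) (Pf_le hC (lln_ch_ne hc) n p).2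
          (Pf_le hC (lln_ch_ne hc) n p).1 (sq_nonneg _)
      rw [sum_const, nsmul_eq_mul] at h1
      have h2 : ((ch G D x x).card : ℝ) ≤ b + 1 := by
        exact_mod_cast card_ch_root_le (G := G) (D := D) (x := x) (i := x) hC
      have h3 : ((ch G D x x).card : ℝ) * (Real.tanh β ^ 2 * ((n : ℝ) + 1)) ≤
          (b + 1) * (Real.tanh β ^ 2 * ((n : ℝ) + 1)) :=
        mul_le_mul_of_nonneg_right h2 (by positivity)
      have h4 : ((b : ℝ) + 1) * (Real.tanh β ^ 2 * ((n : ℝ) + 1)) =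
          (n + 1) + Real.tanh β ^ 2 * ((n : ℝ) + 1) := by
        have := hC.crit
        linear_combination ((n : ℝ) + 1) * this
      have h5 : Real.tanh β ^ 2 * ((n : ℝ) + 1) ≤ 1 / 2 * ((n : ℝ) + 1) :=
        mul_le_mul_of_nonneg_right (lln_thsq hC) (by positivity)
      push_cast
      linarith

lemma Lf_le (hC : Crit G b β) {i : V} (hne : i ≠ x) {q : V → ℝ} {A : ℝ} (hq0 : ∀ c, 0 ≤ q c)
    (hq : ∀ c, q c ≤ A) (r : ℕ) (p : V → ℝ) :
    0 ≤ Lf G β D x q r i p ∧ Lf G β D x q r i p ≤ r + A := by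
  induction r generalizing i with
  | zero => simpa [Lf] using ⟨hq0 i, hq i⟩
  | succ n ih =>
    have e : Lf G β D x q (n + 1) i p = 1 + ∑ c ∈ ch G D x i,
      slope (Real.tanh β) (ms G β D x p c) ^ 2 * Lf G β D x q n c p := rfl
    have hA : 0 ≤ A := (hq0 i).trans (hq i)
    rw [e]
    constructor
    · have : 0 ≤ ∑ c ∈ ch G D x i,
          slope (Real.tanh β) (ms G β D x p c) ^ 2 * Lf G β D x q n c p :=
        sum_nonneg fun c hc => mul_nonneg (sq_nonneg _) (ih (lln_ch_ne hc)).1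
      linarith
    · have h1 : ∑ c ∈ ch G D x i, slope (Real.tanh β) (ms G β D x p c) ^ 2 * Lf G β D x q n c p ≤
          ∑ _c ∈ ch G D x i, Real.tanh β ^ 2 * ((n : ℝ) + A) :=
        sum_le_sum fun c hc => mul_le_mul (lln_slsq hC p c) (ih (lln_ch_ne hc)).2
          (ih (lln_ch_ne hc)).1 (sq_nonneg _)
      rw [sum_const, nsmul_eq_mul] at h1
      have h2 : ((ch G D x i).card : ℝ) ≤ b := by exact_mod_cast card_ch_le hC hne
      have h3 : ((ch G D x i).card : ℝ) * (Real.tanh β ^ 2 * ((n : ℝ) + A)) ≤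
          b * (Real.tanh β ^ 2 * ((n : ℝ) + A)) :=
        mul_le_mul_of_nonneg_right h2 (by positivity)
      have h4 : (b : ℝ) * (Real.tanh β ^ 2 * ((n : ℝ) + A)) = n + A := by
        rw [← mul_assoc, hC.crit, one_mul]
      push_cast
      linarith

/-! ### Even functionals -/

omit [DecidableEq V] in
lemma lln_ev_mono {S S' : Finset V} (h : S ⊆ S') {F : (V → ℝ) → ℝ} (hF : EvFn S F) : EvFn S' F :=
  ⟨⟨hF.meas, hF.bdd, fun p q hpq => hF.dep p q fun v hv => hpq v (h hv)⟩, hF.even⟩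

omit [DecidableEq V] in
lemma lln_ev_const (S : Finset V) (c : ℝ) : EvFn S (fun _ => c) :=
  ⟨⟨measurable_const, ⟨|c|, fun _ => le_rfl⟩, fun _ _ _ => rfl⟩, fun _ => rfl⟩

omit [DecidableEq V] in
lemma lln_ev_B {S : Finset V} {F : (V → ℝ) → ℝ} (hF : EvFn S F) : LlnB F := ⟨hF.meas, hF.bdd⟩

omit [DecidableEq V] in
lemma lln_ev_add {S : Finset V} {F F' : (V → ℝ) → ℝ} (hF : EvFn S F) (hF' : EvFn S F') :
    EvFn S (fun p => F p + F' p) :=
  ⟨⟨((lln_ev_B hF).add (lln_ev_B hF')).1, ((lln_ev_B hF).add (lln_ev_B hF')).2,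
    fun p q hpq => by rw [hF.dep p q hpq, hF'.dep p q hpq]⟩,
    fun p => by rw [hF.even, hF'.even]⟩

omit [DecidableEq V] in
lemma lln_ev_mul {S : Finset V} {F F' : (V → ℝ) → ℝ} (hF : EvFn S F) (hF' : EvFn S F') :
    EvFn S (fun p => F p * F' p) :=
  ⟨⟨((lln_ev_B hF).mul (lln_ev_B hF')).1, ((lln_ev_B hF).mul (lln_ev_B hF')).2,
    fun p q hpq => by rw [hF.dep p q hpq, hF'.dep p q hpq]⟩,
    fun p => by rw [hF.even, hF'.even]⟩

omit [DecidableEq V] in
lemma lln_ev_sub {S : Finset V} {F F' : (V → ℝ) → ℝ} (hF : EvFn S F) (hF' : EvFn S F') :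
    EvFn S (fun p => F p - F' p) :=
  ⟨⟨((lln_ev_B hF).sub (lln_ev_B hF')).1, ((lln_ev_B hF).sub (lln_ev_B hF')).2,
    fun p q hpq => by rw [hF.dep p q hpq, hF'.dep p q hpq]⟩,
    fun p => by rw [hF.even, hF'.even]⟩

omit [DecidableEq V] in
lemma lln_ev_sum {S : Finset V} {ι : Type*} (I : Finset ι) {f : ι → (V → ℝ) → ℝ}
    (h : ∀ i ∈ I, EvFn S (f i)) : EvFn S (fun p => ∑ i ∈ I, f i p) :=
  ⟨⟨(LlnB.sum I fun i hi => lln_ev_B (h i hi)).1, (LlnB.sum I fun i hi => lln_ev_B (h i hi)).2,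
    fun p q hpq => sum_congr rfl fun i hi => (h i hi).dep p q hpq⟩,
    fun p => sum_congr rfl fun i hi => (h i hi).even p⟩

omit [DecidableEq V] in
lemma lln_ev_prod {S : Finset V} {ι : Type*} [DecidableEq ι] (I : Finset ι) {f : ι → (V → ℝ) → ℝ}
    (h : ∀ i ∈ I, EvFn S (f i)) : EvFn S (fun p => ∏ i ∈ I, f i p) := by
  induction I using Finset.induction_on with
  | empty => simpa using lln_ev_const S 1
  | insert i I hi ih =>
    have h1 := lln_ev_mul (h i (mem_insert_self _ _)) (ih fun k hk => h k (mem_insert_of_mem hk))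
    have e : (fun p => ∏ k ∈ insert i I, f k p) = fun p => f i p * ∏ k ∈ I, f k p := by
      funext p
      rw [prod_insert hi]
    rw [e]
    exact h1

lemma lln_measurable_slope (θ : ℝ) : Measurable (fun m : ℝ => slope θ m) := by
  unfold P161.slope
  fun_prop

lemma lln_ev_sl (hC : Crit G b β) {i : V} (hi : i ∈ D) :
    EvFn (br G D x i) (fun p => slope (Real.tanh β) (ms G β D x p i) ^ 2) := by
  refine ⟨⟨?_, ⟨1, fun p => ?_⟩, fun p q hpq => ?_⟩, fun p => ?_⟩
  · have h1 : Measurable fun p : V → ℝ => ms G β D x p i := measurable_mg _ _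
    exact ((lln_measurable_slope _).comp h1).pow_const 2
  · rw [abs_of_nonneg (sq_nonneg _)]
    have := lln_slsq (D := D) (x := x) hC p i
    have h2 := lln_thsq hC
    linarith
  · have : ms G β D x p i = ms G β D x q i := mg_congr hpq i
    simp only [this]
  · have : ms G β D x (fun v => -p v) i = -ms G β D x p i := mg_neg (mem_br_self hi) p
    simp only [this]
    unfold P161.slope
    simp

lemma lln_ev_Pf (hC : Crit G b β) (n : ℕ) (i : V) :
    EvFn (br G D x i) (Pf G β D x n i) := by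
  induction n generalizing i with
  | zero => exact lln_ev_const _ 1
  | succ n ih =>
    have e : Pf G β D x (n + 1) i = fun p => 1 + ∑ c ∈ ch G D x i,
      slope (Real.tanh β) (ms G β D x p c) ^ 2 * Pf G β D x n c p := rfl
    rw [e]
    refine lln_ev_add (lln_ev_const _ 1) (lln_ev_sum _ fun c hc => ?_)
    refine lln_ev_mono (ch_subset_br hC.tree hc) ?_
    exact lln_ev_mul (lln_ev_sl hC (mem_ch.1 hc).1) (ih c)

lemma lln_ev_Lf (hC : Crit G b β) (q : V → ℝ) (n : ℕ) (i : V) :
    EvFn (br G D x i) (Lf G β D x q n i) := by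
  induction n generalizing i with
  | zero => exact lln_ev_const _ (q i)
  | succ n ih =>
    have e : Lf G β D x q (n + 1) i = fun p => 1 + ∑ c ∈ ch G D x i,
      slope (Real.tanh β) (ms G β D x p c) ^ 2 * Lf G β D x q n c p := rfl
    rw [e]
    refine lln_ev_add (lln_ev_const _ 1) (lln_ev_sum _ fun c hc => ?_)
    refine lln_ev_mono (ch_subset_br hC.tree hc) ?_
    exact lln_ev_mul (lln_ev_sl hC (mem_ch.1 hc).1) (ih c)

lemma lln_mem_pth {j u i : V} : i ∈ pth G D j u ↔ i ∈ D ∧ i ≠ j ∧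
    G.dist j i + G.dist i u = G.dist j u := by
  unfold pth; simp

lemma lln_ev_Wt (hC : Crit G b β) (j c : V) : EvFn D (Wt G β D x j c) := by
  have e : Wt G β D x j c = fun p => ∏ i ∈ pth G D j c,
      (slope (Real.tanh β) (ms G β D x p i) / Real.tanh β) ^ 2 := rfl
  rw [e]
  refine lln_ev_prod _ fun i hi => ?_
  have hiD : i ∈ D := (lln_mem_pth.1 hi).1
  have h1 := lln_ev_mul (lln_ev_mono (br_subset D x _) (lln_ev_sl (x := x) hC hiD))
    (lln_ev_const D ((Real.tanh β ^ 2)⁻¹))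
  have e2 : (fun p => (slope (Real.tanh β) (ms G β D x p i) / Real.tanh β) ^ 2) =
      fun p => slope (Real.tanh β) (ms G β D x p i) ^ 2 * (Real.tanh β ^ 2)⁻¹ := by
    funext p
    rw [div_pow, div_eq_mul_inv]
  rw [e2]
  exact h1

/-! ### The law of large numbers -/

lemma lln_ratio (hC : Crit G b β) (p : V → ℝ) (i : V) :
    0 ≤ (slope (Real.tanh β) (ms G β D x p i) / Real.tanh β) ^ 2 ∧
      (slope (Real.tanh β) (ms G β D x p i) / Real.tanh β) ^ 2 ≤ 1 := by
  refine ⟨sq_nonneg _, ?_⟩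
  rw [div_pow, div_le_one (pow_pos (lln_th0 hC) 2)]
  exact lln_slsq hC p i

lemma lln_Wt_nonneg (hC : Crit G b β) (j c : V) (p : V → ℝ) : 0 ≤ Wt G β D x j c p :=
  prod_nonneg fun i _ => (lln_ratio hC p i).1

lemma lln_Wt_le (hC : Crit G b β) (j c : V) (p : V → ℝ) : Wt G β D x j c p ≤ 1 :=
  prod_le_one (fun i _ => (lln_ratio hC p i).1) fun i _ => (lln_ratio hC p i).2

/-- geodesics through `j`: one more step -/
lemma lln_geo (hG : G.IsTree) {j i c : V} (hj : G.dist x j + G.dist j i = G.dist x i)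
    (hc : c ∈ ch G D x i) :
    G.dist x j + G.dist j c = G.dist x c ∧ G.dist j c = G.dist j i + 1 := by
  rw [mem_ch] at hc
  have h1 : G.dist i c = 1 := SimpleGraph.dist_eq_one_iff_adj.2 hc.2.1
  have h2 := geo_mid hG hj (y := c) (by rw [h1, hc.2.2])
  refine ⟨h2.1, ?_⟩
  rw [← h2.2, h1]

/-- one child -/
lemma lln_child (hC : Crit G b β) {ν : Measure ℝ} (hν : IsOwn ν) {c : V} (hc : c ∈ D)
    {eps kb s : ℝ} (_heps : 0 ≤ eps) (hkb0 : 0 ≤ kb) (hs : 0 ≤ s)
    (hkb : EE G β (fun _ => ν) D (fun p => ms G β D x p c ^ 4) ≤ kb ^ 2)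
    (hkb1 : kb ≤ 1 / 100) {F : (V → ℝ) → ℝ} (hF : LlnB F)
    (hvar : EE G β (fun _ => ν) D (fun p => F p ^ 2) - EE G β (fun _ => ν) D F ^ 2 ≤ s ^ 2)
    (hmean : |EE G β (fun _ => ν) D F| ≤ 2 * (eps + s)) :
    EE G β (fun _ => ν) D (fun p => (slope (Real.tanh β) (ms G β D x p c) ^ 2 * F p) ^ 2) -
      EE G β (fun _ => ν) D (fun p => slope (Real.tanh β) (ms G β D x p c) ^ 2 * F p) ^ 2 ≤
      (Real.tanh β ^ 2 * (26 / 25 * s + 1 / 25 * eps)) ^ 2 := by
  have hP : IsProbabilityMeasure (PL G β (fun _ => ν) D) := isProb_PL (fun _ => hν) D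
  unfold EE at *
  set P := PL G β (fun _ => ν) D with hPdef
  set μ := ∫ p, F p ∂P with hμ
  set θ := Real.tanh β with hθ
  have hsl := lln_ev_B (lln_ev_sl (G := G) (β := β) (x := x) hC hc)
  have h1 := lln_var_le (P := P) (hsl.mul hF) (θ ^ 2 * μ)
  refine h1.trans ?_
  have hθ0 := lln_th0 hC
  have hθ2 := lln_thsq hC
  rw [← hθ] at hθ0 hθ2
  have hA : LlnB (fun p => slope θ (ms G β D x p c) ^ 2 * (F p - μ)) :=
    hsl.mul (hF.sub (LlnB.const μ))
  have hB : LlnB (fun p => μ * (slope θ (ms G β D x p c) ^ 2 - θ ^ 2)) :=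
    (LlnB.const μ).mul (hsl.sub (LlnB.const _))
  have hA2 : ∫ p, (slope θ (ms G β D x p c) ^ 2 * (F p - μ)) ^ 2 ∂P ≤ (θ ^ 2 * s) ^ 2 := by
    have h2 : ∫ p, (slope θ (ms G β D x p c) ^ 2 * (F p - μ)) ^ 2 ∂P ≤
        ∫ p, (θ ^ 2) ^ 2 * (F p - μ) ^ 2 ∂P := by
      apply integral_mono hA.sq.int ((LlnB.const _).mul (hF.sub (LlnB.const μ)).sq).int
      intro p
      simp only
      rw [mul_pow]
      apply mul_le_mul_of_nonneg_right _ (sq_nonneg _)
      exact pow_le_pow_left₀ (sq_nonneg _) (lln_slsq hC p c) 2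
    rw [integral_const_mul] at h2
    have h3 := lln_var_self (P := P) hF
    rw [← hμ] at h3
    rw [h3] at h2
    calc _ ≤ _ := h2
      _ ≤ (θ ^ 2) ^ 2 * s ^ 2 := mul_le_mul_of_nonneg_left hvar (sq_nonneg _)
      _ = _ := by ring
  have hB2 : ∫ p, (μ * (slope θ (ms G β D x p c) ^ 2 - θ ^ 2)) ^ 2 ∂P ≤
      (θ ^ 2 * (2 * kb * |μ|)) ^ 2 := by
    have hms : LlnB (fun p : V → ℝ => ms G β D x p c ^ 4) := by
      refine ⟨(measurable_mg _ _).pow_const 4, 1, fun p => ?_⟩
      rw [abs_pow]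
      exact pow_le_one₀ (abs_nonneg _) (lln_abs_ms p c)
    have h2 : ∫ p, (μ * (slope θ (ms G β D x p c) ^ 2 - θ ^ 2)) ^ 2 ∂P ≤
        ∫ p, (μ ^ 2 * (θ ^ 2) ^ 2 * 4) * ms G β D x p c ^ 4 ∂P := by
      apply integral_mono hB.sq.int ((LlnB.const _).mul hms).int
      intro p
      simp only
      have h3 := one_sub_slope_sq_le hθ0 hθ2 (lln_abs_ms (G := G) (β := β) (D := D) (x := x) p c)
      have h4 := lln_slsq (D := D) (x := x) hC p c
      rw [← hθ] at h4
      have h5 : θ ^ 2 - slope θ (ms G β D x p c) ^ 2 ≤ θ ^ 2 * (2 * ms G β D x p c ^ 2) := by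
        have h6 : slope θ (ms G β D x p c) ^ 2 =
            θ ^ 2 * (slope θ (ms G β D x p c) / θ) ^ 2 := by
          rw [div_pow]
          field_simp
        rw [h6]
        nlinarith [mul_le_mul_of_nonneg_left h3 (sq_nonneg θ)]
      have h7 : (slope θ (ms G β D x p c) ^ 2 - θ ^ 2) ^ 2 ≤
          (θ ^ 2 * (2 * ms G β D x p c ^ 2)) ^ 2 := by
        rw [← neg_sub, neg_sq]
        exact pow_le_pow_left₀ (by linarith) h5 2
      calc (μ * (slope θ (ms G β D x p c) ^ 2 - θ ^ 2)) ^ 2 =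
          μ ^ 2 * (slope θ (ms G β D x p c) ^ 2 - θ ^ 2) ^ 2 := by ring
        _ ≤ μ ^ 2 * (θ ^ 2 * (2 * ms G β D x p c ^ 2)) ^ 2 :=
          mul_le_mul_of_nonneg_left h7 (sq_nonneg _)
        _ = _ := by ring
    rw [integral_const_mul] at h2
    calc _ ≤ _ := h2
      _ ≤ (μ ^ 2 * (θ ^ 2) ^ 2 * 4) * kb ^ 2 := mul_le_mul_of_nonneg_left hkb (by positivity)
      _ = (θ ^ 2 * (2 * kb * |μ|)) ^ 2 := by
        rw [mul_pow, mul_pow, sq_abs]
        ring
  have h8 := lln_mink (P := P) hA hB (by positivity) (by positivity) hA2 hB2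
  have e : (fun p => (slope θ (ms G β D x p c) ^ 2 * F p - θ ^ 2 * μ) ^ 2) =
      fun p => (slope θ (ms G β D x p c) ^ 2 * (F p - μ) +
        μ * (slope θ (ms G β D x p c) ^ 2 - θ ^ 2)) ^ 2 := by
    funext p
    ring
  rw [e]
  refine h8.trans ?_
  apply pow_le_pow_left₀ (by positivity)
  have h9 : 2 * kb * |μ| ≤ 2 * (1 / 100) * (2 * (eps + s)) := by
    apply mul_le_mul _ hmean (abs_nonneg _) (by positivity)
    linarith
  have h10 : s + 2 * kb * |μ| ≤ 26 / 25 * s + 1 / 25 * eps := by linarith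
  calc θ ^ 2 * s + θ ^ 2 * (2 * kb * |μ|) = θ ^ 2 * (s + 2 * kb * |μ|) := by ring
    _ ≤ _ := mul_le_mul_of_nonneg_left h10 (sq_nonneg _)

/-- (9.1) with `kb` a bound for the `L²` norms of the squared messages. -/
theorem lln (hC : Crit G b β) {ν : Measure ℝ} (hν : IsOwn ν) (hD : Cvx G D) (hx : x ∈ D)
    {j : V} (hj : j ∈ D) (hjx : j ≠ x) (r n : ℕ) (q : V → ℝ) (hq0 : ∀ c, 0 ≤ q c)
    (hq : ∀ c, q c ≤ 2 * (n + 1)) {eps kb : ℝ} (heps : 0 ≤ eps) (hkb0 : 0 ≤ kb)
    (hkb : ∀ i ∈ D, i ≠ x → EE G β (fun _ => ν) D (fun p => ms G β D x p i ^ 4) ≤ kb ^ 2)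
    (hkb1 : kb ≤ 1 / 100) (hrk : 4 * r * kb ≤ 1 / 2)
    (hmm : ∀ c ∈ D, G.dist x j + G.dist j c = G.dist x c → G.dist j c = r →
      |EE G β (fun _ => ν) D (fun p => Wt G β D x j c p * (Pf G β D x n c p - q c))| ≤ eps) :
    EE G β (fun _ => ν) D (fun p => (Pf G β D x (n + r) j p - Lf G β D x q r j p) ^ 2) ≤
      ((3 / 4 : ℝ) ^ r * (3 * (n + 1)) + 6 * eps) ^ 2 := by
  have hG := hC.tree
  have hP : IsProbabilityMeasure (PL G β (fun _ => ν) D) := isProb_PL (fun _ => hν) D
  have hθ0 := lln_th0 hC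
  have hθ2 := lln_thsq hC
  -- the differences
  have hFB : ∀ (m : ℕ) (i : V), EvFn (br G D x i)
      (fun p => Pf G β D x (n + m) i p - Lf G β D x q m i p) := fun m i =>
    lln_ev_sub (lln_ev_Pf hC (n + m) i) (lln_ev_Lf hC q m i)
  have hrec : ∀ (m : ℕ) (i : V) (p : V → ℝ),
      Pf G β D x (n + (m + 1)) i p - Lf G β D x q (m + 1) i p =
        ∑ c ∈ ch G D x i, slope (Real.tanh β) (ms G β D x p c) ^ 2 *
          (Pf G β D x (n + m) c p - Lf G β D x q m c p) := by
    intro m i p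
    have e1 : Pf G β D x (n + (m + 1)) i p = 1 + ∑ c ∈ ch G D x i,
      slope (Real.tanh β) (ms G β D x p c) ^ 2 * Pf G β D x (n + m) c p := rfl
    have e2 : Lf G β D x q (m + 1) i p = 1 + ∑ c ∈ ch G D x i,
      slope (Real.tanh β) (ms G β D x p c) ^ 2 * Lf G β D x q m c p := rfl
    rw [e1, e2, add_sub_add_left_eq_sub, ← sum_sub_distrib]
    exact sum_congr rfl fun c _ => by ring
  -- tilt
  have htilt : ∀ m ≤ r, ∀ i ∈ D, G.dist x j + G.dist j i = G.dist x i → G.dist j i = r - m →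
      |EE G β (fun _ => ν) D (fun p => Wt G β D x j i p *
        (Pf G β D x (n + m) i p - Lf G β D x q m i p))| ≤ eps := by
    intro m
    induction m with
    | zero =>
      intro _ i hi h1 h2
      exact hmm i hi h1 (by simpa using h2)
    | succ m ih =>
      intro hm i hi h1 h2
      have hix : i ≠ x := by
        rintro rfl
        rw [SimpleGraph.dist_self] at h1
        have : G.dist i j = 0 := by omega
        rw [hG.1.dist_eq_zero_iff] at this
        exact hjx this.symm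
      have e : EE G β (fun _ => ν) D (fun p => Wt G β D x j i p *
          (Pf G β D x (n + (m + 1)) i p - Lf G β D x q (m + 1) i p)) =
          ∑ c ∈ ch G D x i, Real.tanh β ^ 2 * EE G β (fun _ => ν) D (fun p => Wt G β D x j c p *
            (Pf G β D x (n + m) c p - Lf G β D x q m c p)) := by
        unfold EE
        have e1 : (fun p => Wt G β D x j i p *
          (Pf G β D x (n + (m + 1)) i p - Lf G β D x q (m + 1) i p)) =
          fun p => ∑ c ∈ ch G D x i, Real.tanh β ^ 2 * (Wt G β D x j c p *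
            (Pf G β D x (n + m) c p - Lf G β D x q m c p)) := by
          funext p
          rw [hrec, mul_sum]
          refine sum_congr rfl fun c hc => ?_
          have h3 := pth_child (D := D) hG hD hx h1 hj hc
          have e2 : Wt G β D x j c p = (slope (Real.tanh β) (ms G β D x p c) / Real.tanh β) ^ 2 *
              Wt G β D x j i p := by
            unfold Wt
            rw [h3.1, prod_insert h3.2]
          rw [e2, div_pow]
          field_simp
        rw [e1, integral_finsetSum]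
        · exact sum_congr rfl fun c _ => by rw [integral_const_mul]
        · intro c hc
          exact ((LlnB.const _).mul ((lln_ev_B (lln_ev_Wt hC j c)).mul (lln_ev_B (hFB m c)))).int
      rw [e]
      calc |∑ c ∈ ch G D x i, Real.tanh β ^ 2 * EE G β (fun _ => ν) D (fun p =>
            Wt G β D x j c p * (Pf G β D x (n + m) c p - Lf G β D x q m c p))|
          ≤ ∑ c ∈ ch G D x i, |Real.tanh β ^ 2 * EE G β (fun _ => ν) D (fun p =>
            Wt G β D x j c p * (Pf G β D x (n + m) c p - Lf G β D x q m c p))| :=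
            abs_sum_le_sum_abs _ _
        _ ≤ ∑ _c ∈ ch G D x i, Real.tanh β ^ 2 * eps := by
            refine sum_le_sum fun c hc => ?_
            rw [abs_mul, abs_of_nonneg (sq_nonneg _)]
            apply mul_le_mul_of_nonneg_left _ (sq_nonneg _)
            have h3 := lln_geo hG h1 hc
            exact ih (by omega) c (mem_ch.1 hc).1 h3.1 (by omega)
        _ = ((ch G D x i).card : ℝ) * (Real.tanh β ^ 2 * eps) := by
            rw [sum_const, nsmul_eq_mul]
        _ ≤ b * (Real.tanh β ^ 2 * eps) := by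
            apply mul_le_mul_of_nonneg_right _ (by positivity)
            exact_mod_cast card_ch_le hC hix
        _ = eps := by rw [← mul_assoc, hC.crit, one_mul]
  -- the weights
  have hW : ∀ i ∈ D, G.dist x j + G.dist j i = G.dist x i → G.dist j i ≤ r →
      3 / 4 ≤ EE G β (fun _ => ν) D (fun p => Wt G β D x j i p) := by
    intro i hi h1 h2
    have h3 : ∀ p : V → ℝ, 1 - ∑ k ∈ pth G D j i, 2 * ms G β D x p k ^ 2 ≤ Wt G β D x j i p := by
      intro p
      have h4 := lln_one_sub_prod (pth G D j i)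
        (fun k => (slope (Real.tanh β) (ms G β D x p k) / Real.tanh β) ^ 2)
        (fun k _ => (lln_ratio hC p k).1) fun k _ => (lln_ratio hC p k).2
      have h5 : ∑ k ∈ pth G D j i,
          (1 - (slope (Real.tanh β) (ms G β D x p k) / Real.tanh β) ^ 2) ≤
            ∑ k ∈ pth G D j i, 2 * ms G β D x p k ^ 2 :=
        sum_le_sum fun k _ => one_sub_slope_sq_le hθ0 hθ2 (lln_abs_ms p k)
      have e : Wt G β D x j i p = ∏ k ∈ pth G D j i,
        (slope (Real.tanh β) (ms G β D x p k) / Real.tanh β) ^ 2 := rfl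
      rw [e]
      linarith
    have hmsB : ∀ k, LlnB (fun p : V → ℝ => ms G β D x p k) := fun k =>
      ⟨measurable_mg _ _, 1, fun p => lln_abs_ms p k⟩
    have h4 : ∀ k ∈ pth G D j i, ∫ p, 2 * ms G β D x p k ^ 2 ∂(PL G β (fun _ => ν) D) ≤
        2 * kb := by
      intro k hk
      rw [lln_mem_pth] at hk
      have hkx : k ≠ x := by
        rintro rfl
        have h5 := hk.2.2
        have h6 : G.dist j k = 0 := by
          have := G.dist_comm (u := j) (v := k)
          omega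
        rw [hG.1.dist_eq_zero_iff] at h6
        exact hjx h6
      have h5 := hkb k hk.1 hkx
      unfold EE at h5
      have e : (fun p => ms G β D x p k ^ 4) = fun p => (ms G β D x p k ^ 2) ^ 2 := by
        funext p; ring
      rw [e] at h5
      have h6 := lln_first (P := PL G β (fun _ => ν) D) (hmsB k).sq hkb0 h5
      rw [integral_const_mul]
      have := (abs_le.1 h6).2
      linarith
    have h5 : ∫ p, (1 - ∑ k ∈ pth G D j i, 2 * ms G β D x p k ^ 2) ∂(PL G β (fun _ => ν) D) ≤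
        EE G β (fun _ => ν) D (fun p => Wt G β D x j i p) := by
      unfold EE
      apply integral_mono _ (lln_ev_B (lln_ev_Wt hC j i)).int h3
      exact ((LlnB.const 1).sub (LlnB.sum _ fun k _ => (LlnB.const 2).mul (hmsB k).sq)).int
    have h6 : ∫ p, (1 - ∑ k ∈ pth G D j i, 2 * ms G β D x p k ^ 2) ∂(PL G β (fun _ => ν) D) =
        1 - ∑ k ∈ pth G D j i, ∫ p, 2 * ms G β D x p k ^ 2 ∂(PL G β (fun _ => ν) D) := by
      rw [integral_sub (LlnB.const 1).int (LlnB.sum _ fun k _ => (LlnB.const 2).mul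
        (hmsB k).sq).int, integral_finsetSum _ fun k _ => ((LlnB.const 2).mul (hmsB k).sq).int]
      simp
    have h7 : ∑ k ∈ pth G D j i, ∫ p, 2 * ms G β D x p k ^ 2 ∂(PL G β (fun _ => ν) D) ≤
        r * (2 * kb) := by
      calc _ ≤ ∑ _k ∈ pth G D j i, 2 * kb := sum_le_sum h4
        _ = ((pth G D j i).card : ℝ) * (2 * kb) := by rw [sum_const, nsmul_eq_mul]
        _ ≤ r * (2 * kb) := by
          apply mul_le_mul_of_nonneg_right _ (by positivity)
          rw [card_pth hG hD hj hi]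
          exact_mod_cast h2
    rw [h6] at h5
    have h8 : (r : ℝ) * (2 * kb) ≤ 1 / 4 := by nlinarith
    linarith
  -- mean versus variance
  have hmean : ∀ m ≤ r, ∀ i ∈ D, G.dist x j + G.dist j i = G.dist x i → G.dist j i = r - m →
      ∀ s : ℝ, 0 ≤ s → EE G β (fun _ => ν) D (fun p =>
        (Pf G β D x (n + m) i p - Lf G β D x q m i p) ^ 2) -
        EE G β (fun _ => ν) D (fun p => Pf G β D x (n + m) i p - Lf G β D x q m i p) ^ 2 ≤ s ^ 2 →
      |EE G β (fun _ => ν) D (fun p => Pf G β D x (n + m) i p - Lf G β D x q m i p)| ≤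
        2 * (eps + s) := by
    intro m hm i hi h1 h2 s hs hvar
    have h3 := htilt m hm i hi h1 h2
    have h4 := hW i hi h1 (by omega)
    have hF := lln_ev_B (hFB m i)
    have hw := lln_ev_B (lln_ev_Wt (G := G) (β := β) (D := D) (x := x) hC j i)
    unfold EE at *
    set F : (V → ℝ) → ℝ := fun p => Pf G β D x (n + m) i p - Lf G β D x q m i p with hFdef
    set P := PL G β (fun _ => ν) D with hPdef
    set μ := ∫ p, F p ∂P with hμ
    set w := ∫ p, Wt G β D x j i p ∂P with hw'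
    have h5 : ∫ p, (Wt G β D x j i p - w) ^ 2 ∂P ≤ 1 ^ 2 := by
      rw [lln_var_self hw]
      have h6 : ∫ p, Wt G β D x j i p ^ 2 ∂P ≤ ∫ _, (1 : ℝ) ∂P := by
        apply integral_mono hw.sq.int (LlnB.const 1).int
        intro p
        exact pow_le_one₀ (lln_Wt_nonneg hC j i p) (lln_Wt_le hC j i p)
      simp only [integral_const, probReal_univ, smul_eq_mul, mul_one] at h6
      nlinarith [sq_nonneg (∫ p, Wt G β D x j i p ∂P)]
    have h6 : ∫ p, (F p - μ) ^ 2 ∂P ≤ s ^ 2 := by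
      rw [lln_var_self hF]
      exact hvar
    have h7 := lln_abs_cs (P := P) (hw.sub (LlnB.const w)) (hF.sub (LlnB.const μ)) zero_le_one hs
      h5 h6
    have h8 : ∫ p, (Wt G β D x j i p - w) * (F p - μ) ∂P =
        ∫ p, Wt G β D x j i p * F p ∂P - w * μ := by
      have e : (fun p => (Wt G β D x j i p - w) * (F p - μ)) = fun p =>
          ((Wt G β D x j i p * F p + (-w) * F p) + (-μ) * Wt G β D x j i p) + w * μ := by
        funext p; ring
      rw [e, integral_add (((hw.mul hF).add ((LlnB.const _).mul hF)).add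
        ((LlnB.const _).mul hw)).int (LlnB.const _).int,
        integral_add ((hw.mul hF).add ((LlnB.const _).mul hF)).int ((LlnB.const _).mul hw).int,
        integral_add (hw.mul hF).int ((LlnB.const _).mul hF).int, integral_const_mul,
        integral_const_mul]
      simp only [integral_const, probReal_univ, smul_eq_mul]
      rw [← hμ, ← hw']
      ring
    rw [h8] at h7
    have h9 : |w * μ| ≤ eps + s := by
      have h10 : w * μ = ∫ p, Wt G β D x j i p * F p ∂P -
        (∫ p, Wt G β D x j i p * F p ∂P - w * μ) := by ring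
      rw [h10]
      calc _ ≤ |∫ p, Wt G β D x j i p * F p ∂P| +
          |∫ p, Wt G β D x j i p * F p ∂P - w * μ| := abs_sub _ _
        _ ≤ eps + s := by
          have : |∫ p, Wt G β D x j i p * F p ∂P| ≤ eps := h3
          linarith
    rw [abs_mul, abs_of_nonneg (by linarith : (0 : ℝ) ≤ w)] at h9
    nlinarith [abs_nonneg μ]
  -- variance
  have hvar : ∀ m ≤ r, ∀ i ∈ D, G.dist x j + G.dist j i = G.dist x i → G.dist j i = r - m →
      EE G β (fun _ => ν) D (fun p =>
        (Pf G β D x (n + m) i p - Lf G β D x q m i p) ^ 2) -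
        EE G β (fun _ => ν) D (fun p => Pf G β D x (n + m) i p - Lf G β D x q m i p) ^ 2 ≤
      ((3 / 4 : ℝ) ^ m * (3 * (n + 1)) + 2 / 5 * eps * (1 - (3 / 4 : ℝ) ^ m)) ^ 2 := by
    intro m
    induction m with
    | zero =>
      intro _ i hi h1 h2
      have hix : i ≠ x := by
        rintro rfl
        rw [SimpleGraph.dist_self] at h1
        have : G.dist i j = 0 := by omega
        rw [hG.1.dist_eq_zero_iff] at this
        exact hjx this.symm
      have h3 : EE G β (fun _ => ν) D (fun p =>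
          (Pf G β D x (n + 0) i p - Lf G β D x q 0 i p) ^ 2) ≤ (3 * ((n : ℝ) + 1)) ^ 2 := by
        unfold EE
        have h4 : ∫ p, (Pf G β D x (n + 0) i p - Lf G β D x q 0 i p) ^ 2
            ∂(PL G β (fun _ => ν) D) ≤ ∫ _, (3 * ((n : ℝ) + 1)) ^ 2 ∂(PL G β (fun _ => ν) D) := by
          apply integral_mono (lln_ev_B (hFB 0 i)).sq.int (LlnB.const _).int
          intro p
          have h5 := Pf_le (D := D) hC hix n p
          have h6 := hq0 i
          have h7 := hq i
          have h8 : Lf G β D x q 0 i p = q i := rfl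
          simp only [add_zero, h8]
          apply sq_le_sq'
          · nlinarith [h5.1]
          · nlinarith [h5.2]
        simpa using h4
      have h4 : 0 ≤ EE G β (fun _ => ν) D
        (fun p => Pf G β D x (n + 0) i p - Lf G β D x q 0 i p) ^ 2 := sq_nonneg _
      calc _ ≤ (3 * ((n : ℝ) + 1)) ^ 2 := by linarith
        _ = _ := by simp
    | succ m ih =>
      intro hm i hi h1 h2
      have hix : i ≠ x := by
        rintro rfl
        rw [SimpleGraph.dist_self] at h1
        have : G.dist i j = 0 := by omega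
        rw [hG.1.dist_eq_zero_iff] at this
        exact hjx this.symm
      set s : ℝ := (3 / 4 : ℝ) ^ m * (3 * (n + 1)) + 2 / 5 * eps * (1 - (3 / 4 : ℝ) ^ m) with hs
      have hpow : (3 / 4 : ℝ) ^ m ≤ 1 := pow_le_one₀ (by norm_num) (by norm_num)
      have hpow0 : 0 ≤ (3 / 4 : ℝ) ^ m := by positivity
      have hs0 : 0 ≤ s := by
        have : 0 ≤ 1 - (3 / 4 : ℝ) ^ m := by linarith
        positivity
      -- the functionals of the children
      have hXev : ∀ c ∈ ch G D x i, EvFn (br G D x c) (fun p =>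
          slope (Real.tanh β) (ms G β D x p c) ^ 2 *
            (Pf G β D x (n + m) c p - Lf G β D x q m c p)) := fun c hc =>
        lln_ev_mul (lln_ev_sl hC (mem_ch.1 hc).1) (hFB m c)
      have hone : ∀ c ∈ ch G D x i,
          EE G β (fun _ => ν) D (fun p => (slope (Real.tanh β) (ms G β D x p c) ^ 2 *
            (Pf G β D x (n + m) c p - Lf G β D x q m c p)) ^ 2) -
          EE G β (fun _ => ν) D (fun p => slope (Real.tanh β) (ms G β D x p c) ^ 2 *
            (Pf G β D x (n + m) c p - Lf G β D x q m c p)) ^ 2 ≤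
          (Real.tanh β ^ 2 * (26 / 25 * s + 1 / 25 * eps)) ^ 2 := by
        intro c hc
        have hcD := (mem_ch.1 hc).1
        have h3 := lln_geo hG h1 hc
        have h4 := ih (by omega) c hcD h3.1 (by omega)
        have h5 := hmean m (by omega) c hcD h3.1 (by omega) s hs0 h4
        exact lln_child hC hν hcD heps hkb0 hs0 (hkb c hcD (lln_ch_ne hc)) hkb1
          (lln_ev_B (hFB m c)) h4 h5
      have hind : ∀ c ∈ ch G D x i, ∀ c' ∈ ch G D x i, c ≠ c' →
          ∫ p, (slope (Real.tanh β) (ms G β D x p c) ^ 2 *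
            (Pf G β D x (n + m) c p - Lf G β D x q m c p)) *
            (slope (Real.tanh β) (ms G β D x p c') ^ 2 *
            (Pf G β D x (n + m) c' p - Lf G β D x q m c' p)) ∂(PL G β (fun _ => ν) D) =
          (∫ p, slope (Real.tanh β) (ms G β D x p c) ^ 2 *
            (Pf G β D x (n + m) c p - Lf G β D x q m c p) ∂(PL G β (fun _ => ν) D)) *
          ∫ p, slope (Real.tanh β) (ms G β D x p c') ^ 2 *
            (Pf G β D x (n + m) c' p - Lf G β D x q m c' p) ∂(PL G β (fun _ => ν) D) := by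
        intro c hc c' hc' hne
        have h3 := EE_prod_indep (G := G) (β := β) (ν := fun _ => ν) hG (fun _ => hν) hD
          ({c, c'} : Finset V) (fun k => br G D x k)
          (fun k _ => br_subset D x k) (fun k _ => cvx_br hG hD x k)
          (by
            intro k hk l hl hkl
            have hk' : k ∈ ch G D x i := by
              rcases mem_insert.1 hk with rfl | hk
              · exact hc
              · rw [mem_singleton.1 hk]; exact hc'
            have hl' : l ∈ ch G D x i := by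
              rcases mem_insert.1 hl with rfl | hl
              · exact hc
              · rw [mem_singleton.1 hl]; exact hc'
            exact br_disjoint hG hkl (by rw [(mem_ch.1 hk').2.2, (mem_ch.1 hl').2.2]))
          (fun k p => slope (Real.tanh β) (ms G β D x p k) ^ 2 *
            (Pf G β D x (n + m) k p - Lf G β D x q m k p))
          (by
            intro k hk
            have hk' : k ∈ ch G D x i := by
              rcases mem_insert.1 hk with rfl | hk
              · exact hc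
              · rw [mem_singleton.1 hk]; exact hc'
            exact hXev k hk')
        rw [prod_pair hne] at h3
        have h4 := EE_cons (G := G) (β := β) (ν := fun _ => ν) hG (fun _ => hν) hD
          (cvx_br hG hD x c) (br_subset D x c) (hXev c hc).toFn
        have h5 := EE_cons (G := G) (β := β) (ν := fun _ => ν) hG (fun _ => hν) hD
          (cvx_br hG hD x c') (br_subset D x c') (hXev c' hc').toFn
        rw [← h4, ← h5] at h3
        unfold EE at h3
        rw [← h3]
        refine integral_congr_ae (Filter.Eventually.of_forall fun p => ?_)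
        simp only
        rw [prod_pair hne]
      have hsum := lln_var_sum (P := PL G β (fun _ => ν) D) (ch G D x i)
        (f := fun c p => slope (Real.tanh β) (ms G β D x p c) ^ 2 *
            (Pf G β D x (n + m) c p - Lf G β D x q m c p))
        (fun c hc => lln_ev_B (hXev c hc)) hind
      have e1 : (fun p => (Pf G β D x (n + (m + 1)) i p - Lf G β D x q (m + 1) i p) ^ 2) =
          fun p => (∑ c ∈ ch G D x i, slope (Real.tanh β) (ms G β D x p c) ^ 2 *
            (Pf G β D x (n + m) c p - Lf G β D x q m c p)) ^ 2 := by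
        funext p
        rw [hrec]
      have e2 : (fun p => Pf G β D x (n + (m + 1)) i p - Lf G β D x q (m + 1) i p) =
          fun p => ∑ c ∈ ch G D x i, slope (Real.tanh β) (ms G β D x p c) ^ 2 *
            (Pf G β D x (n + m) c p - Lf G β D x q m c p) := by
        funext p
        rw [hrec]
      rw [e1, e2]
      unfold EE at *
      rw [hsum]
      have hcard : ((ch G D x i).card : ℝ) ≤ b := by exact_mod_cast card_ch_le hC hix
      have hb0 : (0 : ℝ) ≤ b := Nat.cast_nonneg b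
      calc _ ≤ ∑ _c ∈ ch G D x i, (Real.tanh β ^ 2 * (26 / 25 * s + 1 / 25 * eps)) ^ 2 :=
            sum_le_sum hone
        _ = ((ch G D x i).card : ℝ) * (Real.tanh β ^ 2 * (26 / 25 * s + 1 / 25 * eps)) ^ 2 := by
            rw [sum_const, nsmul_eq_mul]
        _ ≤ b * (Real.tanh β ^ 2 * (26 / 25 * s + 1 / 25 * eps)) ^ 2 :=
            mul_le_mul_of_nonneg_right hcard (sq_nonneg _)
        _ = Real.tanh β ^ 2 * (26 / 25 * s + 1 / 25 * eps) ^ 2 := by
            have := hC.crit
            linear_combination (Real.tanh β ^ 2 * (26 / 25 * s + 1 / 25 * eps) ^ 2) * this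
        _ ≤ 1 / 2 * (26 / 25 * s + 1 / 25 * eps) ^ 2 :=
            mul_le_mul_of_nonneg_right hθ2 (sq_nonneg _)
        _ ≤ (3 / 4 * s + 1 / 10 * eps) ^ 2 := by
            nlinarith [mul_nonneg hs0 heps, sq_nonneg s, sq_nonneg eps]
        _ = _ := by
            congr 1
            rw [hs, pow_succ]
            ring
  -- conclusion
  have h1 := hvar r le_rfl j hj (by rw [SimpleGraph.dist_self, add_zero])
    (by rw [SimpleGraph.dist_self, Nat.sub_self])
  have h2 := htilt r le_rfl j hj (by rw [SimpleGraph.dist_self, add_zero])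
    (by rw [SimpleGraph.dist_self, Nat.sub_self])
  have e : (fun p => Wt G β D x j j p * (Pf G β D x (n + r) j p - Lf G β D x q r j p)) =
      fun p => Pf G β D x (n + r) j p - Lf G β D x q r j p := by
    funext p
    have : Wt G β D x j j p = 1 := by
      unfold Wt
      rw [pth_self D j hG, prod_empty]
    rw [this, one_mul]
  rw [e] at h2
  have h3 : EE G β (fun _ => ν) D (fun p => Pf G β D x (n + r) j p - Lf G β D x q r j p) ^ 2 ≤
      eps ^ 2 := by
    rw [← sq_abs]
    exact pow_le_pow_left₀ (abs_nonneg _) h2 2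
  have hpow : (3 / 4 : ℝ) ^ r ≤ 1 := pow_le_one₀ (by norm_num) (by norm_num)
  have hpow0 : 0 ≤ (3 / 4 : ℝ) ^ r := by positivity
  have h4 : 0 ≤ (3 / 4 : ℝ) ^ r * (3 * ((n : ℝ) + 1)) := by positivity
  set A : ℝ := (3 / 4 : ℝ) ^ r * (3 * ((n : ℝ) + 1)) with hA
  have h5 : (A + 2 / 5 * eps * (1 - (3 / 4 : ℝ) ^ r)) ^ 2 ≤ (A + 2 / 5 * eps) ^ 2 := by
    apply pow_le_pow_left₀
    · have : 0 ≤ 1 - (3 / 4 : ℝ) ^ r := by linarith
      positivity
    · nlinarith
  nlinarith [mul_nonneg h4 heps, sq_nonneg eps]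

end Vale.Agent.P161C
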