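import Vale.Agent.Lib.P161C.LayerB
import Vale.Agent.Lib.P161C.RootedB

/-!
P161 critical, module MISM (section 11 of notes/P161crit/proof.md): the planted expectations of
the local functionals `W`, `W P_k` in two large balls with early starts are close.
Uses LAYER, MODEL-A/B, ROOTED.

Plan: `lam m ν` is the law of the magnetization at the root of the full branch of depth `m`:
`lam 0 ν = ν`, `lam (m+1) ν = (comb · (lam m ν scaled by θ))^[b] ν`; `chi m n l` its second
moment for `ν = nuS n j l`; it is monotone in `m` and in `n`; `chi∞ l` its supremum.  The messages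
in the reference volume `bal x R`, `ν = nuS R j l`, have second moment `≥ chi (R - 2h) R l`,
the messages in any larger ball with `n ≥ R` have second moment `≤ chi∞ l`.
-/

open Finset MeasureTheory Filter Topology

namespace Vale.Agent.P161C
open Vale.Agent.P161

variable {V : Type*} [DecidableEq V] {G : SimpleGraph V} [DecidableRel G.Adj] [G.LocallyFinite]
  {b : ℕ} {β : ℝ}

/-- Law of the message of a full branch of depth `m`. -/
noncomputable def lam (b : ℕ) (θ : ℝ) (ν : Measure ℝ) : ℕ → Measure ℝ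
  | 0 => ν
  | m + 1 => (fun α => comb α ((lam b θ ν m).map (fun y => θ * y)))^[b] ν

/-- The truncated branch at `c` away from its neighbour `v`. -/
noncomputable def tbr (G : SimpleGraph V) [G.LocallyFinite] (v c : V) (m : ℕ) : Finset V :=
  {u ∈ bal G c m | G.dist c u < G.dist v u}

omit [DecidableRel G.Adj] in
private lemma mem_tbr (hG : G.IsTree) {v c u : V} {m : ℕ} :
    u ∈ tbr G v c m ↔ G.dist c u ≤ m ∧ G.dist c u < G.dist v u := by
  unfold tbr
  rw [mem_filter, mem_bal hG.connected]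

omit [DecidableRel G.Adj] in
private lemma tbr_eq_side (v c : V) (m : ℕ) : tbr G v c m = side G (bal G c m) c v := by
  unfold tbr side
  apply Finset.filter_congr
  intro u _
  rw [G.dist_comm (u := c), G.dist_comm (u := v)]

omit [DecidableRel G.Adj] in
private lemma cvx_tbr (hG : G.IsTree) {v c : V} (hvc : G.Adj v c) (m : ℕ) : Cvx G (tbr G v c m) := by
  rw [tbr_eq_side]
  exact cvx_side hG (cvx_bal hG c m) hvc.symm

omit [DecidableRel G.Adj] in
private lemma mem_tbr_self (hG : G.IsTree) {v c : V} (hvc : G.Adj v c) (m : ℕ) : c ∈ tbr G v c m := by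
  rw [mem_tbr hG, SimpleGraph.dist_self, SimpleGraph.dist_eq_one_iff_adj.mpr hvc]
  omega

omit [DecidableRel G.Adj] in
private lemma tbr_mono (hG : G.IsTree) (v c : V) {m m' : ℕ} (h : m ≤ m') :
    tbr G v c m ⊆ tbr G v c m' := by
  intro u hu
  rw [mem_tbr hG] at hu ⊢
  exact ⟨hu.1.trans h, hu.2⟩

omit [DecidableRel G.Adj] in
private lemma tbr_zero (hG : G.IsTree) {v c : V} (hvc : G.Adj v c) : tbr G v c 0 = {c} := by
  ext u
  rw [mem_tbr hG, mem_singleton]
  constructor
  · rintro ⟨h1, _⟩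
    exact ((hG.connected.dist_eq_zero_iff).mp (Nat.le_zero.mp h1)).symm
  · rintro rfl
    rw [SimpleGraph.dist_self, SimpleGraph.dist_eq_one_iff_adj.mpr hvc]
    omega

/-- Partial branch: `c` and the branches at the neighbours in `T`. -/
private noncomputable def part (G : SimpleGraph V) [G.LocallyFinite] (c : V) (m : ℕ) (T : Finset V) :
    Finset V :=
  insert c (T.biUnion (fun w => tbr G c w m))

omit [DecidableRel G.Adj] in
private lemma mem_part (hG : G.IsTree) {c u : V} {m : ℕ} {T : Finset V} :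
    u ∈ part G c m T ↔ u = c ∨ ∃ w ∈ T, G.dist w u ≤ m ∧ G.dist w u < G.dist c u := by
  unfold part
  rw [mem_insert, mem_biUnion]
  simp only [mem_tbr hG]

omit [DecidableRel G.Adj] in
private lemma part_side_left (hG : G.IsTree) {c w : V} {m : ℕ} {T : Finset V}
    (hT : ∀ w' ∈ T, G.Adj c w') (hw : w ∉ T) (hcw : G.Adj c w) :
    side G (part G c m (insert w T)) c w = part G c m T := by
  ext u
  rw [mem_side, mem_part hG, mem_part hG]
  constructor
  · rintro ⟨h1 | ⟨w', hw', h2, h3⟩, h4⟩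
    · exact Or.inl h1
    · rw [mem_insert] at hw'
      rcases hw' with rfl | hw'
      · rw [G.dist_comm (u := u), G.dist_comm (u := u)] at h4; omega
      · exact Or.inr ⟨w', hw', h2, h3⟩
  · rintro (h1 | ⟨w', hw', h2, h3⟩)
    · subst h1
      refine ⟨Or.inl rfl, ?_⟩
      rw [SimpleGraph.dist_self, SimpleGraph.dist_eq_one_iff_adj.mpr hcw]
      omega
    · refine ⟨Or.inr ⟨w', mem_insert_of_mem hw', h2, h3⟩, ?_⟩
      rw [G.dist_comm (u := u), G.dist_comm (u := u)]
      rcases dist_succ_cases hG u hcw with h | h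
      · exfalso
        apply hw
        have : w = w' := closer_unique hG hcw (hT w' hw') (by omega) h3
        rwa [this]
      · omega

omit [DecidableRel G.Adj] in
private lemma part_side_right (hG : G.IsTree) {c w : V} {m : ℕ} {T : Finset V}
    (hT : ∀ w' ∈ T, G.Adj c w') (hw : w ∉ T) (hcw : G.Adj c w) :
    side G (part G c m (insert w T)) w c = tbr G c w m := by
  ext u
  rw [mem_side, mem_part hG, mem_tbr hG, G.dist_comm (u := u), G.dist_comm (u := u)]
  constructor
  · rintro ⟨h1 | ⟨w', hw', h2, h3⟩, h4⟩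
    · subst h1
      rw [SimpleGraph.dist_self] at h4; omega
    · rw [mem_insert] at hw'
      rcases hw' with rfl | hw'
      · exact ⟨h2, h3⟩
      · exfalso
        apply hw
        have : w = w' := closer_unique hG hcw (hT w' hw') h4 h3
        rwa [this]
  · rintro ⟨h1, h2⟩
    exact ⟨Or.inr ⟨w, mem_insert_self _ _, h1, h2⟩, h2⟩

omit [DecidableRel G.Adj] in
private lemma part_full (hG : G.IsTree) {v c : V} (hvc : G.Adj v c) (m : ℕ) :
    part G c m ((G.neighborFinset c).erase v) = tbr G v c (m + 1) := by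
  ext u
  rw [mem_part hG, mem_tbr hG]
  constructor
  · rintro (h | ⟨w, hw, h1, h2⟩)
    · subst h
      rw [SimpleGraph.dist_self, SimpleGraph.dist_eq_one_iff_adj.mpr hvc]
      omega
    · rw [mem_erase, SimpleGraph.mem_neighborFinset] at hw
      have h3 : G.dist c u ≤ m + 1 := by
        rcases dist_succ_cases hG u hw.2 with h | h <;> omega
      refine ⟨h3, ?_⟩
      rcases dist_succ_cases hG u hvc with h | h
      · omega
      · exfalso
        apply hw.1
        exact closer_unique hG hw.2 hvc.symm h2 (by omega)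
  · rintro ⟨h1, h2⟩
    by_cases huc : c = u
    · exact Or.inl huc.symm
    · obtain ⟨w, hw, hw'⟩ := exists_adj_closer hG.connected huc
      refine Or.inr ⟨w, ?_, by omega, by omega⟩
      rw [mem_erase, SimpleGraph.mem_neighborFinset]
      refine ⟨?_, hw⟩
      rintro rfl
      omega

omit [G.LocallyFinite] in
private lemma map_mg_singleton {ν : Measure ℝ} (hν : IsOwn ν) (c : V) :
    (PL G β (fun _ => ν) {c}).map (fun p => mg G β {c} p c) = ν := by
  have := hν.prob
  have h1 : PL G β (fun _ : V => ν) {c} = Measure.infinitePi (fun _ : V => ν) := by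
    unfold PL
    simp only [Zd_singleton, ENNReal.ofReal_one]
    exact withDensity_one
  rw [h1]
  have h2 : (fun p : V → ℝ => mg G β {c} p c) =ᵐ[Measure.infinitePi (fun _ : V => ν)]
      fun p => p c := by
    filter_upwards [ae_abs_lt (fun _ : V => hν) {c}] with p hp
    exact mg_singleton (hp c (mem_singleton_self c))
  rw [Measure.map_congr h2]
  exact Measure.infinitePi_map_eval (fun _ : V => ν) c

omit [G.LocallyFinite] in
private lemma map_mul_mg (θ : ℝ) {ν : V → Measure ℝ} (S : Finset V) (w : V) :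
    (PL G β ν S).map (fun p => θ * mg G β S p w) =
      ((PL G β ν S).map (fun p => mg G β S p w)).map (fun y => θ * y) := by
  rw [Measure.map_map (measurable_const_mul θ) (measurable_mg S w)]
  rfl

/-- Homogeneity. -/
lemma map_mg_tbr (hC : Crit G b β) {ν : Measure ℝ} (hν : IsOwn ν) {v c : V} (hvc : G.Adj v c)
    (m : ℕ) :
    (PL G β (fun _ => ν) (tbr G v c m)).map (fun p => mg G β (tbr G v c m) p c) =
      lam b (Real.tanh β) ν m := by
  induction m generalizing v c with
  | zero => rw [tbr_zero hC.tree hvc]; exact map_mg_singleton hν c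
  | succ m ih =>
    have key : ∀ T : Finset V, (∀ w ∈ T, G.Adj c w) →
        (PL G β (fun _ => ν) (part G c m T)).map (fun p => mg G β (part G c m T) p c) =
          (fun α => comb α ((lam b (Real.tanh β) ν m).map (fun y => Real.tanh β * y)))^[T.card]
            ν := by
      intro T
      induction T using Finset.induction_on with
      | empty =>
        intro _
        have : part G c m ∅ = {c} := by unfold part; simp
        rw [this]
        simpa using map_mg_singleton hν c
      | insert w T hw ihT =>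
        intro hT
        have hcw : G.Adj c w := hT w (mem_insert_self _ _)
        have hT' : ∀ w' ∈ T, G.Adj c w' := fun w' h => hT w' (mem_insert_of_mem h)
        have hc : c ∈ part G c m (insert w T) := (mem_part hC.tree).mpr (Or.inl rfl)
        have hw' : w ∈ part G c m (insert w T) := by
          rw [mem_part hC.tree]
          refine Or.inr ⟨w, mem_insert_self _ _, ?_, ?_⟩
          · rw [SimpleGraph.dist_self]; omega
          · rw [SimpleGraph.dist_self, SimpleGraph.dist_eq_one_iff_adj.mpr hcw]; omega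
        rw [map_mg_edge hC.tree (fun _ => hν) hcw hc hw', part_side_left hC.tree hT' hw hcw,
          part_side_right hC.tree hT' hw hcw, ihT hT', map_mul_mg, ih hcw,
          card_insert_of_notMem hw, Function.iterate_succ_apply']
    have hcard : ((G.neighborFinset c).erase v).card = b := by
      rw [card_erase_of_mem ((G.mem_neighborFinset _ _).mpr hvc.symm),
        SimpleGraph.card_neighborFinset_eq_degree, hC.reg c]
      rfl
    have h := key ((G.neighborFinset c).erase v) (fun w hw => by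
      rw [mem_erase, SimpleGraph.mem_neighborFinset] at hw; exact hw.2)
    rw [part_full hC.tree hvc, hcard] at h
    exact h


/-! ### Measurability in the label time -/


private lemma isOwn_map_mul {θ : ℝ} (h0 : 0 ≤ θ) (h1 : θ < 1) {α : Measure ℝ} (hα : IsOwn α) :
    IsOwn (α.map (fun y => θ * y)) := by
  have hp := hα.prob
  have hm : Measurable (fun y : ℝ => θ * y) := measurable_const_mul θ
  refine ⟨Measure.isProbabilityMeasure_map hm.aemeasurable, ?_, ?_⟩
  · rw [Measure.map_map measurable_neg hm]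
    have : (fun x : ℝ => -x) ∘ (fun y => θ * y) = (fun y => θ * y) ∘ (fun x => -x) := by
      funext x; simp
    rw [this, ← Measure.map_map hm measurable_neg, hα.symm]
  · have hs : MeasurableSet {x : ℝ | |x| < 1} :=
      measurableSet_lt measurable_abs measurable_const
    rw [ae_map_iff hm.aemeasurable hs]
    filter_upwards [hα.supp] with x hx
    rw [abs_mul, abs_of_nonneg h0]
    nlinarith [abs_nonneg x]

private lemma isOwn_iter {γ : Measure ℝ} (hγ : IsOwn γ) {ν : Measure ℝ} (hν : IsOwn ν) (k : ℕ) :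
    IsOwn ((fun α => comb α γ)^[k] ν) := by
  induction k with
  | zero => exact hν
  | succ k ih => rw [Function.iterate_succ_apply']; exact isOwn_comb ih hγ

private lemma isOwn_lam {θ : ℝ} (h0 : 0 ≤ θ) (h1 : θ < 1) {ν : Measure ℝ} (hν : IsOwn ν) (m : ℕ) :
    IsOwn (lam b θ ν m) := by
  induction m with
  | zero => exact hν
  | succ m ih => exact isOwn_iter (isOwn_map_mul h0 h1 ih) hν b

private lemma measurable_comb {X : Type*} [MeasurableSpace X] {α γ : X → Measure ℝ} (hα : Measurable α)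
    (hγ : Measurable γ) (pα : ∀ x, IsProbabilityMeasure (α x))
    (pγ : ∀ x, IsProbabilityMeasure (γ x)) : Measurable (fun x => comb (α x) (γ x)) := by
  let κ : ProbabilityTheory.Kernel X ℝ := ⟨α, hα⟩
  let η : ProbabilityTheory.Kernel X ℝ := ⟨γ, hγ⟩
  have : ProbabilityTheory.IsMarkovKernel κ := ⟨pα⟩
  have : ProbabilityTheory.IsMarkovKernel η := ⟨pγ⟩
  apply Measure.measurable_of_measurable_coe
  intro s hs
  have hg : Measurable (fun z : ℝ × ℝ => (z.1 + z.2) / (1 + z.1 * z.2)) :=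
    (measurable_fst.add measurable_snd).div
      (measurable_const.add (measurable_fst.mul measurable_snd))
  have hf : Measurable (fun z : ℝ × ℝ => ENNReal.ofReal (1 + z.1 * z.2)) :=
    (measurable_const.add (measurable_fst.mul measurable_snd)).ennreal_ofReal
  have key : ∀ x, comb (α x) (γ x) s =
      ∫⁻ z, ((fun z : ℝ × ℝ => (z.1 + z.2) / (1 + z.1 * z.2)) ⁻¹' s).indicator
        (fun z : ℝ × ℝ => ENNReal.ofReal (1 + z.1 * z.2)) z
        ∂((ProbabilityTheory.Kernel.prod κ η) x) := by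
    intro x
    rw [ProbabilityTheory.Kernel.prod_apply]
    unfold comb
    rw [Measure.map_apply hg hs, withDensity_apply _ (hg hs), lintegral_indicator (hg hs)]
    rfl
  simp_rw [key]
  exact (hf.indicator (hg hs)).lintegral_kernel

private lemma measurable_map_mul {X : Type*} [MeasurableSpace X] {α : X → Measure ℝ} (hα : Measurable α)
    (θ : ℝ) : Measurable (fun x => (α x).map (fun y => θ * y)) :=
  (Measure.measurable_map _ (measurable_const_mul θ)).comp hα

private lemma measurable_obs (a : ℝ) {X : Type*} [MeasurableSpace X] {g : X → ℝ} (hg : Measurable g) :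
    Measurable (fun x => obs a (g x)) := by
  apply Measure.measurable_of_measurable_coe
  intro s hs
  unfold obs
  simp only [Measure.coe_add, Measure.coe_smul, Pi.add_apply, Pi.smul_apply, smul_eq_mul]
  exact (hg.ennreal_ofReal.mul_const _).add
    ((measurable_const.sub hg).ennreal_ofReal.mul_const _)

private lemma measurable_iter {X : Type*} [MeasurableSpace X] {ν γ : X → Measure ℝ} (hν : Measurable ν)
    (hγ : Measurable γ) (oν : ∀ x, IsOwn (ν x)) (oγ : ∀ x, IsOwn (γ x)) (k : ℕ) :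
    Measurable (fun x => (fun α => comb α (γ x))^[k] (ν x)) := by
  induction k with
  | zero => simpa using hν
  | succ k ih =>
    simp only [Function.iterate_succ_apply']
    exact measurable_comb ih hγ (fun x => (isOwn_iter (oγ x) (oν x) k).prob)
      (fun x => (oγ x).prob)

private lemma measurable_lam {X : Type*} [MeasurableSpace X] {ν : X → Measure ℝ} (hν : Measurable ν)
    (oν : ∀ x, IsOwn (ν x)) {θ : ℝ} (h0 : 0 ≤ θ) (h1 : θ < 1) (m : ℕ) :
    Measurable (fun x => lam b θ (ν x) m) := by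
  induction m with
  | zero => exact hν
  | succ m ih =>
    exact measurable_iter hν (measurable_map_mul ih θ) oν
      (fun x => isOwn_map_mul h0 h1 (isOwn_lam h0 h1 (oν x) m)) b

/-- Measurability in `l` (multilinearity: `integral_comb_obs`, or the joint measurability). -/
lemma measurable_chi (n : ℕ) (j : ℤ) (θ : ℝ) (h0 : 0 ≤ θ) (h1 : θ < 1) (m : ℕ) :
    Measurable ((Set.Icc (0 : ℝ) (1 / 2)).indicator
      (fun l => ∫ y, y ^ 2 ∂lam b θ (nuS n j l) m)) := by
  obtain ⟨g, hg⟩ : ∃ g : ℝ → ℝ, g = fun l => max 0 (min l (1 / 2)) := ⟨_, rfl⟩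
  have hgm : Measurable g := by
    rw [hg]; exact measurable_const.max (measurable_id.min measurable_const)
  have hg0 : ∀ l, 0 ≤ g l := by intro l; rw [hg]; exact le_max_left _ _
  have hg1 : ∀ l, g l ≤ 1 := by
    intro l; rw [hg]
    refine max_le (by norm_num) ((min_le_right _ _).trans (by norm_num))
  have hge : ∀ l ∈ Set.Icc (0 : ℝ) (1 / 2), g l = l := by
    intro l hl
    rw [hg]
    simp only
    rw [min_eq_left hl.2, max_eq_right hl.1]
  have hν : Measurable (fun l => nuS n j (g l)) := by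
    unfold nuS
    refine measurable_comb measurable_const (measurable_obs _ hgm)
      (fun l => (isOwn_nuR n _).prob) (fun l => ?_)
    have s0 : 0 ≤ str j := by unfold str; positivity
    have s1 : str j < 1 := by
      unfold str
      have : (2 : ℝ) ^ (min j 0) ≤ 1 := zpow_le_one_of_nonpos₀ (by norm_num) (min_le_right _ _)
      linarith
    exact (isOwn_obs s0 s1 (hg0 l) (hg1 l)).prob
  have oν : ∀ l, IsOwn (nuS n j (g l)) := fun l => isOwn_nuS n j (hg0 l) (hg1 l)
  let κ : ProbabilityTheory.Kernel ℝ ℝ :=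
    ⟨fun l => lam b θ (nuS n j (g l)) m, measurable_lam hν oν h0 h1 m⟩
  have hκ : Measurable (fun l => ∫ y, y ^ 2 ∂lam b θ (nuS n j (g l)) m) := by
    have hs : StronglyMeasurable (fun y : ℝ => y ^ 2) :=
      (measurable_id.pow_const 2).stronglyMeasurable
    exact (StronglyMeasurable.integral_kernel (κ := κ) hs).measurable
  have heq : (Set.Icc (0 : ℝ) (1 / 2)).indicator
      (fun l => ∫ y, y ^ 2 ∂lam b θ (nuS n j l) m) =
      (Set.Icc (0 : ℝ) (1 / 2)).indicator
      (fun l => ∫ y, y ^ 2 ∂lam b θ (nuS n j (g l)) m) := by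
    apply Set.indicator_congr
    intro l hl
    simp only [hge l hl]
  rw [heq]
  exact hκ.indicator measurableSet_Icc


/-! ### Local functionals -/


omit [DecidableEq V] [DecidableRel G.Adj] in
private lemma Crit.th (hC : Crit G b β) : 0 < Real.tanh β ∧ Real.tanh β ^ 2 ≤ 1 / 2 ∧
    ((b : ℝ) + 1) * Real.tanh β ^ 2 ≤ 3 / 2 ∧ Real.tanh β < 1 := by
  have hb : (2 : ℝ) ≤ b := by exact_mod_cast hC.hb
  have h0 : 0 ≤ Real.tanh β := tanh_nonneg hC.hβ
  have h1 := hC.crit
  have h2 : Real.tanh β ≠ 0 := by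
    intro h; rw [h] at h1; norm_num at h1
  have h3 : 0 < Real.tanh β := lt_of_le_of_ne h0 (Ne.symm h2)
  have h4 : Real.tanh β ^ 2 ≤ 1 / 2 := by nlinarith [sq_nonneg (Real.tanh β)]
  refine ⟨h3, h4, by linarith, Real.tanh_lt_one β⟩

omit [G.LocallyFinite] in
private lemma abs_ms_le (D : Finset V) (x : V) (p : V → ℝ) (i : V) : |ms G β D x p i| ≤ 1 :=
  abs_mg_le _ _ _

private lemma slope_sq_le {θ m : ℝ} (h0 : 0 ≤ θ) (h1 : θ ^ 2 ≤ 1 / 2) (hm : |m| ≤ 1) :
    slope θ m ^ 2 ≤ θ ^ 2 := by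
  have h := slope_sq_le_exp h0 h1 hm
  have h2 : Real.exp (-(m ^ 2)) ≤ 1 := Real.exp_le_one_iff.mpr (by nlinarith [sq_nonneg m])
  nlinarith [sq_nonneg θ]

private lemma slope_div_le {θ m : ℝ} (h0 : 0 < θ) (h1 : θ ^ 2 ≤ 1 / 2) (hm : |m| ≤ 1) :
    (slope θ m / θ) ^ 2 ≤ 1 := by
  rw [div_pow, div_le_one (by positivity)]
  exact slope_sq_le h0.le h1 hm

private lemma slope_sq_lip {θ m m' : ℝ} (h0 : 0 ≤ θ) (h1 : θ ^ 2 ≤ 1 / 2) (hm : |m| ≤ 1)
    (hm' : |m'| ≤ 1) : |slope θ m ^ 2 - slope θ m' ^ 2| ≤ 8 * θ ^ 2 * |m - m'| := by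
  refine (abs_slope_sq_sub_le h0 h1 hm hm').trans ?_
  have h2 : |m + m'| ≤ 2 := (abs_add_le _ _).trans (by linarith)
  have h3 : |m + m'| * |m - m'| ≤ 2 * |m - m'| := by gcongr
  calc 4 * θ ^ 2 * (|m + m'| * |m - m'|) ≤ 4 * θ ^ 2 * (2 * |m - m'|) := by gcongr
    _ = _ := by ring

private lemma slope_div_lip {θ m m' : ℝ} (h0 : 0 < θ) (h1 : θ ^ 2 ≤ 1 / 2) (hm : |m| ≤ 1)
    (hm' : |m'| ≤ 1) : |(slope θ m / θ) ^ 2 - (slope θ m' / θ) ^ 2| ≤ 8 * |m - m'| := by
  have h := slope_sq_lip h0.le h1 hm hm'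
  have h2 : (0 : ℝ) < θ ^ 2 := by positivity
  rw [div_pow, div_pow, ← sub_div, abs_div, abs_of_pos h2, div_le_iff₀ h2]
  linarith

private lemma abs_prod_sub_le {ι : Type*} [DecidableEq ι] (s : Finset ι) (a c : ι → ℝ)
    (ha0 : ∀ i, 0 ≤ a i) (ha1 : ∀ i, a i ≤ 1) (hc0 : ∀ i, 0 ≤ c i) (hc1 : ∀ i, c i ≤ 1) :
    |∏ i ∈ s, a i - ∏ i ∈ s, c i| ≤ ∑ i ∈ s, |a i - c i| := by
  induction s using Finset.induction_on with
  | empty => simp
  | insert i s hi ih =>
    rw [prod_insert hi, prod_insert hi, sum_insert hi]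
    have hp0 : 0 ≤ ∏ i ∈ s, a i := prod_nonneg (fun i _ => ha0 i)
    have hp1 : ∏ i ∈ s, a i ≤ 1 := prod_le_one (fun i _ => ha0 i) (fun i _ => ha1 i)
    have e : a i * ∏ i ∈ s, a i - c i * ∏ i ∈ s, c i =
        (a i - c i) * ∏ i ∈ s, a i + c i * (∏ i ∈ s, a i - ∏ i ∈ s, c i) := by ring
    rw [e]
    refine (abs_add_le _ _).trans ?_
    rw [abs_mul, abs_mul, abs_of_nonneg hp0, abs_of_nonneg (hc0 i)]
    have t1 : |a i - c i| * ∏ i ∈ s, a i ≤ |a i - c i| :=
      mul_le_of_le_one_right (abs_nonneg _) hp1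
    have t2 : c i * |∏ i ∈ s, a i - ∏ i ∈ s, c i| ≤ ∑ i ∈ s, |a i - c i| :=
      (mul_le_of_le_one_left (abs_nonneg _) (hc1 i)).trans ih
    linarith

private lemma Pf_bound (hC : Crit G b β) (D : Finset V) (x : V) (k : ℕ) (u : V) (p : V → ℝ) :
    0 ≤ Pf G β D x k u p ∧ Pf G β D x k u p ≤ 3 ^ k := by
  obtain ⟨h0, h1, h2, _⟩ := hC.th
  induction k generalizing u with
  | zero => simp [Pf]
  | succ k ih =>
    rw [Pf]
    constructor
    · have : 0 ≤ ∑ c ∈ ch G D x u, slope (Real.tanh β) (ms G β D x p c) ^ 2 *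
          Pf G β D x k c p := sum_nonneg fun c _ => mul_nonneg (sq_nonneg _) (ih c).1
      linarith
    · have : ∑ c ∈ ch G D x u, slope (Real.tanh β) (ms G β D x p c) ^ 2 *
          Pf G β D x k c p ≤ ∑ c ∈ ch G D x u, Real.tanh β ^ 2 * 3 ^ k := by
        apply sum_le_sum
        intro c _
        exact mul_le_mul (slope_sq_le h0.le h1 (abs_ms_le _ _ _ _)) (ih c).2 (ih c).1
          (sq_nonneg _)
      rw [sum_const, nsmul_eq_mul] at this
      have hcard : ((ch G D x u).card : ℝ) ≤ b + 1 := by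
        exact_mod_cast card_ch_root_le hC
      have h3 : ((ch G D x u).card : ℝ) * (Real.tanh β ^ 2 * 3 ^ k) ≤
          3 / 2 * 3 ^ k := by
        calc _ ≤ ((b : ℝ) + 1) * (Real.tanh β ^ 2 * 3 ^ k) := by gcongr
          _ = (((b : ℝ) + 1) * Real.tanh β ^ 2) * 3 ^ k := by ring
          _ ≤ _ := by gcongr
      have h4 : (1 : ℝ) ≤ 3 ^ k := one_le_pow₀ (by norm_num)
      rw [pow_succ]
      linarith

private lemma ch_congr (hC : Crit G b β) {D D' : Finset V} {x u : V} {h : ℕ} (hu : G.dist x u ≤ h)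
    (hD : bal G x (h + 1) ⊆ D) (hD' : bal G x (h + 1) ⊆ D') : ch G D x u = ch G D' x u := by
  ext c
  rw [mem_ch, mem_ch]
  constructor
  · rintro ⟨_, h2, h3⟩
    exact ⟨hD' ((mem_bal hC.tree.connected).mpr (by omega)), h2, h3⟩
  · rintro ⟨_, h2, h3⟩
    exact ⟨hD ((mem_bal hC.tree.connected).mpr (by omega)), h2, h3⟩

private lemma Pf_lip (hC : Crit G b β) {D D' : Finset V} {x : V} {h : ℕ}
    (hD : bal G x (h + 1) ⊆ D) (hD' : bal G x (h + 1) ⊆ D') (p p' : V → ℝ) (k : ℕ) (u : V)
    (hu : G.dist x u + k ≤ h) :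
    |Pf G β D x k u p - Pf G β D' x k u p'| ≤
      4 * 3 ^ k * ∑ e ∈ (bal G x h).erase x, |ms G β D x p e - ms G β D' x p' e| := by
  obtain ⟨h0, h1, h2, _⟩ := hC.th
  obtain ⟨S, hS⟩ : ∃ S, S = ∑ e ∈ (bal G x h).erase x, |ms G β D x p e - ms G β D' x p' e| :=
    ⟨_, rfl⟩
  have hS0 : 0 ≤ S := by rw [hS]; exact sum_nonneg fun _ _ => abs_nonneg _
  rw [← hS]
  induction k generalizing u with
  | zero => simp only [Pf, sub_self, abs_zero]; positivity
  | succ k ih =>
    rw [Pf, Pf, ch_congr hC (by omega) hD hD']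
    have hsub : ch G D' x u ⊆ (bal G x h).erase x := by
      intro c hc
      rw [mem_ch] at hc
      rw [mem_erase, mem_bal hC.tree.connected]
      refine ⟨?_, by omega⟩
      rintro rfl
      rw [SimpleGraph.dist_self] at hc
      omega
    have e1 : (1 + ∑ c ∈ ch G D' x u, slope (Real.tanh β) (ms G β D x p c) ^ 2 *
        Pf G β D x k c p) - (1 + ∑ c ∈ ch G D' x u,
          slope (Real.tanh β) (ms G β D' x p' c) ^ 2 * Pf G β D' x k c p') =
        ∑ c ∈ ch G D' x u, ((slope (Real.tanh β) (ms G β D x p c) ^ 2 -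
          slope (Real.tanh β) (ms G β D' x p' c) ^ 2) * Pf G β D x k c p +
          slope (Real.tanh β) (ms G β D' x p' c) ^ 2 *
            (Pf G β D x k c p - Pf G β D' x k c p')) := by
      rw [add_sub_add_left_eq_sub, ← sum_sub_distrib]
      exact sum_congr rfl fun c _ => by ring
    rw [e1]
    refine (abs_sum_le_sum_abs _ _).trans ?_
    have hterm : ∀ c ∈ ch G D' x u, |(slope (Real.tanh β) (ms G β D x p c) ^ 2 -
          slope (Real.tanh β) (ms G β D' x p' c) ^ 2) * Pf G β D x k c p +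
          slope (Real.tanh β) (ms G β D' x p' c) ^ 2 *
            (Pf G β D x k c p - Pf G β D' x k c p')| ≤
        4 * 3 ^ k * |ms G β D x p c - ms G β D' x p' c| +
          Real.tanh β ^ 2 * (4 * 3 ^ k * S) := by
      intro c hc
      refine (abs_add_le _ _).trans ?_
      rw [abs_mul, abs_mul, abs_of_nonneg (Pf_bound hC D x k c p).1,
        abs_of_nonneg (sq_nonneg (slope (Real.tanh β) (ms G β D' x p' c)))]
      have hdc : G.dist x c + k ≤ h := by
        rw [mem_ch] at hc; omega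
      have t1 : |slope (Real.tanh β) (ms G β D x p c) ^ 2 -
          slope (Real.tanh β) (ms G β D' x p' c) ^ 2| ≤
          4 * |ms G β D x p c - ms G β D' x p' c| := by
        refine (slope_sq_lip h0.le h1 (abs_ms_le _ _ _ _) (abs_ms_le _ _ _ _)).trans ?_
        nlinarith [abs_nonneg (ms G β D x p c - ms G β D' x p' c)]
      have t2 := (Pf_bound hC D x k c p).2
      have t3 := (Pf_bound hC D x k c p).1
      have t4 := slope_sq_le h0.le h1 (abs_ms_le (G := G) (β := β) D' x p' c)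
      have t5 := ih c hdc
      have t6 : |slope (Real.tanh β) (ms G β D x p c) ^ 2 -
          slope (Real.tanh β) (ms G β D' x p' c) ^ 2| * Pf G β D x k c p ≤
          (4 * |ms G β D x p c - ms G β D' x p' c|) * 3 ^ k := by
        apply mul_le_mul t1 t2 t3 (by positivity)
      have t7 : slope (Real.tanh β) (ms G β D' x p' c) ^ 2 *
          |Pf G β D x k c p - Pf G β D' x k c p'| ≤ Real.tanh β ^ 2 * (4 * 3 ^ k * S) :=
        mul_le_mul t4 t5 (abs_nonneg _) (sq_nonneg _)
      linarith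
    refine (sum_le_sum hterm).trans ?_
    rw [sum_add_distrib, ← mul_sum, sum_const, nsmul_eq_mul]
    have hcard : ((ch G D' x u).card : ℝ) ≤ b + 1 := by
      exact_mod_cast card_ch_root_le hC
    have h3 : ((ch G D' x u).card : ℝ) * (Real.tanh β ^ 2 * (4 * 3 ^ k * S)) ≤
        3 / 2 * (4 * 3 ^ k * S) := by
      calc _ ≤ ((b : ℝ) + 1) * (Real.tanh β ^ 2 * (4 * 3 ^ k * S)) := by gcongr
        _ = (((b : ℝ) + 1) * Real.tanh β ^ 2) * (4 * 3 ^ k * S) := by ring
        _ ≤ _ := by gcongr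
    have h4 : ∑ c ∈ ch G D' x u, |ms G β D x p c - ms G β D' x p' c| ≤ S := by
      rw [hS]
      exact sum_le_sum_of_subset_of_nonneg hsub fun _ _ _ => abs_nonneg _
    have h5 : 4 * 3 ^ k * ∑ c ∈ ch G D' x u, |ms G β D x p c - ms G β D' x p' c| ≤
        4 * 3 ^ k * S := by gcongr
    have h6 : 0 ≤ 4 * 3 ^ k * S := by positivity
    have h7 : 4 * (3 : ℝ) ^ (k + 1) * S = 3 * (4 * 3 ^ k * S) := by ring
    rw [h7]
    linarith

omit [DecidableRel G.Adj] in
private lemma pth_subset (hC : Crit G b β) {D : Finset V} {x i u : V} {h : ℕ} (hu : G.dist x u ≤ h)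
    (hi : G.dist x i + G.dist i u = G.dist x u) : pth G D i u ⊆ (bal G x h).erase x := by
  intro k hk
  unfold pth at hk
  rw [mem_filter] at hk
  rw [mem_erase, mem_bal hC.tree.connected]
  have t := hC.tree.connected.dist_triangle (u := x) (v := i) (w := k)
  refine ⟨?_, by omega⟩
  rintro rfl
  have c1 := G.dist_comm (u := k) (v := i)
  apply hk.2.1
  have : G.dist k i = 0 := by omega
  exact (hC.tree.connected.dist_eq_zero_iff).mp this

omit [DecidableRel G.Adj] in
private lemma pth_congr (hC : Crit G b β) {D D' : Finset V} {x i u : V} {h : ℕ}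
    (hu : G.dist x u ≤ h) (hi : G.dist x i + G.dist i u = G.dist x u)
    (hD : bal G x (h + 1) ⊆ D) (hD' : bal G x (h + 1) ⊆ D') : pth G D i u = pth G D' i u := by
  have hsub : ∀ k, k ∈ (bal G x h).erase x → k ∈ bal G x (h + 1) := by
    intro k hk
    rw [mem_erase, mem_bal hC.tree.connected] at hk
    rw [mem_bal hC.tree.connected]
    omega
  ext k
  constructor
  · intro hk
    have h1 := hD' (hsub k (pth_subset hC hu hi hk))
    unfold pth at hk ⊢
    rw [mem_filter] at hk ⊢
    exact ⟨h1, hk.2⟩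
  · intro hk
    have h1 := hD (hsub k (pth_subset hC hu hi hk))
    unfold pth at hk ⊢
    rw [mem_filter] at hk ⊢
    exact ⟨h1, hk.2⟩

private lemma Wt_bound (hC : Crit G b β) (D : Finset V) (x i u : V) (p : V → ℝ) :
    0 ≤ Wt G β D x i u p ∧ Wt G β D x i u p ≤ 1 := by
  obtain ⟨h0, h1, h2, _⟩ := hC.th
  unfold Wt
  exact ⟨prod_nonneg fun _ _ => sq_nonneg _,
    prod_le_one (fun _ _ => sq_nonneg _) fun _ _ => slope_div_le h0 h1 (abs_ms_le _ _ _ _)⟩

private lemma Wt_lip (hC : Crit G b β) {D D' : Finset V} {x : V} {h : ℕ}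
    (hD : bal G x (h + 1) ⊆ D) (hD' : bal G x (h + 1) ⊆ D') (p p' : V → ℝ) {i u : V}
    (hu : G.dist x u ≤ h) (hi : G.dist x i + G.dist i u = G.dist x u) :
    |Wt G β D x i u p - Wt G β D' x i u p'| ≤
      8 * ∑ e ∈ (bal G x h).erase x, |ms G β D x p e - ms G β D' x p' e| := by
  obtain ⟨h0, h1, h2, _⟩ := hC.th
  unfold Wt
  rw [pth_congr hC hu hi hD hD']
  refine (abs_prod_sub_le _ _ _ (fun _ => sq_nonneg _)
    (fun _ => slope_div_le h0 h1 (abs_ms_le _ _ _ _)) (fun _ => sq_nonneg _)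
    (fun _ => slope_div_le h0 h1 (abs_ms_le _ _ _ _))).trans ?_
  rw [mul_sum]
  refine (sum_le_sum fun k _ => slope_div_lip h0 h1 (abs_ms_le _ _ _ _)
    (abs_ms_le _ _ _ _)).trans ?_
  exact sum_le_sum_of_subset_of_nonneg (pth_subset hC hu hi) fun _ _ _ => by positivity

/-- Local functionals are Lipschitz in the messages, uniformly in `x` (the number of vertices of
`bal x h` is bounded by regularity, `card_sph_le`).  `i` is on the geodesic from `x` to `u`. -/
lemma W_P_lip (hC : Crit G b β) (h : ℕ) : ∃ C : ℝ, 0 ≤ C ∧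
    ∀ (x : V) (D D' : Finset V), Cvx G D → Cvx G D' → bal G x (h + 1) ⊆ D → bal G x (h + 1) ⊆ D' →
    ∀ i ∈ bal G x h, ∀ u ∈ bal G x h, ∀ k ≤ h, G.dist x u + k ≤ h →
      G.dist x i + G.dist i u = G.dist x u →
    ∀ p p' : V → ℝ,
      |Wt G β D x i u p * Pf G β D x k u p - Wt G β D' x i u p' * Pf G β D' x k u p'| ≤
        C * ∑ e ∈ (bal G x h).erase x, |ms G β D x p e - ms G β D' x p' e| ∧
      |Wt G β D x i u p - Wt G β D' x i u p'| ≤
        C * ∑ e ∈ (bal G x h).erase x, |ms G β D x p e - ms G β D' x p' e| := by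
  refine ⟨12 * 3 ^ h, by positivity, ?_⟩
  intro x D D' _ _ hD hD' i hi u hu k hk hku hxi p p'
  obtain ⟨S, hS⟩ : ∃ S, S = ∑ e ∈ (bal G x h).erase x, |ms G β D x p e - ms G β D' x p' e| :=
    ⟨_, rfl⟩
  have hS0 : 0 ≤ S := by rw [hS]; exact sum_nonneg fun _ _ => abs_nonneg _
  have hux : G.dist x u ≤ h := (mem_bal hC.tree.connected).mp hu
  have t1 := Wt_lip hC hD hD' p p' hux hxi
  have t2 := Pf_lip hC hD hD' p p' k u hku
  rw [← hS] at t1 t2 ⊢
  obtain ⟨w0, w1⟩ := Wt_bound hC D' x i u p'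
  obtain ⟨q0, q1⟩ := Pf_bound hC D x k u p
  have h3 : (3 : ℝ) ^ k ≤ 3 ^ h := pow_le_pow_right₀ (by norm_num) hk
  have h3' : (1 : ℝ) ≤ 3 ^ h := one_le_pow₀ (by norm_num)
  constructor
  · have e : Wt G β D x i u p * Pf G β D x k u p - Wt G β D' x i u p' * Pf G β D' x k u p' =
        (Wt G β D x i u p - Wt G β D' x i u p') * Pf G β D x k u p +
          Wt G β D' x i u p' * (Pf G β D x k u p - Pf G β D' x k u p') := by ring
    rw [e]
    refine (abs_add_le _ _).trans ?_
    rw [abs_mul, abs_mul, abs_of_nonneg w0, abs_of_nonneg q0]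
    have t3 : |Wt G β D x i u p - Wt G β D' x i u p'| * Pf G β D x k u p ≤ (8 * S) * 3 ^ h :=
      mul_le_mul t1 (q1.trans h3) q0 (by positivity)
    have t4 : Wt G β D' x i u p' * |Pf G β D x k u p - Pf G β D' x k u p'| ≤
        1 * (4 * 3 ^ k * S) := mul_le_mul w1 t2 (abs_nonneg _) zero_le_one
    have t5 : 4 * 3 ^ k * S ≤ 4 * 3 ^ h * S := by gcongr
    linarith
  · refine t1.trans ?_
    have : 1 * S ≤ 3 ^ h * S := by gcongr
    nlinarith


/-! ### The mismatch -/


private lemma measurable_slope' (θ : ℝ) : Measurable (P161.slope θ) := by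
  unfold P161.slope
  exact (measurable_const.mul (measurable_const.sub (measurable_id.pow_const 2))).div
    (measurable_const.sub (measurable_const.mul (measurable_id.pow_const 2)))

omit [G.LocallyFinite] in
private lemma measurable_ms' (D : Finset V) (x i : V) :
    Measurable (fun p => ms G β D x p i) := measurable_mg _ _

omit [G.LocallyFinite] in
private lemma ms_congr' {D : Finset V} {x : V} {p q : V → ℝ} (h : ∀ v ∈ D, p v = q v) (i : V) :
    ms G β D x p i = ms G β D x q i :=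
  mg_congr (fun v hv => h v (br_subset D x i hv)) i

private lemma measurable_Pf' (D : Finset V) (x : V) (k : ℕ) (u : V) :
    Measurable (fun p => Pf G β D x k u p) := by
  induction k generalizing u with
  | zero => simp only [Pf]; exact measurable_const
  | succ k ih =>
    simp only [Pf]
    refine measurable_const.add (Finset.measurable_sum _ fun c _ => ?_)
    exact (((measurable_slope' _).comp (measurable_ms' D x c)).pow_const 2).mul (ih c)

private lemma Pf_congr' {D : Finset V} {x : V} {p q : V → ℝ} (h : ∀ v ∈ D, p v = q v) (k : ℕ)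
    (u : V) : Pf G β D x k u p = Pf G β D x k u q := by
  induction k generalizing u with
  | zero => rfl
  | succ k ih =>
    simp only [Pf, ms_congr' h, ih]

private lemma measurable_Wt' (D : Finset V) (x i u : V) :
    Measurable (fun p => Wt G β D x i u p) := by
  unfold Wt
  refine Finset.measurable_prod _ fun k _ => ?_
  exact (((measurable_slope' _).comp (measurable_ms' D x k)).div_const _).pow_const 2

private lemma Wt_congr' {D : Finset V} {x : V} {p q : V → ℝ} (h : ∀ v ∈ D, p v = q v)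
    (i u : V) : Wt G β D x i u p = Wt G β D x i u q := by
  unfold Wt
  simp only [ms_congr' h]

private lemma fn_Wt (hC : Crit G b β) (D : Finset V) (x i u : V) :
    Fn D (fun p => Wt G β D x i u p) := by
  refine ⟨measurable_Wt' D x i u, ⟨1, fun p => ?_⟩, fun p q h => Wt_congr' h i u⟩
  rw [abs_of_nonneg (Wt_bound hC D x i u p).1]
  exact (Wt_bound hC D x i u p).2

private lemma fn_WP (hC : Crit G b β) (D : Finset V) (x i u : V) (k : ℕ) :
    Fn D (fun p => Wt G β D x i u p * Pf G β D x k u p) := by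
  refine ⟨(measurable_Wt' D x i u).mul (measurable_Pf' D x k u), ⟨1 * 3 ^ k, fun p => ?_⟩,
    fun p q h => by simp only [Wt_congr' h i u, Pf_congr' h k u]⟩
  have h1 := Wt_bound hC D x i u p
  have h2 := Pf_bound hC D x k u p
  rw [abs_of_nonneg (mul_nonneg h1.1 h2.1)]
  exact mul_le_mul h1.2 h2.2 h2.1 zero_le_one

omit [G.LocallyFinite] in
private lemma mom_eq_integral {ν : V → Measure ℝ} (S : Finset V) (y : V) :
    mom G β ν S y 1 = ∫ x, x ^ 2 ∂((PL G β ν S).map (fun p => mg G β S p y)) := by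
  have hm : Measurable (fun x : ℝ => x ^ 2) := measurable_id.pow_const 2
  rw [integral_map (measurable_mg S y).aemeasurable hm.aestronglyMeasurable]
  rfl

private lemma mom_tbr (hC : Crit G b β) {ν : Measure ℝ} (hν : IsOwn ν) {v c : V}
    (hvc : G.Adj v c) (m : ℕ) :
    mom G β (fun _ => ν) (tbr G v c m) c 1 = ∫ y, y ^ 2 ∂lam b (Real.tanh β) ν m := by
  rw [mom_eq_integral, map_mg_tbr hC hν hvc]

private lemma mom_le_one {ν : V → Measure ℝ} (hν : ∀ v, IsOwn (ν v)) (S : Finset V) (y : V) :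
    mom G β ν S y 1 ≤ 1 := by
  have hP := isProb_PL (G := G) (β := β) hν S
  have h := norm_integral_le_of_norm_le_const (μ := PL G β ν S)
    (f := fun p => mg G β S p y ^ (2 * 1)) (C := 1) (Eventually.of_forall fun p => by
      rw [Real.norm_eq_abs, abs_pow]
      exact pow_le_one₀ (abs_nonneg _) (abs_mg_le S p y))
  rw [probReal_univ, one_mul] at h
  exact (le_abs_self _).trans h

omit [G.LocallyFinite] in
private lemma mom_nonneg' {ν : V → Measure ℝ} (S : Finset V) (y : V) :
    0 ≤ mom G β ν S y 1 := by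
  unfold mom EE
  exact integral_nonneg fun p => by
    simp only [Pi.zero_apply, mul_one]; exact sq_nonneg _

omit [G.LocallyFinite] in
private lemma mom_comb_le (hG : G.IsTree) {ν₀ γ : Measure ℝ} (hν₀ : IsOwn ν₀) (hγ : IsOwn γ)
    {S : Finset V} (hS : Cvx G S) {y : V} (hy : y ∈ S) :
    mom G β (fun _ => ν₀) S y 1 ≤ mom G β (fun _ => comb ν₀ γ) S y 1 := by
  obtain ⟨Q, p, p₀, _, _, _, h⟩ := two_layer (β := β) hG hν₀ hγ hS hS (Finset.Subset.refl S)
  have h1 := h S S hS hS (Finset.Subset.refl S) (Finset.Subset.refl S) (Finset.Subset.refl S) y hy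
  have h2 : 0 ≤ ∫ ω, (mg G β S (p ω) y - mg G β S (p₀ ω) y) ^ 2 ∂Q :=
    integral_nonneg fun ω => sq_nonneg _
  linarith

private lemma mom_nuS_le (hG : G.IsTree) {n n' : ℕ} (hn : n ≤ n') {j : ℤ} (hj : -(n : ℤ) ≤ j)
    {l : ℝ} (h0 : 0 ≤ l) (h1 : l ≤ 1) {S : Finset V} (hS : Cvx G S) {y : V} (hy : y ∈ S) :
    mom G β (fun _ => nuS n j l) S y 1 ≤ mom G β (fun _ => nuS n' j l) S y 1 := by
  obtain ⟨γ, hγ, e⟩ := nuS_eq_comb hn hj h0 h1
  rw [e]
  exact mom_comb_le hG (isOwn_nuS n j h0 h1) hγ hS hy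

/-- Second moment of the message of the branch of depth `m`. -/
private noncomputable def chi (b : ℕ) (θ : ℝ) (j : ℤ) (m n : ℕ) (l : ℝ) : ℝ :=
  (Set.Icc (0 : ℝ) (1 / 2)).indicator
    (fun l => ∫ y, y ^ 2 ∂lam b θ (nuS (n + j.natAbs + 2) j l) m) l

private lemma chi_eq_mom (hC : Crit G b β) {j : ℤ} {l : ℝ} (h0 : 0 ≤ l) (h1 : l ≤ 1 / 2)
    {v c : V} (hvc : G.Adj v c) (m n : ℕ) :
    chi b (Real.tanh β) j m n l =
      mom G β (fun _ => nuS (n + j.natAbs + 2) j l) (tbr G v c m) c 1 := by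
  unfold chi
  have hl : l ∈ Set.Icc (0 : ℝ) (1 / 2) := ⟨h0, h1⟩
  rw [Set.indicator_of_mem hl, mom_tbr hC (isOwn_nuS _ j h0 (by linarith)) hvc]

private lemma measurable_chi' {b : ℕ} {θ : ℝ} (h0 : 0 ≤ θ) (h1 : θ < 1) (j : ℤ) (m n : ℕ) :
    Measurable (chi b θ j m n) := by
  have := measurable_chi (b := b) (n + j.natAbs + 2) j θ h0 h1 m
  exact this

omit [DecidableEq V] [DecidableRel G.Adj] in
private lemma exists_adj (hC : Crit G b β) : ∃ v c : V, G.Adj v c := by
  obtain ⟨v⟩ := hC.tree.connected.nonempty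
  have h := hC.reg v
  rw [← SimpleGraph.card_neighborFinset_eq_degree] at h
  have : (G.neighborFinset v).Nonempty := by
    rw [← Finset.card_pos, h]; omega
  obtain ⟨c, hc⟩ := this
  exact ⟨v, c, (G.mem_neighborFinset _ _).mp hc⟩

private lemma chi_nonneg (b : ℕ) (θ : ℝ) (j : ℤ) (m n : ℕ) (l : ℝ) : 0 ≤ chi b θ j m n l := by
  unfold chi
  apply Set.indicator_nonneg
  intro l _
  exact integral_nonneg fun y => sq_nonneg y

private lemma chi_le_one (hC : Crit G b β) (j : ℤ) (m n : ℕ) (l : ℝ) :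
    chi b (Real.tanh β) j m n l ≤ 1 := by
  obtain ⟨v, c, hvc⟩ := exists_adj hC
  by_cases hl : l ∈ Set.Icc (0 : ℝ) (1 / 2)
  · rw [chi_eq_mom hC hl.1 hl.2 hvc]
    exact mom_le_one (fun _ => isOwn_nuS _ j hl.1 (by linarith [hl.2])) _ _
  · unfold chi
    rw [Set.indicator_of_notMem hl]
    exact zero_le_one

private lemma chi_mono (hC : Crit G b β) (j : ℤ) {m m' n n' : ℕ} (hm : m ≤ m') (hn : n ≤ n')
    {l : ℝ} (h0 : 0 ≤ l) (h1 : l ≤ 1 / 2) :
    chi b (Real.tanh β) j m n l ≤ chi b (Real.tanh β) j m' n' l := by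
  obtain ⟨v, c, hvc⟩ := exists_adj hC
  rw [chi_eq_mom hC h0 h1 hvc, chi_eq_mom hC h0 h1 hvc]
  refine (mom_nuS_le hC.tree (n' := n' + j.natAbs + 2) (by omega) (by omega) h0 (by linarith)
    (cvx_tbr hC.tree hvc m) (mem_tbr_self hC.tree hvc m)).trans ?_
  exact mom_one_mono hC.tree (fun _ => isOwn_nuS _ j h0 (by linarith)) (cvx_tbr hC.tree hvc m')
    (cvx_tbr hC.tree hvc m) (tbr_mono hC.tree v c hm) (mem_tbr_self hC.tree hvc m)

/-- Supremum of the second moments. -/
private noncomputable def chiInf (b : ℕ) (θ : ℝ) (j : ℤ) (l : ℝ) : ℝ :=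
  ⨆ q : ℕ × ℕ, chi b θ j q.1 q.2 l

private lemma bdd_chi (hC : Crit G b β) (j : ℤ) (l : ℝ) :
    BddAbove (Set.range fun q : ℕ × ℕ => chi b (Real.tanh β) j q.1 q.2 l) := by
  refine ⟨1, ?_⟩
  rintro _ ⟨q, rfl⟩
  exact chi_le_one hC j q.1 q.2 l

private lemma chi_le_inf (hC : Crit G b β) (j : ℤ) (m n : ℕ) (l : ℝ) :
    chi b (Real.tanh β) j m n l ≤ chiInf b (Real.tanh β) j l :=
  le_ciSup (bdd_chi hC j l) (m, n)

private lemma chiInf_le_one (hC : Crit G b β) (j : ℤ) (l : ℝ) :
    chiInf b (Real.tanh β) j l ≤ 1 := ciSup_le fun q => chi_le_one hC j q.1 q.2 l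

private lemma tendsto_chi (hC : Crit G b β) (j : ℤ) (h : ℕ) {l : ℝ} (h0 : 0 ≤ l)
    (h1 : l ≤ 1 / 2) : Tendsto (fun R : ℕ => chi b (Real.tanh β) j (R - h) R l) atTop
      (𝓝 (chiInf b (Real.tanh β) j l)) := by
  rw [tendsto_order]
  constructor
  · intro a ha
    obtain ⟨q, hq⟩ := exists_lt_of_lt_ciSup ha
    filter_upwards [eventually_ge_atTop (q.1 + h + q.2)] with R hR
    exact hq.trans_le (chi_mono hC j (by omega) (by omega) h0 h1)
  · intro a ha
    exact Eventually.of_forall fun R => (chi_le_inf hC j _ _ l).trans_lt ha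

private lemma integral_abs_le_sqrt {Ω : Type*} [MeasurableSpace Ω] {P : Measure Ω}
    [IsProbabilityMeasure P] {f : Ω → ℝ} (hf : Measurable f) {C : ℝ} (hC : ∀ ω, |f ω| ≤ C) :
    ∫ ω, |f ω| ∂P ≤ √(∫ ω, f ω ^ 2 ∂P) := by
  have hm : MemLp (fun ω => |f ω|) 2 P :=
    MemLp.of_bound hf.abs.aestronglyMeasurable C
      (Eventually.of_forall fun ω => by rw [Real.norm_eq_abs, abs_abs]; exact hC ω)
  have h := ProbabilityTheory.variance_eq_sub hm
  have h2 := ProbabilityTheory.variance_nonneg (fun ω => |f ω|) P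
  have h3 : ∫ ω, ((fun ω => |f ω|) ^ 2) ω ∂P = ∫ ω, f ω ^ 2 ∂P := by
    congr 1
    funext ω
    simp [Pi.pow_apply, sq_abs]
  rw [h3] at h
  exact Real.le_sqrt_of_sq_le (by linarith)

/-- Comparison with the reference volume. -/
private lemma ref_close (hC : Crit G b β) (j : ℤ) {h R : ℕ} (hR : h + 2 ≤ R) {l : ℝ}
    (h0 : 0 ≤ l) (h1 : l ≤ 1 / 2) {x o : V} {r n : ℕ} (hb : bal G x R ⊆ bal G o r)
    (hn : R + j.natAbs + 2 ≤ n) {C : ℝ} (hC0 : 0 ≤ C) (Φ : Finset V → (V → ℝ) → ℝ)
    (hΦ : ∀ D, Fn D (Φ D))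
    (hL : ∀ p p' : V → ℝ, |Φ (bal G o r) p - Φ (bal G x R) p'| ≤
      C * ∑ e ∈ (bal G x h).erase x, |ms G β (bal G o r) x p e - ms G β (bal G x R) x p' e|) :
    |EE G β (fun _ => nuS n j l) (bal G o r) (Φ (bal G o r)) -
      EE G β (fun _ => nuS (R + j.natAbs + 2) j l) (bal G x R) (Φ (bal G x R))| ≤
      C * (((bal G x h).erase x).card *
        √(chiInf b (Real.tanh β) j l - chi b (Real.tanh β) j (R - h) R l)) := by
  have hG := hC.tree
  obtain ⟨γ, hγ, e⟩ := nuS_eq_comb hn (j := j) (by omega) h0 (by linarith : l ≤ 1)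
  have hown : ∀ n, IsOwn (nuS n j l) := fun n => isOwn_nuS n j h0 (by linarith)
  obtain ⟨Q, p, p₀, hQ, hp, hp₀, hmart⟩ := two_layer (β := β) hG (hown (R + j.natAbs + 2)) hγ
    (cvx_bal hG o r) (cvx_bal hG x R) hb
  rw [e, ← hp.2 _ (hΦ _), ← hp₀.2 _ (hΦ _)]
  obtain ⟨C₁, hC₁⟩ := (hΦ (bal G o r)).bdd
  obtain ⟨C₂, hC₂⟩ := (hΦ (bal G x R)).bdd
  have hi1 : Integrable (fun ω => Φ (bal G o r) (p ω)) Q :=
    Integrable.of_bound ((hΦ _).meas.comp hp.1).aestronglyMeasurable C₁
      (Eventually.of_forall fun ω => by rw [Real.norm_eq_abs]; exact hC₁ _)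
  have hi2 : Integrable (fun ω => Φ (bal G x R) (p₀ ω)) Q :=
    Integrable.of_bound ((hΦ _).meas.comp hp₀.1).aestronglyMeasurable C₂
      (Eventually.of_forall fun ω => by rw [Real.norm_eq_abs]; exact hC₂ _)
  rw [← integral_sub hi1 hi2]
  have hmm : ∀ k, Measurable fun ω =>
      ms G β (bal G o r) x (p ω) k - ms G β (bal G x R) x (p₀ ω) k := fun k =>
    ((measurable_ms' _ x k).comp hp.1).sub ((measurable_ms' _ x k).comp hp₀.1)
  have hmb : ∀ k ω, |ms G β (bal G o r) x (p ω) k - ms G β (bal G x R) x (p₀ ω) k| ≤ 2 := by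
    intro k ω
    refine (abs_sub _ _).trans ?_
    have := abs_mg_le (G := G) (β := β) (br G (bal G o r) x k) (p ω) k
    have := abs_mg_le (G := G) (β := β) (br G (bal G x R) x k) (p₀ ω) k
    unfold ms
    linarith
  have hint : ∀ k, Integrable (fun ω =>
      |ms G β (bal G o r) x (p ω) k - ms G β (bal G x R) x (p₀ ω) k|) Q := fun k =>
    Integrable.of_bound (hmm k).abs.aestronglyMeasurable 2
      (Eventually.of_forall fun ω => by rw [Real.norm_eq_abs, abs_abs]; exact hmb k ω)
  have s1 : |∫ ω, (Φ (bal G o r) (p ω) - Φ (bal G x R) (p₀ ω)) ∂Q| ≤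
      ∫ ω, C * ∑ e ∈ (bal G x h).erase x,
        |ms G β (bal G o r) x (p ω) e - ms G β (bal G x R) x (p₀ ω) e| ∂Q := by
    refine (abs_integral_le_integral_abs).trans ?_
    apply integral_mono_of_nonneg (Eventually.of_forall fun ω => abs_nonneg _)
    · exact (integrable_finsetSum _ fun k _ => hint k).const_mul C
    · exact Eventually.of_forall fun ω => hL (p ω) (p₀ ω)
  refine s1.trans ?_
  rw [integral_const_mul, integral_finsetSum _ fun k _ => hint k]
  apply mul_le_mul_of_nonneg_left _ hC0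
  rw [← nsmul_eq_mul]
  apply Finset.sum_le_card_nsmul
  intro k hk
  rw [mem_erase, mem_bal hG.connected] at hk
  refine (integral_abs_le_sqrt (hmm k) (hmb k)).trans ?_
  apply Real.sqrt_le_sqrt
  -- geometry
  obtain ⟨w, hw1, hw2⟩ := exists_closer hG hk.1
  have hbr : ∀ D : Finset V, br G D x k = side G D k w := fun D => br_eq_side' hG hw1 hw2
  have hkR : k ∈ bal G x R := (mem_bal hG.connected).mpr (by omega)
  have hsub : br G (bal G x R) x k ⊆ br G (bal G o r) x k := by
    intro u hu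
    rw [mem_br] at hu ⊢
    exact ⟨hb hu.1, hu.2⟩
  have hm := hmart (br G (bal G o r) x k) (br G (bal G x R) x k) (cvx_br hG (cvx_bal hG o r) x k)
    (cvx_br hG (cvx_bal hG x R) x k) hsub (br_subset _ _ _) (br_subset _ _ _) k
    (mem_br_self hkR)
  unfold ms
  rw [hm, ← e]
  have hA : mom G β (fun _ => nuS n j l) (br G (bal G o r) x k) k 1 ≤
      chiInf b (Real.tanh β) j l := by
    obtain ⟨M, hM⟩ : ∃ M, ∀ u ∈ bal G o r, G.dist k u ≤ M :=
      ⟨(bal G o r).sup (fun u => G.dist k u), fun u hu =>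
        Finset.le_sup (f := fun u => G.dist k u) hu⟩
    have hs : br G (bal G o r) x k ⊆ tbr G w k M := by
      intro u hu
      rw [hbr, mem_side] at hu
      rw [mem_tbr hG, G.dist_comm (u := w)]
      refine ⟨hM u hu.1, ?_⟩
      rw [G.dist_comm (u := k)]
      exact hu.2
    refine (mom_one_mono hG (fun _ => hown n) (cvx_tbr hG hw1 M)
      (cvx_br hG (cvx_bal hG o r) x k) hs (mem_br_self (hb hkR))).trans ?_
    have e3 : n = (n - j.natAbs - 2) + j.natAbs + 2 := by omega
    have := chi_eq_mom hC h0 h1 (j := j) hw1 M (n - j.natAbs - 2)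
    rw [← e3] at this
    rw [← this]
    exact chi_le_inf hC j _ _ l
  have hB : chi b (Real.tanh β) j (R - h) R l ≤
      mom G β (fun _ => nuS (R + j.natAbs + 2) j l) (br G (bal G x R) x k) k 1 := by
    rw [chi_eq_mom hC h0 h1 hw1]
    refine mom_one_mono hG (fun _ => hown _) (cvx_br hG (cvx_bal hG x R) x k)
      (cvx_tbr hG hw1 _) ?_ (mem_tbr_self hG hw1 _)
    intro u hu
    rw [mem_tbr hG] at hu
    rw [hbr, mem_side, mem_bal hG.connected]
    have t := hG.connected.dist_triangle (u := x) (v := k) (w := u)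
    refine ⟨by omega, ?_⟩
    rw [G.dist_comm (u := u), G.dist_comm (u := u)]
    exact hu.2
  linarith

omit [DecidableRel G.Adj] in
private lemma card_bal_le' (hC : Crit G b β) (h : ℕ) : ∃ N : ℝ, 0 ≤ N ∧ ∀ x : V,
    (((bal G x h).erase x).card : ℝ) ≤ N := by
  refine ⟨∑ k ∈ range (h + 1), 2 * ((((b + 1 : ℕ) : ℝ)) - 1) ^ k, ?_, ?_⟩
  · apply sum_nonneg
    intro k _
    have : (0 : ℝ) ≤ ((b + 1 : ℕ) : ℝ) - 1 := by push_cast; linarith [Nat.cast_nonneg (α := ℝ) b]
    positivity
  · intro x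
    have h1 : (((bal G x h).erase x).card : ℝ) ≤ (bal G x h).card := by
      exact_mod_cast Finset.card_erase_le
    have h2 : ((bal G x h).card : ℝ) ≤ ∑ k ∈ range (h + 1), ((sph G x k).card : ℝ) := by
      unfold bal
      exact_mod_cast Finset.card_biUnion_le
    refine h1.trans (h2.trans (sum_le_sum fun k _ => ?_))
    exact card_sph_le hC.tree.connected (by have := hC.hb; omega) hC.reg x k

/-- (11) the mismatch tends to zero, uniformly in `x` and in the volumes.  Reference: volume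
`bal x R`, start `-(R + |j| + 2)`. -/
theorem mismatch (hC : Crit G b β) (j : ℤ) (h : ℕ) : ∃ ε : ℕ → ℝ → ℝ,
    (∀ R, Measurable (ε R)) ∧ (∃ C : ℝ, ∀ R l, 0 ≤ ε R l ∧ ε R l ≤ C) ∧
    (∀ l, 0 ≤ l → l ≤ 1 / 2 → Tendsto (fun R => ε R l) atTop (𝓝 0)) ∧
    ∀ (R : ℕ), h + 2 ≤ R → ∀ l : ℝ, 0 ≤ l → l ≤ 1 / 2 →
    ∀ (x o o' : V) (r r' n n' : ℕ), bal G x R ⊆ bal G o r → bal G x R ⊆ bal G o' r' →
      R + j.natAbs + 2 ≤ n → R + j.natAbs + 2 ≤ n' →
    ∀ i ∈ bal G x h, ∀ u ∈ bal G x h, ∀ k ≤ h, G.dist x u + k ≤ h →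
      G.dist x i + G.dist i u = G.dist x u →
      |EE G β (fun _ => nuS n j l) (bal G o r)
          (fun p => Wt G β (bal G o r) x i u p * Pf G β (bal G o r) x k u p) -
        EE G β (fun _ => nuS n' j l) (bal G o' r')
          (fun p => Wt G β (bal G o' r') x i u p * Pf G β (bal G o' r') x k u p)| ≤ ε R l ∧
      |EE G β (fun _ => nuS n j l) (bal G o r) (fun p => Wt G β (bal G o r) x i u p) -
        EE G β (fun _ => nuS n' j l) (bal G o' r')
          (fun p => Wt G β (bal G o' r') x i u p)| ≤ ε R l := by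
  obtain ⟨C, hC0, hL⟩ := W_P_lip hC h
  obtain ⟨N, hN0, hN⟩ := card_bal_le' hC h
  obtain ⟨t0, t1, t2, t3⟩ := Crit.th hC
  refine ⟨fun R l => 2 * (C * (N *
    √(chiInf b (Real.tanh β) j l - chi b (Real.tanh β) j (R - h) R l))), ?_, ?_, ?_, ?_⟩
  · intro R
    have hm : Measurable (chiInf b (Real.tanh β) j) := by
      unfold chiInf
      exact Measurable.iSup fun q => measurable_chi' t0.le t3 j q.1 q.2
    exact ((((hm.sub (measurable_chi' t0.le t3 j (R - h) R)).sqrt).const_mul N).const_mul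
      C).const_mul 2
  · refine ⟨2 * (C * (N * 1)), fun R l => ⟨by positivity, ?_⟩⟩
    have : √(chiInf b (Real.tanh β) j l - chi b (Real.tanh β) j (R - h) R l) ≤ 1 := by
      rw [Real.sqrt_le_one]
      linarith [chiInf_le_one hC j l, chi_nonneg b (Real.tanh β) j (R - h) R l]
    have h1 : N * √(chiInf b (Real.tanh β) j l - chi b (Real.tanh β) j (R - h) R l) ≤ N * 1 :=
      mul_le_mul_of_nonneg_left this hN0
    have h2 := mul_le_mul_of_nonneg_left h1 hC0
    linarith
  · intro l h0 h1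
    have ht := tendsto_chi hC j h h0 h1
    have h2 : Tendsto (fun R : ℕ => 2 * (C * (N * √(chiInf b (Real.tanh β) j l -
        chi b (Real.tanh β) j (R - h) R l)))) atTop
        (𝓝 (2 * (C * (N * √(chiInf b (Real.tanh β) j l - chiInf b (Real.tanh β) j l))))) :=
      ((((tendsto_const_nhds.sub ht).sqrt).const_mul N).const_mul C).const_mul 2
    simpa using h2
  · intro R hR l h0 h1 x o o' r r' n n' hb hb' hn hn' i hi u hu k hk hku hxi
    have hG := hC.tree
    have hbx : bal G x (h + 1) ⊆ bal G x R := by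
      intro v hv
      rw [mem_bal hG.connected] at hv ⊢
      omega
    have hstep : ∀ (o : V) (r n : ℕ), bal G x R ⊆ bal G o r → R + j.natAbs + 2 ≤ n →
        |EE G β (fun _ => nuS n j l) (bal G o r)
          (fun p => Wt G β (bal G o r) x i u p * Pf G β (bal G o r) x k u p) -
        EE G β (fun _ => nuS (R + j.natAbs + 2) j l) (bal G x R)
          (fun p => Wt G β (bal G x R) x i u p * Pf G β (bal G x R) x k u p)| ≤
          C * (N * √(chiInf b (Real.tanh β) j l - chi b (Real.tanh β) j (R - h) R l)) ∧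
        |EE G β (fun _ => nuS n j l) (bal G o r)
          (fun p => Wt G β (bal G o r) x i u p) -
        EE G β (fun _ => nuS (R + j.natAbs + 2) j l) (bal G x R)
          (fun p => Wt G β (bal G x R) x i u p)| ≤
          C * (N * √(chiInf b (Real.tanh β) j l - chi b (Real.tanh β) j (R - h) R l)) := by
      intro o r n hb hn
      have hl := fun p p' => hL x (bal G o r) (bal G x R) (cvx_bal hG o r) (cvx_bal hG x R)
        (hbx.trans hb) hbx i hi u hu k hk hku hxi p p'
      constructor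
      · refine (ref_close hC j hR h0 h1 hb hn hC0
          (fun D p => Wt G β D x i u p * Pf G β D x k u p)
          (fun D => fn_WP hC D x i u k) (fun p p' => (hl p p').1)).trans ?_
        have := hN x
        gcongr
      · refine (ref_close hC j hR h0 h1 hb hn hC0 (fun D p => Wt G β D x i u p)
          (fun D => fn_Wt hC D x i u) (fun p p' => (hl p p').2)).trans ?_
        have := hN x
        gcongr
    obtain ⟨a1, a2⟩ := hstep o r n hb hn
    obtain ⟨b1, b2⟩ := hstep o' r' n' hb' hn'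
    constructor
    · rw [abs_le] at a1 b1 ⊢
      constructor <;> linarith [a1.1, a1.2, b1.1, b1.2]
    · rw [abs_le] at a2 b2 ⊢
      constructor <;> linarith [a2.1, a2.2, b2.1, b2.2]

end Vale.Agent.P161C
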