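import Vale.Agent.Lib.P161C.Core

/-!
P161 critical, module MODEL-A (section 1 of notes/P161crit/proof.md): algebra of the planted model.
`p v` is the own message of `v`, `Zd` the density, `mg` the magnetization.
-/

open Finset MeasureTheory

namespace Vale.Agent.P161C
open Vale.Agent.P161

variable {V : Type*} [DecidableEq V] {G : SimpleGraph V} [DecidableRel G.Adj] {β : ℝ}
  {S : Finset V} {p q : V → ℝ}

lemma isw_pos (S T : Finset V) : 0 < isw G β S T := by
  unfold isw
  exact div_pos (Real.exp_pos _) gs_one_pos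

lemma sum_isw (S : Finset V) : ∑ T ∈ S.powerset, isw G β S T = 1 := by
  unfold isw
  rw [← Finset.sum_div]
  have h := (gs_one_pos (G := G) (β := β) (D := S) (h := 0)).ne'
  rw [div_eq_one_iff_eq h]
  unfold gs
  simp

/-- Spin flip symmetry (use `en_sdiff`). -/
lemma isw_sdiff (S T : Finset V) : isw G β S (S \ T) = isw G β S T := by
  unfold isw
  rw [en_sdiff]

lemma Zd_congr (h : ∀ v ∈ S, p v = q v) : Zd G β S p = Zd G β S q := by
  unfold Zd
  refine Finset.sum_congr rfl fun T _ => ?_
  rw [Finset.prod_congr rfl fun v hv => by rw [h v hv]]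

lemma gx_congr_field {h h' : V → ℝ} (hh : ∀ v ∈ S, h v = h' v) (f : Finset V → ℝ) :
    gx G β S h f = gx G β S h' f := by
  have e : ∀ T, en G β S h T = en G β S h' T := by
    intro T
    unfold en
    rw [Finset.sum_congr rfl fun v hv => by rw [hh v hv]]
  unfold gx gs
  simp only [e]

lemma mag_congr_field {h h' : V → ℝ} (hh : ∀ v ∈ S, h v = h' v) (v : V) :
    mag G β S h v = mag G β S h' v := by
  exact gx_congr_field hh _

lemma cov_congr_field {h h' : V → ℝ} (hh : ∀ v ∈ S, h v = h' v) (v u : V) :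
    cov G β S h v u = cov G β S h' v u := by
  unfold cov mag
  rw [gx_congr_field hh, gx_congr_field hh, gx_congr_field hh]

lemma mg_congr (h : ∀ v ∈ S, p v = q v) (v : V) : mg G β S p v = mg G β S q v := by
  unfold mg
  exact mag_congr_field (fun v hv => by unfold fld; rw [h v hv]) v

lemma cv_congr (h : ∀ v ∈ S, p v = q v) (v u : V) : cv G β S p v u = cv G β S q v u := by
  unfold cv
  exact cov_congr_field (fun v hv => by unfold fld; rw [h v hv]) v u

/-- Sums over configurations are invariant under the flip. -/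
lemma sum_powerset_sdiff (S : Finset V) (f : Finset V → ℝ) :
    ∑ T ∈ S.powerset, f (S \ T) = ∑ T ∈ S.powerset, f T := by
  refine Finset.sum_nbij' (fun T => S \ T) (fun T => S \ T) ?_ ?_ ?_ ?_ ?_
  · intro T _; simp
  · intro T _; simp
  · intro T hT
    rw [mem_powerset] at hT
    exact Finset.sdiff_sdiff_eq_self hT
  · intro T hT
    rw [mem_powerset] at hT
    exact Finset.sdiff_sdiff_eq_self hT
  · intro T _
    rfl

/-- `Z_S(-p) = Z_S(p)`. -/
lemma Zd_neg (S : Finset V) (p : V → ℝ) : Zd G β S (fun v => -p v) = Zd G β S p := by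
  unfold Zd
  rw [← sum_powerset_sdiff]
  refine Finset.sum_congr rfl fun T _ => ?_
  rw [isw_sdiff]
  congr 1
  refine Finset.prod_congr rfl fun v hv => ?_
  rw [sp_sdiff hv]
  ring

lemma en_neg_sdiff (h : V → ℝ) (T : Finset V) :
    en G β S (fun v => -h v) (S \ T) = en G β S h T := by
  unfold en
  congr 1
  · refine Finset.sum_congr rfl fun v hv => ?_
    rw [sp_sdiff hv]; ring
  · congr 1
    apply Finset.sum_congr rfl
    intro x hx
    apply Finset.sum_congr rfl
    intro y hy
    rw [sp_sdiff hx, sp_sdiff hy]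
    split_ifs <;> ring

lemma gs_neg (h : V → ℝ) (f : Finset V → ℝ) :
    gs G β S (fun v => -h v) f = gs G β S h (fun T => f (S \ T)) := by
  unfold gs
  rw [← sum_powerset_sdiff]
  refine Finset.sum_congr rfl fun T _ => ?_
  rw [en_neg_sdiff]

lemma mag_neg {v : V} (hv : v ∈ S) (h : V → ℝ) :
    mag G β S (fun v => -h v) v = -mag G β S h v := by
  unfold mag gx
  rw [gs_neg, gs_neg]
  have : gs G β S h (fun T => sp (S \ T) v) = -gs G β S h (fun T => sp T v) := by
    rw [gs_congr (g := fun T => (-1) * sp T v), gs_mul_left]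
    · ring
    · intro T _
      rw [sp_sdiff hv]; ring
  rw [this, neg_div]

lemma artanh_neg' (x : ℝ) : Real.artanh (-x) = -Real.artanh x := by
  unfold Real.artanh
  have : (1 + -x) / (1 - -x) = ((1 + x) / (1 - x))⁻¹ := by
    rw [inv_div]; congr 1; ring
  rw [this, Real.sqrt_inv, Real.log_inv]

lemma mg_neg {v : V} (hv : v ∈ S) (p : V → ℝ) :
    mg G β S (fun v => -p v) v = -mg G β S p v := by
  unfold mg
  have : fld (fun v => -p v) = fun v => -fld p v := by
    ext v; unfold fld; exact artanh_neg' _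
  rw [this]
  exact mag_neg hv _

lemma measurable_Zd (S : Finset V) : Measurable (Zd G β S) := by
  unfold Zd
  fun_prop

omit [DecidableEq V] in
lemma measurable_fld : Measurable (fld (V := V)) := by
  rw [measurable_pi_iff]
  intro v
  unfold fld
  exact measurable_artanh.comp (measurable_pi_apply v)

lemma measurable_mg (S : Finset V) (v : V) : Measurable (fun p => mg G β S p v) := by
  exact (measurable_mag β S v).comp measurable_fld

lemma measurable_cv (S : Finset V) (v u : V) : Measurable (fun p => cv G β S p v u) := by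
  exact (measurable_cov β S v u).comp measurable_fld

lemma abs_mg_le (S : Finset V) (p : V → ℝ) (v : V) : |mg G β S p v| ≤ 1 := abs_mag_le v

omit [DecidableEq V] [DecidableRel G.Adj] in
lemma one_add_mul_sp_nonneg [DecidableEq V] {x : ℝ} (hx : |x| ≤ 1) (T : Finset V) (v : V) :
    0 ≤ 1 + x * sp T v ∧ 1 + x * sp T v ≤ 2 := by
  have h := abs_le.mp hx
  rcases sp_eq T v with h1 | h1 <;> rw [h1] <;> constructor <;> linarith

omit [DecidableEq V] [DecidableRel G.Adj] in
lemma one_add_mul_sp_pos [DecidableEq V] {x : ℝ} (hx : |x| < 1) (T : Finset V) (v : V) :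
    0 < 1 + x * sp T v := by
  have h := abs_lt.mp hx
  rcases sp_eq T v with h1 | h1 <;> rw [h1] <;> linarith

lemma Zd_nonneg (hp : ∀ v ∈ S, |p v| ≤ 1) : 0 ≤ Zd G β S p := by
  unfold Zd
  refine Finset.sum_nonneg fun T _ => mul_nonneg (isw_pos S T).le ?_
  exact Finset.prod_nonneg fun v hv => (one_add_mul_sp_nonneg (hp v hv) T v).1

lemma Zd_pos (hp : ∀ v ∈ S, |p v| < 1) : 0 < Zd G β S p := by
  unfold Zd
  refine Finset.sum_pos (fun T _ => mul_pos (isw_pos S T) ?_) ⟨∅, by simp⟩
  exact Finset.prod_pos fun v hv => one_add_mul_sp_pos (hp v hv) T v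

lemma Zd_le (hp : ∀ v ∈ S, |p v| ≤ 1) : Zd G β S p ≤ 2 ^ S.card := by
  unfold Zd
  calc ∑ T ∈ S.powerset, isw G β S T * ∏ v ∈ S, (1 + p v * sp T v) ≤
      ∑ T ∈ S.powerset, isw G β S T * 2 ^ S.card := by
        refine Finset.sum_le_sum fun T _ => ?_
        refine mul_le_mul_of_nonneg_left ?_ (isw_pos S T).le
        calc ∏ v ∈ S, (1 + p v * sp T v) ≤ ∏ v ∈ S, (2 : ℝ) :=
              Finset.prod_le_prod (fun v hv => (one_add_mul_sp_nonneg (hp v hv) T v).1)
                (fun v hv => (one_add_mul_sp_nonneg (hp v hv) T v).2)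
          _ = 2 ^ S.card := by simp
    _ = 2 ^ S.card := by rw [← Finset.sum_mul, sum_isw, one_mul]

lemma en_fld (h : V → ℝ) (T : Finset V) :
    en G β S h T = en G β S 0 T + ∑ v ∈ S, h v * sp T v := by
  unfold en
  simp only [Pi.zero_apply, zero_mul, Finset.sum_const_zero, zero_add]
  ring

lemma exp_en_fld (hp : ∀ v ∈ S, |p v| < 1) (T : Finset V) :
    Real.exp (en G β S (fld p) T) = (∏ v ∈ S, (1 / √(1 - p v ^ 2))) *
      (Real.exp (en G β S 0 T) * ∏ v ∈ S, (1 + p v * sp T v)) := by
  rw [en_fld, Real.exp_add, Real.exp_sum]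
  have : ∏ v ∈ S, Real.exp (fld p v * sp T v) =
      (∏ v ∈ S, (1 / √(1 - p v ^ 2))) * ∏ v ∈ S, (1 + p v * sp T v) := by
    rw [← Finset.prod_mul_distrib]
    refine Finset.prod_congr rfl fun v hv => ?_
    unfold fld
    rw [exp_artanh_mul (hp v hv) (sp_eq T v)]
    ring
  rw [this]; ring

lemma gs_fld (hp : ∀ v ∈ S, |p v| < 1) (f : Finset V → ℝ) :
    gs G β S (fld p) f = (∏ v ∈ S, (1 / √(1 - p v ^ 2))) * (gs G β S 0 (fun _ => 1) *
      ∑ T ∈ S.powerset, isw G β S T * (f T * ∏ v ∈ S, (1 + p v * sp T v))) := by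
  have h0 := (gs_one_pos (G := G) (β := β) (D := S) (h := 0)).ne'
  conv_lhs => unfold gs
  rw [Finset.mul_sum, Finset.mul_sum]
  refine Finset.sum_congr rfl fun T _ => ?_
  rw [exp_en_fld hp]
  unfold isw
  field_simp

/-- The magnetization is the mean of the spin under the weights `isw T * ∏ (1 + p v sp T v)`
(use `exp_artanh_mul`). More generally for any function of the configuration. -/
lemma gx_mul_Zd (hp : ∀ v ∈ S, |p v| < 1) (f : Finset V → ℝ) :
    gx G β S (fld p) f * Zd G β S p =
      ∑ T ∈ S.powerset, isw G β S T * (f T * ∏ v ∈ S, (1 + p v * sp T v)) := by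
  have hK : (∏ v ∈ S, (1 / √(1 - p v ^ 2))) ≠ 0 := by
    rw [Finset.prod_ne_zero_iff]
    intro v hv
    have h1 : 0 < 1 - p v ^ 2 := by
      have := sq_lt_one_iff_abs_lt_one (p v) |>.mpr (hp v hv)
      linarith
    exact (one_div_pos.mpr (Real.sqrt_pos.mpr h1)).ne'
  have h0 := (gs_one_pos (G := G) (β := β) (D := S) (h := 0)).ne'
  have hZ := (Zd_pos (G := G) (β := β) hp).ne'
  have hZe : Zd G β S p = ∑ T ∈ S.powerset, isw G β S T * (1 * ∏ v ∈ S, (1 + p v * sp T v)) := by
    unfold Zd; simp only [one_mul]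
  unfold gx
  rw [gs_fld hp, gs_fld hp, ← hZe]
  field_simp

lemma mg_mul_Zd (hp : ∀ v ∈ S, |p v| < 1) (u : V) :
    mg G β S p u * Zd G β S p =
      ∑ T ∈ S.powerset, isw G β S T * (sp T u * ∏ v ∈ S, (1 + p v * sp T v)) :=
  gx_mul_Zd hp _

lemma abs_mg_lt {v : V} (hv : v ∈ S) (hp : ∀ v ∈ S, |p v| < 1) : |mg G β S p v| < 1 := by
  have hZ := Zd_pos (G := G) (β := β) hp
  have e := mg_mul_Zd (G := G) (β := β) hp v
  have eZ : Zd G β S p = ∑ T ∈ S.powerset, isw G β S T * ∏ v ∈ S, (1 + p v * sp T v) := rfl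
  rw [abs_lt]
  constructor
  · have h1 : 0 < (1 + mg G β S p v) * Zd G β S p := by
      rw [add_mul, one_mul, e, eZ, ← Finset.sum_add_distrib]
      apply Finset.sum_pos'
      · intro T _
        have h2 := one_add_mul_sp_nonneg (x := 1) (by norm_num) T v
        have h3 : 0 ≤ ∏ v ∈ S, (1 + p v * sp T v) :=
          Finset.prod_nonneg fun v hv => (one_add_mul_sp_nonneg (hp v hv).le T v).1
        have h4 := isw_pos (G := G) (β := β) S T
        have : isw G β S T * ∏ v ∈ S, (1 + p v * sp T v) +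
            isw G β S T * (sp T v * ∏ v ∈ S, (1 + p v * sp T v)) =
            isw G β S T * ((1 + 1 * sp T v) * ∏ v ∈ S, (1 + p v * sp T v)) := by ring
        rw [this]
        exact mul_nonneg h4.le (mul_nonneg h2.1 h3)
      · refine ⟨S, Finset.mem_powerset_self S, ?_⟩
        have h3 : 0 < ∏ v ∈ S, (1 + p v * sp S v) :=
          Finset.prod_pos fun v hv => one_add_mul_sp_pos (hp v hv) S v
        have h5 : sp S v = 1 := by unfold sp; rw [if_pos hv]
        have h4 := isw_pos (G := G) (β := β) S S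
        rw [h5]; positivity
    have := pos_of_mul_pos_left h1 hZ.le
    linarith
  · have h1 : 0 < (1 - mg G β S p v) * Zd G β S p := by
      rw [sub_mul, one_mul, e, eZ, ← Finset.sum_sub_distrib]
      apply Finset.sum_pos'
      · intro T _
        have h2 := one_add_mul_sp_nonneg (x := -1) (by norm_num) T v
        have h3 : 0 ≤ ∏ v ∈ S, (1 + p v * sp T v) :=
          Finset.prod_nonneg fun v hv => (one_add_mul_sp_nonneg (hp v hv).le T v).1
        have h4 := isw_pos (G := G) (β := β) S T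
        have : isw G β S T * ∏ v ∈ S, (1 + p v * sp T v) -
            isw G β S T * (sp T v * ∏ v ∈ S, (1 + p v * sp T v)) =
            isw G β S T * ((1 + -1 * sp T v) * ∏ v ∈ S, (1 + p v * sp T v)) := by ring
        rw [this]
        exact mul_nonneg h4.le (mul_nonneg h2.1 h3)
      · refine ⟨∅, Finset.empty_mem_powerset S, ?_⟩
        have h3 : 0 < ∏ v ∈ S, (1 + p v * sp ∅ v) :=
          Finset.prod_pos fun v hv => one_add_mul_sp_pos (hp v hv) ∅ v
        have h5 : sp ∅ v = -1 := by unfold sp; simp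
        have h4 := isw_pos (G := G) (β := β) S ∅
        rw [h5]
        have : isw G β S ∅ * ∏ v ∈ S, (1 + p v * sp ∅ v) -
            isw G β S ∅ * (-1 * ∏ v ∈ S, (1 + p v * sp ∅ v)) =
            2 * (isw G β S ∅ * ∏ v ∈ S, (1 + p v * sp ∅ v)) := by ring
        rw [this]; positivity
    have := pos_of_mul_pos_left h1 hZ.le
    linarith

/-- One coordinate (with `m` the magnetization at `u`): the density is affine. -/
lemma Zd_update {u : V} (hu : u ∈ S) (hp : ∀ v ∈ S, |p v| < 1) {y : ℝ} (hy : |y| < 1) :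
    Zd G β S p * (1 + y * mg G β S p u) =
      (1 + p u * y) * Zd G β S (Function.update p u ((p u + y) / (1 + p u * y))) := by
  have hpu := abs_lt.mp (hp u hu)
  have hy' := abs_lt.mp hy
  have hpos : 0 < 1 + p u * y := by nlinarith
  rw [mul_add, mul_one, mul_left_comm, mul_comm (Zd G β S p) (mg G β S p u), mg_mul_Zd hp]
  unfold Zd
  rw [Finset.mul_sum, Finset.mul_sum, ← Finset.sum_add_distrib]
  refine Finset.sum_congr rfl fun T _ => ?_
  rw [← Finset.mul_prod_erase S _ hu, ← Finset.mul_prod_erase S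
    (fun v => 1 + Function.update p u ((p u + y) / (1 + p u * y)) v * sp T v) hu,
    Function.update_self]
  have e : ∏ v ∈ S.erase u, (1 + Function.update p u ((p u + y) / (1 + p u * y)) v * sp T v) =
      ∏ v ∈ S.erase u, (1 + p v * sp T v) := by
    refine Finset.prod_congr rfl fun v hv => ?_
    rw [Function.update_of_ne (Finset.ne_of_mem_erase hv)]
  rw [e]
  have hs := sp_mul_self T u
  field_simp
  linear_combination (isw G β S T * y * p u * ∏ v ∈ S.erase u, (1 + p v * sp T v)) * hs

lemma Zd_empty (p : V → ℝ) : Zd G β ∅ p = 1 := by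
  have h := sum_isw (G := G) (β := β) (∅ : Finset V)
  unfold Zd
  simpa using h

lemma isw_singleton (v : V) : isw G β {v} ∅ = 1 / 2 ∧ isw G β {v} {v} = 1 / 2 := by
  have h := sum_isw (G := G) (β := β) ({v} : Finset V)
  have h1 : isw G β {v} {v} = isw G β {v} ∅ := by
    have := isw_sdiff (G := G) (β := β) {v} ∅
    rwa [Finset.sdiff_empty] at this
  have hp : ({v} : Finset V).powerset = {∅, {v}} := by
    ext T; simp [Finset.subset_singleton_iff]
  rw [hp, Finset.sum_pair (by simp)] at h
  constructor <;> linarith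

lemma Zd_singleton (v : V) (p : V → ℝ) : Zd G β {v} p = 1 := by
  obtain ⟨h1, h2⟩ := isw_singleton (G := G) (β := β) v
  have hp : ({v} : Finset V).powerset = {∅, {v}} := by
    ext T; simp [Finset.subset_singleton_iff]
  unfold Zd
  rw [hp, Finset.sum_pair (by simp), Finset.prod_singleton, Finset.prod_singleton, h1, h2]
  unfold sp
  simp
  ring

lemma mg_singleton {v : V} (hv : |p v| < 1) : mg G β {v} p v = p v := by
  obtain ⟨h1, h2⟩ := isw_singleton (G := G) (β := β) v
  have hp : ({v} : Finset V).powerset = {∅, {v}} := by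
    ext T; simp [Finset.subset_singleton_iff]
  have h := mg_mul_Zd (G := G) (β := β) (S := {v}) (p := p) (by simpa using hv) v
  rw [Zd_singleton, mul_one, hp, Finset.sum_pair (by simp), Finset.prod_singleton,
    Finset.prod_singleton, h1, h2] at h
  rw [h]
  unfold sp
  simp
  ring

omit [DecidableEq V] [DecidableRel G.Adj] in
lemma mem_side_left (hG : G.IsTree) {v w : V} (hvw : G.Adj v w) (hv : v ∈ S) :
    v ∈ side G S v w := by
  have _ := hG
  rw [mem_side]
  refine ⟨hv, ?_⟩
  rw [SimpleGraph.dist_self, SimpleGraph.dist_eq_one_iff_adj.mpr hvw]; norm_num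

/-- Splitting a Gibbs sum along an edge. -/
lemma gs_split (hG : G.IsTree) {v w : V} (hvw : G.Adj v w) (hv : v ∈ S) (hw : w ∈ S)
    (h : V → ℝ) (F f g : Finset V → ℝ)
    (hF : ∀ T₁ T₂, T₁ ⊆ side G S v w → T₂ ⊆ side G S w v → F (T₁ ∪ T₂) = f T₁ * g T₂) :
    gs G β S h F = Real.cosh β * (gs G β (side G S v w) h f * gs G β (side G S w v) h g +
      Real.tanh β * gs G β (side G S v w) h (fun T => sp T v * f T) *
        gs G β (side G S w v) h (fun T => sp T w * g T)) := by
  have hd := side_disjoint (G := G) S v w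
  have hu := side_union hG S hvw
  have hsplit := fun (S₁ S₂ : Finset V) (h1 : S₁ ⊆ side G S v w) (h2 : S₂ ⊆ side G S w v) =>
    en_split hG β S h hvw hv h1 h2
  set A := side G S v w with hA
  set B := side G S w v with hB
  have hl : gs G β S h F = ∑ T₁ ∈ A.powerset, ∑ T₂ ∈ B.powerset,
      Real.exp (en G β S h (T₁ ∪ T₂)) * F (T₁ ∪ T₂) := by
    unfold gs
    conv_lhs => rw [show S.powerset = (A ∪ B).powerset by rw [hu]]
    rw [sum_powerset_union hd]
  rw [hl]
  unfold gs
  rw [Finset.sum_mul_sum, mul_assoc (Real.tanh β), Finset.sum_mul_sum, Finset.mul_sum,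
    ← Finset.sum_add_distrib, Finset.mul_sum]
  refine Finset.sum_congr rfl fun T₁ hT₁ => ?_
  rw [Finset.mul_sum, ← Finset.sum_add_distrib, Finset.mul_sum]
  refine Finset.sum_congr rfl fun T₂ hT₂ => ?_
  have h1 := mem_powerset.mp hT₁
  have h2 := mem_powerset.mp hT₂
  rw [hsplit T₁ T₂ h1 h2, if_pos hw, Real.exp_add, Real.exp_add,
    exp_beta_mul β (sp_eq T₁ v) (sp_eq T₂ w), hF T₁ T₂ h1 h2]
  ring

lemma gs_zero_sp {v : V} (hv : v ∈ S) : gs G β S (0 : V → ℝ) (fun T => sp T v) = 0 := by
  have h1 : gs G β S (0 : V → ℝ) (fun S => sp S v) = -gs G β S 0 (fun S => sp S v) := by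
    conv_lhs => rw [gs_flip]
    rw [gs_congr (g := fun S => (-1) * sp S v), gs_mul_left]
    · ring
    · intro S _
      rw [sp_sdiff hv]; ring
  linarith

/-- Edge split of the Ising weights. -/
lemma isw_split (hG : G.IsTree) {v w : V} (hvw : G.Adj v w) (hv : v ∈ S) (hw : w ∈ S)
    {T₁ T₂ : Finset V} (h1 : T₁ ⊆ side G S v w) (h2 : T₂ ⊆ side G S w v) :
    isw G β S (T₁ ∪ T₂) = isw G β (side G S v w) T₁ * isw G β (side G S w v) T₂ *
      (1 + Real.tanh β * sp T₁ v * sp T₂ w) := by
  have hd := side_disjoint (G := G) S v w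
  have hvA := mem_side_left hG hvw hv
  have hwB := mem_side_left hG hvw.symm hw
  have e := gs_split (β := β) hG hvw hv hw 0 (fun _ => 1) (fun _ => 1) (fun _ => 1)
    (fun _ _ _ _ => by norm_num)
  simp only [mul_one] at e
  rw [gs_zero_sp hvA, gs_zero_sp hwB] at e
  simp only [mul_zero, add_zero] at e
  unfold isw
  rw [e, en_split hG β S 0 hvw hv h1 h2, if_pos hw, Real.exp_add, Real.exp_add,
    exp_beta_mul β (sp_eq T₁ v) (sp_eq T₂ w)]
  have hc := (Real.cosh_pos β).ne'
  have g1 := (gs_one_pos (G := G) (β := β) (D := side G S v w) (h := 0)).ne'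
  have g2 := (gs_one_pos (G := G) (β := β) (D := side G S w v) (h := 0)).ne'
  field_simp

/-- Splitting a sum with the Ising weights along an edge. -/
lemma sum_isw_split (hG : G.IsTree) {v w : V} (hvw : G.Adj v w) (hv : v ∈ S) (hw : w ∈ S)
    (F f g : Finset V → ℝ)
    (hF : ∀ T₁ T₂, T₁ ⊆ side G S v w → T₂ ⊆ side G S w v → F (T₁ ∪ T₂) = f T₁ * g T₂) :
    ∑ T ∈ S.powerset, isw G β S T * F T =
      (∑ T ∈ (side G S v w).powerset, isw G β (side G S v w) T * f T) *
        (∑ T ∈ (side G S w v).powerset, isw G β (side G S w v) T * g T) +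
      Real.tanh β *
        (∑ T ∈ (side G S v w).powerset, isw G β (side G S v w) T * (sp T v * f T)) *
        (∑ T ∈ (side G S w v).powerset, isw G β (side G S w v) T * (sp T w * g T)) := by
  have hd := side_disjoint (G := G) S v w
  have hu := side_union hG S hvw
  have hisw := fun (T₁ T₂ : Finset V) (h1 : T₁ ⊆ side G S v w) (h2 : T₂ ⊆ side G S w v) =>
    isw_split (β := β) hG hvw hv hw h1 h2
  set A := side G S v w with hA
  set B := side G S w v with hB
  conv_lhs => rw [show S.powerset = (A ∪ B).powerset by rw [hu]]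
  rw [sum_powerset_union hd, Finset.sum_mul_sum, mul_assoc (Real.tanh β), Finset.sum_mul_sum,
    Finset.mul_sum, ← Finset.sum_add_distrib]
  refine Finset.sum_congr rfl fun T₁ hT₁ => ?_
  rw [Finset.mul_sum, ← Finset.sum_add_distrib]
  refine Finset.sum_congr rfl fun T₂ hT₂ => ?_
  have h1 := mem_powerset.mp hT₁
  have h2 := mem_powerset.mp hT₂
  rw [hisw T₁ T₂ h1 h2, hF T₁ T₂ h1 h2]
  ring

omit [DecidableRel G.Adj] in
/-- The product over `S` splits. -/
lemma prod_split (hG : G.IsTree) {v w : V} (hvw : G.Adj v w) (p : V → ℝ) {T₁ T₂ : Finset V}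
    (h1 : T₁ ⊆ side G S v w) (h2 : T₂ ⊆ side G S w v) :
    ∏ u ∈ S, (1 + p u * sp (T₁ ∪ T₂) u) =
      (∏ u ∈ side G S v w, (1 + p u * sp T₁ u)) * ∏ u ∈ side G S w v, (1 + p u * sp T₂ u) := by
  have hd := side_disjoint (G := G) S v w
  have hu := side_union hG S hvw
  conv_lhs => rw [← hu]
  rw [Finset.prod_union hd]
  congr 1
  · exact Finset.prod_congr rfl fun u hu' => by rw [sp_union_left hd h2 hu']
  · exact Finset.prod_congr rfl fun u hu' => by rw [sp_union_right hd h1 hu']

/-- (1.2) edge split of the density. -/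
lemma Zd_split (hG : G.IsTree) {v w : V} (hvw : G.Adj v w) (hv : v ∈ S) (hw : w ∈ S)
    (hp : ∀ v ∈ S, |p v| < 1) :
    Zd G β S p = Zd G β (side G S v w) p * Zd G β (side G S w v) p *
      (1 + Real.tanh β * mg G β (side G S v w) p v * mg G β (side G S w v) p w) := by
  have hA : ∀ u ∈ side G S v w, |p u| < 1 := fun u hu => hp u (mem_side.mp hu).1
  have hB : ∀ u ∈ side G S w v, |p u| < 1 := fun u hu => hp u (mem_side.mp hu).1
  have e := sum_isw_split (β := β) hG hvw hv hw (fun T => ∏ u ∈ S, (1 + p u * sp T u))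
    (fun T => ∏ u ∈ side G S v w, (1 + p u * sp T u))
    (fun T => ∏ u ∈ side G S w v, (1 + p u * sp T u))
    (fun T₁ T₂ h1 h2 => prod_split hG hvw p h1 h2)
  rw [← mg_mul_Zd hA v, ← mg_mul_Zd hB w] at e
  change Zd G β S p = Zd G β (side G S v w) p * Zd G β (side G S w v) p + _ at e
  rw [e]
  ring

/-- (1.2) edge split of the magnetization, any fields. -/
lemma mag_split (hG : G.IsTree) {v w : V} (hvw : G.Adj v w) (hv : v ∈ S) (hw : w ∈ S)
    (h : V → ℝ) :
    mag G β S h v = (mag G β (side G S v w) h v + Real.tanh β * mag G β (side G S w v) h w) /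
      (1 + Real.tanh β * mag G β (side G S v w) h v * mag G β (side G S w v) h w) := by
  have hd := side_disjoint (G := G) S v w
  have hvA := mem_side_left hG hvw hv
  have e1 := gs_split (β := β) hG hvw hv hw h (fun T => sp T v) (fun T => sp T v) (fun _ => 1)
    (fun T₁ T₂ h1 h2 => by rw [sp_union_left hd h2 hvA, mul_one])
  have e2 := gs_split (β := β) hG hvw hv hw h (fun _ => 1) (fun _ => 1) (fun _ => 1)
    (fun _ _ _ _ => by norm_num)
  have e3 : (fun T : Finset V => sp T v * sp T v) = fun _ => (1 : ℝ) := by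
    ext T; exact sp_mul_self T v
  simp only [mul_one, sp_mul_self] at e1 e2
  unfold mag gx
  rw [e1, e2]
  have hc := (Real.cosh_pos β).ne'
  have g1 := (gs_one_pos (G := G) (β := β) (D := side G S v w) (h := h)).ne'
  have g2 := (gs_one_pos (G := G) (β := β) (D := side G S w v) (h := h)).ne'
  rw [mul_div_mul_left _ _ hc]
  set a := gs G β (side G S v w) h (fun _ => 1)
  set b := gs G β (side G S w v) h (fun _ => 1)
  set a' := gs G β (side G S v w) h (fun T => sp T v)
  set b' := gs G β (side G S w v) h (fun T => sp T w)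
  have h1 : a' / a + Real.tanh β * (b' / b) = (a' * b + Real.tanh β * a * b') / (a * b) := by
    field_simp
  have h2 : 1 + Real.tanh β * (a' / a) * (b' / b) = (a * b + Real.tanh β * a' * b') / (a * b) := by
    field_simp
  rw [h1, h2, div_div_div_cancel_right₀ (mul_ne_zero g1 g2)]

lemma mg_split (hG : G.IsTree) {v w : V} (hvw : G.Adj v w) (hv : v ∈ S) (hw : w ∈ S)
    (p : V → ℝ) :
    mg G β S p v = (mg G β (side G S v w) p v + Real.tanh β * mg G β (side G S w v) p w) /
      (1 + Real.tanh β * mg G β (side G S v w) p v * mg G β (side G S w v) p w) :=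
  mag_split hG hvw hv hw _

/-- Markov property across `v w` with the explicit message (the proof of `markov_in`). -/
lemma markov_msg (hG : G.IsTree) {v w : V} (hvw : G.Adj v w) (hv : v ∈ S) (hw : w ∈ S)
    (h : V → ℝ) (f : Finset V → ℝ)
    (hf : ∀ S₁ S₂, S₁ ⊆ side G S v w → S₂ ⊆ side G S w v → f (S₁ ∪ S₂) = f S₂) :
    gx G β S h (fun T => sp T v * f T) =
      icept (Real.tanh β) (mag G β (side G S v w) h v) * gx G β S h f +
      slope (Real.tanh β) (mag G β (side G S v w) h v) * gx G β S h (fun T => sp T w * f T) := by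
  have hd := side_disjoint (G := G) S v w
  have hu := side_union hG S hvw
  have hsplit := fun (S₁ S₂ : Finset V) (h1 : S₁ ⊆ side G S v w) (h2 : S₂ ⊆ side G S w v) =>
    en_split hG β S h hvw hv h1 h2
  set T := side G S v w with hT
  set R := side G S w v with hR
  set θ := Real.tanh β with hθ
  have hvT : v ∈ T := by
    rw [hT, mem_side]
    refine ⟨hv, ?_⟩
    rw [SimpleGraph.dist_self, SimpleGraph.dist_eq_one_iff_adj.mpr hvw]; norm_num
  have hwR : w ∈ R := by
    rw [hR, mem_side]
    refine ⟨hw, ?_⟩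
    rw [SimpleGraph.dist_self, SimpleGraph.dist_comm, SimpleGraph.dist_eq_one_iff_adj.mpr hvw]
    norm_num
  set M := mag G β T h v with hM
  have hMle : |M| ≤ 1 := abs_mag_le v
  have hθlt : |θ| < 1 := by
    rw [abs_lt]; exact ⟨Real.neg_one_lt_tanh β, Real.tanh_lt_one β⟩
  set ZT := gs G β T h (fun _ => 1) with hZT
  have hZTpos : 0 < ZT := gs_one_pos
  have hMZ : gs G β T h (fun S => sp S v) = M * ZT := by
    rw [hM]; unfold mag gx; rw [div_mul_cancel₀ _ hZTpos.ne']
  -- general formula
  have main : ∀ (a b : ℝ) (f : Finset V → ℝ),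
      (∀ S₁ S₂, S₁ ⊆ T → S₂ ⊆ R → f (S₁ ∪ S₂) = f S₂) →
      gs G β S h (fun S => (a + b * sp S v) * f S) =
        Real.cosh β * ZT * gs G β R h (fun S => (a * (1 + θ * M * sp S w) +
          b * (M + θ * sp S w)) * f S) := by
    intro a b f hf
    have hl : gs G β S h (fun S => (a + b * sp S v) * f S) =
      ∑ S₁ ∈ T.powerset, ∑ S₂ ∈ R.powerset, Real.exp (en G β S h (S₁ ∪ S₂)) *
        ((a + b * sp (S₁ ∪ S₂) v) * f (S₁ ∪ S₂)) := by
      unfold gs
      conv_lhs => rw [show S.powerset = (T ∪ R).powerset by rw [hu]]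
      rw [sum_powerset_union hd]
    rw [hl, Finset.sum_comm]
    have hr : Real.cosh β * ZT * gs G β R h (fun S => (a * (1 + θ * M * sp S w) +
          b * (M + θ * sp S w)) * f S) =
        ∑ S₂ ∈ R.powerset, Real.exp (en G β R h S₂) * f S₂ * Real.cosh β *
          (a * (ZT + θ * sp S₂ w * (M * ZT)) + b * (M * ZT + θ * sp S₂ w * ZT)) := by
      unfold gs
      rw [Finset.mul_sum]
      apply Finset.sum_congr rfl
      intro S _
      ring
    rw [hr]
    apply Finset.sum_congr rfl
    intro S₂ hS₂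
    have h2 : S₂ ⊆ R := mem_powerset.mp hS₂
    rw [← hMZ, hZT]
    unfold gs
    rw [Finset.mul_sum, Finset.mul_sum, ← Finset.sum_add_distrib, ← Finset.sum_add_distrib,
      Finset.mul_sum, Finset.mul_sum, ← Finset.sum_add_distrib, Finset.mul_sum]
    apply Finset.sum_congr rfl
    intro S₁ hS₁
    have h1 : S₁ ⊆ T := mem_powerset.mp hS₁
    rw [hsplit S₁ S₂ h1 h2, if_pos hw, Real.exp_add, Real.exp_add,
      exp_beta_mul β (sp_eq S₁ v) (sp_eq S₂ w), hf S₁ S₂ h1 h2, sp_union_left hd h2 hvT]
    have hs := sp_mul_self S₁ v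
    linear_combination (Real.exp (en G β T h S₁) * Real.exp (en G β R h S₂) * Real.cosh β * θ *
      b * sp S₂ w * f S₂) * hs
  have hMθ : (1 - θ ^ 2 * M ^ 2) ≠ 0 := by
    have h1 : θ ^ 2 < 1 := sq_lt_one_iff_abs_lt_one θ |>.mpr hθlt
    have h2 : M ^ 2 ≤ 1 := by
      have := sq_abs M
      nlinarith [abs_nonneg M]
    nlinarith [sq_nonneg θ, sq_nonneg M]
  have hloc : ∀ S₁ S₂, S₁ ⊆ T → S₂ ⊆ R →
      (icept θ M + slope θ M * sp (S₁ ∪ S₂) w) * f (S₁ ∪ S₂) =
      (icept θ M + slope θ M * sp S₂ w) * f S₂ := by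
    intro S₁ S₂ h1 h2
    rw [sp_union_right hd h1 hwR, hf S₁ S₂ h1 h2]
  have e1 := main 0 1 f hf
  have e2 := main 1 0 (fun S => (icept θ M + slope θ M * sp S w) * f S) hloc
  have e3 : gs G β S h (fun S => sp S v * f S) =
      icept θ M * gs G β S h f + slope θ M * gs G β S h (fun S => sp S w * f S) := by
    rw [← gs_mul_left, ← gs_mul_left, ← gs_add]
    have e1' : gs G β S h (fun S => sp S v * f S) =
      gs G β S h (fun S => (0 + 1 * sp S v) * f S) := gs_congr fun S _ => by ring
    have e2' : gs G β S h (fun S => icept θ M * f S + slope θ M * (sp S w * f S)) =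
      gs G β S h (fun S => (1 + 0 * sp S v) * ((icept θ M + slope θ M * sp S w) * f S)) :=
        gs_congr fun S _ => by ring
    rw [e1', e2', e1, e2]
    congr 1
    apply gs_congr
    intro S _
    have hs := sp_mul_self S w
    have k1 : icept θ M + slope θ M * (θ * M) = M := by
      have : icept θ M + slope θ M * (θ * M) =
        (M * (1 - θ ^ 2) + θ * (1 - M ^ 2) * (θ * M)) / (1 - θ ^ 2 * M ^ 2) := by
        unfold icept P161.slope; ring
      rw [this, div_eq_iff hMθ]
      ring
    have k2 : icept θ M * (θ * M) + slope θ M = θ := by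
      have : icept θ M * (θ * M) + slope θ M =
        (M * (1 - θ ^ 2) * (θ * M) + θ * (1 - M ^ 2)) / (1 - θ ^ 2 * M ^ 2) := by
        unfold icept P161.slope; ring
      rw [this, div_eq_iff hMθ]
      ring
    linear_combination (-f S) * k1 - sp S w * f S * k2 - (slope θ M * θ * M * f S) * hs
  unfold gx
  rw [e3]
  ring

lemma mag_msg (hG : G.IsTree) {v w : V} (hvw : G.Adj v w) (hv : v ∈ S) (hw : w ∈ S)
    (h : V → ℝ) :
    mag G β S h v = icept (Real.tanh β) (mag G β (side G S v w) h v) +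
      slope (Real.tanh β) (mag G β (side G S v w) h v) * mag G β S h w := by
  have h1 := markov_msg (β := β) hG hvw hv hw h (fun _ => 1) (fun _ _ _ _ => rfl)
  simp only [mul_one] at h1
  rw [gx_const] at h1
  rw [mul_one] at h1
  exact h1

lemma cov_msg (hG : G.IsTree) {v w u : V} (hvw : G.Adj v w) (hv : v ∈ S) (hw : w ∈ S)
    (hu : G.dist u w < G.dist u v) (h : V → ℝ) :
    cov G β S h v u =
      slope (Real.tanh β) (mag G β (side G S v w) h v) * cov G β S h w u := by
  have h1 := markov_msg (β := β) hG hvw hv hw h (fun _ => 1) (fun _ _ _ _ => rfl)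
  simp only [mul_one] at h1
  rw [gx_const] at h1
  have hloc : ∀ S₁ S₂ : Finset V, S₁ ⊆ side G S v w → S₂ ⊆ side G S w v →
      sp (S₁ ∪ S₂) u = sp S₂ u := by
    intro S₁ S₂ hs1 _
    apply sp_union_of_notMem
    intro hmem
    have := (mem_side.mp (hs1 hmem)).2
    omega
  have h2 := markov_msg (β := β) hG hvw hv hw h (fun T => sp T u) hloc
  unfold cov
  rw [h2]
  have e1 : mag G β S h v = icept (Real.tanh β) (mag G β (side G S v w) h v) * 1 +
    slope (Real.tanh β) (mag G β (side G S v w) h v) * mag G β S h w := h1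
  have e2 : gx G β S h (fun T => sp T u) = mag G β S h u := rfl
  rw [e1, e2]
  ring

/-- Magnetization at a vertex `y` of the `v`-side: affine in the spin at `v`.  Used for the
martingale property: `mg_S(y) Z_S = Z_B * (mg_A(y) Z_A + θ mg_B(w) * Y)`, where `Y` depends on
the `v`-side only. -/
lemma mg_split' (hG : G.IsTree) {v w : V} (hvw : G.Adj v w) (hv : v ∈ S) (hw : w ∈ S)
    (y : V) (hy : y ∈ side G S v w) :
    ∃ Y : (V → ℝ) → ℝ, Measurable Y ∧
      (∀ p q : V → ℝ, (∀ u ∈ side G S v w, p u = q u) → Y p = Y q) ∧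
      (∀ p : V → ℝ, (∀ u ∈ S, |p u| < 1) → |Y p| ≤ 2 ^ S.card) ∧
      (∀ p : V → ℝ, (∀ u ∈ S, |p u| < 1) →
        mg G β S p y * Zd G β S p = Zd G β (side G S w v) p *
          (mg G β (side G S v w) p y * Zd G β (side G S v w) p +
            Real.tanh β * mg G β (side G S w v) p w * Y p)) := by
  have hd := side_disjoint (G := G) S v w
  refine ⟨fun p => ∑ T ∈ (side G S v w).powerset, isw G β (side G S v w) T *
    (sp T v * (sp T y * ∏ u ∈ side G S v w, (1 + p u * sp T u))), ?_, ?_, ?_, ?_⟩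
  · fun_prop
  · intro p q hpq
    refine Finset.sum_congr rfl fun T _ => ?_
    rw [Finset.prod_congr rfl fun u hu => by rw [hpq u hu]]
  · intro p hp
    have hsub : side G S v w ⊆ S := fun u hu => (mem_side.mp hu).1
    calc |∑ T ∈ (side G S v w).powerset, isw G β (side G S v w) T *
          (sp T v * (sp T y * ∏ u ∈ side G S v w, (1 + p u * sp T u)))| ≤
        ∑ T ∈ (side G S v w).powerset, |isw G β (side G S v w) T *
          (sp T v * (sp T y * ∏ u ∈ side G S v w, (1 + p u * sp T u)))| :=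
          Finset.abs_sum_le_sum_abs _ _
      _ ≤ ∑ T ∈ (side G S v w).powerset, isw G β (side G S v w) T * 2 ^ S.card := by
          refine Finset.sum_le_sum fun T _ => ?_
          have h4 := isw_pos (G := G) (β := β) (side G S v w) T
          rw [abs_mul, abs_mul, abs_mul, abs_sp, abs_sp, one_mul, one_mul, abs_of_pos h4]
          refine mul_le_mul_of_nonneg_left ?_ h4.le
          rw [Finset.abs_prod]
          calc ∏ u ∈ side G S v w, |1 + p u * sp T u| ≤ ∏ u ∈ side G S v w, (2 : ℝ) := by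
                refine Finset.prod_le_prod (fun u _ => abs_nonneg _) fun u hu => ?_
                have h5 := one_add_mul_sp_nonneg (hp u (hsub hu)).le T u
                rw [abs_of_nonneg h5.1]; exact h5.2
            _ = 2 ^ (side G S v w).card := by simp
            _ ≤ 2 ^ S.card := by
                gcongr
                norm_num
      _ = 2 ^ S.card := by rw [← Finset.sum_mul, sum_isw, one_mul]
  · intro p hp
    have hA : ∀ u ∈ side G S v w, |p u| < 1 := fun u hu => hp u (mem_side.mp hu).1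
    have hB : ∀ u ∈ side G S w v, |p u| < 1 := fun u hu => hp u (mem_side.mp hu).1
    rw [mg_mul_Zd hp]
    have e := sum_isw_split (β := β) hG hvw hv hw (fun T => sp T y * ∏ u ∈ S, (1 + p u * sp T u))
      (fun T => sp T y * ∏ u ∈ side G S v w, (1 + p u * sp T u))
      (fun T => ∏ u ∈ side G S w v, (1 + p u * sp T u))
      (fun T₁ T₂ h1 h2 => by
        rw [prod_split hG hvw p h1 h2, sp_union_left hd h2 hy]; ring)
    rw [e, ← mg_mul_Zd hA y, ← mg_mul_Zd hB w]
    have e2 : ∑ T ∈ (side G S w v).powerset, isw G β (side G S w v) T *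
      ∏ u ∈ side G S w v, (1 + p u * sp T u) = Zd G β (side G S w v) p := rfl
    rw [e2]
    ring

end Vale.Agent.P161C
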