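import Vale.Agent.Lib.P161C.ModelB
import Vale.Agent.Lib.P161C.Cvx

/-!
P161 critical, module MODEL-C (section 1 of notes/P161crit/proof.md): edge decomposition of the
planted law, consistency, martingale property, independence of even functionals, symmetrization.
Uses only statements of MODEL-A, MODEL-B, CVX.
-/

open Finset MeasureTheory

namespace Vale.Agent.P161C
open Vale.Agent.P161

variable {V : Type*} [DecidableEq V] {G : SimpleGraph V} [DecidableRel G.Adj] {β : ℝ}
  {S A : Finset V} {ν : V → Measure ℝ} {F F' : (V → ℝ) → ℝ}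

omit [DecidableEq V] in
lemma mc_integrable (hν : ∀ v, IsOwn (ν v)) {H : (V → ℝ) → ℝ} (hm : Measurable H)
    (T : Finset V) {C : ℝ} (hb : ∀ p : V → ℝ, (∀ v ∈ T, |p v| < 1) → |H p| ≤ C) :
    Integrable H (Measure.infinitePi ν) := by
  have := fun v => (hν v).prob
  refine Integrable.of_bound hm.aestronglyMeasurable C ?_
  filter_upwards [ae_abs_lt hν T] with p hp
  rw [Real.norm_eq_abs]
  exact hb p hp

lemma mc_Zd_abs {p : V → ℝ} (hp : ∀ v ∈ S, |p v| < 1) : |Zd G β S p| ≤ 2 ^ S.card := by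
  rw [abs_of_nonneg (Zd_nonneg fun v hv => (hp v hv).le)]
  exact Zd_le fun v hv => (hp v hv).le

omit [DecidableEq V] [DecidableRel G.Adj] in
lemma mc_side_subset (S : Finset V) (v w : V) : side G S v w ⊆ S := by
  intro x hx
  exact (mem_side.1 hx).1

omit [DecidableEq V] in
lemma mc_bound_nonneg {C : ℝ} (hC : ∀ p : V → ℝ, |F p| ≤ C) : 0 ≤ C :=
  (abs_nonneg _).trans (hC 0)

lemma mc_Fn_mg (S : Finset V) (v : V) : Fn S (fun p => mg G β S p v) :=
  ⟨measurable_mg S v, ⟨1, fun p => abs_mg_le S p v⟩, fun _ _ h => mg_congr h v⟩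

omit [DecidableEq V] in
lemma mc_Fn_mul (hF : Fn S F) (hF' : Fn S F') : Fn S (fun p => F p * F' p) := by
  obtain ⟨hFm, ⟨C, hC⟩, hFd⟩ := hF
  obtain ⟨hFm', ⟨C', hC'⟩, hFd'⟩ := hF'
  refine ⟨hFm.mul hFm', ⟨C * C', fun p => ?_⟩, fun p q h => by rw [hFd p q h, hFd' p q h]⟩
  rw [abs_mul]
  exact mul_le_mul (hC p) (hC' p) (abs_nonneg _) (mc_bound_nonneg hC)

omit [DecidableEq V] in
lemma mc_Fn_mono (hAS : A ⊆ S) (hF : Fn A F) : Fn S F :=
  ⟨hF.meas, hF.bdd, fun p q h => hF.dep p q fun v hv => h v (hAS hv)⟩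

omit [DecidableEq V] in
lemma mc_Fn_const (S : Finset V) (c : ℝ) : Fn S (fun _ : V → ℝ => c) :=
  ⟨measurable_const, ⟨|c|, fun _ => le_rfl⟩, fun _ _ _ => rfl⟩

omit [DecidableEq V] in
lemma mc_EvFn_const (S : Finset V) (c : ℝ) : EvFn S (fun _ : V → ℝ => c) :=
  ⟨mc_Fn_const S c, fun _ => rfl⟩

lemma mc_int_edge (hν : ∀ v, IsOwn (ν v)) (A B : Finset V) (hA : A ⊆ S) (hB : B ⊆ S)
    (hF : Measurable F) (hF' : Measurable F') {C C' : ℝ} (hC : ∀ p, |F p| ≤ C)
    (hC' : ∀ p, |F' p| ≤ C') :
    Integrable (fun p => (F p * Zd G β A p) * (F' p * Zd G β B p)) (Measure.infinitePi ν) := by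
  refine mc_integrable hν ((hF.mul (measurable_Zd A)).mul (hF'.mul (measurable_Zd B))) S
    (C := (C * 2 ^ A.card) * (C' * 2 ^ B.card)) ?_
  intro p hp
  rw [abs_mul, abs_mul, abs_mul]
  have h1 : |F p| * |Zd G β A p| ≤ C * 2 ^ A.card :=
    mul_le_mul (hC p) (mc_Zd_abs fun v hv => hp v (hA hv)) (abs_nonneg _) (mc_bound_nonneg hC)
  have h2 : |F' p| * |Zd G β B p| ≤ C' * 2 ^ B.card :=
    mul_le_mul (hC' p) (mc_Zd_abs fun v hv => hp v (hB hv)) (abs_nonneg _) (mc_bound_nonneg hC')
  exact mul_le_mul h1 h2 (mul_nonneg (abs_nonneg _) (abs_nonneg _))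
    (mul_nonneg (mc_bound_nonneg hC) (by positivity))

/-- Edge decomposition. -/
lemma EE_edge (hG : G.IsTree) (hν : ∀ v, IsOwn (ν v)) {v w : V} (hvw : G.Adj v w)
    (hv : v ∈ S) (hw : w ∈ S) (hF : Fn (side G S v w) F) (hF' : Fn (side G S w v) F') :
    EE G β ν S (fun p => F p * F' p) =
      EE G β ν (side G S v w) F * EE G β ν (side G S w v) F' +
      Real.tanh β * EE G β ν (side G S v w) (fun p => F p * mg G β (side G S v w) p v) *
        EE G β ν (side G S w v) (fun p => F' p * mg G β (side G S w v) p w) := by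
  have hd := side_disjoint (G := G) S v w
  have hAS := mc_side_subset (G := G) S v w
  have hBS := mc_side_subset (G := G) S w v
  have hsp := fun (p : V → ℝ) (hp : ∀ v ∈ S, |p v| < 1) =>
    Zd_split (G := G) (β := β) hG hvw hv hw hp
  set A := side G S v w with hA
  set B := side G S w v with hB
  have hG1 := mc_Fn_mul hF (mc_Fn_mg (G := G) (β := β) A v)
  have hG2 := mc_Fn_mul hF' (mc_Fn_mg (G := G) (β := β) B w)
  obtain ⟨hFm, ⟨C, hC⟩, hFd⟩ := hF
  obtain ⟨hFm', ⟨C', hC'⟩, hFd'⟩ := hF'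
  obtain ⟨hGm, ⟨D, hD⟩, hGd⟩ := hG1
  obtain ⟨hGm', ⟨D', hD'⟩, hGd'⟩ := hG2
  rw [EE_eq hν, EE_eq hν, EE_eq hν, EE_eq hν, EE_eq hν]
  have e1 : ∫ p, F p * F' p * Zd G β S p ∂(Measure.infinitePi ν) =
      ∫ p, ((F p * Zd G β A p) * (F' p * Zd G β B p) +
        Real.tanh β * ((F p * mg G β A p v * Zd G β A p) *
          (F' p * mg G β B p w * Zd G β B p))) ∂(Measure.infinitePi ν) := by
    apply integral_congr_ae
    filter_upwards [ae_abs_lt hν S] with p hp
    rw [hsp p hp]
    ring
  have e2 : ∫ p, (F p * Zd G β A p) * (F' p * Zd G β B p) ∂(Measure.infinitePi ν) =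
      (∫ p, F p * Zd G β A p ∂(Measure.infinitePi ν)) *
        ∫ p, F' p * Zd G β B p ∂(Measure.infinitePi ν) :=
    infinitePi_mul (A := A) (B := B) hν hd (hFm.mul (measurable_Zd A))
      (hFm'.mul (measurable_Zd B))
      (fun p q h => by
        show F p * Zd G β A p = F q * Zd G β A q
        rw [hFd p q h, Zd_congr h])
      (fun p q h => by
        show F' p * Zd G β B p = F' q * Zd G β B q
        rw [hFd' p q h, Zd_congr h])
  have e3 : ∫ p, (F p * mg G β A p v * Zd G β A p) *
        (F' p * mg G β B p w * Zd G β B p) ∂(Measure.infinitePi ν) =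
      (∫ p, F p * mg G β A p v * Zd G β A p ∂(Measure.infinitePi ν)) *
        ∫ p, F' p * mg G β B p w * Zd G β B p ∂(Measure.infinitePi ν) :=
    infinitePi_mul (A := A) (B := B) hν hd (hGm.mul (measurable_Zd A))
      (hGm'.mul (measurable_Zd B))
      (fun p q h => by
        show F p * mg G β A p v * Zd G β A p = F q * mg G β A q v * Zd G β A q
        rw [hFd p q h, Zd_congr h, mg_congr h])
      (fun p q h => by
        show F' p * mg G β B p w * Zd G β B p = F' q * mg G β B q w * Zd G β B q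
        rw [hFd' p q h, Zd_congr h, mg_congr h])
  rw [e1, integral_add (mc_int_edge hν A B hAS hBS hFm hFm' hC hC')
    ((mc_int_edge hν A B hAS hBS hGm hGm' hD hD').const_mul _), integral_const_mul, e2, e3]
  ring

lemma mc_odd_zero (hν : ∀ v, IsOwn (ν v)) {v : V} (hv : v ∈ S) (hF : Measurable F)
    (hev : ∀ p : V → ℝ, F (fun v => - p v) = F p) :
    EE G β ν S (fun p => F p * mg G β S p v) = 0 := by
  refine EE_odd (F := fun p => F p * mg G β S p v) hν S (hF.mul (measurable_mg S v)) ?_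
  intro p
  show F (fun v => -p v) * mg G β S (fun v => -p v) v = -(F p * mg G β S p v)
  rw [hev, mg_neg hv]
  ring

/-- (1.4) even functionals of the two sides of an edge are independent. -/
lemma EE_edge_even (hG : G.IsTree) (hν : ∀ v, IsOwn (ν v)) {v w : V} (hvw : G.Adj v w)
    (hv : v ∈ S) (hw : w ∈ S) (hF : EvFn (side G S v w) F) (hF' : EvFn (side G S w v) F') :
    EE G β ν S (fun p => F p * F' p) =
      EE G β ν (side G S v w) F * EE G β ν (side G S w v) F' := by
  rw [EE_edge hG hν hvw hv hw hF.toFn hF'.toFn,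
    mc_odd_zero hν (mem_side_left hG hvw hv) hF.meas hF.even]
  ring

lemma mc_one_odd (hν : ∀ v, IsOwn (ν v)) {v : V} (hv : v ∈ S) :
    EE G β ν S (fun p => 1 * mg G β S p v) = 0 :=
  mc_odd_zero (F := fun _ => 1) hν hv measurable_const (fun _ => rfl)

/-- (1.3) consistency along an edge. -/
lemma EE_cons_edge (hG : G.IsTree) (hν : ∀ v, IsOwn (ν v)) {v w : V} (hvw : G.Adj v w)
    (hv : v ∈ S) (hw : w ∈ S) (hF : Fn (side G S v w) F) :
    EE G β ν S F = EE G β ν (side G S v w) F := by
  have h := EE_edge (F' := fun _ => 1) (β := β) hG hν hvw hv hw hF (mc_Fn_const _ 1)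
  rw [EE_const hν, mc_one_odd hν (mem_side_left hG hvw.symm hw)] at h
  simpa using h

omit [DecidableEq V] [DecidableRel G.Adj] in
lemma mc_side_card_lt (hG : G.IsTree) {v w : V} (hvw : G.Adj v w) (hw : w ∈ S) :
    (side G S v w).card < S.card := by
  apply Finset.card_lt_card
  refine ⟨mc_side_subset S v w, fun h => ?_⟩
  have h1 := h hw
  have h2 := mem_side_left hG hvw.symm hw
  exact Finset.disjoint_left.1 (side_disjoint (G := G) S v w) h1 h2

omit [DecidableRel G.Adj] in
/-- Cutting: a nonempty convex proper subset lies on one side of an edge. -/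
lemma mc_cut (hG : G.IsTree) (hS : Cvx G S) (hA : Cvx G A) (hAS : A ⊆ S) (hne : A.Nonempty)
    (hAne : A ≠ S) : ∃ v w, G.Adj v w ∧ v ∈ A ∧ w ∈ S ∧ w ∉ A ∧ A ⊆ side G S v w := by
  obtain ⟨v, w, hvw, hv, hw, hwA⟩ := exists_edge_out hG hS hAS hne hAne
  refine ⟨v, w, hvw, hv, hw, hwA, ?_⟩
  rcases cvx_side_cases hG hA hAS hvw (fun h => hwA h.2) with h | h
  · exact h
  · exfalso
    have h1 := h hv
    have h2 := mem_side_left hG hvw (hAS hv)
    exact Finset.disjoint_left.1 (side_disjoint (G := G) S v w) h2 h1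

omit [DecidableEq V] in
lemma mc_Fn_empty (hF : Fn ∅ F) : F = fun _ => F 0 := by
  funext p
  exact hF.dep p 0 (by simp)

/-- (1.3) consistency. -/
lemma EE_cons (hG : G.IsTree) (hν : ∀ v, IsOwn (ν v)) (hS : Cvx G S) (hA : Cvx G A)
    (hAS : A ⊆ S) (hF : Fn A F) : EE G β ν S F = EE G β ν A F := by
  induction hn : S.card using Nat.strong_induction_on generalizing S with
  | _ n ih =>
    by_cases hne : A.Nonempty
    · by_cases hAne : A = S
      · rw [hAne]
      · obtain ⟨v, w, hvw, hv, hw, hwA, hAs⟩ := mc_cut hG hS hA hAS hne hAne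
        rw [EE_cons_edge hG hν hvw (hAS hv) hw (mc_Fn_mono hAs hF)]
        exact ih _ (hn ▸ mc_side_card_lt hG hvw hw) (cvx_side hG hS hvw) hAs rfl
    · rw [Finset.not_nonempty_iff_eq_empty] at hne
      subst hne
      rw [mc_Fn_empty hF, EE_const hν, EE_const hν]

lemma mc_mart_edge (hG : G.IsTree) (hν : ∀ v, IsOwn (ν v)) {v w : V} (hvw : G.Adj v w)
    (hv : v ∈ S) (hw : w ∈ S) (hF : Fn (side G S v w) F) {y : V} (hy : y ∈ side G S v w) :
    EE G β ν S (fun p => mg G β S p y * F p) =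
      EE G β ν (side G S v w) (fun p => mg G β (side G S v w) p y * F p) := by
  have hd := side_disjoint (G := G) S v w
  have hAS := mc_side_subset (G := G) S v w
  have hBS := mc_side_subset (G := G) S w v
  have hwB := mem_side_left hG hvw.symm hw
  obtain ⟨Y, hYm, hYd, hYb, hY⟩ := mg_split' (β := β) hG hvw hv hw y hy
  set A := side G S v w with hA
  set B := side G S w v with hB
  obtain ⟨hFm, ⟨C, hC⟩, hFd⟩ := hF
  rw [EE_eq hν, EE_eq hν]
  have e1 : ∫ p, mg G β S p y * F p * Zd G β S p ∂(Measure.infinitePi ν) =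
      ∫ p, ((mg G β A p y * F p * Zd G β A p) * Zd G β B p +
        Real.tanh β * ((F p * Y p) * (1 * mg G β B p w * Zd G β B p)))
          ∂(Measure.infinitePi ν) := by
    apply integral_congr_ae
    filter_upwards [ae_abs_lt hν S] with p hp
    have h := hY p hp
    calc mg G β S p y * F p * Zd G β S p = F p * (mg G β S p y * Zd G β S p) := by ring
      _ = _ := by rw [h]; ring
  have hm1 : Measurable fun p : V → ℝ => mg G β A p y * F p * Zd G β A p :=
    ((measurable_mg A y).mul hFm).mul (measurable_Zd A)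
  have hm2 : Measurable fun p : V → ℝ => 1 * mg G β B p w * Zd G β B p :=
    ((measurable_const).mul (measurable_mg B w)).mul (measurable_Zd B)
  have i1 : Integrable (fun p => (mg G β A p y * F p * Zd G β A p) * Zd G β B p)
      (Measure.infinitePi ν) := by
    refine mc_integrable hν (hm1.mul (measurable_Zd B)) S
      (C := (1 * C * 2 ^ A.card) * (2 ^ B.card)) ?_
    intro p hp
    rw [abs_mul, abs_mul, abs_mul]
    have h1 : |mg G β A p y| * |F p| ≤ 1 * C :=
      mul_le_mul (abs_mg_le A p y) (hC p) (abs_nonneg _) zero_le_one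
    have hC0 := mc_bound_nonneg hC
    have h2 : |mg G β A p y| * |F p| * |Zd G β A p| ≤ 1 * C * 2 ^ A.card :=
      mul_le_mul h1 (mc_Zd_abs fun v hv => hp v (hAS hv)) (abs_nonneg _) (by linarith)
    exact mul_le_mul h2 (mc_Zd_abs fun v hv => hp v (hBS hv)) (abs_nonneg _) (by positivity)
  have i2 : Integrable (fun p => (F p * Y p) * (1 * mg G β B p w * Zd G β B p))
      (Measure.infinitePi ν) := by
    refine mc_integrable hν ((hFm.mul hYm).mul hm2) S
      (C := (C * 2 ^ S.card) * (1 * 2 ^ B.card)) ?_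
    intro p hp
    have hC0 := mc_bound_nonneg hC
    rw [abs_mul, abs_mul, abs_mul, one_mul]
    have h1 : |F p| * |Y p| ≤ C * 2 ^ S.card :=
      mul_le_mul (hC p) (hYb p hp) (abs_nonneg _) hC0
    have h2 : |mg G β B p w| * |Zd G β B p| ≤ 1 * 2 ^ B.card :=
      mul_le_mul (abs_mg_le B p w) (mc_Zd_abs fun v hv => hp v (hBS hv)) (abs_nonneg _)
        zero_le_one
    exact mul_le_mul h1 h2 (by positivity) (by positivity)
  have e2 : ∫ p, (mg G β A p y * F p * Zd G β A p) * Zd G β B p ∂(Measure.infinitePi ν) =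
      (∫ p, mg G β A p y * F p * Zd G β A p ∂(Measure.infinitePi ν)) *
        ∫ p, Zd G β B p ∂(Measure.infinitePi ν) :=
    infinitePi_mul (A := A) (B := B) hν hd hm1 (measurable_Zd B)
      (fun p q h => by
        show mg G β A p y * F p * Zd G β A p = mg G β A q y * F q * Zd G β A q
        rw [hFd p q h, Zd_congr h, mg_congr h])
      (fun p q h => Zd_congr h)
  have e3 : ∫ p, (F p * Y p) * (1 * mg G β B p w * Zd G β B p) ∂(Measure.infinitePi ν) =
      (∫ p, F p * Y p ∂(Measure.infinitePi ν)) *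
        ∫ p, 1 * mg G β B p w * Zd G β B p ∂(Measure.infinitePi ν) :=
    infinitePi_mul (A := A) (B := B) hν hd (hFm.mul hYm) hm2
      (fun p q h => by
        show F p * Y p = F q * Y q
        rw [hFd p q h, hYd p q h])
      (fun p q h => by
        show 1 * mg G β B p w * Zd G β B p = 1 * mg G β B q w * Zd G β B q
        rw [Zd_congr h, mg_congr h])
  have e4 : ∫ p, 1 * mg G β B p w * Zd G β B p ∂(Measure.infinitePi ν) = 0 := by
    have h := mc_one_odd (G := G) (β := β) hν hwB
    rw [EE_eq hν] at h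
    exact h
  rw [e1, integral_add i1 (i2.const_mul _), integral_const_mul, e2, e3, e4, integral_Zd hν]
  ring

/-- (1.3) martingale property. -/
lemma EE_mart (hG : G.IsTree) (hν : ∀ v, IsOwn (ν v)) (hS : Cvx G S) (hA : Cvx G A)
    (hAS : A ⊆ S) (hF : Fn A F) {y : V} (hy : y ∈ A) :
    EE G β ν S (fun p => mg G β S p y * F p) = EE G β ν A (fun p => mg G β A p y * F p) := by
  induction hn : S.card using Nat.strong_induction_on generalizing S with
  | _ n ih =>
    by_cases hAne : A = S
    · rw [hAne]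
    · obtain ⟨v, w, hvw, hv, hw, hwA, hAs⟩ := mc_cut hG hS hA hAS ⟨y, hy⟩ hAne
      rw [mc_mart_edge hG hν hvw (hAS hv) hw (mc_Fn_mono hAs hF) (hAs hy)]
      exact ih _ (hn ▸ mc_side_card_lt hG hvw hw) (cvx_side hG hS hvw) hAs rfl

/-- `L²` distance of the magnetizations in two volumes. -/
lemma EE_sub_sq (hG : G.IsTree) (hν : ∀ v, IsOwn (ν v)) (hS : Cvx G S) (hA : Cvx G A)
    (hAS : A ⊆ S) {y : V} (hy : y ∈ A) :
    EE G β ν S (fun p => (mg G β S p y - mg G β A p y) ^ 2) =
      mom G β ν S y 1 - mom G β ν A y 1 := by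
  have hb1 : ∀ p : V → ℝ, |mg G β S p y ^ (2 * 1)| ≤ 1 := fun p => by
    rw [abs_pow]
    exact pow_le_one₀ (abs_nonneg _) (abs_mg_le S p y)
  have hb2 : ∀ p : V → ℝ, |mg G β A p y * mg G β A p y| ≤ 1 := fun p => by
    rw [abs_mul]
    exact mul_le_one₀ (abs_mg_le A p y) (abs_nonneg _) (abs_mg_le A p y)
  have hb3 : ∀ p : V → ℝ, |mg G β S p y * mg G β A p y| ≤ 1 := fun p => by
    rw [abs_mul]
    exact mul_le_one₀ (abs_mg_le S p y) (abs_nonneg _) (abs_mg_le A p y)
  have i1 : Integrable (fun p => mg G β S p y ^ (2 * 1)) (PL G β ν S) :=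
    integrable_PL (G := G) (β := β) hν S ((measurable_mg S y).pow_const (2 * 1)) hb1
  have i2 : Integrable (fun p => mg G β A p y * mg G β A p y) (PL G β ν S) :=
    integrable_PL (G := G) (β := β) hν S ((measurable_mg A y).mul (measurable_mg A y)) hb2
  have i3 : Integrable (fun p => mg G β S p y * mg G β A p y) (PL G β ν S) :=
    integrable_PL (G := G) (β := β) hν S ((measurable_mg S y).mul (measurable_mg A y)) hb3
  have e1 : EE G β ν S (fun p => (mg G β S p y - mg G β A p y) ^ 2) =
      EE G β ν S (fun p => mg G β S p y ^ (2 * 1)) +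
        EE G β ν S (fun p => mg G β A p y * mg G β A p y) -
        2 * EE G β ν S (fun p => mg G β S p y * mg G β A p y) := by
    unfold EE
    have h1 := integral_add i1 i2
    have h2 := integral_sub (i1.add i2) (i3.const_mul 2)
    have h3 := integral_const_mul (μ := PL G β ν S) (2 : ℝ)
      (fun p => mg G β S p y * mg G β A p y)
    calc ∫ p, (mg G β S p y - mg G β A p y) ^ 2 ∂(PL G β ν S)
        = ∫ p, ((fun p => mg G β S p y ^ (2 * 1)) + fun p => mg G β A p y * mg G β A p y) p -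
            2 * (mg G β S p y * mg G β A p y) ∂(PL G β ν S) := by
          congr 1
          funext p
          simp only [Pi.add_apply]
          ring
      _ = _ := by
          rw [h2, h3]
          congr 1
  have hFn := mc_Fn_mg (G := G) (β := β) A y
  rw [e1, EE_mart hG hν hS hA hAS hFn hy, EE_cons hG hν hS hA hAS (mc_Fn_mul hFn hFn)]
  unfold mom
  have e2 : (fun p : V → ℝ => mg G β A p y ^ (2 * 1)) =
      fun p => mg G β A p y * mg G β A p y := by
    funext p
    ring
  rw [e2]
  ring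

/-- Second moments increase with the volume. -/
lemma mom_one_mono (hG : G.IsTree) (hν : ∀ v, IsOwn (ν v)) (hS : Cvx G S) (hA : Cvx G A)
    (hAS : A ⊆ S) {y : V} (hy : y ∈ A) : mom G β ν A y 1 ≤ mom G β ν S y 1 := by
  have h := EE_sub_sq (β := β) hG hν hS hA hAS hy
  have h2 : 0 ≤ EE G β ν S (fun p => (mg G β S p y - mg G β A p y) ^ 2) := by
    unfold EE
    exact integral_nonneg fun p => sq_nonneg _
  linarith

omit [DecidableEq V] in
lemma mc_EvFn_mono (hAS : A ⊆ S) (hF : EvFn A F) : EvFn S F :=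
  ⟨mc_Fn_mono hAS hF.toFn, hF.even⟩

omit [DecidableEq V] in
lemma mc_EvFn_mul (hF : EvFn S F) (hF' : EvFn S F') : EvFn S (fun p => F p * F' p) :=
  ⟨mc_Fn_mul hF.toFn hF'.toFn, fun p => by rw [hF.even, hF'.even]⟩

omit [DecidableEq V] in
lemma mc_EvFn_prod {ι : Type*} [DecidableEq ι] (I : Finset ι) (f : ι → (V → ℝ) → ℝ)
    (hf : ∀ i ∈ I, EvFn S (f i)) : EvFn S (fun p => ∏ i ∈ I, f i p) := by
  induction I using Finset.induction_on with
  | empty => simpa using mc_EvFn_const S 1
  | insert a I ha ih =>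
    have h1 : (fun p => ∏ i ∈ insert a I, f i p) = fun p => f a p * ∏ i ∈ I, f i p := by
      funext p
      exact Finset.prod_insert ha
    rw [h1]
    exact mc_EvFn_mul (hf a (by simp)) (ih fun i hi => hf i (by simp [hi]))

lemma mc_const_mul (c : ℝ) (F : (V → ℝ) → ℝ) :
    EE G β ν S (fun p => F p * c) = EE G β ν S F * c := by
  unfold EE
  exact integral_mul_const _ _

/-- General even independence: even functionals of disjoint convex sets.  Induction on `#S`:
if some `B i = S` the others are empty; otherwise cut `S` along an edge leaving a nonempty `B i`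
(`exists_edge_out`); every `B j` lies on one side (`cvx_side_cases`). -/
theorem EE_prod_indep (hG : G.IsTree) (hν : ∀ v, IsOwn (ν v)) (hS : Cvx G S) {ι : Type*}
    [DecidableEq ι] (I : Finset ι) (B : ι → Finset V) (hB : ∀ i ∈ I, B i ⊆ S)
    (hBc : ∀ i ∈ I, Cvx G (B i)) (hdis : ∀ i ∈ I, ∀ j ∈ I, i ≠ j → Disjoint (B i) (B j))
    (f : ι → (V → ℝ) → ℝ) (hf : ∀ i ∈ I, EvFn (B i) (f i)) :
    EE G β ν S (fun p => ∏ i ∈ I, f i p) = ∏ i ∈ I, EE G β ν (B i) (f i) := by
  induction hn : S.card using Nat.strong_induction_on generalizing S I with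
  | _ n ih =>
    by_cases hex : ∃ i ∈ I, (B i).Nonempty ∧ B i ≠ S
    · obtain ⟨i, hi, hne, hiS⟩ := hex
      obtain ⟨v, w, hvw, hv, hw, hwB⟩ := exists_edge_out hG hS (hB i hi) hne hiS
      have hvS := hB i hi hv
      have hcase : ∀ j ∈ I, B j ⊆ side G S v w ∨ B j ⊆ side G S w v := by
        intro j hj
        refine cvx_side_cases hG (hBc j hj) (hB j hj) hvw ?_
        rintro ⟨h1, h2⟩
        by_cases hij : i = j
        · subst hij
          exact hwB h2
        · exact Finset.disjoint_left.1 (hdis i hi j hj hij) hv h1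
      set I₁ := I.filter (fun j => B j ⊆ side G S v w) with hI₁
      set I₂ := I.filter (fun j => ¬ B j ⊆ side G S v w) with hI₂
      have hs1 : ∀ j ∈ I₁, j ∈ I ∧ B j ⊆ side G S v w := fun j hj => by
        rw [hI₁, Finset.mem_filter] at hj
        exact hj
      have hs2 : ∀ j ∈ I₂, j ∈ I ∧ B j ⊆ side G S w v := fun j hj => by
        rw [hI₂, Finset.mem_filter] at hj
        exact ⟨hj.1, (hcase j hj.1).resolve_left hj.2⟩
      have hprod : (fun p => ∏ i ∈ I, f i p) =
          fun p => (∏ i ∈ I₁, f i p) * ∏ i ∈ I₂, f i p := by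
        funext p
        rw [hI₁, hI₂, Finset.prod_filter_mul_prod_filter_not]
      have hprod' : ∏ i ∈ I, EE G β ν (B i) (f i) =
          (∏ i ∈ I₁, EE G β ν (B i) (f i)) * ∏ i ∈ I₂, EE G β ν (B i) (f i) := by
        rw [hI₁, hI₂, Finset.prod_filter_mul_prod_filter_not]
      have he1 : EvFn (side G S v w) (fun p => ∏ i ∈ I₁, f i p) :=
        mc_EvFn_prod I₁ f fun j hj => mc_EvFn_mono (hs1 j hj).2 (hf j (hs1 j hj).1)
      have he2 : EvFn (side G S w v) (fun p => ∏ i ∈ I₂, f i p) :=
        mc_EvFn_prod I₂ f fun j hj => mc_EvFn_mono (hs2 j hj).2 (hf j (hs2 j hj).1)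
      have j1 := ih _ (hn ▸ mc_side_card_lt hG hvw hw) (cvx_side hG hS hvw) I₁
        (fun j hj => (hs1 j hj).2) (fun j hj => hBc j (hs1 j hj).1)
        (fun j hj k hk => hdis j (hs1 j hj).1 k (hs1 k hk).1) (fun j hj => hf j (hs1 j hj).1) rfl
      have j2 := ih _ (hn ▸ mc_side_card_lt hG hvw.symm hvS) (cvx_side hG hS hvw.symm) I₂
        (fun j hj => (hs2 j hj).2) (fun j hj => hBc j (hs2 j hj).1)
        (fun j hj k hk => hdis j (hs2 j hj).1 k (hs2 k hk).1) (fun j hj => hf j (hs2 j hj).1) rfl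
      rw [hprod, EE_edge_even hG hν hvw hvS hw he1 he2, hprod', j1, j2]
    · push Not at hex
      have hconst : ∀ j ∈ I, B j = ∅ → ∃ c : ℝ, ∀ p, f j p = c := fun j hj h => by
        have h1 := hf j hj
        rw [h] at h1
        exact ⟨f j 0, fun p => h1.dep p 0 (by simp)⟩
      have hconstprod : ∀ J ⊆ I, (∀ j ∈ J, B j = ∅) →
          ∀ p, ∏ j ∈ J, f j p = ∏ j ∈ J, EE G β ν (B j) (f j) := by
        intro J hJ hJe p
        refine Finset.prod_congr rfl fun j hj => ?_
        obtain ⟨c, hc⟩ := hconst j (hJ hj) (hJe j hj)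
        have : f j = fun _ => c := funext hc
        rw [this, EE_const hν]
      by_cases hall : ∀ j ∈ I, B j = ∅
      · have h1 : (fun p => ∏ i ∈ I, f i p) = fun _ => ∏ i ∈ I, EE G β ν (B i) (f i) := by
          funext p
          exact hconstprod I (Finset.Subset.refl I) hall p
        rw [h1, EE_const hν]
      · push Not at hall
        obtain ⟨i, hi, hne⟩ := hall
        have hiS : B i = S := hex i hi hne
        have hJ : ∀ j ∈ I.erase i, B j = ∅ := by
          intro j hj
          rw [Finset.mem_erase] at hj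
          have h1 := hdis i hi j hj.2 (Ne.symm hj.1)
          rw [hiS] at h1
          exact Finset.disjoint_self_iff_empty _ |>.1
            (Finset.disjoint_of_subset_left (hB j hj.2) h1)
        have h1 : (fun p => ∏ i ∈ I, f i p) =
            fun p => f i p * ∏ j ∈ I.erase i, EE G β ν (B j) (f j) := by
          funext p
          rw [← Finset.mul_prod_erase I (fun i => f i p) hi,
            hconstprod (I.erase i) (Finset.erase_subset _ _) hJ p]
        rw [h1, mc_const_mul, ← Finset.mul_prod_erase I (fun i => EE G β ν (B i) (f i)) hi, hiS]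

/-- Two functions of disjoint coordinates, seen as functions of two independent copies. -/
lemma mc_diag (hν : ∀ v, IsOwn (ν v)) {A B : Finset V} (hAB : Disjoint A B)
    {H : (V → ℝ) × (V → ℝ) → ℝ} (hH : Measurable H)
    (hd : ∀ p q p' q' : V → ℝ, (∀ v ∈ A, p v = p' v) → (∀ v ∈ B, q v = q' v) →
      H (p, q) = H (p', q')) :
    ∫ p, H (p, p) ∂Measure.infinitePi ν =
      ∫ z, H z ∂((Measure.infinitePi ν).prod (Measure.infinitePi ν)) := by
  have := fun v => (hν v).prob
  have hind : ProbabilityTheory.iIndepFun (fun (i : V) (ω : V → ℝ) => ω i)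
      (Measure.infinitePi ν) :=
    ProbabilityTheory.iIndepFun_infinitePi (X := fun _ x => x) (fun _ => measurable_id)
  have h2 := hind.indepFun_finset A B hAB (fun i => measurable_pi_apply i)
  have mA : Measurable (fun (a : V → ℝ) (i : A) => a i) :=
    measurable_pi_iff.2 fun i => measurable_pi_apply _
  have mB : Measurable (fun (a : V → ℝ) (i : B) => a i) :=
    measurable_pi_iff.2 fun i => measurable_pi_apply _
  have h3 := (ProbabilityTheory.indepFun_iff_map_prod_eq_prod_map_map mA.aemeasurable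
    mB.aemeasurable).1 h2
  rw [Measure.map_prod_map _ _ mA mB] at h3
  have mK : Measurable (fun y : (A → ℝ) × (B → ℝ) => H (mb_ext A y.1, mb_ext B y.2)) :=
    hH.comp (((mb_ext_meas A).comp measurable_fst).prodMk ((mb_ext_meas B).comp measurable_snd))
  have e1 : ∫ p, H (p, p) ∂Measure.infinitePi ν =
      ∫ y, H (mb_ext A y.1, mb_ext B y.2) ∂((Measure.infinitePi ν).map
        (fun ω => ((fun i : A => ω i), (fun i : B => ω i)))) := by
    rw [integral_map (mA.prodMk mB).aemeasurable mK.aestronglyMeasurable]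
    congr 1
    funext p
    exact hd _ _ _ _ (fun v hv => (mb_ext_restrict A p v hv).symm)
      (fun v hv => (mb_ext_restrict B p v hv).symm)
  rw [e1, h3, integral_map (mA.prodMap mB).aemeasurable mK.aestronglyMeasurable]
  congr 1
  funext z
  obtain ⟨p, q⟩ := z
  exact hd _ _ _ _ (fun v hv => mb_ext_restrict A p v hv) (fun v hv => mb_ext_restrict B q v hv)

omit [DecidableEq V] in
lemma mc_map_neg (hν : ∀ v, IsOwn (ν v)) :
    (Measure.infinitePi ν).map (fun p v => -p v) = Measure.infinitePi ν := by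
  have := fun v => (hν v).prob
  have h1 := Measure.infinitePi_map_pi ν (f := fun _ (x : ℝ) => -x) (fun _ => measurable_neg)
  have h2 : (fun v => (ν v).map (fun x : ℝ => -x)) = ν := by
    funext v
    exact (hν v).symm
  rw [h2] at h1
  exact h1

omit [DecidableEq V] in
/-- Symmetry in the second copy. -/
lemma mc_neg_snd (hν : ∀ v, IsOwn (ν v)) {H : (V → ℝ) × (V → ℝ) → ℝ} (hH : Measurable H) :
    ∫ z, H (z.1, fun v => -z.2 v) ∂((Measure.infinitePi ν).prod (Measure.infinitePi ν)) =
      ∫ z, H z ∂((Measure.infinitePi ν).prod (Measure.infinitePi ν)) := by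
  have := fun v => (hν v).prob
  have mn : Measurable (fun (p : V → ℝ) v => -p v) :=
    measurable_pi_iff.2 fun v => (measurable_pi_apply v).neg
  have h1 : ((Measure.infinitePi ν).prod (Measure.infinitePi ν)).map
      (Prod.map id (fun (p : V → ℝ) v => -p v)) =
        (Measure.infinitePi ν).prod (Measure.infinitePi ν) := by
    rw [← Measure.map_prod_map _ _ measurable_id mn, Measure.map_id, mc_map_neg hν]
  conv_rhs => rw [← h1]
  rw [integral_map (measurable_id.prodMap mn).aemeasurable hH.aestronglyMeasurable]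
  rfl

/-- Integration against the product of two planted laws. -/
lemma mc_prod_PL (hν : ∀ v, IsOwn (ν v)) (A B : Finset V) (H : (V → ℝ) × (V → ℝ) → ℝ) :
    ∫ z, H z ∂((PL G β ν A).prod (PL G β ν B)) =
      ∫ z, Zd G β A z.1 * Zd G β B z.2 * H z
        ∂((Measure.infinitePi ν).prod (Measure.infinitePi ν)) := by
  have := fun v => (hν v).prob
  unfold PL
  have mZ : Measurable (fun z : (V → ℝ) × (V → ℝ) =>
      ENNReal.ofReal (Zd G β A z.1) * ENNReal.ofReal (Zd G β B z.2)) :=
    ((measurable_Zd A).ennreal_ofReal.comp measurable_fst).mul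
      ((measurable_Zd B).ennreal_ofReal.comp measurable_snd)
  rw [prod_withDensity (measurable_Zd A).ennreal_ofReal (measurable_Zd B).ennreal_ofReal,
    integral_withDensity_eq_integral_toReal_smul mZ
      (Filter.Eventually.of_forall fun _ => ENNReal.mul_lt_top ENNReal.ofReal_lt_top
        ENNReal.ofReal_lt_top)]
  apply integral_congr_ae
  filter_upwards [Measure.quasiMeasurePreserving_fst.ae (ae_abs_lt hν A),
    Measure.quasiMeasurePreserving_snd.ae (ae_abs_lt hν B)] with z hz1 hz2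
  rw [ENNReal.toReal_mul, ENNReal.toReal_ofReal (Zd_nonneg fun v hv => (hz1 v hv).le),
    ENNReal.toReal_ofReal (Zd_nonneg fun v hv => (hz2 v hv).le), smul_eq_mul]

lemma mc_K_bound {φ : ℝ → ℝ} {C : ℝ} (hb : ∀ x, |x| ≤ 1 → |φ x| ≤ C) {u w : ℝ} (hu : |u| ≤ 1)
    (hw : |w| < 1) : |(1 + u * w) * φ ((u + w) / (1 + u * w))| ≤ 2 * C := by
  have h1 : |u * w| < 1 := by
    rw [abs_mul]
    calc |u| * |w| ≤ 1 * |w| := by gcongr
      _ < 1 := by linarith
  have h2 := abs_lt.1 h1
  have hu' := abs_le.1 hu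
  have hw' := abs_lt.1 hw
  have hpos : 0 < 1 + u * w := by linarith
  have h3 : |(u + w) / (1 + u * w)| ≤ 1 := by
    rw [abs_div, abs_of_pos hpos, div_le_one hpos, abs_le]
    constructor <;> nlinarith
  rw [abs_mul, abs_of_pos hpos]
  exact mul_le_mul (by linarith) (hb _ h3) (abs_nonneg _) (by norm_num)

/-- (1.5) symmetrization along an edge. -/
lemma EE_sym (hG : G.IsTree) (hν : ∀ v, IsOwn (ν v)) {v w : V} (hvw : G.Adj v w)
    (hv : v ∈ S) (hw : w ∈ S) {φ : ℝ → ℝ} (hφ : Measurable φ) {C : ℝ} (hb : ∀ x, |x| ≤ 1 → |φ x| ≤ C)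
    (hev : ∀ x, φ (-x) = φ x) :
    EE G β ν S (fun p => φ (mg G β S p v)) =
      ∫ z, symf φ (mg G β (side G S v w) z.1 v) (Real.tanh β * mg G β (side G S w v) z.2 w)
        ∂((PL G β ν (side G S v w)).prod (PL G β ν (side G S w v))) := by
  have := fun v => (hν v).prob
  have hd := side_disjoint (G := G) S v w
  have hwB := mem_side_left hG hvw.symm hw
  have hsp := fun (p : V → ℝ) (hp : ∀ v ∈ S, |p v| < 1) =>
    Zd_split (G := G) (β := β) hG hvw hv hw hp
  have hmg := fun (p : V → ℝ) => mg_split (G := G) (β := β) hG hvw hv hw p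
  set A := side G S v w with hA
  set B := side G S w v with hB
  set θ := Real.tanh β with hθ
  have hθlt : |θ| < 1 := by
    rw [abs_lt]; exact ⟨Real.neg_one_lt_tanh β, Real.tanh_lt_one β⟩
  -- the kernel
  set K : ℝ → ℝ → ℝ := fun u w => (1 + u * w) * φ ((u + w) / (1 + u * w)) with hK
  have mK : Measurable (fun y : ℝ × ℝ => K y.1 y.2) := by
    have h1 : Measurable (fun y : ℝ × ℝ => 1 + y.1 * y.2) := by fun_prop
    have h2 : Measurable (fun y : ℝ × ℝ => (y.1 + y.2) / (1 + y.1 * y.2)) := by fun_prop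
    exact h1.mul (hφ.comp h2)
  have m1 : Measurable (fun z : (V → ℝ) × (V → ℝ) => mg G β A z.1 v) :=
    (measurable_mg A v).comp measurable_fst
  have m2 : Measurable (fun z : (V → ℝ) × (V → ℝ) => θ * mg G β B z.2 w) :=
    ((measurable_mg B w).comp measurable_snd).const_mul θ
  set H : (V → ℝ) × (V → ℝ) → ℝ := fun z =>
    Zd G β A z.1 * Zd G β B z.2 * K (mg G β A z.1 v) (θ * mg G β B z.2 w) with hH
  have mH : Measurable H := by
    have h1 : Measurable (fun z : (V → ℝ) × (V → ℝ) => Zd G β A z.1) :=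
      (measurable_Zd A).comp measurable_fst
    have h2 : Measurable (fun z : (V → ℝ) × (V → ℝ) => Zd G β B z.2) :=
      (measurable_Zd B).comp measurable_snd
    exact (h1.mul h2).mul (mK.comp (m1.prodMk m2))
  have hHb : ∀ᵐ z ∂((Measure.infinitePi ν).prod (Measure.infinitePi ν)),
      ‖H z‖ ≤ 2 ^ A.card * 2 ^ B.card * (2 * C) := by
    filter_upwards [Measure.quasiMeasurePreserving_fst.ae (ae_abs_lt hν A),
      Measure.quasiMeasurePreserving_snd.ae (ae_abs_lt hν B)] with z hz1 hz2
    rw [Real.norm_eq_abs, hH]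
    show |Zd G β A z.1 * Zd G β B z.2 * K (mg G β A z.1 v) (θ * mg G β B z.2 w)| ≤ _
    rw [abs_mul, abs_mul]
    have h1 : |Zd G β A z.1| * |Zd G β B z.2| ≤ 2 ^ A.card * 2 ^ B.card :=
      mul_le_mul (mc_Zd_abs hz1) (mc_Zd_abs hz2) (abs_nonneg _) (by positivity)
    refine mul_le_mul h1 (mc_K_bound hb (abs_mg_le A z.1 v) ?_) (abs_nonneg _) (by positivity)
    rw [abs_mul]
    calc |θ| * |mg G β B z.2 w| ≤ |θ| * 1 := by
          gcongr
          exact abs_mg_le B z.2 w
      _ < 1 := by linarith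
  have iH : Integrable H ((Measure.infinitePi ν).prod (Measure.infinitePi ν)) :=
    Integrable.of_bound mH.aestronglyMeasurable _ hHb
  -- left side
  have e1 : EE G β ν S (fun p => φ (mg G β S p v)) = ∫ p, H (p, p) ∂Measure.infinitePi ν := by
    rw [EE_eq hν]
    apply integral_congr_ae
    filter_upwards [ae_abs_lt hν S] with p hp
    show φ (mg G β S p v) * Zd G β S p =
      Zd G β A p * Zd G β B p * K (mg G β A p v) (θ * mg G β B p w)
    rw [hsp p hp, hmg p, hK]
    have h1 : θ * mg G β A p v * mg G β B p w = mg G β A p v * (θ * mg G β B p w) := by ring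
    simp only [h1]
    ring
  have e2 : ∫ p, H (p, p) ∂Measure.infinitePi ν =
      ∫ z, H z ∂((Measure.infinitePi ν).prod (Measure.infinitePi ν)) := by
    refine mc_diag hν hd mH ?_
    intro p q p' q' h1 h2
    show Zd G β A p * Zd G β B q * K (mg G β A p v) (θ * mg G β B q w) =
      Zd G β A p' * Zd G β B q' * K (mg G β A p' v) (θ * mg G β B q' w)
    rw [Zd_congr h1, Zd_congr h2, mg_congr h1, mg_congr h2]
  have e3 := mc_neg_snd hν mH
  have mH' : Measurable (fun z : (V → ℝ) × (V → ℝ) => H (z.1, fun v => -z.2 v)) :=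
    mH.comp (measurable_fst.prodMk
      (measurable_pi_iff.2 fun v => ((measurable_pi_apply v).comp measurable_snd).neg))
  have iH' : Integrable (fun z : (V → ℝ) × (V → ℝ) => H (z.1, fun v => -z.2 v))
      ((Measure.infinitePi ν).prod (Measure.infinitePi ν)) := by
    refine Integrable.of_bound mH'.aestronglyMeasurable (2 ^ A.card * 2 ^ B.card * (2 * C)) ?_
    filter_upwards [Measure.quasiMeasurePreserving_fst.ae (ae_abs_lt hν A),
      Measure.quasiMeasurePreserving_snd.ae (ae_abs_lt hν B)] with z hz1 hz2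
    show ‖Zd G β A z.1 * Zd G β B (fun v => -z.2 v) *
      K (mg G β A z.1 v) (θ * mg G β B (fun v => -z.2 v) w)‖ ≤ _
    rw [Real.norm_eq_abs, abs_mul, abs_mul, Zd_neg]
    have h1 : |Zd G β A z.1| * |Zd G β B z.2| ≤ 2 ^ A.card * 2 ^ B.card :=
      mul_le_mul (mc_Zd_abs hz1) (mc_Zd_abs hz2) (abs_nonneg _) (by positivity)
    refine mul_le_mul h1 (mc_K_bound hb (abs_mg_le A z.1 v) ?_) (abs_nonneg _) (by positivity)
    rw [abs_mul]
    calc |θ| * |mg G β B (fun v => -z.2 v) w| ≤ |θ| * 1 := by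
          gcongr
          exact abs_mg_le B _ w
      _ < 1 := by linarith
  rw [mc_prod_PL hν]
  have e4 : ∫ z, Zd G β A z.1 * Zd G β B z.2 *
      symf φ (mg G β A z.1 v) (θ * mg G β B z.2 w)
        ∂((Measure.infinitePi ν).prod (Measure.infinitePi ν)) =
      ∫ z, 1 / 2 * (H z + H (z.1, fun v => -z.2 v))
        ∂((Measure.infinitePi ν).prod (Measure.infinitePi ν)) := by
    congr 1
    funext z
    show Zd G β A z.1 * Zd G β B z.2 * symf φ (mg G β A z.1 v) (θ * mg G β B z.2 w) =
      1 / 2 * (Zd G β A z.1 * Zd G β B z.2 * K (mg G β A z.1 v) (θ * mg G β B z.2 w) +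
        Zd G β A z.1 * Zd G β B (fun v => -z.2 v) *
          K (mg G β A z.1 v) (θ * mg G β B (fun v => -z.2 v) w))
    rw [Zd_neg, mg_neg hwB]
    simp only [hK, symf]
    ring_nf
  rw [e4, integral_const_mul, integral_add iH iH', e3, e1, e2]
  ring

end Vale.Agent.P161C
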