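import Vale.Agent.Lib.P161C.Core

/-!
P161 critical, module SCAL2 ((2.2) of notes/P161crit/proof.md).  Independent of the rest.
-/

open Finset MeasureTheory

namespace Vale.Agent.P161C
open Vale.Agent.P161

/-! ### (2.2) higher moments -/

/-- even and odd parts of `(1+z)^n` -/
lemma sc2_even (n : ℕ) (z : ℝ) (hz : |z| ≤ 1) :
    ((1 + z) ^ n + (1 - z) ^ n) / 2 ≤ 1 + 2 ^ n * z ^ 2 ∧
      |((1 + z) ^ n - (1 - z) ^ n) / 2| ≤ 2 ^ n * |z| := by
  have hz' := abs_le.1 hz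
  have hb : ∀ n : ℕ, ((1 + z) ^ n + (1 - z) ^ n) / 2 ≤ 2 ^ n := by
    intro n
    have h1 : (1 + z) ^ n ≤ 2 ^ n := pow_le_pow_left₀ (by linarith) (by linarith) n
    have h2 : (1 - z) ^ n ≤ 2 ^ n := pow_le_pow_left₀ (by linarith) (by linarith) n
    linarith
  have hb0 : ∀ n : ℕ, 0 ≤ ((1 + z) ^ n + (1 - z) ^ n) / 2 := by
    intro n
    have h1 : 0 ≤ (1 + z) ^ n := pow_nonneg (by linarith) n
    have h2 : 0 ≤ (1 - z) ^ n := pow_nonneg (by linarith) n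
    linarith
  induction n with
  | zero =>
    simp only [pow_zero, one_mul]
    constructor
    · nlinarith [sq_nonneg z]
    · simp
  | succ n ih =>
    obtain ⟨i1, i2⟩ := ih
    set E := ((1 + z) ^ n + (1 - z) ^ n) / 2 with hE
    set O := ((1 + z) ^ n - (1 - z) ^ n) / 2 with hO
    have e1 : ((1 + z) ^ (n + 1) + (1 - z) ^ (n + 1)) / 2 = E + z * O := by
      rw [hE, hO, pow_succ, pow_succ]; ring
    have e2 : ((1 + z) ^ (n + 1) - (1 - z) ^ (n + 1)) / 2 = O + z * E := by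
      rw [hE, hO, pow_succ, pow_succ]; ring
    have hE0 := hb0 n
    have hE2 := hb n
    rw [← hE] at hE0 hE2
    rw [e1, e2]
    constructor
    · have h1 : z * O ≤ |z| * (2 ^ n * |z|) := by
        calc z * O ≤ |z * O| := le_abs_self _
          _ = |z| * |O| := abs_mul _ _
          _ ≤ _ := mul_le_mul_of_nonneg_left i2 (abs_nonneg _)
      have h2 : |z| * (2 ^ n * |z|) = 2 ^ n * z ^ 2 := by
        rw [← sq_abs z]; ring
      rw [h2] at h1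
      calc E + z * O ≤ 1 + 2 ^ n * z ^ 2 + 2 ^ n * z ^ 2 := by linarith
        _ = _ := by ring
    · calc |O + z * E| ≤ |O| + |z * E| := abs_add_le _ _
        _ = |O| + |z| * E := by rw [abs_mul, abs_of_nonneg hE0]
        _ ≤ 2 ^ n * |z| + |z| * 2 ^ n :=
          add_le_add i2 (mul_le_mul_of_nonneg_left hE2 (abs_nonneg _))
        _ = _ := by ring

/-- `(1+y)^n ≤ 1 + 2^n y` on `[0,1]` -/
lemma sc2_pow (n : ℕ) {y : ℝ} (h0 : 0 ≤ y) (h1 : y ≤ 1) : (1 + y) ^ n ≤ 1 + 2 ^ n * y := by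
  induction n with
  | zero => simp [h0]
  | succ n ih =>
    have h2 : (1 + y) ^ n ≤ 2 ^ n := pow_le_pow_left₀ (by linarith) (by linarith) n
    calc (1 + y) ^ (n + 1) = (1 + y) ^ n + y * (1 + y) ^ n := by ring
      _ ≤ (1 + 2 ^ n * y) + y * 2 ^ n := add_le_add ih (mul_le_mul_of_nonneg_left h2 h0)
      _ = _ := by ring

/-- the even part of `(1+z)^{-n}` -/
lemma sc2_inv (n : ℕ) : ∃ C : ℝ, 0 < C ∧ ∀ z : ℝ, z ^ 2 ≤ 1 / 2 →
    (((1 + z) ^ n)⁻¹ + ((1 - z) ^ n)⁻¹) / 2 ≤ 1 + C * z ^ 2 := by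
  refine ⟨2 ^ n + 2 * 2 ^ n + 2 * (2 ^ n * 2 ^ n), by positivity, fun z hz => ?_⟩
  have hz1 : |z| < 1 := by
    rw [← sq_lt_one_iff_abs_lt_one]
    linarith
  have hz' := abs_lt.1 hz1
  have hp : 0 < (1 + z) ^ n := pow_pos (by linarith) n
  have hm : 0 < (1 - z) ^ n := pow_pos (by linarith) n
  have h1 := (sc2_even n z hz1.le).1
  have hx0 := sq_nonneg z
  have e : (((1 + z) ^ n)⁻¹ + ((1 - z) ^ n)⁻¹) / 2 =
      (((1 + z) ^ n + (1 - z) ^ n) / 2) * ((1 - z ^ 2)⁻¹) ^ n := by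
    have h2 : ((1 - z ^ 2)⁻¹) ^ n = ((1 + z) ^ n)⁻¹ * ((1 - z) ^ n)⁻¹ := by
      rw [inv_pow, ← mul_inv, ← mul_pow]
      congr 2
      ring
    rw [h2]
    field_simp
    ring
  have h3 : (1 - z ^ 2)⁻¹ ≤ 1 + 2 * z ^ 2 := by
    rw [inv_le_iff_one_le_mul₀ (by linarith)]
    nlinarith
  have h4 : ((1 - z ^ 2)⁻¹) ^ n ≤ 1 + 2 ^ n * (2 * z ^ 2) :=
    (pow_le_pow_left₀ (inv_nonneg.2 (by linarith)) h3 n).trans
      (sc2_pow n (by linarith) (by linarith))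
  have h5 : 0 ≤ ((1 - z ^ 2)⁻¹) ^ n := pow_nonneg (inv_nonneg.2 (by linarith)) n
  rw [e]
  have h6 : (0 : ℝ) < 2 ^ n := by positivity
  calc (((1 + z) ^ n + (1 - z) ^ n) / 2) * ((1 - z ^ 2)⁻¹) ^ n ≤
      (1 + 2 ^ n * z ^ 2) * (1 + 2 ^ n * (2 * z ^ 2)) :=
        mul_le_mul h1 h4 h5 (by positivity)
    _ = 1 + (2 ^ n + 2 * 2 ^ n) * z ^ 2 + 2 * (2 ^ n * 2 ^ n) * (z ^ 2 * z ^ 2) := by ring
    _ ≤ 1 + (2 ^ n + 2 * 2 ^ n) * z ^ 2 + 2 * (2 ^ n * 2 ^ n) * (z ^ 2 * 1) := by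
        have : z ^ 2 * z ^ 2 ≤ z ^ 2 * 1 := mul_le_mul_of_nonneg_left (by linarith) hx0
        have := mul_le_mul_of_nonneg_left this (by positivity : (0 : ℝ) ≤ 2 * (2 ^ n * 2 ^ n))
        linarith
    _ = _ := by ring

/-- the even part of `(u+w)^{2q}` -/
lemma sc2_binom (r : ℕ) : ∃ c d : ℝ, 0 ≤ c ∧ 0 ≤ d ∧ ∀ u w : ℝ,
    ((u + w) ^ (2 * (r + 2)) + (u - w) ^ (2 * (r + 2))) / 2 ≤
      (u ^ 2) ^ (r + 2) + (w ^ 2) ^ (r + 2) + c * (u ^ 2 * w ^ 2 * (max (u ^ 2) (w ^ 2)) ^ r) ∧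
    (u * w) * (((u + w) ^ (2 * (r + 2)) - (u - w) ^ (2 * (r + 2))) / 2) ≤
      d * (u ^ 2 * w ^ 2 * (max (u ^ 2) (w ^ 2)) ^ (r + 1)) := by
  induction r with
  | zero =>
    refine ⟨6, 8, by norm_num, by norm_num, fun u w => ⟨?_, ?_⟩⟩
    · apply le_of_eq
      norm_num
      ring
    · have h1 : (u * w) * (((u + w) ^ (2 * (0 + 2)) - (u - w) ^ (2 * (0 + 2))) / 2) =
          4 * (u ^ 2 * w ^ 2) * (u ^ 2 + w ^ 2) := by
        norm_num
        ring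
      rw [h1]
      have h2 : u ^ 2 + w ^ 2 ≤ 2 * max (u ^ 2) (w ^ 2) := by
        have := le_max_left (u ^ 2) (w ^ 2)
        have := le_max_right (u ^ 2) (w ^ 2)
        linarith
      calc 4 * (u ^ 2 * w ^ 2) * (u ^ 2 + w ^ 2) ≤
          4 * (u ^ 2 * w ^ 2) * (2 * max (u ^ 2) (w ^ 2)) :=
            mul_le_mul_of_nonneg_left h2 (by positivity)
        _ = _ := by ring
  | succ r ih =>
    obtain ⟨c, d, hc, hd, ih⟩ := ih
    refine ⟨2 + 2 * c + 2 * d, 2 * d + 2 * 4 ^ (r + 2), by positivity, by positivity,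
      fun u w => ?_⟩
    obtain ⟨i1, i2⟩ := ih u w
    set U := u ^ 2 with hU
    set W := w ^ 2 with hW
    set M := max U W with hM
    have hU0 : 0 ≤ U := sq_nonneg u
    have hW0 : 0 ≤ W := sq_nonneg w
    have hM0 : 0 ≤ M := hU0.trans (le_max_left _ _)
    have hUM : U ≤ M := le_max_left _ _
    have hWM : W ≤ M := le_max_right _ _
    set E := ((u + w) ^ (2 * (r + 2)) + (u - w) ^ (2 * (r + 2))) / 2 with hE
    set O := ((u + w) ^ (2 * (r + 2)) - (u - w) ^ (2 * (r + 2))) / 2 with hO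
    have hE0 : 0 ≤ E := by
      have h1 : 0 ≤ (u + w) ^ (2 * (r + 2)) := by rw [pow_mul]; positivity
      have h2 : 0 ≤ (u - w) ^ (2 * (r + 2)) := by rw [pow_mul]; positivity
      linarith
    have hE1 : E ≤ (4 * M) ^ (r + 2) := by
      have h1 : (u + w) ^ (2 * (r + 2)) ≤ (4 * M) ^ (r + 2) := by
        rw [pow_mul]
        apply pow_le_pow_left₀ (sq_nonneg _)
        nlinarith [sq_nonneg (u - w)]
      have h2 : (u - w) ^ (2 * (r + 2)) ≤ (4 * M) ^ (r + 2) := by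
        rw [pow_mul]
        apply pow_le_pow_left₀ (sq_nonneg _)
        nlinarith [sq_nonneg (u + w)]
      linarith
    have e1 : ((u + w) ^ (2 * (r + 1 + 2)) + (u - w) ^ (2 * (r + 1 + 2))) / 2 =
        (U + W) * E + 2 * ((u * w) * O) := by
      rw [show 2 * (r + 1 + 2) = 2 * (r + 2) + 2 by ring, pow_add, pow_add, hE, hO, hU, hW]
      ring
    have e2 : (u * w) * (((u + w) ^ (2 * (r + 1 + 2)) - (u - w) ^ (2 * (r + 1 + 2))) / 2) =
        (U + W) * ((u * w) * O) + 2 * (U * W) * E := by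
      rw [show 2 * (r + 1 + 2) = 2 * (r + 2) + 2 by ring, pow_add, pow_add, hE, hO, hU, hW]
      ring
    have hX0 : 0 ≤ U * W * M ^ r := by positivity
    have hX1 : 0 ≤ U * W * M ^ (r + 1) := by positivity
    rw [e1, e2]
    constructor
    · have h1 : (U + W) * E ≤ (U + W) * (U ^ (r + 2) + W ^ (r + 2) + c * (U * W * M ^ r)) :=
        mul_le_mul_of_nonneg_left i1 (by positivity)
      have h2 : U ^ (r + 1) ≤ M ^ (r + 1) := pow_le_pow_left₀ hU0 hUM _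
      have h3 : W ^ (r + 1) ≤ M ^ (r + 1) := pow_le_pow_left₀ hW0 hWM _
      have h4 : (U + W) * (U ^ (r + 2) + W ^ (r + 2)) ≤
          U ^ (r + 1 + 2) + W ^ (r + 1 + 2) + 2 * (U * W * M ^ (r + 1)) := by
        have h5 : (U + W) * (U ^ (r + 2) + W ^ (r + 2)) =
            U ^ (r + 1 + 2) + W ^ (r + 1 + 2) + (U * W) * (U ^ (r + 1) + W ^ (r + 1)) := by ring
        rw [h5]
        have := mul_le_mul_of_nonneg_left (add_le_add h2 h3) (mul_nonneg hU0 hW0)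
        linarith
      have h6 : (U + W) * (c * (U * W * M ^ r)) ≤ 2 * c * (U * W * M ^ (r + 1)) := by
        have h7 : U + W ≤ 2 * M := by linarith
        calc (U + W) * (c * (U * W * M ^ r)) ≤ (2 * M) * (c * (U * W * M ^ r)) :=
              mul_le_mul_of_nonneg_right h7 (by positivity)
          _ = _ := by ring
      have h8 : (U + W) * (U ^ (r + 2) + W ^ (r + 2) + c * (U * W * M ^ r)) =
          (U + W) * (U ^ (r + 2) + W ^ (r + 2)) + (U + W) * (c * (U * W * M ^ r)) := by ring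
      have h9 : (2 + 2 * c + 2 * d) * (U * W * M ^ (r + 1)) = 2 * (U * W * M ^ (r + 1)) +
          2 * c * (U * W * M ^ (r + 1)) + 2 * (d * (U * W * M ^ (r + 1))) := by ring
      rw [h9]
      linarith
    · have h1 : (U + W) * ((u * w) * O) ≤ (2 * M) * (d * (U * W * M ^ (r + 1))) := by
        have h7 : U + W ≤ 2 * M := by linarith
        calc (U + W) * ((u * w) * O) ≤ (U + W) * (d * (U * W * M ^ (r + 1))) :=
              mul_le_mul_of_nonneg_left i2 (by positivity)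
          _ ≤ _ := mul_le_mul_of_nonneg_right h7 (by positivity)
      have h2 : 2 * (U * W) * E ≤ 2 * (U * W) * (4 * M) ^ (r + 2) :=
        mul_le_mul_of_nonneg_left hE1 (by positivity)
      have h3 : (2 * M) * (d * (U * W * M ^ (r + 1))) + 2 * (U * W) * (4 * M) ^ (r + 2) =
          (2 * d + 2 * 4 ^ (r + 2)) * (U * W * M ^ (r + 1 + 1)) := by
        rw [mul_pow]
        ring
      linarith

lemma symf_pow_le (q : ℕ) (hq : 2 ≤ q) : ∃ C : ℝ, 0 < C ∧ ∀ u w : ℝ, |u| ≤ 1 → w ^ 2 ≤ 1 / 2 →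
    symf (fun x => x ^ (2 * q)) u w ≤
      u ^ (2 * q) + w ^ (2 * q) + C * u ^ 2 * w ^ 2 * (u ^ (2 * q - 4) + w ^ (2 * q - 4)) := by
  obtain ⟨r, rfl⟩ : ∃ r, q = r + 2 := ⟨q - 2, by omega⟩
  obtain ⟨c, d, hc, _, hcd⟩ := sc2_binom r
  obtain ⟨A, hA, hinv⟩ := sc2_inv (2 * (r + 2) - 1)
  refine ⟨c + A * (1 + c), by positivity, fun u w hu hw => ?_⟩
  have hu2 : u ^ 2 ≤ 1 := by
    rw [← sq_abs]; exact pow_le_one₀ (abs_nonneg _) hu
  have hw2 : w ^ 2 ≤ 1 := by linarith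
  have hu0 := sq_nonneg u
  have hw0 := sq_nonneg w
  set z := u * w with hz
  have hz2 : z ^ 2 ≤ 1 / 2 := by
    rw [hz, mul_pow]
    nlinarith
  have hz1 : |z| < 1 := by
    rw [← sq_lt_one_iff_abs_lt_one]
    linarith
  have hz' := abs_lt.1 hz1
  have hp : 0 < 1 + z := by linarith
  have hm : 0 < 1 - z := by linarith
  set n := 2 * (r + 2) - 1 with hn
  have hn1 : 2 * (r + 2) = n + 1 := by omega
  obtain ⟨b1, _⟩ := hcd u w
  have b2 := hinv z hz2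
  set Ap := (u + w) ^ (2 * (r + 2)) with hAp
  set Bp := (u - w) ^ (2 * (r + 2)) with hBp
  have hA0 : 0 ≤ Ap := by rw [hAp, pow_mul]; positivity
  have hB0 : 0 ≤ Bp := by rw [hBp, pow_mul]; positivity
  have hpn : 0 < (1 + z) ^ n := pow_pos hp n
  have hmn : 0 < (1 - z) ^ n := pow_pos hm n
  have e : symf (fun x => x ^ (2 * (r + 2))) u w =
      1 / 2 * (Ap * ((1 + z) ^ n)⁻¹ + Bp * ((1 - z) ^ n)⁻¹) := by
    unfold symf
    simp only
    rw [← hz, div_pow, div_pow, ← hAp, ← hBp, hn1, pow_succ, pow_succ]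
    field_simp
  have hdiff : (u + w) ^ 2 - (u - w) ^ 2 = 4 * z := by rw [hz]; ring
  -- opposite monotonicity
  have hanti : (Ap - Bp) * (((1 + z) ^ n)⁻¹ - ((1 - z) ^ n)⁻¹) ≤ 0 := by
    rcases le_total 0 z with h0 | h0
    · have h1 : Bp ≤ Ap := by
        rw [hAp, hBp, pow_mul, pow_mul]
        apply pow_le_pow_left₀ (sq_nonneg _)
        linarith
      have h2 : ((1 + z) ^ n)⁻¹ ≤ ((1 - z) ^ n)⁻¹ :=
        inv_anti₀ hmn (pow_le_pow_left₀ hm.le (by linarith) n)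
      exact mul_nonpos_of_nonneg_of_nonpos (by linarith) (by linarith)
    · have h1 : Ap ≤ Bp := by
        rw [hAp, hBp, pow_mul, pow_mul]
        apply pow_le_pow_left₀ (sq_nonneg _)
        linarith
      have h2 : ((1 - z) ^ n)⁻¹ ≤ ((1 + z) ^ n)⁻¹ :=
        inv_anti₀ hpn (pow_le_pow_left₀ hp.le (by linarith) n)
      exact mul_nonpos_of_nonpos_of_nonneg (by linarith) (by linarith)
  have h1 : 1 / 2 * (Ap * ((1 + z) ^ n)⁻¹ + Bp * ((1 - z) ^ n)⁻¹) ≤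
      ((Ap + Bp) / 2) * ((((1 + z) ^ n)⁻¹ + ((1 - z) ^ n)⁻¹) / 2) := by
    have h10 : ((Ap + Bp) / 2) * ((((1 + z) ^ n)⁻¹ + ((1 - z) ^ n)⁻¹) / 2) -
        1 / 2 * (Ap * ((1 + z) ^ n)⁻¹ + Bp * ((1 - z) ^ n)⁻¹) =
        -(1 / 4 * ((Ap - Bp) * (((1 + z) ^ n)⁻¹ - ((1 - z) ^ n)⁻¹))) := by ring
    linarith
  have hE0 : 0 ≤ (Ap + Bp) / 2 := by linarith
  have h2 : ((Ap + Bp) / 2) * ((((1 + z) ^ n)⁻¹ + ((1 - z) ^ n)⁻¹) / 2) ≤
      ((Ap + Bp) / 2) * (1 + A * z ^ 2) := mul_le_mul_of_nonneg_left b2 hE0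
  -- exponents
  have e4 : 2 * (r + 2) - 4 = 2 * r := by omega
  have eu : u ^ (2 * (r + 2)) = (u ^ 2) ^ (r + 2) := by rw [pow_mul]
  have ew : w ^ (2 * (r + 2)) = (w ^ 2) ^ (r + 2) := by rw [pow_mul]
  have eu' : u ^ (2 * r) = (u ^ 2) ^ r := by rw [pow_mul]
  have ew' : w ^ (2 * r) = (w ^ 2) ^ r := by rw [pow_mul]
  rw [e, e4, eu, ew, eu', ew']
  set U := u ^ 2 with hU
  set W := w ^ 2 with hW
  have hmax : (max U W) ^ r ≤ U ^ r + W ^ r := by
    rcases le_total U W with h | h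
    · rw [max_eq_right h]
      have : 0 ≤ U ^ r := by positivity
      linarith
    · rw [max_eq_left h]
      have : 0 ≤ W ^ r := by positivity
      linarith
  have hS0 : 0 ≤ U ^ r + W ^ r := by positivity
  have hUW : 0 ≤ U * W := mul_nonneg hu0 hw0
  have hUW1 : U * W ≤ 1 := by nlinarith
  have h3 : c * (U * W * (max U W) ^ r) ≤ c * (U * W * (U ^ r + W ^ r)) := by
    apply mul_le_mul_of_nonneg_left _ hc
    exact mul_le_mul_of_nonneg_left hmax hUW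
  have h4 : (Ap + Bp) / 2 ≤ U ^ (r + 2) + W ^ (r + 2) + c * (U * W * (U ^ r + W ^ r)) := by
    linarith
  have h5 : (Ap + Bp) / 2 ≤ (1 + c) * (U ^ r + W ^ r) := by
    have h6 : U ^ (r + 2) ≤ U ^ r := pow_le_pow_of_le_one hu0 hu2 (by omega)
    have h7 : W ^ (r + 2) ≤ W ^ r := pow_le_pow_of_le_one hw0 hw2 (by omega)
    have h8 : U * W * (U ^ r + W ^ r) ≤ 1 * (U ^ r + W ^ r) :=
      mul_le_mul_of_nonneg_right hUW1 hS0
    have h9 := mul_le_mul_of_nonneg_left h8 hc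
    linarith
  have h6 : z ^ 2 = U * W := by rw [hz, mul_pow]
  calc _ ≤ _ := h1
    _ ≤ _ := h2
    _ = (Ap + Bp) / 2 + A * (U * W) * ((Ap + Bp) / 2) := by rw [h6]; ring
    _ ≤ (U ^ (r + 2) + W ^ (r + 2) + c * (U * W * (U ^ r + W ^ r))) +
        A * (U * W) * ((1 + c) * (U ^ r + W ^ r)) :=
        add_le_add h4 (mul_le_mul_of_nonneg_left h5 (by positivity))
    _ = _ := by ring

end Vale.Agent.P161C
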