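import Vale.Agent.Lib.P161C.ModelC
import Vale.Agent.Lib.P161C.Scalar
import Vale.Agent.Lib.P161C.Scal2

/-!
P161 critical, module MOMENTS ((3.1), (3.2) of notes/P161crit/proof.md): moments of the
magnetization under the planted law, homogeneous own law at scale `t`.
Uses only statements of MODEL-A/B/C, CVX, SCALAR, SCAL2.
-/

open Finset MeasureTheory

namespace Vale.Agent.P161C
open Vale.Agent.P161

variable {V : Type*} [DecidableEq V] {G : SimpleGraph V} [DecidableRel G.Adj] [G.LocallyFinite]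
  {b : ℕ} {β : ℝ} {S A : Finset V}

/-! ### Constants -/

omit [DecidableEq V] [DecidableRel G.Adj] in
lemma mo_th_nonneg (hC : Crit G b β) : 0 ≤ Real.tanh β := by
  rw [Real.tanh_eq_sinh_div_cosh]
  exact div_nonneg (Real.sinh_nonneg_iff.mpr hC.hβ) (Real.cosh_pos β).le

omit [DecidableEq V] [DecidableRel G.Adj] in
lemma mo_b_ge (hC : Crit G b β) : (2 : ℝ) ≤ b := by exact_mod_cast hC.hb

omit [DecidableEq V] [DecidableRel G.Adj] in
lemma mo_th_sq (hC : Crit G b β) : Real.tanh β ^ 2 = 1 / b := by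
  have h := hC.crit
  have hb := mo_b_ge hC
  field_simp
  linarith

omit [DecidableEq V] [DecidableRel G.Adj] in
lemma mo_th_sq_le (hC : Crit G b β) : Real.tanh β ^ 2 ≤ 1 / 2 := by
  rw [mo_th_sq hC]
  exact one_div_le_one_div_of_le (by norm_num) (mo_b_ge hC)

omit [DecidableEq V] [DecidableRel G.Adj] in
lemma mo_th_lt_one (hC : Crit G b β) : Real.tanh β < 1 := Real.tanh_lt_one β

/-! ### General facts on moments -/

lemma mo_nonneg (ν : V → Measure ℝ) (S : Finset V) (v : V) (q : ℕ) : 0 ≤ mom G β ν S v q := by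
  unfold mom EE
  refine integral_nonneg fun p => ?_
  show 0 ≤ mg G β S p v ^ (2 * q)
  rw [pow_mul]; positivity

lemma mo_meas (S : Finset V) (v : V) (k : ℕ) : Measurable (fun p => mg G β S p v ^ k) :=
  (measurable_mg S v).pow_const k

lemma mo_abs_pow_le (S : Finset V) (p : V → ℝ) (v : V) (k : ℕ) : |mg G β S p v ^ k| ≤ 1 := by
  rw [abs_pow]
  exact pow_le_one₀ (abs_nonneg _) (abs_mg_le S p v)

lemma mo_int {ν : V → Measure ℝ} (hν : ∀ v, IsOwn (ν v)) (S : Finset V) (v : V) (k : ℕ) :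
    Integrable (fun p => mg G β S p v ^ k) (PL G β ν S) :=
  integrable_PL hν S (mo_meas S v k) (fun p => mo_abs_pow_le S p v k)

lemma mo_ae_lt {ν : V → Measure ℝ} (hν : ∀ v, IsOwn (ν v)) {S : Finset V} {v : V} (hv : v ∈ S) :
    ∀ᵐ p ∂PL G β ν S, |mg G β S p v| < 1 := by
  filter_upwards [ae_PL (G := G) (β := β) hν S S] with p hp
  exact abs_mg_lt hv hp

/-- The two-sided bound along an edge, for the second moments. -/
lemma mo_edge (hC : Crit G b β) {ν : V → Measure ℝ} (hν : ∀ v, IsOwn (ν v)) {v w : V}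
    (hvw : G.Adj v w) (hv : v ∈ S) (hw : w ∈ S) :
    ff (mom G β ν (side G S v w) v 1) (Real.tanh β ^ 2 * mom G β ν (side G S w v) w 1) ≤
        mom G β ν S v 1 ∧
      mom G β ν S v 1 ≤ mom G β ν (side G S v w) v 1 +
        Real.tanh β ^ 2 * mom G β ν (side G S w v) w 1 -
        mom G β ν (side G S v w) v 1 * (Real.tanh β ^ 2 * mom G β ν (side G S w v) w 1) := by
  have hPA : IsProbabilityMeasure (PL G β ν (side G S v w)) := isProb_PL hν _
  have hPB : IsProbabilityMeasure (PL G β ν (side G S w v)) := isProb_PL hν _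
  have hth0 := mo_th_nonneg hC
  have hth1 := mo_th_lt_one hC
  have hth2 := mo_th_sq_le hC
  have hvA : v ∈ side G S v w := mem_side_left hC.tree hvw hv
  have hwB : w ∈ side G S w v := mem_side_left hC.tree hvw.symm hw
  have hsym := EE_sym (G := G) (β := β) hC.tree hν hvw hv hw (φ := fun x => x ^ 2) (by fun_prop)
    (C := 1) (fun x hx => by
      rw [abs_pow]
      exact pow_le_one₀ (abs_nonneg _) hx) (fun x => by ring)
  have hS : mom G β ν S v 1 = EE G β ν S (fun p => (fun x : ℝ => x ^ 2) (mg G β S p v)) := by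
    unfold mom
    simp
  rw [hS, hsym]
  have hae : ∀ᵐ z ∂((PL G β ν (side G S v w)).prod (PL G β ν (side G S w v))),
      symf (fun x => x ^ 2) (mg G β (side G S v w) z.1 v)
        (Real.tanh β * mg G β (side G S w v) z.2 w) =
      ff ((fun p => mg G β (side G S v w) p v ^ 2) z.1)
        ((fun p => (Real.tanh β * mg G β (side G S w v) p w) ^ 2) z.2) := by
    have h1 : ∀ᵐ z ∂((PL G β ν (side G S v w)).prod (PL G β ν (side G S w v))),
        |mg G β (side G S v w) z.1 v| < 1 :=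
      Measure.quasiMeasurePreserving_fst.ae (mo_ae_lt hν hvA)
    filter_upwards [h1] with z hz
    have h2 : |Real.tanh β * mg G β (side G S w v) z.2 w| < 1 := by
      rw [abs_mul, abs_of_nonneg hth0]
      have := abs_mg_le (G := G) (β := β) (side G S w v) z.2 w
      nlinarith [abs_nonneg (mg G β (side G S w v) z.2 w)]
    exact symf_sq hz h2
  rw [integral_congr_ae hae]
  have hj := ff_jensen (P := PL G β ν (side G S v w)) (Q := PL G β ν (side G S w v))
    (X := fun p => mg G β (side G S v w) p v ^ 2)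
    (Y := fun p => (Real.tanh β * mg G β (side G S w v) p w) ^ 2)
    (mo_meas _ _ 2) ((measurable_const.mul (measurable_mg _ _)).pow_const 2)
    (fun p => by positivity) (fun p => by
      have := mo_abs_pow_le (G := G) (β := β) (side G S v w) p v 2
      exact (abs_le.mp this).2) (c := 1 / 2) (by norm_num) (fun p => by positivity) (fun p => by
      have := (abs_le.mp (mo_abs_pow_le (G := G) (β := β) (side G S w v) p w 2)).2
      rw [mul_pow]
      nlinarith [sq_nonneg (mg G β (side G S w v) p w), sq_nonneg (Real.tanh β)])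
  have e1 : ∫ p, mg G β (side G S v w) p v ^ 2 ∂(PL G β ν (side G S v w)) =
      mom G β ν (side G S v w) v 1 := by
    unfold mom EE; simp
  have e2 : ∫ p, (Real.tanh β * mg G β (side G S w v) p w) ^ 2 ∂(PL G β ν (side G S w v)) =
      Real.tanh β ^ 2 * mom G β ν (side G S w v) w 1 := by
    unfold mom EE
    simp only [mul_pow, mul_one]
    rw [integral_const_mul]
  rw [e1, e2] at hj
  exact hj

/-- Second moments along an edge, upper bound. -/
lemma mom_one_le_edge (hC : Crit G b β) {ν : V → Measure ℝ} (hν : ∀ v, IsOwn (ν v)) {v w : V}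
    (hvw : G.Adj v w) (hv : v ∈ S) (hw : w ∈ S) :
    mom G β ν S v 1 ≤ mom G β ν (side G S v w) v 1 +
      Real.tanh β ^ 2 * mom G β ν (side G S w v) w 1 -
      mom G β ν (side G S v w) v 1 * (Real.tanh β ^ 2 * mom G β ν (side G S w v) w 1) :=
  (mo_edge hC hν hvw hv hw).2

lemma mo_le_one {ν : V → Measure ℝ} (hν : ∀ v, IsOwn (ν v)) (S : Finset V) (v : V) (q : ℕ) :
    mom G β ν S v q ≤ 1 := by
  have hP : IsProbabilityMeasure (PL G β ν S) := isProb_PL hν _
  unfold mom EE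
  calc ∫ p, mg G β S p v ^ (2 * q) ∂PL G β ν S ≤ ∫ _, (1 : ℝ) ∂PL G β ν S :=
        integral_mono (mo_int hν S v _) (integrable_const _)
          (fun p => (abs_le.mp (mo_abs_pow_le (G := G) (β := β) S p v (2 * q))).2)
    _ = 1 := by simp

/-- Second moments along an edge, lower bound (with smaller values `a, c` allowed). -/
lemma mom_one_ge_edge (hC : Crit G b β) {ν : V → Measure ℝ} (hν : ∀ v, IsOwn (ν v)) {v w : V}
    (hvw : G.Adj v w) (hv : v ∈ S) (hw : w ∈ S) {a c : ℝ} (ha0 : 0 ≤ a) (hc0 : 0 ≤ c)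
    (ha : a ≤ mom G β ν (side G S v w) v 1)
    (hc : c ≤ Real.tanh β ^ 2 * mom G β ν (side G S w v) w 1) :
    a + c - 2 * a * c ≤ mom G β ν S v 1 := by
  have h1 := (mo_edge hC hν hvw hv hw).1
  have hA := mo_le_one (G := G) (β := β) hν (side G S v w) v 1
  have hB := mo_le_one (G := G) (β := β) hν (side G S w v) w 1
  have hB0 := mo_nonneg (G := G) (β := β) ν (side G S w v) w 1
  have hth2 := mo_th_sq_le hC
  have hlt : Real.tanh β ^ 2 * mom G β ν (side G S w v) w 1 < 1 := by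
    nlinarith [sq_nonneg (Real.tanh β)]
  have h2 := ff_mono ha0 ha hA hc0 hc hlt
  have h3 := ff_ge ha0 (ha.trans hA) hc0 (lt_of_le_of_lt hc hlt)
  linarith

/-- Higher moments along an edge. -/
lemma mom_le_edge (q : ℕ) (hq : 2 ≤ q) : ∃ C : ℝ, 0 < C ∧
    ∀ (hC : Crit G b β) (ν : V → Measure ℝ) (_ : ∀ v, IsOwn (ν v)) (S : Finset V) (v w : V)
    (_ : G.Adj v w) (_ : v ∈ S) (_ : w ∈ S),
    mom G β ν S v q ≤ mom G β ν (side G S v w) v q +
      Real.tanh β ^ (2 * q) * mom G β ν (side G S w v) w q +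
      C * (mom G β ν (side G S v w) v (q - 1) * mom G β ν (side G S w v) w 1 +
        mom G β ν (side G S v w) v 1 * mom G β ν (side G S w v) w (q - 1)) := by
  obtain ⟨C, hC0, hCb⟩ := symf_pow_le q hq
  refine ⟨C, hC0, ?_⟩
  intro hC ν hν S v w hvw hv hw
  have hPA : IsProbabilityMeasure (PL G β ν (side G S v w)) := isProb_PL hν _
  have hPB : IsProbabilityMeasure (PL G β ν (side G S w v)) := isProb_PL hν _
  have hth0 := mo_th_nonneg hC
  have hth1 := mo_th_lt_one hC
  have hth2 := mo_th_sq_le hC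
  have hsym := EE_sym (G := G) (β := β) hC.tree hν hvw hv hw (φ := fun x => x ^ (2 * q))
    (by fun_prop) (C := 1) (fun x hx => by
      rw [abs_pow]
      exact pow_le_one₀ (abs_nonneg _) hx) (fun x => by
      rw [Even.neg_pow (by exact even_two_mul q)])
  have hS : mom G β ν S v q = EE G β ν S (fun p => (fun x : ℝ => x ^ (2 * q)) (mg G β S p v)) := rfl
  rw [hS, hsym]
  obtain ⟨k, rfl⟩ : ∃ k, q = k + 2 := ⟨q - 2, by omega⟩
  set PA := PL G β ν (side G S v w) with hPAd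
  set PB := PL G β ν (side G S w v) with hPBd
  set X : (V → ℝ) → ℝ := fun p => mg G β (side G S v w) p v with hX
  set Y : (V → ℝ) → ℝ := fun p => mg G β (side G S w v) p w with hY
  set θ := Real.tanh β with hθ
  have hXi : ∀ j, Integrable (fun p => X p ^ j) PA := fun j => mo_int hν _ _ _
  have hYi : ∀ j, Integrable (fun p => Y p ^ j) PB := fun j => mo_int hν _ _ _
  have hi1 : Integrable (fun z : (V → ℝ) × (V → ℝ) => X z.1 ^ (2 * (k + 2))) (PA.prod PB) :=
    (hXi _).comp_fst PB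
  have hi2 : Integrable (fun z : (V → ℝ) × (V → ℝ) => θ ^ (2 * (k + 2)) * Y z.2 ^ (2 * (k + 2)))
      (PA.prod PB) := ((hYi _).comp_snd PA).const_mul _
  have hi3 : Integrable (fun z : (V → ℝ) × (V → ℝ) => X z.1 ^ (2 * (k + 1)) * Y z.2 ^ (2 * 1))
      (PA.prod PB) := (hXi _).mul_prod (hYi _)
  have hi4 : Integrable (fun z : (V → ℝ) × (V → ℝ) => X z.1 ^ (2 * 1) * Y z.2 ^ (2 * (k + 1)))
      (PA.prod PB) := (hXi _).mul_prod (hYi _)
  have hth2k : ∀ j, 0 ≤ θ ^ j ∧ θ ^ j ≤ 1 := fun j =>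
    ⟨pow_nonneg hth0 j, pow_le_one₀ hth0 hth1.le⟩
  have hbd : ∀ z : (V → ℝ) × (V → ℝ),
      symf (fun x => x ^ (2 * (k + 2))) (X z.1) (θ * Y z.2) ≤
        X z.1 ^ (2 * (k + 2)) + θ ^ (2 * (k + 2)) * Y z.2 ^ (2 * (k + 2)) +
          C * (X z.1 ^ (2 * (k + 1)) * Y z.2 ^ (2 * 1) + X z.1 ^ (2 * 1) * Y z.2 ^ (2 * (k + 1))) := by
    intro z
    have hX1 : |X z.1| ≤ 1 := abs_mg_le _ _ _
    have hY1 : |Y z.2| ≤ 1 := abs_mg_le _ _ _
    have hY2 : Y z.2 ^ 2 ≤ 1 := by
      rw [← sq_abs]; exact pow_le_one₀ (abs_nonneg _) hY1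
    have h := hCb (X z.1) (θ * Y z.2) hX1 (by
      rw [mul_pow]
      nlinarith [sq_nonneg (Y z.2), sq_nonneg θ])
    refine h.trans ?_
    have e1 : X z.1 ^ 2 * X z.1 ^ (2 * (k + 2) - 4) = X z.1 ^ (2 * (k + 1)) := by
      rw [← pow_add]; congr 1; omega
    have e2 : (θ * Y z.2) ^ 2 * (θ * Y z.2) ^ (2 * (k + 2) - 4) =
        θ ^ (2 * (k + 1)) * Y z.2 ^ (2 * (k + 1)) := by
      rw [← pow_add, ← mul_pow]; congr 1; omega
    have e3 : (θ * Y z.2) ^ (2 * (k + 2)) = θ ^ (2 * (k + 2)) * Y z.2 ^ (2 * (k + 2)) := mul_pow _ _ _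
    have e4 : C * X z.1 ^ 2 * (θ * Y z.2) ^ 2 *
        (X z.1 ^ (2 * (k + 2) - 4) + (θ * Y z.2) ^ (2 * (k + 2) - 4)) =
        C * ((X z.1 ^ 2 * X z.1 ^ (2 * (k + 2) - 4)) * (θ * Y z.2) ^ 2 +
          X z.1 ^ 2 * ((θ * Y z.2) ^ 2 * (θ * Y z.2) ^ (2 * (k + 2) - 4))) := by ring
    rw [e4, e1, e2, e3]
    have hXn : 0 ≤ X z.1 ^ (2 * (k + 1)) := by rw [pow_mul]; positivity
    have hYn : 0 ≤ Y z.2 ^ (2 * (k + 1)) := by rw [pow_mul]; positivity
    have h5 : (θ * Y z.2) ^ 2 ≤ Y z.2 ^ (2 * 1) := by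
      rw [mul_one, mul_pow]
      have := (hth2k 2).2
      nlinarith [sq_nonneg (Y z.2)]
    have h6 : θ ^ (2 * (k + 1)) * Y z.2 ^ (2 * (k + 1)) ≤ Y z.2 ^ (2 * (k + 1)) := by
      have := (hth2k (2 * (k + 1))).2
      nlinarith
    have h7 : X z.1 ^ (2 * (k + 1)) * (θ * Y z.2) ^ 2 ≤ X z.1 ^ (2 * (k + 1)) * Y z.2 ^ (2 * 1) :=
      mul_le_mul_of_nonneg_left h5 hXn
    have h8 : X z.1 ^ 2 * (θ ^ (2 * (k + 1)) * Y z.2 ^ (2 * (k + 1))) ≤
        X z.1 ^ (2 * 1) * Y z.2 ^ (2 * (k + 1)) := by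
      rw [mul_one]
      exact mul_le_mul_of_nonneg_left h6 (sq_nonneg _)
    have h9 := mul_le_mul_of_nonneg_left (add_le_add h7 h8) hC0.le
    linarith
  have hnn : ∀ z : (V → ℝ) × (V → ℝ),
      0 ≤ symf (fun x => x ^ (2 * (k + 2))) (X z.1) (θ * Y z.2) := by
    intro z
    have hX1 : |X z.1| ≤ 1 := abs_mg_le _ _ _
    have hY1 : |θ * Y z.2| ≤ 1 := by
      rw [abs_mul, abs_of_nonneg hth0]
      have : |Y z.2| ≤ 1 := abs_mg_le _ _ _
      nlinarith [abs_nonneg (Y z.2)]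
    have hXY : |X z.1 * (θ * Y z.2)| ≤ 1 := by
      rw [abs_mul]
      exact mul_le_one₀ hX1 (abs_nonneg _) hY1
    have := abs_le.mp hXY
    unfold symf
    have p1 : 0 ≤ ((X z.1 + θ * Y z.2) / (1 + X z.1 * (θ * Y z.2))) ^ (2 * (k + 2)) := by
      rw [pow_mul]; positivity
    have p2 : 0 ≤ ((X z.1 - θ * Y z.2) / (1 - X z.1 * (θ * Y z.2))) ^ (2 * (k + 2)) := by
      rw [pow_mul]; positivity
    have q1 : 0 ≤ 1 + X z.1 * (θ * Y z.2) := by linarith
    have q2 : 0 ≤ 1 - X z.1 * (θ * Y z.2) := by linarith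
    have := mul_nonneg q1 p1
    have := mul_nonneg q2 p2
    linarith
  have hle := integral_mono_of_nonneg (μ := PA.prod PB) (Filter.Eventually.of_forall hnn)
    (((hi1.add hi2)).add ((hi3.add hi4).const_mul C)) (Filter.Eventually.of_forall hbd)
  refine hle.trans (le_of_eq ?_)
  have g1 := integral_add hi1 hi2
  have g2 := integral_add hi3 hi4
  have g3 := integral_add (hi1.add hi2) ((hi3.add hi4).const_mul C)
  simp only [Pi.add_apply] at g1 g2 g3 ⊢
  rw [g3, g1, integral_const_mul C, g2]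
  have f1 : ∫ z : (V → ℝ) × (V → ℝ), X z.1 ^ (2 * (k + 2)) ∂(PA.prod PB) =
      mom G β ν (side G S v w) v (k + 2) := by
    rw [integral_fun_fst (fun p => X p ^ (2 * (k + 2)))]
    simp [mom, EE, hX, hPAd]
  have f2 : ∫ z : (V → ℝ) × (V → ℝ), θ ^ (2 * (k + 2)) * Y z.2 ^ (2 * (k + 2)) ∂(PA.prod PB) =
      θ ^ (2 * (k + 2)) * mom G β ν (side G S w v) w (k + 2) := by
    rw [integral_const_mul, integral_fun_snd (fun p => Y p ^ (2 * (k + 2)))]
    simp [mom, EE, hY, hPBd]
  have f3 : ∫ z : (V → ℝ) × (V → ℝ), X z.1 ^ (2 * (k + 1)) * Y z.2 ^ (2 * 1) ∂(PA.prod PB) =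
      mom G β ν (side G S v w) v (k + 1) * mom G β ν (side G S w v) w 1 := by
    rw [integral_prod_mul (fun p => X p ^ (2 * (k + 1))) (fun p => Y p ^ (2 * 1))]
    rfl
  have f4 : ∫ z : (V → ℝ) × (V → ℝ), X z.1 ^ (2 * 1) * Y z.2 ^ (2 * (k + 1)) ∂(PA.prod PB) =
      mom G β ν (side G S v w) v 1 * mom G β ν (side G S w v) w (k + 1) := by
    rw [integral_prod_mul (fun p => X p ^ (2 * 1)) (fun p => Y p ^ (2 * (k + 1)))]
    rfl
  have hk : k + 2 - 1 = k + 1 := by omega
  rw [f1, f2, f3, f4, hk]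

/-! ### Neighbours in a set -/

/-- Neighbours of `v` in `S`. -/
def nbS (G : SimpleGraph V) [DecidableRel G.Adj] (S : Finset V) (v : V) : Finset V :=
  S.filter (fun w => G.Adj v w)

lemma mem_nbS {S : Finset V} {v w : V} : w ∈ nbS G S v ↔ w ∈ S ∧ G.Adj v w := by
  unfold nbS; rw [mem_filter]

lemma card_nbS_le (hC : Crit G b β) (S : Finset V) (v : V) : (nbS G S v).card ≤ b + 1 := by
  have h := hC.reg v
  rw [← h, ← SimpleGraph.card_neighborFinset_eq_degree]
  refine Finset.card_le_card fun w hw => ?_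
  rw [mem_nbS] at hw
  rw [SimpleGraph.mem_neighborFinset]
  exact hw.2

lemma mo_dist_two (hG : G.IsTree) {v w c : V} (hvw : G.Adj v w) (hvc : G.Adj v c) (hwc : w ≠ c) :
    G.dist w v < G.dist w c := by
  have h1 : G.dist w v = 1 := SimpleGraph.dist_eq_one_iff_adj.mpr hvw.symm
  rcases side_cases hG hvc w with h | h
  · exact h.1
  · exfalso
    have h0 : G.dist w c = 0 := by omega
    exact hwc ((hG.connected.dist_eq_zero_iff).mp h0)

/-- Neighbours of `v` after cutting off the branch at `c`. -/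
lemma nbS_side_left (hG : G.IsTree) {S : Finset V} {v c : V} (hvc : G.Adj v c) :
    nbS G (side G S v c) v = (nbS G S v).erase c := by
  ext w
  rw [mem_nbS, Finset.mem_erase, mem_nbS, mem_side]
  constructor
  · rintro ⟨⟨h1, h2⟩, h3⟩
    refine ⟨?_, h1, h3⟩
    rintro rfl
    rw [SimpleGraph.dist_self] at h2
    omega
  · rintro ⟨h1, h2, h3⟩
    exact ⟨⟨h2, mo_dist_two hG h3 hvc h1⟩, h3⟩

lemma card_nbS_side_left (hG : G.IsTree) {S : Finset V} {v c : V} (hvc : G.Adj v c)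
    (hc : c ∈ S) : (nbS G (side G S v c) v).card + 1 = (nbS G S v).card := by
  rw [nbS_side_left hG hvc]
  exact Finset.card_erase_add_one (mem_nbS.mpr ⟨hc, hvc⟩)

lemma card_nbS_side_right (hC : Crit G b β) {S : Finset V} {v c : V} (hvc : G.Adj v c) :
    (nbS G (side G S c v) c).card ≤ b := by
  have h := hC.reg c
  have h1 : (nbS G (side G S c v) c) ⊆ (G.neighborFinset c).erase v := by
    rw [nbS_side_left hC.tree hvc.symm]
    intro w hw
    rw [Finset.mem_erase, mem_nbS] at hw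
    rw [Finset.mem_erase, SimpleGraph.mem_neighborFinset]
    exact ⟨hw.1, hw.2.2⟩
  refine (Finset.card_le_card h1).trans ?_
  rw [Finset.card_erase_of_mem (by rw [SimpleGraph.mem_neighborFinset]; exact hvc.symm),
    SimpleGraph.card_neighborFinset_eq_degree, h]
  omega

lemma nbS_empty (hG : G.IsTree) {S : Finset V} (hS : Cvx G S) {v : V} (hv : v ∈ S)
    (h : nbS G S v = ∅) : S = {v} := by
  by_contra hne
  obtain ⟨v', w, hvw, hv', hw, hwn⟩ := exists_edge_out hG hS (B := {v})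
    (by simpa using hv) (by simp) (fun h => hne h.symm)
  rw [Finset.mem_singleton] at hv'
  subst hv'
  have : w ∈ nbS G S v' := mem_nbS.mpr ⟨hw, hvw⟩
  rw [h] at this
  simp at this

lemma card_side_lt_left {S : Finset V} {v c : V} (hc : c ∈ S) :
    (side G S v c).card < S.card := by
  refine Finset.card_lt_card ⟨fun x hx => (mem_side.mp hx).1, fun h => ?_⟩
  have := (mem_side.mp (h hc)).2
  rw [SimpleGraph.dist_self] at this
  omega

/-- Moments in a one point volume. -/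
lemma mom_singleton {ν : V → Measure ℝ} (hν : ∀ v, IsOwn (ν v)) (v : V) (q : ℕ) :
    mom G β ν {v} v q = ∫ x, x ^ (2 * q) ∂(ν v) := by
  have : ∀ v, IsProbabilityMeasure (ν v) := fun v => (hν v).prob
  unfold mom
  rw [EE_eq hν]
  simp only [Zd_singleton, mul_one]
  have hae : ∀ᵐ p ∂Measure.infinitePi ν, mg G β {v} p v ^ (2 * q) = (p v) ^ (2 * q) := by
    filter_upwards [ae_abs_lt hν {v}] with p hp
    rw [mg_singleton (hp v (by simp))]
  rw [integral_congr_ae hae, ← Measure.infinitePi_map_eval ν v,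
    integral_map (measurable_pi_apply v).aemeasurable (by fun_prop)]

/-! ### (3.1) -/

lemma mo_s_bounds {ν : Measure ℝ} (hν : IsOwn ν) :
    0 ≤ ∫ x, x ^ 2 ∂ν ∧ ∫ x, x ^ 2 ∂ν ≤ 1 := by
  have := hν.prob
  refine ⟨integral_nonneg fun x => sq_nonneg x, ?_⟩
  calc ∫ x, x ^ 2 ∂ν ≤ ∫ _, (1 : ℝ) ∂ν := by
        refine integral_mono_of_nonneg (Filter.Eventually.of_forall fun x => sq_nonneg x)
          (integrable_const _) ?_
        filter_upwards [hν.supp] with x hx
        have := abs_lt.mp hx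
        nlinarith
    _ = 1 := by simp

lemma mo_bern {b : ℕ} (hb : 2 ≤ b) {y : ℝ} (hy0 : 0 ≤ y) (hy2 : y ≤ 2) :
    (1 - y / 2) ^ 2 ≤ (1 - y / b) ^ b := by
  have hb' : (2 : ℝ) ≤ b := by exact_mod_cast hb
  have hb0 : (0 : ℝ) < b := by linarith
  have h0 : 0 ≤ 1 - y / b := by
    rw [sub_nonneg, div_le_one hb0]; linarith
  have h1 := one_add_mul_self_le_rpow_one_add (s := -(y / b)) (by linarith) (p := (b : ℝ) / 2)
    (by linarith)
  have e1 : 1 + (b : ℝ) / 2 * -(y / b) = 1 - y / 2 := by field_simp; ring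
  have e2 : 1 + -(y / b) = 1 - y / b := by ring
  rw [e1, e2] at h1
  have h2 : 0 ≤ 1 - y / 2 := by linarith
  calc (1 - y / 2) ^ 2 ≤ ((1 - y / b) ^ ((b : ℝ) / 2)) ^ 2 := pow_le_pow_left₀ h2 h1 2
    _ = (1 - y / b) ^ b := by
        rw [← Real.rpow_natCast, ← Real.rpow_mul h0, ← Real.rpow_natCast]
        congr 1
        push_cast
        ring

lemma mo_poly {σ : ℝ} (h0 : 0 ≤ σ) (h1 : σ ≤ 1) :
    1 - 2 * σ ≤ (1 - σ ^ 2) * (1 - σ) ^ 2 := by
  have : (1 - σ) ^ 2 ≤ 1 := by nlinarith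
  nlinarith [sq_nonneg σ, mul_nonneg (sq_nonneg σ) (sub_nonneg.mpr this)]

/-- `(1-s)(1-2√s/b)^r ≥ 1 - 2√s` for `r ≤ b`. -/
lemma mo_key {b : ℕ} (hb : 2 ≤ b) {s : ℝ} (hs0 : 0 ≤ s) (hs1 : s ≤ 1) {r : ℕ} (hr : r ≤ b) :
    1 - 2 * √s ≤ (1 - s) * (1 - 2 * √s / b) ^ r := by
  have hσ0 : 0 ≤ √s := Real.sqrt_nonneg s
  have hσ1 : √s ≤ 1 := Real.sqrt_le_one.mpr hs1
  have hσ2 : √s ^ 2 = s := Real.sq_sqrt hs0
  have hb' : (2 : ℝ) ≤ b := by exact_mod_cast hb
  have hb0 : (0 : ℝ) < b := by linarith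
  have h0 : 0 ≤ 1 - 2 * √s / b := by
    rw [sub_nonneg, div_le_one hb0]; linarith
  have h1 : 1 - 2 * √s / b ≤ 1 := by
    have : 0 ≤ 2 * √s / b := by positivity
    linarith
  have h2 := mo_bern hb (y := 2 * √s) (by linarith) (by linarith)
  have h3 := mo_poly hσ0 hσ1
  have e : (1 - 2 * √s / 2) ^ 2 = (1 - √s) ^ 2 := by ring
  rw [e] at h2
  rw [hσ2] at h3
  calc 1 - 2 * √s ≤ (1 - s) * (1 - √s) ^ 2 := h3
    _ ≤ (1 - s) * (1 - 2 * √s / b) ^ b := mul_le_mul_of_nonneg_left h2 (by linarith)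
    _ ≤ (1 - s) * (1 - 2 * √s / b) ^ r :=
        mul_le_mul_of_nonneg_left (pow_le_pow_of_le_one h0 h1 hr) (by linarith)

lemma mo_claim (hC : Crit G b β) {ν : Measure ℝ} (hν : IsOwn ν) :
    ∀ n : ℕ, ∀ S : Finset V, S.card ≤ n → ∀ v ∈ S, Cvx G S →
      (1 - ∫ x, x ^ 2 ∂ν) * (1 - 2 * √(∫ x, x ^ 2 ∂ν) / b) ^ (nbS G S v).card ≤
        1 - mom G β (fun _ => ν) S v 1 := by
  obtain ⟨hs0, hs1⟩ := mo_s_bounds hν
  set s := ∫ x, x ^ 2 ∂ν with hs
  have hν' : ∀ v : V, IsOwn ((fun _ => ν) v) := fun _ => hν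
  have hb' := mo_b_ge hC
  have hb0 : (0 : ℝ) < b := by linarith
  have hσ1 : √s ≤ 1 := Real.sqrt_le_one.mpr hs1
  have hσ0 : 0 ≤ √s := Real.sqrt_nonneg s
  have h0 : 0 ≤ 1 - 2 * √s / b := by
    rw [sub_nonneg, div_le_one hb0]; linarith
  intro n
  induction n with
  | zero =>
    intro S hn v hv
    have : S = ∅ := Finset.card_eq_zero.mp (by omega)
    rw [this] at hv; simp at hv
  | succ n ih =>
    intro S hn v hv hS
    rcases Finset.eq_empty_or_nonempty (nbS G S v) with he | ⟨c, hc⟩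
    · have hSv := nbS_empty hC.tree hS hv he
      rw [he]
      subst hSv
      rw [mom_singleton hν']
      simp only [Finset.card_empty, pow_zero, mul_one]
      exact le_refl _
    · rw [mem_nbS] at hc
      obtain ⟨hcS, hvc⟩ := hc
      have hA := card_side_lt_left (G := G) (v := v) hcS
      have hB := card_side_lt_left (G := G) (v := c) hv
      have hvA : v ∈ side G S v c := mem_side_left hC.tree hvc hv
      have hcB : c ∈ side G S c v := mem_side_left hC.tree hvc.symm hcS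
      have iA := ih (side G S v c) (by omega) v hvA (cvx_side hC.tree hS hvc)
      have iB := ih (side G S c v) (by omega) c hcB (cvx_side hC.tree hS hvc.symm)
      have hk := mo_key hC.hb hs0 hs1 (card_nbS_side_right hC (S := S) hvc)
      have hXB : mom G β (fun _ => ν) (side G S c v) c 1 ≤ 2 * √s := by linarith
      have hXB0 := mo_nonneg (G := G) (β := β) (fun _ => ν) (side G S c v) c 1
      have hXA1 := mo_le_one (G := G) (β := β) hν' (side G S v c) v 1
      have he := mom_one_le_edge hC hν' hvc hv hcS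
      have hth := mo_th_sq hC
      have hθX : Real.tanh β ^ 2 * mom G β (fun _ => ν) (side G S c v) c 1 ≤ 2 * √s / b := by
        rw [hth, div_mul_eq_mul_div, one_mul]
        exact div_le_div_of_nonneg_right hXB hb0.le
      rw [← card_nbS_side_left hC.tree hvc hcS, pow_succ, ← mul_assoc]
      calc (1 - s) * (1 - 2 * √s / b) ^ (nbS G (side G S v c) v).card * (1 - 2 * √s / b) ≤
          (1 - mom G β (fun _ => ν) (side G S v c) v 1) * (1 - 2 * √s / b) :=
            mul_le_mul_of_nonneg_right iA h0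
        _ ≤ (1 - mom G β (fun _ => ν) (side G S v c) v 1) *
            (1 - Real.tanh β ^ 2 * mom G β (fun _ => ν) (side G S c v) c 1) :=
            mul_le_mul_of_nonneg_left (by linarith) (by linarith)
        _ ≤ 1 - mom G β (fun _ => ν) S v 1 := by linarith

variable {κ t : ℝ} {ν : Measure ℝ}

lemma mo_s_le (hs : Scale κ t ν) : ∫ x, x ^ 2 ∂ν ≤ κ * t := by
  have := hs.prob
  calc ∫ x, x ^ 2 ∂ν ≤ ∫ _, κ * t ∂ν :=
        integral_mono_of_nonneg (Filter.Eventually.of_forall fun x => sq_nonneg x)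
          (integrable_const _) hs.hi
    _ = κ * t := by simp

/-- (3.1) -/
theorem mom_one_le (hC : Crit G b β) (ht : 0 < t) (ht1 : t ≤ 1) (hκ : 1 ≤ κ)
    (hs : Scale κ t ν) (hS : Cvx G S) {v : V} (hv : v ∈ S) :
    mom G β (fun _ => ν) S v 1 ≤ 4 * (√κ * √t) := by
  have _ := ht1
  obtain ⟨hs0, hs1⟩ := mo_s_bounds hs.toIsOwn
  have h1 := mo_claim hC hs.toIsOwn S.card S le_rfl v hv hS
  have hsl := mo_s_le hs
  set s := ∫ x, x ^ 2 ∂ν with hsd
  have hb' := mo_b_ge hC
  have hb0 : (0 : ℝ) < b := by linarith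
  have hσ1 : √s ≤ 1 := Real.sqrt_le_one.mpr hs1
  have hσ0 : 0 ≤ √s := Real.sqrt_nonneg s
  have h0 : 0 ≤ 1 - 2 * √s / b := by
    rw [sub_nonneg, div_le_one hb0]; linarith
  have h0' : 1 - 2 * √s / b ≤ 1 := by
    have : 0 ≤ 2 * √s / b := by positivity
    linarith
  have hk := mo_key hC.hb hs0 hs1 (le_refl b)
  have h2 : (1 - 2 * √s / b) ^ (b + 1) ≤ (1 - 2 * √s / b) ^ (nbS G S v).card :=
    pow_le_pow_of_le_one h0 h0' (card_nbS_le hC S v)
  have h3 : (1 - s) * (1 - 2 * √s / b) ^ (b + 1) ≤ 1 - mom G β (fun _ => ν) S v 1 :=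
    (mul_le_mul_of_nonneg_left h2 (by linarith)).trans h1
  rw [pow_succ, ← mul_assoc] at h3
  have h4 := (mul_le_mul_of_nonneg_right hk h0).trans h3
  have h5 : 2 * √s / b ≤ 2 * √s := by
    rw [div_le_iff₀ hb0]; nlinarith
  have h6 : 0 ≤ 2 * √s / b := by positivity
  have h7 : mom G β (fun _ => ν) S v 1 ≤ 4 * √s := by nlinarith
  have h8 : √s ≤ √κ * √t := by
    rw [← Real.sqrt_mul (by linarith)]
    exact Real.sqrt_le_sqrt hsl
  have _ := ht
  linarith

/-! ### (3.2) -/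

lemma mo_single_pow (hκ : 1 ≤ κ) (ht : 0 < t) (ht1 : t ≤ 1) (hs : Scale κ t ν) (q : ℕ) :
    ∫ x, x ^ (2 * q) ∂ν ≤ κ ^ q * √t ^ q := by
  have := hs.prob
  have hst : t ≤ √t := by
    have h1 : √t ≤ 1 := Real.sqrt_le_one.mpr ht1
    have h2 : √t * √t = t := Real.mul_self_sqrt ht.le
    nlinarith [Real.sqrt_nonneg t]
  calc ∫ x, x ^ (2 * q) ∂ν ≤ ∫ _, (κ * √t) ^ q ∂ν := by
        refine integral_mono_of_nonneg (Filter.Eventually.of_forall fun x => ?_)
          (integrable_const _) ?_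
        · show (0 : ℝ) ≤ x ^ (2 * q)
          rw [pow_mul]; positivity
        · filter_upwards [hs.hi] with x hx
          rw [pow_mul]
          refine pow_le_pow_left₀ (sq_nonneg x) (hx.trans ?_) q
          exact mul_le_mul_of_nonneg_left hst (by linarith)
    _ = κ ^ q * √t ^ q := by simp [mul_pow]

lemma mo_th_pow (hC : Crit G b β) {q : ℕ} (hq : 2 ≤ q) :
    0 ≤ Real.tanh β ^ (2 * q) ∧ (b : ℝ) * Real.tanh β ^ (2 * q) ≤ 1 / 2 := by
  have hb := mo_b_ge hC
  have hb0 : (0 : ℝ) < b := by linarith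
  have h0 := mo_th_nonneg hC
  refine ⟨pow_nonneg h0 _, ?_⟩
  have h1 : Real.tanh β ^ (2 * q) ≤ Real.tanh β ^ (2 * 2) :=
    pow_le_pow_of_le_one h0 (mo_th_lt_one hC).le (by omega)
  have h2 : Real.tanh β ^ (2 * 2) = 1 / b * (1 / b) := by
    rw [pow_mul, mo_th_sq hC]; ring
  rw [h2] at h1
  calc (b : ℝ) * Real.tanh β ^ (2 * q) ≤ b * (1 / b * (1 / b)) :=
        mul_le_mul_of_nonneg_left h1 hb0.le
    _ = 1 / b := by field_simp
    _ ≤ 1 / 2 := one_div_le_one_div_of_le (by norm_num) hb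

lemma mo_step (hC : Crit G b β) (hκ : 1 ≤ κ) {q : ℕ} (hq : 2 ≤ q) {K1 K' C : ℝ} (hK1 : 1 ≤ K1)
    (hK' : 1 ≤ K') (hC0 : 0 < C)
    (hedge : ∀ (hC : Crit G b β) (ν : V → Measure ℝ) (_ : ∀ v, IsOwn (ν v)) (S : Finset V)
      (v w : V) (_ : G.Adj v w) (_ : v ∈ S) (_ : w ∈ S),
      mom G β ν S v q ≤ mom G β ν (side G S v w) v q +
        Real.tanh β ^ (2 * q) * mom G β ν (side G S w v) w q +
        C * (mom G β ν (side G S v w) v (q - 1) * mom G β ν (side G S w v) w 1 +
          mom G β ν (side G S v w) v 1 * mom G β ν (side G S w v) w (q - 1)))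
    (ht : 0 < t) (ht1 : t ≤ 1) (hs : Scale κ t ν)
    (h1 : ∀ (S : Finset V) (v : V), Cvx G S → v ∈ S → mom G β (fun _ => ν) S v 1 ≤ K1 * √t ^ 1)
    (h' : ∀ (S : Finset V) (v : V), Cvx G S → v ∈ S →
      mom G β (fun _ => ν) S v (q - 1) ≤ K' * √t ^ (q - 1)) :
    ∀ n : ℕ, ∀ S : Finset V, S.card ≤ n → ∀ v ∈ S, Cvx G S →
      mom G β (fun _ => ν) S v q ≤ (κ ^ q + (nbS G S v).card *
        (Real.tanh β ^ (2 * q) * (2 * (κ ^ q + b * (2 * C * (K' * K1)))) + 2 * C * (K' * K1))) *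
          √t ^ q := by
  obtain ⟨hθ0, hθb⟩ := mo_th_pow hC hq
  have hν' : ∀ v : V, IsOwn ((fun _ => ν) v) := fun _ => hs.toIsOwn
  have hb' := mo_b_ge hC
  have hst0 : 0 ≤ √t := Real.sqrt_nonneg t
  set D := 2 * C * (K' * K1) with hD
  have hD0 : 0 ≤ D := by positivity
  set K := 2 * (κ ^ q + b * D) with hK
  have hκq : 1 ≤ κ ^ q := one_le_pow₀ hκ
  have hK0 : 0 ≤ K := by positivity
  set T := √t ^ q with hT
  have hT0 : 0 ≤ T := by positivity
  intro n
  induction n with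
  | zero =>
    intro S hn v hv
    have : S = ∅ := Finset.card_eq_zero.mp (by omega)
    rw [this] at hv; simp at hv
  | succ n ih =>
    intro S hn v hv hS
    rcases Finset.eq_empty_or_nonempty (nbS G S v) with he | ⟨c, hc⟩
    · have hSv := nbS_empty hC.tree hS hv he
      rw [he]
      subst hSv
      rw [mom_singleton hν']
      simp only [Finset.card_empty, Nat.cast_zero, zero_mul, add_zero]
      exact mo_single_pow hκ ht ht1 hs q
    · rw [mem_nbS] at hc
      obtain ⟨hcS, hvc⟩ := hc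
      have hA := card_side_lt_left (G := G) (v := v) hcS
      have hB := card_side_lt_left (G := G) (v := c) hv
      have hvA : v ∈ side G S v c := mem_side_left hC.tree hvc hv
      have hcB : c ∈ side G S c v := mem_side_left hC.tree hvc.symm hcS
      have cA := cvx_side hC.tree hS hvc
      have cB := cvx_side hC.tree hS hvc.symm
      have iA := ih (side G S v c) (by omega) v hvA cA
      have iB := ih (side G S c v) (by omega) c hcB cB
      have hrB : ((nbS G (side G S c v) c).card : ℝ) ≤ b := by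
        exact_mod_cast card_nbS_side_right hC (S := S) hvc
      have hYB : mom G β (fun _ => ν) (side G S c v) c q ≤ K * T := by
        refine iB.trans (mul_le_mul_of_nonneg_right ?_ hT0)
        have e1 : ((nbS G (side G S c v) c).card : ℝ) * (Real.tanh β ^ (2 * q) * K + D) ≤
            b * (Real.tanh β ^ (2 * q) * K + D) :=
          mul_le_mul_of_nonneg_right hrB (by positivity)
        have e2 : (b : ℝ) * (Real.tanh β ^ (2 * q) * K + D) =
            (b * Real.tanh β ^ (2 * q)) * K + b * D := by ring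
        have e3 := mul_le_mul_of_nonneg_right hθb hK0
        have e4 : K / 2 = κ ^ q + b * D := by rw [hK]; ring
        linarith
      have hcross : C * (mom G β (fun _ => ν) (side G S v c) v (q - 1) *
          mom G β (fun _ => ν) (side G S c v) c 1 +
          mom G β (fun _ => ν) (side G S v c) v 1 *
          mom G β (fun _ => ν) (side G S c v) c (q - 1)) ≤ D * T := by
        have a1 := h1 _ _ cA hvA
        have a2 := h1 _ _ cB hcB
        have a3 := h' _ _ cA hvA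
        have a4 := h' _ _ cB hcB
        have n1 := mo_nonneg (G := G) (β := β) (fun _ => ν) (side G S v c) v 1
        have n2 := mo_nonneg (G := G) (β := β) (fun _ => ν) (side G S c v) c 1
        have n3 := mo_nonneg (G := G) (β := β) (fun _ => ν) (side G S v c) v (q - 1)
        have n4 := mo_nonneg (G := G) (β := β) (fun _ => ν) (side G S c v) c (q - 1)
        have p1 := mul_le_mul a3 a2 n2 (by positivity)
        have p2 := mul_le_mul a1 a4 n4 (by positivity)
        have eT : √t ^ (q - 1) * √t ^ 1 = T := by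
          rw [hT, ← pow_add]; congr 1; omega
        have e1 : K' * √t ^ (q - 1) * (K1 * √t ^ 1) = K' * K1 * T := by
          rw [← eT]; ring
        have e2 : K1 * √t ^ 1 * (K' * √t ^ (q - 1)) = K' * K1 * T := by
          rw [← eT]; ring
        rw [e1] at p1
        rw [e2] at p2
        calc _ ≤ C * (K' * K1 * T + K' * K1 * T) :=
              mul_le_mul_of_nonneg_left (add_le_add p1 p2) hC0.le
          _ = D * T := by rw [hD]; ring
      have he := hedge hC (fun _ => ν) hν' S v c hvc hv hcS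
      have e5 := mul_le_mul_of_nonneg_left hYB hθ0
      have hcard : ((nbS G S v).card : ℝ) = (nbS G (side G S v c) v).card + 1 := by
        rw [← card_nbS_side_left hC.tree hvc hcS]; push_cast; ring
      rw [hcard]
      calc mom G β (fun _ => ν) S v q ≤ _ := he
        _ ≤ (κ ^ q + (nbS G (side G S v c) v).card * (Real.tanh β ^ (2 * q) * K + D)) * T +
            Real.tanh β ^ (2 * q) * (K * T) + D * T := by linarith
        _ = _ := by ring

/-- (3.2) -/
theorem mom_le (hC : Crit G b β) (hκ : 1 ≤ κ) (q : ℕ) (hq : 1 ≤ q) : ∃ K : ℝ, 1 ≤ K ∧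
    ∀ (t : ℝ) (ν : Measure ℝ), 0 < t → t ≤ 1 → Scale κ t ν → ∀ (S : Finset V) (v : V),
      Cvx G S → v ∈ S → mom G β (fun _ => ν) S v q ≤ K * √t ^ q := by
  have hb' := mo_b_ge hC
  have hbase : ∀ (t : ℝ) (ν : Measure ℝ), 0 < t → t ≤ 1 → Scale κ t ν →
      ∀ (S : Finset V) (v : V), Cvx G S → v ∈ S →
        mom G β (fun _ => ν) S v 1 ≤ 4 * √κ * √t ^ 1 := by
    intro t ν ht ht1 hs S v hS hv
    rw [pow_one, mul_assoc]
    exact mom_one_le hC ht ht1 hκ hs hS hv
  have hκ1 : 1 ≤ √κ := Real.one_le_sqrt.mpr hκ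
  induction q, hq using Nat.le_induction with
  | base => exact ⟨4 * √κ, by linarith, hbase⟩
  | succ q hq ih =>
    obtain ⟨K', hK', hind⟩ := ih
    obtain ⟨C, hC0, hedge⟩ := mom_le_edge (G := G) (b := b) (β := β) (q + 1) (by omega)
    set D := 2 * C * (K' * (4 * √κ)) with hD
    have hD0 : 0 ≤ D := by positivity
    set K := 2 * (κ ^ (q + 1) + b * D) with hK
    have hκq : 1 ≤ κ ^ (q + 1) := one_le_pow₀ hκ
    have hbD : 0 ≤ (b : ℝ) * D := by positivity
    have hK1 : 2 ≤ K := by rw [hK]; linarith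
    refine ⟨2 * K, by linarith, ?_⟩
    intro t ν ht ht1 hs S v hS hv
    have h := mo_step hC hκ (q := q + 1) (by omega) (K1 := 4 * √κ) (K' := K') (by linarith) hK' hC0
      hedge ht ht1 hs (hbase t ν ht ht1 hs) (by
        intro S v hS hv
        exact hind t ν ht ht1 hs S v hS hv) S.card S le_rfl v hv hS
    refine h.trans (mul_le_mul_of_nonneg_right ?_ (by positivity))
    obtain ⟨hθ0, hθb⟩ := mo_th_pow hC (q := q + 1) (by omega)
    have hr : ((nbS G S v).card : ℝ) ≤ 2 * b := by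
      have : ((nbS G S v).card : ℝ) ≤ b + 1 := by exact_mod_cast card_nbS_le hC S v
      linarith
    have e1 : ((nbS G S v).card : ℝ) * (Real.tanh β ^ (2 * (q + 1)) * K + D) ≤
        2 * b * (Real.tanh β ^ (2 * (q + 1)) * K + D) :=
      mul_le_mul_of_nonneg_right hr (by positivity)
    have e2 : 2 * (b : ℝ) * (Real.tanh β ^ (2 * (q + 1)) * K + D) =
        2 * ((b * Real.tanh β ^ (2 * (q + 1))) * K + b * D) := by ring
    have e3 := mul_le_mul_of_nonneg_right hθb (by linarith : (0 : ℝ) ≤ K)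
    have e4 : K / 2 = κ ^ (q + 1) + b * D := by rw [hK]; ring
    linarith

end Vale.Agent.P161C
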