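import Vale.Agent.Lib.P161C.Moments

/-!
P161 critical, module MOMENTS-B ((3.3)-(3.5) of notes/P161crit/proof.md): lower bound of the second
moment, Paley-Zygmund.  Uses only statements of MODEL-A/B/C, CVX, MOMENTS.
-/

open Finset MeasureTheory

namespace Vale.Agent.P161C
open Vale.Agent.P161

variable {V : Type*} [DecidableEq V] {G : SimpleGraph V} [DecidableRel G.Adj] [G.LocallyFinite]
  {b : ℕ} {β : ℝ} {κ : ℝ}

omit [DecidableEq V] [DecidableRel G.Adj] [G.LocallyFinite] in
lemma mb_cvx_singleton (hG : G.IsTree) (v : V) : Cvx G ({v} : Finset V) := by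
  intro u hu u' hu' i hi
  rw [Finset.mem_singleton] at hu hu' ⊢
  rw [hu, hu', SimpleGraph.dist_self] at hi
  have h0 : G.dist v i = 0 := by omega
  exact ((hG.connected.dist_eq_zero_iff).mp h0).symm

omit [DecidableEq V] [DecidableRel G.Adj] [G.LocallyFinite] in
lemma mb_root_mem {S : Finset V} {v w : V} {m : ℕ} (hvw : G.Adj v w) (h : Full G S w v m) :
    v ∈ S := by
  refine h v ?_ ?_
  · rw [SimpleGraph.dist_self]; omega
  · rw [SimpleGraph.dist_self, SimpleGraph.dist_eq_one_iff_adj.mpr hvw.symm]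
    exact one_pos

omit [DecidableRel G.Adj] [G.LocallyFinite] in
/-- The full branch survives the passage to its side of the edge. -/
lemma mb_full_side {T : Finset V} {v c : V} {m : ℕ} (h : Full G T v c m) :
    Full G (side G T c v) v c m := by
  intro u h1 h2
  rw [mem_side]
  refine ⟨h u h1 h2, ?_⟩
  rw [G.dist_comm (u := u) (v := c), G.dist_comm (u := u) (v := v)]
  exact h2

/-- The full branch survives the removal of another branch. -/
lemma mb_full_other (hG : G.IsTree) {T : Finset V} {v c c' : V} {m : ℕ} (hvc : G.Adj v c)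
    (hvc' : G.Adj v c') (hne : c' ≠ c) (h : Full G T v c' m) :
    Full G (side G T v c) v c' m := by
  intro u h1 h2
  rw [mem_side]
  refine ⟨h u h1 h2, ?_⟩
  have h3 : G.dist u c' < G.dist u v := by
    rw [G.dist_comm (u := u) (v := c'), G.dist_comm (u := u) (v := v)]
    exact h2
  have h4 := across hG hvc'.symm h3 (mo_dist_two hG hvc hvc' (Ne.symm hne))
  have h5 : G.dist v c = 1 := SimpleGraph.dist_eq_one_iff_adj.mpr hvc
  rcases side_cases hG hvc' u with h6 | h6 <;> omega

/-- Peeling the children. -/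
lemma mb_peel (hC : Crit G b β) {ν : Measure ℝ} (hν : IsOwn ν) {s' y ζ : ℝ} {m : ℕ}
    (hs0 : 0 ≤ s') (hs : s' ≤ ∫ x, x ^ 2 ∂ν) (hy : y = ζ / b) (hζ : 0 ≤ ζ) (hle : s' + ζ ≤ 1)
    (ih : ∀ (S : Finset V) (v w : V), G.Adj v w → Cvx G S → Full G S w v m →
      ζ ≤ mom G β (fun _ => ν) S v 1) :
    ∀ k : ℕ, k ≤ b → ∀ (T : Finset V) (v : V), Cvx G T → v ∈ T → ∀ K : Finset V,
      K.card = k → (∀ c ∈ K, G.Adj v c ∧ Full G T v c m) →
      (s' + k * y) - (s' + k * y) ^ 2 ≤ mom G β (fun _ => ν) T v 1 := by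
  have hν' : ∀ v : V, IsOwn ((fun _ => ν) v) := fun _ => hν
  have hb' := mo_b_ge hC
  have hb0 : (0 : ℝ) < b := by linarith
  have hy0 : 0 ≤ y := by rw [hy]; positivity
  intro k
  induction k with
  | zero =>
    intro _ T v hT hv K _ _
    have h1 := mom_one_mono (G := G) (β := β) hC.tree hν' hT (mb_cvx_singleton hC.tree v)
      (by simpa using hv) (Finset.mem_singleton_self v)
    rw [mom_singleton hν'] at h1
    simp only [mul_one] at h1
    have : (0 : ℝ) ≤ (s' + (0 : ℕ) * y) ^ 2 := sq_nonneg _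
    push_cast at this ⊢
    linarith
  | succ k ihk =>
    intro hk T v hT hv K hK hF
    obtain ⟨c, hc⟩ : K.Nonempty := by
      rw [← Finset.card_pos]; omega
    obtain ⟨hvc, hFc⟩ := hF c hc
    have hcT : c ∈ T := mb_root_mem hvc.symm hFc
    have hK' : (K.erase c).card = k := by
      rw [Finset.card_erase_of_mem hc]; omega
    have hvT' : v ∈ side G T v c := mem_side_left hC.tree hvc hv
    have h1 := ihk (by omega) (side G T v c) v (cvx_side hC.tree hT hvc) hvT' (K.erase c) hK'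
      (fun c' hc' => by
        rw [Finset.mem_erase] at hc'
        obtain ⟨hvc', hFc'⟩ := hF c' hc'.2
        exact ⟨hvc', mb_full_other hC.tree hvc hvc' hc'.1 hFc'⟩)
    have h2 := ih (side G T c v) c v hvc.symm (cvx_side hC.tree hT hvc.symm) (mb_full_side hFc)
    have h3 : y ≤ Real.tanh β ^ 2 * mom G β (fun _ => ν) (side G T c v) c 1 := by
      rw [mo_th_sq hC, hy, div_mul_eq_mul_div, one_mul]
      exact div_le_div_of_nonneg_right h2 hb0.le
    have hkb : (k : ℝ) ≤ b := by exact_mod_cast (by omega : k ≤ b)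
    have hky : (k : ℝ) * y ≤ ζ := by
      rw [hy, mul_div_assoc', div_le_iff₀ hb0]
      nlinarith
    have hky0 : 0 ≤ (k : ℝ) * y := by positivity
    have h4 : 0 ≤ (s' + k * y) - (s' + k * y) ^ 2 := by nlinarith
    have h5 := mom_one_ge_edge hC hν' hvc hv hcT h4 hy0 h1 h3
    refine le_trans ?_ h5
    push_cast
    nlinarith [mul_nonneg hy0 (sq_nonneg (s' + k * y)), sq_nonneg y]

/-- (3.3) -/
lemma mb_branch (hC : Crit G b β) {ν : Measure ℝ} (hν : IsOwn ν) {s' : ℝ}
    (hs0 : 0 ≤ s') (hs1 : s' ≤ 1 / 16) (hs : s' ≤ ∫ x, x ^ 2 ∂ν) :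
    ∀ (m : ℕ) (S : Finset V) (v w : V), G.Adj v w → Cvx G S → Full G S w v m →
      min (m * (7 / 16 * s')) (√s' / 2) ≤ mom G β (fun _ => ν) S v 1 := by
  have hb' := mo_b_ge hC
  have hb0 : (0 : ℝ) < b := by linarith
  have hσ0 : 0 ≤ √s' := Real.sqrt_nonneg s'
  have hσσ : √s' * √s' = s' := Real.mul_self_sqrt hs0
  have hσ1 : √s' ≤ 1 / 4 := by
    rw [Real.sqrt_le_left (by norm_num)]
    norm_num; linarith
  intro m
  induction m with
  | zero =>
    intro S v w _ _ _
    refine le_trans (min_le_left _ _) ?_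
    simp only [Nat.cast_zero, zero_mul]
    exact mo_nonneg _ _ _ _
  | succ m ih =>
    intro S v w hvw hS hF
    set ζ := min (m * (7 / 16 * s')) (√s' / 2) with hζd
    have hζ0 : 0 ≤ ζ := le_min (by positivity) (by positivity)
    have hζ1 : ζ ≤ √s' / 2 := min_le_right _ _
    have hvS := mb_root_mem hvw hF
    have hle : s' + ζ ≤ 1 := by linarith
    have h1 := mb_peel hC hν hs0 hs (y := ζ / b) rfl hζ0 hle ih b le_rfl S v hS hvS
      ((G.neighborFinset v).erase w) (by
        rw [Finset.card_erase_of_mem (by rw [SimpleGraph.mem_neighborFinset]; exact hvw),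
          SimpleGraph.card_neighborFinset_eq_degree, hC.reg v]
        omega)
      (fun c hc => by
        rw [Finset.mem_erase, SimpleGraph.mem_neighborFinset] at hc
        refine ⟨hc.2, fun u h1 h2 => ?_⟩
        have h3 : G.dist u c < G.dist u v := by
          rw [G.dist_comm (u := u) (v := c), G.dist_comm (u := u) (v := v)]
          exact h2
        have h4 := across hC.tree hc.2.symm h3 (mo_dist_two hC.tree hvw hc.2 (Ne.symm hc.1))
        have h5 : G.dist v w = 1 := SimpleGraph.dist_eq_one_iff_adj.mpr hvw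
        have h6 : G.dist u v = G.dist u c + 1 := by
          rcases side_cases hC.tree hc.2 u with h6 | h6 <;> omega
        refine hF u ?_ ?_
        · rw [G.dist_comm (u := v) (v := u), h6, G.dist_comm (u := u) (v := c)]
          omega
        · rw [G.dist_comm (u := v) (v := u), G.dist_comm (u := w) (v := u)]
          omega)
    have h2 : (b : ℝ) * (ζ / b) = ζ := by field_simp
    rw [h2] at h1
    have h3 : s' + ζ ≤ 3 / 4 * √s' := by nlinarith
    have h4 : (s' + ζ) ^ 2 ≤ 9 / 16 * s' := by nlinarith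
    have h5 : ζ + 7 / 16 * s' ≤ mom G β (fun _ => ν) S v 1 := by linarith
    refine le_trans ?_ h5
    push_cast
    rcases le_total (m * (7 / 16 * s')) (√s' / 2) with h | h
    · rw [hζd, min_eq_left h]
      refine (min_le_left _ _).trans (le_of_eq (by ring))
    · rw [hζd, min_eq_right h]
      refine (min_le_right _ _).trans ?_
      linarith

lemma mb_explicit (hC : Crit G b β) (hκ : 1 ≤ κ) {t : ℝ} {ν : Measure ℝ} (ht : 0 < t)
    (ht1 : t ≤ 1) (hsc : Scale κ t ν) {H : Finset V} {v c : V} {m : ℕ} (hH : Cvx G H)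
    (hv : v ∈ H) (hvc : G.Adj v c) (hm : 1 / √t ≤ m) (hF : Full G H v c m) :
    7 / (256 * κ * b) * √t ≤ mom G β (fun _ => ν) H v 1 := by
  have hν := hsc.toIsOwn
  have hν' : ∀ v : V, IsOwn ((fun _ => ν) v) := fun _ => hν
  have hb' := mo_b_ge hC
  have hb0 : (0 : ℝ) < b := by linarith
  have hκ0 : 0 < κ := by linarith
  have hlo := hsc.lo
  have hst0 : 0 < √t := Real.sqrt_pos.mpr ht
  have hstt : √t * √t = t := Real.mul_self_sqrt ht.le
  set s' := t / (16 * κ) with hs'
  have hs0 : 0 ≤ s' := by positivity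
  have hs1 : s' ≤ 1 / 16 := by
    rw [hs', div_le_div_iff₀ (by positivity) (by norm_num)]
    nlinarith
  have hs : s' ≤ ∫ x, x ^ 2 ∂ν := by
    refine le_trans ?_ hlo
    rw [hs', div_le_div_iff₀ (by positivity) (by positivity)]
    nlinarith [mul_pos ht hκ0]
  have hcH : c ∈ H := mb_root_mem hvc.symm hF
  have h1 := mb_branch hC hν hs0 hs1 hs m (side G H c v) c v hvc.symm
    (cvx_side hC.tree hH hvc.symm) (mb_full_side hF)
  have h2 : 7 / (256 * κ) * √t ≤ min (m * (7 / 16 * s')) (√s' / 2) := by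
    refine le_min ?_ ?_
    · have h3 : 1 ≤ m * √t := by
        rw [div_le_iff₀ hst0] at hm
        exact hm
      have h4 : (m : ℝ) * (7 / 16 * s') = 7 / (256 * κ) * √t * (m * √t) := by
        have h6 : 7 / (256 * κ) * √t * (m * √t) = 7 / (256 * κ) * (m * (√t * √t)) := by ring
        rw [h6, hstt, hs']
        field_simp
        norm_num
      rw [h4]
      have h5 : 0 ≤ 7 / (256 * κ) * √t := by positivity
      nlinarith
    · have h3 : √t / (4 * κ) ≤ √s' := by
        refine Real.le_sqrt_of_sq_le ?_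
        rw [hs', div_pow, Real.sq_sqrt ht.le, div_le_div_iff₀ (by positivity) (by positivity)]
        have : κ ≤ κ ^ 2 := by nlinarith
        nlinarith
      have h4 : 7 / (256 * κ) * √t ≤ √t / (4 * κ) / 2 := by
        have h5 : √t / (4 * κ) / 2 = 32 / (256 * κ) * √t := by
          field_simp
          ring
        rw [h5]
        refine mul_le_mul_of_nonneg_right ?_ hst0.le
        exact div_le_div_of_nonneg_right (by norm_num) (by positivity)
      linarith
  have h3 := h2.trans h1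
  have h4 := mom_one_ge_edge hC hν' hvc hv hcH (a := 0)
    (c := Real.tanh β ^ 2 * mom G β (fun _ => ν) (side G H c v) c 1) le_rfl
    (mul_nonneg (sq_nonneg _) (mo_nonneg _ _ _ _)) (mo_nonneg _ _ _ _) le_rfl
  rw [mo_th_sq hC] at h4
  have h5 : 7 / (256 * κ * b) * √t = 1 / b * (7 / (256 * κ) * √t) := by
    field_simp
  rw [h5]
  have h6 := mul_le_mul_of_nonneg_left h3 (by positivity : (0 : ℝ) ≤ 1 / b)
  linarith

/-- (3.3)+(3.4) lower bound, with a full branch of depth `≥ c₁/√t` at a neighbour `c` of `v`. -/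
theorem mom_one_ge (hC : Crit G b β) (hκ : 1 ≤ κ) : ∃ c₀ c₁ : ℝ, 0 < c₀ ∧ 0 < c₁ ∧
    ∀ (t : ℝ) (ν : Measure ℝ), 0 < t → t ≤ 1 → Scale κ t ν → ∀ (H : Finset V) (v c : V) (m : ℕ),
      Cvx G H → v ∈ H → G.Adj v c → c₁ / √t ≤ m → Full G H v c m →
      c₀ * √t ≤ mom G β (fun _ => ν) H v 1 := by
  have hb' := mo_b_ge hC
  have hb0 : (0 : ℝ) < b := by linarith
  refine ⟨7 / (256 * κ * b), 1, by positivity, one_pos, ?_⟩
  intro t ν ht ht1 hsc H v c m hH hv hvc hm hF
  exact mb_explicit hC hκ ht ht1 hsc hH hv hvc hm hF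

/-- (3.5) Paley-Zygmund. -/
theorem prob_ge (hC : Crit G b β) (hκ : 1 ≤ κ) : ∃ c₀ c₁ c₂ : ℝ, 0 < c₀ ∧ 0 < c₁ ∧ 0 < c₂ ∧
    ∀ (t : ℝ) (ν : Measure ℝ), 0 < t → t ≤ 1 → Scale κ t ν → ∀ (H : Finset V) (v c : V) (m : ℕ),
      Cvx G H → v ∈ H → G.Adj v c → c₁ / √t ≤ m → Full G H v c m →
      c₂ ≤ (PL G β (fun _ => ν) H).real {p | c₀ * √t ≤ mg G β H p v ^ 2} := by
  obtain ⟨c₀, c₁, hc₀, hc₁, h⟩ := mom_one_ge hC hκ
  obtain ⟨K, hK1, hK⟩ := mom_le hC hκ 2 (by norm_num)
  have hK0 : 0 < K := by linarith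
  refine ⟨c₀ / 2, c₁, c₀ ^ 2 / (4 * K), by positivity, hc₁, by positivity, ?_⟩
  intro t ν ht ht1 hsc H v c m hH hv hvc hm hF
  have hν := hsc.toIsOwn
  have hν' : ∀ v : V, IsOwn ((fun _ => ν) v) := fun _ => hν
  have hP : IsProbabilityMeasure (PL G β (fun _ => ν) H) := isProb_PL hν' _
  have h1 := h t ν ht ht1 hsc H v c m hH hv hvc hm hF
  have h2 := hK t ν ht ht1 hsc H v hH hv
  have hst0 : 0 < √t := Real.sqrt_pos.mpr ht
  set A : Set (V → ℝ) := {p | c₀ / 2 * √t ≤ mg G β H p v ^ 2} with hA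
  have hAm : MeasurableSet A :=
    measurableSet_le measurable_const ((measurable_mg H v).pow_const 2)
  set ε := c₀ / (4 * K * √t) with hε
  have hε0 : 0 < ε := by positivity
  have hpt : ∀ p : V → ℝ, mg G β H p v ^ 2 ≤
      c₀ / 2 * √t + (ε * mg G β H p v ^ 4 + 1 / (4 * ε) * A.indicator (fun _ => (1 : ℝ)) p) := by
    intro p
    have h3 : 0 ≤ ε * mg G β H p v ^ 4 := by positivity
    have hc : 0 < c₀ / 2 * √t := by positivity
    by_cases hp : p ∈ A
    · rw [Set.indicator_of_mem hp]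
      have h4 : mg G β H p v ^ 2 ≤ ε * mg G β H p v ^ 4 + 1 / (4 * ε) * 1 := by
        have h5 : ε * mg G β H p v ^ 4 + 1 / (4 * ε) * 1 - mg G β H p v ^ 2 =
            ε * (mg G β H p v ^ 2 - 1 / (2 * ε)) ^ 2 := by
          field_simp
          ring
        have h6 : 0 ≤ ε * (mg G β H p v ^ 2 - 1 / (2 * ε)) ^ 2 := by positivity
        linarith
      linarith
    · rw [Set.indicator_of_notMem hp]
      have : mg G β H p v ^ 2 < c₀ / 2 * √t := by
        rw [hA, Set.mem_setOf_eq, not_le] at hp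
        exact hp
      linarith
  have hi4 : Integrable (fun p => mg G β H p v ^ 4) (PL G β (fun _ => ν) H) := mo_int hν' H v 4
  have hi2 : Integrable (fun p => mg G β H p v ^ 2) (PL G β (fun _ => ν) H) := mo_int hν' H v 2
  have hiA : Integrable (A.indicator (fun _ => (1 : ℝ))) (PL G β (fun _ => ν) H) :=
    (integrable_const _).indicator hAm
  have hI := integral_mono hi2
    ((integrable_const _).add ((hi4.const_mul ε).add (hiA.const_mul (1 / (4 * ε))))) hpt
  have g1 := integral_add (integrable_const (c₀ / 2 * √t))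
    ((hi4.const_mul ε).add (hiA.const_mul (1 / (4 * ε))))
  have g2 := integral_add (hi4.const_mul ε) (hiA.const_mul (1 / (4 * ε)))
  simp only [Pi.add_apply] at hI g1 g2
  rw [g1, g2, integral_const_mul ε, integral_const_mul (1 / (4 * ε)), integral_const,
    integral_indicator_const _ hAm] at hI
  simp only [probReal_univ, smul_eq_mul, one_mul, mul_one] at hI
  have e2 : ∫ p, mg G β H p v ^ 2 ∂(PL G β (fun _ => ν) H) = mom G β (fun _ => ν) H v 1 := by
    unfold mom EE; simp
  have e4 : ∫ p, mg G β H p v ^ 4 ∂(PL G β (fun _ => ν) H) = mom G β (fun _ => ν) H v 2 := rfl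
  rw [e2, e4] at hI
  have h5 : ε * mom G β (fun _ => ν) H v 2 ≤ c₀ / 4 * √t := by
    calc ε * mom G β (fun _ => ν) H v 2 ≤ ε * (K * √t ^ 2) :=
          mul_le_mul_of_nonneg_left h2 hε0.le
      _ = c₀ / 4 * √t := by
          rw [hε]; field_simp
  have h6 : c₀ / 4 * √t ≤ 1 / (4 * ε) * (PL G β (fun _ => ν) H).real A := by linarith
  have h7 : c₀ ^ 2 / (4 * K) = 4 * ε * (c₀ / 4 * √t) := by
    rw [hε]; field_simp
  rw [h7]
  calc 4 * ε * (c₀ / 4 * √t) ≤ 4 * ε * (1 / (4 * ε) * (PL G β (fun _ => ν) H).real A) :=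
        mul_le_mul_of_nonneg_left h6 (by positivity)
    _ = (PL G β (fun _ => ν) H).real A := by field_simp

end Vale.Agent.P161C
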