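import Vale.Agent.Lib.P161C.ProcB

/-!
P161 critical, module MU-A (section 13 of notes/P161crit/proof.md): elementary facts on `GG`
and its limit `muf`.  Uses PROC, PROC-B.
-/

open Finset MeasureTheory Filter Topology

namespace Vale.Agent.P161C
open Vale.Agent.P161

variable {V : Type*} [DecidableEq V] {G : SimpleGraph V} [DecidableRel G.Adj] [G.LocallyFinite]
  {b : ℕ} {β : ℝ}

lemma GG_nonneg (β : ℝ) (R : ℕ) (j : ℤ) (l : ℝ) : 0 ≤ GG G β R j l := by
  unfold GG
  apply Real.sSup_nonneg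
  rintro y ⟨x, c, c', r, r', n, n', -, -, -, -, rfl⟩
  exact dd_nonneg β _ _ n n' x j l

lemma GG_le_four (β : ℝ) (R : ℕ) (j : ℤ) (l : ℝ) : GG G β R j l ≤ 4 := by
  unfold GG
  apply Real.sSup_le _ (by norm_num)
  rintro y ⟨x, c, c', r, r', n, n', -, -, -, -, rfl⟩
  exact dd_le_four β _ _ n n' x j l

/-- Every admissible pair is bounded by `GG`. -/
lemma dd_le_GG (β : ℝ) {R : ℕ} {j : ℤ} (l : ℝ) {x o o' : V} {r r' n n' : ℕ}
    (h1 : bal G x R ⊆ bal G o r) (h2 : bal G x R ⊆ bal G o' r') (h3 : R + j.natAbs + 2 ≤ n)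
    (h4 : R + j.natAbs + 2 ≤ n') :
    dd G β (bal G o r) n (bal G o' r') n' x j l ≤ GG G β R j l := by
  unfold GG
  apply le_csSup
  · refine ⟨4, ?_⟩
    rintro y ⟨x, c, c', r, r', n, n', -, -, -, -, rfl⟩
    exact dd_le_four β _ _ n n' x j l
  · exact ⟨x, o, o', r, r', n, n', h1, h2, h3, h4, rfl⟩

/-- To bound `GG` it is enough to bound the admissible pairs. -/
lemma GG_le [Nonempty V] {β : ℝ} {R : ℕ} {j : ℤ} {l A : ℝ}
    (h : ∀ (x o o' : V) (r r' n n' : ℕ), bal G x R ⊆ bal G o r → bal G x R ⊆ bal G o' r' →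
      R + j.natAbs + 2 ≤ n → R + j.natAbs + 2 ≤ n' →
      dd G β (bal G o r) n (bal G o' r') n' x j l ≤ A) : GG G β R j l ≤ A := by
  unfold GG
  apply csSup_le
  · obtain ⟨x⟩ := ‹Nonempty V›
    exact ⟨_, x, x, x, R, R, R + j.natAbs + 2, R + j.natAbs + 2, Finset.Subset.refl _,
      Finset.Subset.refl _, le_refl _, le_refl _, rfl⟩
  · rintro y ⟨x, c, c', r, r', n, n', h1, h2, h3, h4, rfl⟩
    exact h x c c' r r' n n' h1 h2 h3 h4

lemma muA_bal_mono {x : V} {R R' : ℕ} (h : R ≤ R') : bal G x R ⊆ bal G x R' := by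
  unfold bal
  exact Finset.biUnion_subset_biUnion_of_subset_left _
    (Finset.range_subset_range.2 (by omega))

lemma GG_anti [Nonempty V] (hG : G.Connected) (β : ℝ) (j : ℤ) (l : ℝ) :
    Antitone (fun R => GG G β R j l) := by
  intro R R' h
  apply GG_le
  intro x o o' r r' n n' h1 h2 h3 h4
  exact dd_le_GG β l ((muA_bal_mono h).trans h1) ((muA_bal_mono h).trans h2) (by omega) (by omega)

lemma GG_mono_l [Nonempty V] [Countable V] (β : ℝ) (R : ℕ) (j : ℤ) :
    MonotoneOn (GG G β R j) (Set.Icc 0 (1 / 2)) := by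
  intro l₁ hl₁ l₂ hl₂ h12
  apply GG_le
  intro x o o' r r' n n' h1 h2 h3 h4
  exact (dd_mono β _ _ n n' x (by omega) (by omega) hl₁.1 h12 hl₂.2).trans
    (dd_le_GG β l₂ h1 h2 h3 h4)

lemma bddBelow_GG (β : ℝ) (j : ℤ) (l : ℝ) : BddBelow (Set.range fun R => GG G β R j l) := by
  refine ⟨0, ?_⟩
  rintro y ⟨R, rfl⟩
  exact GG_nonneg β R j l

lemma tendsto_GG [Nonempty V] (hG : G.Connected) (β : ℝ) (j : ℤ) (l : ℝ) :
    Tendsto (fun R => GG G β R j l) atTop (𝓝 (muf G β j l)) :=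
  tendsto_atTop_ciInf (GG_anti hG β j l) (bddBelow_GG β j l)

lemma muf_le_GG (β : ℝ) (R : ℕ) (j : ℤ) (l : ℝ) : muf G β j l ≤ GG G β R j l :=
  ciInf_le (bddBelow_GG β j l) R

lemma muf_nonneg [Nonempty V] (hG : G.Connected) (β : ℝ) (j : ℤ) (l : ℝ) :
    0 ≤ muf G β j l :=
  le_ciInf fun R => GG_nonneg β R j l

lemma muf_le_four [Nonempty V] (hG : G.Connected) (β : ℝ) (j : ℤ) (l : ℝ) :
    muf G β j l ≤ 4 :=
  (muf_le_GG β 0 j l).trans (GG_le_four β 0 j l)

lemma muf_mono [Nonempty V] [Countable V] (hG : G.Connected) (β : ℝ) (j : ℤ) :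
    MonotoneOn (muf G β j) (Set.Icc 0 (1 / 2)) := by
  intro l₁ hl₁ l₂ hl₂ h12
  exact ciInf_mono (bddBelow_GG β j l₁) fun R => GG_mono_l β R j hl₁ hl₂ h12

lemma muf_half [Nonempty V] (hG : G.Connected) (β : ℝ) (j : ℤ) :
    muf G β (j + 1) 0 = muf G β j (1 / 2) := by
  apply le_antisymm
  · apply le_ciInf
    intro R
    refine (muf_le_GG β (R + 1) (j + 1) 0).trans ?_
    apply GG_le
    intro x o o' r r' n n' h1 h2 h3 h4
    rw [← dd_half β (bal G o r) (bal G o' r') x (by omega) (by omega)]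
    exact dd_le_GG β (1 / 2) ((muA_bal_mono (by omega)).trans h1) ((muA_bal_mono (by omega)).trans h2)
      (by omega) (by omega)
  · apply le_ciInf
    intro R
    refine (muf_le_GG β (R + 1) j (1 / 2)).trans ?_
    apply GG_le
    intro x o o' r r' n n' h1 h2 h3 h4
    rw [dd_half β (bal G o r) (bal G o' r') x (by omega) (by omega)]
    exact dd_le_GG β 0 ((muA_bal_mono (by omega)).trans h1) ((muA_bal_mono (by omega)).trans h2)
      (by omega) (by omega)

/-- Vertices of the ball of radius `k`: smaller radius. -/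
lemma bal_subset_bal (hG : G.Connected) {x y : V} {k R : ℕ} (hy : y ∈ bal G x k) :
    bal G y (R - k) ⊆ bal G x R ∨ R < k := by
  by_cases h : R < k
  · exact Or.inr h
  · left
    intro z hz
    rw [mem_bal hG] at hz hy ⊢
    have := hG.dist_triangle (u := x) (v := y) (w := z)
    omega

end Vale.Agent.P161C
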