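import Vale.Agent.Lib.P161C.Core

/-!
P161 critical, module OSG (section 14 of notes/P161crit/proof.md): pure real analysis, the
Osgood argument.  Independent of the rest.
-/

open Finset MeasureTheory Filter Topology

namespace Vale.Agent.P161C

/-- Gronwall for monotone functions (discretize; `A, B ≥ 0`). -/
lemma gronwall_mono {f : ℝ → ℝ} {A B l₁ l₂ : ℝ} (h12 : l₁ ≤ l₂) (hA : 0 ≤ A) (hB : 0 ≤ B)
    (hf0 : ∀ l, l₁ ≤ l → l ≤ l₂ → 0 ≤ f l) (hf : MonotoneOn f (Set.Icc l₁ l₂))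
    (h : ∀ a b, l₁ ≤ a → a ≤ b → b ≤ l₂ → f b ≤ f a + ∫ l in a..b, (A * f l + B)) :
    f l₂ ≤ Real.exp (2 * A * (l₂ - l₁)) * (f l₁ + B * (l₂ - l₁)) := by
  -- one small step
  have hstep : ∀ a b, l₁ ≤ a → a ≤ b → b ≤ l₂ → A * (b - a) ≤ 1 / 2 →
      f b ≤ Real.exp (2 * A * (b - a)) * (f a + B * (b - a)) := by
    intro a b ha hab hb hsmall
    have hsub : Set.uIcc a b ⊆ Set.Icc l₁ l₂ := by
      rw [Set.uIcc_of_le hab]
      exact Set.Icc_subset_Icc ha hb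
    have hmono : MonotoneOn f (Set.uIcc a b) := hf.mono hsub
    have hint : IntervalIntegrable f volume a b := hmono.intervalIntegrable
    have hb' : b ∈ Set.Icc l₁ l₂ := ⟨ha.trans hab, hb⟩
    have hI : ∫ l in a..b, (A * f l + B) ≤ ∫ _l in a..b, (A * f b + B) := by
      apply intervalIntegral.integral_mono_on hab
      · exact (hint.const_mul A).add intervalIntegrable_const
      · exact intervalIntegrable_const
      · intro x hx
        have : f x ≤ f b := hf ⟨ha.trans hx.1, hx.2.trans hb⟩ hb' hx.2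
        nlinarith
    rw [intervalIntegral.integral_const, smul_eq_mul] at hI
    have h1 := h a b ha hab hb
    have hfb0 : 0 ≤ f b := hf0 b (ha.trans hab) hb
    have hfa0 : 0 ≤ f a := hf0 a ha (hab.trans hb)
    set x := A * (b - a) with hx
    have hx0 : 0 ≤ x := mul_nonneg hA (by linarith)
    have h2 : f b * (1 - x) ≤ f a + B * (b - a) := by
      have : (b - a) * (A * f b + B) = x * f b + B * (b - a) := by rw [hx]; ring
      rw [this] at hI
      nlinarith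
    have hexp : 1 ≤ Real.exp (2 * x) * (1 - x) := by
      have h3 : 1 + 2 * x ≤ Real.exp (2 * x) := by
        have := Real.add_one_le_exp (2 * x)
        linarith
      have h4 : (1 + 2 * x) * (1 - x) ≤ Real.exp (2 * x) * (1 - x) :=
        mul_le_mul_of_nonneg_right h3 (by linarith)
      nlinarith
    have h5 : 2 * A * (b - a) = 2 * x := by rw [hx]; ring
    rw [h5]
    calc f b = f b * 1 := by ring
      _ ≤ f b * (Real.exp (2 * x) * (1 - x)) := mul_le_mul_of_nonneg_left hexp hfb0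
      _ = Real.exp (2 * x) * (f b * (1 - x)) := by ring
      _ ≤ Real.exp (2 * x) * (f a + B * (b - a)) :=
          mul_le_mul_of_nonneg_left h2 (Real.exp_pos _).le
  obtain ⟨n, hn⟩ := exists_nat_gt (2 * A * (l₂ - l₁))
  have hn0 : (0 : ℝ) < n := lt_of_le_of_lt
    (mul_nonneg (mul_nonneg (by norm_num) hA) (by linarith)) hn
  set δ := (l₂ - l₁) / n with hδ
  have hδ0 : 0 ≤ δ := div_nonneg (by linarith) hn0.le
  have hnδ : n * δ = l₂ - l₁ := by rw [hδ]; field_simp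
  have hAδ : A * δ ≤ 1 / 2 := by
    have : n * (A * δ) = A * (l₂ - l₁) := by rw [← hnδ]; ring
    by_contra hcon
    push Not at hcon
    nlinarith
  have hind : ∀ k : ℕ, k ≤ n →
      f (l₁ + k * δ) ≤ Real.exp (2 * A * (k * δ)) * (f l₁ + B * (k * δ)) := by
    intro k
    induction k with
    | zero => intro _; simp
    | succ k ih =>
      intro hk
      have hk' : k ≤ n := Nat.le_of_succ_le hk
      have ih' := ih hk'
      have hkn : ((k : ℝ) + 1) * δ ≤ l₂ - l₁ := by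
        rw [← hnδ]
        have : ((k : ℝ) + 1) ≤ n := by exact_mod_cast hk
        exact mul_le_mul_of_nonneg_right this hδ0
      have hkδ0 : 0 ≤ (k : ℝ) * δ := mul_nonneg (Nat.cast_nonneg _) hδ0
      have h1 := hstep (l₁ + k * δ) (l₁ + ((k : ℝ) + 1) * δ) (by linarith) (by nlinarith)
        (by linarith) (by
          have : l₁ + ((k : ℝ) + 1) * δ - (l₁ + k * δ) = δ := by ring
          rw [this]; exact hAδ)
      have h2 : l₁ + ((k : ℝ) + 1) * δ - (l₁ + k * δ) = δ := by ring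
      rw [h2] at h1
      push_cast
      have hfl : 0 ≤ f l₁ := hf0 l₁ le_rfl h12
      have hB' : 0 ≤ B * δ := mul_nonneg hB hδ0
      have he1 : 1 ≤ Real.exp (2 * A * (k * δ)) := by
        apply Real.one_le_exp
        exact mul_nonneg (mul_nonneg (by norm_num) hA) hkδ0
      have hE : Real.exp (2 * A * ((k + 1) * δ))
          = Real.exp (2 * A * δ) * Real.exp (2 * A * (k * δ)) := by
        rw [← Real.exp_add]; congr 1; ring
      calc f (l₁ + ((k : ℝ) + 1) * δ)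
          ≤ Real.exp (2 * A * δ) * (f (l₁ + k * δ) + B * δ) := h1
        _ ≤ Real.exp (2 * A * δ) *
            (Real.exp (2 * A * (k * δ)) * (f l₁ + B * (k * δ))
              + Real.exp (2 * A * (k * δ)) * (B * δ)) := by
            apply mul_le_mul_of_nonneg_left _ (Real.exp_pos _).le
            have : B * δ ≤ Real.exp (2 * A * (k * δ)) * (B * δ) := by
              nlinarith
            linarith
        _ = Real.exp (2 * A * ((k + 1) * δ)) * (f l₁ + B * ((k + 1) * δ)) := by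
            rw [hE]; ring
  have hfin := hind n le_rfl
  rw [hnδ] at hfin
  have : l₁ + (l₂ - l₁) = l₂ := by ring
  rwa [this] at hfin

/-! ### Elementary facts on `tj` -/

lemma tj_pos' (j : ℤ) : 0 < tj j := zpow_pos (by norm_num) _

lemma sqrt_tj_pos (j : ℤ) : 0 < √(tj j) := Real.sqrt_pos.2 (tj_pos' j)

lemma sqrt_tj_le_one (j : ℤ) : √(tj j) ≤ 1 := by
  have h : tj j ≤ 1 := zpow_le_one_of_nonpos₀ (by norm_num) (min_le_right _ _)
  calc √(tj j) ≤ √1 := Real.sqrt_le_sqrt h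
    _ = 1 := Real.sqrt_one

lemma sqrt_tj_sq (j : ℤ) : √(tj j) * √(tj j) = tj j := Real.mul_self_sqrt (tj_pos' j).le

lemma tj_neg (i : ℕ) : tj (-(i : ℤ)) = (1 / 4 : ℝ) ^ i := by
  unfold tj
  have : min (-(i : ℤ)) 0 = -(i : ℤ) := min_eq_left (by omega)
  rw [this, zpow_neg, zpow_natCast, one_div, inv_pow]

lemma sqrt_tj_neg (i : ℕ) : √(tj (-(i : ℤ))) = (1 / 2 : ℝ) ^ i := by
  rw [tj_neg]
  have : (1 / 4 : ℝ) ^ i = ((1 / 2 : ℝ) ^ i) ^ 2 := by
    rw [← pow_mul, mul_comm, pow_mul]; norm_num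
  rw [this, Real.sqrt_sq (by positivity)]

section Osg

variable {μ : ℤ → ℝ → ℝ} {CB : ℝ}

/-- (MB) in normalized form and integrated. -/
lemma osg_gron (hCB : 1 ≤ CB)
    (h0 : ∀ j l, 0 ≤ l → l ≤ 1 / 2 → 0 ≤ μ j l)
    (hmono : ∀ j, MonotoneOn (μ j) (Set.Icc 0 (1 / 2)))
    (hMB : ∀ (j : ℤ) (L : ℝ), 2 ≤ L → ∀ l₁ l₂ : ℝ, 0 ≤ l₁ → l₁ ≤ l₂ → l₂ ≤ 1 / 2 →
      μ j l₂ ≤ μ j l₁ + tj j * ∫ l in l₁..l₂,
        (CB * (1 / √(tj j) + L) * (1 / √(tj j) + Real.log L) * μ j l +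
          CB * (L / tj j) * Real.exp (-L)))
    (j : ℤ) {L : ℝ} (hL : 2 ≤ L) {l₁ l₂ : ℝ} (hl1 : 0 ≤ l₁) (h12 : l₁ ≤ l₂) (hl2 : l₂ ≤ 1 / 2) :
    μ j l₂ ≤ Real.exp (2 * (CB * (1 + √(tj j) * L) * (1 + √(tj j) * Real.log L)) * (l₂ - l₁)) *
      (μ j l₁ + CB * L * Real.exp (-L) * (l₂ - l₁)) := by
  have ha := sqrt_tj_pos j
  have ha2 := sqrt_tj_sq j
  have ht := tj_pos' j
  have hlog : 0 ≤ Real.log L := Real.log_nonneg (by linarith)
  apply gronwall_mono h12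
  · positivity
  · positivity
  · intro l h1 h2
    exact h0 j l (hl1.trans h1) (h2.trans hl2)
  · exact (hmono j).mono (Set.Icc_subset_Icc hl1 hl2)
  · intro a b h1 h2 h3
    have := hMB j L hL a b (hl1.trans h1) h2 (h3.trans hl2)
    rw [← intervalIntegral.integral_const_mul] at this
    refine this.trans (le_of_eq ?_)
    congr 1
    apply intervalIntegral.integral_congr
    intro x _
    simp only
    generalize √(tj j) = a' at ha ha2 ⊢
    rw [← ha2]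
    field_simp

/-- One sub-step: the exponent is halved. -/
lemma osg_sub (hCB : 1 ≤ CB)
    (h0 : ∀ j l, 0 ≤ l → l ≤ 1 / 2 → 0 ≤ μ j l)
    (hmono : ∀ j, MonotoneOn (μ j) (Set.Icc 0 (1 / 2)))
    (hMB : ∀ (j : ℤ) (L : ℝ), 2 ≤ L → ∀ l₁ l₂ : ℝ, 0 ≤ l₁ → l₁ ≤ l₂ → l₂ ≤ 1 / 2 →
      μ j l₂ ≤ μ j l₁ + tj j * ∫ l in l₁..l₂,
        (CB * (1 / √(tj j) + L) * (1 / √(tj j) + Real.log L) * μ j l +
          CB * (L / tj j) * Real.exp (-L)))
    (j : ℤ) {L : ℝ} (hL : 4 * CB ≤ L) (haL : 1 ≤ √(tj j) * L)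
    {l₁ l₂ : ℝ} (hl1 : 0 ≤ l₁) (h12 : l₁ ≤ l₂) (hl2 : l₂ ≤ 1 / 2)
    (hD : (l₂ - l₁) * (24 * CB * √(tj j) * (1 + √(tj j) * Real.log (2 * L))) ≤ 1)
    (hμ : μ j l₁ ≤ Real.exp (-L)) : μ j l₂ ≤ Real.exp (-(L / 2)) := by
  have ha := sqrt_tj_pos j
  have hG := osg_gron hCB h0 hmono hMB j (L := 2 * L) (by linarith) hl1 h12 hl2
  set a := √(tj j) with hadef
  have hlog : 0 ≤ Real.log (2 * L) := Real.log_nonneg (by linarith)
  have hd : 0 ≤ l₂ - l₁ := by linarith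
  have hL0 : 0 < L := by linarith
  -- exponent
  have h1 : 2 * (CB * (1 + a * (2 * L)) * (1 + a * Real.log (2 * L))) * (l₂ - l₁) ≤ L / 4 := by
    have e1 : 1 + a * (2 * L) ≤ 3 * (a * L) := by linarith
    have e2 : 0 ≤ 1 + a * Real.log (2 * L) := by positivity
    have e3 : CB * (1 + a * (2 * L)) * (1 + a * Real.log (2 * L))
        ≤ CB * (3 * (a * L)) * (1 + a * Real.log (2 * L)) := by
      apply mul_le_mul_of_nonneg_right _ e2
      exact mul_le_mul_of_nonneg_left e1 (by linarith)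
    have e4 : 2 * (CB * (3 * (a * L)) * (1 + a * Real.log (2 * L))) * (l₂ - l₁)
        = L / 4 * ((l₂ - l₁) * (24 * CB * a * (1 + a * Real.log (2 * L)))) := by ring
    calc 2 * (CB * (1 + a * (2 * L)) * (1 + a * Real.log (2 * L))) * (l₂ - l₁)
        ≤ 2 * (CB * (3 * (a * L)) * (1 + a * Real.log (2 * L))) * (l₂ - l₁) := by
          apply mul_le_mul_of_nonneg_right _ hd
          linarith
      _ = L / 4 * ((l₂ - l₁) * (24 * CB * a * (1 + a * Real.log (2 * L)))) := e4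
      _ ≤ L / 4 * 1 := mul_le_mul_of_nonneg_left hD (by linarith)
      _ = L / 4 := by ring
  -- additive error
  have h2 : CB * (2 * L) * Real.exp (-(2 * L)) * (l₂ - l₁) ≤ Real.exp (-L) := by
    have hexpL : L ^ 2 / 2 ≤ Real.exp L := by
      have := Real.quadratic_le_exp_of_nonneg hL0.le
      nlinarith
    have hCL : CB * L ≤ Real.exp L := by nlinarith
    have e1 : Real.exp (-(2 * L)) = Real.exp (-L) * Real.exp (-L) := by
      rw [← Real.exp_add]; congr 1; ring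
    have e2 : CB * L * Real.exp (-L) ≤ 1 := by
      calc CB * L * Real.exp (-L) ≤ Real.exp L * Real.exp (-L) :=
            mul_le_mul_of_nonneg_right hCL (Real.exp_pos _).le
        _ = 1 := by rw [← Real.exp_add]; simp
    have hd2 : l₂ - l₁ ≤ 1 / 2 := by linarith
    have hpos : 0 ≤ CB * L * Real.exp (-L) := by positivity
    calc CB * (2 * L) * Real.exp (-(2 * L)) * (l₂ - l₁)
        = (CB * L * Real.exp (-L)) * (2 * (l₂ - l₁)) * Real.exp (-L) := by rw [e1]; ring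
      _ ≤ 1 * Real.exp (-L) := by
          apply mul_le_mul_of_nonneg_right _ (Real.exp_pos _).le
          nlinarith
      _ = Real.exp (-L) := one_mul _
  have h3 : (2 : ℝ) ≤ Real.exp (L / 4) := by
    have := Real.add_one_le_exp (L / 4)
    linarith
  have hsum0 : 0 ≤ μ j l₁ + CB * (2 * L) * Real.exp (-(2 * L)) * (l₂ - l₁) := by
    have := h0 j l₁ hl1 (h12.trans hl2)
    positivity
  calc μ j l₂ ≤ Real.exp (2 * (CB * (1 + a * (2 * L)) * (1 + a * Real.log (2 * L))) * (l₂ - l₁)) *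
        (μ j l₁ + CB * (2 * L) * Real.exp (-(2 * L)) * (l₂ - l₁)) := hG
    _ ≤ Real.exp (L / 4) * (μ j l₁ + CB * (2 * L) * Real.exp (-(2 * L)) * (l₂ - l₁)) :=
        mul_le_mul_of_nonneg_right (Real.exp_le_exp.2 h1) hsum0
    _ ≤ Real.exp (L / 4) * (2 * Real.exp (-L)) := by
        apply mul_le_mul_of_nonneg_left _ (Real.exp_pos _).le
        linarith
    _ ≤ Real.exp (L / 4) * (Real.exp (L / 4) * Real.exp (-L)) := by
        apply mul_le_mul_of_nonneg_left _ (Real.exp_pos _).le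
        exact mul_le_mul_of_nonneg_right h3 (Real.exp_pos _).le
    _ = Real.exp (-(L / 2)) := by
        rw [← Real.exp_add, ← Real.exp_add]; congr 1; ring

/-- `n` sub-steps. -/
lemma osg_subs (hCB : 1 ≤ CB)
    (h0 : ∀ j l, 0 ≤ l → l ≤ 1 / 2 → 0 ≤ μ j l)
    (hmono : ∀ j, MonotoneOn (μ j) (Set.Icc 0 (1 / 2)))
    (hMB : ∀ (j : ℤ) (L : ℝ), 2 ≤ L → ∀ l₁ l₂ : ℝ, 0 ≤ l₁ → l₁ ≤ l₂ → l₂ ≤ 1 / 2 →
      μ j l₂ ≤ μ j l₁ + tj j * ∫ l in l₁..l₂,
        (CB * (1 / √(tj j) + L) * (1 / √(tj j) + Real.log L) * μ j l +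
          CB * (L / tj j) * Real.exp (-L)))
    (j : ℤ) (n : ℕ) : ∀ {L : ℝ}, 4 * CB ≤ L / 2 ^ n → 1 ≤ √(tj j) * (L / 2 ^ n) →
    ∀ {l₁ l₂ : ℝ}, 0 ≤ l₁ → l₁ ≤ l₂ → l₂ ≤ 1 / 2 →
    (l₂ - l₁) * (24 * CB * √(tj j) * (1 + √(tj j) * Real.log (2 * L))) ≤ n →
    μ j l₁ ≤ Real.exp (-L) → μ j l₂ ≤ Real.exp (-(L / 2 ^ n)) := by
  have ha := sqrt_tj_pos j
  set a := √(tj j) with hadef
  induction n with
  | zero =>
    intro L hL haL l₁ l₂ hl1 h12 hl2 hD hμ
    simp only [pow_zero, div_one, CharP.cast_eq_zero] at hL haL hD ⊢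
    have hlog : 0 ≤ Real.log (2 * L) := Real.log_nonneg (by linarith)
    have hpos : 0 < 24 * CB * a * (1 + a * Real.log (2 * L)) := by
      have : 0 < CB := by linarith
      positivity
    have : l₂ - l₁ ≤ 0 := by
      by_contra hcon
      push Not at hcon
      have := mul_pos hcon hpos
      linarith
    have : l₂ = l₁ := by linarith
    rw [this]; exact hμ
  | succ n ih =>
    intro L hL haL l₁ l₂ hl1 h12 hl2 hD hμ
    have hp : (0 : ℝ) < 2 ^ (n + 1) := by positivity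
    have h2n : (1 : ℝ) ≤ 2 ^ (n + 1) := one_le_pow₀ (by norm_num)
    have hL' : L / 2 ^ (n + 1) ≤ L := by
      apply div_le_self _ h2n
      have : 0 ≤ L / 2 ^ (n + 1) := by linarith
      by_contra hcon
      push Not at hcon
      have := div_neg_of_neg_of_pos hcon hp
      linarith
    have hLL : 4 * CB ≤ L := hL.trans hL'
    have hL0 : 0 < L := by linarith
    have hlog : 0 ≤ Real.log (2 * L) := Real.log_nonneg (by linarith)
    have hpos : 0 < 24 * CB * a * (1 + a * Real.log (2 * L)) := by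
      have : 0 < CB := by linarith
      positivity
    set W := 24 * CB * a * (1 + a * Real.log (2 * L)) with hW
    set m := l₁ + (l₂ - l₁) / (n + 1) with hm
    have hn1 : (0 : ℝ) < (n : ℝ) + 1 := by positivity
    have hm1 : l₁ ≤ m := by
      rw [hm]
      have : 0 ≤ (l₂ - l₁) / ((n : ℝ) + 1) := div_nonneg (by linarith) hn1.le
      linarith
    have hm2 : m ≤ l₂ := by
      rw [hm]
      have : (l₂ - l₁) / ((n : ℝ) + 1) ≤ l₂ - l₁ := by
        apply div_le_self (by linarith)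
        have : (0 : ℝ) ≤ n := Nat.cast_nonneg n
        linarith
      linarith
    have hD' : (l₂ - l₁) * W ≤ (n : ℝ) + 1 := by
      have := hD
      push_cast at this
      exact this
    have hD1 : (m - l₁) * W ≤ 1 := by
      have : (m - l₁) * W = ((l₂ - l₁) * W) / ((n : ℝ) + 1) := by rw [hm]; ring
      rw [this, div_le_one hn1]
      exact hD'
    have hD2 : (l₂ - m) * W ≤ n := by
      have h3 : (l₂ - m) * W = ((l₂ - l₁) * W) * (n / ((n : ℝ) + 1)) := by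
        rw [hm]; field_simp; ring
      rw [h3]
      calc ((l₂ - l₁) * W) * (n / ((n : ℝ) + 1)) ≤ ((n : ℝ) + 1) * (n / ((n : ℝ) + 1)) :=
            mul_le_mul_of_nonneg_right hD' (by positivity)
        _ = n := by field_simp
    have haL1 : 1 ≤ a * L := by
      refine haL.trans ?_
      exact mul_le_mul_of_nonneg_left hL' ha.le
    have hs := osg_sub hCB h0 hmono hMB j hLL haL1 hl1 hm1 (hm2.trans hl2) hD1 hμ
    have hpow : L / 2 / 2 ^ n = L / 2 ^ (n + 1) := by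
      rw [pow_succ]; field_simp
    have hres := ih (L := L / 2) (by rw [hpow]; exact hL) (by rw [hpow]; exact haL)
      (hl1.trans hm1) hm2 hl2 (by
        refine le_trans ?_ hD2
        apply mul_le_mul_of_nonneg_left _ (by linarith)
        rw [hW]
        apply mul_le_mul_of_nonneg_left _ (by positivity)
        have : Real.log (2 * (L / 2)) ≤ Real.log (2 * L) :=
          Real.log_le_log (by linarith) (by linarith)
        have := mul_le_mul_of_nonneg_left this ha.le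
        linarith) hs
    rw [hpow] at hres
    exact hres

/-- Zero propagates within a round. -/
lemma osg_zero (hCB : 1 ≤ CB)
    (h0 : ∀ j l, 0 ≤ l → l ≤ 1 / 2 → 0 ≤ μ j l)
    (hmono : ∀ j, MonotoneOn (μ j) (Set.Icc 0 (1 / 2)))
    (hMB : ∀ (j : ℤ) (L : ℝ), 2 ≤ L → ∀ l₁ l₂ : ℝ, 0 ≤ l₁ → l₁ ≤ l₂ → l₂ ≤ 1 / 2 →
      μ j l₂ ≤ μ j l₁ + tj j * ∫ l in l₁..l₂,
        (CB * (1 / √(tj j) + L) * (1 / √(tj j) + Real.log L) * μ j l +
          CB * (L / tj j) * Real.exp (-L)))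
    (j : ℤ) {l₁ l₂ : ℝ} (hl1 : 0 ≤ l₁) (h12 : l₁ ≤ l₂) (hl2 : l₂ ≤ 1 / 2)
    (hD : l₂ - l₁ ≤ 1 / (96 * CB)) (hμ : μ j l₁ = 0) : μ j l₂ = 0 := by
  have ha := sqrt_tj_pos j
  have ha1 := sqrt_tj_le_one j
  have hCB0 : 0 < CB := by linarith
  have hsubs := osg_subs hCB h0 hmono hMB j
  set a := √(tj j) with hadef
  have hev : ∀ᶠ L : ℝ in atTop, μ j l₂ ≤ Real.exp (-√L) := by
    have e1 : ∀ᶠ L : ℝ in atTop, Real.exp (5 / 4) * (2 : ℝ) ^ (1 / 4 : ℝ) ≤ L ^ (1 / 4 : ℝ) :=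
      (tendsto_rpow_atTop (by norm_num)).eventually_ge_atTop _
    have e2 : ∀ᶠ L : ℝ in atTop, 4 * CB ≤ √L := Real.tendsto_sqrt_atTop.eventually_ge_atTop _
    have e3 : ∀ᶠ L : ℝ in atTop, 1 / a ≤ √L := Real.tendsto_sqrt_atTop.eventually_ge_atTop _
    filter_upwards [e1, e2, e3, eventually_ge_atTop (1 : ℝ)] with L h1 h2 h3 h4
    have hL0 : 0 < L := by linarith
    have hlog : 0 ≤ Real.log (2 * L) := Real.log_nonneg (by linarith)
    set W := (l₂ - l₁) * (24 * CB * a * (1 + a * Real.log (2 * L))) with hW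
    have hd0 : 0 ≤ l₂ - l₁ := by linarith
    have hW1 : W ≤ 1 / 4 * (1 + Real.log (2 * L)) := by
      have e4 : (l₂ - l₁) * (24 * CB) ≤ 1 / 4 := by
        calc (l₂ - l₁) * (24 * CB) ≤ 1 / (96 * CB) * (24 * CB) :=
              mul_le_mul_of_nonneg_right hD (by positivity)
          _ = 1 / 4 := by field_simp; norm_num
      have e5 : a * (1 + a * Real.log (2 * L)) ≤ 1 + Real.log (2 * L) := by
        have : a * Real.log (2 * L) ≤ Real.log (2 * L) := by nlinarith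
        have h6 : 0 ≤ a * Real.log (2 * L) := by positivity
        nlinarith
      have e6 : 0 ≤ a * (1 + a * Real.log (2 * L)) := by positivity
      calc W = ((l₂ - l₁) * (24 * CB)) * (a * (1 + a * Real.log (2 * L))) := by rw [hW]; ring
        _ ≤ 1 / 4 * (a * (1 + a * Real.log (2 * L))) := mul_le_mul_of_nonneg_right e4 e6
        _ ≤ 1 / 4 * (1 + Real.log (2 * L)) := by linarith
    have hW0 : 0 ≤ W := by positivity
    obtain ⟨n, hn1, hn2⟩ : ∃ n : ℕ, W ≤ n ∧ (n : ℝ) ≤ W + 1 :=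
      ⟨⌈W⌉₊, Nat.le_ceil _, (Nat.ceil_lt_add_one hW0).le⟩
    have hpow : (2 : ℝ) ^ n ≤ Real.exp (5 / 4) * ((2 : ℝ) ^ (1 / 4 : ℝ) * L ^ (1 / 4 : ℝ)) := by
      have e7 : (2 : ℝ) ≤ Real.exp 1 := by
        have := Real.add_one_le_exp (1 : ℝ); linarith
      have e8 : (n : ℝ) ≤ 5 / 4 + 1 / 4 * Real.log (2 * L) := by linarith
      calc (2 : ℝ) ^ n ≤ (Real.exp 1) ^ n := by gcongr
        _ = Real.exp n := by rw [← Real.exp_nat_mul, mul_one]
        _ ≤ Real.exp (5 / 4 + 1 / 4 * Real.log (2 * L)) := Real.exp_le_exp.2 e8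
        _ = Real.exp (5 / 4) * ((2 : ℝ) ^ (1 / 4 : ℝ) * L ^ (1 / 4 : ℝ)) := by
            rw [Real.exp_add, ← Real.mul_rpow (by norm_num) hL0.le,
              Real.rpow_def_of_pos (by positivity : (0 : ℝ) < 2 * L), mul_comm (1 / 4 : ℝ)]
    have hquot : √L ≤ L / 2 ^ n := by
      rw [le_div_iff₀ (by positivity)]
      have e9 : (2 : ℝ) ^ n ≤ √L := by
        calc (2 : ℝ) ^ n ≤ Real.exp (5 / 4) * ((2 : ℝ) ^ (1 / 4 : ℝ) * L ^ (1 / 4 : ℝ)) := hpow
          _ = (Real.exp (5 / 4) * (2 : ℝ) ^ (1 / 4 : ℝ)) * L ^ (1 / 4 : ℝ) := by ring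
          _ ≤ L ^ (1 / 4 : ℝ) * L ^ (1 / 4 : ℝ) :=
              mul_le_mul_of_nonneg_right h1 (by positivity)
          _ = √L := by
              rw [← Real.rpow_add hL0, Real.sqrt_eq_rpow]; norm_num
      calc √L * 2 ^ n ≤ √L * √L := mul_le_mul_of_nonneg_left e9 (Real.sqrt_nonneg _)
        _ = L := Real.mul_self_sqrt hL0.le
    have hres := hsubs n (L := L) (h2.trans hquot) (by
        have : a * √L ≤ a * (L / 2 ^ n) := mul_le_mul_of_nonneg_left hquot ha.le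
        refine le_trans ?_ this
        rw [div_le_iff₀ ha] at h3
        linarith) hl1 h12 hl2 hn1 (by rw [hμ]; exact (Real.exp_pos _).le)
    exact hres.trans (Real.exp_le_exp.2 (by linarith))
  have hlim : Tendsto (fun L : ℝ => Real.exp (-√L)) atTop (𝓝 0) :=
    Real.tendsto_exp_atBot.comp (tendsto_neg_atTop_atBot.comp Real.tendsto_sqrt_atTop)
  exact le_antisymm (ge_of_tendsto hlim hev) (h0 j l₂ (hl1.trans h12) hl2)

/-- Zero at the beginning of a round gives zero in the whole round. -/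
lemma osg_zero_round (hCB : 1 ≤ CB)
    (h0 : ∀ j l, 0 ≤ l → l ≤ 1 / 2 → 0 ≤ μ j l)
    (hmono : ∀ j, MonotoneOn (μ j) (Set.Icc 0 (1 / 2)))
    (hMB : ∀ (j : ℤ) (L : ℝ), 2 ≤ L → ∀ l₁ l₂ : ℝ, 0 ≤ l₁ → l₁ ≤ l₂ → l₂ ≤ 1 / 2 →
      μ j l₂ ≤ μ j l₁ + tj j * ∫ l in l₁..l₂,
        (CB * (1 / √(tj j) + L) * (1 / √(tj j) + Real.log L) * μ j l +
          CB * (L / tj j) * Real.exp (-L)))
    (j : ℤ) (hμ : μ j 0 = 0) {l : ℝ} (hl1 : 0 ≤ l) (hl2 : l ≤ 1 / 2) : μ j l = 0 := by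
  have hCB0 : 0 < CB := by linarith
  have key : ∀ m : ℕ, ∀ l : ℝ, 0 ≤ l → l ≤ 1 / 2 → l ≤ m * (1 / (96 * CB)) → μ j l = 0 := by
    intro m
    induction m with
    | zero =>
      intro l h1 _ h3
      simp only [CharP.cast_eq_zero, zero_mul] at h3
      have : l = 0 := le_antisymm h3 h1
      rw [this]; exact hμ
    | succ m ih =>
      intro l h1 h2 h3
      push_cast at h3
      have hDpos : 0 < 1 / (96 * CB) := by positivity
      by_cases hc : l ≤ 1 / (96 * CB)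
      · exact osg_zero hCB h0 hmono hMB j le_rfl h1 h2 (by linarith) hμ
      · push Not at hc
        have hz := ih (l - 1 / (96 * CB)) (by linarith) (by linarith) (by linarith)
        exact osg_zero hCB h0 hmono hMB j (l₁ := l - 1 / (96 * CB)) (by linarith) (by linarith) h2
          (by linarith) hz
  obtain ⟨m, hm⟩ := exists_nat_gt (1 / 2 * (96 * CB))
  apply key m l hl1 hl2
  have : (1 : ℝ) / 2 ≤ m * (1 / (96 * CB)) := by
    rw [mul_one_div, le_div_iff₀ (by positivity)]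
    exact hm.le
  linarith

/-- Step 1: the values at the start decay faster than any exponential. -/
lemma osg_step1 {y : ℕ → ℝ} {C₀ q : ℝ} (hy0 : ∀ i, 0 ≤ y i)
    (hy : ∀ i : ℕ, y i ≤ C₀ * (1 / 2 : ℝ) ^ i) (hq0 : 0 < q) (hq : q ≤ 3 / 4)
    (hMA : ∀ N : ℕ, ∃ (C : ℝ) (K : ℕ), 0 ≤ C ∧ ∀ i, K ≤ i →
      y i ≤ y (i + 1) + C * q ^ (i + 1) * y i + C * ((1 / 4 : ℝ) ^ (i + 1)) ^ N) (N' : ℕ) :
    ∀ᶠ k : ℕ in atTop, y k ≤ Real.exp (-((N' : ℝ) * k)) := by
  obtain ⟨C, K, hC, hK⟩ := hMA (N' + 1)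
  set p : ℝ := (1 / 4 : ℝ) ^ (N' + 1) with hp
  have hp0 : 0 < p := by positivity
  have hp1 : p ≤ 1 / 4 := by
    rw [hp, pow_succ]
    have : (1 / 4 : ℝ) ^ N' ≤ 1 := pow_le_one₀ (by norm_num) (by norm_num)
    nlinarith
  have hpp : ∀ i : ℕ, ((1 / 4 : ℝ) ^ i) ^ (N' + 1) = p ^ i := by
    intro i; rw [hp, ← pow_mul, ← pow_mul, mul_comm]
  have hqlim : Tendsto (fun i : ℕ => C * q ^ (i + 1)) atTop (𝓝 0) := by
    have h1 : Tendsto (fun i : ℕ => q ^ (i + 1)) atTop (𝓝 0) :=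
      (tendsto_pow_atTop_nhds_zero_of_lt_one hq0.le (by linarith)).comp (tendsto_add_atTop_nat 1)
    simpa using h1.const_mul C
  obtain ⟨K1, hK1⟩ := (hqlim.eventually_le_const (by norm_num : (0 : ℝ) < 1 / 2)).exists_forall_of_atTop
  set M := max K K1 with hM
  set v : ℕ → ℝ := fun i => Real.exp (-(6 * C * q ^ i)) * y i - C * p ^ i with hv
  have hvstep : ∀ i, M ≤ i → v i ≤ v (i + 1) := by
    intro i hi
    have hiK : K ≤ i := (le_max_left _ _).trans hi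
    have hr : C * q ^ (i + 1) ≤ 1 / 2 := hK1 i ((le_max_right _ _).trans hi)
    have h1 := hK i hiK
    rw [hpp] at h1
    set r := C * q ^ (i + 1) with hrdef
    have hr0 : 0 ≤ r := by positivity
    have h2 : y i * (1 - r) ≤ y (i + 1) + C * p ^ (i + 1) := by
      have : C * q ^ (i + 1) * y i = r * y i := rfl
      nlinarith
    have hexp : 1 ≤ Real.exp (2 * r) * (1 - r) := by
      have h3 : 1 + 2 * r ≤ Real.exp (2 * r) := by
        have := Real.add_one_le_exp (2 * r)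
        linarith
      have h4 : (1 + 2 * r) * (1 - r) ≤ Real.exp (2 * r) * (1 - r) :=
        mul_le_mul_of_nonneg_right h3 (by linarith)
      nlinarith
    have h3 : y i ≤ Real.exp (2 * r) * (y (i + 1) + C * p ^ (i + 1)) := by
      calc y i = y i * 1 := by ring
        _ ≤ y i * (Real.exp (2 * r) * (1 - r)) := mul_le_mul_of_nonneg_left hexp (hy0 i)
        _ = Real.exp (2 * r) * (y i * (1 - r)) := by ring
        _ ≤ _ := mul_le_mul_of_nonneg_left h2 (Real.exp_pos _).le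
    have h4 : 2 * r ≤ 6 * C * q ^ i - 6 * C * q ^ (i + 1) := by
      have hqi : 0 ≤ C * q ^ i := by positivity
      have e1 : 2 * r = 2 * q * (C * q ^ i) := by rw [hrdef, pow_succ]; ring
      have e2 : 6 * C * q ^ i - 6 * C * q ^ (i + 1) = 6 * (1 - q) * (C * q ^ i) := by
        rw [pow_succ]; ring
      rw [e1, e2]
      apply mul_le_mul_of_nonneg_right _ hqi
      linarith
    have hnn : 0 ≤ y (i + 1) + C * p ^ (i + 1) := by
      have := hy0 (i + 1)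
      positivity
    have h5 : Real.exp (-(6 * C * q ^ i)) * y i
        ≤ Real.exp (-(6 * C * q ^ (i + 1))) * (y (i + 1) + C * p ^ (i + 1)) := by
      calc Real.exp (-(6 * C * q ^ i)) * y i
          ≤ Real.exp (-(6 * C * q ^ i)) * (Real.exp (2 * r) * (y (i + 1) + C * p ^ (i + 1))) :=
            mul_le_mul_of_nonneg_left h3 (Real.exp_pos _).le
        _ = Real.exp (-(6 * C * q ^ i) + 2 * r) * (y (i + 1) + C * p ^ (i + 1)) := by
            rw [Real.exp_add]; ring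
        _ ≤ _ := by
            apply mul_le_mul_of_nonneg_right _ hnn
            apply Real.exp_le_exp.2
            linarith
    have h6 : Real.exp (-(6 * C * q ^ (i + 1))) ≤ 1 := by
      apply Real.exp_le_one_iff.2
      have : 0 ≤ 6 * C * q ^ (i + 1) := by positivity
      linarith
    have h7 : C * p ^ (i + 1) * 2 ≤ C * p ^ i := by
      have : 0 ≤ C * p ^ i := by positivity
      have e3 : C * p ^ (i + 1) = p * (C * p ^ i) := by rw [pow_succ]; ring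
      rw [e3]
      nlinarith
    have h8 : 0 ≤ C * p ^ (i + 1) := by positivity
    simp only [hv]
    nlinarith
  have hvlim : Tendsto v atTop (𝓝 0) := by
    have h1 : Tendsto (fun i : ℕ => Real.exp (-(6 * C * q ^ i)) * y i) atTop (𝓝 0) := by
      have h2 : Tendsto (fun i : ℕ => C₀ * (1 / 2 : ℝ) ^ i) atTop (𝓝 0) := by
        simpa using (tendsto_pow_atTop_nhds_zero_of_lt_one (r := (1 / 2 : ℝ)) (by norm_num)
          (by norm_num)).const_mul C₀
      apply squeeze_zero (fun i => mul_nonneg (Real.exp_pos _).le (hy0 i)) _ h2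
      intro i
      refine le_trans ?_ (hy i)
      have h6 : Real.exp (-(6 * C * q ^ i)) ≤ 1 := by
        apply Real.exp_le_one_iff.2
        have : 0 ≤ 6 * C * q ^ i := by positivity
        linarith
      calc Real.exp (-(6 * C * q ^ i)) * y i ≤ 1 * y i :=
            mul_le_mul_of_nonneg_right h6 (hy0 i)
        _ = y i := one_mul _
    have h3 : Tendsto (fun i : ℕ => C * p ^ i) atTop (𝓝 0) := by
      simpa using (tendsto_pow_atTop_nhds_zero_of_lt_one hp0.le (by linarith)).const_mul C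
    simpa using h1.sub h3
  have hvle : ∀ i, M ≤ i → v i ≤ 0 := by
    intro i hi
    have hmon : ∀ d : ℕ, v i ≤ v (i + d) := by
      intro d
      induction d with
      | zero => exact le_rfl
      | succ d ih => exact ih.trans (hvstep (i + d) (by omega))
    have hl : Tendsto (fun d : ℕ => v (i + d)) atTop (𝓝 0) := by
      have := hvlim.comp (tendsto_add_atTop_nat i)
      refine this.congr (fun d => ?_)
      simp [add_comm]
    exact ge_of_tendsto' hl hmon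
  have hfin : ∀ᶠ k : ℕ in atTop, Real.exp (6 * C) * C * (1 / 4 : ℝ) ^ k ≤ 1 := by
    have h1 : Tendsto (fun k : ℕ => Real.exp (6 * C) * C * (1 / 4 : ℝ) ^ k) atTop (𝓝 0) := by
      simpa using (tendsto_pow_atTop_nhds_zero_of_lt_one (r := (1 / 4 : ℝ)) (by norm_num)
        (by norm_num)).const_mul (Real.exp (6 * C) * C)
    exact h1.eventually_le_const (by norm_num)
  filter_upwards [hfin, eventually_ge_atTop M] with k hk1 hk2
  have h1 := hvle k hk2
  simp only [hv] at h1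
  have h2 : y k ≤ Real.exp (6 * C) * (C * p ^ k) := by
    have h3 : y k = Real.exp (6 * C * q ^ k) * (Real.exp (-(6 * C * q ^ k)) * y k) := by
      rw [← mul_assoc, ← Real.exp_add]; simp
    rw [h3]
    have h4 : Real.exp (6 * C * q ^ k) ≤ Real.exp (6 * C) := by
      apply Real.exp_le_exp.2
      have : q ^ k ≤ 1 := pow_le_one₀ hq0.le (by linarith)
      nlinarith
    have h5 : Real.exp (-(6 * C * q ^ k)) * y k ≤ C * p ^ k := by linarith
    exact mul_le_mul h4 h5 (mul_nonneg (Real.exp_pos _).le (hy0 k)) (Real.exp_pos _).le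
  have h3 : p ^ k = (1 / 4 : ℝ) ^ k * ((1 / 4 : ℝ) ^ k) ^ N' := by
    rw [← hpp, pow_succ]; ring
  have h4 : ((1 / 4 : ℝ) ^ k) ^ N' ≤ Real.exp (-((N' : ℝ) * k)) := by
    have e1 : (1 / 4 : ℝ) ≤ Real.exp (-1) := by
      rw [Real.exp_neg, one_div]
      apply inv_anti₀ (Real.exp_pos _)
      have := Real.exp_one_lt_d9
      linarith
    calc ((1 / 4 : ℝ) ^ k) ^ N' = (1 / 4 : ℝ) ^ (k * N') := by rw [pow_mul]
      _ ≤ (Real.exp (-1)) ^ (k * N') := by gcongr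
      _ = Real.exp (-((N' : ℝ) * k)) := by
          rw [← Real.exp_nat_mul]; congr 1; push_cast; ring
  calc y k ≤ Real.exp (6 * C) * (C * p ^ k) := h2
    _ = (Real.exp (6 * C) * C * (1 / 4 : ℝ) ^ k) * ((1 / 4 : ℝ) ^ k) ^ N' := by rw [h3]; ring
    _ ≤ 1 * Real.exp (-((N' : ℝ) * k)) :=
        mul_le_mul hk1 h4 (by positivity) (by norm_num)
    _ = _ := one_mul _

/-- Step 3: rounds with a common parameter `L`. -/
lemma osg_step3 (hCB : 1 ≤ CB) {y : ℕ → ℝ} (hy0 : ∀ i, 0 ≤ y i) {L : ℝ} (hL : 2 ≤ L)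
    (hround : ∀ i : ℕ, y i ≤ Real.exp (CB * (1 + (1 / 2 : ℝ) ^ (i + 1) * L) *
      (1 + (1 / 2 : ℝ) ^ (i + 1) * Real.log L)) * (y (i + 1) + CB * L * Real.exp (-L) / 2))
    {k1 : ℕ} (hk1 : Real.log L ≤ 2 ^ k1) (d : ℕ) : ∀ i, k1 ≤ i →
    y i ≤ Real.exp (2 * CB * (d + L * (1 / 2 : ℝ) ^ i)) *
      (y (i + d) + d * (CB * L * Real.exp (-L) / 2)) := by
  have heB : 0 ≤ CB * L * Real.exp (-L) / 2 := by positivity
  set eB := CB * L * Real.exp (-L) / 2 with heBdef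
  have hlog : 0 ≤ Real.log L := Real.log_nonneg (by linarith)
  induction d with
  | zero =>
    intro i _
    simp only [CharP.cast_eq_zero, zero_add, add_zero, zero_mul]
    have h1 : 1 ≤ Real.exp (2 * CB * (L * (1 / 2 : ℝ) ^ i)) := by
      apply Real.one_le_exp
      positivity
    nlinarith [hy0 i]
  | succ d ih =>
    intro i hi
    have h1 := hround i
    have h2 := ih (i + 1) (by omega)
    have h3 : CB * (1 + (1 / 2 : ℝ) ^ (i + 1) * L) * (1 + (1 / 2 : ℝ) ^ (i + 1) * Real.log L)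
        ≤ 2 * CB * (1 + (1 / 2 : ℝ) ^ (i + 1) * L) := by
      have e1 : (1 / 2 : ℝ) ^ (i + 1) * Real.log L ≤ 1 := by
        have e2 : (1 / 2 : ℝ) ^ (i + 1) ≤ (1 / 2 : ℝ) ^ k1 :=
          pow_le_pow_of_le_one (by norm_num) (by norm_num) (by omega)
        calc (1 / 2 : ℝ) ^ (i + 1) * Real.log L ≤ (1 / 2 : ℝ) ^ k1 * 2 ^ k1 :=
              mul_le_mul e2 hk1 hlog (by positivity)
          _ = 1 := by rw [← mul_pow]; norm_num
      have e3 : 0 ≤ CB * (1 + (1 / 2 : ℝ) ^ (i + 1) * L) := by positivity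
      nlinarith
    have hnn : 0 ≤ y (i + 1 + d) + d * eB := by
      have := hy0 (i + 1 + d)
      positivity
    have hbase : y (i + 1) + eB ≤ Real.exp (2 * CB * (d + L * (1 / 2 : ℝ) ^ (i + 1))) *
        (y (i + 1 + d) + (d + 1) * eB) := by
      have h4 : 1 ≤ Real.exp (2 * CB * (d + L * (1 / 2 : ℝ) ^ (i + 1))) := by
        apply Real.one_le_exp
        positivity
      have h5 : eB ≤ Real.exp (2 * CB * (d + L * (1 / 2 : ℝ) ^ (i + 1))) * eB := by
        nlinarith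
      calc y (i + 1) + eB ≤ Real.exp (2 * CB * (d + L * (1 / 2 : ℝ) ^ (i + 1))) *
            (y (i + 1 + d) + d * eB) + Real.exp (2 * CB * (d + L * (1 / 2 : ℝ) ^ (i + 1))) * eB :=
              add_le_add h2 h5
        _ = _ := by ring
    have hb0 : 0 ≤ y (i + 1) + eB := add_nonneg (hy0 _) heB
    calc y i ≤ Real.exp (CB * (1 + (1 / 2 : ℝ) ^ (i + 1) * L) *
          (1 + (1 / 2 : ℝ) ^ (i + 1) * Real.log L)) * (y (i + 1) + eB) := h1
      _ ≤ Real.exp (2 * CB * (1 + (1 / 2 : ℝ) ^ (i + 1) * L)) * (y (i + 1) + eB) :=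
          mul_le_mul_of_nonneg_right (Real.exp_le_exp.2 h3) hb0
      _ ≤ Real.exp (2 * CB * (1 + (1 / 2 : ℝ) ^ (i + 1) * L)) *
          (Real.exp (2 * CB * (d + L * (1 / 2 : ℝ) ^ (i + 1))) *
            (y (i + 1 + d) + (d + 1) * eB)) :=
          mul_le_mul_of_nonneg_left hbase (Real.exp_pos _).le
      _ = Real.exp (2 * CB * ((d + 1 : ℕ) + L * (1 / 2 : ℝ) ^ i)) *
          (y (i + (d + 1)) + (d + 1 : ℕ) * eB) := by
          rw [← mul_assoc, ← Real.exp_add]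
          have e1 : i + 1 + d = i + (d + 1) := by omega
          rw [e1]
          push_cast
          congr 2
          rw [pow_succ]
          ring

/-- Step 4: rounds by sub-steps. -/
lemma osg_step4 (hCB : 1 ≤ CB) {y : ℕ → ℝ} {L1 : ℝ} (hL1 : 1 / 2 ≤ L1)
    (hsub : ∀ (i n : ℕ) (L : ℝ), 4 * CB ≤ L / 2 ^ n → 1 ≤ (1 / 2 : ℝ) ^ (i + 1) * (L / 2 ^ n) →
      12 * CB * (1 / 2 : ℝ) ^ (i + 1) * (1 + (1 / 2 : ℝ) ^ (i + 1) * Real.log (2 * L)) ≤ n →
      y (i + 1) ≤ Real.exp (-L) → y i ≤ Real.exp (-(L / 2 ^ n)))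
    {k1 k2 : ℕ}
    (hy : y k1 ≤ Real.exp (-L1))
    (hfin1 : 4 * CB ≤ L1 * (2 : ℝ) ^ (-(12 * CB * ((1 / 2 : ℝ) ^ k2 +
      (1 / 4 : ℝ) ^ k2 * Real.log (2 * L1)) + ((k1 : ℝ) - k2))))
    (hfin2 : (2 : ℝ) ^ k1 ≤ L1 * (2 : ℝ) ^ (-(12 * CB * ((1 / 2 : ℝ) ^ k2 +
      (1 / 4 : ℝ) ^ k2 * Real.log (2 * L1)) + ((k1 : ℝ) - k2)))) (d : ℕ) : ∀ i, i + d = k1 →
    k2 ≤ i → y i ≤ Real.exp (-(L1 * (2 : ℝ) ^ (-(12 * CB * ((1 / 2 : ℝ) ^ i +
      (1 / 4 : ℝ) ^ i * Real.log (2 * L1)) + ((k1 : ℝ) - i))))) := by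
  have hΛ : 0 ≤ Real.log (2 * L1) := Real.log_nonneg (by linarith)
  set Λ := Real.log (2 * L1) with hΛdef
  set T : ℕ → ℝ := fun i => 12 * CB * ((1 / 2 : ℝ) ^ i + (1 / 4 : ℝ) ^ i * Λ) + ((k1 : ℝ) - i)
    with hT
  have hL10 : 0 < L1 := by linarith
  have hTanti : ∀ i, T (i + 1) + (12 * CB * (1 / 2 : ℝ) ^ (i + 1) *
      (1 + (1 / 2 : ℝ) ^ (i + 1) * Λ) + 1) ≤ T i := by
    intro i
    have e1 : (1 / 4 : ℝ) ^ (i + 1) = (1 / 2 : ℝ) ^ (i + 1) * (1 / 2 : ℝ) ^ (i + 1) := by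
      rw [← mul_pow]; norm_num
    have e2 : (1 / 2 : ℝ) ^ i = 2 * (1 / 2 : ℝ) ^ (i + 1) := by rw [pow_succ]; ring
    have e3 : (1 / 4 : ℝ) ^ i = 4 * (1 / 4 : ℝ) ^ (i + 1) := by rw [pow_succ]; ring
    simp only [hT]
    rw [e2, e3]
    push_cast
    have e4 : 12 * CB * (1 / 2 : ℝ) ^ (i + 1) * (1 + (1 / 2 : ℝ) ^ (i + 1) * Λ)
        = 12 * CB * ((1 / 2 : ℝ) ^ (i + 1) + (1 / 4 : ℝ) ^ (i + 1) * Λ) := by
      rw [e1]; ring
    rw [e4]
    have e5 : 0 ≤ CB * ((1 / 4 : ℝ) ^ (i + 1) * Λ) := by positivity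
    nlinarith
  have hTk2 : ∀ i, k2 ≤ i → T i ≤ T k2 := by
    intro i hi
    induction i, hi using Nat.le_induction with
    | base => exact le_rfl
    | succ i hi ih =>
      have := hTanti i
      have h2 : 0 ≤ 12 * CB * (1 / 2 : ℝ) ^ (i + 1) * (1 + (1 / 2 : ℝ) ^ (i + 1) * Λ) := by
        positivity
      linarith
  induction d with
  | zero =>
    intro i hi hk
    have hik : i = k1 := by omega
    rw [hik]
    refine hy.trans (Real.exp_le_exp.2 ?_)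
    have hT0 : 0 ≤ T k1 := by
      simp only [hT]
      have : 0 ≤ CB * ((1 / 2 : ℝ) ^ k1 + (1 / 4 : ℝ) ^ k1 * Λ) := by positivity
      nlinarith
    have h2 : (2 : ℝ) ^ (-(T k1)) ≤ 1 := by
      rw [Real.rpow_neg (by norm_num)]
      apply inv_le_one_of_one_le₀
      exact Real.one_le_rpow (by norm_num) hT0
    change -L1 ≤ -(L1 * (2 : ℝ) ^ (-(T k1)))
    nlinarith
  | succ d ih =>
    intro i hi hk
    have hprev := ih (i + 1) (by omega) (by omega)
    change y (i + 1) ≤ Real.exp (-(L1 * (2 : ℝ) ^ (-(T (i + 1))))) at hprev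
    change y i ≤ Real.exp (-(L1 * (2 : ℝ) ^ (-(T i))))
    have hW0 : 0 ≤ 12 * CB * (1 / 2 : ℝ) ^ (i + 1) * (1 + (1 / 2 : ℝ) ^ (i + 1) * Λ) := by
      positivity
    obtain ⟨n, hn1, hn2⟩ : ∃ n : ℕ, 12 * CB * (1 / 2 : ℝ) ^ (i + 1) *
        (1 + (1 / 2 : ℝ) ^ (i + 1) * Λ) ≤ n ∧ (n : ℝ) ≤ 12 * CB * (1 / 2 : ℝ) ^ (i + 1) *
        (1 + (1 / 2 : ℝ) ^ (i + 1) * Λ) + 1 :=
      ⟨⌈_⌉₊, Nat.le_ceil _, (Nat.ceil_lt_add_one hW0).le⟩
    set L := L1 * (2 : ℝ) ^ (-(T (i + 1))) with hLdef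
    have hLn : L / 2 ^ n = L1 * (2 : ℝ) ^ (-(T (i + 1) + n)) := by
      have hgen : ∀ t : ℝ, L1 * (2 : ℝ) ^ (-t) / 2 ^ n = L1 * (2 : ℝ) ^ (-(t + n)) := by
        intro t
        rw [neg_add, Real.rpow_add (by norm_num), Real.rpow_neg (by norm_num) (n : ℝ),
          Real.rpow_natCast]
        ring
      exact hgen _
    have hge : L1 * (2 : ℝ) ^ (-(T i)) ≤ L / 2 ^ n := by
      rw [hLn]
      apply mul_le_mul_of_nonneg_left _ hL10.le
      apply Real.rpow_le_rpow_of_exponent_le (by norm_num)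
      have := hTanti i
      linarith
    have hge2 : L1 * (2 : ℝ) ^ (-(T k2)) ≤ L1 * (2 : ℝ) ^ (-(T i)) := by
      apply mul_le_mul_of_nonneg_left _ hL10.le
      apply Real.rpow_le_rpow_of_exponent_le (by norm_num)
      have := hTk2 i hk
      linarith
    have hLle : L ≤ L1 := by
      have h2 : (2 : ℝ) ^ (-(T (i + 1))) ≤ 1 := by
        rw [Real.rpow_neg (by norm_num)]
        apply inv_le_one_of_one_le₀
        apply Real.one_le_rpow (by norm_num)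
        simp only [hT]
        have h3 : 0 ≤ CB * ((1 / 2 : ℝ) ^ (i + 1) + (1 / 4 : ℝ) ^ (i + 1) * Λ) := by positivity
        have h4 : ((i + 1 : ℕ) : ℝ) ≤ k1 := by exact_mod_cast (by omega : i + 1 ≤ k1)
        nlinarith
      rw [hLdef]
      nlinarith
    have hLpos : 0 < L := by
      rw [hLdef]; positivity
    have hres := hsub i n L (hfin1.trans (hge2.trans hge)) (by
      have h1 : (2 : ℝ) ^ k1 ≤ L / 2 ^ n := hfin2.trans (hge2.trans hge)
      calc (1 : ℝ) = (1 / 2 : ℝ) ^ k1 * 2 ^ k1 := by rw [← mul_pow]; norm_num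
        _ ≤ (1 / 2 : ℝ) ^ (i + 1) * (L / 2 ^ n) := by
            apply mul_le_mul _ h1 (by positivity) (by positivity)
            exact pow_le_pow_of_le_one (by norm_num) (by norm_num) (by omega)) (by
      refine le_trans ?_ hn1
      apply mul_le_mul_of_nonneg_left _ (by positivity)
      have : Real.log (2 * L) ≤ Λ := Real.log_le_log (by positivity) (by linarith)
      have := mul_le_mul_of_nonneg_left this (by positivity : (0 : ℝ) ≤ (1 / 2 : ℝ) ^ (i + 1))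
      linarith) hprev
    exact hres.trans (Real.exp_le_exp.2 (by linarith))

end Osg

/-- Numerics of step 3. -/
lemma osg_num3 {CB N' x a b : ℝ} {k k1 : ℕ} (hCB : 1 ≤ CB) (hN' : 32 * CB ≤ N')
    (hx : x = N' * k) (c1 : 64 * CB ≤ Real.log (2 * x)) (c2 : 4 ≤ x)
    (hk1a : Real.log (2 * x) ≤ 2 ^ k1) (hk1k : k1 ≤ k) (hb0 : 0 ≤ b) (hb : b ≤ Real.exp (-x))
    (hs3 : a ≤ Real.exp (2 * CB * (((k - k1 : ℕ) : ℝ) + 2 * x * (1 / 2 : ℝ) ^ k1)) *
      (b + ((k - k1 : ℕ) : ℝ) * (CB * (2 * x) * Real.exp (-(2 * x)) / 2))) :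
    a ≤ Real.exp (-(x / 2)) := by
  have hCB0 : 0 < CB := by linarith
  have hx0 : 0 < x := by linarith
  have hdk : ((k - k1 : ℕ) : ℝ) ≤ k := by exact_mod_cast Nat.sub_le _ _
  have hd0 : (0 : ℝ) ≤ ((k - k1 : ℕ) : ℝ) := Nat.cast_nonneg _
  have hk0 : (0 : ℝ) ≤ k := Nat.cast_nonneg _
  have hCBk : CB * ((k - k1 : ℕ) : ℝ) ≤ x / 32 := by
    have h1 : CB * ((k - k1 : ℕ) : ℝ) ≤ CB * k := mul_le_mul_of_nonneg_left hdk hCB0.le
    have h2 : 32 * CB * k ≤ N' * k := mul_le_mul_of_nonneg_right hN' hk0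
    rw [hx]; linarith
  have hexp8 : 2 * CB * (((k - k1 : ℕ) : ℝ) + 2 * x * (1 / 2 : ℝ) ^ k1) ≤ x / 8 := by
    have h1 : CB * (2 * x * (1 / 2 : ℝ) ^ k1) ≤ x / 32 := by
      have h2 : (64 * CB) * (1 / 2 : ℝ) ^ k1 ≤ 1 := by
        calc (64 * CB) * (1 / 2 : ℝ) ^ k1 ≤ 2 ^ k1 * (1 / 2 : ℝ) ^ k1 := by
              apply mul_le_mul_of_nonneg_right _ (by positivity)
              linarith
          _ = 1 := by rw [← mul_pow]; norm_num
      have h3 : CB * (2 * x * (1 / 2 : ℝ) ^ k1) = x / 32 * ((64 * CB) * (1 / 2 : ℝ) ^ k1) := by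
        ring
      rw [h3]
      calc x / 32 * ((64 * CB) * (1 / 2 : ℝ) ^ k1) ≤ x / 32 * 1 :=
            mul_le_mul_of_nonneg_left h2 (by linarith)
        _ = x / 32 := by ring
    nlinarith
  have hadd : ((k - k1 : ℕ) : ℝ) * (CB * (2 * x) * Real.exp (-(2 * x)) / 2)
      ≤ Real.exp (-x) := by
    have e1 : Real.exp (-(2 * x)) = Real.exp (-x) * Real.exp (-x) := by
      rw [← Real.exp_add]; congr 1; ring
    have hexpx : x ^ 2 / 2 ≤ Real.exp x := by
      have := Real.quadratic_le_exp_of_nonneg hx0.le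
      nlinarith
    have e2 : x / 32 * x * Real.exp (-x) ≤ 1 := by
      calc x / 32 * x * Real.exp (-x) ≤ Real.exp x * Real.exp (-x) := by
            apply mul_le_mul_of_nonneg_right _ (Real.exp_pos _).le
            nlinarith
        _ = 1 := by rw [← Real.exp_add]; simp
    calc ((k - k1 : ℕ) : ℝ) * (CB * (2 * x) * Real.exp (-(2 * x)) / 2)
        = (CB * ((k - k1 : ℕ) : ℝ)) * (x * Real.exp (-x)) * Real.exp (-x) := by
          rw [e1]; ring
      _ ≤ (x / 32) * (x * Real.exp (-x)) * Real.exp (-x) := by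
          apply mul_le_mul_of_nonneg_right _ (Real.exp_pos _).le
          exact mul_le_mul_of_nonneg_right hCBk (by positivity)
      _ = (x / 32 * x * Real.exp (-x)) * Real.exp (-x) := by ring
      _ ≤ 1 * Real.exp (-x) := mul_le_mul_of_nonneg_right e2 (Real.exp_pos _).le
      _ = Real.exp (-x) := one_mul _
  have h2e : (2 : ℝ) ≤ Real.exp (3 * x / 8) := by
    have := Real.add_one_le_exp (3 * x / 8)
    linarith
  have hnn : 0 ≤ b + ((k - k1 : ℕ) : ℝ) * (CB * (2 * x) * Real.exp (-(2 * x)) / 2) := by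
    positivity
  calc a ≤ Real.exp (2 * CB * (((k - k1 : ℕ) : ℝ) + 2 * x * (1 / 2 : ℝ) ^ k1)) *
        (b + ((k - k1 : ℕ) : ℝ) * (CB * (2 * x) * Real.exp (-(2 * x)) / 2)) := hs3
    _ ≤ Real.exp (x / 8) *
        (b + ((k - k1 : ℕ) : ℝ) * (CB * (2 * x) * Real.exp (-(2 * x)) / 2)) :=
        mul_le_mul_of_nonneg_right (Real.exp_le_exp.2 hexp8) hnn
    _ ≤ Real.exp (x / 8) * (2 * Real.exp (-x)) := by
        apply mul_le_mul_of_nonneg_left _ (Real.exp_pos _).le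
        linarith
    _ ≤ Real.exp (x / 8) * (Real.exp (3 * x / 8) * Real.exp (-x)) := by
        apply mul_le_mul_of_nonneg_left _ (Real.exp_pos _).le
        exact mul_le_mul_of_nonneg_right h2e (Real.exp_pos _).le
    _ = Real.exp (-(x / 2)) := by
        rw [← Real.exp_add, ← Real.exp_add]; congr 1; ring

/-- Numerics of step 4. -/
lemma osg_num4 {CB x : ℝ} {k1 k2 : ℕ} (hCB : 1 ≤ CB) (hx0 : 0 < x) (hx1 : 1 ≤ x)
    (hk2 : 12 * CB * (1 / 4 : ℝ) ^ k2 ≤ 1 / 8) (hk1c : (2 : ℝ) ^ k1 ≤ 32 * x ^ (1 / 8 : ℝ))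
    (c3 : 64 * (2 : ℝ) ^ (12 * CB) ≤ x ^ (1 / 4 : ℝ)) :
    √x ≤ x / 2 * (2 : ℝ) ^ (-(12 * CB * ((1 / 2 : ℝ) ^ k2 +
      (1 / 4 : ℝ) ^ k2 * Real.log (2 * (x / 2))) + ((k1 : ℝ) - k2))) := by
  have hCB0 : 0 < CB := by linarith
  have hΛ0 : 0 ≤ Real.log x := Real.log_nonneg hx1
  have hxeq : 2 * (x / 2) = x := by ring
  set E : ℝ := 12 * CB * ((1 / 2 : ℝ) ^ k2 + (1 / 4 : ℝ) ^ k2 * Real.log (2 * (x / 2))) +
    ((k1 : ℝ) - k2) with hE
  have hEle : E ≤ 12 * CB + 1 / 8 * Real.log x + k1 := by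
    rw [hE, hxeq]
    have h1 : (1 / 2 : ℝ) ^ k2 ≤ 1 := pow_le_one₀ (by norm_num) (by norm_num)
    have h2 : 12 * CB * (1 / 4 : ℝ) ^ k2 * Real.log x ≤ 1 / 8 * Real.log x :=
      mul_le_mul_of_nonneg_right hk2 hΛ0
    have h3 : (0 : ℝ) ≤ k2 := Nat.cast_nonneg _
    nlinarith
  have h2E : (2 : ℝ) ^ E ≤ (2 : ℝ) ^ (12 * CB) * x ^ (1 / 8 : ℝ) * (32 * x ^ (1 / 8 : ℝ)) := by
    calc (2 : ℝ) ^ E ≤ (2 : ℝ) ^ (12 * CB + 1 / 8 * Real.log x + k1) :=
          Real.rpow_le_rpow_of_exponent_le (by norm_num) hEle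
      _ = (2 : ℝ) ^ (12 * CB) * (2 : ℝ) ^ (1 / 8 * Real.log x) * 2 ^ k1 := by
          rw [Real.rpow_add (by norm_num), Real.rpow_add (by norm_num), Real.rpow_natCast]
      _ ≤ (2 : ℝ) ^ (12 * CB) * x ^ (1 / 8 : ℝ) * (32 * x ^ (1 / 8 : ℝ)) := by
          have h5 : (2 : ℝ) ^ (1 / 8 * Real.log x) ≤ x ^ (1 / 8 : ℝ) := by
            rw [Real.rpow_def_of_pos hx0, Real.rpow_def_of_pos (by norm_num : (0 : ℝ) < 2)]
            apply Real.exp_le_exp.2
            have h6 : Real.log 2 ≤ 1 := by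
              have := Real.log_two_lt_d9; linarith
            nlinarith
          have h7 : (0 : ℝ) ≤ (2 : ℝ) ^ (12 * CB) := by positivity
          gcongr
  rw [Real.rpow_neg (by norm_num), ← div_eq_mul_inv, le_div_iff₀ (by positivity)]
  have h5 : √x = x ^ (1 / 2 : ℝ) := Real.sqrt_eq_rpow x
  calc √x * (2 : ℝ) ^ E
      ≤ x ^ (1 / 2 : ℝ) * ((2 : ℝ) ^ (12 * CB) * x ^ (1 / 8 : ℝ) * (32 * x ^ (1 / 8 : ℝ))) := by
        rw [h5]
        exact mul_le_mul_of_nonneg_left h2E (by positivity)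
    _ = (64 * (2 : ℝ) ^ (12 * CB)) *
        (x ^ (1 / 2 : ℝ) * x ^ (1 / 8 : ℝ) * x ^ (1 / 8 : ℝ)) / 2 := by ring
    _ ≤ x ^ (1 / 4 : ℝ) *
        (x ^ (1 / 2 : ℝ) * x ^ (1 / 8 : ℝ) * x ^ (1 / 8 : ℝ)) / 2 := by
        apply div_le_div_of_nonneg_right _ (by norm_num)
        exact mul_le_mul_of_nonneg_right c3 (by positivity)
    _ = x / 2 := by
        rw [← Real.rpow_add hx0, ← Real.rpow_add hx0, ← Real.rpow_add hx0]
        norm_num

/-- The Osgood argument. -/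
theorem osgood (μ : ℤ → ℝ → ℝ) (C₀ CB : ℝ) (hCB : 1 ≤ CB)
    (h0 : ∀ j l, 0 ≤ l → l ≤ 1 / 2 → 0 ≤ μ j l)
    (h4 : ∀ j l, 0 ≤ l → l ≤ 1 / 2 → μ j l ≤ 4)
    (hmono : ∀ j, MonotoneOn (μ j) (Set.Icc 0 (1 / 2)))
    (hglue : ∀ j, μ (j + 1) 0 = μ j (1 / 2))
    (hM0 : ∀ j : ℤ, j ≤ 0 → ∀ l, 0 ≤ l → l ≤ 1 / 2 → μ j l ≤ C₀ * (2 : ℝ) ^ j)
    (hMA : ∀ N : ℕ, ∃ (C : ℝ) (J : ℤ), 0 ≤ C ∧ J ≤ 0 ∧ ∀ j : ℤ, j ≤ J →
      μ j (1 / 2) ≤ μ j 0 + C * tj j ^ (1 / 4 : ℝ) * μ j (1 / 2) + C * tj j ^ N)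
    (hMB : ∀ (j : ℤ) (L : ℝ), 2 ≤ L → ∀ l₁ l₂ : ℝ, 0 ≤ l₁ → l₁ ≤ l₂ → l₂ ≤ 1 / 2 →
      μ j l₂ ≤ μ j l₁ + tj j * ∫ l in l₁..l₂,
        (CB * (1 / √(tj j) + L) * (1 / √(tj j) + Real.log L) * μ j l +
          CB * (L / tj j) * Real.exp (-L))) :
    ∀ j l, 0 ≤ l → l ≤ 1 / 2 → μ j l = 0 := by
  have hCB0 : 0 < CB := by linarith
  -- the number `q`
  set q : ℝ := (1 / 4 : ℝ) ^ (1 / 4 : ℝ) with hqdef
  have hq0 : 0 < q := Real.rpow_pos_of_pos (by norm_num) _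
  have hq4 : q ^ 4 = 1 / 4 := by
    rw [hqdef, ← Real.rpow_natCast, ← Real.rpow_mul (by norm_num)]
    norm_num
  have hq : q ≤ 3 / 4 := by
    by_contra hcon
    push Not at hcon
    have : (3 / 4 : ℝ) ^ 4 < q ^ 4 := pow_lt_pow_left₀ hcon (by norm_num) (by norm_num)
    rw [hq4] at this
    norm_num at this
  set y : ℕ → ℝ := fun i => μ (-(i : ℤ)) 0 with hydef
  have hg : ∀ i : ℕ, μ (-((i + 1 : ℕ) : ℤ)) (1 / 2) = y i := by
    intro i
    rw [← hglue]
    simp only [hydef]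
    congr 1
    push_cast
    ring
  have hy0 : ∀ i, 0 ≤ y i := fun i => h0 _ 0 le_rfl (by norm_num)
  have hy : ∀ i : ℕ, y i ≤ C₀ * (1 / 2 : ℝ) ^ i := by
    intro i
    have := hM0 (-(i : ℤ)) (by omega) 0 le_rfl (by norm_num)
    rw [zpow_neg, zpow_natCast] at this
    rw [one_div, inv_pow]
    exact this
  have hMA' : ∀ N : ℕ, ∃ (C : ℝ) (K : ℕ), 0 ≤ C ∧ ∀ i, K ≤ i →
      y i ≤ y (i + 1) + C * q ^ (i + 1) * y i + C * ((1 / 4 : ℝ) ^ (i + 1)) ^ N := by
    intro N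
    obtain ⟨C, J, hC, hJ, h⟩ := hMA N
    refine ⟨C, J.natAbs, hC, fun i hi => ?_⟩
    have h1 := h (-((i + 1 : ℕ) : ℤ)) (by omega)
    rw [hg, tj_neg] at h1
    have h2 : ((1 / 4 : ℝ) ^ (i + 1)) ^ (1 / 4 : ℝ) = q ^ (i + 1) := by
      rw [hqdef, ← Real.rpow_natCast, ← Real.rpow_mul (by norm_num), ← Real.rpow_natCast,
        ← Real.rpow_mul (by norm_num), mul_comm]
    rw [h2] at h1
    exact h1
  have hround : ∀ (L : ℝ), 2 ≤ L → ∀ i : ℕ, y i ≤ Real.exp (CB * (1 + (1 / 2 : ℝ) ^ (i + 1) * L) *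
      (1 + (1 / 2 : ℝ) ^ (i + 1) * Real.log L)) * (y (i + 1) + CB * L * Real.exp (-L) / 2) := by
    intro L hL i
    have h1 := osg_gron hCB h0 hmono hMB (-((i + 1 : ℕ) : ℤ)) hL (l₁ := 0) (l₂ := 1 / 2) le_rfl
      (by norm_num) le_rfl
    rw [hg, sqrt_tj_neg] at h1
    refine h1.trans (le_of_eq ?_)
    congr 1
    · congr 1; ring
    · simp only [hydef]; ring
  have hsub : ∀ (i n : ℕ) (L : ℝ), 4 * CB ≤ L / 2 ^ n → 1 ≤ (1 / 2 : ℝ) ^ (i + 1) * (L / 2 ^ n) →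
      12 * CB * (1 / 2 : ℝ) ^ (i + 1) * (1 + (1 / 2 : ℝ) ^ (i + 1) * Real.log (2 * L)) ≤ n →
      y (i + 1) ≤ Real.exp (-L) → y i ≤ Real.exp (-(L / 2 ^ n)) := by
    intro i n L h1 h2 h3 h5
    have h6 := osg_subs hCB h0 hmono hMB (-((i + 1 : ℕ) : ℤ)) n (L := L) h1
      (by rw [sqrt_tj_neg]; exact h2) (l₁ := 0) (l₂ := 1 / 2) le_rfl (by norm_num) le_rfl
      (by rw [sqrt_tj_neg]; refine le_trans (le_of_eq ?_) h3; ring) h5
    rwa [hg] at h6
  -- the fixed round `k2`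
  obtain ⟨k2, hk2⟩ : ∃ k2 : ℕ, 12 * CB * (1 / 4 : ℝ) ^ k2 ≤ 1 / 8 := by
    have h1 : Tendsto (fun k : ℕ => 12 * CB * (1 / 4 : ℝ) ^ k) atTop (𝓝 0) := by
      simpa using (tendsto_pow_atTop_nhds_zero_of_lt_one (r := (1 / 4 : ℝ)) (by norm_num)
        (by norm_num)).const_mul (12 * CB)
    exact (h1.eventually_le_const (by norm_num : (0 : ℝ) < 1 / 8)).exists
  obtain ⟨N', hN'⟩ := exists_nat_ge (32 * CB)
  have hN'0 : (0 : ℝ) < N' := by linarith
  have hstep1 := osg_step1 hy0 hy hq0 hq hMA' N'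
  have hxlim : Tendsto (fun k : ℕ => (N' : ℝ) * k) atTop atTop :=
    tendsto_natCast_atTop_atTop.const_mul_atTop hN'0
  have hlogx : Tendsto (fun x : ℝ => Real.log (2 * x)) atTop atTop :=
    Real.tendsto_log_atTop.comp (tendsto_id.const_mul_atTop (by norm_num))
  have hpow2 : ∀ᶠ k : ℕ in atTop, 4 * ((N' : ℝ) * k) ≤ 2 ^ k := by
    have h1 := (tendsto_pow_const_div_const_pow_of_one_lt 1 (r := (2 : ℝ)) (by norm_num))
    have h2 := h1.eventually_le_const (u := 1 / (4 * (N' : ℝ))) (by positivity)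
    filter_upwards [h2] with k hk
    rw [pow_one, div_le_div_iff₀ (by positivity) (by positivity)] at hk
    linarith
  have hmain : ∀ᶠ k : ℕ in atTop, y k2 ≤ Real.exp (-√((N' : ℝ) * k)) := by
    filter_upwards [hstep1, hpow2, hxlim.eventually (hlogx.eventually_ge_atTop (64 * CB)),
      hxlim.eventually (hlogx.eventually_ge_atTop ((2 : ℝ) ^ k2)),
      hxlim.eventually (eventually_ge_atTop (4 : ℝ)),
      hxlim.eventually ((tendsto_rpow_atTop (by norm_num : (0 : ℝ) < 1 / 4)).eventually_ge_atTop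
        (64 * (2 : ℝ) ^ (12 * CB))),
      hxlim.eventually (Real.tendsto_sqrt_atTop.eventually_ge_atTop (4 * CB)),
      hxlim.eventually ((tendsto_rpow_atTop (by norm_num : (0 : ℝ) < 3 / 8)).eventually_ge_atTop
        (32 : ℝ))] with k hyk hk4 c1 c1' c2 c3 c4 c5
    set x : ℝ := (N' : ℝ) * k with hx
    have hx0 : 0 < x := by linarith
    set X := Real.log (2 * x) with hX
    have hX64 : 64 ≤ X := by nlinarith
    obtain ⟨n, hn1, hn2⟩ := exists_nat_pow_near (x := X) (y := 2) (by linarith) (by norm_num)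
    set k1 := n + 1 with hk1def
    have hk1a : X ≤ 2 ^ k1 := hn2.le
    have hk1b : (2 : ℝ) ^ k1 ≤ 2 * X := by rw [hk1def, pow_succ]; linarith
    have hXx : X ≤ 2 * x := (Real.log_le_sub_one_of_pos (by linarith)).trans (by linarith)
    have hk1k : k1 ≤ k := by
      have : (2 : ℝ) ^ k1 ≤ 2 ^ k := by linarith
      exact (pow_le_pow_iff_right₀ (by norm_num)).1 this
    have hk2k1 : k2 ≤ k1 := by
      have : (2 : ℝ) ^ k2 ≤ 2 ^ k1 := by linarith
      exact (pow_le_pow_iff_right₀ (by norm_num)).1 this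
    -- step 3
    have hs3 := osg_step3 hCB hy0 (L := 2 * x) (by linarith) (hround (2 * x) (by linarith))
      (k1 := k1) hk1a (k - k1) k1 le_rfl
    have hyk1 : y k1 ≤ Real.exp (-(x / 2)) := by
      refine osg_num3 hCB hN' hx c1 c2 hk1a hk1k (hy0 k) hyk ?_
      have hkk : k1 + (k - k1) = k := by omega
      rwa [hkk] at hs3
    have hk1c : (2 : ℝ) ^ k1 ≤ 32 * x ^ (1 / 8 : ℝ) := by
      have h1 : X ≤ (2 * x) ^ (1 / 8 : ℝ) / (1 / 8) :=
        Real.log_le_rpow_div (by linarith) (by norm_num)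
      have h2 : (2 * x) ^ (1 / 8 : ℝ) ≤ 2 * x ^ (1 / 8 : ℝ) := by
        rw [Real.mul_rpow (by norm_num) hx0.le]
        apply mul_le_mul_of_nonneg_right _ (by positivity)
        calc (2 : ℝ) ^ (1 / 8 : ℝ) ≤ (2 : ℝ) ^ (1 : ℝ) :=
              Real.rpow_le_rpow_of_exponent_le (by norm_num) (by norm_num)
          _ = 2 := Real.rpow_one 2
      linarith
    have hF := osg_num4 hCB hx0 (by linarith) hk2 hk1c c3
    have h2k1 : (2 : ℝ) ^ k1 ≤ √x := by
      refine hk1c.trans ?_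
      calc 32 * x ^ (1 / 8 : ℝ) ≤ x ^ (3 / 8 : ℝ) * x ^ (1 / 8 : ℝ) :=
            mul_le_mul_of_nonneg_right c5 (by positivity)
        _ = √x := by rw [← Real.rpow_add hx0, Real.sqrt_eq_rpow]; norm_num
    have hs4 := osg_step4 hCB (L1 := x / 2) (by linarith) hsub (k1 := k1) (k2 := k2) hyk1
      (c4.trans hF) (h2k1.trans hF) (k1 - k2) k2 (by omega) le_rfl
    refine hs4.trans (Real.exp_le_exp.2 ?_)
    exact neg_le_neg hF
  have hyk2 : y k2 = 0 := by
    apply le_antisymm _ (hy0 k2)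
    have hlim : Tendsto (fun k : ℕ => Real.exp (-√((N' : ℝ) * k))) atTop (𝓝 0) :=
      Real.tendsto_exp_atBot.comp
        (tendsto_neg_atTop_atBot.comp (Real.tendsto_sqrt_atTop.comp hxlim))
    exact ge_of_tendsto hlim hmain
  -- zero for earlier rounds
  have hearly : ∀ i : ℕ, k2 ≤ i → y i = 0 := by
    intro i hi
    induction i, hi using Nat.le_induction with
    | base => exact hyk2
    | succ i hi ih =>
      apply le_antisymm _ (hy0 _)
      rw [← ih, ← hg i]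
      exact hmono _ ⟨le_rfl, by norm_num⟩ ⟨by norm_num, le_rfl⟩ (by norm_num)
  have hlate : ∀ j : ℤ, -(k2 : ℤ) ≤ j → μ j 0 = 0 := by
    intro j hj
    induction j, hj using Int.le_induction with
    | base => exact hyk2
    | succ j hj ih =>
      rw [hglue]
      exact osg_zero_round hCB h0 hmono hMB j ih (by norm_num) le_rfl
  intro j l hl1 hl2
  apply osg_zero_round hCB h0 hmono hMB j _ hl1 hl2
  by_cases hj : -(k2 : ℤ) ≤ j
  · exact hlate j hj
  · push Not at hj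
    have := hearly j.natAbs (by omega)
    simp only [hydef] at this
    have hjn : -((j.natAbs : ℕ) : ℤ) = j := by omega
    rwa [hjn] at this

end Vale.Agent.P161C
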