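import Vale.Agent.Lib.P161C.ModelA
import Vale.Agent.Lib.P161C.RootedB

/-!
P161 critical, module ROOTED-C ((4.4) of notes/P161crit/proof.md): the path decomposition.
Uses MODEL-A, CVX, ROOTED.
-/

open Finset MeasureTheory

namespace Vale.Agent.P161C
open Vale.Agent.P161

variable {V : Type*} [DecidableEq V] {G : SimpleGraph V} [DecidableRel G.Adj]
  {b : ℕ} {β : ℝ} {D : Finset V} {x i c u j : V}

/-! ### (4.4) the path decomposition -/

lemma mem_hang {y : V} : y ∈ hang G D x u i ↔ y ∈ D ∧
    G.dist x i + G.dist i y = G.dist x y ∧ G.dist u i + G.dist i y = G.dist u y := by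
  unfold hang; simp

lemma hang_eq_br (D : Finset V) (x u i : V) : hang G D x u i = br G (br G D x i) u i := by
  ext y
  rw [mem_hang, mem_br, mem_br]
  tauto

lemma cvx_hang (hG : G.IsTree) (hD : Cvx G D) (x u i : V) : Cvx G (hang G D x u i) := by
  rw [hang_eq_br]
  exact cvx_br hG (cvx_br hG hD x i) u i

lemma hang_disjoint (hG : G.IsTree) {i i' : V} (hi : G.dist x i + G.dist i u = G.dist x u)
    (hi' : G.dist x i' + G.dist i' u = G.dist x u) (hne : i ≠ i') :
    Disjoint (hang G D x u i) (hang G D x u i') := by
  rw [Finset.disjoint_left]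
  intro y hy hy'
  rw [mem_hang] at hy hy'
  apply hne
  have c1 := G.dist_comm (u := u) (v := i)
  have c2 := G.dist_comm (u := u) (v := i')
  obtain ⟨z, _, hz⟩ := geo_exists hG x u (k := G.dist x i) (by omega)
  rw [hz i ⟨rfl, hi⟩, hz i' ⟨by omega, hi'⟩]

lemma hang_subset (D : Finset V) (x u i : V) : hang G D x u i ⊆ D := by
  exact Finset.filter_subset _ _

lemma mem_hang_self (hi : i ∈ D) : i ∈ hang G D x u i := by
  rw [mem_hang, SimpleGraph.dist_self]
  exact ⟨hi, by simp, by simp⟩

lemma hang_end (D : Finset V) (x u : V) : hang G D x u u = br G D x u := by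
  ext y
  rw [mem_hang, mem_br, SimpleGraph.dist_self]
  simp

/-- Message recursion along the path: `i` on the geodesic `x u`, `i ≠ u`, `k` the next vertex. -/
lemma ms_step (hG : G.IsTree) (hD : Cvx G D) (hx : x ∈ D) (hu : u ∈ D)
    (hi : G.dist x i + G.dist i u = G.dist x u) {k : V} (hk : k ∈ ch G D x i)
    (hku : G.dist x k + G.dist k u = G.dist x u) (p : V → ℝ) :
    ms G β D x p i = (mg G β (hang G D x u i) p i + Real.tanh β * ms G β D x p k) /
      (1 + Real.tanh β * mg G β (hang G D x u i) p i * ms G β D x p k) := by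
  have hk' := mem_ch.mp hk
  have hiD : i ∈ D := hD x hx u hu i hi
  have hik1 : G.dist i k = 1 := SimpleGraph.dist_eq_one_iff_adj.mpr hk'.2.1
  have hiS : i ∈ br G D x i := mem_br_self hiD
  have hkS : k ∈ br G D x i := mem_br.mpr ⟨hk'.1, by omega⟩
  have e1 := mg_split (β := β) hG hk'.2.1 hiS hkS p
  have s1 : side G (br G D x i) k i = br G D x k := by
    have hch : k ∈ ch G (br G D x i) x i := mem_ch.mpr ⟨hkS, hk'.2⟩
    rw [← br_eq_side hG hch]
    exact br_br hG (by omega)
  have s2 : side G (br G D x i) i k = hang G D x u i := by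
    have cu1 := G.dist_comm (u := u) (v := i)
    have cu2 := G.dist_comm (u := u) (v := k)
    ext y
    rw [mem_side, mem_br, mem_hang]
    have cy1 := G.dist_comm (u := y) (v := i)
    have cy2 := G.dist_comm (u := y) (v := k)
    constructor
    · rintro ⟨⟨h1, h2⟩, h3⟩
      have e := across hG hk'.2.1.symm (x := u) (y := y) (by omega) h3
      exact ⟨h1, h2, by omega⟩
    · rintro ⟨h1, h2, h3⟩
      refine ⟨⟨h1, h2⟩, ?_⟩
      rcases side_cases hG hk'.2.1 y with h | h
      · exact h.1
      · exfalso
        have t := hG.connected.dist_triangle (u := u) (v := k) (w := y)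
        omega
  have e2 : ms G β D x p i = mg G β (br G D x i) p i := rfl
  have e3 : ms G β D x p k = mg G β (br G D x k) p k := rfl
  rw [e2, e3, e1, s1, s2]

lemma tanh_le_of_crit [G.LocallyFinite] (hC : Crit G b β) : Real.tanh β ≤ 5 / 7 := by
  have h0 := tanh_nonneg hC.hβ
  have hb : (2 : ℝ) ≤ b := by exact_mod_cast hC.hb
  have hcr := hC.crit
  have hθ : Real.tanh β ^ 2 ≤ 1 / 2 := by nlinarith [sq_nonneg (Real.tanh β)]
  by_contra h
  push Not at h
  nlinarith

lemma vel_bound {θ m P q : ℝ} (h0 : 0 ≤ θ) (h1 : θ ≤ 5 / 7) (hm : |m| ≤ 1) (hP : |P| ≤ 1)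
    (hq : |q| ≤ 1) (h : m = (P + θ * q) / (1 + θ * P * q)) : P ^ 2 ≤ 25 * (m ^ 2 + q ^ 2) := by
  have hm' := abs_le.mp hm
  have hP' := abs_le.mp hP
  have hq' := abs_le.mp hq
  have hPq : |P * q| ≤ 1 := by
    rw [abs_mul]; nlinarith [abs_nonneg P, abs_nonneg q]
  have hmq : |m * q| ≤ 1 := by
    rw [abs_mul]; nlinarith [abs_nonneg m, abs_nonneg q]
  have hPq' := abs_le.mp hPq
  have hmq' := abs_le.mp hmq
  have hd : 0 < 1 + θ * P * q := by nlinarith
  rw [eq_div_iff hd.ne'] at h
  have hd2 : 2 / 7 ≤ 1 - θ * (m * q) := by nlinarith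
  have e : P * (1 - θ * (m * q)) = m - θ * q := by linear_combination (-1) * h
  have h3 : (P * (1 - θ * (m * q))) ^ 2 = (m - θ * q) ^ 2 := by rw [e]
  have h4 : (m - θ * q) ^ 2 ≤ 2 * (m ^ 2 + q ^ 2) := by
    have : (m - θ * q) ^ 2 ≤ 2 * m ^ 2 + 2 * (θ * q) ^ 2 := by
      nlinarith [sq_nonneg (m + θ * q)]
    have h5 : (θ * q) ^ 2 ≤ q ^ 2 := by
      rw [mul_pow]
      have : θ ^ 2 ≤ 1 := by nlinarith
      nlinarith [sq_nonneg q]
    linarith
  have h6 : P ^ 2 * (2 / 7) ^ 2 ≤ (P * (1 - θ * (m * q))) ^ 2 := by
    rw [mul_pow]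
    apply mul_le_mul_of_nonneg_left _ (sq_nonneg _)
    exact pow_le_pow_left₀ (by norm_num) hd2 2
  nlinarith [sq_nonneg m, sq_nonneg q]

/-- `∑ p_i² ≤ 50 A(u)`, `p_i` the message of the hanging set. -/
lemma sum_hang_sq_le [G.LocallyFinite] (hC : Crit G b β) (hD : Cvx G D) (hx : x ∈ D)
    (hj : G.dist x j + G.dist j u = G.dist x u) (hu : u ∈ D) (p : V → ℝ) :
    ∑ i ∈ pth G D j u, mg G β (hang G D x u i) p i ^ 2 ≤
      50 * ∑ i ∈ pth G D j u, ms G β D x p i ^ 2 := by
  have hG := hC.tree
  have h0 := tanh_nonneg hC.hβ
  have h1 := tanh_le_of_crit hC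
  have key : ∀ n j, G.dist x j + G.dist j u = G.dist x u → G.dist j u = n → ∀ k ∈ ch G D x j,
      G.dist x k + G.dist k u = G.dist x u →
      ∑ i ∈ pth G D j u, mg G β (hang G D x u i) p i ^ 2 + 25 * ms G β D x p k ^ 2 ≤
        50 * ∑ i ∈ pth G D j u, ms G β D x p i ^ 2 := by
    intro n
    induction n with
    | zero =>
      intro j hj hju k hk hku
      have := (mem_ch.mp hk).2.2
      omega
    | succ n ih =>
      intro j hj hju k hk hku
      have hk' := mem_ch.mp hk
      have hub : u ∈ br G D x k := mem_br.mpr ⟨hu, hku⟩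
      obtain ⟨p1, p2⟩ := pth_cons hG hD hx hk hub
      rw [p1, sum_insert p2, sum_insert p2]
      by_cases hkue : k = u
      · subst hkue
        rw [pth_self D k hG, sum_empty, sum_empty, hang_end]
        have e : mg G β (br G D x k) p k = ms G β D x p k := rfl
        rw [e]
        nlinarith [sq_nonneg (ms G β D x p k)]
      · obtain ⟨k', hkk', hk1⟩ := exists_adj_closer hG.connected hkue
        have hkk1 : G.dist k k' = 1 := SimpleGraph.dist_eq_one_iff_adj.mpr hkk'
        have t1 := hG.connected.dist_triangle (u := x) (v := k') (w := u)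
        have t2 := hG.connected.dist_triangle (u := x) (v := k) (w := k')
        have hk'D : k' ∈ D := hD k hk'.1 u hu k' (by omega)
        have hk'ch : k' ∈ ch G D x k := mem_ch.mpr ⟨hk'D, hkk', by omega⟩
        have hst := ms_step (β := β) hG hD hx hu hku hk'ch (by omega) p
        have hvb := vel_bound h0 h1 (abs_mg_le _ p k) (abs_mg_le _ p k) (abs_mg_le _ p k')
          (m := ms G β D x p k) (P := mg G β (hang G D x u k) p k) (q := ms G β D x p k') hst
        have ih' := ih k hku (by omega) k' hk'ch (by omega)
        linarith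
  by_cases hju : j = u
  · subst hju
    rw [pth_self D j hG]; simp
  · obtain ⟨k, hjk, hk1⟩ := exists_adj_closer hG.connected hju
    have hjk1 : G.dist j k = 1 := SimpleGraph.dist_eq_one_iff_adj.mpr hjk
    have t1 := hG.connected.dist_triangle (u := x) (v := k) (w := u)
    have t2 := hG.connected.dist_triangle (u := x) (v := j) (w := k)
    have hjD : j ∈ D := hD x hx u hu j hj
    have hkD : k ∈ D := hD j hjD u hu k (by omega)
    have := key _ j hj rfl k (mem_ch.mpr ⟨hkD, hjk, by omega⟩) (by omega)
    nlinarith [sq_nonneg (ms G β D x p k)]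

open Classical in
/-- In a ball, at most `2 m + 4` of the vertices of a geodesic fail to have a hanging set
containing a full branch of depth `m` at a neighbour. -/
lemma card_bad_le [G.LocallyFinite] (hC : Crit G b β) (o : V) (R m : ℕ) {x u : V}
    (hx : x ∈ bal G o R) (hu : u ∈ bal G o R) :
    ((pth G (bal G o R) x u).filter (fun i => ¬ ∃ c, G.Adj i c ∧
      Full G (hang G (bal G o R) x u i) i c m)).card ≤ 2 * m + 4 := by
  have hG := hC.tree
  have hD : Cvx G (bal G o R) := cvx_bal hG o R
  set D := bal G o R with hDdef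
  -- good vertices
  have good : ∀ i ∈ pth G D x u, m < G.dist x i → m < G.dist i u → ∃ c, G.Adj i c ∧
      Full G (hang G D x u i) i c m := by
    intro i hi h1 h2
    rw [mem_pth] at hi
    have hx' := (mem_bal hG.connected).mp hx
    have hu' := (mem_bal hG.connected).mp hu
    have cxi := G.dist_comm (u := i) (v := x)
    have cui := G.dist_comm (u := i) (v := u)
    -- `i` is on a geodesic from `o` to `x` or to `u`
    have hoi : G.dist o i + m + 1 ≤ R := by
      by_cases hio : i = o
      · subst hio
        rw [SimpleGraph.dist_self]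
        omega
      · obtain ⟨k, hk1, hk2⟩ := exists_closer hG hio
        have hok : G.dist o k < G.dist o i := by omega
        rcases side_cases hG hk1 x with hxs | hxs
        · rcases side_cases hG hk1 u with hus | hus
          · exfalso
            have t := hG.connected.dist_triangle (u := x) (v := k) (w := u)
            have cuk := G.dist_comm (u := k) (v := u)
            omega
          · have e := across hG hk1 hok hus.1
            omega
        · have e := across hG hk1 hok hxs.1
          omega
    -- a neighbour off the path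
    have hix : i ≠ x := hi.2.1
    have hiu : i ≠ u := by
      rintro rfl; rw [SimpleGraph.dist_self] at h2; omega
    obtain ⟨k1, hk1, hk1'⟩ := exists_closer hG hix
    obtain ⟨k2, hk2, hk2'⟩ := exists_closer hG hiu
    have hcard : 0 < (((G.neighborFinset i).erase k1).erase k2).card := by
      have a1 : (G.neighborFinset i).card = b + 1 := by
        rw [SimpleGraph.card_neighborFinset_eq_degree, hC.reg i]
      have a2 := Finset.pred_card_le_card_erase (s := G.neighborFinset i) (a := k1)
      have a3 := Finset.pred_card_le_card_erase (s := (G.neighborFinset i).erase k1) (a := k2)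
      have := hC.hb
      omega
    obtain ⟨c, hc⟩ := Finset.card_pos.mp hcard
    rw [mem_erase, mem_erase, SimpleGraph.mem_neighborFinset] at hc
    obtain ⟨hc2, hc1, hic⟩ := hc
    have hic1 : G.dist i c = 1 := SimpleGraph.dist_eq_one_iff_adj.mpr hic
    have d1 : G.dist x i < G.dist x c := by
      rcases side_cases hG hic x with h | h
      · exact h.1
      · exfalso
        apply hc1
        have c1 := G.dist_comm (u := c) (v := x)
        have c2 := G.dist_comm (u := k1) (v := x)
        exact closer_unique hG hic hk1.symm (w := x) (by omega) (by omega)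
    have d2 : G.dist u i < G.dist u c := by
      rcases side_cases hG hic u with h | h
      · exact h.1
      · exfalso
        apply hc2
        have c1 := G.dist_comm (u := c) (v := u)
        have c2 := G.dist_comm (u := k2) (v := u)
        exact closer_unique hG hic hk2.symm (w := u) (by omega) (by omega)
    refine ⟨c, hic, fun y hy1 hy2 => ?_⟩
    have cy1 := G.dist_comm (u := y) (v := i)
    have cy2 := G.dist_comm (u := y) (v := c)
    have hys : G.dist y c < G.dist y i := by omega
    have hyi : G.dist i y = G.dist c y + 1 := by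
      rcases side_cases hG hic y with h | h <;> omega
    have t1 := hG.connected.dist_triangle (u := o) (v := i) (w := y)
    have e1 := across hG hic d1 hys
    have e2 := across hG hic d2 hys
    rw [mem_hang]
    exact ⟨(mem_bal hG.connected).mpr (by omega), by omega, by omega⟩
  -- counting
  have hsub : (pth G D x u).filter (fun i => ¬ ∃ c, G.Adj i c ∧
      Full G (hang G D x u i) i c m) ⊆
      (pth G D x u).filter (fun i => G.dist x i ≤ m) ∪
        (pth G D x u).filter (fun i => G.dist i u ≤ m) := by
    intro i hi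
    rw [mem_filter] at hi
    rw [mem_union, mem_filter, mem_filter]
    by_contra hcon
    apply hi.2
    apply good i hi.1
    · by_contra h; exact hcon (Or.inl ⟨hi.1, by omega⟩)
    · by_contra h; exact hcon (Or.inr ⟨hi.1, by omega⟩)
  have hinj : ∀ i ∈ pth G D x u, ∀ i' ∈ pth G D x u, G.dist x i = G.dist x i' → i = i' := by
    intro i hi i' hi' h
    rw [mem_pth] at hi hi'
    obtain ⟨z, _, hz⟩ := geo_exists hG x u (k := G.dist x i) (by omega)
    rw [hz i ⟨rfl, hi.2.2⟩, hz i' ⟨h.symm, hi'.2.2⟩]
  have c1 : ((pth G D x u).filter (fun i => G.dist x i ≤ m)).card ≤ m + 1 := by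
    calc _ ≤ (range (m + 1)).card := by
          apply Finset.card_le_card_of_injOn (fun i => G.dist x i)
          · intro i hi
            rw [Finset.mem_coe, mem_filter] at hi
            rw [Finset.mem_coe, mem_range]
            show G.dist x i < m + 1
            omega
          · intro i hi i' hi' h
            rw [Finset.mem_coe, mem_filter] at hi hi'
            exact hinj i hi.1 i' hi'.1 h
      _ = m + 1 := card_range _
  have c2 : ((pth G D x u).filter (fun i => G.dist i u ≤ m)).card ≤ m + 1 := by
    calc _ ≤ (range (m + 1)).card := by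
          apply Finset.card_le_card_of_injOn (fun i => G.dist i u)
          · intro i hi
            rw [Finset.mem_coe, mem_filter] at hi
            rw [Finset.mem_coe, mem_range]
            show G.dist i u < m + 1
            omega
          · intro i hi i' hi' h
            rw [Finset.mem_coe, mem_filter] at hi hi'
            have e1 := (mem_pth.mp hi.1).2.2
            have e2 := (mem_pth.mp hi'.1).2.2
            apply hinj i hi.1 i' hi'.1
            simp only at h
            omega
      _ = m + 1 := card_range _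
  calc _ ≤ _ := card_le_card hsub
    _ ≤ _ := card_union_le _ _
    _ ≤ 2 * m + 4 := by omega

end Vale.Agent.P161C
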