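import Vale.Agent.Lib.P161C.MomentsB
import Vale.Agent.Lib.P161C.RootedB
import Vale.Agent.Lib.P161C.RootedC

/-!
P161 critical, module PATH (section 5 of notes/P161crit/proof.md): the energy `A` along a geodesic
of a ball is at least of order `√t` times the length.
Uses only statements of MODEL-A/B, MOMENTS (`prob_ge`, `mom_one_ge`), ROOTED.
-/

open Finset MeasureTheory

namespace Vale.Agent.P161C
open Vale.Agent.P161

variable {V : Type*} [DecidableEq V] {G : SimpleGraph V} [DecidableRel G.Adj] [G.LocallyFinite]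
  {b : ℕ} {β : ℝ} {κ : ℝ}

omit [DecidableRel G.Adj] [G.LocallyFinite] in
lemma path_mem_pth {D : Finset V} {j u i : V} :
    i ∈ pth G D j u ↔ i ∈ D ∧ i ≠ j ∧ G.dist j i + G.dist i u = G.dist j u := by
  unfold pth; simp

omit [DecidableEq V] [DecidableRel G.Adj] [G.LocallyFinite] in
/-- nested geodesics -/
lemma path_geo_sub (hG : G.IsTree) {x j u i : V} (hj : G.dist x j + G.dist j u = G.dist x u)
    (hi : G.dist j i + G.dist i u = G.dist j u) : G.dist x i + G.dist i u = G.dist x u := by
  have h1 := hG.connected.dist_triangle (u := x) (v := j) (w := i)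
  have h2 := hG.connected.dist_triangle (u := x) (v := i) (w := u)
  omega

/-- (4.4) independence of the messages of the hanging sets (from `EE_prod_indep`). -/
lemma EE_hang (hC : Crit G b β) {ν : V → Measure ℝ} (hν : ∀ v, IsOwn (ν v)) {D : Finset V}
    (hD : Cvx G D) {x j u : V} (_hx : x ∈ D) (_hu : u ∈ D)
    (hj : G.dist x j + G.dist j u = G.dist x u) (φ : V → ℝ → ℝ) (hφ : ∀ i, Measurable (φ i))
    (hb : ∀ i m, 0 ≤ φ i m ∧ φ i m ≤ 1) (hev : ∀ i m, φ i (-m) = φ i m) :
    EE G β ν D (fun p => ∏ i ∈ pth G D j u, φ i (mg G β (hang G D x u i) p i)) =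
      ∏ i ∈ pth G D j u,
        EE G β ν (hang G D x u i) (fun p => φ i (mg G β (hang G D x u i) p i)) := by
  refine EE_prod_indep hC.tree hν hD (pth G D j u) (fun i => hang G D x u i) ?_ ?_ ?_
    (fun i p => φ i (mg G β (hang G D x u i) p i)) ?_
  · intro i _
    exact hang_subset D x u i
  · intro i _
    exact cvx_hang hC.tree hD x u i
  · intro i hi i' hi' hne
    rw [path_mem_pth] at hi hi'
    exact hang_disjoint hC.tree (path_geo_sub hC.tree hj hi.2.2)
      (path_geo_sub hC.tree hj hi'.2.2) hne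
  · intro i hi
    rw [path_mem_pth] at hi
    refine ⟨⟨(hφ i).comp (measurable_mg _ _), ⟨1, fun p => ?_⟩, fun p q h => ?_⟩, fun p => ?_⟩
    · rw [abs_of_nonneg (hb _ _).1]
      exact (hb _ _).2
    · rw [mg_congr h]
    · rw [mg_neg (mem_hang_self hi.1), hev]

open Classical in
/-- number of good vertices -/
lemma path_card_good (hC : Crit G b β) (o : V) (R m : ℕ) {x j u : V}
    (hx : x ∈ bal G o R) (hu : u ∈ bal G o R) (hj : G.dist x j + G.dist j u = G.dist x u) :
    G.dist j u ≤ ((pth G (bal G o R) j u).filter (fun i => ∃ c, G.Adj i c ∧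
      Full G (hang G (bal G o R) x u i) i c m)).card + (2 * m + 4) := by
  have hD : Cvx G (bal G o R) := cvx_bal hC.tree o R
  have hjD : j ∈ bal G o R := hD x hx u hu j hj
  have h1 := card_bad_le hC o R m hx hu
  have h2 := card_pth hC.tree hD hjD hu
  have h3 := Finset.card_filter_add_card_filter_not (s := pth G (bal G o R) j u)
    (fun i => ∃ c, G.Adj i c ∧ Full G (hang G (bal G o R) x u i) i c m)
  have h4 : ((pth G (bal G o R) j u).filter (fun i => ¬ ∃ c, G.Adj i c ∧
      Full G (hang G (bal G o R) x u i) i c m)).card ≤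
      ((pth G (bal G o R) x u).filter (fun i => ¬ ∃ c, G.Adj i c ∧
      Full G (hang G (bal G o R) x u i) i c m)).card := by
    refine Finset.card_le_card (Finset.filter_subset_filter _ ?_)
    intro i hi
    rw [path_mem_pth] at hi ⊢
    refine ⟨hi.1, ?_, path_geo_sub hC.tree hj hi.2.2⟩
    rintro rfl
    have h5 : G.dist i j = 0 := by
      have := hi.2.2
      have h6 := G.dist_comm (u := i) (v := j)
      omega
    exact hi.2.1 ((hC.tree.connected.dist_eq_zero_iff).1 h5)
  omega

/-- product bound -/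
lemma path_prod_le {ι : Type*} (s : Finset ι) (g : ι → ℝ) (good : ι → Prop) [DecidablePred good]
    {a : ℝ} (h0 : ∀ i ∈ s, 0 ≤ g i) (h1 : ∀ i ∈ s, g i ≤ 1)
    (ha : ∀ i ∈ s, good i → g i ≤ Real.exp (-a)) :
    ∏ i ∈ s, g i ≤ Real.exp (-(a * ((s.filter good).card : ℝ))) := by
  calc ∏ i ∈ s, g i ≤ ∏ i ∈ s, (if good i then Real.exp (-a) else 1) := by
        refine Finset.prod_le_prod h0 fun i hi => ?_
        split_ifs with h
        · exact ha i hi h
        · exact h1 i hi
    _ = Real.exp (-a) ^ (s.filter good).card := by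
        rw [Finset.prod_ite, Finset.prod_const, Finset.prod_const_one, mul_one]
    _ = _ := by
        rw [← Real.exp_nat_mul]
        congr 1
        ring

omit [G.LocallyFinite] in
lemma path_measurable_ms (D : Finset V) (x i : V) : Measurable (fun p => ms G β D x p i) :=
  measurable_mg _ _

omit [G.LocallyFinite] in
/-- `E exp(-y p²) ≤ 1`, general facts about the factors. -/
lemma path_factor {ν : V → Measure ℝ} (hν : ∀ v, IsOwn (ν v)) (H : Finset V) (i : V) {y : ℝ} (hy : 0 ≤ y) :
    0 ≤ EE G β ν H (fun p => Real.exp (-(y * mg G β H p i ^ 2))) ∧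
      EE G β ν H (fun p => Real.exp (-(y * mg G β H p i ^ 2))) ≤ 1 := by
  have hP := isProb_PL (G := G) (β := β) hν H
  have hle : ∀ p : V → ℝ, Real.exp (-(y * mg G β H p i ^ 2)) ≤ 1 := fun p => by
    rw [Real.exp_le_one_iff]
    have : 0 ≤ y * mg G β H p i ^ 2 := by positivity
    linarith
  constructor
  · exact integral_nonneg fun p => (Real.exp_pos _).le
  · calc EE G β ν H (fun p => Real.exp (-(y * mg G β H p i ^ 2)))
        ≤ ∫ _p, (1 : ℝ) ∂(PL G β ν H) := by
          refine integral_mono (integrable_PL hν H ?_ (C := 1) ?_) (integrable_const _) hle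
          · exact ((((measurable_mg H i).pow_const 2).const_mul y).neg).exp
          · intro p
            rw [abs_of_pos (Real.exp_pos _)]
            exact hle p
      _ = 1 := by simp

/-- (E2) -/
theorem path_exp (hC : Crit G b β) (hκ : 1 ≤ κ) : ∃ C₁ c₁ : ℝ, 1 ≤ C₁ ∧ 0 < c₁ ∧
    ∀ (t : ℝ) (ν : Measure ℝ), 0 < t → t ≤ 1 → Scale κ t ν → ∀ (o : V) (R : ℕ) (x j u : V),
      x ∈ bal G o R → u ∈ bal G o R → G.dist x j + G.dist j u = G.dist x u →
      EE G β (fun _ => ν) (bal G o R)
        (fun p => Real.exp (-(∑ i ∈ pth G (bal G o R) j u, ms G β (bal G o R) x p i ^ 2) / 4)) ≤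
        C₁ * Real.exp (-(c₁ * √t * G.dist j u)) := by
  classical
  obtain ⟨c₀, c₁, hc₀, hc₁, hmom⟩ := mom_one_ge (κ := κ) hC hκ
  refine ⟨Real.exp (c₀ * (2 * c₁ + 6) / 400), c₀ / 400, ?_, by positivity, ?_⟩
  · rw [← Real.exp_zero]
    exact Real.exp_le_exp.2 (by positivity)
  intro t ν ht ht1 hs o R x j u hx hu hj
  set D := bal G o R with hDdef
  have hD : Cvx G D := cvx_bal hC.tree o R
  have hν : ∀ v : V, IsOwn ((fun _ => ν : V → Measure ℝ) v) := fun _ => hs.toIsOwn
  have hst : 0 < √t := Real.sqrt_pos.2 ht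
  have hst1 : √t ≤ 1 := Real.sqrt_le_one.2 ht1
  set m : ℕ := ⌈c₁ / √t⌉₊ with hm
  have hm1 : c₁ / √t ≤ m := Nat.le_ceil _
  have hm2 : (m : ℝ) ≤ c₁ / √t + 1 := (Nat.ceil_lt_add_one (by positivity)).le
  -- comparison
  have hcomp : ∀ p : V → ℝ,
      Real.exp (-(∑ i ∈ pth G D j u, ms G β D x p i ^ 2) / 4) ≤
        ∏ i ∈ pth G D j u, Real.exp (-(1 / 200 * mg G β (hang G D x u i) p i ^ 2)) := by
    intro p
    rw [← Real.exp_sum]
    apply Real.exp_le_exp.2
    have h1 := sum_hang_sq_le hC hD hx hj hu p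
    rw [Finset.sum_neg_distrib, ← Finset.mul_sum]
    linarith
  have hmeas1 : Measurable (fun p : V → ℝ =>
      Real.exp (-(∑ i ∈ pth G D j u, ms G β D x p i ^ 2) / 4)) := by
    refine Measurable.exp ?_
    refine Measurable.div_const (Measurable.neg ?_) _
    exact Finset.measurable_sum _ fun i _ => (path_measurable_ms D x i).pow_const 2
  have hmeas2 : Measurable (fun p : V → ℝ =>
      ∏ i ∈ pth G D j u, Real.exp (-(1 / 200 * mg G β (hang G D x u i) p i ^ 2))) := by
    refine Finset.measurable_prod _ fun i _ => ?_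
    exact ((((measurable_mg _ i).pow_const 2).const_mul _).neg).exp
  have hexple : ∀ y z : ℝ, 0 ≤ y → Real.exp (-(y * z ^ 2)) ≤ 1 := by
    intro y z hy
    rw [Real.exp_le_one_iff]
    have : 0 ≤ y * z ^ 2 := by positivity
    linarith
  have hint1 := integrable_PL (G := G) (β := β) (ν := fun _ => ν) hν D hmeas1 (C := 1) (by
    intro p
    rw [abs_of_pos (Real.exp_pos _), Real.exp_le_one_iff]
    have : 0 ≤ ∑ i ∈ pth G D j u, ms G β D x p i ^ 2 :=
      Finset.sum_nonneg fun i _ => sq_nonneg _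
    linarith)
  have hint2 := integrable_PL (G := G) (β := β) (ν := fun _ => ν) hν D hmeas2 (C := 1) (by
    intro p
    rw [abs_of_nonneg (Finset.prod_nonneg fun i _ => (Real.exp_pos _).le)]
    exact Finset.prod_le_one (fun i _ => (Real.exp_pos _).le)
      (fun i _ => hexple _ _ (by norm_num)))
  have h1 : EE G β (fun _ => ν) D
        (fun p => Real.exp (-(∑ i ∈ pth G D j u, ms G β D x p i ^ 2) / 4)) ≤
      EE G β (fun _ => ν) D
        (fun p => ∏ i ∈ pth G D j u, Real.exp (-(1 / 200 * mg G β (hang G D x u i) p i ^ 2))) :=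
    EE_mono hν D hint1 hint2 (T := ∅) fun p _ => hcomp p
  have h2 := EE_hang hC (ν := fun _ => ν) hν hD hx hu hj
    (fun _ z => Real.exp (-(1 / 200 * z ^ 2))) (fun _ => by fun_prop)
    (fun _ z => ⟨(Real.exp_pos _).le, hexple _ _ (by norm_num)⟩) (fun _ z => by simp)
  have h3 : ∏ i ∈ pth G D j u, EE G β (fun _ => ν) (hang G D x u i)
        (fun p => Real.exp (-(1 / 200 * mg G β (hang G D x u i) p i ^ 2))) ≤
      Real.exp (-(c₀ * √t / 400 * (((pth G D j u).filter (fun i => ∃ c, G.Adj i c ∧
      Full G (hang G D x u i) i c m)).card : ℝ))) := by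
    refine path_prod_le _ _ _ (fun i _ => (path_factor hν _ i (by norm_num)).1)
      (fun i _ => (path_factor hν _ i (by norm_num)).2) ?_
    rintro i hi ⟨c, hic, hfull⟩
    rw [path_mem_pth] at hi
    have hmo := hmom t ν ht ht1 hs (hang G D x u i) i c m (cvx_hang hC.tree hD x u i)
      (mem_hang_self hi.1) hic hm1 hfull
    set H := hang G D x u i
    have hP := isProb_PL (G := G) (β := β) (ν := fun _ => ν) hν H
    have hmgm : Measurable (fun p => mg G β H p i) := measurable_mg H i
    have hb2 : ∀ p : V → ℝ, mg G β H p i ^ 2 ≤ 1 := fun p => by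
      rw [← sq_abs]
      exact pow_le_one₀ (abs_nonneg _) (abs_mg_le H p i)
    have hI : Integrable (fun p : V → ℝ => mg G β H p i ^ 2) (PL G β (fun _ => ν) H) :=
      integrable_PL hν H (hmgm.pow_const 2) (C := 1) (fun p => by
        rw [abs_of_nonneg (sq_nonneg _)]; exact hb2 p)
    have hE : EE G β (fun _ => ν) H (fun p => Real.exp (-(1 / 200 * mg G β H p i ^ 2))) ≤
        1 - 1 / 400 * mom G β (fun _ => ν) H i 1 := by
      calc EE G β (fun _ => ν) H (fun p => Real.exp (-(1 / 200 * mg G β H p i ^ 2)))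
          ≤ ∫ p, (1 - 1 / 400 * mg G β H p i ^ 2) ∂(PL G β (fun _ => ν) H) := by
            refine integral_mono (integrable_PL hν H ?_ (C := 1) ?_)
              ((integrable_const _).sub (hI.const_mul _)) fun p => ?_
            · exact (((hmgm.pow_const 2).const_mul _).neg).exp
            · intro p
              rw [abs_of_pos (Real.exp_pos _)]
              exact hexple _ _ (by norm_num)
            · have hz := hb2 p
              have hz0 := sq_nonneg (mg G β H p i)
              set z := mg G β H p i ^ 2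
              have h5 : 1 + (1 / 200 * z) ≤ Real.exp (1 / 200 * z) := by
                have := Real.add_one_le_exp (1 / 200 * z); linarith
              simp only
              rw [Real.exp_neg]
              have h6 : 0 < 1 + 1 / 200 * z := by positivity
              calc (Real.exp (1 / 200 * z))⁻¹ ≤ (1 + 1 / 200 * z)⁻¹ :=
                    inv_anti₀ h6 h5
                _ ≤ 1 - 1 / 400 * z := by
                    rw [inv_le_iff_one_le_mul₀ h6]
                    nlinarith
        _ = 1 - 1 / 400 * mom G β (fun _ => ν) H i 1 := by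
            rw [integral_sub (integrable_const _) (hI.const_mul _), integral_const_mul]
            simp [mom, EE]
    calc EE G β (fun _ => ν) H (fun p => Real.exp (-(1 / 200 * mg G β H p i ^ 2)))
        ≤ 1 - 1 / 400 * mom G β (fun _ => ν) H i 1 := hE
      _ ≤ 1 - c₀ * √t / 400 := by linarith
      _ ≤ Real.exp (-(c₀ * √t / 400)) := by
          have := Real.add_one_le_exp (-(c₀ * √t / 400)); linarith
  refine h1.trans ((h2.le.trans h3).trans ?_)
  have h4 := path_card_good hC o R m hx hu hj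
  rw [← hDdef] at h4
  set g := ((pth G D j u).filter (fun i => ∃ c, G.Adj i c ∧
      Full G (hang G D x u i) i c m)).card
  rw [← Real.exp_add]
  apply Real.exp_le_exp.2
  have h5 : (G.dist j u : ℝ) ≤ g + (2 * m + 4) := by exact_mod_cast h4
  have h6 : √t * (2 * m + 4) ≤ 2 * c₁ + 6 := by
    have h7 : √t * (c₁ / √t) = c₁ := by field_simp
    have h8 : √t * m ≤ c₁ + √t := by
      calc √t * m ≤ √t * (c₁ / √t + 1) := mul_le_mul_of_nonneg_left hm2 hst.le
        _ = c₁ + √t := by rw [mul_add, h7, mul_one]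
    nlinarith
  have h9 : c₀ * √t / 400 * (G.dist j u : ℝ) ≤ c₀ * √t / 400 * (g + (2 * m + 4)) :=
    mul_le_mul_of_nonneg_left h5 (by positivity)
  have h10 : c₀ / 400 * (√t * (2 * m + 4)) ≤ c₀ / 400 * (2 * c₁ + 6) :=
    mul_le_mul_of_nonneg_left h6 (by positivity)
  linarith [h9, h10]

/-- (E3) large deviations. -/
theorem path_dev (hC : Crit G b β) (hκ : 1 ≤ κ) : ∃ c₂ c₃ C₃ : ℝ, 0 < c₂ ∧ 0 < c₃ ∧ 0 < C₃ ∧
    ∀ (t : ℝ) (ν : Measure ℝ), 0 < t → t ≤ 1 → Scale κ t ν → ∀ (o : V) (R : ℕ) (x u : V),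
      x ∈ bal G o R → u ∈ bal G o R → C₃ / √t ≤ G.dist x u →
      (PL G β (fun _ => ν) (bal G o R)).real
        {p | Ac G β (bal G o R) x u p / 4 < c₂ * √t * G.dist x u} ≤
        Real.exp (-(c₃ * G.dist x u)) := by
  classical
  obtain ⟨c₀, c₁, a, hc₀, hc₁, ha, hprob⟩ := prob_ge (κ := κ) hC hκ
  refine ⟨c₀ * a / 1600, a / 8, 4 * c₁ + 12, by positivity, by positivity, by positivity, ?_⟩
  intro t ν ht ht1 hs o R x u hx hu hk
  set D := bal G o R with hDdef
  have hD : Cvx G D := cvx_bal hC.tree o R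
  have hν : ∀ v : V, IsOwn ((fun _ => ν : V → Measure ℝ) v) := fun _ => hs.toIsOwn
  have hst : 0 < √t := Real.sqrt_pos.2 ht
  have hst1 : √t ≤ 1 := Real.sqrt_le_one.2 ht1
  set m : ℕ := ⌈c₁ / √t⌉₊ with hm
  have hm1 : c₁ / √t ≤ m := Nat.le_ceil _
  have hm2 : (m : ℝ) ≤ c₁ / √t + 1 := (Nat.ceil_lt_add_one (by positivity)).le
  have hj : G.dist x x + G.dist x u = G.dist x u := by simp
  set y : ℝ := 1 / (c₀ * √t) with hy
  have hy0 : 0 < y := by positivity
  set k : ℝ := (G.dist x u : ℝ) with hkdef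
  have hexple : ∀ z : ℝ, Real.exp (-(y * z ^ 2)) ≤ 1 := by
    intro z
    rw [Real.exp_le_one_iff]
    have : 0 ≤ y * z ^ 2 := by positivity
    linarith
  have hPD := isProb_PL (G := G) (β := β) (ν := fun _ => ν) hν D
  have h2 := EE_hang hC (ν := fun _ => ν) hν hD hx hu hj
    (fun _ z => Real.exp (-(y * z ^ 2))) (fun _ => by fun_prop)
    (fun _ z => ⟨(Real.exp_pos _).le, hexple _⟩) (fun _ z => by simp)
  have h3 : ∏ i ∈ pth G D x u, EE G β (fun _ => ν) (hang G D x u i)
        (fun p => Real.exp (-(y * mg G β (hang G D x u i) p i ^ 2))) ≤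
      Real.exp (-(a / 2 * (((pth G D x u).filter (fun i => ∃ c, G.Adj i c ∧
      Full G (hang G D x u i) i c m)).card : ℝ))) := by
    refine path_prod_le _ _ _ (fun i _ => (path_factor hν _ i hy0.le).1)
      (fun i _ => (path_factor hν _ i hy0.le).2) ?_
    rintro i hi ⟨c, hic, hfull⟩
    rw [path_mem_pth] at hi
    have hpr := hprob t ν ht ht1 hs (hang G D x u i) i c m (cvx_hang hC.tree hD x u i)
      (mem_hang_self hi.1) hic hm1 hfull
    set H := hang G D x u i
    have hP := isProb_PL (G := G) (β := β) (ν := fun _ => ν) hν H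
    have hmgm : Measurable (fun p => mg G β H p i) := measurable_mg H i
    set E : Set (V → ℝ) := {p | c₀ * √t ≤ mg G β H p i ^ 2} with hE
    have hEm : MeasurableSet E := measurableSet_le measurable_const (hmgm.pow_const 2)
    have hI : Integrable (E.indicator (fun _ => (1 : ℝ))) (PL G β (fun _ => ν) H) :=
      (integrable_const _).indicator hEm
    calc EE G β (fun _ => ν) H (fun p => Real.exp (-(y * mg G β H p i ^ 2)))
        ≤ ∫ p, (1 - 1 / 2 * E.indicator (fun _ => (1 : ℝ)) p) ∂(PL G β (fun _ => ν) H) := by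
          refine integral_mono (integrable_PL hν H ?_ (C := 1) ?_)
            ((integrable_const _).sub (hI.const_mul _)) fun p => ?_
          · exact (((hmgm.pow_const 2).const_mul _).neg).exp
          · intro p
            rw [abs_of_pos (Real.exp_pos _)]
            exact hexple _
          · simp only
            by_cases hp : p ∈ E
            · rw [Set.indicator_of_mem hp]
              have h5 : (1 : ℝ) ≤ y * mg G β H p i ^ 2 := by
                rw [hy, one_div, ← div_eq_inv_mul, le_div_iff₀ (by positivity), one_mul]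
                exact hp
              have h6 : Real.exp (-(y * mg G β H p i ^ 2)) ≤ Real.exp (-1) :=
                Real.exp_le_exp.2 (by linarith)
              have h7 : Real.exp (-1) ≤ 1 / 2 := by
                rw [Real.exp_neg, one_div]
                apply inv_anti₀ (by norm_num)
                have := Real.add_one_le_exp (1 : ℝ); linarith
              linarith
            · rw [Set.indicator_of_notMem hp]
              simpa using hexple (mg G β H p i)
      _ = 1 - 1 / 2 * (PL G β (fun _ => ν) H).real E := by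
          rw [integral_sub (integrable_const _) (hI.const_mul _), integral_const_mul,
            integral_indicator_const _ hEm]
          simp
      _ ≤ 1 - a / 2 := by linarith
      _ ≤ Real.exp (-(a / 2)) := by
          have := Real.add_one_le_exp (-(a / 2)); linarith
  -- Markov
  set Sp : (V → ℝ) → ℝ := fun p => ∏ i ∈ pth G D x u,
    Real.exp (-(y * mg G β (hang G D x u i) p i ^ 2)) with hSp
  have hmeas2 : Measurable Sp := by
    refine Finset.measurable_prod _ fun i _ => ?_
    exact ((((measurable_mg _ i).pow_const 2).const_mul _).neg).exp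
  have hint2 : Integrable Sp (PL G β (fun _ => ν) D) := integrable_PL hν D hmeas2 (C := 1) (by
    intro p
    rw [abs_of_nonneg (Finset.prod_nonneg fun i _ => (Real.exp_pos _).le)]
    exact Finset.prod_le_one (fun i _ => (Real.exp_pos _).le) (fun i _ => hexple _))
  set B : Set (V → ℝ) := {p | Ac G β D x u p / 4 < c₀ * a / 1600 * √t * k} with hB
  have hAcm : Measurable (fun p => Ac G β D x u p) := by
    unfold Ac
    exact Finset.measurable_sum _ fun i _ => (path_measurable_ms D x i).pow_const 2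
  have hBm : MeasurableSet B := measurableSet_lt (hAcm.div_const _) measurable_const
  have hBle : (PL G β (fun _ => ν) D).real B ≤
      Real.exp (a / 8 * k) * EE G β (fun _ => ν) D Sp := by
    calc (PL G β (fun _ => ν) D).real B
        = ∫ p, B.indicator (fun _ => (1 : ℝ)) p ∂(PL G β (fun _ => ν) D) := by
          rw [integral_indicator_const _ hBm]; simp
      _ ≤ ∫ p, Real.exp (a / 8 * k) * Sp p ∂(PL G β (fun _ => ν) D) := by
          refine integral_mono ((integrable_const _).indicator hBm) (hint2.const_mul _)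
            fun p => ?_
          by_cases hp : p ∈ B
          · rw [Set.indicator_of_mem hp]
            simp only [hSp]
            rw [← Real.exp_sum, ← Real.exp_add, ← Real.exp_zero]
            apply Real.exp_le_exp.2
            rw [Finset.sum_neg_distrib, ← Finset.mul_sum]
            have h5 := sum_hang_sq_le hC hD hx hj hu p
            have h6 : Ac G β D x u p / 4 < c₀ * a / 1600 * √t * k := hp
            have h7 : Ac G β D x u p = ∑ i ∈ pth G D x u, ms G β D x p i ^ 2 := rfl
            rw [← h7] at h5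
            have h8 : ∑ i ∈ pth G D x u, mg G β (hang G D x u i) p i ^ 2 ≤
                c₀ * a / 8 * √t * k := by linarith
            have h9 : y * ∑ i ∈ pth G D x u, mg G β (hang G D x u i) p i ^ 2 ≤
                y * (c₀ * a / 8 * √t * k) := mul_le_mul_of_nonneg_left h8 hy0.le
            have h10 : y * (c₀ * a / 8 * √t * k) = a / 8 * k := by
              rw [hy]; field_simp
            linarith
          · rw [Set.indicator_of_notMem hp]
            exact mul_nonneg (Real.exp_pos _).le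
              (Finset.prod_nonneg fun i _ => (Real.exp_pos _).le)
      _ = _ := by
          rw [integral_const_mul]; rfl
  have h4 := path_card_good hC o R m hx hu hj
  rw [← hDdef] at h4
  set g := ((pth G D x u).filter (fun i => ∃ c, G.Adj i c ∧
      Full G (hang G D x u i) i c m)).card
  have h5 : k ≤ g + (2 * m + 4) := by rw [hkdef]; exact_mod_cast h4
  have h6 : 2 * (2 * (m : ℝ) + 4) ≤ k := by
    refine le_trans ?_ hk
    rw [le_div_iff₀ hst]
    have h7 : √t * (c₁ / √t) = c₁ := by field_simp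
    have h8 : √t * m ≤ c₁ + √t := by
      calc √t * m ≤ √t * (c₁ / √t + 1) := mul_le_mul_of_nonneg_left hm2 hst.le
        _ = c₁ + √t := by rw [mul_add, h7, mul_one]
    nlinarith
  have h7 : k / 2 ≤ g := by linarith
  calc (PL G β (fun _ => ν) D).real B ≤ Real.exp (a / 8 * k) * EE G β (fun _ => ν) D Sp := hBle
    _ ≤ Real.exp (a / 8 * k) * Real.exp (-(a / 2 * g)) := by
        gcongr
        exact h2.le.trans h3
    _ = Real.exp (a / 8 * k - a / 2 * g) := by rw [← Real.exp_add]; ring_nf
    _ ≤ Real.exp (-(a / 8 * k)) := by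
        apply Real.exp_le_exp.2
        nlinarith

/-- Decay of the covariances: consequence of (E2). -/
theorem cv_sq_le (hC : Crit G b β) (hκ : 1 ≤ κ) : ∃ C₁ c₁ : ℝ, 1 ≤ C₁ ∧ 0 < c₁ ∧
    ∀ (t : ℝ) (ν : Measure ℝ), 0 < t → t ≤ 1 → Scale κ t ν → ∀ (o : V) (R : ℕ) (x u : V),
      x ∈ bal G o R → u ∈ bal G o R →
      EE G β (fun _ => ν) (bal G o R) (fun p => cv G β (bal G o R) p x u ^ 2) ≤
        C₁ * Real.tanh β ^ (2 * G.dist x u) * Real.exp (-(c₁ * √t * G.dist x u)) := by
  obtain ⟨C₁, c₁, hC₁, hc₁, hE⟩ := path_exp (κ := κ) hC hκ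
  refine ⟨C₁, c₁, hC₁, hc₁, ?_⟩
  intro t ν ht ht1 hs o R x u hx hu
  set D := bal G o R with hDdef
  have hD : Cvx G D := cvx_bal hC.tree o R
  have hν : ∀ v : V, IsOwn ((fun _ => ν : V → Measure ℝ) v) := fun _ => hs.toIsOwn
  set θ := Real.tanh β with hθ
  have hθ0 : 0 ≤ θ := tanh_nonneg hC.hβ
  have hb2 : (2 : ℝ) ≤ b := by exact_mod_cast hC.hb
  have hθ1 : θ ^ 2 ≤ 1 / 2 := by
    have := hC.crit
    have h0 := sq_nonneg θ
    nlinarith
  have hcv : ∀ p : V → ℝ, cv G β D p x u ^ 2 ≤
      θ ^ (2 * G.dist x u) *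
        Real.exp (-(∑ i ∈ pth G D x u, ms G β D x p i ^ 2) / 4) := by
    intro p
    rw [cv_eq_prod hC.tree hD hx hu p, mul_pow, ← Finset.prod_pow]
    have h1 : (1 - mg G β D p x ^ 2) ^ 2 ≤ 1 := by
      have h2 := abs_mg_le (G := G) (β := β) D p x
      have h3 : mg G β D p x ^ 2 ≤ 1 := by
        rw [← sq_abs]; exact pow_le_one₀ (abs_nonneg _) h2
      have h4 := sq_nonneg (mg G β D p x)
      nlinarith
    have h5 : ∏ i ∈ pth G D x u, slope θ (ms G β D x p i) ^ 2 ≤
        ∏ i ∈ pth G D x u, (θ ^ 2 * Real.exp (-(ms G β D x p i ^ 2) / 4)) := by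
      refine Finset.prod_le_prod (fun i _ => sq_nonneg _) fun i _ => ?_
      refine (slope_sq_le_exp (m := ms G β D x p i) hθ0 hθ1 (abs_mg_le _ _ _)).trans ?_
      refine mul_le_mul_of_nonneg_left (Real.exp_le_exp.2 ?_) (sq_nonneg _)
      have := sq_nonneg (ms G β D x p i)
      linarith
    have h6 : ∏ i ∈ pth G D x u, (θ ^ 2 * Real.exp (-(ms G β D x p i ^ 2) / 4)) =
        θ ^ (2 * G.dist x u) * Real.exp (-(∑ i ∈ pth G D x u, ms G β D x p i ^ 2) / 4) := by
      rw [Finset.prod_mul_distrib, Finset.prod_const, card_pth hC.tree hD hx hu,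
        ← Real.exp_sum, ← pow_mul]
      congr 2
      rw [← Finset.sum_div, Finset.sum_neg_distrib]
    rw [← h6]
    calc (1 - mg G β D p x ^ 2) ^ 2 * ∏ i ∈ pth G D x u, slope θ (ms G β D x p i) ^ 2
        ≤ 1 * ∏ i ∈ pth G D x u, slope θ (ms G β D x p i) ^ 2 :=
          mul_le_mul_of_nonneg_right h1 (Finset.prod_nonneg fun i _ => sq_nonneg _)
      _ ≤ _ := by rw [one_mul]; exact h5
  have hexp1 : ∀ p : V → ℝ,
      Real.exp (-(∑ i ∈ pth G D x u, ms G β D x p i ^ 2) / 4) ≤ 1 := by
    intro p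
    rw [Real.exp_le_one_iff]
    have : 0 ≤ ∑ i ∈ pth G D x u, ms G β D x p i ^ 2 :=
      Finset.sum_nonneg fun i _ => sq_nonneg _
    linarith
  have hmeas1 : Measurable (fun p : V → ℝ =>
      Real.exp (-(∑ i ∈ pth G D x u, ms G β D x p i ^ 2) / 4)) := by
    refine Measurable.exp ?_
    refine Measurable.div_const (Measurable.neg ?_) _
    exact Finset.measurable_sum _ fun i _ => (path_measurable_ms D x i).pow_const 2
  have hint1 := integrable_PL (G := G) (β := β) (ν := fun _ => ν) hν D hmeas1 (C := 1) (by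
    intro p
    rw [abs_of_pos (Real.exp_pos _)]
    exact hexp1 p)
  have hθp : 0 ≤ θ ^ (2 * G.dist x u) := pow_nonneg hθ0 _
  have hθp1 : θ ^ (2 * G.dist x u) ≤ 1 := by
    rw [pow_mul]
    exact pow_le_one₀ (sq_nonneg _) (by linarith)
  have hint2 : Integrable (fun p : V → ℝ => cv G β D p x u ^ 2) (PL G β (fun _ => ν) D) := by
    refine integrable_PL hν D ((measurable_cv D x u).pow_const 2) (C := 1) fun p => ?_
    rw [abs_of_nonneg (sq_nonneg _)]
    exact (hcv p).trans (mul_le_one₀ hθp1 (Real.exp_pos _).le (hexp1 p))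
  calc EE G β (fun _ => ν) D (fun p => cv G β D p x u ^ 2)
      ≤ ∫ p, θ ^ (2 * G.dist x u) *
          Real.exp (-(∑ i ∈ pth G D x u, ms G β D x p i ^ 2) / 4) ∂(PL G β (fun _ => ν) D) :=
        integral_mono hint2 (hint1.const_mul _) hcv
    _ = θ ^ (2 * G.dist x u) * EE G β (fun _ => ν) D
          (fun p => Real.exp (-(∑ i ∈ pth G D x u, ms G β D x p i ^ 2) / 4)) := by
        rw [integral_const_mul]; rfl
    _ ≤ θ ^ (2 * G.dist x u) * (C₁ * Real.exp (-(c₁ * √t * G.dist x u))) :=
        mul_le_mul_of_nonneg_left (hE t ν ht ht1 hs o R x x u hx hu (by simp)) hθp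
    _ = _ := by ring

/-- geometric sums over finite sets of integers -/
lemma path_geom {q : ℝ} (h0 : 0 ≤ q) (h1 : q < 1) (a : ℕ) (K : Finset ℕ)
    (hK : ∀ k ∈ K, a ≤ k) : ∑ k ∈ K, q ^ k ≤ q ^ a / (1 - q) := by
  have hs : Summable (fun k : ℕ => q ^ (k + a)) := by
    simp_rw [pow_add]
    exact (summable_geometric_of_lt_one h0 h1).mul_right _
  have h2 : ∑ k ∈ K, q ^ k = ∑ k ∈ K.image (fun k => k - a), q ^ (k + a) := by
    rw [Finset.sum_image]
    · refine Finset.sum_congr rfl fun k hk => ?_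
      rw [Nat.sub_add_cancel (hK k hk)]
    · intro k hk k' hk' h
      have h3 := hK k hk
      have h4 := hK k' hk'
      simp only at h
      omega
  rw [h2]
  refine (hs.sum_le_tsum _ (fun k _ => pow_nonneg h0 _)).trans_eq ?_
  simp_rw [pow_add]
  rw [tsum_mul_right, tsum_geometric_of_lt_one h0 h1]
  ring

/-- (8.3) the far part. -/
theorem far_le (hC : Crit G b β) (hκ : 1 ≤ κ) : ∃ C₁ c₁ : ℝ, 1 ≤ C₁ ∧ 0 < c₁ ∧
    ∀ (t : ℝ) (ν : Measure ℝ), 0 < t → t ≤ 1 → Scale κ t ν → ∀ (o : V) (R : ℕ) (x : V),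
      x ∈ bal G o R → ∀ h : ℕ,
      EE G β (fun _ => ν) (bal G o R)
        (fun p => ∑ u ∈ bal G o R \ bal G x h, cv G β (bal G o R) p x u ^ 2) ≤
        C₁ / √t * Real.exp (-(c₁ * √t * h)) := by
  obtain ⟨C₁, c₁, hC₁, hc₁, hE⟩ := cv_sq_le (κ := κ) hC hκ
  refine ⟨3 / 2 * C₁ * ((1 + c₁) / c₁), c₁, ?_, hc₁, ?_⟩
  · have h1 : 1 ≤ (1 + c₁) / c₁ := by rw [le_div_iff₀ hc₁]; linarith
    nlinarith
  intro t ν ht ht1 hs o R x hx h
  set D := bal G o R with hDdef
  have hν : ∀ v : V, IsOwn ((fun _ => ν : V → Measure ℝ) v) := fun _ => hs.toIsOwn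
  have hst : 0 < √t := Real.sqrt_pos.2 ht
  have hst1 : √t ≤ 1 := Real.sqrt_le_one.2 ht1
  set θ := Real.tanh β with hθ
  have hθ0 : 0 ≤ θ := tanh_nonneg hC.hβ
  set q := Real.exp (-(c₁ * √t)) with hq
  have hq0 : 0 < q := Real.exp_pos _
  have hq1 : q < 1 := by rw [hq, Real.exp_lt_one_iff]; have : 0 < c₁ * √t := by positivity
                         linarith
  have hb0 : (0 : ℝ) < b := by
    have : (2 : ℝ) ≤ b := by exact_mod_cast hC.hb
    linarith
  -- integrability
  have hcvb : ∀ (p : V → ℝ) (u : V), |cv G β D p x u ^ 2| ≤ 1 := by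
    intro p u
    have h1 := abs_cov_le (G := G) (D := D) (h := fld p) hC.tree hC.hβ x u
    have h2 : |cv G β D p x u| ≤ 1 := by
      refine h1.trans ?_
      exact pow_le_one₀ hθ0 (Real.tanh_lt_one β).le
    rw [abs_pow]
    exact pow_le_one₀ (abs_nonneg _) h2
  have hI : ∀ u : V, Integrable (fun p => cv G β D p x u ^ 2) (PL G β (fun _ => ν) D) :=
    fun u => integrable_PL hν D ((measurable_cv D x u).pow_const 2) (C := 1)
      fun p => hcvb p u
  have h1 : EE G β (fun _ => ν) D (fun p => ∑ u ∈ D \ bal G x h, cv G β D p x u ^ 2) =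
      ∑ u ∈ D \ bal G x h, EE G β (fun _ => ν) D (fun p => cv G β D p x u ^ 2) := by
    unfold EE
    rw [integral_finsetSum _ fun u _ => hI u]
  rw [h1]
  have h2 : ∑ u ∈ D \ bal G x h, EE G β (fun _ => ν) D (fun p => cv G β D p x u ^ 2) ≤
      ∑ u ∈ D \ bal G x h, C₁ * (θ ^ 2) ^ (G.dist x u) * q ^ (G.dist x u) := by
    refine Finset.sum_le_sum fun u hu => ?_
    refine (hE t ν ht ht1 hs o R x u hx (Finset.mem_sdiff.1 hu).1).trans_eq ?_
    rw [hq, ← Real.exp_nat_mul, pow_mul]
    congr 2
    ring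
  refine h2.trans ?_
  have h3 : ∑ u ∈ D \ bal G x h, C₁ * (θ ^ 2) ^ (G.dist x u) * q ^ (G.dist x u) =
      ∑ k ∈ (D \ bal G x h).image (fun u => G.dist x u),
        ((D \ bal G x h).filter (fun u => G.dist x u = k)).card •
          (C₁ * (θ ^ 2) ^ k * q ^ k) := by
    rw [Finset.sum_comp (fun k : ℕ => C₁ * (θ ^ 2) ^ k * q ^ k) (fun u => G.dist x u)]
  rw [h3]
  calc ∑ k ∈ (D \ bal G x h).image (fun u => G.dist x u),
        ((D \ bal G x h).filter (fun u => G.dist x u = k)).card •
          (C₁ * (θ ^ 2) ^ k * q ^ k)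
      ≤ ∑ k ∈ (D \ bal G x h).image (fun u => G.dist x u), 3 / 2 * C₁ * q ^ k := by
        refine Finset.sum_le_sum fun k _ => ?_
        rw [nsmul_eq_mul]
        have h4 : (((D \ bal G x h).filter (fun u => G.dist x u = k)).card : ℝ) ≤
            3 / 2 * (b : ℝ) ^ k := by
          have h5 : ((D \ bal G x h).filter (fun u => G.dist x u = k)).card ≤
              (D.filter (fun u => G.dist x u = k)).card :=
            Finset.card_le_card (Finset.filter_subset_filter _ Finset.sdiff_subset)
          have h6 := card_sphere_le (D := D) (x := x) hC k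
          have h7 : (2 : ℝ) * ((D.filter (fun u => G.dist x u = k)).card : ℝ) ≤
              3 * (b : ℝ) ^ k := by exact_mod_cast h6
          have h8 : (((D \ bal G x h).filter (fun u => G.dist x u = k)).card : ℝ) ≤
              ((D.filter (fun u => G.dist x u = k)).card : ℝ) := by exact_mod_cast h5
          linarith
        have h9 : (b : ℝ) ^ k * (θ ^ 2) ^ k = 1 := by
          rw [← mul_pow, hC.crit, one_pow]
        have h10 : 0 ≤ C₁ * (θ ^ 2) ^ k * q ^ k := by positivity
        calc (((D \ bal G x h).filter (fun u => G.dist x u = k)).card : ℝ) *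
              (C₁ * (θ ^ 2) ^ k * q ^ k) ≤ (3 / 2 * (b : ℝ) ^ k) *
              (C₁ * (θ ^ 2) ^ k * q ^ k) := mul_le_mul_of_nonneg_right h4 h10
          _ = 3 / 2 * C₁ * q ^ k * ((b : ℝ) ^ k * (θ ^ 2) ^ k) := by ring
          _ = _ := by rw [h9, mul_one]
    _ = 3 / 2 * C₁ * ∑ k ∈ (D \ bal G x h).image (fun u => G.dist x u), q ^ k := by
        rw [Finset.mul_sum]
    _ ≤ 3 / 2 * C₁ * (q ^ h / (1 - q)) := by
        refine mul_le_mul_of_nonneg_left (path_geom hq0.le hq1 h _ ?_) (by positivity)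
        intro k hk
        rw [Finset.mem_image] at hk
        obtain ⟨u, hu, rfl⟩ := hk
        have hu2 := (Finset.mem_sdiff.1 hu).2
        rw [mem_bal hC.tree.connected] at hu2
        omega
    _ ≤ 3 / 2 * C₁ * (q ^ h * ((1 + c₁) / (c₁ * √t))) := by
        refine mul_le_mul_of_nonneg_left ?_ (by positivity)
        rw [div_eq_mul_inv]
        refine mul_le_mul_of_nonneg_left ?_ (by positivity)
        -- 1/(1-q) ≤ (1+c₁)/(c₁ √t)
        have h11 : 1 + c₁ * √t ≤ Real.exp (c₁ * √t) := by
          have := Real.add_one_le_exp (c₁ * √t); linarith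
        have h12 : q ≤ (1 + c₁ * √t)⁻¹ := by
          rw [hq, Real.exp_neg]
          exact inv_anti₀ (by positivity) h11
        have h13 : c₁ * √t / (1 + c₁) ≤ 1 - q := by
          have h14 : (1 + c₁ * √t)⁻¹ = 1 - c₁ * √t / (1 + c₁ * √t) := by
            field_simp; ring
          have h15 : c₁ * √t / (1 + c₁) ≤ c₁ * √t / (1 + c₁ * √t) := by
            apply div_le_div_of_nonneg_left (by positivity) (by positivity)
            nlinarith
          linarith
        rw [inv_le_comm₀ (by linarith) (by positivity)]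
        refine le_trans (le_of_eq ?_) h13
        rw [inv_div]
    _ = 3 / 2 * C₁ * ((1 + c₁) / c₁) / √t * Real.exp (-(c₁ * √t * h)) := by
        rw [hq, ← Real.exp_nat_mul]
        have : Real.exp ((h : ℝ) * -(c₁ * √t)) = Real.exp (-(c₁ * √t * h)) := by
          congr 1; ring
        rw [this]
        field_simp

end Vale.Agent.P161C
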