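import Vale.Agent.Lib.P161C.Scalar

/-!
P161 critical, module PCS ((7.1) of notes/P161crit/proof.md).  Uses SCALAR (slopes) only.
-/

open Finset MeasureTheory

namespace Vale.Agent.P161C
open Vale.Agent.P161

/-! ### (7.1) products of slopes -/

private lemma abs_prod_sub_prod_le {ι : Type*} [DecidableEq ι] (s : Finset ι) (a b w : ι → ℝ)
    (ha0 : ∀ i, 0 ≤ a i) (hb0 : ∀ i, 0 ≤ b i) (ha : ∀ i, a i ≤ w i) (hb : ∀ i, b i ≤ w i) :
    |∏ i ∈ s, a i - ∏ i ∈ s, b i| ≤ ∑ j ∈ s, |a j - b j| * ∏ i ∈ s.erase j, w i := by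
  induction s using Finset.induction_on with
  | empty => simp
  | insert x s hx ih =>
    rw [prod_insert hx, prod_insert hx, sum_insert hx, erase_insert hx]
    have hw0 : 0 ≤ w x := (ha0 x).trans (ha x)
    have e : a x * ∏ i ∈ s, a i - b x * ∏ i ∈ s, b i =
        (a x - b x) * ∏ i ∈ s, a i + b x * (∏ i ∈ s, a i - ∏ i ∈ s, b i) := by ring
    rw [e]
    have h1 : |(a x - b x) * ∏ i ∈ s, a i| ≤ |a x - b x| * ∏ i ∈ s, w i := by
      rw [abs_mul, abs_of_nonneg (prod_nonneg fun i _ => ha0 i)]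
      exact mul_le_mul_of_nonneg_left (prod_le_prod (fun i _ => ha0 i) fun i _ => ha i)
        (abs_nonneg _)
    have h2 : |b x * (∏ i ∈ s, a i - ∏ i ∈ s, b i)| ≤
        ∑ j ∈ s, |a j - b j| * ∏ i ∈ (insert x s).erase j, w i := by
      rw [abs_mul, abs_of_nonneg (hb0 x)]
      calc b x * |∏ i ∈ s, a i - ∏ i ∈ s, b i|
          ≤ w x * ∑ j ∈ s, |a j - b j| * ∏ i ∈ s.erase j, w i :=
            mul_le_mul (hb x) ih (abs_nonneg _) hw0
        _ = ∑ j ∈ s, |a j - b j| * ∏ i ∈ (insert x s).erase j, w i := by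
            rw [mul_sum]
            apply sum_congr rfl
            intro j hj
            have hjx : j ≠ x := fun h => hx (h ▸ hj)
            rw [erase_insert_of_ne hjx.symm, prod_insert (fun h => hx (mem_of_mem_erase h))]
            ring
    exact (abs_add_le _ _).trans (add_le_add h1 h2)

/-- (PCS).  `C = 300`. -/
theorem pcs {ι : Type*} [DecidableEq ι] (s : Finset ι) {θ : ℝ} (h0 : 0 ≤ θ)
    (h1 : θ ^ 2 ≤ 1 / 2) (m m' : ι → ℝ) (hm : ∀ i, |m i| ≤ 1) (hm' : ∀ i, |m' i| ≤ 1) :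
    (∏ i ∈ s, slope θ (m i) - ∏ i ∈ s, slope θ (m' i)) ^ 2 ≤
      300 * θ ^ (2 * s.card) *
        (Real.exp (-(∑ i ∈ s, m i ^ 2) / 4) + Real.exp (-(∑ i ∈ s, m' i ^ 2) / 4)) *
        ∑ i ∈ s, (m i - m' i) ^ 2 := by
  have hθ1 : θ < 1 := by nlinarith
  have ha0 : ∀ i, 0 ≤ slope θ (m i) := fun i => slope_nonneg h0 hθ1 (hm i)
  have hb0 : ∀ i, 0 ≤ slope θ (m' i) := fun i => slope_nonneg h0 hθ1 (hm' i)
  have hae : ∀ i, slope θ (m i) ≤ θ * Real.exp (-(m i ^ 2) / 2) :=
    fun i => slope_le_exp h0 h1 (hm i)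
  have hbe : ∀ i, slope θ (m' i) ≤ θ * Real.exp (-(m' i ^ 2) / 2) :=
    fun i => slope_le_exp h0 h1 (hm' i)
  set A : ℝ := ∑ i ∈ s, m i ^ 2 with hA
  set A' : ℝ := ∑ i ∈ s, m' i ^ 2 with hA'
  set Dl : ℝ := ∑ i ∈ s, (m i - m' i) ^ 2 with hDl
  have hA0 : 0 ≤ A := sum_nonneg fun i _ => sq_nonneg _
  have hA0' : 0 ≤ A' := sum_nonneg fun i _ => sq_nonneg _
  have hDl0 : 0 ≤ Dl := sum_nonneg fun i _ => sq_nonneg _
  have hpow : θ ^ (2 * s.card) = (θ ^ s.card) ^ 2 := by rw [← pow_mul]; ring_nf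
  have hθk : 0 ≤ θ ^ s.card := pow_nonneg h0 _
  rcases le_or_gt 1 Dl with hD1 | hD1
  · -- large difference
    have hprod : ∀ f : ι → ℝ, (∀ i, |f i| ≤ 1) →
        (∏ i ∈ s, slope θ (f i)) ^ 2 ≤ θ ^ (2 * s.card) * Real.exp (-(∑ i ∈ s, f i ^ 2) / 4) := by
      intro f hf
      have k1 : ∏ i ∈ s, slope θ (f i) ≤ ∏ i ∈ s, (θ * Real.exp (-(f i ^ 2) / 2)) :=
        prod_le_prod (fun i _ => slope_nonneg h0 hθ1 (hf i))
          fun i _ => slope_le_exp h0 h1 (hf i)
      have k2 : ∏ i ∈ s, (θ * Real.exp (-(f i ^ 2) / 2)) =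
          θ ^ s.card * Real.exp (-(∑ i ∈ s, f i ^ 2) / 2) := by
        rw [prod_mul_distrib, prod_const, ← Real.exp_sum]
        congr 2
        rw [neg_div, sum_div, ← sum_neg_distrib]
        exact sum_congr rfl fun i _ => by ring
      have k3 : 0 ≤ ∏ i ∈ s, slope θ (f i) := prod_nonneg fun i _ => slope_nonneg h0 hθ1 (hf i)
      calc (∏ i ∈ s, slope θ (f i)) ^ 2
          ≤ (θ ^ s.card * Real.exp (-(∑ i ∈ s, f i ^ 2) / 2)) ^ 2 :=
            pow_le_pow_left₀ k3 (k1.trans k2.le) 2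
        _ = θ ^ (2 * s.card) * Real.exp (-(∑ i ∈ s, f i ^ 2)) := by
            rw [mul_pow, ← hpow, ← Real.exp_nat_mul]
            congr 2
            push_cast; ring
        _ ≤ θ ^ (2 * s.card) * Real.exp (-(∑ i ∈ s, f i ^ 2) / 4) := by
            apply mul_le_mul_of_nonneg_left _ (pow_nonneg h0 _)
            apply Real.exp_le_exp.mpr
            have : 0 ≤ ∑ i ∈ s, f i ^ 2 := sum_nonneg fun i _ => sq_nonneg _
            linarith
    have p1 := hprod m hm
    have p2 := hprod m' hm'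
    have q1 : 0 ≤ ∏ i ∈ s, slope θ (m i) := prod_nonneg fun i _ => ha0 i
    have q2 : 0 ≤ ∏ i ∈ s, slope θ (m' i) := prod_nonneg fun i _ => hb0 i
    have q3 : 0 ≤ θ ^ (2 * s.card) *
        (Real.exp (-A / 4) + Real.exp (-A' / 4)) := by positivity
    calc (∏ i ∈ s, slope θ (m i) - ∏ i ∈ s, slope θ (m' i)) ^ 2
        ≤ (∏ i ∈ s, slope θ (m i)) ^ 2 + (∏ i ∈ s, slope θ (m' i)) ^ 2 := by nlinarith
      _ ≤ θ ^ (2 * s.card) * (Real.exp (-A / 4) + Real.exp (-A' / 4)) := by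
          rw [mul_add]; exact add_le_add p1 p2
      _ ≤ 300 * θ ^ (2 * s.card) * (Real.exp (-A / 4) + Real.exp (-A' / 4)) * Dl := by
          nlinarith
  · -- small difference
    set w : ι → ℝ := fun i => θ * Real.exp (-(m i ^ 2) / 4 + (m i - m' i) ^ 2 / 2) with hw
    have haw : ∀ i, slope θ (m i) ≤ w i := by
      intro i
      refine (hae i).trans (mul_le_mul_of_nonneg_left (Real.exp_le_exp.mpr ?_) h0)
      nlinarith [sq_nonneg (m i), sq_nonneg (m i - m' i)]
    have hbw : ∀ i, slope θ (m' i) ≤ w i := by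
      intro i
      refine (hbe i).trans (mul_le_mul_of_nonneg_left (Real.exp_le_exp.mpr ?_) h0)
      nlinarith [sq_nonneg (m i - 2 * m' i)]
    have key := abs_prod_sub_prod_le s (fun i => slope θ (m i)) (fun i => slope θ (m' i)) w
      ha0 hb0 haw hbw
    set c : ℝ := θ ^ s.card * Real.exp (-A / 4 + 3 / 4) with hc
    have hc0 : 0 ≤ c := by positivity
    have hterm : ∀ j ∈ s, |slope θ (m j) - slope θ (m' j)| * ∏ i ∈ s.erase j, w i ≤
        c * (2 * (|m j + m' j| * |m j - m' j|)) := by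
      intro j hj
      have t1 := abs_slope_sub_le h0 h1 (hm j) (hm' j)
      have t2 : θ * ∏ i ∈ s.erase j, w i ≤ c := by
        have e1 : ∏ i ∈ s.erase j, w i = θ ^ (s.card - 1) *
            Real.exp (∑ i ∈ s.erase j, (-(m i ^ 2) / 4 + (m i - m' i) ^ 2 / 2)) := by
          rw [hw, prod_mul_distrib, prod_const, card_erase_of_mem hj, ← Real.exp_sum]
        have e2 : θ * θ ^ (s.card - 1) = θ ^ s.card := by
          rw [← pow_succ']
          congr 1
          have := card_pos.mpr ⟨j, hj⟩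
          omega
        rw [e1, ← mul_assoc, e2, hc]
        apply mul_le_mul_of_nonneg_left _ hθk
        apply Real.exp_le_exp.mpr
        have e3 : ∑ i ∈ s.erase j, (-(m i ^ 2) / 4 + (m i - m' i) ^ 2 / 2) =
            -(A - m j ^ 2) / 4 + (Dl - (m j - m' j) ^ 2) / 2 := by
          rw [sum_add_distrib, ← sum_div, ← sum_div, sum_neg_distrib]
          have u1 : ∑ i ∈ s.erase j, m i ^ 2 = A - m j ^ 2 := by
            rw [hA, ← add_sum_erase s _ hj]; ring
          have u2 : ∑ i ∈ s.erase j, (m i - m' i) ^ 2 = Dl - (m j - m' j) ^ 2 := by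
            rw [hDl, ← add_sum_erase s _ hj]; ring
          rw [u1, u2]
        rw [e3]
        have : m j ^ 2 ≤ 1 := by
          have := hm j
          rw [abs_le] at this
          nlinarith
        nlinarith [sq_nonneg (m j - m' j)]
      have t3 : 0 ≤ ∏ i ∈ s.erase j, w i := prod_nonneg fun i _ => (ha0 i).trans (haw i)
      calc |slope θ (m j) - slope θ (m' j)| * ∏ i ∈ s.erase j, w i
          ≤ 2 * θ * (|m j + m' j| * |m j - m' j|) * ∏ i ∈ s.erase j, w i :=
            mul_le_mul_of_nonneg_right t1 t3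
        _ = (θ * ∏ i ∈ s.erase j, w i) * (2 * (|m j + m' j| * |m j - m' j|)) := by ring
        _ ≤ c * (2 * (|m j + m' j| * |m j - m' j|)) :=
            mul_le_mul_of_nonneg_right t2 (by positivity)
    have key2 : |∏ i ∈ s, slope θ (m i) - ∏ i ∈ s, slope θ (m' i)| ≤
        2 * c * ∑ j ∈ s, |m j + m' j| * |m j - m' j| := by
      refine (key.trans (sum_le_sum hterm)).trans (le_of_eq ?_)
      rw [mul_sum]
      exact sum_congr rfl fun j _ => by ring
    have hcs : (∑ j ∈ s, |m j + m' j| * |m j - m' j|) ^ 2 ≤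
        (∑ j ∈ s, (m j + m' j) ^ 2) * Dl := by
      have := sum_mul_sq_le_sq_mul_sq s (fun j => |m j + m' j|) (fun j => |m j - m' j|)
      simpa only [sq_abs] using this
    have hsum : ∑ j ∈ s, (m j + m' j) ^ 2 ≤ 8 * A + 2 * Dl := by
      rw [hA, hDl, mul_sum, mul_sum, ← sum_add_distrib]
      apply sum_le_sum
      intro j _
      nlinarith [sq_nonneg (2 * m j + (m j - m' j))]
    have hfin : 4 * (Real.exp (-A / 4 + 3 / 4)) ^ 2 * (8 * A + 2 * Dl) ≤
        300 * Real.exp (-A / 4) := by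
      have g1 : 8 * A + 2 * Dl ≤ 32 * Real.exp (A / 4 - 15 / 16) := by
        have := Real.add_one_le_exp (A / 4 - 15 / 16)
        nlinarith
      have g2 : Real.exp (9 / 16) ≤ 16 / 7 := by
        have h := Real.add_one_le_exp (-(9 / 16 : ℝ))
        rw [Real.exp_neg] at h
        have hp := Real.exp_pos (9 / 16 : ℝ)
        have : (7 / 16 : ℝ) ≤ (Real.exp (9 / 16))⁻¹ := by linarith
        rw [le_inv_comm₀ (by norm_num) hp] at this
        norm_num at this
        exact this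
      have g3 : (Real.exp (-A / 4 + 3 / 4)) ^ 2 * Real.exp (A / 4 - 15 / 16) =
          Real.exp (-A / 4) * Real.exp (9 / 16) := by
        rw [← Real.exp_nat_mul, ← Real.exp_add, ← Real.exp_add]
        congr 1
        push_cast; ring
      have g4 : 0 < Real.exp (-A / 4) := Real.exp_pos _
      calc 4 * (Real.exp (-A / 4 + 3 / 4)) ^ 2 * (8 * A + 2 * Dl)
          ≤ 4 * (Real.exp (-A / 4 + 3 / 4)) ^ 2 * (32 * Real.exp (A / 4 - 15 / 16)) :=
            mul_le_mul_of_nonneg_left g1 (by positivity)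
        _ = 128 * ((Real.exp (-A / 4 + 3 / 4)) ^ 2 * Real.exp (A / 4 - 15 / 16)) := by ring
        _ = 128 * (Real.exp (-A / 4) * Real.exp (9 / 16)) := by rw [g3]
        _ ≤ 300 * Real.exp (-A / 4) := by nlinarith
    have hnn : 0 ≤ ∑ j ∈ s, |m j + m' j| * |m j - m' j| :=
      sum_nonneg fun j _ => by positivity
    calc (∏ i ∈ s, slope θ (m i) - ∏ i ∈ s, slope θ (m' i)) ^ 2
        = |∏ i ∈ s, slope θ (m i) - ∏ i ∈ s, slope θ (m' i)| ^ 2 := (sq_abs _).symm
      _ ≤ (2 * c * ∑ j ∈ s, |m j + m' j| * |m j - m' j|) ^ 2 :=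
          pow_le_pow_left₀ (abs_nonneg _) key2 2
      _ = 4 * c ^ 2 * (∑ j ∈ s, |m j + m' j| * |m j - m' j|) ^ 2 := by ring
      _ ≤ 4 * c ^ 2 * ((∑ j ∈ s, (m j + m' j) ^ 2) * Dl) :=
          mul_le_mul_of_nonneg_left hcs (by positivity)
      _ ≤ 4 * c ^ 2 * ((8 * A + 2 * Dl) * Dl) := by
          apply mul_le_mul_of_nonneg_left _ (by positivity)
          exact mul_le_mul_of_nonneg_right hsum hDl0
      _ = θ ^ (2 * s.card) * (4 * (Real.exp (-A / 4 + 3 / 4)) ^ 2 * (8 * A + 2 * Dl)) * Dl := by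
          rw [hc, mul_pow, hpow]; ring
      _ ≤ θ ^ (2 * s.card) * (300 * Real.exp (-A / 4)) * Dl := by
          apply mul_le_mul_of_nonneg_right _ hDl0
          exact mul_le_mul_of_nonneg_left hfin (pow_nonneg h0 _)
      _ ≤ 300 * θ ^ (2 * s.card) * (Real.exp (-A / 4) + Real.exp (-A' / 4)) * Dl := by
          have : 0 ≤ 300 * θ ^ (2 * s.card) * Real.exp (-A' / 4) * Dl := by positivity
          nlinarith

end Vale.Agent.P161C
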