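import Vale.Agent.Lib.P161C.RootedB
import Vale.Agent.Lib.P161C.Pcs

/-!
P161 critical, module STEPB-1 (section 8 of notes/P161crit/proof.md): the pointwise inequalities
used in estimate B.  `D, D'` contain the ball of radius `h+1` about `x`; `p, p'` are admissible.
Uses ROOTED, SCALAR (`pcs`, `slope_sq_le_exp`).
-/

open Finset MeasureTheory

namespace Vale.Agent.P161C
open Vale.Agent.P161

variable {V : Type*} [DecidableEq V] {G : SimpleGraph V} [DecidableRel G.Adj] [G.LocallyFinite]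
  {b : ℕ} {β : ℝ} {D D' : Finset V} {x : V} {h : ℕ}

private lemma crit_tanh (hC : Crit G b β) : 0 ≤ Real.tanh β ∧ Real.tanh β ^ 2 ≤ 1 / 2 ∧
    Real.tanh β < 1 := by
  have h0 := tanh_nonneg hC.hβ
  have hb : (2 : ℝ) ≤ b := by exact_mod_cast hC.hb
  have hcr := hC.crit
  refine ⟨h0, by nlinarith [sq_nonneg (Real.tanh β)], Real.tanh_lt_one β⟩

private lemma filter_eq_bal (hG : G.Connected) (hx : bal G x h ⊆ D) :
    D.filter (fun u => G.dist x u ≤ h) = bal G x h := by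
  ext u
  rw [mem_filter, mem_bal hG]
  exact ⟨fun h => h.2, fun hu => ⟨hx ((mem_bal hG).mpr hu), hu⟩⟩

private lemma root_mem (hG : G.Connected) (hx : bal G x h ⊆ D) : x ∈ D :=
  hx ((mem_bal hG).mpr (by rw [SimpleGraph.dist_self]; omega))

omit [G.LocallyFinite] in
/-- `∏ θ² e^{-m²/4} = θ^{2 dist} e^{-A/4}`. -/
private lemma prod_f_eq (hG : G.IsTree) (hD : Cvx G D) {j u : V} (hj : j ∈ D) (hu : u ∈ D)
    (p : V → ℝ) (c : ℝ) :
    ∏ k ∈ pth G D j u, (Real.tanh β ^ 2 * Real.exp (-(ms G β D x p k ^ 2) / c)) =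
      Real.tanh β ^ (2 * G.dist j u) *
        Real.exp (-(∑ k ∈ pth G D j u, ms G β D x p k ^ 2) / c) := by
  rw [prod_mul_distrib, prod_const, card_pth hG hD hj hu, ← pow_mul, ← Real.exp_sum]
  congr 2
  rw [neg_div, sum_div, ← sum_neg_distrib]
  exact sum_congr rfl fun i _ => by ring

omit [G.LocallyFinite] in
private lemma abs_ms_le (D : Finset V) (x : V) (p : V → ℝ) (i : V) :
    |ms G β D x p i| ≤ 1 := abs_mag_le i

/-- `∑_{u ∈ bal x h} ∏ slope² ≤ Q_h(x)`. -/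
lemma sum_w_sq_le (hC : Crit G b β) (hD : Cvx G D) (hx : bal G x h ⊆ D) (p : V → ℝ) :
    ∑ u ∈ bal G x h, (∏ i ∈ pth G D x u, slope (Real.tanh β) (ms G β D x p i)) ^ 2 ≤
      Qf G β D x h x p := by
  have hG := hC.tree
  obtain ⟨h0, h1, hlt⟩ := crit_tanh hC
  have hxD := root_mem hG.connected hx
  rw [Qf_eq_sum hG hD hxD hxD, br_self, filter_eq_bal hG.connected hx]
  apply sum_le_sum
  intro u _
  rw [← prod_pow]
  apply prod_le_prod (fun i _ => sq_nonneg _)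
  intro i _
  refine (slope_sq_le_exp h0 h1 (abs_ms_le D x p i)).trans ?_
  apply mul_le_mul_of_nonneg_left _ (sq_nonneg _)
  apply Real.exp_le_exp.mpr
  nlinarith [sq_nonneg (ms G β D x p i)]

omit [DecidableEq V] [DecidableRel G.Adj] [G.LocallyFinite] in
private lemma geo_lt (hG : G.IsTree) {x i k u : V} (hi : G.dist x i + G.dist i u = G.dist x u)
    (hk : G.dist x k + G.dist k u = G.dist x u) (hlt : G.dist x k ≤ G.dist x i) :
    G.dist x k + G.dist k i = G.dist x i := by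
  obtain ⟨k', ⟨h1, h2⟩, _⟩ := geo_exists hG x i hlt
  have hm := (geo_mid hG h2 hi).1
  have hle : G.dist x k ≤ G.dist x u := by omega
  obtain ⟨z, _, hz⟩ := geo_exists hG x u hle
  have e1 := hz k' ⟨h1, hm⟩
  have e2 := hz k ⟨rfl, hk⟩
  have : k' = k := e1.trans e2.symm
  subst this
  exact h2

omit [DecidableEq V] [DecidableRel G.Adj] [G.LocallyFinite] in
private lemma geo_ge (hG : G.IsTree) {x i k u : V} (hi : G.dist x i + G.dist i u = G.dist x u)
    (hk : G.dist x k + G.dist k u = G.dist x u) (hlt : G.dist x i ≤ G.dist x k) :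
    G.dist i k + G.dist k u = G.dist i u := by
  have e := geo_lt hG hk hi hlt
  omega

omit [G.LocallyFinite] in
private lemma pth_split (hG : G.IsTree) {i u : V} (hi : G.dist x i + G.dist i u = G.dist x u) :
    pth G D x u = pth G D x i ∪ pth G D i u ∧ Disjoint (pth G D x i) (pth G D i u) := by
  constructor
  · ext k
    rw [mem_union, mem_pth, mem_pth, mem_pth]
    constructor
    · rintro ⟨hkD, hkx, hk⟩
      rcases le_or_gt (G.dist x k) (G.dist x i) with hle | hlt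
      · left; exact ⟨hkD, hkx, geo_lt hG hi hk hle⟩
      · right
        refine ⟨hkD, ?_, geo_ge hG hi hk hlt.le⟩
        rintro rfl; omega
    · rintro (⟨hkD, hkx, hk⟩ | ⟨hkD, hki, hk⟩)
      · exact ⟨hkD, hkx, (geo_mid hG hk hi).1⟩
      · have t1 := hG.connected.dist_triangle (u := x) (v := i) (w := k)
        have t2 := hG.connected.dist_triangle (u := x) (v := k) (w := u)
        refine ⟨hkD, ?_, by omega⟩
        rintro rfl
        rw [SimpleGraph.dist_self] at t1 t2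
        have c := G.dist_comm (u := k) (v := i)
        have : G.dist k i = 0 := by omega
        exact hki ((hG.connected.dist_eq_zero_iff).mp this)
  · rw [Finset.disjoint_left]
    intro k hk hk'
    rw [mem_pth] at hk hk'
    have c := G.dist_comm (u := k) (v := i)
    have t2 := hG.connected.dist_triangle (u := x) (v := k) (w := u)
    have : G.dist k i = 0 := by omega
    exact hk'.2.1 ((hG.connected.dist_eq_zero_iff).mp this)

/-- Interchange of sums: for nonnegative `g`,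
`∑_{u ∈ bal x h} θ^{2 dist} e^{-A(u)/4} ∑_{i ∈ pth x u} g i
   = ∑_{i ∈ bal x h, i ≠ x} θ^{2 dist(x,i)} g i e^{-A(i)/4} Q_{h - dist(x,i)}(i)`. -/
lemma sum_exchange (hC : Crit G b β) (hD : Cvx G D) (hx : bal G x h ⊆ D) (p : V → ℝ)
    (g : V → ℝ) :
    ∑ u ∈ bal G x h, Real.tanh β ^ (2 * G.dist x u) * Real.exp (-(Ac G β D x u p) / 4) *
        ∑ i ∈ pth G D x u, g i =
      ∑ i ∈ (bal G x h).erase x, Real.tanh β ^ (2 * G.dist x i) * (g i *
        (Real.exp (-(Ac G β D x i p) / 4) * Qf G β D x (h - G.dist x i) i p)) := by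
  have hG := hC.tree
  have hxD := root_mem hG.connected hx
  simp_rw [mul_sum]
  rw [sum_comm' (t' := (bal G x h).erase x)
    (s' := fun i => (br G D x i).filter (fun u => G.dist i u ≤ h - G.dist x i))]
  · apply sum_congr rfl
    intro i hi
    rw [mem_erase, mem_bal hG.connected] at hi
    have hiD : i ∈ D := hx ((mem_bal hG.connected).mpr hi.2)
    rw [Qf_eq_sum hG hD hxD hiD, mul_sum, mul_sum, mul_sum]
    apply sum_congr rfl
    intro u hu
    rw [mem_filter, mem_br] at hu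
    rw [prod_f_eq hG hD hiD hu.1.1 p 4]
    obtain ⟨s1, s2⟩ := pth_split (D := D) hG hu.1.2
    have e1 : Ac G β D x u p = Ac G β D x i p + ∑ k ∈ pth G D i u, ms G β D x p k ^ 2 := by
      unfold Ac
      rw [s1, sum_union s2]
    rw [e1, ← hu.1.2, mul_add, pow_add, neg_add, add_div, Real.exp_add]
    ring
  · intro u i
    rw [mem_bal hG.connected, mem_pth, mem_filter, mem_br, mem_erase, mem_bal hG.connected]
    constructor
    · rintro ⟨h1, h2, h3, h4⟩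
      have huD : u ∈ D := hx ((mem_bal hG.connected).mpr h1)
      exact ⟨⟨⟨huD, h4⟩, by omega⟩, h3, by omega⟩
    · rintro ⟨⟨⟨h1, h2⟩, h3⟩, h4, h5⟩
      exact ⟨by omega, hx ((mem_bal hG.connected).mpr h5), h4, h2⟩

private lemma pth_eq_of_bal (hG : G.Connected) (hx : bal G x h ⊆ D) (hx' : bal G x h ⊆ D')
    {u : V} (hu : u ∈ bal G x h) : pth G D x u = pth G D' x u := by
  rw [mem_bal hG] at hu
  ext i
  rw [mem_pth, mem_pth]
  constructor
  · rintro ⟨_, h2, h3⟩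
    exact ⟨hx' ((mem_bal hG).mpr (by omega)), h2, h3⟩
  · rintro ⟨_, h2, h3⟩
    exact ⟨hx ((mem_bal hG).mpr (by omega)), h2, h3⟩

private lemma bal_mono' (hG : G.Connected) : bal G x h ⊆ bal G x (h + 1) := by
  intro u hu
  rw [mem_bal hG] at hu ⊢
  omega

/-- Pointwise form of (8.1). -/
theorem near_pointwise (hC : Crit G b β) (hD : Cvx G D) (hD' : Cvx G D')
    (hx : bal G x (h + 1) ⊆ D) (hx' : bal G x (h + 1) ⊆ D') (p p' : V → ℝ) :
    ∑ u ∈ bal G x h, (cv G β D p x u - cv G β D' p' x u) ^ 2 ≤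
      8 * (mg G β D p x - mg G β D' p' x) ^ 2 * Qf G β D x h x p +
      600 * ∑ i ∈ (bal G x h).erase x, Real.tanh β ^ (2 * G.dist x i) *
        ((ms G β D x p i - ms G β D' x p' i) ^ 2 *
          (Real.exp (-(Ac G β D x i p) / 4) * Qf G β D x (h - G.dist x i) i p) +
        (ms G β D x p i - ms G β D' x p' i) ^ 2 *
          (Real.exp (-(Ac G β D' x i p') / 4) * Qf G β D' x (h - G.dist x i) i p')) := by
  have hG := hC.tree
  obtain ⟨h0, h1, hlt⟩ := crit_tanh hC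
  have hb := (bal_mono' (x := x) (h := h) hG.connected).trans hx
  have hb' := (bal_mono' (x := x) (h := h) hG.connected).trans hx'
  have hxD := root_mem hG.connected hb
  have hxD' := root_mem hG.connected hb'
  set M := mg G β D p x with hM
  set M' := mg G β D' p' x with hM'
  have hM1 : |M| ≤ 1 := abs_mag_le x
  have hM1' : |M'| ≤ 1 := abs_mag_le x
  have hterm : ∀ u ∈ bal G x h, (cv G β D p x u - cv G β D' p' x u) ^ 2 ≤
      8 * (M - M') ^ 2 *
        (∏ i ∈ pth G D x u, slope (Real.tanh β) (ms G β D x p i)) ^ 2 +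
      600 * (Real.tanh β ^ (2 * G.dist x u) * Real.exp (-(Ac G β D x u p) / 4) *
        ∑ i ∈ pth G D x u, (ms G β D x p i - ms G β D' x p' i) ^ 2 +
        Real.tanh β ^ (2 * G.dist x u) * Real.exp (-(Ac G β D' x u p') / 4) *
        ∑ i ∈ pth G D' x u, (ms G β D x p i - ms G β D' x p' i) ^ 2) := by
    intro u hu
    have huD := hb hu
    have huD' := hb' hu
    have hpe := pth_eq_of_bal hG.connected hb hb' hu
    rw [cv_eq_prod hG hD hxD huD, cv_eq_prod hG hD' hxD' huD', ← hpe]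
    have hAc' : Ac G β D' x u p' = ∑ i ∈ pth G D x u, ms G β D' x p' i ^ 2 := by
      unfold Ac; rw [hpe]
    have hp := pcs (pth G D x u) h0 h1 (fun i => ms G β D x p i) (fun i => ms G β D' x p' i)
      (fun i => abs_ms_le D x p i) (fun i => abs_ms_le D' x p' i)
    rw [card_pth hG hD hxD huD] at hp
    rw [hAc']
    have hAc : Ac G β D x u p = ∑ i ∈ pth G D x u, ms G β D x p i ^ 2 := rfl
    rw [hAc]
    set w := ∏ i ∈ pth G D x u, slope (Real.tanh β) (ms G β D x p i) with hw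
    set w' := ∏ i ∈ pth G D x u, slope (Real.tanh β) (ms G β D' x p' i) with hw'
    rw [← hM, ← hM']
    have hk : (M ^ 2 - M' ^ 2) ^ 2 ≤ 4 * (M - M') ^ 2 := by
      have e : (M ^ 2 - M' ^ 2) ^ 2 = (M + M') ^ 2 * (M - M') ^ 2 := by ring
      rw [e]
      apply mul_le_mul_of_nonneg_right _ (sq_nonneg _)
      rw [abs_le] at hM1 hM1'
      nlinarith
    have hk1 : (1 - M' ^ 2) ^ 2 ≤ 1 := by
      have : M' ^ 2 ≤ 1 := by rw [abs_le] at hM1'; nlinarith
      nlinarith [sq_nonneg M']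
    have e : ((1 - M ^ 2) * w - (1 - M' ^ 2) * w') ^ 2 ≤
        2 * ((M ^ 2 - M' ^ 2) ^ 2 * w ^ 2) + 2 * ((1 - M' ^ 2) ^ 2 * (w - w') ^ 2) := by
      nlinarith [sq_nonneg ((M ^ 2 - M' ^ 2) * w + (1 - M' ^ 2) * (w - w'))]
    have e1 : (M ^ 2 - M' ^ 2) ^ 2 * w ^ 2 ≤ 4 * (M - M') ^ 2 * w ^ 2 :=
      mul_le_mul_of_nonneg_right hk (sq_nonneg _)
    have e2 : (1 - M' ^ 2) ^ 2 * (w - w') ^ 2 ≤ (w - w') ^ 2 := by
      have := mul_le_mul_of_nonneg_right hk1 (sq_nonneg (w - w'))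
      linarith
    calc ((1 - M ^ 2) * w - (1 - M' ^ 2) * w') ^ 2
        ≤ 2 * ((M ^ 2 - M' ^ 2) ^ 2 * w ^ 2) + 2 * ((1 - M' ^ 2) ^ 2 * (w - w') ^ 2) := e
      _ ≤ 2 * (4 * (M - M') ^ 2 * w ^ 2) + 2 * (w - w') ^ 2 := by linarith
      _ ≤ 2 * (4 * (M - M') ^ 2 * w ^ 2) + 2 * (300 * Real.tanh β ^ (2 * G.dist x u) *
        (Real.exp (-(∑ i ∈ pth G D x u, ms G β D x p i ^ 2) / 4) +
          Real.exp (-(∑ i ∈ pth G D x u, ms G β D' x p' i ^ 2) / 4)) *
        ∑ i ∈ pth G D x u, (ms G β D x p i - ms G β D' x p' i) ^ 2) := by linarith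
      _ = _ := by ring
  refine (sum_le_sum hterm).trans ?_
  rw [sum_add_distrib, ← mul_sum, ← mul_sum, sum_add_distrib,
    sum_exchange hC hD hb p (fun i => (ms G β D x p i - ms G β D' x p' i) ^ 2),
    sum_exchange hC hD' hb' p' (fun i => (ms G β D x p i - ms G β D' x p' i) ^ 2),
    ← sum_add_distrib]
  apply add_le_add
  · exact mul_le_mul_of_nonneg_left (sum_w_sq_le hC hD hb p) (by positivity)
  · apply le_of_eq
    congr 1
    apply sum_congr rfl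
    intro i _
    ring

/-- Pointwise bound of the covariances. -/
theorem cv_sq_pointwise (hC : Crit G b β) (hD : Cvx G D) {u : V} (hx : x ∈ D) (hu : u ∈ D)
    (p : V → ℝ) :
    cv G β D p x u ^ 2 ≤ Real.tanh β ^ (2 * G.dist x u) * Real.exp (-(Ac G β D x u p)) := by
  have hG := hC.tree
  obtain ⟨h0, h1, hlt⟩ := crit_tanh hC
  rw [cv_eq_prod hG hD hx hu, mul_pow, ← prod_pow]
  have hM1 : |mg G β D p x| ≤ 1 := abs_mag_le x
  have hk1 : (1 - mg G β D p x ^ 2) ^ 2 ≤ 1 := by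
    have : mg G β D p x ^ 2 ≤ 1 := by rw [abs_le] at hM1; nlinarith
    nlinarith [sq_nonneg (mg G β D p x)]
  have e1 : ∏ i ∈ pth G D x u, slope (Real.tanh β) (ms G β D x p i) ^ 2 ≤
      ∏ k ∈ pth G D x u, (Real.tanh β ^ 2 * Real.exp (-(ms G β D x p k ^ 2) / 1)) := by
    apply prod_le_prod (fun i _ => sq_nonneg _)
    intro i _
    rw [div_one]
    exact slope_sq_le_exp h0 h1 (abs_ms_le D x p i)
  rw [prod_f_eq hG hD hx hu p 1, div_one] at e1
  have e2 : 0 ≤ ∏ i ∈ pth G D x u, slope (Real.tanh β) (ms G β D x p i) ^ 2 :=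
    prod_nonneg fun i _ => sq_nonneg _
  calc (1 - mg G β D p x ^ 2) ^ 2 *
        ∏ i ∈ pth G D x u, slope (Real.tanh β) (ms G β D x p i) ^ 2
      ≤ 1 * ∏ i ∈ pth G D x u, slope (Real.tanh β) (ms G β D x p i) ^ 2 :=
        mul_le_mul_of_nonneg_right hk1 e2
    _ ≤ _ := by rw [one_mul]; exact e1

/-- `Sx` is at most the near part plus the far parts (`a ≤ 1/4`; `|mag| ≤ 1`). -/
theorem Sx_le {a : ℝ} (ha0 : 0 ≤ a) (ha : a ≤ 1 / 4) (hx : bal G x h ⊆ D)
    (hx' : bal G x h ⊆ D') (k k' : V → ℝ) :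
    Sx G β a D D' x k k' ≤ a ^ 2 *
      (8 * ∑ u ∈ bal G x h, (cov G β D k x u - cov G β D' k' x u) ^ 2 +
       8 * ∑ u ∈ bal G x h, cov G β D' k' x u ^ 2 * (mag G β D k u - mag G β D' k' u) ^ 2 +
       16 * ∑ u ∈ D \ bal G x h, cov G β D k x u ^ 2 +
       48 * ∑ u ∈ D' \ bal G x h, cov G β D' k' x u ^ 2) := by
  set B := bal G x h with hB
  set C : V → ℝ := fun u => cov G β D k x u with hCd
  set C' : V → ℝ := fun u => cov G β D' k' x u with hCd'
  set dm : V → ℝ := fun u => mag G β D k u - mag G β D' k' u with hdm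
  have hdm2 : ∀ u, dm u ^ 2 ≤ 4 := by
    intro u
    have k1 : |mag G β D k u| ≤ 1 := abs_mag_le u
    have k2 : |mag G β D' k' u| ≤ 1 := abs_mag_le u
    rw [abs_le] at k1 k2
    have k3 : -2 ≤ dm u := by simp only [hdm]; linarith
    have k4 : dm u ≤ 2 := by simp only [hdm]; linarith
    nlinarith
  have ha2 : a ^ 2 ≤ 1 / 16 := by nlinarith
  have ha4 : 128 * a ^ 4 ≤ 8 * a ^ 2 := by nlinarith [sq_nonneg a]
  have hBi : B ⊆ D ∩ D' := subset_inter hx hx'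
  have hsplit1 : ∀ f : V → ℝ, ∑ u ∈ D \ B, f u =
      ∑ u ∈ (D ∩ D') \ B, f u + ∑ u ∈ D \ D', f u := by
    intro f
    rw [← sum_union]
    · apply sum_congr _ fun _ _ => rfl
      ext u
      simp only [mem_sdiff, mem_union, mem_inter]
      constructor
      · rintro ⟨h1, h2⟩
        by_cases h3 : u ∈ D'
        · left; exact ⟨⟨h1, h3⟩, h2⟩
        · right; exact ⟨h1, h3⟩
      · rintro (⟨⟨h1, _⟩, h2⟩ | ⟨h1, h2⟩)
        · exact ⟨h1, h2⟩
        · exact ⟨h1, fun h3 => h2 (hx' h3)⟩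
    · rw [Finset.disjoint_left]
      intro u hu hu'
      simp only [mem_sdiff, mem_inter] at hu hu'
      exact hu'.2 hu.1.2
  have hsplit2 : ∀ f : V → ℝ, ∑ u ∈ D' \ B, f u =
      ∑ u ∈ (D ∩ D') \ B, f u + ∑ u ∈ D' \ D, f u := by
    intro f
    rw [← sum_union]
    · apply sum_congr _ fun _ _ => rfl
      ext u
      simp only [mem_sdiff, mem_union, mem_inter]
      constructor
      · rintro ⟨h1, h2⟩
        by_cases h3 : u ∈ D
        · left; exact ⟨⟨h3, h1⟩, h2⟩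
        · right; exact ⟨h1, h3⟩
      · rintro (⟨⟨_, h1⟩, h2⟩ | ⟨h1, h2⟩)
        · exact ⟨h1, h2⟩
        · exact ⟨h1, fun h3 => h2 (hx h3)⟩
    · rw [Finset.disjoint_left]
      intro u hu hu'
      simp only [mem_sdiff, mem_inter] at hu hu'
      exact hu'.2 hu.1.1
  have hI : ∑ u ∈ D ∩ D', (8 * a ^ 2 * (C u - C' u) ^ 2 + 128 * a ^ 4 * C' u ^ 2 * dm u ^ 2) =
      ∑ u ∈ (D ∩ D') \ B, (8 * a ^ 2 * (C u - C' u) ^ 2 + 128 * a ^ 4 * C' u ^ 2 * dm u ^ 2) +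
      ∑ u ∈ B, (8 * a ^ 2 * (C u - C' u) ^ 2 + 128 * a ^ 4 * C' u ^ 2 * dm u ^ 2) :=
    (sum_sdiff hBi).symm
  have hnear : ∑ u ∈ B, (8 * a ^ 2 * (C u - C' u) ^ 2 + 128 * a ^ 4 * C' u ^ 2 * dm u ^ 2) ≤
      a ^ 2 * (8 * ∑ u ∈ B, (C u - C' u) ^ 2 + 8 * ∑ u ∈ B, C' u ^ 2 * dm u ^ 2) := by
    rw [mul_sum, mul_sum, ← sum_add_distrib, mul_sum]
    apply sum_le_sum
    intro u _
    have : 0 ≤ C' u ^ 2 * dm u ^ 2 := by positivity
    nlinarith
  have hfar : ∑ u ∈ (D ∩ D') \ B,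
      (8 * a ^ 2 * (C u - C' u) ^ 2 + 128 * a ^ 4 * C' u ^ 2 * dm u ^ 2) ≤
      a ^ 2 * (16 * ∑ u ∈ (D ∩ D') \ B, C u ^ 2 + 48 * ∑ u ∈ (D ∩ D') \ B, C' u ^ 2) := by
    rw [mul_sum, mul_sum, ← sum_add_distrib, mul_sum]
    apply sum_le_sum
    intro u _
    have k1 : 128 * a ^ 4 * C' u ^ 2 * dm u ^ 2 ≤ 8 * a ^ 2 * (C' u ^ 2 * 4) := by
      have := mul_le_mul ha4 (mul_le_mul_of_nonneg_left (hdm2 u) (sq_nonneg (C' u)))
        (by positivity) (by positivity)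
      calc 128 * a ^ 4 * C' u ^ 2 * dm u ^ 2 = 128 * a ^ 4 * (C' u ^ 2 * dm u ^ 2) := by ring
        _ ≤ _ := this
    have k2 : 8 * a ^ 2 * (C u - C' u) ^ 2 ≤ 8 * a ^ 2 * (2 * C u ^ 2 + 2 * C' u ^ 2) := by
      apply mul_le_mul_of_nonneg_left _ (by positivity)
      nlinarith [sq_nonneg (C u + C' u)]
    nlinarith
  have hn1 : 0 ≤ ∑ u ∈ D \ D', C u ^ 2 := sum_nonneg fun u _ => sq_nonneg _
  have hn2 : 0 ≤ ∑ u ∈ D' \ D, C' u ^ 2 := sum_nonneg fun u _ => sq_nonneg _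
  have hSx : Sx G β a D D' x k k' =
      ∑ u ∈ D ∩ D', (8 * a ^ 2 * (C u - C' u) ^ 2 + 128 * a ^ 4 * C' u ^ 2 * dm u ^ 2) +
      4 * a ^ 2 * ∑ u ∈ D \ D', C u ^ 2 + 4 * a ^ 2 * ∑ u ∈ D' \ D, C' u ^ 2 := rfl
  rw [hSx, hI, hsplit1, hsplit2]
  have h4 : 4 * a ^ 2 * ∑ u ∈ D \ D', C u ^ 2 ≤ a ^ 2 * (16 * ∑ u ∈ D \ D', C u ^ 2) := by
    nlinarith [mul_nonneg (sq_nonneg a) hn1]
  have h5 : 4 * a ^ 2 * ∑ u ∈ D' \ D, C' u ^ 2 ≤ a ^ 2 * (48 * ∑ u ∈ D' \ D, C' u ^ 2) := by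
    nlinarith [mul_nonneg (sq_nonneg a) hn2]
  calc _ ≤ a ^ 2 * (16 * ∑ u ∈ (D ∩ D') \ B, C u ^ 2 + 48 * ∑ u ∈ (D ∩ D') \ B, C' u ^ 2) +
      a ^ 2 * (8 * ∑ u ∈ B, (C u - C' u) ^ 2 + 8 * ∑ u ∈ B, C' u ^ 2 * dm u ^ 2) +
      a ^ 2 * (16 * ∑ u ∈ D \ D', C u ^ 2) + a ^ 2 * (48 * ∑ u ∈ D' \ D, C' u ^ 2) :=
        add_le_add (add_le_add (add_le_add hfar hnear) h4) h5
    _ = _ := by ring

end Vale.Agent.P161C
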