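import Vale.Agent.Lib.P161C.Path
import Vale.Agent.Lib.P161C.Lln

/-!
P161 critical, module TAIL (section 6 of notes/P161crit/proof.md): tails of the truncated
susceptibility with exponential weights.  Uses `path_exp`, `EE_prod_indep`, ROOTED.
-/

open Finset MeasureTheory

namespace Vale.Agent.P161C
open Vale.Agent.P161

set_option linter.unusedSectionVars false

variable {V : Type*} [DecidableEq V] {G : SimpleGraph V} [DecidableRel G.Adj] [G.LocallyFinite]
  {b : ℕ} {β : ℝ} {κ : ℝ}

section Gens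

variable {D : Finset V} {x : V}

variable (G β D x) in
/-- The part of `Qf` coming from the vertices at distance exactly `n`. -/
noncomputable def tailZ : ℕ → V → (V → ℝ) → ℝ
  | 0, _, _ => 1
  | n + 1, i, p => ∑ c ∈ ch G D x i,
      Real.tanh β ^ 2 * Real.exp (-(ms G β D x p c ^ 2) / 4) * tailZ n c p

variable (G D x) in
/-- Vertices at distance `k` beyond `i`. -/
noncomputable def tailS (k : ℕ) (i : V) : Finset V := (br G D x i).filter (fun u => G.dist i u = k)

lemma tail_w (_hC : Crit G b β) (p : V → ℝ) (c : V) :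
    0 ≤ Real.tanh β ^ 2 * Real.exp (-(ms G β D x p c ^ 2) / 4) ∧
      Real.tanh β ^ 2 * Real.exp (-(ms G β D x p c ^ 2) / 4) ≤ Real.tanh β ^ 2 := by
  have h1 : Real.exp (-(ms G β D x p c ^ 2) / 4) ≤ 1 := by
    apply Real.exp_le_one_iff.2
    have := sq_nonneg (ms G β D x p c)
    linarith
  refine ⟨by positivity, ?_⟩
  have := mul_le_mul_of_nonneg_left h1 (sq_nonneg (Real.tanh β))
  linarith

lemma tailZ_nonneg (n : ℕ) (i : V) (p : V → ℝ) : 0 ≤ tailZ G β D x n i p := by
  induction n generalizing i with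
  | zero => exact zero_le_one
  | succ n ih =>
    have e : tailZ G β D x (n + 1) i p = ∑ c ∈ ch G D x i,
      Real.tanh β ^ 2 * Real.exp (-(ms G β D x p c ^ 2) / 4) * tailZ G β D x n c p := rfl
    rw [e]
    exact sum_nonneg fun c _ => mul_nonneg (by positivity) (ih c)

lemma tailZ_le_one (hC : Crit G b β) (n : ℕ) {i : V} (hi : i ≠ x) (p : V → ℝ) :
    tailZ G β D x n i p ≤ 1 := by
  induction n generalizing i with
  | zero => exact le_rfl
  | succ n ih =>
    have e : tailZ G β D x (n + 1) i p = ∑ c ∈ ch G D x i,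
      Real.tanh β ^ 2 * Real.exp (-(ms G β D x p c ^ 2) / 4) * tailZ G β D x n c p := rfl
    rw [e]
    calc _ ≤ ∑ _c ∈ ch G D x i, Real.tanh β ^ 2 * 1 :=
          sum_le_sum fun c hc => mul_le_mul (tail_w hC p c).2 (ih (lln_ch_ne hc))
            (tailZ_nonneg n c p) (sq_nonneg _)
      _ = ((ch G D x i).card : ℝ) * (Real.tanh β ^ 2 * 1) := by rw [sum_const, nsmul_eq_mul]
      _ ≤ b * (Real.tanh β ^ 2 * 1) := by
          apply mul_le_mul_of_nonneg_right _ (by positivity)
          exact_mod_cast card_ch_le hC hi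
      _ = 1 := by rw [mul_one, hC.crit]

lemma tailZ_le (hC : Crit G b β) (n : ℕ) (i : V) (p : V → ℝ) :
    tailZ G β D x n i p ≤ 3 / 2 := by
  cases n with
  | zero =>
    have : tailZ G β D x 0 i p = 1 := rfl
    rw [this]
    norm_num
  | succ n =>
    have e : tailZ G β D x (n + 1) i p = ∑ c ∈ ch G D x i,
      Real.tanh β ^ 2 * Real.exp (-(ms G β D x p c ^ 2) / 4) * tailZ G β D x n c p := rfl
    rw [e]
    calc _ ≤ ∑ _c ∈ ch G D x i, Real.tanh β ^ 2 * 1 :=
          sum_le_sum fun c hc => mul_le_mul (tail_w hC p c).2 (tailZ_le_one hC n (lln_ch_ne hc) p)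
            (tailZ_nonneg n c p) (sq_nonneg _)
      _ = ((ch G D x i).card : ℝ) * (Real.tanh β ^ 2 * 1) := by rw [sum_const, nsmul_eq_mul]
      _ ≤ (b + 1) * (Real.tanh β ^ 2 * 1) := by
          apply mul_le_mul_of_nonneg_right _ (by positivity)
          exact_mod_cast card_ch_root_le (G := G) (D := D) (x := x) (i := i) hC
      _ ≤ 3 / 2 := by
          have h1 := hC.crit
          have h2 := lln_thsq hC
          linarith

lemma Qf_eq_tailZ (n : ℕ) (i : V) (p : V → ℝ) :
    Qf G β D x n i p = ∑ m ∈ range (n + 1), tailZ G β D x m i p := by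
  induction n generalizing i with
  | zero =>
    have h1 : Qf G β D x 0 i p = 1 := rfl
    have h2 : tailZ G β D x 0 i p = 1 := rfl
    simp [h1, h2]
  | succ n ih =>
    have e : Qf G β D x (n + 1) i p = 1 + ∑ c ∈ ch G D x i,
      Real.tanh β ^ 2 * Real.exp (-(ms G β D x p c ^ 2) / 4) * Qf G β D x n c p := rfl
    rw [e, sum_range_succ' _ (n + 1), add_comm]
    have h2 : tailZ G β D x 0 i p = 1 := rfl
    rw [h2]
    congr 1
    have h3 : ∀ m, tailZ G β D x (m + 1) i p = ∑ c ∈ ch G D x i,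
      Real.tanh β ^ 2 * Real.exp (-(ms G β D x p c ^ 2) / 4) * tailZ G β D x m c p := fun m => rfl
    simp only [h3, ih, mul_sum]
    rw [sum_comm]

lemma tailZ_ev (hC : Crit G b β) (n : ℕ) (i : V) :
    EvFn (br G D x i) (tailZ G β D x n i) := by
  induction n generalizing i with
  | zero => exact lln_ev_const _ 1
  | succ n ih =>
    have e : tailZ G β D x (n + 1) i = fun p => ∑ c ∈ ch G D x i,
      Real.tanh β ^ 2 * Real.exp (-(ms G β D x p c ^ 2) / 4) * tailZ G β D x n c p := rfl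
    rw [e]
    refine lln_ev_sum _ fun c hc => ?_
    refine lln_ev_mono (ch_subset_br hC.tree hc) ?_
    refine lln_ev_mul ?_ (ih c)
    have hcD := (mem_ch.1 hc).1
    refine ⟨⟨?_, ⟨1, fun p => ?_⟩, fun p q hpq => ?_⟩, fun p => ?_⟩
    · have h1 : Measurable fun p : V → ℝ => ms G β D x p c := measurable_mg _ _
      fun_prop
    · rw [abs_of_nonneg (tail_w hC p c).1]
      have h1 := (tail_w (D := D) (x := x) hC p c).2
      have h2 := lln_thsq hC
      linarith
    · have : ms G β D x p c = ms G β D x q c := mg_congr hpq c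
      simp only [this]
    · have : ms G β D x (fun v => -p v) c = -ms G β D x p c := mg_neg (mem_br_self hcD) p
      simp only [this, neg_sq]

lemma mem_tailS {k : ℕ} {i u : V} : u ∈ tailS G D x k i ↔ u ∈ br G D x i ∧ G.dist i u = k := by
  unfold tailS; simp

lemma tailS_dist {k : ℕ} {i u : V} (hu : u ∈ tailS G D x k i) :
    u ∈ D ∧ G.dist x i + G.dist i u = G.dist x u ∧ G.dist i u = k := by
  rw [mem_tailS, mem_br] at hu
  exact ⟨hu.1.1, hu.1.2, hu.2⟩

lemma tailS_child (hG : G.IsTree) {m : ℕ} {i c u : V} (hc : c ∈ ch G D x i)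
    (hu : u ∈ tailS G D x m c) : u ∈ tailS G D x (m + 1) i := by
  rw [mem_tailS] at hu ⊢
  have h1 := ch_subset_br hG hc hu.1
  refine ⟨h1, ?_⟩
  rw [mem_br] at h1
  have h2 := (mem_br.1 hu.1).2
  have h3 := (mem_ch.1 hc).2.2
  omega

lemma tail_sum_le (hG : G.IsTree) (m : ℕ) (i : V) {f : V → ℝ} (hf : ∀ u, 0 ≤ f u) :
    ∑ c ∈ ch G D x i, ∑ u ∈ tailS G D x m c, f u ≤ ∑ u ∈ tailS G D x (m + 1) i, f u := by
  rw [← sum_biUnion]
  · apply sum_le_sum_of_subset_of_nonneg
    · intro u hu
      rw [mem_biUnion] at hu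
      obtain ⟨c, hc, hu⟩ := hu
      exact tailS_child hG hc hu
    · intro u _ _
      exact hf u
  · intro c hc c' hc' hne
    have h1 := br_disjoint (D := D) (x := x) hG hne
      (by rw [(mem_ch.1 hc).2.2, (mem_ch.1 hc').2.2])
    exact h1.mono (filter_subset _ _) (filter_subset _ _)

lemma tailZ_iter (hC : Crit G b β) (m k : ℕ) (i : V) (hi : i ∈ D) (p : V → ℝ) :
    tailZ G β D x (k + m) i p ≤
      (Real.tanh β ^ 2) ^ k * ∑ u ∈ tailS G D x k i, tailZ G β D x m u p := by
  induction k generalizing i with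
  | zero =>
    rw [zero_add, pow_zero, one_mul]
    have h1 : i ∈ tailS G D x 0 i := by
      rw [mem_tailS]
      exact ⟨mem_br_self hi, SimpleGraph.dist_self⟩
    exact single_le_sum (f := fun u => tailZ G β D x m u p) (fun u _ => tailZ_nonneg m u p) h1
  | succ k ih =>
    have e : tailZ G β D x (k + 1 + m) i p = ∑ c ∈ ch G D x i,
      Real.tanh β ^ 2 * Real.exp (-(ms G β D x p c ^ 2) / 4) * tailZ G β D x (k + m) c p := by
      rw [show k + 1 + m = (k + m) + 1 by ring]
      rfl
    rw [e]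
    calc _ ≤ ∑ c ∈ ch G D x i, Real.tanh β ^ 2 *
          ((Real.tanh β ^ 2) ^ k * ∑ u ∈ tailS G D x k c, tailZ G β D x m u p) :=
          sum_le_sum fun c hc => mul_le_mul (tail_w hC p c).2 (ih c (mem_ch.1 hc).1)
            (tailZ_nonneg _ c p) (sq_nonneg _)
      _ = (Real.tanh β ^ 2) ^ (k + 1) *
          ∑ c ∈ ch G D x i, ∑ u ∈ tailS G D x k c, tailZ G β D x m u p := by
          rw [mul_sum]
          exact sum_congr rfl fun c _ => by ring
      _ ≤ _ := mul_le_mul_of_nonneg_left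
          (tail_sum_le hC.tree k i fun u => tailZ_nonneg m u p) (by positivity)

lemma tailZ_paths (hC : Crit G b β) (hD : Cvx G D) (hx : x ∈ D) (m : ℕ) (i : V) (hi : i ∈ D)
    (p : V → ℝ) :
    tailZ G β D x m i p ≤ ∑ u ∈ tailS G D x m i, (Real.tanh β ^ 2) ^ m *
      Real.exp (-(∑ k ∈ pth G D i u, ms G β D x p k ^ 2) / 4) := by
  induction m generalizing i with
  | zero =>
    have h1 : i ∈ tailS G D x 0 i := by
      rw [mem_tailS]
      exact ⟨mem_br_self hi, SimpleGraph.dist_self⟩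
    have h2 := single_le_sum (f := fun u => (Real.tanh β ^ 2) ^ 0 *
      Real.exp (-(∑ k ∈ pth G D i u, ms G β D x p k ^ 2) / 4)) (s := tailS G D x 0 i)
      (fun u _ => by positivity) h1
    have h3 : tailZ G β D x 0 i p = 1 := rfl
    rw [h3]
    refine le_trans ?_ h2
    rw [pth_self D i hC.tree]
    simp
  | succ m ih =>
    have e : tailZ G β D x (m + 1) i p = ∑ c ∈ ch G D x i,
      Real.tanh β ^ 2 * Real.exp (-(ms G β D x p c ^ 2) / 4) * tailZ G β D x m c p := rfl
    rw [e]
    calc _ ≤ ∑ c ∈ ch G D x i, Real.tanh β ^ 2 * Real.exp (-(ms G β D x p c ^ 2) / 4) *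
          ∑ u ∈ tailS G D x m c, (Real.tanh β ^ 2) ^ m *
            Real.exp (-(∑ k ∈ pth G D c u, ms G β D x p k ^ 2) / 4) :=
          sum_le_sum fun c hc => mul_le_mul_of_nonneg_left (ih c (mem_ch.1 hc).1)
            (tail_w hC p c).1
      _ = ∑ c ∈ ch G D x i, ∑ u ∈ tailS G D x m c, (Real.tanh β ^ 2) ^ (m + 1) *
            Real.exp (-(∑ k ∈ pth G D i u, ms G β D x p k ^ 2) / 4) := by
          refine sum_congr rfl fun c hc => ?_
          rw [mul_sum]
          refine sum_congr rfl fun u hu => ?_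
          have h1 := pth_cons hC.tree hD hx hc (mem_tailS.1 hu).1
          rw [h1.1, sum_insert h1.2, neg_add, add_div, Real.exp_add]
          ring
      _ ≤ _ := tail_sum_le hC.tree m i fun u => by positivity

lemma tailS_card (hC : Crit G b β) {i : V} (k : ℕ) :
    ((tailS G D x k i).card : ℝ) ≤ 3 / 2 * (b : ℝ) ^ k := by
  by_cases h : i = x
  · subst h
    have h1 : tailS G D i k i ⊆ D.filter (fun u => G.dist i u = k) := by
      intro u hu
      have := tailS_dist hu
      rw [mem_filter]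
      exact ⟨this.1, this.2.2⟩
    have h2 := card_sphere_le (D := D) (x := i) hC k
    have h3 := card_le_card h1
    have h4 : 2 * (tailS G D i k i).card ≤ 3 * b ^ k := by omega
    have h5 : (2 : ℝ) * ((tailS G D i k i).card : ℝ) ≤ 3 * (b : ℝ) ^ k := by exact_mod_cast h4
    linarith
  · have h1 : (tailS G D x k i).card ≤ b ^ k := card_beyond_le hC h k
    have h2 : ((tailS G D x k i).card : ℝ) ≤ (b : ℝ) ^ k := by exact_mod_cast h1
    have h3 : (0 : ℝ) ≤ (b : ℝ) ^ k := by positivity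
    linarith

/-- exponential moment of the sum over the generation `k` -/
lemma tail_exp (hC : Crit G b β) {ν : Measure ℝ} (hν : IsOwn ν) (hD : Cvx G D) (i : V) {k : ℕ}
    (hk : 1 ≤ k) (m : ℕ) {q : ℝ}
    (hq : ∀ u ∈ tailS G D x k i, EE G β (fun _ => ν) D (tailZ G β D x m u) ≤ q) :
    EE G β (fun _ => ν) D (fun p => Real.exp (∑ u ∈ tailS G D x k i, tailZ G β D x m u p)) ≤
      Real.exp (43 / 25 * q * (tailS G D x k i).card) := by
  have hG := hC.tree
  have hP : IsProbabilityMeasure (PL G β (fun _ => ν) D) := isProb_PL (fun _ => hν) D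
  have hne : ∀ u ∈ tailS G D x k i, u ≠ x := by
    rintro u hu rfl
    have := tailS_dist hu
    rw [SimpleGraph.dist_self] at this
    omega
  have hev : ∀ u ∈ tailS G D x k i, EvFn (br G D x u)
      (fun p => Real.exp (tailZ G β D x m u p)) := by
    intro u hu
    have h1 := tailZ_ev (D := D) (x := x) hC m u
    refine ⟨⟨h1.meas.exp, ⟨Real.exp 1, fun p => ?_⟩, fun p q hpq => by rw [h1.dep p q hpq]⟩,
      fun p => by rw [h1.even]⟩
    rw [abs_of_pos (Real.exp_pos _)]
    exact Real.exp_le_exp.2 (tailZ_le_one hC m (hne u hu) p)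
  have h3 := EE_prod_indep (G := G) (β := β) (ν := fun _ => ν) hG (fun _ => hν) hD
    (tailS G D x k i) (fun u => br G D x u)
    (fun u _ => br_subset D x u) (fun u _ => cvx_br hG hD x u)
    (fun u hu u' hu' hne => br_disjoint hG hne (by
      have h1 := tailS_dist hu
      have h2 := tailS_dist hu'
      omega))
    (fun u p => Real.exp (tailZ G β D x m u p)) hev
  have e : (fun p => Real.exp (∑ u ∈ tailS G D x k i, tailZ G β D x m u p)) =
      fun p => ∏ u ∈ tailS G D x k i, Real.exp (tailZ G β D x m u p) := by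
    funext p
    rw [Real.exp_sum]
  rw [e, h3]
  have h4 : ∀ u ∈ tailS G D x k i, EE G β (fun _ => ν) (br G D x u)
      (fun p => Real.exp (tailZ G β D x m u p)) ≤ Real.exp (43 / 25 * q) := by
    intro u hu
    have h5 := EE_cons (G := G) (β := β) (ν := fun _ => ν) hG (fun _ => hν) hD
      (cvx_br hG hD x u) (br_subset D x u) (hev u hu).toFn
    rw [← h5]
    have h6 : EE G β (fun _ => ν) D (fun p => Real.exp (tailZ G β D x m u p)) ≤
        1 + 43 / 25 * EE G β (fun _ => ν) D (tailZ G β D x m u) := by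
      unfold EE
      have hb := lln_ev_B (tailZ_ev (G := G) (β := β) (D := D) (x := x) hC m u)
      have h7 : ∫ p, Real.exp (tailZ G β D x m u p) ∂(PL G β (fun _ => ν) D) ≤
          ∫ p, (1 + 43 / 25 * tailZ G β D x m u p) ∂(PL G β (fun _ => ν) D) := by
        apply integral_mono (lln_ev_B (hev u hu)).int
          ((LlnB.const 1).add ((LlnB.const _).mul hb)).int
        intro p
        have h8 := tailZ_nonneg (G := G) (β := β) (D := D) (x := x) m u p
        have h9 := tailZ_le_one (D := D) hC m (hne u hu) p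
        set z := tailZ G β D x m u p with hz
        -- convexity of exp
        have h10 : Real.exp z ≤ 1 + (Real.exp 1 - 1) * z := by
          have h11 := convexOn_exp.2 (Set.mem_univ (0 : ℝ)) (Set.mem_univ (1 : ℝ))
            (by linarith : (0 : ℝ) ≤ 1 - z) h8 (by ring)
          simp only [smul_eq_mul, mul_zero, mul_one, zero_add, Real.exp_zero] at h11
          linarith
        have h12 : Real.exp 1 < 2.7182818286 := Real.exp_one_lt_d9
        have h13 : (Real.exp 1 - 1) * z ≤ 43 / 25 * z := by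
          apply mul_le_mul_of_nonneg_right _ h8
          linarith
        linarith
      rw [integral_add (LlnB.const 1).int ((LlnB.const _).mul hb).int, integral_const_mul] at h7
      simpa using h7
    have h7 := hq u hu
    have h8 := Real.add_one_le_exp (43 / 25 * q)
    linarith
  calc _ ≤ ∏ _u ∈ tailS G D x k i, Real.exp (43 / 25 * q) := by
        apply prod_le_prod
        · intro u _
          exact integral_nonneg fun p => (Real.exp_pos _).le
        · exact h4
    _ = _ := by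
        rw [prod_const, ← Real.exp_nat_mul]
        congr 1
        ring

end Gens

/-! ### Numerical sums -/

lemma tail_sum_half (f : ℕ → ℝ) (hf : ∀ n, 0 ≤ f n) (N : ℕ) :
    ∑ l ∈ range N, f (l / 2) ≤ 2 * ∑ h ∈ range N, f h := by
  have h1 : ∀ N : ℕ, ∑ l ∈ range (2 * N), f (l / 2) = 2 * ∑ h ∈ range N, f h := by
    intro N
    induction N with
    | zero => simp
    | succ N ih =>
      rw [show 2 * (N + 1) = 2 * N + 1 + 1 by ring, sum_range_succ, sum_range_succ, ih,
        sum_range_succ]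
      have e1 : 2 * N / 2 = N := by omega
      have e2 : (2 * N + 1) / 2 = N := by omega
      rw [e1, e2]
      ring
  rw [← h1 N]
  apply sum_le_sum_of_subset_of_nonneg
  · intro l hl
    rw [mem_range] at hl ⊢
    omega
  · intro l _ _
    exact hf _

lemma tail_sum_arith (N : ℕ) : ∑ h ∈ range N, ((h : ℝ) + 1) / 2 ^ h ≤ 4 := by
  have h1 : ∑ h ∈ range N, ((h : ℝ) + 1) / 2 ^ h = 4 - (2 * N + 4) / 2 ^ N := by
    induction N with
    | zero => norm_num
    | succ N ih =>
      rw [sum_range_succ, ih]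
      push_cast
      rw [pow_succ]
      field_simp
      ring
  rw [h1]
  have : (0 : ℝ) ≤ (2 * N + 4) / 2 ^ N := by positivity
  linarith

lemma tail_sum_geo {y : ℝ} (hy : 0 < y) (N : ℕ) :
    ∑ h ∈ range N, Real.exp (-(y * h)) ≤ 1 + 1 / y := by
  have h0 : Real.exp (-y) < 1 := by
    have := Real.exp_lt_exp.2 (by linarith : -y < 0)
    rwa [Real.exp_zero] at this
  have e : ∀ h : ℕ, Real.exp (-(y * h)) = Real.exp (-y) ^ h := by
    intro h
    rw [← Real.exp_nat_mul]
    congr 1
    ring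
  simp only [e]
  have h1 : ∑ h ∈ range N, Real.exp (-y) ^ h ≤ (1 - Real.exp (-y))⁻¹ := by
    rw [← tsum_geometric_of_lt_one (Real.exp_pos _).le h0]
    exact (summable_geometric_of_lt_one (Real.exp_pos _).le h0).sum_le_tsum _
      (fun _ _ => pow_nonneg (Real.exp_pos _).le _)
  refine h1.trans ?_
  have h2 : Real.exp (-y) * Real.exp y = 1 := by rw [← Real.exp_add]; simp
  have h3 := Real.add_one_le_exp y
  have h4 := Real.exp_pos (-y)
  have h5 : Real.exp (-y) * (y + 1) ≤ 1 :=
    (mul_le_mul_of_nonneg_left h3 h4.le).trans h2.le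
  have h6 : 0 < 1 - Real.exp (-y) := by linarith
  rw [inv_le_iff_one_le_mul₀ h6]
  have h7 : (1 - Real.exp (-y)) ≥ y / (y + 1) := by
    rw [ge_iff_le, div_le_iff₀ (by linarith)]
    linarith
  have h8 : 1 + 1 / y = (y + 1) / y := by field_simp
  rw [h8]
  calc (1 : ℝ) = (y + 1) / y * (y / (y + 1)) := by
        have : y + 1 ≠ 0 := by linarith [hy] |> fun h : 0 < y + 1 => h.ne'
        field_simp
    _ ≤ _ := mul_le_mul_of_nonneg_left h7 (by positivity)

/-- (6.1) -/
theorem tail_Q (hC : Crit G b β) (hκ : 1 ≤ κ) : ∃ C₄ : ℝ, 1 ≤ C₄ ∧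
    ∀ (t : ℝ) (ν : Measure ℝ), 0 < t → t ≤ 1 → Scale κ t ν → ∀ (o : V) (R : ℕ) (x i : V),
      x ∈ bal G o R → i ∈ bal G o R → ∀ (n : ℕ) (L : ℝ), 2 ≤ L →
      EE G β (fun _ => ν) (bal G o R)
        (fun p => max (Qf G β (bal G o R) x n i p - C₄ * (1 / √t + Real.log L)) 0) ≤
        C₄ * Real.exp (-L) := by
  obtain ⟨C₁, c₁, hC₁, hc₁, hpath⟩ := path_exp (b := b) hC hκ
  refine ⟨6 * C₁ + 6 * C₁ / c₁ + 8, ?_, ?_⟩
  · have : 0 ≤ 6 * C₁ / c₁ := by positivity
    linarith
  intro t ν ht ht1 hν o R x i hx hi n L hL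
  have hG := hC.tree
  set D := bal G o R with hDdef
  have hD : Cvx G D := cvx_bal hG o R
  have hown : IsOwn ν := hν.toIsOwn
  have hP : IsProbabilityMeasure (PL G β (fun _ => ν) D) := isProb_PL (fun _ => hown) D
  set s := √t with hs
  have hs0 : 0 < s := Real.sqrt_pos.2 ht
  have hs1 : s ≤ 1 := by
    rw [hs]
    exact Real.sqrt_le_one.2 ht1
  have hb2 := lln_b hC
  have hbθ : ∀ k : ℕ, (b : ℝ) ^ k * (Real.tanh β ^ 2) ^ k = 1 := by
    intro k
    rw [← mul_pow, hC.crit, one_pow]
  -- means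
  have hmean : ∀ (m : ℕ) (u : V), u ∈ D → u ≠ x →
      EE G β (fun _ => ν) D (tailZ G β D x m u) ≤ C₁ * Real.exp (-(c₁ * s * m)) := by
    intro m u hu hux
    have hmsB : ∀ k, LlnB (fun p : V → ℝ => ms G β D x p k) := fun k =>
      ⟨measurable_mg _ _, 1, fun p => lln_abs_ms p k⟩
    have hB : ∀ w : V, LlnB (fun p : V → ℝ => (Real.tanh β ^ 2) ^ m *
        Real.exp (-(∑ k ∈ pth G D u w, ms G β D x p k ^ 2) / 4)) := by
      intro w
      refine (LlnB.const _).mul ⟨?_, 1, fun p => ?_⟩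
      · have h1 : Measurable fun p : V → ℝ => ∑ k ∈ pth G D u w, ms G β D x p k ^ 2 :=
          (LlnB.sum _ fun k _ => (hmsB k).sq).1
        fun_prop
      · rw [abs_of_pos (Real.exp_pos _)]
        apply Real.exp_le_one_iff.2
        have : 0 ≤ ∑ k ∈ pth G D u w, ms G β D x p k ^ 2 := sum_nonneg fun _ _ => sq_nonneg _
        linarith
    unfold EE
    calc ∫ p, tailZ G β D x m u p ∂(PL G β (fun _ => ν) D) ≤
        ∫ p, ∑ w ∈ tailS G D x m u, (Real.tanh β ^ 2) ^ m *
          Real.exp (-(∑ k ∈ pth G D u w, ms G β D x p k ^ 2) / 4) ∂(PL G β (fun _ => ν) D) :=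
          integral_mono (lln_ev_B (tailZ_ev hC m u)).int (LlnB.sum _ fun w _ => hB w).int
            (fun p => tailZ_paths hC hD hx m u hu p)
      _ = ∑ w ∈ tailS G D x m u, ∫ p, (Real.tanh β ^ 2) ^ m *
          Real.exp (-(∑ k ∈ pth G D u w, ms G β D x p k ^ 2) / 4) ∂(PL G β (fun _ => ν) D) :=
          integral_finsetSum _ fun w _ => (hB w).int
      _ ≤ ∑ _w ∈ tailS G D x m u, (Real.tanh β ^ 2) ^ m * (C₁ * Real.exp (-(c₁ * s * m))) := by
          refine sum_le_sum fun w hw => ?_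
          rw [integral_const_mul]
          apply mul_le_mul_of_nonneg_left _ (by positivity)
          have h1 := tailS_dist hw
          have h2 := hpath t ν ht ht1 hν o R x u w hx h1.1 h1.2.1
          rw [h1.2.2] at h2
          exact h2
      _ = ((tailS G D x m u).card : ℝ) *
          ((Real.tanh β ^ 2) ^ m * (C₁ * Real.exp (-(c₁ * s * m)))) := by
          rw [sum_const, nsmul_eq_mul]
      _ ≤ (b : ℝ) ^ m * ((Real.tanh β ^ 2) ^ m * (C₁ * Real.exp (-(c₁ * s * m)))) := by
          apply mul_le_mul_of_nonneg_right _ (by positivity)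
          exact_mod_cast card_beyond_le hC hux m
      _ = _ := by rw [← mul_assoc, hbθ, one_mul]
  -- the cut
  set k₁ := ⌈Real.log L / Real.log 2⌉₊ with hk₁
  have hlog2 : 0 < Real.log 2 := Real.log_pos (by norm_num)
  have hlogL : Real.log 2 ≤ Real.log L := Real.log_le_log (by norm_num) hL
  have hlog2' : (0.6931471803 : ℝ) < Real.log 2 := Real.log_two_gt_d9
  have hk₁1 : 1 ≤ k₁ := by
    rw [hk₁]
    apply Nat.one_le_iff_ne_zero.2
    exact (Nat.ceil_pos.2 (div_pos (by linarith) hlog2)).ne'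
  have hk₁L : L ≤ (2 : ℝ) ^ k₁ := by
    have h1 : Real.log L / Real.log 2 ≤ k₁ := Nat.le_ceil _
    rw [div_le_iff₀ hlog2] at h1
    rw [← Real.log_le_log_iff (by linarith) (by positivity), Real.log_pow]
    exact h1
  have hk₁u : (k₁ : ℝ) ≤ 3 * Real.log L := by
    have h1 : (k₁ : ℝ) < Real.log L / Real.log 2 + 1 :=
      Nat.ceil_lt_add_one (div_pos (by linarith) hlog2).le
    have h2 : 1 ≤ Real.log L / Real.log 2 := by rw [le_div_iff₀ hlog2]; linarith
    have h3 : Real.log L / Real.log 2 ≤ 3 / 2 * Real.log L := by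
      rw [div_le_iff₀ hlog2]
      have : 0 < Real.log L := by linarith
      nlinarith
    linarith
  -- thresholds
  set a : ℕ → ℝ := fun h => 3 * (C₁ * Real.exp (-(c₁ * s * h))) + ((h : ℝ) + 1) / 2 ^ h with ha
  have ha0 : ∀ h, 0 ≤ a h := fun h => by rw [ha]; positivity
  set X : ℕ → (V → ℝ) → ℝ := fun l p => ∑ u ∈ tailS G D x (k₁ + l / 2) i,
    tailZ G β D x (l - l / 2) u p with hX
  have hne : ∀ l, ∀ u ∈ tailS G D x (k₁ + l / 2) i, u ≠ x := by
    rintro l u hu rfl
    have := tailS_dist hu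
    rw [SimpleGraph.dist_self] at this
    omega
  have hXB : ∀ l, LlnB (X l) := fun l => LlnB.sum _ fun u _ =>
    lln_ev_B (tailZ_ev (G := G) (β := β) (D := D) (x := x) hC (l - l / 2) u)
  have hexpB : ∀ l, LlnB (fun p => 3 / 2 * Real.exp (X l p - (b : ℝ) ^ (k₁ + l / 2) * a (l / 2))) := by
    intro l
    obtain ⟨hm, C, hCb⟩ := hXB l
    refine (LlnB.const _).mul ⟨by fun_prop, Real.exp (C - (b : ℝ) ^ (k₁ + l / 2) * a (l / 2)),
      fun p => ?_⟩
    rw [abs_of_pos (Real.exp_pos _)]
    apply Real.exp_le_exp.2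
    have := (abs_le.1 (hCb p)).2
    linarith
  -- pointwise bound of one generation
  have hone : ∀ (l : ℕ) (p : V → ℝ), tailZ G β D x (k₁ + l) i p ≤ a (l / 2) +
      3 / 2 * Real.exp (X l p - (b : ℝ) ^ (k₁ + l / 2) * a (l / 2)) := by
    intro l p
    by_cases h : tailZ G β D x (k₁ + l) i p ≤ a (l / 2)
    · have := Real.exp_pos (X l p - (b : ℝ) ^ (k₁ + l / 2) * a (l / 2))
      linarith
    · rw [not_le] at h
      have h1 := tailZ_iter (x := x) hC (l - l / 2) (k₁ + l / 2) i hi p
      rw [show k₁ + l / 2 + (l - l / 2) = k₁ + l by omega] at h1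
      have h2 : (b : ℝ) ^ (k₁ + l / 2) * tailZ G β D x (k₁ + l) i p ≤ X l p := by
        calc _ ≤ (b : ℝ) ^ (k₁ + l / 2) * ((Real.tanh β ^ 2) ^ (k₁ + l / 2) * X l p) :=
              mul_le_mul_of_nonneg_left h1 (by positivity)
          _ = _ := by rw [← mul_assoc, hbθ, one_mul]
      have h3 : (b : ℝ) ^ (k₁ + l / 2) * a (l / 2) ≤
          (b : ℝ) ^ (k₁ + l / 2) * tailZ G β D x (k₁ + l) i p :=
        mul_le_mul_of_nonneg_left h.le (by positivity)
      have h4 : 1 ≤ Real.exp (X l p - (b : ℝ) ^ (k₁ + l / 2) * a (l / 2)) :=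
        Real.one_le_exp (by linarith)
      have h5 := tailZ_le (D := D) (x := x) hC (k₁ + l) i p
      have h6 := ha0 (l / 2)
      linarith
  -- the sum
  have hB : 3 / 2 * (k₁ : ℝ) + ∑ l ∈ range (n + 1), a (l / 2) ≤
      (6 * C₁ + 6 * C₁ / c₁ + 8) * (1 / s + Real.log L) := by
    have h1 := tail_sum_half a ha0 (n + 1)
    have h2 : ∑ h ∈ range (n + 1), a h ≤ 3 * (C₁ * (1 + 1 / (c₁ * s))) + 4 := by
      rw [ha]
      simp only
      rw [sum_add_distrib, ← mul_sum, ← mul_sum]
      have h3 := tail_sum_geo (mul_pos hc₁ hs0) (n + 1)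
      have h4 := tail_sum_arith (n + 1)
      have h5 := mul_le_mul_of_nonneg_left h3 (by linarith : 0 ≤ C₁)
      linarith
    have h3 : 1 ≤ 1 / s := by rw [le_div_iff₀ hs0]; linarith
    have h4 : 1 / (c₁ * s) = 1 / c₁ * (1 / s) := by field_simp
    have h5 : 0 < Real.log L := by linarith
    have h6 : 0 < 6 * C₁ / c₁ := by positivity
    have h7 : 6 * C₁ * 1 ≤ 6 * C₁ * (1 / s) := mul_le_mul_of_nonneg_left h3 (by linarith)
    rw [h4] at h2
    have h8 : 3 * (C₁ * (1 + 1 / c₁ * (1 / s))) * 2 = 6 * C₁ + 6 * C₁ / c₁ * (1 / s) := by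
      ring
    have h9 : 0 ≤ (6 * C₁ + 6 * C₁ / c₁) * Real.log L := by positivity
    nlinarith
  have hpt : ∀ p : V → ℝ, max (Qf G β D x n i p -
      (6 * C₁ + 6 * C₁ / c₁ + 8) * (1 / s + Real.log L)) 0 ≤
      ∑ l ∈ range (n + 1), 3 / 2 * Real.exp (X l p - (b : ℝ) ^ (k₁ + l / 2) * a (l / 2)) := by
    intro p
    apply max_le
    · have h1 : Qf G β D x n i p ≤ ∑ m ∈ range (k₁ + (n + 1)), tailZ G β D x m i p := by
        rw [Qf_eq_tailZ]
        apply sum_le_sum_of_subset_of_nonneg
        · intro m hm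
          rw [mem_range] at hm ⊢
          omega
        · intro m _ _
          exact tailZ_nonneg m i p
      rw [sum_range_add] at h1
      have h2 : ∑ m ∈ range k₁, tailZ G β D x m i p ≤ k₁ * (3 / 2) := by
        calc _ ≤ ∑ _m ∈ range k₁, (3 / 2 : ℝ) := sum_le_sum fun m _ => tailZ_le hC m i p
          _ = _ := by simp
      have h3 : ∑ l ∈ range (n + 1), tailZ G β D x (k₁ + l) i p ≤
          ∑ l ∈ range (n + 1), (a (l / 2) +
            3 / 2 * Real.exp (X l p - (b : ℝ) ^ (k₁ + l / 2) * a (l / 2))) :=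
        sum_le_sum fun l _ => hone l p
      rw [sum_add_distrib] at h3
      linarith
    · exact sum_nonneg fun l _ => by positivity
  have hQB : LlnB (fun p => max (Qf G β D x n i p -
      (6 * C₁ + 6 * C₁ / c₁ + 8) * (1 / s + Real.log L)) 0) := by
    have h1 : LlnB (fun p => Qf G β D x n i p -
        (6 * C₁ + 6 * C₁ / c₁ + 8) * (1 / s + Real.log L)) := by
      have e : Qf G β D x n i = fun p => ∑ m ∈ range (n + 1), tailZ G β D x m i p := by
        funext p
        exact Qf_eq_tailZ n i p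
      refine LlnB.sub ?_ (LlnB.const _)
      rw [e]
      exact LlnB.sum _ fun m _ => lln_ev_B (tailZ_ev hC m i)
    obtain ⟨hm, C, hCb⟩ := h1
    refine ⟨hm.max measurable_const, C, fun p => ?_⟩
    have h2 := hCb p
    rw [abs_of_nonneg (le_max_right _ _)]
    exact max_le ((le_abs_self _).trans h2) ((abs_nonneg _).trans h2)
  -- expectation of one term
  have hterm : ∀ l : ℕ, ∫ p, 3 / 2 * Real.exp (X l p - (b : ℝ) ^ (k₁ + l / 2) * a (l / 2))
      ∂(PL G β (fun _ => ν) D) ≤ 3 / 2 * (Real.exp (-L) * (1 / 2) ^ (l / 2)) := by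
    intro l
    set h := l / 2 with hh
    rw [integral_const_mul]
    apply mul_le_mul_of_nonneg_left _ (by norm_num)
    have e : (fun p => Real.exp (X l p - (b : ℝ) ^ (k₁ + h) * a h)) =
        fun p => Real.exp (X l p) * Real.exp (-((b : ℝ) ^ (k₁ + h) * a h)) := by
      funext p
      rw [← Real.exp_add]
      rfl
    rw [e, integral_mul_const]
    have h1 : ∫ p, Real.exp (X l p) ∂(PL G β (fun _ => ν) D) ≤
        Real.exp (43 / 25 * (C₁ * Real.exp (-(c₁ * s * h))) * (tailS G D x (k₁ + h) i).card) := by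
      have h2 := tail_exp (x := x) hC hown hD i (k := k₁ + h) (by omega) (l - h)
        (q := C₁ * Real.exp (-(c₁ * s * h))) (by
          intro u hu
          have h3 := hmean (l - h) u (tailS_dist hu).1 (hne l u hu)
          refine h3.trans ?_
          apply mul_le_mul_of_nonneg_left _ (by linarith)
          apply Real.exp_le_exp.2
          have h4 : (h : ℝ) ≤ ((l - h : ℕ) : ℝ) := by exact_mod_cast (by omega : h ≤ l - h)
          have h5 : c₁ * s * h ≤ c₁ * s * ((l - h : ℕ) : ℝ) :=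
            mul_le_mul_of_nonneg_left h4 (by positivity)
          linarith)
      exact h2
    set q := C₁ * Real.exp (-(c₁ * s * h)) with hq
    have hq0 : 0 < q := by rw [hq]; positivity
    have hcard := tailS_card (D := D) (x := x) (i := i) hC (k₁ + h)
    have hbk : L * 2 ^ h ≤ (b : ℝ) ^ (k₁ + h) := by
      rw [pow_add]
      apply mul_le_mul (hk₁L.trans (pow_le_pow_left₀ (by norm_num) hb2 _))
        (pow_le_pow_left₀ (by norm_num) hb2 _) (by positivity) (by positivity)
    have hby : L * ((h : ℝ) + 1) ≤ (b : ℝ) ^ (k₁ + h) * (((h : ℝ) + 1) / 2 ^ h) := by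
      calc L * ((h : ℝ) + 1) = (L * 2 ^ h) * (((h : ℝ) + 1) / 2 ^ h) := by field_simp
        _ ≤ _ := mul_le_mul_of_nonneg_right hbk (by positivity)
    have hexp : 43 / 25 * q * (tailS G D x (k₁ + h) i).card + -((b : ℝ) ^ (k₁ + h) * a h) ≤
        -(L * ((h : ℝ) + 1)) := by
      have h2 : a h = 3 * q + ((h : ℝ) + 1) / 2 ^ h := rfl
      rw [h2]
      have h3 : 43 / 25 * q * (tailS G D x (k₁ + h) i).card ≤
          43 / 25 * q * (3 / 2 * (b : ℝ) ^ (k₁ + h)) :=
        mul_le_mul_of_nonneg_left hcard (by positivity)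
      have h4 : 0 ≤ q * (b : ℝ) ^ (k₁ + h) := by positivity
      nlinarith
    have hlast : Real.exp (-(L * ((h : ℝ) + 1))) ≤ Real.exp (-L) * (1 / 2) ^ h := by
      have h2 : Real.exp (-(L * ((h : ℝ) + 1))) = Real.exp (-L) * Real.exp (-L) ^ h := by
        rw [← Real.exp_nat_mul, ← Real.exp_add]
        congr 1
        ring
      rw [h2]
      apply mul_le_mul_of_nonneg_left _ (Real.exp_pos _).le
      apply pow_le_pow_left₀ (Real.exp_pos _).le
      rw [Real.exp_neg]
      have h3 := Real.add_one_le_exp L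
      rw [inv_le_comm₀ (Real.exp_pos _) (by norm_num)]
      norm_num
      linarith
    calc _ ≤ Real.exp (43 / 25 * q * (tailS G D x (k₁ + h) i).card) *
          Real.exp (-((b : ℝ) ^ (k₁ + h) * a h)) :=
          mul_le_mul_of_nonneg_right h1 (Real.exp_pos _).le
      _ = Real.exp (43 / 25 * q * (tailS G D x (k₁ + h) i).card +
          -((b : ℝ) ^ (k₁ + h) * a h)) := by rw [Real.exp_add]
      _ ≤ Real.exp (-(L * ((h : ℝ) + 1))) := Real.exp_le_exp.2 hexp
      _ ≤ _ := hlast
  unfold EE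
  calc _ ≤ ∫ p, ∑ l ∈ range (n + 1), 3 / 2 *
        Real.exp (X l p - (b : ℝ) ^ (k₁ + l / 2) * a (l / 2)) ∂(PL G β (fun _ => ν) D) :=
        integral_mono hQB.int (LlnB.sum _ fun l _ => hexpB l).int hpt
    _ = ∑ l ∈ range (n + 1), ∫ p, 3 / 2 *
        Real.exp (X l p - (b : ℝ) ^ (k₁ + l / 2) * a (l / 2)) ∂(PL G β (fun _ => ν) D) :=
        integral_finsetSum _ fun l _ => (hexpB l).int
    _ ≤ ∑ l ∈ range (n + 1), 3 / 2 * (Real.exp (-L) * (1 / 2) ^ (l / 2)) :=
        sum_le_sum fun l _ => hterm l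
    _ ≤ 2 * ∑ h ∈ range (n + 1), 3 / 2 * (Real.exp (-L) * (1 / 2) ^ h) :=
        tail_sum_half (fun h => 3 / 2 * (Real.exp (-L) * (1 / 2) ^ h))
          (fun h => by positivity) (n + 1)
    _ = 3 * Real.exp (-L) * ∑ h ∈ range (n + 1), (1 / 2 : ℝ) ^ h := by
        rw [mul_sum, mul_sum]
        exact sum_congr rfl fun h _ => by ring
    _ ≤ 3 * Real.exp (-L) * 2 := by
        apply mul_le_mul_of_nonneg_left _ (by positivity)
        have h1 := (summable_geometric_of_lt_one (by norm_num : (0 : ℝ) ≤ 1 / 2)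
          (by norm_num)).sum_le_tsum (range (n + 1)) (fun _ _ => by positivity)
        rw [tsum_geometric_of_lt_one (by norm_num) (by norm_num)] at h1
        linarith
    _ ≤ (6 * C₁ + 6 * C₁ / c₁ + 8) * Real.exp (-L) := by
        have h1 := Real.exp_pos (-L)
        have h2 : 0 ≤ 6 * C₁ / c₁ := by positivity
        nlinarith

end Vale.Agent.P161C
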