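import Vale.Agent.Lib.P161C.StepB1
import Vale.Agent.Lib.P161C.Tail

/-!
P161 critical, module STEPB-2 (section 8 of notes/P161crit/proof.md): estimate B at a fixed time,
for a pair of random fields with planted laws (arbitrary coupling).
Uses PATH (`path_dev`, `far_le`), TAIL, STEPB-1, ROOTED (`ms_lip`).
-/

open Finset MeasureTheory

namespace Vale.Agent.P161C
open Vale.Agent.P161

variable {V : Type*} [DecidableEq V] {G : SimpleGraph V} [DecidableRel G.Adj] [G.LocallyFinite]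
  {b : ℕ} {β : ℝ} {κ : ℝ}

omit [G.LocallyFinite] in
/-- Transfer of bounded functionals to the planted law. -/
lemma PLaw.integral {ν : Measure ℝ} {D : Finset V} {Ω : Type*} [MeasurableSpace Ω]
    {P : Measure Ω} {p : Ω → V → ℝ} (hp : PLaw G β ν D P p) {F : (V → ℝ) → ℝ}
    (hF : Measurable F) {C : ℝ} (hb : ∀ p, |F p| ≤ C)
    (hd : ∀ p q : V → ℝ, (∀ v ∈ D, p v = q v) → F p = F q) :
    ∫ ω, F (p ω) ∂P = EE G β (fun _ => ν) D F :=
  hp.2 F ⟨hF, ⟨C, hb⟩, hd⟩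

/-! ### Measurability and bounds of the functionals -/

section Basic

omit [G.LocallyFinite]

lemma sb_ms_meas (D : Finset V) (x i : V) : Measurable (fun p => ms G β D x p i) :=
  measurable_mg _ _

lemma sb_ms_congr {D : Finset V} {x i : V} {p q : V → ℝ} (h : ∀ v ∈ D, p v = q v) :
    ms G β D x p i = ms G β D x q i :=
  mg_congr (fun v hv => h v (br_subset D x i hv)) i

lemma sb_ms_abs (D : Finset V) (x i : V) (p : V → ℝ) : |ms G β D x p i| ≤ 1 := abs_mg_le _ _ _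

lemma sb_Qf_meas (D : Finset V) (x : V) (n : ℕ) : ∀ i, Measurable (fun p => Qf G β D x n i p) := by
  induction n with
  | zero => intro i; simp only [Qf]; exact measurable_const
  | succ n ih =>
    intro i
    simp only [Qf]
    refine measurable_const.add (Finset.measurable_sum _ fun c _ => ?_)
    refine Measurable.mul ?_ (ih c)
    have := sb_ms_meas (G := G) (β := β) D x c
    fun_prop

lemma sb_Qf_congr {D : Finset V} {x : V} {p q : V → ℝ} (h : ∀ v ∈ D, p v = q v) (n : ℕ) :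
    ∀ i, Qf G β D x n i p = Qf G β D x n i q := by
  induction n with
  | zero => intro i; rfl
  | succ n ih =>
    intro i
    simp only [Qf]
    congr 1
    refine Finset.sum_congr rfl fun c _ => ?_
    rw [ih c, sb_ms_congr h]

lemma sb_Qf_nonneg (D : Finset V) (x : V) (p : V → ℝ) (n : ℕ) :
    ∀ i, 0 ≤ Qf G β D x n i p := by
  induction n with
  | zero => intro i; simp [Qf]
  | succ n ih =>
    intro i
    simp only [Qf]
    have : 0 ≤ ∑ c ∈ ch G D x i, Real.tanh β ^ 2 * Real.exp (-(ms G β D x p c ^ 2) / 4) *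
        Qf G β D x n c p := Finset.sum_nonneg fun c _ => mul_nonneg (by positivity) (ih c)
    linarith

lemma sb_tanh_sq_le (β : ℝ) : Real.tanh β ^ 2 ≤ 1 := by
  have h := Real.abs_tanh_lt_one β
  rw [← sq_abs]
  have := abs_nonneg (Real.tanh β)
  nlinarith

lemma sb_Qf_le (D : Finset V) (x : V) (p : V → ℝ) (n : ℕ) :
    ∀ i, Qf G β D x n i p ≤ (1 + D.card : ℝ) ^ n := by
  induction n with
  | zero => intro i; simp [Qf]
  | succ n ih =>
    intro i
    simp only [Qf]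
    have h1 : ∀ c ∈ ch G D x i, Real.tanh β ^ 2 * Real.exp (-(ms G β D x p c ^ 2) / 4) *
        Qf G β D x n c p ≤ (1 + D.card : ℝ) ^ n := by
      intro c _
      have h2 : Real.tanh β ^ 2 * Real.exp (-(ms G β D x p c ^ 2) / 4) ≤ 1 := by
        have h3 : Real.exp (-(ms G β D x p c ^ 2) / 4) ≤ 1 := by
          apply Real.exp_le_one_iff.2
          have := sq_nonneg (ms G β D x p c)
          linarith
        calc _ ≤ 1 * 1 := mul_le_mul (sb_tanh_sq_le β) h3 (Real.exp_pos _).le zero_le_one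
          _ = 1 := one_mul 1
      calc _ ≤ 1 * Qf G β D x n c p := mul_le_mul_of_nonneg_right h2 (sb_Qf_nonneg D x p n c)
        _ ≤ _ := by rw [one_mul]; exact ih c
    have h4 := Finset.sum_le_card_nsmul _ _ _ h1
    rw [nsmul_eq_mul] at h4
    have h5 : ((ch G D x i).card : ℝ) ≤ D.card := by
      exact_mod_cast Finset.card_le_card (Finset.filter_subset _ _)
    have h6 : (0:ℝ) ≤ (1 + D.card : ℝ) ^ n := by positivity
    have h7 : (1:ℝ) ≤ (1 + D.card : ℝ) ^ n := one_le_pow₀ (by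
      have : (0:ℝ) ≤ D.card := Nat.cast_nonneg _
      linarith)
    have h8 := mul_le_mul_of_nonneg_right h5 h6
    rw [pow_succ (1 + (D.card : ℝ)) n]
    nlinarith

lemma sb_Ac_meas (D : Finset V) (x u : V) : Measurable (fun p => Ac G β D x u p) := by
  unfold Ac
  refine Finset.measurable_sum _ fun c _ => ?_
  have := sb_ms_meas (G := G) (β := β) D x c
  fun_prop

lemma sb_Ac_congr {D : Finset V} {x u : V} {p q : V → ℝ} (h : ∀ v ∈ D, p v = q v) :
    Ac G β D x u p = Ac G β D x u q := by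
  unfold Ac
  refine Finset.sum_congr rfl fun c _ => ?_
  rw [sb_ms_congr h]

lemma sb_Ac_nonneg (D : Finset V) (x u : V) (p : V → ℝ) : 0 ≤ Ac G β D x u p :=
  Finset.sum_nonneg fun _ _ => sq_nonneg _

end Basic

/-! ### Abstract probability -/

section Abs

variable {Ω : Type*} [MeasurableSpace Ω] {P : Measure Ω} [IsProbabilityMeasure P]

lemma sb_int {f : Ω → ℝ} (hf : Measurable f) {C : ℝ} (hC : ∀ ω, |f ω| ≤ C) : Integrable f P :=
  Integrable.of_bound hf.aestronglyMeasurable C (Filter.Eventually.of_forall fun ω => by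
    rw [Real.norm_eq_abs]; exact hC ω)

lemma sb_abs {δ A Q : Ω → ℝ} (hδ : Measurable δ) (hδ2 : ∀ ω, |δ ω| ≤ 2) (hA : Measurable A)
    (hA0 : ∀ ω, 0 ≤ A ω) (hQ : Measurable Q) (hQ0 : ∀ ω, 0 ≤ Q ω) {C : ℝ} (hQC : ∀ ω, Q ω ≤ C)
    {μ α e τ Qs : ℝ} (hα : 0 ≤ α) (hQs : 0 ≤ Qs) (h1 : ∫ ω, δ ω ^ 2 ∂P ≤ μ)
    (h2 : P.real {ω | α < Real.exp (-(A ω) / 4)} ≤ e)
    (h3 : ∫ ω, max (Q ω - Qs) 0 ∂P ≤ τ) :
    ∫ ω, δ ω ^ 2 * (Real.exp (-(A ω) / 4) * Q ω) ∂P ≤ Qs * (α * μ + 4 * e) + 4 * τ := by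
  classical
  set B : Set Ω := {ω | α < Real.exp (-(A ω) / 4)} with hB
  have hBm : MeasurableSet B := measurableSet_lt measurable_const (by fun_prop)
  have hδ4 : ∀ ω, δ ω ^ 2 ≤ 4 := by
    intro ω
    rw [← sq_abs]
    have := hδ2 ω
    have := abs_nonneg (δ ω)
    nlinarith
  have hE1 : ∀ ω, Real.exp (-(A ω) / 4) ≤ 1 := by
    intro ω
    apply Real.exp_le_one_iff.2
    have := hA0 ω
    linarith
  have hpt : ∀ ω, δ ω ^ 2 * (Real.exp (-(A ω) / 4) * Q ω) ≤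
      Qs * (α * δ ω ^ 2 + 4 * B.indicator 1 ω) + 4 * max (Q ω - Qs) 0 := by
    intro ω
    have h4 : δ ω ^ 2 * Real.exp (-(A ω) / 4) ≤ α * δ ω ^ 2 + 4 * B.indicator 1 ω := by
      by_cases hω : ω ∈ B
      · rw [Set.indicator_of_mem hω, Pi.one_apply]
        have h5 : δ ω ^ 2 * Real.exp (-(A ω) / 4) ≤ 4 * 1 :=
          mul_le_mul (hδ4 ω) (hE1 ω) (Real.exp_pos _).le (by norm_num)
        have h6 : 0 ≤ α * δ ω ^ 2 := by positivity
        linarith
      · rw [Set.indicator_of_notMem hω]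
        have h5 : Real.exp (-(A ω) / 4) ≤ α := not_lt.1 hω
        have := mul_le_mul_of_nonneg_left h5 (sq_nonneg (δ ω))
        linarith
    have h7 : Q ω ≤ Qs + max (Q ω - Qs) 0 := by
      have := le_max_left (Q ω - Qs) 0
      linarith
    have h8 : 0 ≤ max (Q ω - Qs) 0 := le_max_right _ _
    have h9 : 0 ≤ δ ω ^ 2 * Real.exp (-(A ω) / 4) := by positivity
    calc δ ω ^ 2 * (Real.exp (-(A ω) / 4) * Q ω)
        = (δ ω ^ 2 * Real.exp (-(A ω) / 4)) * Q ω := by ring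
      _ ≤ (δ ω ^ 2 * Real.exp (-(A ω) / 4)) * (Qs + max (Q ω - Qs) 0) :=
          mul_le_mul_of_nonneg_left h7 h9
      _ = Qs * (δ ω ^ 2 * Real.exp (-(A ω) / 4)) +
          (δ ω ^ 2 * Real.exp (-(A ω) / 4)) * max (Q ω - Qs) 0 := by ring
      _ ≤ Qs * (α * δ ω ^ 2 + 4 * B.indicator 1 ω) + 4 * max (Q ω - Qs) 0 := by
          apply add_le_add (mul_le_mul_of_nonneg_left h4 hQs)
          apply mul_le_mul_of_nonneg_right _ h8
          calc _ ≤ 4 * 1 := mul_le_mul (hδ4 ω) (hE1 ω) (Real.exp_pos _).le (by norm_num)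
            _ = 4 := mul_one 4
  have hi1 : Integrable (fun ω => δ ω ^ 2) P := sb_int (by fun_prop) (C := 4) fun ω => by
    rw [abs_of_nonneg (sq_nonneg _)]; exact hδ4 ω
  have hi2 : Integrable (fun ω => B.indicator (1 : Ω → ℝ) ω) P :=
    (integrable_const (1:ℝ)).indicator hBm
  have hi3 : Integrable (fun ω => max (Q ω - Qs) 0) P := by
    refine sb_int (by fun_prop) (C := |C| + 0) fun ω => ?_
    rw [abs_of_nonneg (le_max_right _ _), add_zero]
    apply max_le _ (abs_nonneg _)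
    have := hQC ω
    have := le_abs_self C
    linarith
  have hi4 : Integrable (fun ω => δ ω ^ 2 * (Real.exp (-(A ω) / 4) * Q ω)) P := by
    refine sb_int (by fun_prop) (C := 4 * |C|) fun ω => ?_
    rw [abs_of_nonneg (mul_nonneg (sq_nonneg _) (mul_nonneg (Real.exp_pos _).le (hQ0 ω)))]
    apply mul_le_mul (hδ4 ω) _ (mul_nonneg (Real.exp_pos _).le (hQ0 ω)) (by norm_num)
    calc _ ≤ 1 * Q ω := mul_le_mul_of_nonneg_right (hE1 ω) (hQ0 ω)
      _ ≤ |C| := by rw [one_mul]; exact (hQC ω).trans (le_abs_self C)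
  have hi5 : Integrable (fun ω => Qs * (α * δ ω ^ 2 + 4 * B.indicator (1 : Ω → ℝ) ω)) P :=
    ((hi1.const_mul α).add (hi2.const_mul 4)).const_mul Qs
  calc ∫ ω, δ ω ^ 2 * (Real.exp (-(A ω) / 4) * Q ω) ∂P
      ≤ ∫ ω, (Qs * (α * δ ω ^ 2 + 4 * B.indicator 1 ω) + 4 * max (Q ω - Qs) 0) ∂P :=
        integral_mono hi4 (hi5.add (hi3.const_mul 4)) hpt
    _ = Qs * (α * ∫ ω, δ ω ^ 2 ∂P + 4 * P.real B) + 4 * ∫ ω, max (Q ω - Qs) 0 ∂P := by
        rw [integral_add hi5 (hi3.const_mul 4), integral_const_mul, integral_const_mul,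
          integral_add (hi1.const_mul α) (hi2.const_mul 4), integral_const_mul,
          integral_const_mul, integral_indicator_one hBm]
    _ ≤ _ := by
        gcongr

lemma sb_abs' {δ A : Ω → ℝ} (hδ : Measurable δ) (hδ2 : ∀ ω, |δ ω| ≤ 2) (hA : Measurable A)
    (hA0 : ∀ ω, 0 ≤ A ω) {μ α e : ℝ} (hα : 0 ≤ α) (h1 : ∫ ω, δ ω ^ 2 ∂P ≤ μ)
    (h2 : P.real {ω | α < Real.exp (-(A ω) / 4)} ≤ e) :
    ∫ ω, δ ω ^ 2 * Real.exp (-(A ω) / 4) ∂P ≤ α * μ + 4 * e := by
  have h := sb_abs (P := P) hδ hδ2 hA hA0 (Q := fun _ => 1) measurable_const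
    (fun _ => zero_le_one) (C := 1) (fun _ => le_refl _) (μ := μ) (α := α) (e := e) (τ := 0)
    (Qs := 1) hα zero_le_one h1 h2 (by simp)
  simpa using h

lemma sb_abs_int {δ A Q : Ω → ℝ} (hδ : Measurable δ) (hδ2 : ∀ ω, |δ ω| ≤ 2) (hA : Measurable A)
    (hA0 : ∀ ω, 0 ≤ A ω) (hQ : Measurable Q) (hQ0 : ∀ ω, 0 ≤ Q ω) {C : ℝ} (hQC : ∀ ω, Q ω ≤ C) :
    Integrable (fun ω => δ ω ^ 2 * (Real.exp (-(A ω) / 4) * Q ω)) P := by
  refine sb_int (by fun_prop) (C := 4 * |C|) fun ω => ?_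
  have hδ4 : δ ω ^ 2 ≤ 4 := by
    rw [← sq_abs]
    have := hδ2 ω
    have := abs_nonneg (δ ω)
    nlinarith
  have hE1 : Real.exp (-(A ω) / 4) ≤ 1 := by
    apply Real.exp_le_one_iff.2
    have := hA0 ω
    linarith
  rw [abs_of_nonneg (mul_nonneg (sq_nonneg _) (mul_nonneg (Real.exp_pos _).le (hQ0 ω)))]
  apply mul_le_mul hδ4 _ (mul_nonneg (Real.exp_pos _).le (hQ0 ω)) (by norm_num)
  calc _ ≤ 1 * Q ω := mul_le_mul_of_nonneg_right hE1 (hQ0 ω)
    _ ≤ |C| := by rw [one_mul]; exact (hQC ω).trans (le_abs_self C)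

end Abs

/-! ### Sums over spheres -/

lemma sb_sphere_sum (hC : Crit G b β) (x : V) (h : ℕ) (f : ℕ → ℝ) (hf : ∀ k, 0 ≤ f k) :
    ∑ u ∈ bal G x h, Real.tanh β ^ (2 * G.dist x u) * f (G.dist x u) ≤
      3 / 2 * ∑ k ∈ range (h + 1), f k := by
  have h1 : ∑ u ∈ bal G x h, Real.tanh β ^ (2 * G.dist x u) * f (G.dist x u) =
      ∑ k ∈ range (h + 1), ∑ u ∈ (bal G x h).filter (fun u => G.dist x u = k),
        Real.tanh β ^ (2 * G.dist x u) * f (G.dist x u) := by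
    rw [Finset.sum_fiberwise_of_maps_to]
    intro u hu
    rw [mem_bal hC.tree.connected] at hu
    exact Finset.mem_range.2 (by omega)
  rw [h1, Finset.mul_sum]
  refine Finset.sum_le_sum fun k _ => ?_
  have h2 : ∑ u ∈ (bal G x h).filter (fun u => G.dist x u = k),
      Real.tanh β ^ (2 * G.dist x u) * f (G.dist x u) =
      ((bal G x h).filter (fun u => G.dist x u = k)).card * (Real.tanh β ^ (2 * k) * f k) := by
    rw [← nsmul_eq_mul, ← Finset.sum_const]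
    refine Finset.sum_congr rfl fun u hu => ?_
    rw [(Finset.mem_filter.1 hu).2]
  rw [h2]
  have h3 := card_sphere_le (D := bal G x h) (x := x) hC k
  have h3' : (2:ℝ) * ((bal G x h).filter (fun u => G.dist x u = k)).card ≤ 3 * (b:ℝ) ^ k := by
    exact_mod_cast h3
  have h4 : (b:ℝ) ^ k * Real.tanh β ^ (2 * k) = 1 := by
    rw [pow_mul, ← mul_pow, hC.crit, one_pow]
  have h5 : 0 ≤ Real.tanh β ^ (2 * k) * f k :=
    mul_nonneg (by rw [pow_mul]; positivity) (hf k)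
  calc (((bal G x h).filter (fun u => G.dist x u = k)).card : ℝ) * (Real.tanh β ^ (2 * k) * f k)
      ≤ (3 / 2 * (b:ℝ) ^ k) * (Real.tanh β ^ (2 * k) * f k) :=
        mul_le_mul_of_nonneg_right (by linarith) h5
    _ = 3 / 2 * ((b:ℝ) ^ k * Real.tanh β ^ (2 * k)) * f k := by ring
    _ = 3 / 2 * f k := by rw [h4, mul_one]

/-- geometric sums -/
lemma sb_geom {c : ℝ} (hc : 0 < c) (n : ℕ) :
    ∑ k ∈ range n, Real.exp (-(c * ((k:ℝ) + 1))) ≤ 1 / c := by
  set r : ℝ := Real.exp (-c) with hr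
  have h0 : 0 < r := Real.exp_pos _
  have h2 : ∀ k : ℕ, Real.exp (-(c * ((k:ℝ) + 1))) = r * r ^ k := by
    intro k
    rw [hr, ← Real.exp_nat_mul, ← Real.exp_add]
    congr 1
    ring
  simp_rw [h2]
  rw [← Finset.mul_sum, le_div_iff₀ hc]
  have h3 : (∑ k ∈ range n, r ^ k) * (1 - r) = 1 - r ^ n := geom_sum_mul_neg r n
  have h4 : 0 ≤ ∑ k ∈ range n, r ^ k := Finset.sum_nonneg fun _ _ => by positivity
  have h5 : r * c ≤ 1 - r := by
    have h6 := Real.add_one_le_exp c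
    have h7 : r * Real.exp c = 1 := by rw [hr, ← Real.exp_add]; simp
    nlinarith
  have h8 : 0 ≤ r ^ n := by positivity
  calc r * (∑ k ∈ range n, r ^ k) * c = (∑ k ∈ range n, r ^ k) * (r * c) := by ring
    _ ≤ (∑ k ∈ range n, r ^ k) * (1 - r) := mul_le_mul_of_nonneg_left h5 h4
    _ ≤ 1 := by rw [h3]; linarith

/-- `∑ α_k` -/
lemma sb_sum_alpha {c k3 : ℝ} (hc : 0 < c) (hk : 0 ≤ k3) (n : ℕ) :
    ∑ k ∈ range n, (if (k:ℝ) ≤ k3 then (1:ℝ) else Real.exp (-(c * k))) ≤ k3 + 1 + 1 / c := by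
  classical
  have h1 : ∀ k ∈ range n, (if (k:ℝ) ≤ k3 then (1:ℝ) else Real.exp (-(c * k))) ≤
      (if (k:ℝ) ≤ k3 then (1:ℝ) else 0) + (if k = 0 then 0 else Real.exp (-(c * k))) := by
    intro k _
    by_cases hk1 : (k:ℝ) ≤ k3
    · rw [if_pos hk1, if_pos hk1]
      split_ifs
      · simp
      · have := Real.exp_pos (-(c * (k:ℝ)))
        linarith
    · rw [if_neg hk1, if_neg hk1, if_neg]
      · simp
      · rintro rfl
        apply hk1
        simpa using hk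
  have h2 : ∑ k ∈ range n, (if (k:ℝ) ≤ k3 then (1:ℝ) else 0) ≤ k3 + 1 := by
    rw [← Finset.sum_filter, Finset.sum_const, nsmul_eq_mul, mul_one]
    have h3 : (range n).filter (fun k : ℕ => (k:ℝ) ≤ k3) ⊆ range (⌊k3⌋₊ + 1) := by
      intro k hk'
      rw [Finset.mem_range]
      have := (Finset.mem_filter.1 hk').2
      have := Nat.le_floor this
      omega
    have h4 := Finset.card_le_card h3
    rw [Finset.card_range] at h4
    have h5 : (((range n).filter (fun k : ℕ => (k:ℝ) ≤ k3)).card : ℝ) ≤ ⌊k3⌋₊ + 1 := by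
      exact_mod_cast h4
    have h6 := Nat.floor_le hk
    linarith
  have h3 : ∑ k ∈ range n, (if k = 0 then (0:ℝ) else Real.exp (-(c * k))) ≤ 1 / c := by
    rcases n with _ | n
    · simp
      exact hc.le
    · rw [Finset.sum_range_succ']
      simp only [if_true, add_zero, Nat.succ_ne_zero, if_false, Nat.cast_add, Nat.cast_one]
      exact sb_geom hc n
  calc _ ≤ ∑ k ∈ range n, ((if (k:ℝ) ≤ k3 then (1:ℝ) else 0) +
        (if k = 0 then 0 else Real.exp (-(c * k)))) := Finset.sum_le_sum h1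
    _ ≤ _ := by rw [Finset.sum_add_distrib]; linarith

/-- `∑ e_k` -/
lemma sb_sum_e {c k3 L : ℝ} (hc : 0 < c) (hk : 2 * L / c ≤ k3) (hL : 0 ≤ L) (n : ℕ) :
    ∑ k ∈ range n, (if (k:ℝ) ≤ k3 then (0:ℝ) else Real.exp (-(c * k))) ≤
      2 / c * Real.exp (-L) := by
  have hk0 : 0 ≤ k3 := le_trans (by positivity) hk
  have h1 : ∀ k ∈ range n, (if (k:ℝ) ≤ k3 then (0:ℝ) else Real.exp (-(c * k))) ≤
      Real.exp (-L) * (if k = 0 then 0 else Real.exp (-(c / 2 * k))) := by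
    intro k _
    by_cases hk1 : (k:ℝ) ≤ k3
    · rw [if_pos hk1]
      split_ifs
      · simp
      · positivity
    · rw [if_neg hk1, if_neg]
      · rw [← Real.exp_add]
        apply Real.exp_le_exp.2
        have h2 : 2 * L / c < k := lt_of_le_of_lt hk (not_le.1 hk1)
        rw [div_lt_iff₀ hc] at h2
        linarith
      · rintro rfl
        apply hk1
        simpa using hk0
  have h3 : ∑ k ∈ range n, (if k = 0 then (0:ℝ) else Real.exp (-(c / 2 * k))) ≤ 2 / c := by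
    rcases n with _ | n
    · simp
      positivity
    · rw [Finset.sum_range_succ']
      simp only [if_true, add_zero, Nat.succ_ne_zero, if_false, Nat.cast_add, Nat.cast_one]
      have := sb_geom (half_pos hc) n
      refine this.trans (le_of_eq ?_)
      field_simp
  calc _ ≤ ∑ k ∈ range n, Real.exp (-L) * (if k = 0 then 0 else Real.exp (-(c / 2 * k))) :=
        Finset.sum_le_sum h1
    _ = Real.exp (-L) * ∑ k ∈ range n, (if k = 0 then 0 else Real.exp (-(c / 2 * k))) := by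
        rw [Finset.mul_sum]
    _ ≤ Real.exp (-L) * (2 / c) := mul_le_mul_of_nonneg_left h3 (Real.exp_pos _).le
    _ = _ := mul_comm _ _

/-! ### Transfer of the single copy estimates -/

section Transfer

omit [G.LocallyFinite]

variable {ν : Measure ℝ} {D : Finset V} {Ω : Type*} [MeasurableSpace Ω] {P : Measure Ω}
  {p : Ω → V → ℝ}

lemma sb_tail_tr (hp : PLaw G β ν D P p) (x i : V) (n : ℕ) {Qs τ : ℝ} (hQs : 0 ≤ Qs)
    (h : EE G β (fun _ => ν) D (fun p => max (Qf G β D x n i p - Qs) 0) ≤ τ) :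
    ∫ ω, max (Qf G β D x n i (p ω) - Qs) 0 ∂P ≤ τ := by
  have hm := sb_Qf_meas (G := G) (β := β) D x n i
  have h1 := hp.integral (F := fun p => max (Qf G β D x n i p - Qs) 0)
    (by fun_prop) (C := (1 + D.card : ℝ) ^ n) (by
      intro p
      rw [abs_of_nonneg (le_max_right _ _)]
      apply max_le
      · have := sb_Qf_le (G := G) (β := β) D x p n i
        linarith
      · positivity) (by
      intro p q hpq
      simp only [sb_Qf_congr hpq])
  rw [h1]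
  exact h

lemma sb_dev_tr (hp : PLaw G β ν D P p) (x u : V) {c e : ℝ}
    (h : (PL G β (fun _ => ν) D).real {p | Ac G β D x u p / 4 < c} ≤ e) :
    P.real {ω | Real.exp (-c) < Real.exp (-(Ac G β D x u (p ω)) / 4)} ≤ e := by
  have hm := sb_Ac_meas (G := G) (β := β) D x u
  set S : Set (V → ℝ) := {p | Ac G β D x u p / 4 < c} with hS
  have hSm : MeasurableSet S := measurableSet_lt (by fun_prop) measurable_const
  have h1 := hp.integral (F := S.indicator 1)
    (measurable_one.indicator hSm) (C := 1) (by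
      intro p
      by_cases hp' : p ∈ S
      · rw [Set.indicator_of_mem hp']; simp
      · rw [Set.indicator_of_notMem hp']; simp) (by
      intro p q hpq
      have : p ∈ S ↔ q ∈ S := by
        rw [hS, Set.mem_ofPred_eq, Set.mem_ofPred_eq, sb_Ac_congr hpq]
      by_cases hp' : p ∈ S
      · rw [Set.indicator_of_mem hp', Set.indicator_of_mem (this.1 hp')]; rfl
      · rw [Set.indicator_of_notMem hp', Set.indicator_of_notMem (fun h => hp' (this.2 h))])
  have h2 : EE G β (fun _ => ν) D (S.indicator 1) = (PL G β (fun _ => ν) D).real S := by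
    unfold EE
    exact integral_indicator_one hSm
  have h3 : ∫ ω, S.indicator (1 : (V → ℝ) → ℝ) (p ω) ∂P = P.real (p ⁻¹' S) := by
    rw [← integral_indicator_one (hp.1 hSm)]
    rfl
  have h4 : {ω | Real.exp (-c) < Real.exp (-(Ac G β D x u (p ω)) / 4)} = p ⁻¹' S := by
    ext ω
    rw [Set.mem_ofPred_eq, Set.mem_preimage, hS, Set.mem_ofPred_eq, Real.exp_lt_exp]
    constructor <;> intro h <;> linarith
  rw [h4, ← h3, h1, h2]
  exact h

end Transfer

/-! ### A pair of random fields -/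

section Pair

variable {Ω : Type*} [MeasurableSpace Ω] {P : Measure Ω} [IsProbabilityMeasure P]
  {D D' : Finset V} {x : V} {h : ℕ} {p p' : Ω → V → ℝ}

omit [G.LocallyFinite] in
lemma sb_M_meas (hp : Measurable p) (hp' : Measurable p') (y : V) :
    Measurable (fun ω => mg G β D (p ω) y - mg G β D' (p' ω) y) :=
  ((measurable_mg D y).comp hp).sub ((measurable_mg D' y).comp hp')

omit [G.LocallyFinite] in
lemma sb_M_le (y : V) (ω : Ω) : |mg G β D (p ω) y - mg G β D' (p' ω) y| ≤ 2 := by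
  have h1 := abs_le.1 (abs_mg_le (G := G) (β := β) D (p ω) y)
  have h2 := abs_le.1 (abs_mg_le (G := G) (β := β) D' (p' ω) y)
  rw [abs_le]
  constructor <;> linarith [h1.1, h1.2, h2.1, h2.2]

omit [G.LocallyFinite] in
lemma sb_ms_meas2 (hp : Measurable p) (hp' : Measurable p') (i : V) :
    Measurable (fun ω => ms G β D x (p ω) i - ms G β D' x (p' ω) i) :=
  ((sb_ms_meas D x i).comp hp).sub ((sb_ms_meas D' x i).comp hp')

omit [G.LocallyFinite] in
lemma sb_ms_le2 (i : V) (ω : Ω) : |ms G β D x (p ω) i - ms G β D' x (p' ω) i| ≤ 2 := by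
  have h1 := abs_le.1 (sb_ms_abs (G := G) (β := β) D x i (p ω))
  have h2 := abs_le.1 (sb_ms_abs (G := G) (β := β) D' x i (p' ω))
  rw [abs_le]
  constructor <;> linarith [h1.1, h1.2, h2.1, h2.2]

lemma sb_bal_sub (hC : Crit G b β) : bal G x h ⊆ bal G x (h + 1) := by
  intro u hu
  rw [mem_bal hC.tree.connected] at hu ⊢
  omega

lemma sb_mem_bal (hC : Crit G b β) : x ∈ bal G x h := by
  rw [mem_bal hC.tree.connected, SimpleGraph.dist_self]; omega

/-- differences of messages -/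
lemma sb_msE (hC : Crit G b β) (hcD : Cvx G D) (hbD : bal G x (h + 1) ⊆ D)
    (hbD' : bal G x (h + 1) ⊆ D') (hp : Measurable p) (hp' : Measurable p') {m : ℝ}
    (hm : ∀ y ∈ bal G x (h + 1), ∫ ω, (mg G β D (p ω) y - mg G β D' (p' ω) y) ^ 2 ∂P ≤ m)
    {i : V} (hi : i ∈ bal G x h) (hix : i ≠ x) :
    ∫ ω, (ms G β D x (p ω) i - ms G β D' x (p' ω) i) ^ 2 ∂P ≤ 144 * m := by
  have hconn : G.Connected := hC.tree.connected
  have hbal : bal G x h ⊆ bal G x (h + 1) := sb_bal_sub hC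
  have hxD : x ∈ D := hbD (hbal (sb_mem_bal hC))
  obtain ⟨k, hkD, hik, -⟩ := exists_parent hC.tree hcD hxD (hbD (hbal hi)) hix
  rw [mem_ch] at hik
  have hkb : k ∈ bal G x h := by
    rw [mem_bal hconn] at hi ⊢
    omega
  have hik1 : i ∈ ch G D x k := mem_ch.2 hik
  have hik2 : i ∈ ch G D' x k := mem_ch.2 ⟨hbD' (hbal hi), hik.2⟩
  have hpt : ∀ ω, (ms G β D x (p ω) i - ms G β D' x (p' ω) i) ^ 2 ≤
      72 * (mg G β D (p ω) i - mg G β D' (p' ω) i) ^ 2 +
      72 * (mg G β D (p ω) k - mg G β D' (p' ω) k) ^ 2 := by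
    intro ω
    have h1 := ms_lip hC hik1 hik2 hkD (hbD' (hbal hkb)) (p ω) (p' ω)
    rw [← sq_abs]
    have h2 : |ms G β D x (p ω) i - ms G β D' x (p' ω) i| ^ 2 ≤
        (6 * (|mg G β D (p ω) i - mg G β D' (p' ω) i| +
          |mg G β D (p ω) k - mg G β D' (p' ω) k|)) ^ 2 :=
      pow_le_pow_left₀ (abs_nonneg _) h1 2
    rw [← sq_abs (mg G β D (p ω) i - mg G β D' (p' ω) i),
      ← sq_abs (mg G β D (p ω) k - mg G β D' (p' ω) k)]
    nlinarith [sq_nonneg (|mg G β D (p ω) i - mg G β D' (p' ω) i| -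
      |mg G β D (p ω) k - mg G β D' (p' ω) k|)]
  have hint : ∀ y, Integrable (fun ω => (mg G β D (p ω) y - mg G β D' (p' ω) y) ^ 2) P := by
    intro y
    refine sb_int ((sb_M_meas hp hp' y).pow_const 2) (C := 4) fun ω => ?_
    rw [abs_of_nonneg (sq_nonneg _), ← sq_abs]
    have := sb_M_le (G := G) (β := β) (D := D) (D' := D') (p := p) (p' := p') y ω
    have := abs_nonneg (mg G β D (p ω) y - mg G β D' (p' ω) y)
    nlinarith
  calc ∫ ω, (ms G β D x (p ω) i - ms G β D' x (p' ω) i) ^ 2 ∂P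
      ≤ ∫ ω, (72 * (mg G β D (p ω) i - mg G β D' (p' ω) i) ^ 2 +
        72 * (mg G β D (p ω) k - mg G β D' (p' ω) k) ^ 2) ∂P := by
        refine integral_mono_of_nonneg (Filter.Eventually.of_forall fun ω => sq_nonneg _)
          (((hint i).const_mul 72).add ((hint k).const_mul 72))
          (Filter.Eventually.of_forall hpt)
    _ = 72 * ∫ ω, (mg G β D (p ω) i - mg G β D' (p' ω) i) ^ 2 ∂P +
        72 * ∫ ω, (mg G β D (p ω) k - mg G β D' (p' ω) k) ^ 2 ∂P := by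
        rw [integral_add ((hint i).const_mul 72) ((hint k).const_mul 72), integral_const_mul,
          integral_const_mul]
    _ ≤ 144 * m := by
        have h1 := hm i (hbal hi)
        have h2 := hm k (hbal hkb)
        linarith

/-- near part, covariances -/
lemma sb_near1 (hC : Crit G b β) (hcD : Cvx G D) (hcD' : Cvx G D')
    (hbD : bal G x (h + 1) ⊆ D) (hbD' : bal G x (h + 1) ⊆ D') (hp : Measurable p)
    (hp' : Measurable p') {m Qs τ : ℝ} {al ek : ℕ → ℝ}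
    (hm : ∀ y ∈ bal G x (h + 1), ∫ ω, (mg G β D (p ω) y - mg G β D' (p' ω) y) ^ 2 ∂P ≤ m)
    (hm0 : 0 ≤ m) (hQs0 : 0 ≤ Qs) (hτ0 : 0 ≤ τ) (hal0 : ∀ k, 0 ≤ al k) (hek0 : ∀ k, 0 ≤ ek k)
    (hdevD : ∀ u ∈ bal G x h, P.real {ω | al (G.dist x u) <
      Real.exp (-(Ac G β D x u (p ω)) / 4)} ≤ ek (G.dist x u))
    (hdevD' : ∀ u ∈ bal G x h, P.real {ω | al (G.dist x u) <
      Real.exp (-(Ac G β D' x u (p' ω)) / 4)} ≤ ek (G.dist x u))
    (htD : ∀ i ∈ bal G x h, ∀ n, ∫ ω, max (Qf G β D x n i (p ω) - Qs) 0 ∂P ≤ τ)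
    (htD' : ∀ i ∈ bal G x h, ∀ n, ∫ ω, max (Qf G β D' x n i (p' ω) - Qs) 0 ∂P ≤ τ) :
    ∫ ω, ∑ u ∈ bal G x h, (cv G β D (p ω) x u - cv G β D' (p' ω) x u) ^ 2 ∂P ≤
      8 * (Qs * m + 4 * τ) + 1800 * ∑ k ∈ range (h + 1),
        (Qs * (al k * (144 * m) + 4 * ek k) + 4 * τ) := by
  have hbal : bal G x h ⊆ bal G x (h + 1) := sb_bal_sub hC
  have hxb : x ∈ bal G x h := sb_mem_bal hC
  set f : ℕ → ℝ := fun k => Qs * (al k * (144 * m) + 4 * ek k) + 4 * τ with hf
  have hf0 : ∀ k, 0 ≤ f k := by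
    intro k
    have := hal0 k
    have := hek0 k
    simp only [hf]
    positivity
  set F : V → Ω → ℝ := fun i ω => (ms G β D x (p ω) i - ms G β D' x (p' ω) i) ^ 2 *
    (Real.exp (-(Ac G β D x i (p ω)) / 4) * Qf G β D x (h - G.dist x i) i (p ω)) with hF
  set F' : V → Ω → ℝ := fun i ω => (ms G β D x (p ω) i - ms G β D' x (p' ω) i) ^ 2 *
    (Real.exp (-(Ac G β D' x i (p' ω)) / 4) * Qf G β D' x (h - G.dist x i) i (p' ω)) with hF'
  set F0 : Ω → ℝ := fun ω => (mg G β D (p ω) x - mg G β D' (p' ω) x) ^ 2 *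
        (Real.exp (-(0:ℝ) / 4) * Qf G β D x h x (p ω)) with hF0
  have hI0 : Integrable F0 P :=
    sb_abs_int (sb_M_meas hp hp' x) (sb_M_le x) measurable_const (fun _ => le_refl _)
      ((sb_Qf_meas D x h x).comp hp) (fun ω => sb_Qf_nonneg D x (p ω) h x)
      (fun ω => sb_Qf_le D x (p ω) h x)
  have hJ0 : ∫ ω, F0 ω ∂P ≤ Qs * (1 * m + 4 * 0) + 4 * τ :=
    sb_abs (sb_M_meas hp hp' x) (sb_M_le x) measurable_const (fun _ => le_refl _)
      ((sb_Qf_meas D x h x).comp hp) (fun ω => sb_Qf_nonneg D x (p ω) h x)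
      (fun ω => sb_Qf_le D x (p ω) h x) zero_le_one hQs0 (hm x (hbal hxb)) (by simp)
      (htD x hxb h)
  have hI : ∀ i, Integrable (F i) P := by
    intro i
    exact sb_abs_int (sb_ms_meas2 hp hp' i) (sb_ms_le2 i) ((sb_Ac_meas D x i).comp hp)
      (fun ω => sb_Ac_nonneg D x i (p ω)) ((sb_Qf_meas D x _ i).comp hp)
      (fun ω => sb_Qf_nonneg D x (p ω) _ i) (fun ω => sb_Qf_le D x (p ω) _ i)
  have hI' : ∀ i, Integrable (F' i) P := by
    intro i
    exact sb_abs_int (sb_ms_meas2 hp hp' i) (sb_ms_le2 i) ((sb_Ac_meas D' x i).comp hp')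
      (fun ω => sb_Ac_nonneg D' x i (p' ω)) ((sb_Qf_meas D' x _ i).comp hp')
      (fun ω => sb_Qf_nonneg D' x (p' ω) _ i) (fun ω => sb_Qf_le D' x (p' ω) _ i)
  have hJ : ∀ i ∈ (bal G x h).erase x, ∫ ω, F i ω ∂P ≤ f (G.dist x i) := by
    intro i hi
    have hib := Finset.mem_of_mem_erase hi
    exact sb_abs (sb_ms_meas2 hp hp' i) (sb_ms_le2 i) ((sb_Ac_meas D x i).comp hp)
      (fun ω => sb_Ac_nonneg D x i (p ω)) ((sb_Qf_meas D x _ i).comp hp)
      (fun ω => sb_Qf_nonneg D x (p ω) _ i) (fun ω => sb_Qf_le D x (p ω) _ i)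
      (hal0 _) hQs0 (sb_msE hC hcD hbD hbD' hp hp' hm hib (Finset.ne_of_mem_erase hi))
      (hdevD i hib) (htD i hib _)
  have hJ' : ∀ i ∈ (bal G x h).erase x, ∫ ω, F' i ω ∂P ≤ f (G.dist x i) := by
    intro i hi
    have hib := Finset.mem_of_mem_erase hi
    exact sb_abs (sb_ms_meas2 hp hp' i) (sb_ms_le2 i) ((sb_Ac_meas D' x i).comp hp')
      (fun ω => sb_Ac_nonneg D' x i (p' ω)) ((sb_Qf_meas D' x _ i).comp hp')
      (fun ω => sb_Qf_nonneg D' x (p' ω) _ i) (fun ω => sb_Qf_le D' x (p' ω) _ i)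
      (hal0 _) hQs0 (sb_msE hC hcD hbD hbD' hp hp' hm hib (Finset.ne_of_mem_erase hi))
      (hdevD' i hib) (htD' i hib _)
  have hFs : ∀ i, Integrable (fun ω => Real.tanh β ^ (2 * G.dist x i) * (F i ω + F' i ω)) P :=
    fun i => ((hI i).add (hI' i)).const_mul _
  have hIs : Integrable (fun ω => ∑ i ∈ (bal G x h).erase x, Real.tanh β ^ (2 * G.dist x i) *
      (F i ω + F' i ω)) P :=
    integrable_finsetSum _ fun i _ => hFs i
  have hsum : ∫ ω, ∑ i ∈ (bal G x h).erase x, Real.tanh β ^ (2 * G.dist x i) *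
      (F i ω + F' i ω) ∂P = ∑ i ∈ (bal G x h).erase x, Real.tanh β ^ (2 * G.dist x i) *
      (∫ ω, F i ω ∂P + ∫ ω, F' i ω ∂P) := by
    rw [integral_finsetSum _ fun i _ => hFs i]
    refine Finset.sum_congr rfl fun i _ => ?_
    rw [integral_const_mul, integral_add (hI i) (hI' i)]
  calc ∫ ω, ∑ u ∈ bal G x h, (cv G β D (p ω) x u - cv G β D' (p' ω) x u) ^ 2 ∂P
      ≤ ∫ ω, (8 * F0 ω + 600 * ∑ i ∈ (bal G x h).erase x, Real.tanh β ^ (2 * G.dist x i) *
        (F i ω + F' i ω)) ∂P := by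
        refine integral_mono_of_nonneg
          (Filter.Eventually.of_forall fun ω => Finset.sum_nonneg fun _ _ => sq_nonneg _)
          ((hI0.const_mul 8).add (hIs.const_mul 600)) (Filter.Eventually.of_forall fun ω => ?_)
        have h1 := near_pointwise hC hcD hcD' hbD hbD' (p ω) (p' ω)
        have h2 : Real.exp (-(0:ℝ) / 4) = 1 := by norm_num
        beta_reduce
        rw [hF0]
        beta_reduce
        rw [h2, one_mul, ← mul_assoc]
        exact h1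
    _ = 8 * ∫ ω, F0 ω ∂P + 600 * ∑ i ∈ (bal G x h).erase x, Real.tanh β ^ (2 * G.dist x i) *
      (∫ ω, F i ω ∂P + ∫ ω, F' i ω ∂P) := by
        rw [integral_add (hI0.const_mul 8) (hIs.const_mul 600), integral_const_mul,
          integral_const_mul, hsum]
    _ ≤ 8 * (Qs * (1 * m + 4 * 0) + 4 * τ) + 600 * ∑ i ∈ (bal G x h).erase x,
        Real.tanh β ^ (2 * G.dist x i) * (f (G.dist x i) + f (G.dist x i)) := by
        apply add_le_add (mul_le_mul_of_nonneg_left hJ0 (by norm_num))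
        apply mul_le_mul_of_nonneg_left _ (by norm_num)
        refine Finset.sum_le_sum fun i hi => ?_
        exact mul_le_mul_of_nonneg_left (add_le_add (hJ i hi) (hJ' i hi))
          (by rw [pow_mul]; positivity)
    _ ≤ 8 * (Qs * (1 * m + 4 * 0) + 4 * τ) + 600 * ∑ i ∈ bal G x h,
        Real.tanh β ^ (2 * G.dist x i) * (f (G.dist x i) + f (G.dist x i)) := by
        apply add_le_add (le_refl _)
        apply mul_le_mul_of_nonneg_left _ (by norm_num)
        refine Finset.sum_le_sum_of_subset_of_nonneg (Finset.erase_subset x (bal G x h))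
          fun i _ _ => ?_
        have := hf0 (G.dist x i)
        exact mul_nonneg (by rw [pow_mul]; positivity) (by linarith)
    _ ≤ 8 * (Qs * (1 * m + 4 * 0) + 4 * τ) + 600 * (3 / 2 * ∑ k ∈ range (h + 1),
        (f k + f k)) := by
        apply add_le_add (le_refl _)
        apply mul_le_mul_of_nonneg_left _ (by norm_num)
        exact sb_sphere_sum hC x h (fun k => f k + f k) fun k => add_nonneg (hf0 k) (hf0 k)
    _ = _ := by
        rw [Finset.sum_add_distrib]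
        ring

/-- near part, magnetizations -/
lemma sb_near2 (hC : Crit G b β) (hcD' : Cvx G D')
    (hbD' : bal G x (h + 1) ⊆ D') (hp : Measurable p)
    (hp' : Measurable p') {m : ℝ} {al ek : ℕ → ℝ}
    (hm : ∀ y ∈ bal G x (h + 1), ∫ ω, (mg G β D (p ω) y - mg G β D' (p' ω) y) ^ 2 ∂P ≤ m)
    (hm0 : 0 ≤ m) (hal0 : ∀ k, 0 ≤ al k) (hek0 : ∀ k, 0 ≤ ek k)
    (hdevD' : ∀ u ∈ bal G x h, P.real {ω | al (G.dist x u) <
      Real.exp (-(Ac G β D' x u (p' ω)) / 4)} ≤ ek (G.dist x u)) :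
    ∫ ω, ∑ u ∈ bal G x h, cv G β D' (p' ω) x u ^ 2 *
      (mg G β D (p ω) u - mg G β D' (p' ω) u) ^ 2 ∂P ≤
      3 / 2 * ∑ k ∈ range (h + 1), (al k * m + 4 * ek k) := by
  have hbal : bal G x h ⊆ bal G x (h + 1) := sb_bal_sub hC
  have hxb : x ∈ bal G x h := sb_mem_bal hC
  have hxD' : x ∈ D' := hbD' (hbal hxb)
  set F : V → Ω → ℝ := fun u ω => (mg G β D (p ω) u - mg G β D' (p' ω) u) ^ 2 *
      Real.exp (-(Ac G β D' x u (p' ω)) / 4) with hF
  have hI : ∀ u, Integrable (F u) P := fun u => by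
    have := sb_abs_int (P := P) (sb_M_meas (G := G) (β := β) (D := D) (D' := D') hp hp' u)
      (sb_M_le u) ((sb_Ac_meas D' x u).comp hp')
      (fun ω => sb_Ac_nonneg (G := G) (β := β) D' x u (p' ω)) (Q := fun _ => 1) measurable_const
      (fun _ => zero_le_one) (C := 1) (fun _ => le_refl _)
    simp only [mul_one] at this
    exact this
  calc ∫ ω, ∑ u ∈ bal G x h, cv G β D' (p' ω) x u ^ 2 *
        (mg G β D (p ω) u - mg G β D' (p' ω) u) ^ 2 ∂P
      ≤ ∫ ω, ∑ u ∈ bal G x h, Real.tanh β ^ (2 * G.dist x u) * F u ω ∂P := by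
        refine integral_mono_of_nonneg (Filter.Eventually.of_forall fun ω =>
          Finset.sum_nonneg fun _ _ => by positivity)
          (integrable_finsetSum _ fun u _ => (hI u).const_mul _)
          (Filter.Eventually.of_forall fun ω => Finset.sum_le_sum fun u hu => ?_)
        have h1 := cv_sq_pointwise hC hcD' hxD' (hbD' (hbal hu)) (p' ω)
        have h2 : Real.exp (-(Ac G β D' x u (p' ω))) ≤
            Real.exp (-(Ac G β D' x u (p' ω)) / 4) := by
          apply Real.exp_le_exp.2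
          have := sb_Ac_nonneg (G := G) (β := β) D' x u (p' ω)
          linarith
        have h3 : 0 ≤ Real.tanh β ^ (2 * G.dist x u) := by rw [pow_mul]; positivity
        calc _ ≤ (Real.tanh β ^ (2 * G.dist x u) * Real.exp (-(Ac G β D' x u (p' ω)) / 4)) *
              (mg G β D (p ω) u - mg G β D' (p' ω) u) ^ 2 :=
              mul_le_mul_of_nonneg_right
                (h1.trans (mul_le_mul_of_nonneg_left h2 h3)) (sq_nonneg _)
          _ = _ := by rw [hF]; ring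
    _ = ∑ u ∈ bal G x h, Real.tanh β ^ (2 * G.dist x u) * ∫ ω, F u ω ∂P := by
        rw [integral_finsetSum _ fun u _ => (hI u).const_mul _]
        refine Finset.sum_congr rfl fun u _ => ?_
        rw [integral_const_mul]
    _ ≤ ∑ u ∈ bal G x h, Real.tanh β ^ (2 * G.dist x u) *
        (al (G.dist x u) * m + 4 * ek (G.dist x u)) := by
        refine Finset.sum_le_sum fun u hu => ?_
        apply mul_le_mul_of_nonneg_left _ (by rw [pow_mul]; positivity)
        exact sb_abs' (P := P) (sb_M_meas hp hp' u) (sb_M_le u)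
          ((sb_Ac_meas D' x u).comp hp') (fun ω => sb_Ac_nonneg D' x u (p' ω))
          (hal0 (G.dist x u)) (hm u (hbal hu)) (hdevD' u hu)
    _ ≤ _ := sb_sphere_sum hC x h (fun k => al k * m + 4 * ek k) fun k => by
        have := hal0 k
        have := hek0 k
        positivity

omit [G.LocallyFinite] in
lemma sb_cv_sq [G.LocallyFinite] (hC : Crit G b β) {E : Finset V} (hE : Cvx G E) (hxE : x ∈ E)
    {u : V} (hu : u ∈ E) (q : V → ℝ) : cv G β E q x u ^ 2 ≤ 1 := by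
  refine (cv_sq_pointwise hC hE hxE hu q).trans ?_
  have h1 : Real.tanh β ^ (2 * G.dist x u) ≤ 1 := by
    rw [pow_mul]
    exact pow_le_one₀ (sq_nonneg _) (sb_tanh_sq_le β)
  have h2 : Real.exp (-(Ac G β E x u q)) ≤ 1 := by
    apply Real.exp_le_one_iff.2
    have := sb_Ac_nonneg (G := G) (β := β) E x u q
    linarith
  calc _ ≤ 1 * 1 := mul_le_mul h1 h2 (Real.exp_pos _).le zero_le_one
    _ = 1 := one_mul 1

lemma sb_far (hC : Crit G b β) (hcD : Cvx G D) (hxD : x ∈ D) {ν : Measure ℝ}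
    (hp : PLaw G β ν D P p) {B : ℝ}
    (hB : EE G β (fun _ => ν) D (fun q => ∑ u ∈ D \ bal G x h, cv G β D q x u ^ 2) ≤ B) :
    ∫ ω, ∑ u ∈ D \ bal G x h, cv G β D (p ω) x u ^ 2 ∂P ≤ B := by
  have h1 := hp.integral (F := fun q => ∑ u ∈ D \ bal G x h, cv G β D q x u ^ 2)
    (Finset.measurable_sum _ fun u _ => (measurable_cv D x u).pow_const 2)
    (C := ((D \ bal G x h).card : ℝ)) (by
      intro q
      rw [abs_of_nonneg (Finset.sum_nonneg fun _ _ => sq_nonneg _)]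
      have h2 := Finset.sum_le_card_nsmul (D \ bal G x h) (fun u => cv G β D q x u ^ 2) 1
        (fun u hu => sb_cv_sq hC hcD hxD (Finset.mem_sdiff.1 hu).1 q)
      rwa [nsmul_eq_mul, mul_one] at h2) (by
      intro q q' hq
      refine Finset.sum_congr rfl fun u _ => ?_
      rw [cv_congr hq])
  rw [h1]
  exact hB

/-- assembly -/
lemma sb_assembly (hC : Crit G b β) (hcD : Cvx G D) (hcD' : Cvx G D')
    (hbD : bal G x (h + 1) ⊆ D) (hbD' : bal G x (h + 1) ⊆ D') (hp : Measurable p)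
    (hp' : Measurable p') {a T1 T2 T3 T4 : ℝ} (ha0 : 0 ≤ a) (ha : a ≤ 1 / 4)
    (h1 : ∫ ω, ∑ u ∈ bal G x h, (cv G β D (p ω) x u - cv G β D' (p' ω) x u) ^ 2 ∂P ≤ T1)
    (h2 : ∫ ω, ∑ u ∈ bal G x h, cv G β D' (p' ω) x u ^ 2 *
      (mg G β D (p ω) u - mg G β D' (p' ω) u) ^ 2 ∂P ≤ T2)
    (h3 : ∫ ω, ∑ u ∈ D \ bal G x h, cv G β D (p ω) x u ^ 2 ∂P ≤ T3)
    (h4 : ∫ ω, ∑ u ∈ D' \ bal G x h, cv G β D' (p' ω) x u ^ 2 ∂P ≤ T4) :
    ∫ ω, Sx G β a D D' x (fld (p ω)) (fld (p' ω)) ∂P ≤ a ^ 2 *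
      (8 * T1 + 8 * T2 + 16 * T3 + 48 * T4) := by
  have hbal : bal G x h ⊆ bal G x (h + 1) := sb_bal_sub hC
  have hxb : x ∈ bal G x h := sb_mem_bal hC
  have hxD : x ∈ D := hbD (hbal hxb)
  have hxD' : x ∈ D' := hbD' (hbal hxb)
  have habs : ∀ y : ℝ, y ^ 2 ≤ 1 → |y| ≤ 1 := by
    intro y hy
    rw [← sq_abs] at hy
    nlinarith [abs_nonneg y]
  have hcvm : ∀ u, Measurable (fun ω => cv G β D (p ω) x u) := fun u =>
    (measurable_cv D x u).comp hp
  have hcvm' : ∀ u, Measurable (fun ω => cv G β D' (p' ω) x u) := fun u =>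
    (measurable_cv D' x u).comp hp'
  set X1 : Ω → ℝ := fun ω => ∑ u ∈ bal G x h,
      (cv G β D (p ω) x u - cv G β D' (p' ω) x u) ^ 2 with hX1
  set X2 : Ω → ℝ := fun ω => ∑ u ∈ bal G x h, cv G β D' (p' ω) x u ^ 2 *
      (mg G β D (p ω) u - mg G β D' (p' ω) u) ^ 2 with hX2
  set X3 : Ω → ℝ := fun ω => ∑ u ∈ D \ bal G x h, cv G β D (p ω) x u ^ 2 with hX3
  set X4 : Ω → ℝ := fun ω => ∑ u ∈ D' \ bal G x h, cv G β D' (p' ω) x u ^ 2 with hX4
  have hIX1 : Integrable X1 P := by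
    refine integrable_finsetSum _ fun u hu => ?_
    refine sb_int (((hcvm u).sub (hcvm' u)).pow_const 2) (C := 4) fun ω => ?_
    have h1 := abs_le.1 (habs _ (sb_cv_sq hC hcD hxD (hbD (hbal hu)) (p ω)))
    have h2 := abs_le.1 (habs _ (sb_cv_sq hC hcD' hxD' (hbD' (hbal hu)) (p' ω)))
    rw [abs_of_nonneg (sq_nonneg _)]
    nlinarith [h1.1, h1.2, h2.1, h2.2]
  have hIX2 : Integrable X2 P := by
    refine integrable_finsetSum _ fun u hu => ?_
    refine sb_int (((hcvm' u).pow_const 2).mul ((sb_M_meas hp hp' u).pow_const 2)) (C := 4)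
      fun ω => ?_
    have h1 := sb_cv_sq hC hcD' hxD' (hbD' (hbal hu)) (p' ω)
    have h2 : (mg G β D (p ω) u - mg G β D' (p' ω) u) ^ 2 ≤ 4 := by
      rw [← sq_abs]
      have := sb_M_le (G := G) (β := β) (D := D) (D' := D') (p := p) (p' := p') u ω
      have := abs_nonneg (mg G β D (p ω) u - mg G β D' (p' ω) u)
      nlinarith
    rw [abs_of_nonneg (by positivity)]
    calc _ ≤ 1 * 4 := mul_le_mul h1 h2 (sq_nonneg _) zero_le_one
      _ = 4 := one_mul 4
  have hIX3 : Integrable X3 P := by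
    refine integrable_finsetSum _ fun u hu => ?_
    refine sb_int ((hcvm u).pow_const 2) (C := 1) fun ω => ?_
    rw [abs_of_nonneg (sq_nonneg _)]
    exact sb_cv_sq hC hcD hxD (Finset.mem_sdiff.1 hu).1 (p ω)
  have hIX4 : Integrable X4 P := by
    refine integrable_finsetSum _ fun u hu => ?_
    refine sb_int ((hcvm' u).pow_const 2) (C := 1) fun ω => ?_
    rw [abs_of_nonneg (sq_nonneg _)]
    exact sb_cv_sq hC hcD' hxD' (Finset.mem_sdiff.1 hu).1 (p' ω)
  have hi12 : Integrable (fun ω => 8 * X1 ω + 8 * X2 ω) P :=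
    (hIX1.const_mul 8).add (hIX2.const_mul 8)
  have hi123 : Integrable (fun ω => 8 * X1 ω + 8 * X2 ω + 16 * X3 ω) P :=
    hi12.add (hIX3.const_mul 16)
  calc ∫ ω, Sx G β a D D' x (fld (p ω)) (fld (p' ω)) ∂P
      ≤ ∫ ω, a ^ 2 * (8 * X1 ω + 8 * X2 ω + 16 * X3 ω + 48 * X4 ω) ∂P := by
        refine integral_mono_of_nonneg (Filter.Eventually.of_forall fun ω => ?_)
          (((((hIX1.const_mul 8).add (hIX2.const_mul 8)).add (hIX3.const_mul 16)).add
            (hIX4.const_mul 48)).const_mul (a ^ 2)) (Filter.Eventually.of_forall fun ω => ?_)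
        · show 0 ≤ Sx G β a D D' x (fld (p ω)) (fld (p' ω))
          unfold Sx
          have h1 : 0 ≤ ∑ u ∈ D ∩ D', (8 * a ^ 2 * (cov G β D (fld (p ω)) x u -
              cov G β D' (fld (p' ω)) x u) ^ 2 + 128 * a ^ 4 *
              cov G β D' (fld (p' ω)) x u ^ 2 * (mag G β D (fld (p ω)) u -
              mag G β D' (fld (p' ω)) u) ^ 2) := Finset.sum_nonneg fun _ _ => by positivity
          have h2 : 0 ≤ ∑ u ∈ D \ D', cov G β D (fld (p ω)) x u ^ 2 :=
            Finset.sum_nonneg fun _ _ => sq_nonneg _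
          have h3 : 0 ≤ ∑ u ∈ D' \ D, cov G β D' (fld (p' ω)) x u ^ 2 :=
            Finset.sum_nonneg fun _ _ => sq_nonneg _
          positivity
        · exact Sx_le ha0 ha (hbal.trans hbD) (hbal.trans hbD') (fld (p ω)) (fld (p' ω))
    _ = a ^ 2 * (8 * ∫ ω, X1 ω ∂P + 8 * ∫ ω, X2 ω ∂P + 16 * ∫ ω, X3 ω ∂P +
        48 * ∫ ω, X4 ω ∂P) := by
        rw [integral_const_mul, integral_add hi123 (hIX4.const_mul 48),
          integral_add hi12 (hIX3.const_mul 16), integral_add (hIX1.const_mul 8)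
          (hIX2.const_mul 8), integral_const_mul, integral_const_mul, integral_const_mul,
          integral_const_mul]
    _ ≤ _ := by
        apply mul_le_mul_of_nonneg_left _ (sq_nonneg a)
        linarith

end Pair

/-! ### Numerics -/

lemma sb_num_sum {C₃ c₂ c₃ B t L s k3 : ℝ} (hC₃ : 0 < C₃) (hc₂ : 0 < c₂) (hc₃ : 0 < c₃)
    (hB : B = C₃ + 2 / c₃ + 1 / c₂ + 1) (ht : 0 < t) (hL : 2 ≤ L) (hs : s = 1 / √t)
    (hs1 : 1 ≤ s) (hk3 : k3 = C₃ * s + 2 * L / c₃) :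
    k3 + 1 + 1 / (c₂ * √t) ≤ B * (s + L) := by
  have hst : 0 < √t := Real.sqrt_pos.2 ht
  have h1 : 1 / (c₂ * √t) = 1 / c₂ * s := by rw [hs]; field_simp
  rw [h1, hk3, hB]
  have h2 : 0 ≤ C₃ * L := by positivity
  have h3 : 0 ≤ 2 / c₃ * s := by positivity
  have h4 : 0 ≤ 1 / c₂ * L := by positivity
  have h5 : 2 * L / c₃ = 2 / c₃ * L := by ring
  rw [h5]
  have h6 : (C₃ + 2 / c₃ + 1 / c₂ + 1) * (s + L) = C₃ * s + C₃ * L + 2 / c₃ * s + 2 / c₃ * L +
      1 / c₂ * s + 1 / c₂ * L + s + L := by ring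
  rw [h6]
  linarith

lemma sb_num_h {c₁ t L s Y h : ℝ} (hc₁ : 0 < c₁) (ht : 0 < t) (hL : 2 ≤ L)
    (hs : s = 1 / √t) (hs1 : 1 ≤ s) (hYdef : Y = L * s ^ 2) (h1 : h < L / (c₁ * √t) + 1) :
    h + 1 ≤ (1 / c₁ + 1) * Y := by
  have hst : 0 < √t := Real.sqrt_pos.2 ht
  have h2 : L / (c₁ * √t) = 1 / c₁ * (L * s) := by rw [hs]; field_simp
  have h5 : (1:ℝ) ≤ s ^ 2 := one_le_pow₀ hs1
  have h6 : s ≤ s ^ 2 := by nlinarith
  have h3 : L * s ≤ Y := by
    rw [hYdef]
    exact mul_le_mul_of_nonneg_left h6 (by linarith)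
  have h7 : 2 ≤ Y := by
    rw [hYdef]
    nlinarith
  have h4 : 1 / c₁ * (L * s) ≤ 1 / c₁ * Y := mul_le_mul_of_nonneg_left h3 (by positivity)
  rw [h2] at h1
  linarith

lemma sb_numerics {C₁ C₄ c₁ c₃ B L s ℓ Qs τ m SA SE E Y X h : ℝ} (hC₁ : 1 ≤ C₁)
    (hC₄ : 1 ≤ C₄) (hc₁ : 0 < c₁) (hc₃ : 0 < c₃) (hB0 : 0 < B) (hL : 2 ≤ L)
    (hs1 : 1 ≤ s) (hℓ0 : 0 ≤ ℓ) (hℓL : ℓ ≤ L) (hQs : Qs = C₄ * (s + ℓ))
    (hτ : τ = C₄ * E) (hm0 : 0 ≤ m) (hE0 : 0 < E)
    (hYdef : Y = L * s ^ 2) (hX : X = (s + L) * (s + ℓ)) (hA : SA ≤ B * (s + L))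
    (hSek : SE ≤ 2 / c₃ * E) (hEk0 : 0 ≤ SE)
    (hh1 : h + 1 ≤ (1 / c₁ + 1) * Y) :
    8 * (8 * (Qs * m + 4 * τ) + 1800 * (Qs * (SA * (144 * m) + 4 * SE) + 4 * τ * (h + 1))) +
        8 * (3 / 2 * (SA * m + 4 * SE)) + 16 * (C₁ * s * E) + 48 * (C₁ * s * E) ≤
      (64 * C₄ + 2073600 * B * C₄ + 12 * B + 256 * C₄ +
        14400 * (16 * C₄ / c₃ + 4 * C₄ * (1 / c₁ + 1)) + 96 / c₃ + 64 * C₁ + 1) * (X * m) +
        (64 * C₄ + 2073600 * B * C₄ + 12 * B + 256 * C₄ +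
        14400 * (16 * C₄ / c₃ + 4 * C₄ * (1 / c₁ + 1)) + 96 / c₃ + 64 * C₁ + 1) * (Y * E) := by
  have hL0 : 0 ≤ L := by linarith
  have hC₄0 : 0 < C₄ := by linarith
  have hC₁0 : 0 < C₁ := by linarith
  have hQs0 : 0 ≤ Qs := by rw [hQs]; positivity
  have hτ0 : 0 ≤ τ := by rw [hτ]; positivity
  have h5 : (1:ℝ) ≤ s ^ 2 := one_le_pow₀ hs1
  have h6 : s ≤ s ^ 2 := by nlinarith
  have hsY : s ≤ Y := by
    rw [hYdef]
    nlinarith
  have hLY : L ≤ Y := by
    rw [hYdef]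
    nlinarith
  have h1Y : 1 ≤ Y := by linarith
  have hY0 : 0 < Y := by linarith
  have hX1 : s + ℓ ≤ X := by
    rw [hX]
    nlinarith
  have hX2 : s + L ≤ X := by
    rw [hX]
    nlinarith
  have hX0 : 0 < X := by linarith
  have hQsX : Qs ≤ C₄ * X := by rw [hQs]; exact mul_le_mul_of_nonneg_left hX1 hC₄0.le
  have hQsY : Qs ≤ C₄ * (2 * Y) := by
    rw [hQs]
    apply mul_le_mul_of_nonneg_left _ hC₄0.le
    linarith
  have hEY : E ≤ Y * E := by nlinarith
  have p1 : 64 * (Qs * m) ≤ 64 * C₄ * (X * m) := by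
    have := mul_le_mul_of_nonneg_right hQsX hm0
    linarith
  have p2 : 256 * τ ≤ 256 * C₄ * (Y * E) := by
    rw [hτ]
    have := mul_le_mul_of_nonneg_left hEY hC₄0.le
    linarith
  have p3 : Qs * (SA * (144 * m)) ≤ 144 * B * C₄ * (X * m) := by
    have h1 : Qs * SA ≤ Qs * (B * (s + L)) := mul_le_mul_of_nonneg_left hA hQs0
    have h2 := mul_le_mul_of_nonneg_right h1 (show 0 ≤ 144 * m by positivity)
    calc Qs * (SA * (144 * m)) = Qs * SA * (144 * m) := by ring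
      _ ≤ Qs * (B * (s + L)) * (144 * m) := h2
      _ = 144 * B * C₄ * (X * m) := by rw [hX, hQs]; ring
  have p4 : Qs * (4 * SE) ≤ 16 * C₄ / c₃ * (Y * E) := by
    calc Qs * (4 * SE) ≤ (C₄ * (2 * Y)) * (4 * (2 / c₃ * E)) :=
          mul_le_mul hQsY (by linarith) (by positivity) (by positivity)
      _ = 16 * C₄ / c₃ * (Y * E) := by ring
  have p5 : 4 * τ * (h + 1) ≤ 4 * C₄ * (1 / c₁ + 1) * (Y * E) := by
    have := mul_le_mul_of_nonneg_left hh1 (show 0 ≤ 4 * τ by positivity)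
    calc 4 * τ * (h + 1) ≤ 4 * τ * ((1 / c₁ + 1) * Y) := this
      _ = _ := by rw [hτ]; ring
  have p6 : SA * m ≤ B * (X * m) := by
    have h1 : SA ≤ B * X := hA.trans (mul_le_mul_of_nonneg_left hX2 hB0.le)
    have := mul_le_mul_of_nonneg_right h1 hm0
    linarith
  have p7 : 4 * SE ≤ 8 / c₃ * (Y * E) := by
    have h1 : 2 / c₃ * E ≤ 2 / c₃ * (Y * E) := mul_le_mul_of_nonneg_left hEY (by positivity)
    calc 4 * SE ≤ 4 * (2 / c₃ * (Y * E)) := by linarith
      _ = _ := by ring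
  have p8 : C₁ * s * E ≤ C₁ * (Y * E) := by
    have := mul_le_mul_of_nonneg_right hsY hE0.le
    have := mul_le_mul_of_nonneg_left this hC₁0.le
    linarith
  have hXm : 0 ≤ X * m := by positivity
  have hYE : 0 ≤ Y * E := by positivity
  have q1 : 0 ≤ (256 * C₄ + 14400 * (16 * C₄ / c₃ + 4 * C₄ * (1 / c₁ + 1)) + 96 / c₃ +
      64 * C₁ + 1) * (X * m) := by positivity
  have q2 : 0 ≤ (64 * C₄ + 2073600 * B * C₄ + 12 * B + 1) * (Y * E) := by positivity
  have e1 : (64 * C₄ + 2073600 * B * C₄ + 12 * B + 256 * C₄ +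
        14400 * (16 * C₄ / c₃ + 4 * C₄ * (1 / c₁ + 1)) + 96 / c₃ + 64 * C₁ + 1) * (X * m) =
      64 * C₄ * (X * m) + 14400 * (144 * B * C₄ * (X * m)) + 12 * (B * (X * m)) +
      (256 * C₄ + 14400 * (16 * C₄ / c₃ + 4 * C₄ * (1 / c₁ + 1)) + 96 / c₃ +
      64 * C₁ + 1) * (X * m) := by ring
  have e2 : (64 * C₄ + 2073600 * B * C₄ + 12 * B + 256 * C₄ +
        14400 * (16 * C₄ / c₃ + 4 * C₄ * (1 / c₁ + 1)) + 96 / c₃ + 64 * C₁ + 1) * (Y * E) =
      256 * C₄ * (Y * E) + 14400 * (16 * C₄ / c₃ * (Y * E)) +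
      14400 * (4 * C₄ * (1 / c₁ + 1) * (Y * E)) + 12 * (8 / c₃ * (Y * E)) +
      64 * (C₁ * (Y * E)) + (64 * C₄ + 2073600 * B * C₄ + 12 * B + 1) * (Y * E) := by ring
  rw [e1, e2]
  calc 8 * (8 * (Qs * m + 4 * τ) + 1800 * (Qs * (SA * (144 * m) + 4 * SE) + 4 * τ * (h + 1))) +
        8 * (3 / 2 * (SA * m + 4 * SE)) + 16 * (C₁ * s * E) + 48 * (C₁ * s * E)
      = 64 * (Qs * m) + 256 * τ + 14400 * (Qs * (SA * (144 * m)) + Qs * (4 * SE) +
        4 * τ * (h + 1)) + 12 * (SA * m + 4 * SE) + 64 * (C₁ * s * E) := by ring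
    _ ≤ _ := by linarith

/-- Estimate B for the bound `Sx`. -/
theorem stepB (hC : Crit G b β) (hκ : 1 ≤ κ) : ∃ C : ℝ, 1 ≤ C ∧
    ∀ t : ℝ, 0 < t → t ≤ 1 → ∀ L : ℝ, 2 ≤ L → ∃ h : ℕ,
    ∀ ν ν' : Measure ℝ, Scale κ t ν → Scale κ t ν' → ∀ (x o o' : V) (R R' : ℕ),
      bal G x (h + 1) ⊆ bal G o R → bal G x (h + 1) ⊆ bal G o' R' →
    ∀ p p' : (V × ℕ → unitInterval) → V → ℝ,
      PLaw G β ν (bal G o R) (iidLaw (V × ℕ)) p → PLaw G β ν' (bal G o' R') (iidLaw (V × ℕ)) p' →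
    ∀ m : ℝ, (∀ y ∈ bal G x (h + 1), ∫ ω, (mg G β (bal G o R) (p ω) y -
        mg G β (bal G o' R') (p' ω) y) ^ 2 ∂iidLaw (V × ℕ) ≤ m) →
    ∀ a : ℝ, 0 ≤ a → a ≤ 1 / 4 →
    ∫ ω, Sx G β a (bal G o R) (bal G o' R') x (fld (p ω)) (fld (p' ω)) ∂iidLaw (V × ℕ) ≤
      a ^ 2 * (C * (1 / √t + L) * (1 / √t + Real.log L) * m + C * (L / t) * Real.exp (-L)) := by
  obtain ⟨c₂, c₃, C₃, hc₂, hc₃, hC₃, hdev⟩ := path_dev (G := G) (β := β) hC hκ
  obtain ⟨C₄, hC₄, htail⟩ := tail_Q (G := G) (β := β) hC hκ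
  obtain ⟨C₁, c₁, hC₁, hc₁, hfar⟩ := far_le (G := G) (β := β) hC hκ
  set B : ℝ := C₃ + 2 / c₃ + 1 / c₂ + 1 with hB
  have hB0 : 0 < B := by positivity
  refine ⟨64 * C₄ + 2073600 * B * C₄ + 12 * B + 256 * C₄ +
    14400 * (16 * C₄ / c₃ + 4 * C₄ * (1 / c₁ + 1)) + 96 / c₃ + 64 * C₁ + 1, ?_, ?_⟩
  · have : 0 ≤ 64 * C₄ + 2073600 * B * C₄ + 12 * B + 256 * C₄ +
      14400 * (16 * C₄ / c₃ + 4 * C₄ * (1 / c₁ + 1)) + 96 / c₃ + 64 * C₁ := by positivity
    linarith
  intro t ht ht1 L hL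
  have hst : 0 < √t := Real.sqrt_pos.2 ht
  set h : ℕ := ⌈L / (c₁ * √t)⌉₊ with hh
  refine ⟨h, ?_⟩
  intro ν ν' hν hν' x o o' R R' hbD hbD' p p' hp hp' m hm a ha0 ha
  set D := bal G o R with hD
  set D' := bal G o' R' with hD'
  set P := iidLaw (V × ℕ) with hP
  have hconn : G.Connected := hC.tree.connected
  have hbal : bal G x h ⊆ bal G x (h + 1) := by
    intro u hu
    rw [mem_bal hconn] at hu ⊢
    omega
  have hxb : x ∈ bal G x h := by rw [mem_bal hconn, SimpleGraph.dist_self]; omega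
  have hxD : x ∈ D := hbD (hbal hxb)
  have hxD' : x ∈ D' := hbD' (hbal hxb)
  have hcD : Cvx G D := cvx_bal hC.tree o R
  have hcD' : Cvx G D' := cvx_bal hC.tree o' R'
  have hm0 : 0 ≤ m := le_trans (integral_nonneg fun ω => sq_nonneg _) (hm x (hbal hxb))
  have hL0 : 0 ≤ L := by linarith
  set s : ℝ := 1 / √t with hs
  have hs1 : 1 ≤ s := by
    rw [hs, le_div_iff₀ hst, one_mul]
    exact Real.sqrt_le_one.2 ht1
  have hlogL : 0 ≤ Real.log L := Real.log_nonneg (by linarith)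
  have hlogL' : Real.log L ≤ L := (Real.log_le_sub_one_of_pos (by linarith)).trans (by linarith)
  set Qs : ℝ := C₄ * (s + Real.log L) with hQs
  have hQs0 : 0 ≤ Qs := by positivity
  set k3 : ℝ := C₃ * s + 2 * L / c₃ with hk3
  have hk30 : 0 ≤ k3 := by positivity
  set al : ℕ → ℝ := fun k => if (k:ℝ) ≤ k3 then (1:ℝ) else Real.exp (-(c₂ * √t * k)) with hal
  set ek : ℕ → ℝ := fun k => if (k:ℝ) ≤ k3 then (0:ℝ) else Real.exp (-(c₃ * k)) with hek
  have hal0 : ∀ k, 0 ≤ al k := by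
    intro k
    simp only [hal]
    split_ifs
    · norm_num
    · positivity
  have hek0 : ∀ k, 0 ≤ ek k := by
    intro k
    simp only [hek]
    split_ifs
    · norm_num
    · positivity
  set τ : ℝ := C₄ * Real.exp (-L) with hτ
  have hτ0 : 0 ≤ τ := by positivity
  -- deviation of the energies
  have hdevD : ∀ u ∈ bal G x h, P.real {ω | al (G.dist x u) <
      Real.exp (-(Ac G β D x u (p ω)) / 4)} ≤ ek (G.dist x u) := by
    intro u hu
    simp only [hal, hek]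
    by_cases hk : ((G.dist x u : ℕ) : ℝ) ≤ k3
    · rw [if_pos hk, if_pos hk]
      have : {ω | (1:ℝ) < Real.exp (-(Ac G β D x u (p ω)) / 4)} = ∅ := by
        ext ω
        simp only [Set.mem_ofPred_eq, Set.mem_empty_iff_false, iff_false, not_lt]
        apply Real.exp_le_one_iff.2
        have := sb_Ac_nonneg (G := G) (β := β) D x u (p ω)
        linarith
      rw [this]
      simp
    · rw [if_neg hk, if_neg hk]
      apply sb_dev_tr hp
      refine hdev t ν ht ht1 hν o R x u hxD (hbD (hbal hu)) ?_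
      have h1 : C₃ / √t ≤ k3 := by
        rw [hk3, hs, mul_one_div]
        have : 0 ≤ 2 * L / c₃ := by positivity
        linarith
      exact h1.trans (not_le.1 hk).le
  have hdevD' : ∀ u ∈ bal G x h, P.real {ω | al (G.dist x u) <
      Real.exp (-(Ac G β D' x u (p' ω)) / 4)} ≤ ek (G.dist x u) := by
    intro u hu
    simp only [hal, hek]
    by_cases hk : ((G.dist x u : ℕ) : ℝ) ≤ k3
    · rw [if_pos hk, if_pos hk]
      have : {ω | (1:ℝ) < Real.exp (-(Ac G β D' x u (p' ω)) / 4)} = ∅ := by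
        ext ω
        simp only [Set.mem_ofPred_eq, Set.mem_empty_iff_false, iff_false, not_lt]
        apply Real.exp_le_one_iff.2
        have := sb_Ac_nonneg (G := G) (β := β) D' x u (p' ω)
        linarith
      rw [this]
      simp
    · rw [if_neg hk, if_neg hk]
      apply sb_dev_tr hp'
      refine hdev t ν' ht ht1 hν' o' R' x u hxD' (hbD' (hbal hu)) ?_
      have h1 : C₃ / √t ≤ k3 := by
        rw [hk3, hs, mul_one_div]
        have : 0 ≤ 2 * L / c₃ := by positivity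
        linarith
      exact h1.trans (not_le.1 hk).le
  -- tails of Q
  have htD : ∀ i ∈ bal G x h, ∀ n, ∫ ω, max (Qf G β D x n i (p ω) - Qs) 0 ∂P ≤ τ := by
    intro i hi n
    exact sb_tail_tr hp x i n hQs0 (htail t ν ht ht1 hν o R x i hxD (hbD (hbal hi)) n L hL)
  have htD' : ∀ i ∈ bal G x h, ∀ n, ∫ ω, max (Qf G β D' x n i (p' ω) - Qs) 0 ∂P ≤ τ := by
    intro i hi n
    exact sb_tail_tr hp' x i n hQs0 (htail t ν' ht ht1 hν' o' R' x i hxD' (hbD' (hbal hi)) n L hL)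
  have hT1 := sb_near1 hC hcD hcD' hbD hbD' hp.1 hp'.1 hm hm0 hQs0 hτ0 hal0 hek0 hdevD hdevD'
    htD htD'
  have hT2 := sb_near2 hC hcD' hbD' hp.1 hp'.1 hm hm0 hal0 hek0 hdevD'
  have hexpL : Real.exp (-(c₁ * √t * h)) ≤ Real.exp (-L) := by
    apply Real.exp_le_exp.2
    have h1 : L / (c₁ * √t) ≤ h := Nat.le_ceil _
    rw [div_le_iff₀ (by positivity)] at h1
    linarith
  have hT3 := sb_far (h := h) (B := C₁ * s * Real.exp (-L)) hC hcD hxD hp (by
    refine (hfar t ν ht ht1 hν o R x hxD h).trans ?_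
    rw [hs, mul_one_div]
    exact mul_le_mul_of_nonneg_left hexpL (by positivity))
  have hT4 := sb_far (h := h) (B := C₁ * s * Real.exp (-L)) hC hcD' hxD' hp' (by
    refine (hfar t ν' ht ht1 hν' o' R' x hxD' h).trans ?_
    rw [hs, mul_one_div]
    exact mul_le_mul_of_nonneg_left hexpL (by positivity))
  refine (sb_assembly hC hcD hcD' hbD hbD' hp.1 hp'.1 ha0 ha hT1 hT2 hT3 hT4).trans
    (mul_le_mul_of_nonneg_left ?_ (sq_nonneg a))
  have hSal : ∑ k ∈ range (h + 1), al k ≤ k3 + 1 + 1 / (c₂ * √t) :=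
    sb_sum_alpha (by positivity) hk30 (h + 1)
  have hSek : ∑ k ∈ range (h + 1), ek k ≤ 2 / c₃ * Real.exp (-L) :=
    sb_sum_e hc₃ (by
      rw [hk3]
      have : 0 ≤ C₃ * s := by positivity
      linarith) hL0 (h + 1)
  have hSf : ∑ k ∈ range (h + 1), (Qs * (al k * (144 * m) + 4 * ek k) + 4 * τ) =
      Qs * ((∑ k ∈ range (h + 1), al k) * (144 * m) +
      4 * ∑ k ∈ range (h + 1), ek k) + 4 * τ * (h + 1) := by
    rw [Finset.sum_add_distrib, ← Finset.mul_sum, Finset.sum_add_distrib, ← Finset.sum_mul,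
      ← Finset.mul_sum, Finset.sum_const, Finset.card_range, nsmul_eq_mul]
    push_cast
    ring
  have hSam : ∑ k ∈ range (h + 1), (al k * m + 4 * ek k) =
      (∑ k ∈ range (h + 1), al k) * m + 4 * ∑ k ∈ range (h + 1), ek k := by
    rw [Finset.sum_add_distrib, ← Finset.sum_mul, ← Finset.mul_sum]
  have hs2 : s ^ 2 = 1 / t := by
    rw [hs, div_pow, one_pow, Real.sq_sqrt ht.le]
  have hY : L / t = L * s ^ 2 := by rw [hs2]; ring
  rw [hSf, hSam, hY]
  refine (sb_numerics (X := (s + L) * (s + Real.log L)) hC₁ hC₄ hc₁ hc₃ hB0 hL hs1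
    hlogL hlogL' hQs hτ hm0 (Real.exp_pos _) rfl rfl
    (hSal.trans (sb_num_sum hC₃ hc₂ hc₃ hB ht hL hs hs1 hk3)) hSek
    (Finset.sum_nonneg fun k _ => hek0 k)
    (sb_num_h hc₁ ht hL hs hs1 rfl (Nat.ceil_lt_add_one (by positivity)))).trans (le_of_eq ?_)
  ring

end Vale.Agent.P161C
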