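import Vale.Agent.Lib.P161C.Lln
import Vale.Agent.Lib.P161C.Path
import Vale.Agent.Lib.P161C.StepB1
import Vale.Agent.Lib.P161C.StepB2

/-!
P161 critical, module STEPA (section 10 of notes/P161crit/proof.md): estimate A at a fixed small
time, for a pair of random fields with planted laws (arbitrary coupling).
`h = ⌈t^(-1/2-1/24)⌉`, `r = ⌈C_N log(1/t)⌉`.
Uses LLN, PATH (`far_le`), STEPB-1 (`Sx_le`), ROOTED, MOMENTS (`mom_le`).
-/

open Finset MeasureTheory

namespace Vale.Agent.P161C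
open Vale.Agent.P161

/-! ### Bounded measurable functions and `L²` bounds -/

section SaL2

variable {Ω : Type*} [MeasurableSpace Ω] {P : Measure Ω}

/-- Bounded measurable functions. -/
structure SaB (f : Ω → ℝ) : Prop where
  meas : Measurable f
  bdd : ∃ C : ℝ, ∀ ω, |f ω| ≤ C

lemma SaB.const (c : ℝ) : SaB (fun _ : Ω => c) := ⟨measurable_const, |c|, fun _ => le_rfl⟩

lemma SaB.add {f g : Ω → ℝ} (hf : SaB f) (hg : SaB g) : SaB (fun ω => f ω + g ω) := by
  obtain ⟨C, hC⟩ := hf.bdd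
  obtain ⟨C', hC'⟩ := hg.bdd
  exact ⟨hf.meas.add hg.meas, C + C', fun ω => (abs_add_le _ _).trans (add_le_add (hC ω) (hC' ω))⟩

lemma SaB.mul {f g : Ω → ℝ} (hf : SaB f) (hg : SaB g) : SaB (fun ω => f ω * g ω) := by
  obtain ⟨C, hC⟩ := hf.bdd
  obtain ⟨C', hC'⟩ := hg.bdd
  refine ⟨hf.meas.mul hg.meas, C * C', fun ω => ?_⟩
  rw [abs_mul]
  exact mul_le_mul (hC ω) (hC' ω) (abs_nonneg _) ((abs_nonneg _).trans (hC ω))

lemma SaB.sub {f g : Ω → ℝ} (hf : SaB f) (hg : SaB g) : SaB (fun ω => f ω - g ω) := by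
  have h := hf.add ((SaB.const (-1)).mul hg)
  have e : (fun ω => f ω + -1 * g ω) = fun ω => f ω - g ω := by funext ω; ring
  rwa [e] at h

lemma SaB.pow {f : Ω → ℝ} (hf : SaB f) (n : ℕ) : SaB (fun ω => f ω ^ n) := by
  obtain ⟨C, hC⟩ := hf.bdd
  refine ⟨hf.meas.pow_const n, C ^ n, fun ω => ?_⟩
  rw [abs_pow]
  exact pow_le_pow_left₀ (abs_nonneg _) (hC ω) n

lemma SaB.abs {f : Ω → ℝ} (hf : SaB f) : SaB (fun ω => |f ω|) := by
  obtain ⟨C, hC⟩ := hf.bdd
  exact ⟨hf.meas.abs, C, fun ω => by rw [abs_abs]; exact hC ω⟩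

lemma SaB.sum {ι : Type*} (s : Finset ι) {f : ι → Ω → ℝ} (hf : ∀ i ∈ s, SaB (f i)) :
    SaB (fun ω => ∑ i ∈ s, f i ω) := by
  classical
  induction s using Finset.induction_on with
  | empty => simpa using SaB.const (Ω := Ω) 0
  | insert i s hi ih =>
    have e : (fun ω => ∑ k ∈ insert i s, f k ω) = fun ω => f i ω + ∑ k ∈ s, f k ω := by
      funext ω; rw [Finset.sum_insert hi]
    rw [e]
    exact (hf i (Finset.mem_insert_self i s)).add
      (ih fun k hk => hf k (Finset.mem_insert_of_mem hk))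

lemma SaB.prod {ι : Type*} (s : Finset ι) {f : ι → Ω → ℝ} (hf : ∀ i ∈ s, SaB (f i)) :
    SaB (fun ω => ∏ i ∈ s, f i ω) := by
  classical
  induction s using Finset.induction_on with
  | empty => simpa using SaB.const (Ω := Ω) 1
  | insert i s hi ih =>
    have e : (fun ω => ∏ k ∈ insert i s, f k ω) = fun ω => f i ω * ∏ k ∈ s, f k ω := by
      funext ω; rw [Finset.prod_insert hi]
    rw [e]
    exact (hf i (Finset.mem_insert_self i s)).mul
      (ih fun k hk => hf k (Finset.mem_insert_of_mem hk))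

lemma SaB.integrable [IsProbabilityMeasure P] {f : Ω → ℝ} (hf : SaB f) : Integrable f P := by
  obtain ⟨C, hC⟩ := hf.bdd
  exact Integrable.of_bound hf.meas.aestronglyMeasurable C (Filter.Eventually.of_forall hC)

/-- `‖f‖₂ ≤ A`. -/
structure SaL (P : Measure Ω) (f : Ω → ℝ) (A : ℝ) : Prop where
  b : SaB f
  nn : 0 ≤ A
  le : ∫ ω, f ω ^ 2 ∂P ≤ A ^ 2

variable [IsProbabilityMeasure P]

lemma SaL.cs {f g : Ω → ℝ} {A B : ℝ} (hf : SaL P f A) (hg : SaL P g B) :
    ∫ ω, f ω * g ω ∂P ≤ A * B := by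
  rcases hf.nn.eq_or_lt with h0 | hA
  · have h1 : ∫ ω, f ω ^ 2 ∂P = 0 := by
      apply le_antisymm
      · have := hf.le; rw [← h0] at this; simpa using this
      · exact integral_nonneg fun _ => sq_nonneg _
    rw [integral_eq_zero_iff_of_nonneg (fun _ => sq_nonneg _) (hf.b.pow 2).integrable] at h1
    have h2 : ∫ ω, f ω * g ω ∂P = 0 := by
      apply integral_eq_zero_of_ae
      filter_upwards [h1] with ω hω
      have : f ω = 0 := by simpa using hω
      simp [this]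
    rw [h2, ← h0, zero_mul]
  rcases hg.nn.eq_or_lt with h0 | hB
  · have h1 : ∫ ω, g ω ^ 2 ∂P = 0 := by
      apply le_antisymm
      · have := hg.le; rw [← h0] at this; simpa using this
      · exact integral_nonneg fun _ => sq_nonneg _
    rw [integral_eq_zero_iff_of_nonneg (fun _ => sq_nonneg _) (hg.b.pow 2).integrable] at h1
    have h2 : ∫ ω, f ω * g ω ∂P = 0 := by
      apply integral_eq_zero_of_ae
      filter_upwards [h1] with ω hω
      have : g ω = 0 := by simpa using hω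
      simp [this]
    rw [h2, ← h0, mul_zero]
  have h1 : 0 ≤ ∫ ω, (B * f ω - A * g ω) ^ 2 ∂P := integral_nonneg fun _ => sq_nonneg _
  have h2 : ∫ ω, (B * f ω - A * g ω) ^ 2 ∂P =
      B ^ 2 * ∫ ω, f ω ^ 2 ∂P + A ^ 2 * ∫ ω, g ω ^ 2 ∂P - 2 * A * B * ∫ ω, f ω * g ω ∂P := by
    rw [← integral_const_mul, ← integral_const_mul, ← integral_const_mul, ← integral_add,
      ← integral_sub]
    · exact integral_congr_ae (Filter.Eventually.of_forall fun ω => by ring)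
    · exact (((hf.b.pow 2).integrable (P := P)).const_mul _).add
        (((hg.b.pow 2).integrable (P := P)).const_mul _)
    · exact ((hf.b.mul hg.b).integrable (P := P)).const_mul _
    · exact ((hf.b.pow 2).integrable (P := P)).const_mul _
    · exact ((hg.b.pow 2).integrable (P := P)).const_mul _
  rw [h2] at h1
  have h3 := mul_le_mul_of_nonneg_left hf.le (sq_nonneg B)
  have h4 := mul_le_mul_of_nonneg_left hg.le (sq_nonneg A)
  have h5 : A * B * ∫ ω, f ω * g ω ∂P ≤ A * B * (A * B) := by nlinarith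
  exact le_of_mul_le_mul_left h5 (mul_pos hA hB)

omit [IsProbabilityMeasure P] in
lemma SaL.mono {f : Ω → ℝ} {A B : ℝ} (hf : SaL P f A) (h : A ≤ B) : SaL P f B :=
  ⟨hf.b, hf.nn.trans h, hf.le.trans (pow_le_pow_left₀ hf.nn h 2)⟩

lemma SaL.of_le {f g : Ω → ℝ} {A c : ℝ} (hg : SaL P g A) (hf : SaB f) (hc : 0 ≤ c)
    (h : ∀ ω, |f ω| ≤ c * |g ω|) : SaL P f (c * A) := by
  refine ⟨hf, mul_nonneg hc hg.nn, ?_⟩
  have h1 : ∫ ω, f ω ^ 2 ∂P ≤ ∫ ω, c ^ 2 * g ω ^ 2 ∂P := by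
    apply integral_mono ((hf.pow 2).integrable) (((hg.b.pow 2).integrable).const_mul _)
    intro ω
    show f ω ^ 2 ≤ c ^ 2 * g ω ^ 2
    have := pow_le_pow_left₀ (abs_nonneg _) (h ω) 2
    rwa [sq_abs, mul_pow, sq_abs] at this
  rw [integral_const_mul] at h1
  rw [mul_pow]
  exact h1.trans (mul_le_mul_of_nonneg_left hg.le (sq_nonneg c))

lemma SaL.add {f g : Ω → ℝ} {A B : ℝ} (hf : SaL P f A) (hg : SaL P g B) :
    SaL P (fun ω => f ω + g ω) (A + B) := by
  refine ⟨hf.b.add hg.b, add_nonneg hf.nn hg.nn, ?_⟩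
  have h2 : ∫ ω, (f ω + g ω) ^ 2 ∂P =
      ∫ ω, f ω ^ 2 ∂P + ∫ ω, g ω ^ 2 ∂P + 2 * ∫ ω, f ω * g ω ∂P := by
    rw [← integral_const_mul, ← integral_add, ← integral_add]
    · exact integral_congr_ae (Filter.Eventually.of_forall fun ω => by ring)
    · exact ((hf.b.pow 2).integrable (P := P)).add ((hg.b.pow 2).integrable (P := P))
    · exact ((hf.b.mul hg.b).integrable (P := P)).const_mul _
    · exact (hf.b.pow 2).integrable (P := P)
    · exact (hg.b.pow 2).integrable (P := P)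
  rw [h2]
  nlinarith [hf.le, hg.le, hf.cs hg]

lemma SaL.neg {f : Ω → ℝ} {A : ℝ} (hf : SaL P f A) : SaL P (fun ω => - f ω) A := by
  have h := hf.of_le (f := fun ω => - f ω) (c := 1)
    (by have := (SaB.const (Ω := Ω) (-1)).mul hf.b
        simpa using this) zero_le_one (fun ω => by rw [abs_neg, one_mul])
  rwa [one_mul] at h

lemma SaL.sub {f g : Ω → ℝ} {A B : ℝ} (hf : SaL P f A) (hg : SaL P g B) :
    SaL P (fun ω => f ω - g ω) (A + B) := by
  have h := hf.add hg.neg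
  simpa [sub_eq_add_neg] using h

lemma SaL.abs {f : Ω → ℝ} {A : ℝ} (hf : SaL P f A) : SaL P (fun ω => |f ω|) A := by
  have h := hf.of_le (f := fun ω => |f ω|) (c := 1) hf.b.abs zero_le_one
    (fun ω => by rw [abs_abs, one_mul])
  rwa [one_mul] at h

omit [IsProbabilityMeasure P] in
lemma SaL.zero : SaL P (fun _ : Ω => (0 : ℝ)) 0 := ⟨SaB.const 0, le_rfl, by simp⟩

lemma SaL.sum {ι : Type*} (s : Finset ι) {f : ι → Ω → ℝ} {A : ℝ} {n : ℕ} (hA : 0 ≤ A)
    (hn : s.card ≤ n)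
    (hf : ∀ i ∈ s, SaL P (f i) A) : SaL P (fun ω => ∑ i ∈ s, f i ω) (n * A) := by
  classical
  have key : ∀ s : Finset ι, (∀ i ∈ s, SaL P (f i) A) →
      SaL P (fun ω => ∑ i ∈ s, f i ω) (s.card * A) := by
    intro s
    induction s using Finset.induction_on with
    | empty => intro _; simpa using SaL.zero
    | insert i s hi ih =>
      intro hf
      have e : (fun ω => ∑ k ∈ insert i s, f k ω) = fun ω => f i ω + ∑ k ∈ s, f k ω := by
        funext ω; rw [Finset.sum_insert hi]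
      rw [e]
      have h := (hf i (Finset.mem_insert_self i s)).add
        (ih fun k hk => hf k (Finset.mem_insert_of_mem hk))
      refine h.mono (le_of_eq ?_)
      rw [Finset.card_insert_of_notMem hi]; push_cast; ring
  exact (key s hf).mono (mul_le_mul_of_nonneg_right (by exact_mod_cast hn) hA)

end SaL2

variable {V : Type*} [DecidableEq V] {G : SimpleGraph V} [DecidableRel G.Adj] [G.LocallyFinite]
  {b : ℕ} {β : ℝ} {κ : ℝ}

/-! ### The functionals are bounded, measurable and local -/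

omit [DecidableEq V] in
lemma Fn.sab {D : Finset V} {F : (V → ℝ) → ℝ} (hF : Fn D F) : SaB F := ⟨hF.meas, hF.bdd⟩

omit [DecidableEq V] in
lemma SaB.comp_meas {Ω : Type*} [MeasurableSpace Ω] {F : (V → ℝ) → ℝ} (hF : SaB F)
    {p : Ω → V → ℝ} (hp : Measurable p) : SaB (fun ω => F (p ω)) := by
  obtain ⟨C, hC⟩ := hF.bdd
  exact ⟨hF.meas.comp hp, C, fun ω => hC _⟩

omit [DecidableEq V] in
lemma sa_fn_const (D : Finset V) (c : ℝ) : Fn D (fun _ => c) :=
  ⟨measurable_const, ⟨|c|, fun _ => le_rfl⟩, fun _ _ _ => rfl⟩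

omit [DecidableEq V] in
lemma Fn.sa_add {D : Finset V} {F F' : (V → ℝ) → ℝ} (hF : Fn D F) (hF' : Fn D F') :
    Fn D (fun p => F p + F' p) :=
  ⟨(hF.sab.add hF'.sab).meas, (hF.sab.add hF'.sab).bdd,
    fun p q h => by rw [hF.dep p q h, hF'.dep p q h]⟩

omit [DecidableEq V] in
lemma Fn.sa_sub {D : Finset V} {F F' : (V → ℝ) → ℝ} (hF : Fn D F) (hF' : Fn D F') :
    Fn D (fun p => F p - F' p) :=
  ⟨(hF.sab.sub hF'.sab).meas, (hF.sab.sub hF'.sab).bdd,
    fun p q h => by rw [hF.dep p q h, hF'.dep p q h]⟩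

omit [DecidableEq V] in
lemma Fn.sa_mul {D : Finset V} {F F' : (V → ℝ) → ℝ} (hF : Fn D F) (hF' : Fn D F') :
    Fn D (fun p => F p * F' p) :=
  ⟨(hF.sab.mul hF'.sab).meas, (hF.sab.mul hF'.sab).bdd,
    fun p q h => by rw [hF.dep p q h, hF'.dep p q h]⟩

omit [DecidableEq V] in
lemma Fn.sa_pow {D : Finset V} {F : (V → ℝ) → ℝ} (hF : Fn D F) (n : ℕ) :
    Fn D (fun p => F p ^ n) :=
  ⟨(hF.sab.pow n).meas, (hF.sab.pow n).bdd, fun p q h => by rw [hF.dep p q h]⟩

omit [DecidableEq V] in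
lemma Fn.sa_sum {D : Finset V} {ι : Type*} (s : Finset ι) {F : ι → (V → ℝ) → ℝ}
    (hF : ∀ i ∈ s, Fn D (F i)) : Fn D (fun p => ∑ i ∈ s, F i p) :=
  ⟨(SaB.sum s fun i hi => (hF i hi).sab).meas, (SaB.sum s fun i hi => (hF i hi).sab).bdd,
    fun p q h => Finset.sum_congr rfl fun i hi => (hF i hi).dep p q h⟩

omit [DecidableEq V] in
lemma Fn.sa_prod {D : Finset V} {ι : Type*} (s : Finset ι) {F : ι → (V → ℝ) → ℝ}
    (hF : ∀ i ∈ s, Fn D (F i)) : Fn D (fun p => ∏ i ∈ s, F i p) :=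
  ⟨(SaB.prod s fun i hi => (hF i hi).sab).meas, (SaB.prod s fun i hi => (hF i hi).sab).bdd,
    fun p q h => Finset.prod_congr rfl fun i hi => (hF i hi).dep p q h⟩

omit [DecidableEq V] in
lemma Fn.sa_mono {D D' : Finset V} {F : (V → ℝ) → ℝ} (hF : Fn D F) (h : D ⊆ D') : Fn D' F :=
  ⟨hF.meas, hF.bdd, fun p q hpq => hF.dep p q fun v hv => hpq v (h hv)⟩

omit [G.LocallyFinite] in
lemma sa_fn_mg (D : Finset V) (i : V) : Fn D (fun p => mg G β D p i) :=
  ⟨measurable_mg D i, ⟨1, fun p => abs_mg_le D p i⟩, fun _ _ h => mg_congr h i⟩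

omit [G.LocallyFinite] in
lemma sa_fn_ms (D : Finset V) (x i : V) : Fn D (fun p => ms G β D x p i) :=
  (sa_fn_mg (G := G) (β := β) (br G D x i) i).sa_mono (br_subset D x i)

omit [DecidableEq V] [DecidableRel G.Adj] in
lemma sa_tanh (hC : Crit G b β) : 0 < Real.tanh β ∧ Real.tanh β < 1 ∧ Real.tanh β ^ 2 ≤ 1 / 2 ∧
    (b : ℝ) * Real.tanh β ^ 2 = 1 := by
  have h1 := hC.crit
  have hb : (2 : ℝ) ≤ b := by exact_mod_cast hC.hb
  have h0 : 0 ≤ Real.tanh β := tanh_nonneg hC.hβ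
  have h2 : Real.tanh β ≠ 0 := by
    intro h; rw [h] at h1; norm_num at h1
  refine ⟨lt_of_le_of_ne h0 (Ne.symm h2), Real.tanh_lt_one β, ?_, h1⟩
  have := sq_nonneg (Real.tanh β)
  nlinarith

omit [DecidableEq V] in
lemma sa_measurable_slope (θ : ℝ) : Measurable (fun m => P161.slope θ m) := by
  unfold P161.slope
  fun_prop

lemma sa_abs_slope_le (hC : Crit G b β) {m : ℝ} (hm : |m| ≤ 1) :
    0 ≤ slope (Real.tanh β) m ∧ slope (Real.tanh β) m ≤ Real.tanh β := by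
  obtain ⟨h0, h1, _, _⟩ := sa_tanh hC
  exact ⟨slope_nonneg h0.le h1 hm, slope_le h0.le h1 hm⟩

lemma sa_fn_slope (hC : Crit G b β) (D : Finset V) (x i : V) :
    Fn D (fun p => slope (Real.tanh β) (ms G β D x p i)) := by
  have h := sa_fn_ms (G := G) (β := β) D x i
  refine ⟨(sa_measurable_slope _).comp h.meas, ⟨1, fun p => ?_⟩, fun p q hpq => ?_⟩
  · obtain ⟨h0, h1⟩ := sa_abs_slope_le hC (m := ms G β D x p i) (abs_mg_le _ _ _)
    rw [abs_of_nonneg h0]
    exact h1.trans (sa_tanh hC).2.1.le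
  · rw [h.dep p q hpq]

lemma sa_fn_Pf (hC : Crit G b β) (D : Finset V) (x : V) (n : ℕ) :
    ∀ i, Fn D (fun p => Pf G β D x n i p) := by
  induction n with
  | zero => intro i; exact sa_fn_const D 1
  | succ n ih =>
    intro i
    exact (sa_fn_const D 1).sa_add
      (Fn.sa_sum _ fun c _ => ((sa_fn_slope hC D x c).sa_pow 2).sa_mul (ih c))

lemma sa_fn_Lf (hC : Crit G b β) (D : Finset V) (x : V) (q : V → ℝ) (n : ℕ) :
    ∀ i, Fn D (fun p => Lf G β D x q n i p) := by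
  induction n with
  | zero => intro i; exact sa_fn_const D (q i)
  | succ n ih =>
    intro i
    exact (sa_fn_const D 1).sa_add
      (Fn.sa_sum _ fun c _ => ((sa_fn_slope hC D x c).sa_pow 2).sa_mul (ih c))

lemma sa_fn_Wt (hC : Crit G b β) (D : Finset V) (x j c : V) :
    Fn D (fun p => Wt G β D x j c p) := by
  unfold Wt
  refine Fn.sa_prod _ fun i _ => ?_
  have h := ((sa_fn_slope hC D x i).sa_mul (sa_fn_const D (Real.tanh β)⁻¹)).sa_pow 2
  have e : (fun p : V → ℝ => (slope (Real.tanh β) (ms G β D x p i) / Real.tanh β) ^ 2) =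
      fun p => (slope (Real.tanh β) (ms G β D x p i) * (Real.tanh β)⁻¹) ^ 2 := by
    funext p; rw [div_eq_mul_inv]
  rw [e]; exact h

lemma sa_Wt_mem (hC : Crit G b β) (D : Finset V) (x j c : V) (p : V → ℝ) :
    0 ≤ Wt G β D x j c p ∧ Wt G β D x j c p ≤ 1 := by
  unfold Wt
  have h0 := (sa_tanh hC).1
  refine ⟨Finset.prod_nonneg fun i _ => sq_nonneg _, Finset.prod_le_one (fun i _ => sq_nonneg _)
    fun i _ => ?_⟩
  obtain ⟨h1, h2⟩ := sa_abs_slope_le hC (m := ms G β D x p i) (abs_mg_le _ _ _)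
  have h3 : slope (Real.tanh β) (ms G β D x p i) / Real.tanh β ≤ 1 := by
    rw [div_le_one h0]; exact h2
  have h4 : 0 ≤ slope (Real.tanh β) (ms G β D x p i) / Real.tanh β := div_nonneg h1 h0.le
  nlinarith

lemma sa_fn_cv (hC : Crit G b β) {D : Finset V} (hD : Cvx G D) {x u : V} (hx : x ∈ D)
    (hu : u ∈ D) : Fn D (fun p => cv G β D p x u) := by
  refine ⟨measurable_cv D x u, ⟨1, fun p => ?_⟩, fun _ _ h => cv_congr h x u⟩
  rw [cv_eq_prod hC.tree hD hx hu, abs_mul]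
  have h1 := abs_mg_le (G := G) (β := β) D p x
  have h2 := sq_le_one_of_abs h1
  have h3 : |1 - mg G β D p x ^ 2| ≤ 1 := by
    rw [abs_of_nonneg (by linarith)]; nlinarith [sq_nonneg (mg G β D p x)]
  have h4 : |∏ i ∈ pth G D x u, slope (Real.tanh β) (ms G β D x p i)| ≤ 1 := by
    rw [Finset.abs_prod]
    refine Finset.prod_le_one (fun i _ => abs_nonneg _) fun i _ => ?_
    obtain ⟨k1, k2⟩ := sa_abs_slope_le hC (m := ms G β D x p i) (abs_mg_le _ _ _)
    rw [abs_of_nonneg k1]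
    exact k2.trans (sa_tanh hC).2.1.le
  calc |1 - mg G β D p x ^ 2| * |∏ i ∈ pth G D x u, slope (Real.tanh β) (ms G β D x p i)|
      ≤ 1 * 1 := mul_le_mul h3 h4 (abs_nonneg _) zero_le_one
    _ = 1 := one_mul 1

omit [G.LocallyFinite] in
lemma sa_Pf_eq_Lf (D : Finset V) (x : V) (n : ℕ) :
    ∀ i p, Pf G β D x n i p = Lf G β D x (fun _ => 1) n i p := by
  induction n with
  | zero => intro i p; rfl
  | succ n ih =>
    intro i p
    show 1 + ∑ c ∈ ch G D x i, slope (Real.tanh β) (ms G β D x p c) ^ 2 * Pf G β D x n c p =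
      1 + ∑ c ∈ ch G D x i, slope (Real.tanh β) (ms G β D x p c) ^ 2 *
        Lf G β D x (fun _ => 1) n c p
    rw [Finset.sum_congr rfl fun c _ => by rw [ih c p]]

omit [DecidableRel G.Adj] in
lemma sa_ch_congr [DecidableRel G.Adj] (hG : G.IsTree) {D D' : Finset V} {x i : V} {R : ℕ}
    (hx : bal G x R ⊆ D) (hx' : bal G x R ⊆ D') (hR : G.dist x i + 1 ≤ R) :
    ch G D x i = ch G D' x i := by
  ext c
  rw [mem_ch, mem_ch]
  have key : G.dist x c = G.dist x i + 1 → c ∈ bal G x R := by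
    intro h; rw [mem_bal hG.connected]; omega
  constructor
  · rintro ⟨_, h1, h2⟩; exact ⟨hx' (key h2), h1, h2⟩
  · rintro ⟨_, h1, h2⟩; exact ⟨hx (key h2), h1, h2⟩

omit [DecidableRel G.Adj] in
lemma sa_pth_congr (hG : G.IsTree) {D D' : Finset V} {x i u : V} {R : ℕ}
    (hx : bal G x R ⊆ D) (hx' : bal G x R ⊆ D') (hu : G.dist x i + G.dist i u = G.dist x u)
    (hR : G.dist x u ≤ R) : pth G D i u = pth G D' i u := by
  ext k
  unfold pth
  rw [Finset.mem_filter, Finset.mem_filter]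
  have key : k ≠ i ∧ G.dist i k + G.dist k u = G.dist i u → k ∈ bal G x R := by
    rintro ⟨_, h2⟩
    rw [mem_bal hG.connected]
    have h3 : G.dist x k ≤ G.dist x i + G.dist i k := hG.connected.dist_triangle
    omega
  constructor
  · rintro ⟨_, h⟩; exact ⟨hx' (key h), h⟩
  · rintro ⟨_, h⟩; exact ⟨hx (key h), h⟩

omit [DecidableRel G.Adj] in
lemma sa_br_congr (hG : G.IsTree) {D D' : Finset V} {x i : V} {n R : ℕ}
    (hx : bal G x R ⊆ D) (hx' : bal G x R ⊆ D') (hR : G.dist x i + n ≤ R) :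
    (br G D x i).filter (fun u => G.dist i u ≤ n) =
      (br G D' x i).filter (fun u => G.dist i u ≤ n) := by
  ext u
  rw [Finset.mem_filter, Finset.mem_filter, mem_br, mem_br]
  have key : G.dist x i + G.dist i u = G.dist x u → G.dist i u ≤ n → u ∈ bal G x R := by
    intro h1 h2
    rw [mem_bal hG.connected]; omega
  constructor
  · rintro ⟨⟨_, h⟩, h'⟩; exact ⟨⟨hx' (key h h'), h⟩, h'⟩
  · rintro ⟨⟨_, h⟩, h'⟩; exact ⟨⟨hx (key h h'), h⟩, h'⟩

variable (G) in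
/-- Squared differences of the products of slopes over the geodesics from `i` to the vertices
beyond `i` at distance `≤ n`. -/
noncomputable def Dl (β : ℝ) (D D' : Finset V) (x : V) (n : ℕ) (i : V) (p p' : V → ℝ) : ℝ :=
  ∑ u ∈ (br G D x i).filter (fun u => G.dist i u ≤ n),
    (∏ k ∈ pth G D i u, slope (Real.tanh β) (ms G β D x p k) -
      ∏ k ∈ pth G D i u, slope (Real.tanh β) (ms G β D' x p' k)) ^ 2

/-- Exact recursion for `Dl`; the two volumes agree near `x`. -/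
lemma Dl_succ (hC : Crit G b β) {D D' : Finset V} (hD : Cvx G D) (hD' : Cvx G D') {x i : V}
    {n : ℕ} (hx : bal G x (G.dist x i + n + 1) ⊆ D) (hx' : bal G x (G.dist x i + n + 1) ⊆ D')
    (p p' : V → ℝ) :
    Dl G β D D' x (n + 1) i p p' = ∑ c ∈ ch G D x i,
      (slope (Real.tanh β) (ms G β D x p c) * slope (Real.tanh β) (ms G β D' x p' c) *
        Dl G β D D' x n c p p' +
      1 / 2 * (slope (Real.tanh β) (ms G β D x p c) - slope (Real.tanh β) (ms G β D' x p' c)) ^ 2 *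
        (Pf G β D x n c p + Pf G β D' x n c p') +
      1 / 2 * (slope (Real.tanh β) (ms G β D x p c) ^ 2 -
        slope (Real.tanh β) (ms G β D' x p' c) ^ 2) *
        (Pf G β D x n c p - Pf G β D' x n c p')) := by
  have hG := hC.tree
  have hxD : x ∈ D := hx (by rw [mem_bal hG.connected, SimpleGraph.dist_self]; omega)
  have hxD' : x ∈ D' := hx' (by rw [mem_bal hG.connected, SimpleGraph.dist_self]; omega)
  have hiD : i ∈ D := hx (by rw [mem_bal hG.connected]; omega)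
  set θ := Real.tanh β with hθ
  set F : V → V → ℝ := fun i u => (∏ k ∈ pth G D i u, slope θ (ms G β D x p k) -
      ∏ k ∈ pth G D i u, slope θ (ms G β D' x p' k)) ^ 2 with hF
  have h1 : Dl G β D D' x (n + 1) i p p' =
      ∑ u ∈ (br G D x i).filter (fun u => G.dist i u ≤ n + 1), F i u := rfl
  have hins := br_eq_insert_biUnion hG hD hxD hiD
  have hbr : ∀ c ∈ ch G D x i, ∀ u ∈ br G D x c, G.dist i u = G.dist c u + 1 := by
    intro c hc u hu
    have hu2 : u ∈ br G D x i := ch_subset_br hG hc hu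
    rw [mem_br] at hu hu2
    rw [mem_ch] at hc
    omega
  have h2 : (br G D x i).filter (fun u => G.dist i u ≤ n + 1) =
      insert i ((ch G D x i).biUnion
        (fun c => (br G D x c).filter (fun u => G.dist c u ≤ n))) := by
    ext u
    rw [Finset.mem_filter, hins, Finset.mem_insert, Finset.mem_insert, Finset.mem_biUnion,
      Finset.mem_biUnion]
    constructor
    · rintro ⟨h | ⟨c, hc, hu⟩, h'⟩
      · exact Or.inl h
      · refine Or.inr ⟨c, hc, ?_⟩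
        rw [Finset.mem_filter]
        have := hbr c hc u hu
        exact ⟨hu, by omega⟩
    · rintro (h | ⟨c, hc, hu⟩)
      · refine ⟨Or.inl h, ?_⟩
        rw [h, SimpleGraph.dist_self]; omega
      · rw [Finset.mem_filter] at hu
        have := hbr c hc u hu.1
        exact ⟨Or.inr ⟨c, hc, hu.1⟩, by omega⟩
  have h3 : i ∉ (ch G D x i).biUnion
        (fun c => (br G D x c).filter (fun u => G.dist c u ≤ n)) := by
    rw [Finset.mem_biUnion]
    rintro ⟨c, hc, hi⟩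
    rw [Finset.mem_filter, mem_br] at hi
    rw [mem_ch] at hc
    omega
  rw [h1, h2, Finset.sum_insert h3, Finset.sum_biUnion]
  swap
  · intro c hc c' hc' hne
    have hc1 := Finset.mem_coe.mp hc
    have hc2 := Finset.mem_coe.mp hc'
    rw [mem_ch] at hc1 hc2
    have := br_disjoint (D := D) hG hne (x := x) (by omega)
    exact Finset.disjoint_of_subset_left (Finset.filter_subset _ _)
      (Finset.disjoint_of_subset_right (Finset.filter_subset _ _) this)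
  have h4 : F i i = 0 := by
    rw [hF]; simp only
    rw [pth_self D i hG]; simp
  rw [h4, zero_add]
  refine Finset.sum_congr rfl fun c hc => ?_
  have hc' := hc
  rw [mem_ch] at hc'
  have hcx : G.dist x c + n ≤ G.dist x i + n + 1 := by omega
  set s := slope θ (ms G β D x p c) with hs
  set s' := slope θ (ms G β D' x p' c) with hs'
  set T := (br G D x c).filter (fun u => G.dist c u ≤ n) with hT
  set w : V → ℝ := fun u => ∏ k ∈ pth G D c u, slope θ (ms G β D x p k) with hw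
  set w' : V → ℝ := fun u => ∏ k ∈ pth G D c u, slope θ (ms G β D' x p' k) with hw'
  have hcD : c ∈ D := hc'.1
  have hcD' : c ∈ D' := hx' (by rw [mem_bal hG.connected]; omega)
  have e1 : ∑ u ∈ T, F i u = ∑ u ∈ T, (s * w u - s' * w' u) ^ 2 := by
    refine Finset.sum_congr rfl fun u hu => ?_
    rw [hT, Finset.mem_filter] at hu
    obtain ⟨k1, k2⟩ := pth_cons hG hD hxD hc hu.1
    rw [hF]; simp only
    rw [k1, Finset.prod_insert k2, Finset.prod_insert k2]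
  have e2 : Dl G β D D' x n c p p' = ∑ u ∈ T, (w u - w' u) ^ 2 := rfl
  have e3 : Pf G β D x n c p = ∑ u ∈ T, w u ^ 2 := by
    rw [Pf_eq_sum hG hD hxD hcD n p]
    refine Finset.sum_congr rfl fun u _ => ?_
    rw [hw]; simp only
    rw [Finset.prod_pow]
  have e4 : Pf G β D' x n c p' = ∑ u ∈ T, w' u ^ 2 := by
    rw [Pf_eq_sum hG hD' hxD' hcD' n p', hT, sa_br_congr hG hx hx' hcx]
    refine Finset.sum_congr rfl fun u hu => ?_
    rw [Finset.mem_filter, mem_br] at hu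
    rw [hw']; simp only
    rw [Finset.prod_pow, sa_pth_congr hG hx hx' hu.1.2 (by omega)]
  rw [e1, e2, e3, e4]
  have e5 : ∑ u ∈ T, (w u - w' u) ^ 2 =
      ∑ u ∈ T, w u ^ 2 + ∑ u ∈ T, w' u ^ 2 - 2 * ∑ u ∈ T, w u * w' u := by
    rw [Finset.mul_sum, ← Finset.sum_add_distrib, ← Finset.sum_sub_distrib]
    exact Finset.sum_congr rfl fun u _ => by ring
  have e6 : ∑ u ∈ T, (s * w u - s' * w' u) ^ 2 =
      s ^ 2 * ∑ u ∈ T, w u ^ 2 + s' ^ 2 * ∑ u ∈ T, w' u ^ 2 - 2 * s * s' * ∑ u ∈ T, w u * w' u := by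
    rw [Finset.mul_sum, Finset.mul_sum, Finset.mul_sum, ← Finset.sum_add_distrib,
      ← Finset.sum_sub_distrib]
    exact Finset.sum_congr rfl fun u _ => by ring
  rw [e5, e6]
  ring

section SaPair

variable {Ω : Type*} [MeasurableSpace Ω] {P : Measure Ω} [IsProbabilityMeasure P]

/-- Difference of the squares of the two messages at `c`. -/
noncomputable def saU (G : SimpleGraph V) [DecidableRel G.Adj] (β : ℝ) (D D' : Finset V) (x : V)
    (p p' : Ω → V → ℝ) (c : V) (ω : Ω) : ℝ :=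
  (ms G β D x (p ω) c + ms G β D' x (p' ω) c) * (ms G β D x (p ω) c - ms G β D' x (p' ω) c)

/-- Lipschitz bound for the susceptibilities with prescribed constants. -/
lemma sa_Lf_lip (hC : Crit G b β) {D D' : Finset V} {x : V} {h : ℕ}
    (hx : bal G x h ⊆ D) (hx' : bal G x h ⊆ D') {p p' : Ω → V → ℝ} (hp : Measurable p)
    (hp' : Measurable p') {η : ℝ} (hη : 0 ≤ η)
    (hU : ∀ c ∈ bal G x h, c ≠ x → SaL P (saU G β D D' x p p' c) η)
    {q : V → ℝ} {A : ℝ} (hA : 0 ≤ A) (hq0 : ∀ c, 0 ≤ q c) (hq : ∀ c, q c ≤ A) (r : ℕ) :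
    ∀ i, i ≠ x → G.dist x i + r ≤ h →
      SaL P (fun ω => Lf G β D x q r i (p ω) - Lf G β D' x q r i (p' ω))
        (4 * η * r * (r + A)) := by
  obtain ⟨t0, t1, t2, t3⟩ := sa_tanh hC
  have hG := hC.tree
  set θ := Real.tanh β with hθ
  induction r with
  | zero =>
    intro i _ _
    have e : (fun ω => Lf G β D x q 0 i (p ω) - Lf G β D' x q 0 i (p' ω)) = fun _ => (0 : ℝ) := by
      funext ω; exact sub_self (q i)
    rw [e]
    simpa using (SaL.zero (P := P))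
  | succ r ih =>
    intro i hix hir
    have hch : ch G D x i = ch G D' x i := sa_ch_congr hG hx hx' (by omega)
    have e : (fun ω => Lf G β D x q (r + 1) i (p ω) - Lf G β D' x q (r + 1) i (p' ω)) =
        fun ω => ∑ c ∈ ch G D x i,
          ((P161.slope θ (ms G β D x (p ω) c) ^ 2 - P161.slope θ (ms G β D' x (p' ω) c) ^ 2) *
            Lf G β D x q r c (p ω) +
          P161.slope θ (ms G β D' x (p' ω) c) ^ 2 *
            (Lf G β D x q r c (p ω) - Lf G β D' x q r c (p' ω))) := by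
      funext ω
      show (1 + ∑ c ∈ ch G D x i, P161.slope θ (ms G β D x (p ω) c) ^ 2 *
          Lf G β D x q r c (p ω)) - (1 + ∑ c ∈ ch G D' x i,
            P161.slope θ (ms G β D' x (p' ω) c) ^ 2 * Lf G β D' x q r c (p' ω)) = _
      rw [← hch, add_sub_add_left_eq_sub, ← Finset.sum_sub_distrib]
      exact Finset.sum_congr rfl fun c _ => by ring
    rw [e]
    have hterm : ∀ c ∈ ch G D x i, SaL P (fun ω =>
          ((P161.slope θ (ms G β D x (p ω) c) ^ 2 - P161.slope θ (ms G β D' x (p' ω) c) ^ 2) *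
            Lf G β D x q r c (p ω) +
          P161.slope θ (ms G β D' x (p' ω) c) ^ 2 *
            (Lf G β D x q r c (p ω) - Lf G β D' x q r c (p' ω))))
        (θ ^ 2 * (4 * η * (r + A) + 4 * η * r * (r + A))) := by
      intro c hc
      rw [mem_ch] at hc
      have hcx : c ≠ x := by
        intro h'; rw [h', SimpleGraph.dist_self] at hc; omega
      have hcb : c ∈ bal G x h := by rw [mem_bal hG.connected]; omega
      have b1 : SaB (fun ω => P161.slope θ (ms G β D x (p ω) c)) :=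
        (sa_fn_slope hC D x c).sab.comp_meas hp
      have b2 : SaB (fun ω => P161.slope θ (ms G β D' x (p' ω) c)) :=
        (sa_fn_slope hC D' x c).sab.comp_meas hp'
      have b3 : SaB (fun ω => Lf G β D x q r c (p ω)) :=
        (sa_fn_Lf hC D x q r c).sab.comp_meas hp
      have k1 := (hU c hcb hcx).of_le (c := 4 * θ ^ 2 * (r + A)) (((b1.pow 2).sub (b2.pow 2)).mul b3)
        (by positivity) (fun ω => by
          rw [abs_mul]
          obtain ⟨l0, l1⟩ := Lf_le hC (D := D) hcx hq0 hq r (p ω)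
          have m1 := abs_slope_sq_sub_le t0.le t2 (abs_mg_le (G := G) (β := β) (br G D x c) (p ω) c)
            (abs_mg_le (G := G) (β := β) (br G D' x c) (p' ω) c)
          have m2 : |saU G β D D' x p p' c ω| = |ms G β D x (p ω) c + ms G β D' x (p' ω) c| *
              |ms G β D x (p ω) c - ms G β D' x (p' ω) c| := abs_mul _ _
          rw [m2, abs_of_nonneg l0]
          calc |P161.slope θ (ms G β D x (p ω) c) ^ 2 - P161.slope θ (ms G β D' x (p' ω) c) ^ 2| *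
                Lf G β D x q r c (p ω)
              ≤ (4 * θ ^ 2 * (|ms G β D x (p ω) c + ms G β D' x (p' ω) c| *
              |ms G β D x (p ω) c - ms G β D' x (p' ω) c|)) * (r + A) :=
                mul_le_mul m1 l1 l0 (by positivity)
            _ = _ := by ring)
      have k2 := (ih c hcx (by omega)).of_le (c := θ ^ 2)
        (f := fun ω => P161.slope θ (ms G β D' x (p' ω) c) ^ 2 *
            (Lf G β D x q r c (p ω) - Lf G β D' x q r c (p' ω)))
        ((b2.pow 2).mul (ih c hcx (by omega)).b) (sq_nonneg _) (fun ω => by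
          rw [abs_mul]
          obtain ⟨l0, l1⟩ := sa_abs_slope_le hC (m := ms G β D' x (p' ω) c) (abs_mg_le _ _ _)
          rw [abs_of_nonneg (sq_nonneg _)]
          exact mul_le_mul_of_nonneg_right (pow_le_pow_left₀ l0 l1 2) (abs_nonneg _))
      refine (k1.add k2).mono (le_of_eq ?_)
      ring
    have hcard : (ch G D x i).card ≤ b := card_ch_le hC hix
    have hfin := SaL.sum (ch G D x i) (n := b) (by positivity) hcard hterm
    refine hfin.mono ?_
    have e2 : (b : ℝ) * (θ ^ 2 * (4 * η * (r + A) + 4 * η * r * (r + A))) =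
        4 * η * (r + 1) * (r + A) := by
      calc (b : ℝ) * (θ ^ 2 * (4 * η * (r + A) + 4 * η * r * (r + A))) =
          ((b : ℝ) * θ ^ 2) * (4 * η * (r + 1) * (r + A)) := by ring
        _ = _ := by rw [t3, one_mul]
    rw [e2]
    push_cast
    have : (0 : ℝ) ≤ 4 * η * (r + 1) := by positivity
    nlinarith

/-- Bound of `Dl` in terms of the `L²` bounds `η` and `ρ`. -/
lemma sa_Dl_step (hC : Crit G b β) {D D' : Finset V} (hD : Cvx G D) (hD' : Cvx G D') {x : V}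
    {h : ℕ} (hx : bal G x h ⊆ D) (hx' : bal G x h ⊆ D') {p p' : Ω → V → ℝ} (hp : Measurable p)
    (hp' : Measurable p') {η ρ : ℝ} (hη : 0 ≤ η) (hρ : 0 ≤ ρ)
    (hU : ∀ c ∈ bal G x h, c ≠ x → SaL P (saU G β D D' x p p' c) η)
    (hPf : ∀ (n : ℕ) (c : V), c ≠ x → G.dist x c + n ≤ h →
      SaL P (fun ω => Pf G β D x n c (p ω) - Pf G β D' x n c (p' ω)) ρ)
    {n : ℕ} {i : V} (hin : G.dist x i + n + 1 ≤ h) {k : ℕ} (hk : (ch G D x i).card ≤ k) {B : ℝ}
    (hB0 : 0 ≤ B)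
    (hB : ∀ c ∈ ch G D x i, ∫ ω, Dl G β D D' x n c (p ω) (p' ω) ∂P ≤ B) :
    ∫ ω, Dl G β D D' x (n + 1) i (p ω) (p' ω) ∂P ≤
      k * (Real.tanh β ^ 2 * (B + 4 * (n + 1) * η ^ 2 + 2 * η * ρ)) := by
  obtain ⟨t0, t1, t2, t3⟩ := sa_tanh hC
  have hG := hC.tree
  set θ := Real.tanh β with hθ
  have hballi : bal G x (G.dist x i + n + 1) ⊆ bal G x h := by
    intro v hv; rw [mem_bal hG.connected] at hv ⊢; omega
  set f : V → Ω → ℝ := fun c ω =>
    (P161.slope θ (ms G β D x (p ω) c) * P161.slope θ (ms G β D' x (p' ω) c) *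
        Dl G β D D' x n c (p ω) (p' ω) +
      1 / 2 * (P161.slope θ (ms G β D x (p ω) c) - P161.slope θ (ms G β D' x (p' ω) c)) ^ 2 *
        (Pf G β D x n c (p ω) + Pf G β D' x n c (p' ω)) +
      1 / 2 * (P161.slope θ (ms G β D x (p ω) c) ^ 2 -
        P161.slope θ (ms G β D' x (p' ω) c) ^ 2) *
        (Pf G β D x n c (p ω) - Pf G β D' x n c (p' ω))) with hf
  have e : (fun ω => Dl G β D D' x (n + 1) i (p ω) (p' ω)) = fun ω => ∑ c ∈ ch G D x i, f c ω := by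
    funext ω
    exact Dl_succ hC hD hD' (hballi.trans hx) (hballi.trans hx') (p ω) (p' ω)
  have bDl : ∀ c, SaB (fun ω => Dl G β D D' x n c (p ω) (p' ω)) := by
    intro c
    unfold Dl
    refine SaB.sum _ fun u _ => ?_
    refine SaB.pow ?_ 2
    exact (SaB.prod _ fun k _ => (sa_fn_slope hC D x k).sab.comp_meas hp).sub
      (SaB.prod _ fun k _ => (sa_fn_slope hC D' x k).sab.comp_meas hp')
  have b1 : ∀ c, SaB (fun ω => P161.slope θ (ms G β D x (p ω) c)) :=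
    fun c => (sa_fn_slope hC D x c).sab.comp_meas hp
  have b2 : ∀ c, SaB (fun ω => P161.slope θ (ms G β D' x (p' ω) c)) :=
    fun c => (sa_fn_slope hC D' x c).sab.comp_meas hp'
  have b3 : ∀ c, SaB (fun ω => Pf G β D x n c (p ω)) :=
    fun c => (sa_fn_Pf hC D x n c).sab.comp_meas hp
  have b4 : ∀ c, SaB (fun ω => Pf G β D' x n c (p' ω)) :=
    fun c => (sa_fn_Pf hC D' x n c).sab.comp_meas hp'
  have bf : ∀ c, SaB (f c) := by
    intro c
    exact ((((b1 c).mul (b2 c)).mul (bDl c)).add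
      (((SaB.const (1 / 2)).mul (((b1 c).sub (b2 c)).pow 2)).mul ((b3 c).add (b4 c)))).add
      (((SaB.const (1 / 2)).mul (((b1 c).pow 2).sub ((b2 c).pow 2))).mul ((b3 c).sub (b4 c)))
  rw [e, integral_finsetSum _ fun c _ => (bf c).integrable]
  have hone : ∀ c ∈ ch G D x i, ∫ ω, f c ω ∂P ≤
      θ ^ 2 * (B + 4 * (n + 1) * η ^ 2 + 2 * η * ρ) := by
    intro c hc
    have hc0 := hc
    rw [mem_ch] at hc
    have hcx : c ≠ x := by
      intro h'; rw [h', SimpleGraph.dist_self] at hc; omega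
    have hcb : c ∈ bal G x h := by rw [mem_bal hG.connected]; omega
    have hUc := hU c hcb hcx
    have hPc := hPf n c hcx (by omega)
    set g : Ω → ℝ := fun ω => θ ^ 2 * Dl G β D D' x n c (p ω) (p' ω) +
      (4 * θ ^ 2 * (n + 1)) * saU G β D D' x p p' c ω ^ 2 +
      (2 * θ ^ 2) * (|saU G β D D' x p p' c ω| *
        |Pf G β D x n c (p ω) - Pf G β D' x n c (p' ω)|) with hg
    have bg : SaB g := by
      refine SaB.add (SaB.add ?_ ?_) ?_
      · exact (SaB.const _).mul (bDl c)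
      · exact (SaB.const _).mul (hUc.b.pow 2)
      · exact (SaB.const _).mul (hUc.abs.b.mul hPc.abs.b)
    have h1 : ∫ ω, f c ω ∂P ≤ ∫ ω, g ω ∂P := by
      refine integral_mono (bf c).integrable bg.integrable fun ω => ?_
      show f c ω ≤ g ω
      have hm : |ms G β D x (p ω) c| ≤ 1 := abs_mg_le _ _ _
      have hm' : |ms G β D' x (p' ω) c| ≤ 1 := abs_mg_le _ _ _
      obtain ⟨l0, l1⟩ := sa_abs_slope_le hC hm
      obtain ⟨l0', l1'⟩ := sa_abs_slope_le hC hm'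
      obtain ⟨q0, q1⟩ := Pf_le hC (D := D) hcx n (p ω)
      obtain ⟨q0', q1'⟩ := Pf_le hC (D := D') hcx n (p' ω)
      have m1 := abs_slope_sq_sub_le t0.le t2 hm hm'
      have m0 := abs_slope_sub_le t0.le t2 hm hm'
      have m2 : |ms G β D x (p ω) c + ms G β D' x (p' ω) c| *
          |ms G β D x (p ω) c - ms G β D' x (p' ω) c| = |saU G β D D' x p p' c ω| :=
        (abs_mul _ _).symm
      rw [m2] at m1 m0
      have hDl0 : 0 ≤ Dl G β D D' x n c (p ω) (p' ω) := by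
        unfold Dl
        exact Finset.sum_nonneg fun _ _ => sq_nonneg _
      set s := P161.slope θ (ms G β D x (p ω) c) with hs
      set s' := P161.slope θ (ms G β D' x (p' ω) c) with hs'
      set U := |saU G β D D' x p p' c ω| with hUdef
      have hU2 : saU G β D D' x p p' c ω ^ 2 = U ^ 2 := (sq_abs _).symm
      have hU0 : 0 ≤ U := abs_nonneg _
      have c1 : s * s' * Dl G β D D' x n c (p ω) (p' ω) ≤
          θ ^ 2 * Dl G β D D' x n c (p ω) (p' ω) := by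
        refine mul_le_mul_of_nonneg_right ?_ hDl0
        rw [sq]; exact mul_le_mul l1 l1' l0' t0.le
      have c2 : (s - s') ^ 2 ≤ 4 * θ ^ 2 * U ^ 2 := by
        have := pow_le_pow_left₀ (abs_nonneg _) m0 2
        rw [sq_abs] at this
        calc (s - s') ^ 2 ≤ (2 * θ * U) ^ 2 := this
          _ = _ := by ring
      have c3 : 1 / 2 * (s - s') ^ 2 * (Pf G β D x n c (p ω) + Pf G β D' x n c (p' ω)) ≤
          4 * θ ^ 2 * (n + 1) * U ^ 2 := by
        calc 1 / 2 * (s - s') ^ 2 * (Pf G β D x n c (p ω) + Pf G β D' x n c (p' ω))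
            ≤ 1 / 2 * (4 * θ ^ 2 * U ^ 2) * ((n + 1) + (n + 1)) := by
              refine mul_le_mul (by linarith) (by linarith) (by linarith) (by positivity)
          _ = _ := by ring
      have c4 : 1 / 2 * (s ^ 2 - s' ^ 2) *
          (Pf G β D x n c (p ω) - Pf G β D' x n c (p' ω)) ≤
          2 * θ ^ 2 * (U * |Pf G β D x n c (p ω) - Pf G β D' x n c (p' ω)|) := by
        calc 1 / 2 * (s ^ 2 - s' ^ 2) * (Pf G β D x n c (p ω) - Pf G β D' x n c (p' ω))
            ≤ |1 / 2 * (s ^ 2 - s' ^ 2) * (Pf G β D x n c (p ω) - Pf G β D' x n c (p' ω))| :=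
              le_abs_self _
          _ = 1 / 2 * |s ^ 2 - s' ^ 2| * |Pf G β D x n c (p ω) - Pf G β D' x n c (p' ω)| := by
              rw [abs_mul, abs_mul, abs_of_pos (by norm_num : (0 : ℝ) < 1 / 2)]
          _ ≤ 1 / 2 * (4 * θ ^ 2 * U) * |Pf G β D x n c (p ω) - Pf G β D' x n c (p' ω)| := by
              refine mul_le_mul_of_nonneg_right (by linarith) (abs_nonneg _)
          _ = _ := by ring
      rw [hf, hg]
      simp only
      rw [hU2]
      linarith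
    have h2 : ∫ ω, g ω ∂P = θ ^ 2 * ∫ ω, Dl G β D D' x n c (p ω) (p' ω) ∂P +
        (4 * θ ^ 2 * (n + 1)) * ∫ ω, saU G β D D' x p p' c ω ^ 2 ∂P +
        (2 * θ ^ 2) * ∫ ω, |saU G β D D' x p p' c ω| *
          |Pf G β D x n c (p ω) - Pf G β D' x n c (p' ω)| ∂P := by
      rw [← integral_const_mul, ← integral_const_mul, ← integral_const_mul, ← integral_add,
        ← integral_add]
      · exact ((SaB.const _).mul (bDl c)).add ((SaB.const _).mul (hUc.b.pow 2)) |>.integrable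
      · exact ((SaB.const _).mul (hUc.abs.b.mul hPc.abs.b)).integrable
      · exact ((SaB.const _).mul (bDl c)).integrable
      · exact ((SaB.const _).mul (hUc.b.pow 2)).integrable
    rw [h2] at h1
    have h3 := hUc.abs.cs hPc.abs
    have h4 := hUc.le
    have h5 := hB c hc0
    calc ∫ ω, f c ω ∂P ≤ _ := h1
      _ ≤ θ ^ 2 * B + (4 * θ ^ 2 * (n + 1)) * η ^ 2 + (2 * θ ^ 2) * (η * ρ) := by gcongr
      _ = _ := by ring
  calc ∑ c ∈ ch G D x i, ∫ ω, f c ω ∂P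
      ≤ ∑ c ∈ ch G D x i, θ ^ 2 * (B + 4 * (n + 1) * η ^ 2 + 2 * η * ρ) := Finset.sum_le_sum hone
    _ = (ch G D x i).card * (θ ^ 2 * (B + 4 * (n + 1) * η ^ 2 + 2 * η * ρ)) := by
        rw [Finset.sum_const, nsmul_eq_mul]
    _ ≤ _ := by
        refine mul_le_mul_of_nonneg_right (by exact_mod_cast hk) ?_
        have : 0 ≤ 4 * ((n : ℝ) + 1) * η ^ 2 + 2 * η * ρ := by positivity
        exact mul_nonneg (sq_nonneg _) (by linarith)

omit [G.LocallyFinite] in
lemma sa_Dl_zero (hG : G.IsTree) (D D' : Finset V) (x i : V) (p p' : V → ℝ) :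
    Dl G β D D' x 0 i p p' = 0 := by
  unfold Dl
  refine Finset.sum_eq_zero fun u hu => ?_
  rw [Finset.mem_filter] at hu
  have h1 : i = u := (hG.connected.dist_eq_zero_iff).mp (by omega)
  rw [← h1, pth_self D i hG]
  simp

lemma sa_Dl_le (hC : Crit G b β) {D D' : Finset V} (hD : Cvx G D) (hD' : Cvx G D') {x : V}
    {h : ℕ} (hx : bal G x h ⊆ D) (hx' : bal G x h ⊆ D') {p p' : Ω → V → ℝ} (hp : Measurable p)
    (hp' : Measurable p') {η ρ : ℝ} (hη : 0 ≤ η) (hρ : 0 ≤ ρ)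
    (hU : ∀ c ∈ bal G x h, c ≠ x → SaL P (saU G β D D' x p p' c) η)
    (hPf : ∀ (n : ℕ) (c : V), c ≠ x → G.dist x c + n ≤ h →
      SaL P (fun ω => Pf G β D x n c (p ω) - Pf G β D' x n c (p' ω)) ρ)
    (n : ℕ) : ∀ i, i ≠ x → G.dist x i + n ≤ h →
    ∫ ω, Dl G β D D' x n i (p ω) (p' ω) ∂P ≤ n * (4 * (h + 1) * η ^ 2 + 2 * η * ρ) := by
  obtain ⟨t0, t1, t2, t3⟩ := sa_tanh hC
  have hG := hC.tree
  induction n with
  | zero =>
    intro i _ _
    have e : (fun ω => Dl G β D D' x 0 i (p ω) (p' ω)) = fun _ => (0 : ℝ) := by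
      funext ω; exact sa_Dl_zero hG D D' x i _ _
    rw [e]; simp
  | succ n ih =>
    intro i hix hin
    have hE : 0 ≤ 4 * ((h : ℝ) + 1) * η ^ 2 + 2 * η * ρ := by positivity
    have h1 := sa_Dl_step hC hD hD' hx hx' hp hp' hη hρ hU hPf (n := n) (i := i) (by omega)
      (card_ch_le hC hix) (B := n * (4 * (h + 1) * η ^ 2 + 2 * η * ρ)) (by positivity)
      (fun c hc => by
        rw [mem_ch] at hc
        refine ih c ?_ (by omega)
        intro h'; rw [h', SimpleGraph.dist_self] at hc; omega)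
    refine h1.trans ?_
    have e1 : (b : ℝ) * (Real.tanh β ^ 2 * ((n : ℝ) * (4 * (h + 1) * η ^ 2 + 2 * η * ρ) +
        4 * (n + 1) * η ^ 2 + 2 * η * ρ)) = (n : ℝ) * (4 * (h + 1) * η ^ 2 + 2 * η * ρ) +
        4 * (n + 1) * η ^ 2 + 2 * η * ρ := by
      rw [← mul_assoc, t3, one_mul]
    rw [e1]
    push_cast
    have hn : (n : ℝ) ≤ h := by exact_mod_cast (by omega : n ≤ h)
    nlinarith [sq_nonneg η]

lemma sa_Dl_root (hC : Crit G b β) {D D' : Finset V} (hD : Cvx G D) (hD' : Cvx G D') {x : V}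
    {h : ℕ} (hx : bal G x h ⊆ D) (hx' : bal G x h ⊆ D') {p p' : Ω → V → ℝ} (hp : Measurable p)
    (hp' : Measurable p') {η ρ : ℝ} (hη : 0 ≤ η) (hρ : 0 ≤ ρ)
    (hU : ∀ c ∈ bal G x h, c ≠ x → SaL P (saU G β D D' x p p' c) η)
    (hPf : ∀ (n : ℕ) (c : V), c ≠ x → G.dist x c + n ≤ h →
      SaL P (fun ω => Pf G β D x n c (p ω) - Pf G β D' x n c (p' ω)) ρ) :
    ∫ ω, Dl G β D D' x h x (p ω) (p' ω) ∂P ≤
      3 / 2 * (h * (4 * (h + 1) * η ^ 2 + 2 * η * ρ)) := by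
  obtain ⟨t0, t1, t2, t3⟩ := sa_tanh hC
  have hG := hC.tree
  rcases Nat.eq_zero_or_pos h with h0 | h0
  · rw [h0]
    have e : (fun ω => Dl G β D D' x 0 x (p ω) (p' ω)) = fun _ => (0 : ℝ) := by
      funext ω; exact sa_Dl_zero hG D D' x x _ _
    rw [e]; simp
  obtain ⟨n, rfl⟩ : ∃ n, h = n + 1 := ⟨h - 1, by omega⟩
  have hE : 0 ≤ 4 * (((n + 1 : ℕ) : ℝ) + 1) * η ^ 2 + 2 * η * ρ := by positivity
  have h1 := sa_Dl_step hC hD hD' hx hx' hp hp' hη hρ hU hPf (n := n) (i := x)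
      (by rw [SimpleGraph.dist_self]; omega)
      (card_ch_root_le hC) (B := n * (4 * (((n + 1 : ℕ) : ℝ) + 1) * η ^ 2 + 2 * η * ρ))
      (by positivity)
      (fun c hc => by
        rw [mem_ch, SimpleGraph.dist_self] at hc
        refine sa_Dl_le hC hD hD' hx hx' hp hp' hη hρ hU hPf n c ?_ (by omega)
        intro h'; rw [h', SimpleGraph.dist_self] at hc; omega)
  refine h1.trans ?_
  have e1 : ((b + 1 : ℕ) : ℝ) * Real.tanh β ^ 2 ≤ 3 / 2 := by push_cast; nlinarith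
  calc ((b + 1 : ℕ) : ℝ) * (Real.tanh β ^ 2 * ((n : ℝ) * (4 * (((n + 1 : ℕ) : ℝ) + 1) * η ^ 2 +
        2 * η * ρ) + 4 * (n + 1) * η ^ 2 + 2 * η * ρ))
      = (((b + 1 : ℕ) : ℝ) * Real.tanh β ^ 2) * ((n : ℝ) * (4 * (((n + 1 : ℕ) : ℝ) + 1) * η ^ 2 +
        2 * η * ρ) + 4 * (n + 1) * η ^ 2 + 2 * η * ρ) := by ring
    _ ≤ 3 / 2 * ((n : ℝ) * (4 * (((n + 1 : ℕ) : ℝ) + 1) * η ^ 2 +
        2 * η * ρ) + 4 * (n + 1) * η ^ 2 + 2 * η * ρ) := by
        refine mul_le_mul_of_nonneg_right e1 (by positivity)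
    _ ≤ _ := by
        push_cast
        nlinarith [sq_nonneg η]

/-- Difference of the truncated susceptibilities. -/
lemma sa_P_diff (hC : Crit G b β) {D D' : Finset V} (hD : Cvx G D) (hD' : Cvx G D') {x : V}
    {h : ℕ} (hx : bal G x h ⊆ D) (hx' : bal G x h ⊆ D') {ν ν' : Measure ℝ} (hν : IsOwn ν)
    (hν' : IsOwn ν') {p p' : Ω → V → ℝ} (hp : PLaw G β ν D P p)
    (hp' : PLaw G β ν' D' P p') {η : ℝ} (hη : 0 ≤ η)
    (hU : ∀ c ∈ bal G x h, c ≠ x → SaL P (saU G β D D' x p p' c) η)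
    {eps : ℝ} (heps : 0 ≤ eps)
    (hmm : ∀ i ∈ bal G x h, ∀ u ∈ bal G x h, ∀ k ≤ h,
      G.dist x u + k ≤ h → G.dist x i + G.dist i u = G.dist x u →
      |EE G β (fun _ => ν) D (fun p => Wt G β D x i u p * Pf G β D x k u p) -
        EE G β (fun _ => ν') D' (fun p => Wt G β D' x i u p * Pf G β D' x k u p)| ≤ eps ∧
      |EE G β (fun _ => ν) D (fun p => Wt G β D x i u p) -
        EE G β (fun _ => ν') D' (fun p => Wt G β D' x i u p)| ≤ eps)
    {kb : ℝ} (hkb0 : 0 ≤ kb)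
    (hkb : ∀ i ∈ D, i ≠ x → EE G β (fun _ => ν) D (fun p => ms G β D x p i ^ 4) ≤ kb ^ 2)
    (hkb' : ∀ i ∈ D', i ≠ x → EE G β (fun _ => ν') D' (fun p => ms G β D' x p i ^ 4) ≤ kb ^ 2)
    (hkb1 : kb ≤ 1 / 100) {r : ℕ} (hrk : 4 * r * kb ≤ 1 / 2)
    (n : ℕ) (c : V) (hcx : c ≠ x) (hcn : G.dist x c + n ≤ h) :
    SaL P (fun ω => Pf G β D x n c (p ω) - Pf G β D' x n c (p' ω))
      (8 * η * r * (h + 1) + 6 * (h + 1) * (3 / 4 : ℝ) ^ r + 18 * (h + 1) * eps) := by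
  have hG := hC.tree
  have hpos1 : 0 ≤ 6 * ((h : ℝ) + 1) * (3 / 4 : ℝ) ^ r + 18 * (h + 1) * eps := by positivity
  have hnh : n ≤ h := by omega
  have hnh' : (n : ℝ) ≤ h := by exact_mod_cast hnh
  rcases lt_or_ge n r with hnr | hnr
  · have h1 := sa_Lf_lip hC hx hx' hp.1 hp'.1 hη hU (q := fun _ => 1) (A := 1) zero_le_one
      (fun _ => zero_le_one) (fun _ => le_rfl) n c hcx hcn
    have e : (fun ω => Pf G β D x n c (p ω) - Pf G β D' x n c (p' ω)) =
        fun ω => Lf G β D x (fun _ => 1) n c (p ω) - Lf G β D' x (fun _ => 1) n c (p' ω) := by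
      funext ω; rw [sa_Pf_eq_Lf, sa_Pf_eq_Lf]
    rw [e]
    refine h1.mono ?_
    have hnr' : (n : ℝ) ≤ r := by exact_mod_cast hnr.le
    have h2 : 4 * η * n * (n + 1) ≤ 4 * η * r * (h + 1) := by gcongr
    have h3 : 0 ≤ 4 * η * r * (h + 1) := by positivity
    linarith
  · obtain ⟨n', rfl⟩ : ∃ n', n = n' + r := ⟨n - r, by omega⟩
    have hprob := isProb_PL (G := G) (β := β) (ν := fun _ => ν) (fun _ => hν) D
    set q : V → ℝ := fun u => EE G β (fun _ => ν) D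
      (fun p => Wt G β D x c u p * Pf G β D x n' u p) /
        EE G β (fun _ => ν) D (fun p => Wt G β D x c u p) with hq
    have hPf0 : ∀ u (p : V → ℝ), 0 ≤ Pf G β D x n' u p ∧ Pf G β D x n' u p ≤ 2 * (n' + 1) := by
      intro u p
      by_cases hu : u = x
      · rw [hu]; exact Pf_root_le hC n' p
      · obtain ⟨h0, h1⟩ := Pf_le hC (D := D) hu n' p
        exact ⟨h0, by linarith [(Nat.cast_nonneg n' : (0 : ℝ) ≤ n')]⟩
    have hPf1 : ∀ u (p : V → ℝ), 0 ≤ Pf G β D' x n' u p ∧ Pf G β D' x n' u p ≤ 2 * (n' + 1) := by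
      intro u p
      by_cases hu : u = x
      · rw [hu]; exact Pf_root_le hC n' p
      · obtain ⟨h0, h1⟩ := Pf_le hC (D := D') hu n' p
        exact ⟨h0, by linarith [(Nat.cast_nonneg n' : (0 : ℝ) ≤ n')]⟩
    have hWP0 : ∀ u, 0 ≤ EE G β (fun _ => ν) D
        (fun p => Wt G β D x c u p * Pf G β D x n' u p) := fun u =>
      integral_nonneg fun p => mul_nonneg (sa_Wt_mem hC D x c u p).1 (hPf0 u p).1
    have hW0 : ∀ u, 0 ≤ EE G β (fun _ => ν) D (fun p => Wt G β D x c u p) := fun u =>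
      integral_nonneg fun p => (sa_Wt_mem hC D x c u p).1
    have hWPle : ∀ u, EE G β (fun _ => ν) D
        (fun p => Wt G β D x c u p * Pf G β D x n' u p) ≤
        2 * (n' + 1) * EE G β (fun _ => ν) D (fun p => Wt G β D x c u p) := by
      intro u
      unfold EE
      rw [← integral_const_mul]
      refine integral_mono ?_ ?_ fun p => ?_
      · exact ((sa_fn_Wt hC D x c u).sa_mul (sa_fn_Pf hC D x n' u)).sab.integrable
      · exact ((sa_fn_const D _).sa_mul (sa_fn_Wt hC D x c u)).sab.integrable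
      · show Wt G β D x c u p * Pf G β D x n' u p ≤ 2 * (n' + 1) * Wt G β D x c u p
        rw [mul_comm]
        exact mul_le_mul_of_nonneg_right (hPf0 u p).2 (sa_Wt_mem hC D x c u p).1
    have hq0 : ∀ u, 0 ≤ q u := fun u => div_nonneg (hWP0 u) (hW0 u)
    have hq1 : ∀ u, q u ≤ 2 * (n' + 1) := fun u =>
      div_le_of_le_mul₀ (hW0 u) (by positivity) (hWPle u)
    have hqe : ∀ u, q u * EE G β (fun _ => ν) D (fun p => Wt G β D x c u p) =
        EE G β (fun _ => ν) D (fun p => Wt G β D x c u p * Pf G β D x n' u p) := by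
      intro u
      by_cases h0 : EE G β (fun _ => ν) D (fun p => Wt G β D x c u p) = 0
      · rw [h0, mul_zero]
        have := hWPle u
        rw [h0, mul_zero] at this
        exact (le_antisymm this (hWP0 u)).symm
      · exact div_mul_cancel₀ _ h0
    have hEE1 : ∀ u, EE G β (fun _ => ν) D
        (fun p => Wt G β D x c u p * (Pf G β D x n' u p - q u)) =
        EE G β (fun _ => ν) D (fun p => Wt G β D x c u p * Pf G β D x n' u p) -
        q u * EE G β (fun _ => ν) D (fun p => Wt G β D x c u p) := by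
      intro u
      unfold EE
      rw [← integral_const_mul, ← integral_sub]
      · exact integral_congr_ae (Filter.Eventually.of_forall fun ω => by ring)
      · exact ((sa_fn_Wt hC D x c u).sa_mul (sa_fn_Pf hC D x n' u)).sab.integrable
      · exact ((sa_fn_const D _).sa_mul (sa_fn_Wt hC D x c u)).sab.integrable
    have hprob' := isProb_PL (G := G) (β := β) (ν := fun _ => ν') (fun _ => hν') D'
    have hEE2 : ∀ u, EE G β (fun _ => ν') D'
        (fun p => Wt G β D' x c u p * (Pf G β D' x n' u p - q u)) =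
        EE G β (fun _ => ν') D' (fun p => Wt G β D' x c u p * Pf G β D' x n' u p) -
        q u * EE G β (fun _ => ν') D' (fun p => Wt G β D' x c u p) := by
      intro u
      unfold EE
      rw [← integral_const_mul, ← integral_sub]
      · exact integral_congr_ae (Filter.Eventually.of_forall fun ω => by ring)
      · exact ((sa_fn_Wt hC D' x c u).sa_mul (sa_fn_Pf hC D' x n' u)).sab.integrable
      · exact ((sa_fn_const D' _).sa_mul (sa_fn_Wt hC D' x c u)).sab.integrable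
    have hcb : c ∈ bal G x h := by rw [mem_bal hG.connected]; omega
    have hxb : x ∈ bal G x h := by rw [mem_bal hG.connected, SimpleGraph.dist_self]; omega
    have hL1 := lln hC hν hD (hx hxb) (hx hcb) hcx r n' q hq0 hq1 le_rfl hkb0 hkb hkb1 hrk
      (fun u hu _ _ => by
        rw [hEE1, hqe, sub_self, abs_zero])
    have hL2 := lln hC hν' hD' (hx' hxb) (hx' hcb) hcx r n' q hq0 hq1
      (eps := (2 * n' + 3) * eps) (by positivity) hkb0 hkb' hkb1 hrk
      (fun u hu hcu hr => by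
        rw [hEE2]
        have hub : u ∈ bal G x h := by rw [mem_bal hG.connected]; omega
        obtain ⟨m1, m2⟩ := hmm c hcb u hub n' (by omega) (by omega) hcu
        have e1 := hqe u
        have h1 : |q u * (EE G β (fun _ => ν) D (fun p => Wt G β D x c u p) -
            EE G β (fun _ => ν') D' (fun p => Wt G β D' x c u p))| ≤ 2 * (n' + 1) * eps := by
          rw [abs_mul, abs_of_nonneg (hq0 u)]
          exact mul_le_mul (hq1 u) m2 (abs_nonneg _) (by positivity)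
        have e2 : EE G β (fun _ => ν') D' (fun p => Wt G β D' x c u p * Pf G β D' x n' u p) -
            q u * EE G β (fun _ => ν') D' (fun p => Wt G β D' x c u p) =
            -(EE G β (fun _ => ν) D (fun p => Wt G β D x c u p * Pf G β D x n' u p) -
            EE G β (fun _ => ν') D' (fun p => Wt G β D' x c u p * Pf G β D' x n' u p)) +
            q u * (EE G β (fun _ => ν) D (fun p => Wt G β D x c u p) -
            EE G β (fun _ => ν') D' (fun p => Wt G β D' x c u p)) := by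
          linear_combination -e1
        rw [e2]
        refine (abs_add_le _ _).trans ?_
        rw [abs_neg]
        linarith)
    have k1 : SaL P (fun ω => Pf G β D x (n' + r) c (p ω) - Lf G β D x q r c (p ω))
        (3 * (n' + 1) * (3 / 4 : ℝ) ^ r) := by
      refine ⟨((sa_fn_Pf hC D x (n' + r) c).sa_sub (sa_fn_Lf hC D x q r c)).sab.comp_meas hp.1,
        by positivity, ?_⟩
      have e := hp.2 _ (((sa_fn_Pf hC D x (n' + r) c).sa_sub (sa_fn_Lf hC D x q r c)).sa_pow 2)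
      rw [e]
      refine hL1.trans (le_of_eq ?_)
      ring
    have k2 : SaL P (fun ω => Pf G β D' x (n' + r) c (p' ω) - Lf G β D' x q r c (p' ω))
        (3 * (n' + 1) * (3 / 4 : ℝ) ^ r + 6 * ((2 * n' + 3) * eps)) := by
      refine ⟨((sa_fn_Pf hC D' x (n' + r) c).sa_sub
        (sa_fn_Lf hC D' x q r c)).sab.comp_meas hp'.1, by positivity, ?_⟩
      have e := hp'.2 _ (((sa_fn_Pf hC D' x (n' + r) c).sa_sub
        (sa_fn_Lf hC D' x q r c)).sa_pow 2)
      rw [e]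
      refine hL2.trans (le_of_eq ?_)
      ring
    have k3 := sa_Lf_lip hC hx hx' hp.1 hp'.1 hη hU (q := q) (A := 2 * (n' + 1)) (by positivity)
      hq0 hq1 r c hcx (by omega)
    have k4 := (k3.add k1).sub k2
    have e : (fun ω => Pf G β D x (n' + r) c (p ω) - Pf G β D' x (n' + r) c (p' ω)) =
        fun ω => (Lf G β D x q r c (p ω) - Lf G β D' x q r c (p' ω) +
          (Pf G β D x (n' + r) c (p ω) - Lf G β D x q r c (p ω))) -
          (Pf G β D' x (n' + r) c (p' ω) - Lf G β D' x q r c (p' ω)) := by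
      funext ω; ring
    rw [e]
    refine k4.mono ?_
    have hn1 : (n' : ℝ) + r ≤ h := by exact_mod_cast hnh
    have hr0 : (0 : ℝ) ≤ r := Nat.cast_nonneg r
    have hn0 : (0 : ℝ) ≤ n' := Nat.cast_nonneg n'
    have l1 : 4 * η * r * (r + 2 * (n' + 1)) ≤ 4 * η * r * (2 * (h + 1)) := by
      gcongr; linarith
    have l2 : 3 * ((n' : ℝ) + 1) * (3 / 4 : ℝ) ^ r ≤ 3 * (h + 1) * (3 / 4 : ℝ) ^ r := by
      gcongr; linarith
    have l3 : 6 * ((2 * (n' : ℝ) + 3) * eps) ≤ 6 * (3 * (h + 1) * eps) := by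
      gcongr; linarith
    linarith

lemma sa_near (hC : Crit G b β) {D D' : Finset V} (hD : Cvx G D) (hD' : Cvx G D') {x : V}
    {h : ℕ} (hx : bal G x h ⊆ D) (hx' : bal G x h ⊆ D') (p p' : V → ℝ) :
    ∑ u ∈ bal G x h, (cv G β D p x u - cv G β D' p' x u) ^ 2 ≤
      16 * (h + 1) * (mg G β D p x - mg G β D' p' x) ^ 2 + 2 * Dl G β D D' x h x p p' := by
  have hG := hC.tree
  have hxb : x ∈ bal G x h := by rw [mem_bal hG.connected, SimpleGraph.dist_self]; omega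
  have hxD := hx hxb
  have hxD' := hx' hxb
  have hbal : (br G D x x).filter (fun u => G.dist x u ≤ h) = bal G x h := by
    ext u
    rw [br_self, Finset.mem_filter, mem_bal hG.connected]
    constructor
    · rintro ⟨_, h'⟩; exact h'
    · intro h'; exact ⟨hx (by rw [mem_bal hG.connected]; exact h'), h'⟩
  set w : V → ℝ := fun u => ∏ k ∈ pth G D x u, P161.slope (Real.tanh β) (ms G β D x p k) with hw
  set w' : V → ℝ := fun u => ∏ k ∈ pth G D x u, P161.slope (Real.tanh β) (ms G β D' x p' k)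
    with hw'
  have e1 : Dl G β D D' x h x p p' = ∑ u ∈ bal G x h, (w u - w' u) ^ 2 := by
    unfold Dl; rw [hbal]
  have e2 : Pf G β D x h x p = ∑ u ∈ bal G x h, w u ^ 2 := by
    rw [Pf_eq_sum hG hD hxD hxD h p, hbal]
    refine Finset.sum_congr rfl fun u _ => ?_
    rw [hw]; simp only
    rw [Finset.prod_pow]
  have h2 := (Pf_root_le hC (D := D) (x := x) h p).2
  have h0 := sq_nonneg (mg G β D p x - mg G β D' p' x)
  have hM := abs_mg_le (G := G) (β := β) D p x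
  have hM' := abs_mg_le (G := G) (β := β) D' p' x
  set M := mg G β D p x with hMd
  set M' := mg G β D' p' x with hMd'
  have hterm : ∀ u ∈ bal G x h, (cv G β D p x u - cv G β D' p' x u) ^ 2 ≤
      8 * (M - M') ^ 2 * w u ^ 2 + 2 * (w u - w' u) ^ 2 := by
    intro u hu
    have hu' := hu
    rw [mem_bal hG.connected] at hu'
    rw [cv_eq_prod hG hD hxD (hx hu), cv_eq_prod hG hD' hxD' (hx' hu),
      ← sa_pth_congr hG hx hx' (i := x) (by rw [SimpleGraph.dist_self, zero_add]) hu']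
    show ((1 - M ^ 2) * w u - (1 - M' ^ 2) * w' u) ^ 2 ≤ _
    have a1 : (1 - M ^ 2) * w u - (1 - M' ^ 2) * w' u =
        (M' ^ 2 - M ^ 2) * w u + (1 - M' ^ 2) * (w u - w' u) := by ring
    have a2 : ((M' ^ 2 - M ^ 2) * w u) ^ 2 ≤ 4 * (M - M') ^ 2 * w u ^ 2 := by
      have b1 : (M' + M) ^ 2 ≤ 4 := by
        rw [abs_le] at hM hM'
        nlinarith
      calc ((M' ^ 2 - M ^ 2) * w u) ^ 2 = (M' + M) ^ 2 * ((M - M') ^ 2 * w u ^ 2) := by ring
        _ ≤ 4 * ((M - M') ^ 2 * w u ^ 2) := mul_le_mul_of_nonneg_right b1 (by positivity)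
        _ = _ := by ring
    have a3 : ((1 - M' ^ 2) * (w u - w' u)) ^ 2 ≤ (w u - w' u) ^ 2 := by
      have b1 := sq_le_one_of_abs hM'
      have b2 : (1 - M' ^ 2) ^ 2 ≤ 1 := by nlinarith [sq_nonneg M']
      calc ((1 - M' ^ 2) * (w u - w' u)) ^ 2 = (1 - M' ^ 2) ^ 2 * (w u - w' u) ^ 2 := by ring
        _ ≤ 1 * (w u - w' u) ^ 2 := mul_le_mul_of_nonneg_right b2 (sq_nonneg _)
        _ = _ := one_mul _
    rw [a1]
    nlinarith [sq_nonneg ((M' ^ 2 - M ^ 2) * w u - (1 - M' ^ 2) * (w u - w' u))]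
  calc ∑ u ∈ bal G x h, (cv G β D p x u - cv G β D' p' x u) ^ 2
      ≤ ∑ u ∈ bal G x h, (8 * (M - M') ^ 2 * w u ^ 2 + 2 * (w u - w' u) ^ 2) :=
        Finset.sum_le_sum hterm
    _ = 8 * (M - M') ^ 2 * Pf G β D x h x p + 2 * Dl G β D D' x h x p p' := by
        rw [e1, e2, Finset.sum_add_distrib, Finset.mul_sum, Finset.mul_sum]
    _ ≤ 8 * (M - M') ^ 2 * (2 * (h + 1)) + 2 * Dl G β D D' x h x p p' := by
        gcongr
    _ = _ := by ring

/-- Sum over a ball of a function of the distance. -/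
lemma sa_sum_theta (hC : Crit G b β) (x : V) (h : ℕ) :
    ∑ u ∈ bal G x h, Real.tanh β ^ (2 * G.dist x u) ≤ 3 / 2 * (h + 1) := by
  have hG := hC.tree
  obtain ⟨t0, t1, t2, t3⟩ := sa_tanh hC
  have hmaps : ∀ u ∈ bal G x h, G.dist x u ∈ Finset.range (h + 1) := by
    intro u hu
    rw [mem_bal hG.connected] at hu
    rw [Finset.mem_range]; omega
  rw [← Finset.sum_fiberwise_of_maps_to hmaps]
  calc ∑ k ∈ Finset.range (h + 1), ∑ u ∈ bal G x h with G.dist x u = k,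
        Real.tanh β ^ (2 * G.dist x u)
      ≤ ∑ k ∈ Finset.range (h + 1), (3 / 2 : ℝ) := by
        refine Finset.sum_le_sum fun k _ => ?_
        have e : ∑ u ∈ bal G x h with G.dist x u = k, Real.tanh β ^ (2 * G.dist x u) =
            ((bal G x h).filter (fun u => G.dist x u = k)).card * Real.tanh β ^ (2 * k) := by
          rw [← nsmul_eq_mul, ← Finset.sum_const]
          refine Finset.sum_congr rfl fun u hu => ?_
          rw [(Finset.mem_filter.mp hu).2]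
        rw [e]
        have h1 := card_sphere_le hC (D := bal G x h) (x := x) k
        have h2 : (2 : ℝ) * ((bal G x h).filter (fun u => G.dist x u = k)).card ≤ 3 * b ^ k := by
          exact_mod_cast h1
        have h3 : (b : ℝ) ^ k * Real.tanh β ^ (2 * k) = 1 := by
          rw [pow_mul, ← mul_pow, t3, one_pow]
        have h4 : 0 ≤ Real.tanh β ^ (2 * k) := by positivity
        nlinarith
    _ = _ := by rw [Finset.sum_const, Finset.card_range, nsmul_eq_mul]; push_cast; ring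

lemma sa_cv_sq_le (hC : Crit G b β) {D : Finset V} (hD : Cvx G D) {x u : V} (hx : x ∈ D)
    (hu : u ∈ D) (p : V → ℝ) : cv G β D p x u ^ 2 ≤ Real.tanh β ^ (2 * G.dist x u) := by
  rw [cv_eq_prod hC.tree hD hx hu, mul_pow]
  have h1 := abs_mg_le (G := G) (β := β) D p x
  have h2 := sq_le_one_of_abs h1
  have h3 : (1 - mg G β D p x ^ 2) ^ 2 ≤ 1 := by nlinarith [sq_nonneg (mg G β D p x)]
  have h4 : (∏ i ∈ pth G D x u, P161.slope (Real.tanh β) (ms G β D x p i)) ^ 2 ≤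
      Real.tanh β ^ (2 * G.dist x u) := by
    rw [← Finset.prod_pow, ← card_pth hC.tree hD hx hu, pow_mul, ← Finset.prod_const]
    refine Finset.prod_le_prod (fun i _ => sq_nonneg _) fun i _ => ?_
    obtain ⟨k1, k2⟩ := sa_abs_slope_le hC (m := ms G β D x p i) (abs_mg_le _ _ _)
    exact pow_le_pow_left₀ k1 k2 2
  calc _ ≤ 1 * Real.tanh β ^ (2 * G.dist x u) :=
        mul_le_mul h3 h4 (sq_nonneg _) zero_le_one
    _ = _ := one_mul _

omit [IsProbabilityMeasure P] in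
/-- Moments of the messages under the planted law. -/
lemma sa_mom (hC : Crit G b β) {D : Finset V} (hD : Cvx G D) {ν : Measure ℝ} (hν : IsOwn ν)
    {p : Ω → V → ℝ} (hp : PLaw G β ν D P p) (x c : V) (q : ℕ) :
    ∫ ω, ms G β D x (p ω) c ^ (2 * q) ∂P = mom G β (fun _ => ν) (br G D x c) c q := by
  have h1 : Fn (br G D x c) (fun p => ms G β D x p c ^ (2 * q)) :=
    (sa_fn_mg (G := G) (β := β) (br G D x c) c).sa_pow (2 * q)
  rw [hp.2 _ (h1.sa_mono (br_subset D x c)),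
    EE_cons hC.tree (fun _ => hν) hD (cvx_br hC.tree hD x c) (br_subset D x c) h1]
  rfl

/-- Bound of `saU`. -/
lemma sa_U (hC : Crit G b β) {D D' : Finset V} (hD : Cvx G D) (hD' : Cvx G D') {x : V}
    {h : ℕ} (hx : bal G x h ⊆ D) (hx' : bal G x h ⊆ D') {p p' : Ω → V → ℝ} (hp : Measurable p)
    (hp' : Measurable p') {m : ℝ} (hm : ∀ y ∈ bal G x h, ∫ ω, (mg G β D (p ω) y -
        mg G β D' (p' ω) y) ^ 2 ∂P ≤ m) {k : ℕ} {A lam : ℝ} (hlam : 0 < lam)
    (hA : ∀ c ∈ bal G x h, c ≠ x → ∫ ω, ms G β D x (p ω) c ^ (2 * (k + 1)) ∂P ≤ A)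
    (hA' : ∀ c ∈ bal G x h, c ≠ x → ∫ ω, ms G β D' x (p' ω) c ^ (2 * (k + 1)) ∂P ≤ A)
    {c : V} (hc : c ∈ bal G x h) (hcx : c ≠ x) :
    SaL P (saU G β D D' x p p' c) (√(144 * lam * m + 4 ^ (k + 2) * A / lam ^ k)) := by
  have hG := hC.tree
  have hxb : x ∈ bal G x h := by rw [mem_bal hG.connected, SimpleGraph.dist_self]; omega
  have b1 : SaB (fun ω => ms G β D x (p ω) c) := (sa_fn_ms (G := G) D x c).sab.comp_meas hp
  have b2 : SaB (fun ω => ms G β D' x (p' ω) c) := (sa_fn_ms (G := G) D' x c).sab.comp_meas hp'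
  have bU : SaB (saU G β D D' x p p' c) := (b1.add b2).mul (b1.sub b2)
  obtain ⟨j, hjD, hcj, _⟩ := exists_parent hG hD (hx hxb) (hx hc) hcx
  have hcj0 := hcj
  rw [mem_ch] at hcj0
  have hc0 := hc
  rw [mem_bal hG.connected] at hc0
  have hjb : j ∈ bal G x h := by rw [mem_bal hG.connected]; omega
  have hcj' : c ∈ ch G D' x j := by rw [mem_ch]; exact ⟨hx' hc, hcj0.2⟩
  have m1 := hm c hc
  have m2 := hm j hjb
  have m3 := hA c hc hcx
  have m4 := hA' c hc hcx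
  have hm0 : 0 ≤ m := (integral_nonneg fun _ => sq_nonneg _).trans m1
  have hA0 : 0 ≤ A := (integral_nonneg fun ω => by
    show 0 ≤ ms G β D x (p ω) c ^ (2 * (k + 1)); rw [pow_mul]; positivity).trans m3
  have d1 : SaB (fun ω => mg G β D (p ω) c - mg G β D' (p' ω) c) :=
    ((sa_fn_mg (G := G) D c).sab.comp_meas hp).sub ((sa_fn_mg (G := G) D' c).sab.comp_meas hp')
  have d2 : SaB (fun ω => mg G β D (p ω) j - mg G β D' (p' ω) j) :=
    ((sa_fn_mg (G := G) D j).sab.comp_meas hp).sub ((sa_fn_mg (G := G) D' j).sab.comp_meas hp')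
  refine ⟨bU, Real.sqrt_nonneg _, ?_⟩
  rw [Real.sq_sqrt (by positivity)]
  set g : Ω → ℝ := fun ω => (72 * lam) * (mg G β D (p ω) c - mg G β D' (p' ω) c) ^ 2 +
    (72 * lam) * (mg G β D (p ω) j - mg G β D' (p' ω) j) ^ 2 +
    (2 * 4 ^ (k + 1) / lam ^ k) * ms G β D x (p ω) c ^ (2 * (k + 1)) +
    (2 * 4 ^ (k + 1) / lam ^ k) * ms G β D' x (p' ω) c ^ (2 * (k + 1)) with hg
  have bg : SaB g := (((SaB.const _).mul (d1.pow 2)).add ((SaB.const _).mul (d2.pow 2))).add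
    ((SaB.const _).mul (b1.pow _)) |>.add ((SaB.const _).mul (b2.pow _))
  have h1 : ∫ ω, saU G β D D' x p p' c ω ^ 2 ∂P ≤ ∫ ω, g ω ∂P := by
    refine integral_mono (bU.pow 2).integrable bg.integrable fun ω => ?_
    show saU G β D D' x p p' c ω ^ 2 ≤ g ω
    have hlip := ms_lip hC hcj hcj' hjD (hx' hjb) (p ω) (p' ω)
    have n1 : |ms G β D x (p ω) c| ≤ 1 := abs_mg_le _ _ _
    have n2 : |ms G β D' x (p' ω) c| ≤ 1 := abs_mg_le _ _ _
    have eU : saU G β D D' x p p' c ω =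
      (ms G β D x (p ω) c + ms G β D' x (p' ω) c) * (ms G β D x (p ω) c - ms G β D' x (p' ω) c) :=
      rfl
    rw [hg, eU]
    simp only
    set s := ms G β D x (p ω) c with hs
    set s' := ms G β D' x (p' ω) c with hs'
    set dc := mg G β D (p ω) c - mg G β D' (p' ω) c with hdc
    set dj := mg G β D (p ω) j - mg G β D' (p' ω) j with hdj
    have hδ : (s - s') ^ 2 ≤ 72 * (dc ^ 2 + dj ^ 2) := by
      have := pow_le_pow_left₀ (abs_nonneg _) hlip 2
      rw [sq_abs] at this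
      nlinarith [sq_nonneg (|dc| - |dj|), sq_abs dc, sq_abs dj]
    have hpw : ((s + s') ^ 2) ^ (k + 1) ≤ 4 ^ (k + 1) / 2 * (s ^ (2 * (k + 1)) +
        s' ^ (2 * (k + 1))) := by
      have l1 : (s + s') ^ 2 ≤ 2 * (s ^ 2 + s' ^ 2) := by nlinarith [sq_nonneg (s - s')]
      have l2 := pow_le_pow_left₀ (sq_nonneg _) l1 (k + 1)
      have l3 := add_pow_le (sq_nonneg s) (sq_nonneg s') (k + 1)
      calc ((s + s') ^ 2) ^ (k + 1) ≤ (2 * (s ^ 2 + s' ^ 2)) ^ (k + 1) := l2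
        _ = 2 ^ (k + 1) * (s ^ 2 + s' ^ 2) ^ (k + 1) := mul_pow _ _ _
        _ ≤ 2 ^ (k + 1) * (2 ^ (k + 1 - 1) * ((s ^ 2) ^ (k + 1) + (s' ^ 2) ^ (k + 1))) :=
            mul_le_mul_of_nonneg_left l3 (by positivity)
        _ = _ := by
            rw [Nat.add_sub_cancel, ← pow_mul, ← pow_mul,
              show (4 : ℝ) = 2 * 2 by norm_num, mul_pow, pow_succ (2 : ℝ) k]
            ring
    have hlk : 0 < lam ^ k := pow_pos hlam k
    have hmain : ((s + s') * (s - s')) ^ 2 ≤ lam * (s - s') ^ 2 +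
        4 * ((s + s') ^ 2) ^ (k + 1) / lam ^ k := by
      rcases le_or_gt ((s + s') ^ 2) lam with hle | hgt
      · have : ((s + s') * (s - s')) ^ 2 = (s + s') ^ 2 * (s - s') ^ 2 := by ring
        rw [this]
        have l1 := mul_le_mul_of_nonneg_right hle (sq_nonneg (s - s'))
        have l2 : 0 ≤ 4 * ((s + s') ^ 2) ^ (k + 1) / lam ^ k := by positivity
        linarith
      · have l0 : (s - s') ^ 2 ≤ 4 := by
          rw [abs_le] at n1 n2
          nlinarith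
        have l1 : lam ^ k ≤ ((s + s') ^ 2) ^ k := pow_le_pow_left₀ hlam.le hgt.le k
        have l2 : (s + s') ^ 2 ≤ ((s + s') ^ 2) ^ (k + 1) / lam ^ k := by
          rw [le_div_iff₀ hlk, pow_succ' ((s + s') ^ 2) k]
          exact mul_le_mul_of_nonneg_left l1 (sq_nonneg _)
        have l3 : ((s + s') * (s - s')) ^ 2 ≤ 4 * (s + s') ^ 2 := by
          have : ((s + s') * (s - s')) ^ 2 = (s + s') ^ 2 * (s - s') ^ 2 := by ring
          rw [this]
          nlinarith [sq_nonneg (s + s')]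
        have l4 : 0 ≤ lam * (s - s') ^ 2 := by positivity
        have l5 : 4 * ((s + s') ^ 2) ^ (k + 1) / lam ^ k =
          4 * (((s + s') ^ 2) ^ (k + 1) / lam ^ k) := by ring
        rw [l5]
        linarith
    have hfin : 4 * ((s + s') ^ 2) ^ (k + 1) / lam ^ k ≤
        (2 * 4 ^ (k + 1) / lam ^ k) * s ^ (2 * (k + 1)) +
        (2 * 4 ^ (k + 1) / lam ^ k) * s' ^ (2 * (k + 1)) := by
      calc 4 * ((s + s') ^ 2) ^ (k + 1) / lam ^ k
          ≤ 4 * (4 ^ (k + 1) / 2 * (s ^ (2 * (k + 1)) + s' ^ (2 * (k + 1)))) / lam ^ k := by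
            gcongr
        _ = _ := by ring
    have := mul_le_mul_of_nonneg_left hδ hlam.le
    linarith
  have h2 : ∫ ω, g ω ∂P = (72 * lam) * ∫ ω, (mg G β D (p ω) c - mg G β D' (p' ω) c) ^ 2 ∂P +
    (72 * lam) * ∫ ω, (mg G β D (p ω) j - mg G β D' (p' ω) j) ^ 2 ∂P +
    (2 * 4 ^ (k + 1) / lam ^ k) * ∫ ω, ms G β D x (p ω) c ^ (2 * (k + 1)) ∂P +
    (2 * 4 ^ (k + 1) / lam ^ k) * ∫ ω, ms G β D' x (p' ω) c ^ (2 * (k + 1)) ∂P := by
    rw [← integral_const_mul, ← integral_const_mul, ← integral_const_mul, ← integral_const_mul,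
      ← integral_add, ← integral_add, ← integral_add]
    · exact ((((SaB.const _).mul (d1.pow 2)).add ((SaB.const _).mul (d2.pow 2))).add
        ((SaB.const _).mul (b1.pow _))).integrable
    · exact ((SaB.const _).mul (b2.pow _)).integrable
    · exact (((SaB.const _).mul (d1.pow 2)).add ((SaB.const _).mul (d2.pow 2))).integrable
    · exact ((SaB.const _).mul (b1.pow _)).integrable
    · exact ((SaB.const _).mul (d1.pow 2)).integrable
    · exact ((SaB.const _).mul (d2.pow 2)).integrable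
  rw [h2] at h1
  have hlk : 0 < lam ^ k := pow_pos hlam k
  refine h1.trans ?_
  calc (72 * lam) * ∫ ω, (mg G β D (p ω) c - mg G β D' (p' ω) c) ^ 2 ∂P +
    (72 * lam) * ∫ ω, (mg G β D (p ω) j - mg G β D' (p' ω) j) ^ 2 ∂P +
    (2 * 4 ^ (k + 1) / lam ^ k) * ∫ ω, ms G β D x (p ω) c ^ (2 * (k + 1)) ∂P +
    (2 * 4 ^ (k + 1) / lam ^ k) * ∫ ω, ms G β D' x (p' ω) c ^ (2 * (k + 1)) ∂P
      ≤ (72 * lam) * m + (72 * lam) * m + (2 * 4 ^ (k + 1) / lam ^ k) * A +
        (2 * 4 ^ (k + 1) / lam ^ k) * A := by gcongr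
    _ = _ := by ring

/-- Integrated bound of `Sx`. -/
lemma sa_Sx_int (hC : Crit G b β) {D D' : Finset V} (hD : Cvx G D) (hD' : Cvx G D') {x : V}
    {h : ℕ} (hx : bal G x h ⊆ D) (hx' : bal G x h ⊆ D') {ν ν' : Measure ℝ}
    {p p' : Ω → V → ℝ} (hp : PLaw G β ν D P p)
    (hp' : PLaw G β ν' D' P p') {m B F : ℝ}
    (hm : ∀ y ∈ bal G x h, ∫ ω, (mg G β D (p ω) y - mg G β D' (p' ω) y) ^ 2 ∂P ≤ m)
    (hB : ∫ ω, Dl G β D D' x h x (p ω) (p' ω) ∂P ≤ B)
    (hF : EE G β (fun _ => ν) D (fun p => ∑ u ∈ D \ bal G x h, cv G β D p x u ^ 2) ≤ F)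
    (hF' : EE G β (fun _ => ν') D' (fun p => ∑ u ∈ D' \ bal G x h, cv G β D' p x u ^ 2) ≤ F)
    {a : ℝ} (ha0 : 0 ≤ a) (ha : a ≤ 1 / 4) :
    ∫ ω, Sx G β a D D' x (fld (p ω)) (fld (p' ω)) ∂P ≤
      a ^ 2 * (140 * (h + 1) * m + 16 * B + 64 * F) := by
  have hG := hC.tree
  obtain ⟨t0, t1, t2, t3⟩ := sa_tanh hC
  have hxb : x ∈ bal G x h := by rw [mem_bal hG.connected, SimpleGraph.dist_self]; omega
  have hm0 : 0 ≤ m := (integral_nonneg fun _ => sq_nonneg _).trans (hm x hxb)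
  have bM : ∀ y, SaB (fun ω => mg G β D (p ω) y - mg G β D' (p' ω) y) := fun y =>
    ((sa_fn_mg (G := G) D y).sab.comp_meas hp.1).sub
      ((sa_fn_mg (G := G) D' y).sab.comp_meas hp'.1)
  have bDl : SaB (fun ω => Dl G β D D' x h x (p ω) (p' ω)) := by
    unfold Dl
    refine SaB.sum _ fun u _ => ?_
    refine SaB.pow ?_ 2
    exact (SaB.prod _ fun k _ => (sa_fn_slope hC D x k).sab.comp_meas hp.1).sub
      (SaB.prod _ fun k _ => (sa_fn_slope hC D' x k).sab.comp_meas hp'.1)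
  have fF : Fn D (fun p => ∑ u ∈ D \ bal G x h, cv G β D p x u ^ 2) :=
    Fn.sa_sum _ fun u hu => (sa_fn_cv hC hD (hx hxb) (Finset.mem_sdiff.mp hu).1).sa_pow 2
  have fF' : Fn D' (fun p => ∑ u ∈ D' \ bal G x h, cv G β D' p x u ^ 2) :=
    Fn.sa_sum _ fun u hu => (sa_fn_cv hC hD' (hx' hxb) (Finset.mem_sdiff.mp hu).1).sa_pow 2
  have bF := fF.sab.comp_meas hp.1
  have bF' := fF'.sab.comp_meas hp'.1
  set S1 : Ω → ℝ := fun ω => ∑ u ∈ bal G x h, Real.tanh β ^ (2 * G.dist x u) *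
    (mg G β D (p ω) u - mg G β D' (p' ω) u) ^ 2 with hS1
  have bS1 : SaB S1 := SaB.sum _ fun u _ => (SaB.const _).mul ((bM u).pow 2)
  set g : Ω → ℝ := fun ω => (a ^ 2 * (128 * (h + 1))) *
      (mg G β D (p ω) x - mg G β D' (p' ω) x) ^ 2 +
    (a ^ 2 * 16) * Dl G β D D' x h x (p ω) (p' ω) + (a ^ 2 * 8) * S1 ω +
    (a ^ 2 * 16) * (∑ u ∈ D \ bal G x h, cv G β D (p ω) x u ^ 2) +
    (a ^ 2 * 48) * (∑ u ∈ D' \ bal G x h, cv G β D' (p' ω) x u ^ 2) with hg
  have bg : SaB g := (((((SaB.const _).mul ((bM x).pow 2)).add ((SaB.const _).mul bDl)).add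
    ((SaB.const _).mul bS1)).add ((SaB.const _).mul bF)).add ((SaB.const _).mul bF')
  have h1 : ∫ ω, Sx G β a D D' x (fld (p ω)) (fld (p' ω)) ∂P ≤ ∫ ω, g ω ∂P := by
    refine integral_mono_of_nonneg (Filter.Eventually.of_forall fun ω => ?_) bg.integrable
      (Filter.Eventually.of_forall fun ω => ?_)
    · show 0 ≤ Sx G β a D D' x (fld (p ω)) (fld (p' ω))
      unfold Sx
      positivity
    · show Sx G β a D D' x (fld (p ω)) (fld (p' ω)) ≤ g ω
      refine (Sx_le ha0 ha hx hx' _ _).trans ?_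
      have k1 := sa_near hC hD hD' hx hx' (p ω) (p' ω)
      have k2 : ∑ u ∈ bal G x h, cov G β D' (fld (p' ω)) x u ^ 2 *
          (mag G β D (fld (p ω)) u - mag G β D' (fld (p' ω)) u) ^ 2 ≤ S1 ω := by
        refine Finset.sum_le_sum fun u hu => ?_
        exact mul_le_mul_of_nonneg_right (sa_cv_sq_le hC hD' (hx' hxb) (hx' hu) (p' ω))
          (sq_nonneg _)
      have e1 : ∑ u ∈ bal G x h, (cov G β D (fld (p ω)) x u - cov G β D' (fld (p' ω)) x u) ^ 2 =
        ∑ u ∈ bal G x h, (cv G β D (p ω) x u - cv G β D' (p' ω) x u) ^ 2 := rfl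
      have e2 : ∑ u ∈ D \ bal G x h, cov G β D (fld (p ω)) x u ^ 2 =
        ∑ u ∈ D \ bal G x h, cv G β D (p ω) x u ^ 2 := rfl
      have e3 : ∑ u ∈ D' \ bal G x h, cov G β D' (fld (p' ω)) x u ^ 2 =
        ∑ u ∈ D' \ bal G x h, cv G β D' (p' ω) x u ^ 2 := rfl
      rw [e1, e2, e3]
      calc a ^ 2 * (8 * ∑ u ∈ bal G x h, (cv G β D (p ω) x u - cv G β D' (p' ω) x u) ^ 2 +
             8 * ∑ u ∈ bal G x h, cov G β D' (fld (p' ω)) x u ^ 2 *
              (mag G β D (fld (p ω)) u - mag G β D' (fld (p' ω)) u) ^ 2 +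
             16 * ∑ u ∈ D \ bal G x h, cv G β D (p ω) x u ^ 2 +
             48 * ∑ u ∈ D' \ bal G x h, cv G β D' (p' ω) x u ^ 2)
          ≤ a ^ 2 * (8 * (16 * (h + 1) * (mg G β D (p ω) x - mg G β D' (p' ω) x) ^ 2 +
              2 * Dl G β D D' x h x (p ω) (p' ω)) + 8 * S1 ω +
             16 * ∑ u ∈ D \ bal G x h, cv G β D (p ω) x u ^ 2 +
             48 * ∑ u ∈ D' \ bal G x h, cv G β D' (p' ω) x u ^ 2) := by gcongr
        _ = _ := by rw [hg]; ring
  have i1 : Integrable (fun ω => (a ^ 2 * (128 * (h + 1))) *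
      (mg G β D (p ω) x - mg G β D' (p' ω) x) ^ 2) P :=
    ((SaB.const _).mul ((bM x).pow 2)).integrable
  have i2 : Integrable (fun ω => (a ^ 2 * 16) * Dl G β D D' x h x (p ω) (p' ω)) P :=
    ((SaB.const _).mul bDl).integrable
  have i3 : Integrable (fun ω => (a ^ 2 * 8) * S1 ω) P := ((SaB.const _).mul bS1).integrable
  have i4 : Integrable (fun ω => (a ^ 2 * 16) *
      (∑ u ∈ D \ bal G x h, cv G β D (p ω) x u ^ 2)) P := ((SaB.const _).mul bF).integrable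
  have i5 : Integrable (fun ω => (a ^ 2 * 48) *
      (∑ u ∈ D' \ bal G x h, cv G β D' (p' ω) x u ^ 2)) P := ((SaB.const _).mul bF').integrable
  have h2 : ∫ ω, g ω ∂P = (a ^ 2 * (128 * (h + 1))) *
      ∫ ω, (mg G β D (p ω) x - mg G β D' (p' ω) x) ^ 2 ∂P +
    (a ^ 2 * 16) * ∫ ω, Dl G β D D' x h x (p ω) (p' ω) ∂P + (a ^ 2 * 8) * ∫ ω, S1 ω ∂P +
    (a ^ 2 * 16) * ∫ ω, (∑ u ∈ D \ bal G x h, cv G β D (p ω) x u ^ 2) ∂P +
    (a ^ 2 * 48) * ∫ ω, (∑ u ∈ D' \ bal G x h, cv G β D' (p' ω) x u ^ 2) ∂P := by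
    rw [← integral_const_mul, ← integral_const_mul, ← integral_const_mul, ← integral_const_mul,
      ← integral_const_mul, ← integral_add, ← integral_add, ← integral_add, ← integral_add]
    · exact (((((SaB.const _).mul ((bM x).pow 2)).add ((SaB.const _).mul bDl)).add
        ((SaB.const _).mul bS1)).add ((SaB.const _).mul bF)).integrable
    · exact i5
    · exact ((((SaB.const _).mul ((bM x).pow 2)).add ((SaB.const _).mul bDl)).add
        ((SaB.const _).mul bS1)).integrable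
    · exact i4
    · exact (((SaB.const _).mul ((bM x).pow 2)).add ((SaB.const _).mul bDl)).integrable
    · exact i3
    · exact i1
    · exact i2
  have h3 : ∫ ω, S1 ω ∂P ≤ 3 / 2 * (h + 1) * m := by
    rw [hS1, integral_finsetSum _ fun u _ => ((SaB.const _).mul ((bM u).pow 2)).integrable]
    calc ∑ u ∈ bal G x h, ∫ ω, Real.tanh β ^ (2 * G.dist x u) *
          (mg G β D (p ω) u - mg G β D' (p' ω) u) ^ 2 ∂P
        ≤ ∑ u ∈ bal G x h, Real.tanh β ^ (2 * G.dist x u) * m := by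
          refine Finset.sum_le_sum fun u hu => ?_
          rw [integral_const_mul]
          exact mul_le_mul_of_nonneg_left (hm u hu) (by positivity)
      _ = (∑ u ∈ bal G x h, Real.tanh β ^ (2 * G.dist x u)) * m := by rw [Finset.sum_mul]
      _ ≤ _ := mul_le_mul_of_nonneg_right (sa_sum_theta hC x h) hm0
  have h4 : ∫ ω, (∑ u ∈ D \ bal G x h, cv G β D (p ω) x u ^ 2) ∂P ≤ F := by
    rw [hp.2 _ fF]; exact hF
  have h5 : ∫ ω, (∑ u ∈ D' \ bal G x h, cv G β D' (p' ω) x u ^ 2) ∂P ≤ F := by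
    rw [hp'.2 _ fF']; exact hF'
  have h6 := hm x hxb
  rw [h2] at h1
  refine h1.trans ?_
  calc (a ^ 2 * (128 * (h + 1))) *
      ∫ ω, (mg G β D (p ω) x - mg G β D' (p' ω) x) ^ 2 ∂P +
    (a ^ 2 * 16) * ∫ ω, Dl G β D D' x h x (p ω) (p' ω) ∂P + (a ^ 2 * 8) * ∫ ω, S1 ω ∂P +
    (a ^ 2 * 16) * ∫ ω, (∑ u ∈ D \ bal G x h, cv G β D (p ω) x u ^ 2) ∂P +
    (a ^ 2 * 48) * ∫ ω, (∑ u ∈ D' \ bal G x h, cv G β D' (p' ω) x u ^ 2) ∂P
      ≤ (a ^ 2 * (128 * (h + 1))) * m + (a ^ 2 * 16) * B + (a ^ 2 * 8) * (3 / 2 * (h + 1) * m) +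
        (a ^ 2 * 16) * F + (a ^ 2 * 48) * F := by gcongr
    _ = _ := by ring

omit [DecidableEq V] [DecidableRel G.Adj] [G.LocallyFinite] in
lemma sa_exp_neg_le {y : ℝ} (hy : 0 < y) (k : ℕ) :
    Real.exp (-y) ≤ (k.factorial : ℝ) * (1 / y) ^ k := by
  have h1 := Real.pow_div_factorial_le_exp y hy.le k
  have hf : (0 : ℝ) < k.factorial := by exact_mod_cast k.factorial_pos
  have hyk : 0 < y ^ k := pow_pos hy k
  rw [Real.exp_neg, one_div, inv_pow]
  rw [div_le_iff₀ hf] at h1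
  rw [inv_le_comm₀ (Real.exp_pos y) (by positivity)]
  rw [mul_inv, inv_inv]
  rw [inv_mul_le_iff₀ hf]
  linarith

/-- Numerical part. -/
lemma sa_num {τ K C₁ c₁ m eps η F : ℝ} {N h r : ℕ} (hτ0 : 0 < τ) (hτ1 : τ ≤ 1) (hK : 1 ≤ K)
    (hC₁ : 1 ≤ C₁) (hc₁ : 0 < c₁) (hm0 : 0 ≤ m) (hm4 : m ≤ 4) (heps : 0 ≤ eps)
    (hh : h = ⌈1 / τ ^ 13⌉₊) (hr : r = ⌈1 / τ⌉₊) (hη0 : 0 ≤ η)
    (hη : η ^ 2 = 144 * τ ^ 11 * m + 4 ^ (24 * N + 17) * K * τ ^ (24 * N + 27))
    (hF : F ≤ C₁ / τ ^ 12 * Real.exp (-(c₁ * τ ^ 12 * h))) :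
    140 * (h + 1) * m + 16 * (3 / 2 * (h * (4 * (h + 1) * η ^ 2 + 2 * η *
      (8 * η * r * (h + 1) + 6 * (h + 1) * (3 / 4 : ℝ) ^ r + 18 * (h + 1) * eps)))) + 64 * F ≤
    (420 + 9072 * 144) * (1 / τ ^ 18) * m +
    (9072 * 4 ^ (24 * N + 17) * K + 7776 * ((24 * N + 26).factorial : ℝ) * 4 ^ (24 * N + 26) +
      64 * C₁ * ((24 * N + 12).factorial : ℝ) * (1 / c₁) ^ (24 * N + 12)) * (τ ^ 24) ^ N +
    (864 * (h + 1) ^ 2 * (576 + 4 ^ (24 * N + 17) * K)) * eps := by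
  have hpow : ∀ n, 0 < τ ^ n := fun n => pow_pos hτ0 n
  have hpow1 : ∀ n, τ ^ n ≤ 1 := fun n => pow_le_one₀ hτ0.le hτ1
  -- sizes
  have h1 : 1 / τ ^ 13 ≤ h := by rw [hh]; exact Nat.le_ceil _
  have h1' : (1 : ℝ) ≤ 1 / τ ^ 13 := by rw [le_div_iff₀ (hpow 13), one_mul]; exact hpow1 13
  have h2 : (h : ℝ) + 1 ≤ 3 * (1 / τ ^ 13) := by
    have : (h : ℝ) < 1 / τ ^ 13 + 1 := by rw [hh]; exact Nat.ceil_lt_add_one (by positivity)
    linarith
  have r1 : 1 / τ ≤ r := by rw [hr]; exact Nat.le_ceil _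
  have r1' : (1 : ℝ) ≤ 1 / τ := by rw [le_div_iff₀ hτ0, one_mul]; exact hτ1
  have r2 : (r : ℝ) ≤ 2 * (1 / τ) := by
    have : (r : ℝ) < 1 / τ + 1 := by rw [hr]; exact Nat.ceil_lt_add_one (by positivity)
    linarith
  have hh0 : (0 : ℝ) ≤ h := Nat.cast_nonneg h
  have hr1 : (1 : ℝ) ≤ r := r1'.trans r1
  set H : ℝ := (h : ℝ) + 1 with hHd
  set y : ℝ := (3 / 4 : ℝ) ^ r with hy
  have hy0 : 0 ≤ y := by positivity
  have hy1 : y ≤ 1 := pow_le_one₀ (by norm_num) (by norm_num)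
  set Bq : ℝ := 576 + 4 ^ (24 * N + 17) * K with hBq
  have hBq1 : 1 ≤ Bq := by
    have : (0 : ℝ) ≤ 4 ^ (24 * N + 17) * K := by positivity
    rw [hBq]; linarith
  have hηB : η ^ 2 ≤ Bq := by
    rw [hη, hBq]
    have a1 : 144 * τ ^ 11 * m ≤ 144 * 1 * 4 := by
      have := hpow1 11
      gcongr
    have a2 : (4 : ℝ) ^ (24 * N + 17) * K * τ ^ (24 * N + 27) ≤ 4 ^ (24 * N + 17) * K * 1 := by
      have := hpow1 (24 * N + 27)
      gcongr
    linarith
  have hηB' : η ≤ Bq := by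
    by_contra hcon
    push Not at hcon
    nlinarith
  -- algebra
  have e1 : 4 * H * η ^ 2 + 2 * η * (8 * η * r * H + 6 * H * y + 18 * H * eps) ≤
      H * (21 * r * η ^ 2 + 36 * y + 36 * Bq * eps) := by
    have a1 : 2 * η * (6 * y) ≤ η ^ 2 + 36 * y := by nlinarith [sq_nonneg (η - 6 * y)]
    have a2 : η * eps ≤ Bq * eps := mul_le_mul_of_nonneg_right hηB' heps
    have a3 : 5 * η ^ 2 ≤ 5 * r * η ^ 2 := by nlinarith [sq_nonneg η]
    have hH0 : 0 ≤ H := by positivity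
    calc 4 * H * η ^ 2 + 2 * η * (8 * η * r * H + 6 * H * y + 18 * H * eps)
        = H * (4 * η ^ 2 + 16 * r * η ^ 2 + 2 * η * (6 * y) + 36 * (η * eps)) := by ring
      _ ≤ H * (21 * r * η ^ 2 + 36 * y + 36 * Bq * eps) := by
          refine mul_le_mul_of_nonneg_left ?_ hH0
          linarith
  have hH0 : 0 ≤ H := by positivity
  have hH3 : H ^ 2 ≤ 9 * (1 / τ ^ 26) := by
    have := pow_le_pow_left₀ hH0 h2 2
    calc H ^ 2 ≤ (3 * (1 / τ ^ 13)) ^ 2 := this
      _ = _ := by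
        field_simp
        norm_num
  have e2 : 16 * (3 / 2 * (h * (4 * H * η ^ 2 + 2 * η * (8 * η * r * H + 6 * H * y +
      18 * H * eps)))) ≤ 24 * H ^ 2 * (21 * r * η ^ 2) + 24 * H ^ 2 * (36 * y) +
        (864 * H ^ 2 * Bq) * eps := by
    have a0 : 0 ≤ H * (21 * r * η ^ 2 + 36 * y + 36 * Bq * eps) := by positivity
    have a1 : (h : ℝ) * (4 * H * η ^ 2 + 2 * η * (8 * η * r * H + 6 * H * y + 18 * H * eps)) ≤
        H * (H * (21 * r * η ^ 2 + 36 * y + 36 * Bq * eps)) := by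
      refine mul_le_mul (by linarith) e1 (by positivity) hH0
    nlinarith
  have e3 : 24 * H ^ 2 * (21 * r * η ^ 2) ≤ 9072 * (1 / τ ^ 27) * η ^ 2 := by
    calc 24 * H ^ 2 * (21 * r * η ^ 2) ≤ 24 * (9 * (1 / τ ^ 26)) * (21 * (2 * (1 / τ)) * η ^ 2) := by
          gcongr
      _ = _ := by
          rw [show τ ^ 27 = τ ^ 26 * τ by ring]
          field_simp
          ring
  have e4 : 9072 * (1 / τ ^ 27) * η ^ 2 ≤ 9072 * 144 * (1 / τ ^ 18) * m +
      9072 * 4 ^ (24 * N + 17) * K * (τ ^ 24) ^ N := by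
    rw [hη]
    have a1 : 1 / τ ^ 27 * τ ^ 11 ≤ 1 / τ ^ 18 := by
      rw [div_mul_eq_mul_div, one_mul, div_le_div_iff₀ (hpow 27) (hpow 18), one_mul, ← pow_add]
      exact pow_le_pow_of_le_one hτ0.le hτ1 (by norm_num)
    have a2 : 1 / τ ^ 27 * τ ^ (24 * N + 27) = (τ ^ 24) ^ N := by
      rw [pow_add, ← pow_mul]
      field_simp
    calc 9072 * (1 / τ ^ 27) * (144 * τ ^ 11 * m + 4 ^ (24 * N + 17) * K * τ ^ (24 * N + 27))
        = 9072 * 144 * (1 / τ ^ 27 * τ ^ 11) * m +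
          9072 * 4 ^ (24 * N + 17) * K * (1 / τ ^ 27 * τ ^ (24 * N + 27)) := by ring
      _ ≤ 9072 * 144 * (1 / τ ^ 18) * m + 9072 * 4 ^ (24 * N + 17) * K * (τ ^ 24) ^ N := by
          rw [a2]
          gcongr
  have e5 : 24 * H ^ 2 * (36 * y) ≤
      7776 * ((24 * N + 26).factorial : ℝ) * 4 ^ (24 * N + 26) * (τ ^ 24) ^ N := by
    have a1 : y ≤ Real.exp (-(1 / (4 * τ))) := by
      have b1 : (3 / 4 : ℝ) ≤ Real.exp (-(1 / 4)) := by
        have := Real.add_one_le_exp (-(1 / 4) : ℝ)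
        linarith
      calc y ≤ Real.exp (-(1 / 4)) ^ r := pow_le_pow_left₀ (by norm_num) b1 r
        _ = Real.exp (-((r : ℝ) / 4)) := by rw [← Real.exp_nat_mul]; congr 1; ring
        _ ≤ _ := by
            apply Real.exp_le_exp.mpr
            have : 1 / (4 * τ) = (1 / τ) / 4 := by field_simp
            rw [this]; linarith
    have a2 := sa_exp_neg_le (y := 1 / (4 * τ)) (by positivity) (24 * N + 26)
    have a3 : (1 / (1 / (4 * τ))) ^ (24 * N + 26) = 4 ^ (24 * N + 26) * ((τ ^ 24) ^ N * τ ^ 26) := by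
      rw [one_div_one_div, mul_pow, pow_add τ, ← pow_mul]
    rw [a3] at a2
    calc 24 * H ^ 2 * (36 * y) ≤ 24 * (9 * (1 / τ ^ 26)) * (36 * (((24 * N + 26).factorial : ℝ) *
          (4 ^ (24 * N + 26) * ((τ ^ 24) ^ N * τ ^ 26)))) := by
          gcongr
          exact a1.trans a2
      _ = _ := by
          have := (hpow 26).ne'
          field_simp
          norm_num
  have e6 : 64 * F ≤ 64 * C₁ * ((24 * N + 12).factorial : ℝ) * (1 / c₁) ^ (24 * N + 12) *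
      (τ ^ 24) ^ N := by
    have a1 : Real.exp (-(c₁ * τ ^ 12 * h)) ≤ Real.exp (-(c₁ / τ)) := by
      apply Real.exp_le_exp.mpr
      have b1 : c₁ * τ ^ 12 * (1 / τ ^ 13) ≤ c₁ * τ ^ 12 * h :=
        mul_le_mul_of_nonneg_left h1 (by positivity)
      have b2 : c₁ * τ ^ 12 * (1 / τ ^ 13) = c₁ / τ := by
        have := (hpow 12).ne'
        rw [show τ ^ 13 = τ ^ 12 * τ by ring]
        field_simp
      linarith
    have a2 := sa_exp_neg_le (y := c₁ / τ) (by positivity) (24 * N + 12)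
    have a3 : (1 / (c₁ / τ)) ^ (24 * N + 12) =
        (1 / c₁) ^ (24 * N + 12) * ((τ ^ 24) ^ N * τ ^ 12) := by
      rw [one_div_div, ← pow_mul, ← pow_add, ← mul_pow]
      congr 1
      ring
    rw [a3] at a2
    calc 64 * F ≤ 64 * (C₁ / τ ^ 12 * (((24 * N + 12).factorial : ℝ) *
          ((1 / c₁) ^ (24 * N + 12) * ((τ ^ 24) ^ N * τ ^ 12)))) := by
          refine mul_le_mul_of_nonneg_left (hF.trans ?_) (by norm_num)
          refine mul_le_mul_of_nonneg_left (a1.trans a2) (by positivity)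
      _ = _ := by
          have := (hpow 12).ne'
          field_simp
  have e7 : 140 * H * m ≤ 420 * (1 / τ ^ 18) * m := by
    have a1 : 1 / τ ^ 13 ≤ 1 / τ ^ 18 := by
      rw [div_le_div_iff₀ (hpow 13) (hpow 18), one_mul, one_mul]
      exact pow_le_pow_of_le_one hτ0.le hτ1 (by norm_num)
    have : 140 * H ≤ 420 * (1 / τ ^ 18) := by linarith
    exact mul_le_mul_of_nonneg_right this hm0
  linarith

end SaPair

lemma sa_mom_EE (hC : Crit G b β) {D : Finset V} (hD : Cvx G D) {ν : Measure ℝ} (hν : IsOwn ν)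
    (x c : V) (q : ℕ) :
    EE G β (fun _ => ν) D (fun p => ms G β D x p c ^ (2 * q)) =
      mom G β (fun _ => ν) (br G D x c) c q := by
  have h1 : Fn (br G D x c) (fun p => ms G β D x p c ^ (2 * q)) :=
    (sa_fn_mg (G := G) (β := β) (br G D x c) c).sa_pow (2 * q)
  rw [EE_cons hC.tree (fun _ => hν) hD (cvx_br hC.tree hD x c) (br_subset D x c) h1]
  rfl

/-- Everything except the numerical part. -/
lemma sa_core (hC : Crit G b β) {D D' : Finset V} (hD : Cvx G D) (hD' : Cvx G D') {x : V}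
    {h : ℕ} (hx : bal G x h ⊆ D) (hx' : bal G x h ⊆ D') {ν ν' : Measure ℝ} (hν : IsOwn ν)
    (hν' : IsOwn ν') {p p' : (V × ℕ → unitInterval) → V → ℝ}
    (hp : PLaw G β ν D (iidLaw (V × ℕ)) p) (hp' : PLaw G β ν' D' (iidLaw (V × ℕ)) p')
    {eps : ℝ} (heps : 0 ≤ eps)
    (hmm : ∀ i ∈ bal G x h, ∀ u ∈ bal G x h, ∀ k ≤ h,
      G.dist x u + k ≤ h → G.dist x i + G.dist i u = G.dist x u →
      |EE G β (fun _ => ν) D (fun p => Wt G β D x i u p * Pf G β D x k u p) -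
        EE G β (fun _ => ν') D' (fun p => Wt G β D' x i u p * Pf G β D' x k u p)| ≤ eps ∧
      |EE G β (fun _ => ν) D (fun p => Wt G β D x i u p) -
        EE G β (fun _ => ν') D' (fun p => Wt G β D' x i u p)| ≤ eps)
    {m : ℝ} (hm : ∀ y ∈ bal G x h, ∫ ω, (mg G β D (p ω) y -
        mg G β D' (p' ω) y) ^ 2 ∂iidLaw (V × ℕ) ≤ m) {k : ℕ} {A lam kb : ℝ} (hlam : 0 < lam)
    (hA : ∀ c ∈ D, mom G β (fun _ => ν) (br G D x c) c (k + 1) ≤ A)
    (hA' : ∀ c ∈ D', mom G β (fun _ => ν') (br G D' x c) c (k + 1) ≤ A) (hkb0 : 0 ≤ kb)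
    (hK : ∀ c ∈ D, mom G β (fun _ => ν) (br G D x c) c 2 ≤ kb ^ 2)
    (hK' : ∀ c ∈ D', mom G β (fun _ => ν') (br G D' x c) c 2 ≤ kb ^ 2)
    (hkb1 : kb ≤ 1 / 100) {r : ℕ} (hrk : 4 * r * kb ≤ 1 / 2) {η : ℝ}
    (hη : η = √(144 * lam * m + 4 ^ (k + 2) * A / lam ^ k)) {F : ℝ}
    (hF : EE G β (fun _ => ν) D (fun p => ∑ u ∈ D \ bal G x h, cv G β D p x u ^ 2) ≤ F)
    (hF' : EE G β (fun _ => ν') D' (fun p => ∑ u ∈ D' \ bal G x h, cv G β D' p x u ^ 2) ≤ F)
    {a : ℝ} (ha0 : 0 ≤ a) (ha : a ≤ 1 / 4) :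
    ∫ ω, Sx G β a D D' x (fld (p ω)) (fld (p' ω)) ∂iidLaw (V × ℕ) ≤
      a ^ 2 * (140 * (h + 1) * m + 16 * (3 / 2 * (h * (4 * (h + 1) * η ^ 2 + 2 * η *
      (8 * η * r * (h + 1) + 6 * (h + 1) * (3 / 4 : ℝ) ^ r + 18 * (h + 1) * eps)))) + 64 * F) := by
  have hη0 : 0 ≤ η := by rw [hη]; exact Real.sqrt_nonneg _
  have hU : ∀ c ∈ bal G x h, c ≠ x → SaL (iidLaw (V × ℕ)) (saU G β D D' x p p' c) η := by
    intro c hc hcx
    rw [hη]
    refine sa_U hC hD hD' hx hx' hp.1 hp'.1 hm (k := k)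
      (A := A) hlam ?_ ?_ hc hcx
    · intro c hc _
      rw [sa_mom hC hD hν hp x c (k + 1)]
      exact hA c (hx hc)
    · intro c hc _
      rw [sa_mom hC hD' hν' hp' x c (k + 1)]
      exact hA' c (hx' hc)
  have hkbD : ∀ i ∈ D, i ≠ x → EE G β (fun _ => ν) D (fun p => ms G β D x p i ^ 4) ≤
      kb ^ 2 := by
    intro i hi _
    have e := sa_mom_EE hC hD hν x i 2
    rw [show 2 * 2 = 4 by norm_num] at e
    rw [e]
    exact hK i hi
  have hkbD' : ∀ i ∈ D', i ≠ x → EE G β (fun _ => ν') D' (fun p => ms G β D' x p i ^ 4) ≤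
      kb ^ 2 := by
    intro i hi _
    have e := sa_mom_EE hC hD' hν' x i 2
    rw [show 2 * 2 = 4 by norm_num] at e
    rw [e]
    exact hK' i hi
  have hDl := sa_Dl_root hC hD hD' hx hx' hp.1 hp'.1 hη0
    (ρ := 8 * η * r * (h + 1) + 6 * (h + 1) * (3 / 4 : ℝ) ^ r + 18 * (h + 1) * eps)
    (by positivity) hU
    (fun n c hcx hcn => sa_P_diff hC hD hD' hx hx' hν hν' hp hp' hη0 hU heps
      hmm hkb0 hkbD hkbD' hkb1 hrk n c hcx hcn)
  exact sa_Sx_int hC hD hD' hx hx' hp hp' hm hDl hF hF' ha0 ha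

omit [G.LocallyFinite] in
/-- The mean square differences are at most `4`. -/
lemma sa_le_four (D D' : Finset V) {p p' : (V × ℕ → unitInterval) → V → ℝ}
    (hp : Measurable p) (hp' : Measurable p') (y : V) :
    ∫ ω, (mg G β D (p ω) y - mg G β D' (p' ω) y) ^ 2 ∂iidLaw (V × ℕ) ≤ 4 := by
  have b1 : SaB (fun ω => mg G β D (p ω) y - mg G β D' (p' ω) y) :=
    ((sa_fn_mg (G := G) D y).sab.comp_meas hp).sub
      ((sa_fn_mg (G := G) D' y).sab.comp_meas hp')
  have h1 : ∫ ω, (mg G β D (p ω) y - mg G β D' (p' ω) y) ^ 2 ∂iidLaw (V × ℕ) ≤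
      ∫ _ω, (4 : ℝ) ∂iidLaw (V × ℕ) := by
    refine integral_mono (b1.pow 2).integrable (integrable_const _) fun ω => ?_
    have n1 := abs_mg_le (G := G) (β := β) D (p ω) y
    have n2 := abs_mg_le (G := G) (β := β) D' (p' ω) y
    rw [abs_le] at n1 n2
    show (mg G β D (p ω) y - mg G β D' (p' ω) y) ^ 2 ≤ 4
    nlinarith
  simpa using h1

/-- Estimate A for the bound `Sx`; `eps` bounds the mismatch of the two laws. -/
theorem stepA (hC : Crit G b β) (hκ : 1 ≤ κ) (N : ℕ) : ∃ C t₀ : ℝ, 1 ≤ C ∧ 0 < t₀ ∧ t₀ ≤ 1 ∧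
    ∀ t : ℝ, 0 < t → t ≤ t₀ → ∃ (h : ℕ) (Ct : ℝ), 0 ≤ Ct ∧
    ∀ ν ν' : Measure ℝ, Scale κ t ν → Scale κ t ν' → ∀ (x o o' : V) (R R' : ℕ),
      bal G x (h + 1) ⊆ bal G o R → bal G x (h + 1) ⊆ bal G o' R' →
    ∀ p p' : (V × ℕ → unitInterval) → V → ℝ,
      PLaw G β ν (bal G o R) (iidLaw (V × ℕ)) p → PLaw G β ν' (bal G o' R') (iidLaw (V × ℕ)) p' →
    ∀ eps : ℝ, 0 ≤ eps → (∀ i ∈ bal G x h, ∀ u ∈ bal G x h, ∀ k ≤ h,
      G.dist x u + k ≤ h → G.dist x i + G.dist i u = G.dist x u → 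
      |EE G β (fun _ => ν) (bal G o R)
          (fun p => Wt G β (bal G o R) x i u p * Pf G β (bal G o R) x k u p) -
        EE G β (fun _ => ν') (bal G o' R')
          (fun p => Wt G β (bal G o' R') x i u p * Pf G β (bal G o' R') x k u p)| ≤ eps ∧
      |EE G β (fun _ => ν) (bal G o R) (fun p => Wt G β (bal G o R) x i u p) -
        EE G β (fun _ => ν') (bal G o' R') (fun p => Wt G β (bal G o' R') x i u p)| ≤ eps) →
    ∀ m : ℝ, (∀ y ∈ bal G x (h + 1), ∫ ω, (mg G β (bal G o R) (p ω) y -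
        mg G β (bal G o' R') (p' ω) y) ^ 2 ∂iidLaw (V × ℕ) ≤ m) →
    ∀ a : ℝ, 0 ≤ a → a ≤ 1 / 4 →
    ∫ ω, Sx G β a (bal G o R) (bal G o' R') x (fld (p ω)) (fld (p' ω)) ∂iidLaw (V × ℕ) ≤
      a ^ 2 * (C * t ^ (-(3 / 4) : ℝ) * m + C * t ^ N + Ct * eps) := by
  have hG := hC.tree
  obtain ⟨K₂, hK₂1, hK₂⟩ := mom_le hC hκ 2 (by norm_num)
  obtain ⟨K, hK1, hK⟩ := mom_le hC hκ (24 * N + 15 + 1) (by omega)
  obtain ⟨C₁, c₁, hC₁, hc₁, hfar⟩ := far_le hC hκ
  obtain ⟨C', hC'⟩ : ∃ C' : ℝ, C' = 9072 * 4 ^ (24 * N + 17) * K +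
    7776 * ((24 * N + 26).factorial : ℝ) * 4 ^ (24 * N + 26) +
    64 * C₁ * ((24 * N + 12).factorial : ℝ) * (1 / c₁) ^ (24 * N + 12) := ⟨_, rfl⟩
  have hC'0 : 0 ≤ C' := by rw [hC']; positivity
  have hK₂0 : 0 < K₂ := by linarith
  refine ⟨(420 + 9072 * 144) + C', (1 / (100 * K₂)) ^ 24, by linarith, by positivity, ?_, ?_⟩
  · refine pow_le_one₀ (by positivity) ?_
    rw [div_le_one (by positivity)]; linarith
  intro t ht0 ht
  obtain ⟨τ, hτ0, hτt⟩ : ∃ τ : ℝ, 0 < τ ∧ t = τ ^ 24 := by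
    refine ⟨t ^ ((1 : ℝ) / 24), Real.rpow_pos_of_pos ht0 _, ?_⟩
    rw [← Real.rpow_natCast, ← Real.rpow_mul ht0.le]
    norm_num
  have hτK : τ ≤ 1 / (100 * K₂) := by
    rw [hτt] at ht
    exact (pow_le_pow_iff_left₀ hτ0.le (by positivity) (by norm_num)).mp ht
  have hτK' : K₂ * τ ≤ 1 / 100 := by
    rw [le_div_iff₀ (by positivity)] at hτK
    linarith
  have hτ1 : τ ≤ 1 := by nlinarith
  have ht1 : t ≤ 1 := by rw [hτt]; exact pow_le_one₀ hτ0.le hτ1
  have hsqrt : √t = τ ^ 12 := by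
    rw [hτt, show τ ^ 24 = (τ ^ 12) ^ 2 by ring, Real.sqrt_sq (by positivity)]
  have hrpow : t ^ (-(3 / 4) : ℝ) = 1 / τ ^ 18 := by
    rw [hτt, ← Real.rpow_natCast, ← Real.rpow_mul hτ0.le,
      show ((24 : ℕ) : ℝ) * (-(3 / 4)) = -((18 : ℕ) : ℝ) by norm_num, Real.rpow_neg hτ0.le,
      Real.rpow_natCast, one_div]
  obtain ⟨h, hh⟩ : ∃ h : ℕ, h = ⌈1 / τ ^ 13⌉₊ := ⟨_, rfl⟩
  obtain ⟨r, hr⟩ : ∃ r : ℕ, r = ⌈1 / τ⌉₊ := ⟨_, rfl⟩
  have hτ12 : τ ^ 12 ≤ τ := by
    calc τ ^ 12 ≤ τ ^ 1 := pow_le_pow_of_le_one hτ0.le hτ1 (by norm_num)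
      _ = τ := pow_one τ
  have hτ11 : τ ^ 11 ≤ τ := by
    calc τ ^ 11 ≤ τ ^ 1 := pow_le_pow_of_le_one hτ0.le hτ1 (by norm_num)
      _ = τ := pow_one τ
  have hkb1 : K₂ * τ ^ 12 ≤ 1 / 100 :=
    (mul_le_mul_of_nonneg_left hτ12 hK₂0.le).trans hτK'
  have hr2 : (r : ℝ) ≤ 2 * (1 / τ) := by
    have h1 : (r : ℝ) < 1 / τ + 1 := by rw [hr]; exact Nat.ceil_lt_add_one (by positivity)
    have h2 : (1 : ℝ) ≤ 1 / τ := by rw [le_div_iff₀ hτ0, one_mul]; exact hτ1
    linarith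
  have hrk : 4 * (r : ℝ) * (K₂ * τ ^ 12) ≤ 1 / 2 := by
    calc 4 * (r : ℝ) * (K₂ * τ ^ 12) ≤ 4 * (2 * (1 / τ)) * (K₂ * τ ^ 12) := by gcongr
      _ = 8 * (K₂ * τ ^ 11) := by
          rw [show τ ^ 12 = τ ^ 11 * τ by ring]
          field_simp
          ring
      _ ≤ 8 * (K₂ * τ) := by gcongr
      _ ≤ 1 / 2 := by linarith
  have hkbK : K₂ * √t ^ 2 ≤ (K₂ * τ ^ 12) ^ 2 := by
    rw [hsqrt, mul_pow]
    have : K₂ ≤ K₂ ^ 2 := by nlinarith
    exact mul_le_mul_of_nonneg_right this (by positivity)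
  refine ⟨h, 864 * ((h : ℝ) + 1) ^ 2 * (576 + 4 ^ (24 * N + 17) * K), by positivity, ?_⟩
  intro ν ν' hν hν' x o o' R R' hx hx' p p' hp hp' eps heps hmm m hm a ha0 ha
  have hD : Cvx G (bal G o R) := cvx_bal hG o R
  have hD' : Cvx G (bal G o' R') := cvx_bal hG o' R'
  have hbb : bal G x h ⊆ bal G x (h + 1) := by
    intro v hv; rw [mem_bal hG.connected] at hv ⊢; omega
  have hxh := hbb.trans hx
  have hxh' := hbb.trans hx'
  have hxb : x ∈ bal G x h := by rw [mem_bal hG.connected, SimpleGraph.dist_self]; omega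
  obtain ⟨m₁, hm0, hm4, hmm1, hm1⟩ : ∃ m₁ : ℝ, 0 ≤ m₁ ∧ m₁ ≤ 4 ∧ m₁ ≤ m ∧
      ∀ y ∈ bal G x h, ∫ ω, (mg G β (bal G o R) (p ω) y -
        mg G β (bal G o' R') (p' ω) y) ^ 2 ∂iidLaw (V × ℕ) ≤ m₁ := by
    refine ⟨min m 4, le_min ?_ (by norm_num), min_le_right _ _, min_le_left _ _, fun y hy =>
      le_min (hm y (hbb hy)) (sa_le_four _ _ hp.1 hp'.1 y)⟩
    exact (integral_nonneg fun _ => sq_nonneg _).trans (hm x (hbb hxb))
  obtain ⟨η, hηd⟩ : ∃ η : ℝ, η = √(144 * τ ^ 11 * m₁ + 4 ^ (24 * N + 15 + 2) *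
    (K * √t ^ (24 * N + 15 + 1)) / (τ ^ 11) ^ (24 * N + 15)) := ⟨_, rfl⟩
  have hη0 : 0 ≤ η := by rw [hηd]; exact Real.sqrt_nonneg _
  have hη2 : η ^ 2 = 144 * τ ^ 11 * m₁ + 4 ^ (24 * N + 17) * K * τ ^ (24 * N + 27) := by
    rw [hηd, Real.sq_sqrt (by positivity), hsqrt]
    congr 1
    rw [← pow_mul, ← pow_mul,
      show 12 * (24 * N + 15 + 1) = 11 * (24 * N + 15) + (24 * N + 27) by ring, pow_add τ]
    have : τ ^ (11 * (24 * N + 15)) ≠ 0 := (pow_pos hτ0 _).ne'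
    field_simp
  have hmain := sa_core hC hD hD' hxh hxh' hν.toIsOwn hν'.toIsOwn hp hp' heps hmm hm1
    (k := 24 * N + 15) (pow_pos hτ0 11)
    (fun c hc => hK t ν ht0 ht1 hν _ c (cvx_br hG hD x c) (mem_br_self hc))
    (fun c hc => hK t ν' ht0 ht1 hν' _ c (cvx_br hG hD' x c) (mem_br_self hc))
    (by positivity)
    (fun c hc => (hK₂ t ν ht0 ht1 hν _ c (cvx_br hG hD x c) (mem_br_self hc)).trans hkbK)
    (fun c hc => (hK₂ t ν' ht0 ht1 hν' _ c (cvx_br hG hD' x c) (mem_br_self hc)).trans hkbK)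
    hkb1 hrk hηd (hfar t ν ht0 ht1 hν o R x (hxh hxb) h)
    (hfar t ν' ht0 ht1 hν' o' R' x (hxh' hxb) h) ha0 ha
  refine hmain.trans (mul_le_mul_of_nonneg_left ?_ (sq_nonneg a))
  have hnum := sa_num (F := C₁ / √t * Real.exp (-(c₁ * √t * h))) hτ0 hτ1 hK1 hC₁ hc₁ hm0 hm4 heps
    hh hr hη0 hη2 (by rw [hsqrt])
  rw [← hC', ← hτt] at hnum
  refine hnum.trans ?_
  have h18 : 0 < 1 / τ ^ 18 := by positivity
  rw [hrpow]
  refine add_le_add (add_le_add ?_ ?_) le_rfl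
  · refine mul_le_mul (mul_le_mul_of_nonneg_right (by linarith) h18.le) hmm1 hm0 ?_
    exact mul_nonneg (by linarith) h18.le
  · exact mul_le_mul_of_nonneg_right (by linarith) (by positivity)

end Vale.Agent.P161C
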