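import Vale.Agent.Lib.P161C.MuA
import Vale.Agent.Lib.P161C.Osg
import Vale.Agent.Lib.P161C.Ev
import Vale.Agent.Lib.P161C.Law
import Vale.Agent.Lib.P161C.Mism
import Vale.Agent.Lib.P161C.StepA
import Vale.Agent.Lib.P161C.StepB2

/-!
P161 critical, module MU-B (section 13 of notes/P161crit/proof.md): the inequalities for `muf`.
Uses MU-A, EV, LAW, LAYER (`scale_nuS`), MISM, STEPA, STEPB-2, MOMENTS (`mom_one_le`), OSG.
-/

open Finset MeasureTheory Filter Topology

namespace Vale.Agent.P161C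
open Vale.Agent.P161

variable {V : Type*} [DecidableEq V] {G : SimpleGraph V} [DecidableRel G.Adj] [G.LocallyFinite]
  {b : ℕ} {β : ℝ}

omit [DecidableEq V] in
lemma muB_fld_tanh (h : V → ℝ) : fld (fun v => Real.tanh (h v)) = h := by
  ext v
  unfold fld
  exact Real.artanh_tanh _

omit [G.LocallyFinite] in
lemma muB_mg_tanh (D : Finset V) (h : V → ℝ) (y : V) :
    mg G β D (fun v => Real.tanh (h v)) y = mag G β D h y := by
  unfold mg
  rw [muB_fld_tanh]

omit [G.LocallyFinite] in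
lemma muB_measurable (D : Finset V) (n : ℕ) (j : ℤ) (l : ℝ) (x : V) :
    Measurable fun ω : V × ℕ → unitInterval => mag G β D (sj G β D n j l ω) x :=
  (measurable_mag β D x).comp (measurable_sj β D n j l)

/-- Second moments of the magnetization of the process. -/
lemma muB_sq_le [Countable V] (hC : Crit G b β) {D : Finset V} (hD : Cvx G D) {x : V}
    (hx : x ∈ D) {n : ℕ} {j : ℤ} (hn : j.natAbs + 2 ≤ n) {l : ℝ} (h0 : 0 ≤ l)
    (hl : l ≤ 1 / 2) :
    ∫ ω, mag G β D (sj G β D n j l ω) x ^ 2 ∂iidLaw (V × ℕ) ≤ 80 * √(tj j) := by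
  have hp := plaw_sj (G := G) β D n (j := j) (by omega) h0 hl
  have h1 := hp.2 (fun p => mg G β D p x ^ (2 * 1))
    ⟨(measurable_mg D x).pow_const _, ⟨1, fun p => by
      rw [abs_pow]
      exact pow_le_one₀ (abs_nonneg _) (abs_mg_le D p x)⟩,
      fun p q h => by rw [mg_congr h]⟩
  have h2 := mom_one_le (κ := 400) (t := tj j) hC (tj_pos j) (tj_le j) (by norm_num)
    (scale_nuS hn h0 hl) hD hx
  unfold mom at h2
  rw [← h1] at h2
  simp only [muB_mg_tanh] at h2
  have h3 : √(400 : ℝ) = 20 := by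
    rw [show (400 : ℝ) = 20 ^ 2 by norm_num]
    exact Real.sqrt_sq (by norm_num)
  rw [h3] at h2
  calc _ = ∫ ω, mag G β D (sj G β D n j l ω) x ^ (2 * 1) ∂iidLaw (V × ℕ) := by norm_num
    _ ≤ _ := h2
    _ = _ := by ring

lemma muB_tj {j : ℤ} (hj : j ≤ 0) : √(tj j) = (2 : ℝ) ^ j := by
  unfold tj
  rw [min_eq_left hj, show (4 : ℝ) = 2 ^ (2 : ℕ) by norm_num, ← zpow_natCast, ← zpow_mul,
    mul_comm, zpow_mul, zpow_natCast]
  exact Real.sqrt_sq (zpow_nonneg (by norm_num) _)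

/-- (M0) -/
theorem muf_M0 [Nonempty V] [Countable V] (hC : Crit G b β) : ∃ C₀ : ℝ, ∀ j : ℤ, j ≤ 0 →
    ∀ l, 0 ≤ l → l ≤ 1 / 2 → muf G β j l ≤ C₀ * (2 : ℝ) ^ j := by
  refine ⟨320, fun j hj l hl0 hl => ?_⟩
  refine (muf_le_GG β 0 j l).trans ?_
  apply GG_le
  intro x o o' r r' n n' h1 h2 h3 h4
  have hxx : x ∈ bal G x 0 := by rw [mem_bal hC.tree.connected]; simp
  have e1 := muB_sq_le hC (cvx_bal hC.tree o r) (h1 hxx) (n := n) (j := j) (by omega) hl0 hl
  have e2 := muB_sq_le hC (cvx_bal hC.tree o' r') (h2 hxx) (n := n') (j := j) (by omega) hl0 hl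
  rw [muB_tj hj] at e1 e2
  have m1 := muB_measurable (G := G) (β := β) (bal G o r) n j l x
  have m2 := muB_measurable (G := G) (β := β) (bal G o' r') n' j l x
  have b1 : ∀ ω, ‖mag G β (bal G o r) (sj G β (bal G o r) n j l ω) x‖ ≤ 1 :=
    fun ω => abs_mag_le x
  have b2 : ∀ ω, ‖mag G β (bal G o' r') (sj G β (bal G o' r') n' j l ω) x‖ ≤ 1 :=
    fun ω => abs_mag_le x
  have i1 : Integrable (fun ω => mag G β (bal G o r) (sj G β (bal G o r) n j l ω) x ^ 2)
      (iidLaw (V × ℕ)) := by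
    refine Integrable.of_bound (m1.pow_const 2).aestronglyMeasurable 1 (ae_of_all _ fun ω => ?_)
    rw [norm_pow]; exact pow_le_one₀ (norm_nonneg _) (b1 ω)
  have i2 : Integrable (fun ω => mag G β (bal G o' r') (sj G β (bal G o' r') n' j l ω) x ^ 2)
      (iidLaw (V × ℕ)) := by
    refine Integrable.of_bound (m2.pow_const 2).aestronglyMeasurable 1 (ae_of_all _ fun ω => ?_)
    rw [norm_pow]; exact pow_le_one₀ (norm_nonneg _) (b2 ω)
  have i3 : Integrable (fun ω => (mag G β (bal G o r) (sj G β (bal G o r) n j l ω) x -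
      mag G β (bal G o' r') (sj G β (bal G o' r') n' j l ω) x) ^ 2) (iidLaw (V × ℕ)) := by
    refine Integrable.of_bound ((m1.sub m2).pow_const 2).aestronglyMeasurable 4
      (ae_of_all _ fun ω => ?_)
    rw [norm_pow]
    have := (norm_sub_le _ _).trans (add_le_add (b1 ω) (b2 ω))
    calc _ ≤ (1 + 1 : ℝ) ^ 2 := pow_le_pow_left₀ (norm_nonneg _) this 2
      _ = 4 := by norm_num
  unfold dd
  calc ∫ ω, (mag G β (bal G o r) (sj G β (bal G o r) n j l ω) x -
          mag G β (bal G o' r') (sj G β (bal G o' r') n' j l ω) x) ^ 2 ∂iidLaw (V × ℕ) ≤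
        ∫ ω, (2 * mag G β (bal G o r) (sj G β (bal G o r) n j l ω) x ^ 2 +
          2 * mag G β (bal G o' r') (sj G β (bal G o' r') n' j l ω) x ^ 2)
          ∂iidLaw (V × ℕ) := by
        refine integral_mono i3 ((i1.const_mul 2).add (i2.const_mul 2)) fun ω => ?_
        dsimp only
        nlinarith [sq_nonneg (mag G β (bal G o r) (sj G β (bal G o r) n j l ω) x +
          mag G β (bal G o' r') (sj G β (bal G o' r') n' j l ω) x)]
    _ = 2 * (∫ ω, mag G β (bal G o r) (sj G β (bal G o r) n j l ω) x ^ 2 ∂iidLaw (V × ℕ)) +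
        2 * ∫ ω, mag G β (bal G o' r') (sj G β (bal G o' r') n' j l ω) x ^ 2
          ∂iidLaw (V × ℕ) := by
        rw [integral_add (i1.const_mul 2) (i2.const_mul 2), integral_const_mul,
          integral_const_mul]
    _ ≤ _ := by linarith

/-- Passage to the limit `R → ∞` in the evolution inequality. -/
lemma muB_step [Nonempty V] [Countable V] (hC : Crit G b β) (j : ℤ) {l₁ l₂ : ℝ} (h0 : 0 ≤ l₁)
    (h12 : l₁ ≤ l₂) (h2 : l₂ ≤ 1 / 2) {A E Ct : ℝ} (k : ℕ)
    (ε : ℕ → ℝ → ℝ) (hεm : ∀ R, Measurable (ε R)) (hεb : ∃ C : ℝ, ∀ R l, 0 ≤ ε R l ∧ ε R l ≤ C)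
    (hε : ∀ l, 0 ≤ l → l ≤ 1 / 2 → Tendsto (fun R => ε R l) atTop (𝓝 0)) (R₀ : ℕ)
    (hS : ∀ R, R₀ ≤ R → ∀ l, 0 ≤ l → l ≤ 1 / 2 → ∀ (x o o' : V) (r r' n n' : ℕ),
      bal G x R ⊆ bal G o r → bal G x R ⊆ bal G o' r' →
      R + j.natAbs + 2 ≤ n → R + j.natAbs + 2 ≤ n' →
      ∫ ω, Sx G β (str j) (bal G o r) (bal G o' r') x (sj G β (bal G o r) n j l ω)
        (sj G β (bal G o' r') n' j l ω) ∂iidLaw (V × ℕ) ≤
        A * GG G β (R - k) j l + E + Ct * ε R l) :
    muf G β j l₂ ≤ muf G β j l₁ + 2 * ∫ l in l₁..l₂, (A * muf G β j l + E) := by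
  have hcon := hC.tree.connected
  obtain ⟨Cε, hCε⟩ := hεb
  have hsub : Set.Icc l₁ l₂ ⊆ Set.Icc (0 : ℝ) (1 / 2) := Set.Icc_subset_Icc h0 h2
  have iG : ∀ R, IntervalIntegrable (fun l => GG G β R j l) volume l₁ l₂ := by
    intro R
    apply MonotoneOn.intervalIntegrable
    rw [Set.uIcc_of_le h12]
    exact (GG_mono_l β R j).mono hsub
  have iε : ∀ R, IntervalIntegrable (fun l => ε R l) volume l₁ l₂ := by
    intro R
    rw [intervalIntegrable_iff]
    refine Measure.integrableOn_of_bounded (M := Cε) ?_ (hεm R).aestronglyMeasurable ?_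
    · rw [Set.uIoc_of_le h12]; exact measure_Ioc_lt_top.ne
    · refine ae_of_all _ fun l => ?_
      rw [Real.norm_eq_abs, abs_of_nonneg (hCε R l).1]
      exact (hCε R l).2
  have iB : ∀ R, IntervalIntegrable
      (fun l => A * GG G β (R - k) j l + E + Ct * ε R l) volume l₁ l₂ := fun R =>
    (((iG (R - k)).const_mul A).add intervalIntegrable_const).add ((iε R).const_mul Ct)
  have key : ∀ R, R₀ ≤ R → GG G β R j l₂ ≤ GG G β R j l₁ +
      2 * ∫ l in l₁..l₂, (A * GG G β (R - k) j l + E + Ct * ε R l) := by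
    intro R hR
    apply GG_le
    intro x o o' r r' n n' e1 e2 e3 e4
    have h := ev (G := G) β (bal G o r) (bal G o' r') n n' x (j := j) (by omega) (by omega)
      h0 h12 h2 (iB R) fun l hl1 hl2 =>
        hS R hR l (h0.trans hl1) (hl2.trans h2) x o o' r r' n n' e1 e2 e3 e4
    have := dd_le_GG β l₁ e1 e2 e3 e4
    linarith
  have hlim : Tendsto (fun R => ∫ l in l₁..l₂, (A * GG G β (R - k) j l + E + Ct * ε R l)) atTop
      (𝓝 (∫ l in l₁..l₂, (A * muf G β j l + E))) := by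
    apply intervalIntegral.tendsto_integral_filter_of_dominated_convergence
      (fun _ => |A| * 4 + |E| + |Ct| * Cε)
    · refine Eventually.of_forall fun R => ?_
      rw [Set.uIoc_of_le h12]
      exact (iB R).1.aestronglyMeasurable
    · refine Eventually.of_forall fun R => ae_of_all _ fun l _ => ?_
      rw [Real.norm_eq_abs]
      calc |A * GG G β (R - k) j l + E + Ct * ε R l| ≤
          |A * GG G β (R - k) j l| + |E| + |Ct * ε R l| :=
            (abs_add_le _ _).trans (by gcongr; exact abs_add_le _ _)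
        _ ≤ |A| * 4 + |E| + |Ct| * Cε := by
            rw [abs_mul, abs_mul, abs_of_nonneg (hCε R l).1,
              abs_of_nonneg (GG_nonneg β (R - k) j l)]
            gcongr
            · exact GG_le_four β (R - k) j l
            · exact (hCε R l).2
    · exact intervalIntegrable_const
    · refine ae_of_all _ fun l hl => ?_
      rw [Set.uIoc_of_le h12] at hl
      have t1 : Tendsto (fun R => GG G β (R - k) j l) atTop (𝓝 (muf G β j l)) :=
        (tendsto_GG hcon β j l).comp (tendsto_sub_atTop_nat k)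
      have t2 := hε l (h0.trans hl.1.le) (hl.2.trans h2)
      have := ((t1.const_mul A).add_const E).add (t2.const_mul Ct)
      simpa using this
  have f1 := tendsto_GG hcon β j l₂ (G := G)
  have f2 := (tendsto_GG hcon β j l₁ (G := G)).add (hlim.const_mul 2)
  exact le_of_tendsto_of_tendsto f1 f2 (eventually_atTop.2 ⟨R₀, key⟩)

/-- The bound on the neighbouring differences required by STEPA, STEPB. -/
lemma muB_dd_le (hC : Crit G b β) {j : ℤ} {l : ℝ} {h R : ℕ} (hR : h + 1 ≤ R) {x o o' : V}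
    {r r' n n' : ℕ} (e1 : bal G x R ⊆ bal G o r) (e2 : bal G x R ⊆ bal G o' r')
    (e3 : R + j.natAbs + 2 ≤ n) (e4 : R + j.natAbs + 2 ≤ n') :
    ∀ y ∈ bal G x (h + 1), ∫ ω,
      (mg G β (bal G o r) (fun v => Real.tanh (sj G β (bal G o r) n j l ω v)) y -
        mg G β (bal G o' r') (fun v => Real.tanh (sj G β (bal G o' r') n' j l ω v)) y) ^ 2
        ∂iidLaw (V × ℕ) ≤ GG G β (R - (h + 1)) j l := by
  intro y hy
  simp only [muB_mg_tanh]
  rcases bal_subset_bal (R := R) hC.tree.connected hy with h1 | h1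
  · exact dd_le_GG β l (h1.trans e1) (h1.trans e2) (by omega) (by omega)
  · omega

lemma muB_tj_anti {j J : ℤ} (hJ : J ≤ 0) (h : j ≤ J) : tj j ≤ tj J := by
  unfold tj
  rw [min_eq_left (h.trans hJ), min_eq_left hJ]
  exact zpow_le_zpow_right₀ (by norm_num) h

lemma muB_exists_J {t₀ : ℝ} (ht₀ : 0 < t₀) : ∃ J : ℤ, J ≤ 0 ∧ tj J ≤ t₀ := by
  obtain ⟨n, hn⟩ := exists_pow_lt_of_lt_one ht₀ (show (1 / 4 : ℝ) < 1 by norm_num)
  refine ⟨-(n : ℤ), by omega, ?_⟩
  unfold tj
  rw [min_eq_left (by omega), zpow_neg, zpow_natCast, ← inv_pow]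
  rw [one_div] at hn
  exact hn.le

/-- (MA) -/
theorem muf_MA [Nonempty V] [Countable V] (hC : Crit G b β) (N : ℕ) :
    ∃ (C : ℝ) (J : ℤ), 0 ≤ C ∧ J ≤ 0 ∧ ∀ j : ℤ, j ≤ J →
      muf G β j (1 / 2) ≤
        muf G β j 0 + C * tj j ^ (1 / 4 : ℝ) * muf G β j (1 / 2) + C * tj j ^ N := by
  obtain ⟨C, t₀, hC1, ht₀, ht₀', hst⟩ := stepA hC (κ := 400) (by norm_num) N
  obtain ⟨J, hJ, hJt⟩ := muB_exists_J ht₀
  refine ⟨C, J, by linarith, hJ, fun j hj => ?_⟩
  have htj := tj_pos j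
  obtain ⟨h, Ct, hCt, H⟩ := hst (tj j) htj ((muB_tj_anti hJ hj).trans hJt)
  obtain ⟨ε, hεm, hεb, hε, hmm⟩ := mismatch hC j h
  have hstep := muB_step (G := G) hC j (le_refl (0 : ℝ)) (by norm_num : (0 : ℝ) ≤ 1 / 2)
    (le_refl _) (A := str j ^ 2 * (C * tj j ^ (-(3 / 4) : ℝ))) (E := str j ^ 2 * (C * tj j ^ N))
    (Ct := str j ^ 2 * Ct) (h + 1) ε hεm hεb hε (h + 2) (by
      intro R hR l hl0 hl x o o' r r' n n' e1 e2 e3 e4
      have hb1 : bal G x (h + 1) ⊆ bal G x R := muA_bal_mono (by omega)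
      have := H (nuS n j l) (nuS n' j l) (scale_nuS (by omega) hl0 hl)
        (scale_nuS (by omega) hl0 hl) x o o' r r' (hb1.trans e1) (hb1.trans e2)
        (fun ω v => Real.tanh (sj G β (bal G o r) n j l ω v))
        (fun ω v => Real.tanh (sj G β (bal G o' r') n' j l ω v))
        (plaw_sj β _ n (by omega) hl0 hl) (plaw_sj β _ n' (by omega) hl0 hl)
        (ε R l) (by obtain ⟨Cε, hCε⟩ := hεb; exact (hCε R l).1)
        (hmm R hR l hl0 hl x o o' r r' n n' e1 e2 e3 e4)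
        (GG G β (R - (h + 1)) j l) (muB_dd_le hC (by omega) e1 e2 e3 e4)
        (str j) (str_pos j).le (str_le j)
      simp only [muB_fld_tanh] at this
      refine this.trans (le_of_eq ?_)
      ring)
  refine hstep.trans ?_
  have hmono := muf_mono (G := G) hC.tree.connected β j
  have hm0 := muf_nonneg (G := G) hC.tree.connected β j
  have hi : IntervalIntegrable (fun l => muf G β j l) volume 0 (1 / 2) := by
    apply MonotoneOn.intervalIntegrable
    rw [Set.uIcc_of_le (by norm_num)]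
    exact hmono
  have hA0 : 0 ≤ str j ^ 2 * (C * tj j ^ (-(3 / 4) : ℝ)) := by positivity
  have hint : ∫ l in (0 : ℝ)..1 / 2, (str j ^ 2 * (C * tj j ^ (-(3 / 4) : ℝ)) * muf G β j l +
      str j ^ 2 * (C * tj j ^ N)) ≤
      ∫ _l in (0 : ℝ)..1 / 2, (str j ^ 2 * (C * tj j ^ (-(3 / 4) : ℝ)) * muf G β j (1 / 2) +
      str j ^ 2 * (C * tj j ^ N)) := by
    apply intervalIntegral.integral_mono_on (by norm_num)
      ((hi.const_mul _).add intervalIntegrable_const) intervalIntegrable_const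
    intro l hl
    have := hmono hl (Set.right_mem_Icc.2 (by norm_num)) hl.2
    gcongr
  rw [intervalIntegral.integral_const] at hint
  simp only [smul_eq_mul, sub_zero] at hint
  rw [str_sq] at hint ⊢
  have hpow : tj j * tj j ^ (-(3 / 4) : ℝ) = tj j ^ (1 / 4 : ℝ) := by
    nth_rewrite 1 [← Real.rpow_one (tj j)]
    rw [← Real.rpow_add htj]
    norm_num
  have hN0 : 0 ≤ tj j ^ N := pow_nonneg htj.le _
  have h5 : tj j * tj j ^ N ≤ tj j ^ N := by nlinarith [tj_le j]
  have h6 : 0 ≤ C * (tj j ^ (1 / 4 : ℝ) * muf G β j (1 / 2)) :=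
    mul_nonneg (by linarith) (mul_nonneg (Real.rpow_nonneg htj.le _) (hm0 _))
  have h7 : 0 ≤ C * tj j ^ N := mul_nonneg (by linarith) hN0
  have h8 : C * (tj j * tj j ^ N) ≤ C * tj j ^ N := mul_le_mul_of_nonneg_left h5 (by linarith)
  have h9 : (1 / 2 : ℝ) * (tj j / 16 * (C * tj j ^ (-(3 / 4) : ℝ)) * muf G β j (1 / 2) +
      tj j / 16 * (C * tj j ^ N)) = 1 / 32 * (C * (tj j ^ (1 / 4 : ℝ) * muf G β j (1 / 2))) +
      1 / 32 * (C * (tj j * tj j ^ N)) := by
    rw [← hpow]; ring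
  rw [h9] at hint
  have h10 : C * tj j ^ (1 / 4 : ℝ) * muf G β j (1 / 2) =
    C * (tj j ^ (1 / 4 : ℝ) * muf G β j (1 / 2)) := by ring
  rw [h10]
  linarith

/-- (MB) -/
theorem muf_MB [Nonempty V] [Countable V] (hC : Crit G b β) : ∃ CB : ℝ, 1 ≤ CB ∧
    ∀ (j : ℤ) (L : ℝ), 2 ≤ L → ∀ l₁ l₂ : ℝ, 0 ≤ l₁ → l₁ ≤ l₂ → l₂ ≤ 1 / 2 →
      muf G β j l₂ ≤ muf G β j l₁ + tj j * ∫ l in l₁..l₂,
        (CB * (1 / √(tj j) + L) * (1 / √(tj j) + Real.log L) * muf G β j l +
          CB * (L / tj j) * Real.exp (-L)) := by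
  obtain ⟨C, hC1, hst⟩ := stepB hC (κ := 400) (by norm_num)
  refine ⟨C, hC1, fun j L hL l₁ l₂ h0 h12 h2 => ?_⟩
  have htj := tj_pos j
  obtain ⟨h, H⟩ := hst (tj j) htj (tj_le j) L hL
  have hstep := muB_step (G := G) hC j h0 h12 h2
    (A := str j ^ 2 * (C * (1 / √(tj j) + L) * (1 / √(tj j) + Real.log L)))
    (E := str j ^ 2 * (C * (L / tj j) * Real.exp (-L))) (Ct := 0) (h + 1) (fun _ _ => 0)
    (fun _ => measurable_const) ⟨0, fun _ _ => ⟨le_refl _, le_refl _⟩⟩
    (fun _ _ _ => tendsto_const_nhds) (h + 2) (by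
      intro R hR l hl0 hl x o o' r r' n n' e1 e2 e3 e4
      have hb1 : bal G x (h + 1) ⊆ bal G x R := muA_bal_mono (by omega)
      have := H (nuS n j l) (nuS n' j l) (scale_nuS (by omega) hl0 hl)
        (scale_nuS (by omega) hl0 hl) x o o' r r' (hb1.trans e1) (hb1.trans e2)
        (fun ω v => Real.tanh (sj G β (bal G o r) n j l ω v))
        (fun ω v => Real.tanh (sj G β (bal G o' r') n' j l ω v))
        (plaw_sj β _ n (by omega) hl0 hl) (plaw_sj β _ n' (by omega) hl0 hl)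
        (GG G β (R - (h + 1)) j l) (muB_dd_le hC (by omega) e1 e2 e3 e4)
        (str j) (str_pos j).le (str_le j)
      simp only [muB_fld_tanh] at this
      refine this.trans (le_of_eq ?_)
      ring)
  refine hstep.trans ?_
  have hlog : 0 ≤ Real.log L := Real.log_nonneg (by linarith)
  have hm0 := muf_nonneg (G := G) hC.tree.connected β j
  have hnn : 0 ≤ ∫ l in l₁..l₂, (C * (1 / √(tj j) + L) * (1 / √(tj j) + Real.log L) *
      muf G β j l + C * (L / tj j) * Real.exp (-L)) := by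
    apply intervalIntegral.integral_nonneg h12
    intro l _
    have := hm0 l
    positivity
  have heq : ∫ l in l₁..l₂, (str j ^ 2 * (C * (1 / √(tj j) + L) * (1 / √(tj j) + Real.log L)) *
      muf G β j l + str j ^ 2 * (C * (L / tj j) * Real.exp (-L))) =
      str j ^ 2 * ∫ l in l₁..l₂, (C * (1 / √(tj j) + L) * (1 / √(tj j) + Real.log L) *
      muf G β j l + C * (L / tj j) * Real.exp (-L)) := by
    rw [← intervalIntegral.integral_const_mul]
    congr 1
    ext l
    ring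
  rw [heq, str_sq]
  nlinarith [mul_nonneg htj.le hnn]

theorem muf_eq_zero [Nonempty V] [Countable V] (hC : Crit G b β) (j : ℤ) (l : ℝ) (h0 : 0 ≤ l)
    (h1 : l ≤ 1 / 2) : muf G β j l = 0 := by
  obtain ⟨C₀, hM0⟩ := muf_M0 hC
  obtain ⟨CB, hCB, hMB⟩ := muf_MB hC
  exact osgood (muf G β) C₀ CB hCB (fun j l _ _ => muf_nonneg hC.tree.connected β j l)
    (fun j l _ _ => muf_le_four hC.tree.connected β j l) (muf_mono hC.tree.connected β)
    (muf_half hC.tree.connected β) hM0 (muf_MA hC) hMB j l h0 h1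

end Vale.Agent.P161C
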