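import Vale.Agent.Lib.P161C.Core

/-!
P161 critical, module PROC (section 12 of notes/P161crit/proof.md): the sequential process,
measurability, elementary properties; the process with prescribed order (`sf`).
-/

open Finset MeasureTheory Filter Topology

namespace Vale.Agent.P161C
open Vale.Agent.P161

variable {V : Type*} [DecidableEq V] {G : SimpleGraph V} [DecidableRel G.Adj] {β : ℝ}

lemma str_pos (j : ℤ) : 0 < str j := by
  unfold str; positivity

lemma str_le (j : ℤ) : str j ≤ 1 / 4 := by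
  unfold str
  have h : (2 : ℝ) ^ (min j 0) ≤ 1 := zpow_le_one_of_nonpos₀ (by norm_num) (min_le_right _ _)
  linarith

lemma str_sq (j : ℤ) : str j ^ 2 = tj j / 16 := by
  unfold str tj
  have h : (4 : ℝ) ^ (min j 0) = ((2 : ℝ) ^ (min j 0)) ^ 2 := by
    rw [← zpow_natCast, ← zpow_mul, mul_comm, zpow_mul]; norm_num
  rw [h]; ring

lemma tj_pos (j : ℤ) : 0 < tj j := by
  unfold tj; positivity

lemma tj_le (j : ℤ) : tj j ≤ 1 := by
  unfold tj
  exact zpow_le_one_of_nonpos₀ (by norm_num) (min_le_right _ _)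

/-- If all labels of `D` are different, `rnd` runs through the sorted list. -/
lemma rnd_eq (β a : ℝ) (D : Finset V) (l : ℝ) {lab : V → ℝ} (ξ h : V → ℝ) {L : List V}
    (hnd : L.Nodup) (hL : L.toFinset = D.filter (fun v => lab v < l))
    (hs : L.Pairwise (fun x y => lab x < lab y)) : rnd G β a D l lab ξ h = run G β a D L ξ h := by
  classical
  unfold rnd
  have hperm : L.Perm (D.filter (fun v => lab v < l)).toList := by
    apply List.perm_of_nodup_nodup_toFinset_eq hnd (Finset.nodup_toList _)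
    rw [hL, Finset.toList_toFinset]
  rw [Finset.sum_eq_single L]
  · rw [if_pos hs]
  · intro L' hL' hne
    rw [if_neg]
    intro hs'
    apply hne
    rw [List.mem_toFinset, List.mem_permutations] at hL'
    exact List.Perm.eq_of_pairwise (le := fun x y => lab x < lab y)
      (fun x y _ _ h1 h2 => absurd h1 (not_lt.mpr h2.le)) hs' hs (hL'.trans hperm.symm)
  · intro hcon
    exfalso
    apply hcon
    rw [List.mem_toFinset, List.mem_permutations]
    exact hperm

/-- The same with the sorted list of a bigger set `F ⊇ D`. -/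
lemma rnd_eq_of_subset (β a : ℝ) {F D : Finset V} (hDF : D ⊆ F) (l : ℝ) {lab : V → ℝ}
    (ξ h : V → ℝ) {L : List V} (hnd : L.Nodup)
    (hL : L.toFinset = F.filter (fun v => lab v < l))
    (hs : L.Pairwise (fun x y => lab x < lab y)) :
    rnd G β a D l lab ξ h = run G β a D L ξ h := by
  rw [← run_filter β a D L ξ h]
  refine rnd_eq β a D l ξ h (hnd.filter _) ?_ (hs.filter _)
  ext x
  simp only [List.mem_toFinset, List.mem_filter, decide_eq_true_eq, Finset.mem_filter]
  rw [← List.mem_toFinset, hL, Finset.mem_filter]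
  constructor
  · rintro ⟨⟨_, h1⟩, h2⟩; exact ⟨h2, h1⟩
  · rintro ⟨h1, h2⟩; exact ⟨⟨hDF h1, h2⟩, h1⟩

omit [DecidableEq V] in
lemma measurableSet_filter_eq [DecidableEq V] (D S : Finset V) (hS : S ⊆ D) :
    MeasurableSet {z : ℝ × (V → ℝ) | D.filter (fun v => z.2 v < z.1) = S} := by
  have h1 : {z : ℝ × (V → ℝ) | D.filter (fun v => z.2 v < z.1) = S} =
      ⋂ v ∈ (D : Set V), {z : ℝ × (V → ℝ) | z.2 v < z.1 ↔ v ∈ S} := by
    ext z
    simp only [Set.mem_ofPred_eq, Set.mem_iInter, Finset.mem_coe]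
    constructor
    · intro h v hv
      rw [← h, Finset.mem_filter]
      simp [hv]
    · intro h
      ext v
      rw [Finset.mem_filter]
      constructor
      · rintro ⟨h1, h2⟩; exact (h v h1).mp h2
      · intro hv; exact ⟨hS hv, (h v (hS hv)).mpr hv⟩
  rw [h1]
  apply MeasurableSet.biInter D.finite_toSet.countable
  intro v _
  have h2 : MeasurableSet {z : ℝ × (V → ℝ) | z.2 v < z.1} :=
    measurableSet_lt ((measurable_pi_apply v).comp measurable_snd) measurable_fst
  by_cases hv : v ∈ S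
  · have : {z : ℝ × (V → ℝ) | z.2 v < z.1 ↔ v ∈ S} = {z : ℝ × (V → ℝ) | z.2 v < z.1} := by
      ext z; simp [hv]
    rw [this]; exact h2
  · have : {z : ℝ × (V → ℝ) | z.2 v < z.1 ↔ v ∈ S} = {z : ℝ × (V → ℝ) | z.2 v < z.1}ᶜ := by
      ext z; simp [hv]
    rw [this]; exact h2.compl

lemma measurable_rnd (β a : ℝ) (D : Finset V) :
    Measurable fun z : ℝ × (V → ℝ) × (V → ℝ) × (V → ℝ) =>
      rnd G β a D z.1 z.2.1 z.2.2.1 z.2.2.2 := by
  classical
  have h : (fun z : ℝ × (V → ℝ) × (V → ℝ) × (V → ℝ) =>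
      rnd G β a D z.1 z.2.1 z.2.2.1 z.2.2.2) = fun z => ∑ S ∈ D.powerset,
        if D.filter (fun v => z.2.1 v < z.1) = S then
          ∑ L ∈ S.toList.permutations.toFinset,
            if L.Pairwise (fun x y => z.2.1 x < z.2.1 y) then
              run G β a D L z.2.2.1 z.2.2.2 else 0 else 0 := by
    funext z
    rw [Finset.sum_ite_eq, if_pos (mem_powerset.mpr (filter_subset _ _))]
    unfold rnd
    rfl
  rw [h]
  apply Finset.measurable_sum
  intro S hS
  apply Measurable.ite
  · have h1 : Measurable fun z : ℝ × (V → ℝ) × (V → ℝ) × (V → ℝ) => (z.1, z.2.1) := by fun_prop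
    exact h1 (measurableSet_filter_eq D S (mem_powerset.mp hS))
  · apply Finset.measurable_sum
    intro L _
    apply Measurable.ite
    · have h1 : Measurable fun z : ℝ × (V → ℝ) × (V → ℝ) × (V → ℝ) => z.2.1 := by fun_prop
      exact h1 (measurableSet_pairwise L)
    · have h1 := measurable_run (G := G) β a D L
      have h0 : Measurable fun z : ℝ × (V → ℝ) × (V → ℝ) × (V → ℝ) => z.2.2 := by fun_prop
      have h2 := h1.comp h0
      exact h2
    · exact measurable_const
  · exact measurable_const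

lemma measurable_st (β : ℝ) (D : Finset V) (n m : ℕ) : Measurable (st G β D n m) := by
  induction m with
  | zero => exact measurable_const
  | succ m ih =>
    have h1 : Measurable fun ω : V × ℕ → unitInterval =>
        ((1 / 2 : ℝ), label (V := V) (eZ ((m : ℤ) - n)) ω, noise (eZ ((m : ℤ) - n)) ω,
          st G β D n m ω) :=
      measurable_const.prodMk ((measurable_label _).prodMk ((measurable_noise _).prodMk ih))
    have h2 := (measurable_rnd (G := G) β (str ((m : ℤ) - n)) D).comp h1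
    exact h2

lemma measurable_sj_uncurry (β : ℝ) (D : Finset V) (n : ℕ) (j : ℤ) :
    Measurable fun z : ℝ × (V × ℕ → unitInterval) => sj G β D n j z.1 z.2 := by
  have h1 : Measurable fun z : ℝ × (V × ℕ → unitInterval) =>
      (z.1, label (V := V) (eZ j) z.2, noise (eZ j) z.2, st G β D n (j + n).toNat z.2) :=
    measurable_fst.prodMk (((measurable_label _).comp measurable_snd).prodMk
      (((measurable_noise _).comp measurable_snd).prodMk
        ((measurable_st (G := G) β D n _).comp measurable_snd)))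
  have h2 := (measurable_rnd (G := G) β (str j) D).comp h1
  exact h2

lemma measurable_sj (β : ℝ) (D : Finset V) (n : ℕ) (j : ℤ) (l : ℝ) :
    Measurable (sj G β D n j l) := by
  have h1 : Measurable fun ω : V × ℕ → unitInterval => (l, ω) :=
    measurable_const.prodMk measurable_id
  have h2 := (measurable_sj_uncurry (G := G) β D n j).comp h1
  exact h2

lemma sj_zero (β : ℝ) (D : Finset V) (n : ℕ) (j : ℤ) (ω : V × ℕ → unitInterval) :
    sj G β D n j 0 ω = st G β D n (j + n).toNat ω := by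
  unfold sj
  rw [rnd_eq (L := [])]
  · rfl
  · exact List.nodup_nil
  · rw [List.toFinset_nil, eq_comm, Finset.filter_eq_empty_iff]
    intro v _
    rw [not_lt]
    exact (ω (v, 2 * eZ j)).2.1
  · exact List.Pairwise.nil

/-- Label time `1/2` of round `j` is label time `0` of round `j + 1`. -/
lemma sj_half (β : ℝ) (D : Finset V) {n : ℕ} {j : ℤ} (hj : -(n : ℤ) ≤ j)
    (ω : V × ℕ → unitInterval) : sj G β D n j (1 / 2) ω = sj G β D n (j + 1) 0 ω := by
  rw [sj_zero]
  obtain ⟨m, hm⟩ : ∃ m : ℕ, (m : ℤ) = j + n := ⟨(j + n).toNat, by omega⟩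
  have h1 : (j + 1 + n).toNat = m + 1 := by omega
  have h2 : (j + n).toNat = m := by omega
  have h3 : (m : ℤ) - n = j := by omega
  rw [h1]
  unfold sj
  rw [h2]
  change _ = rnd G β (str ((m : ℤ) - n)) D (1 / 2) (label (eZ ((m : ℤ) - n)) ω)
      (noise (eZ ((m : ℤ) - n)) ω) (st G β D n m ω)
  rw [h3]

lemma dd_half (β : ℝ) (D D' : Finset V) {n n' : ℕ} (x : V) {j : ℤ} (hj : -(n : ℤ) ≤ j)
    (hj' : -(n' : ℤ) ≤ j) : dd G β D n D' n' x j (1 / 2) = dd G β D n D' n' x (j + 1) 0 := by
  unfold dd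
  simp only [sj_half β D hj, sj_half β D' hj']

lemma dd_nonneg (β : ℝ) (D D' : Finset V) (n n' : ℕ) (x : V) (j : ℤ) (l : ℝ) :
    0 ≤ dd G β D n D' n' x j l := by
  unfold dd
  exact integral_nonneg fun ω => sq_nonneg _

lemma dd_le_four (β : ℝ) (D D' : Finset V) (n n' : ℕ) (x : V) (j : ℤ) (l : ℝ) :
    dd G β D n D' n' x j l ≤ 4 := by
  unfold dd
  have hb : ∀ ω, ‖(mag G β D (sj G β D n j l ω) x - mag G β D' (sj G β D' n' j l ω) x) ^ 2‖ ≤ 4 :=
    fun ω => mag_sub_sq_le x
  have := norm_integral_le_of_norm_le_const (μ := iidLaw (V × ℕ)) (Filter.Eventually.of_forall hb)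
  rw [probReal_univ, mul_one] at this
  exact (le_abs_self _).trans this

/-! ### Prescribed order -/

variable (G) in
/-- The state after `m` rounds, the first one being round `-n`, when the order of treatment is
prescribed: round `i` runs through the list `ℒ i`. -/
noncomputable def sf (β : ℝ) (D : Finset V) (n : ℕ) (ℒ : ℤ → List V) :
    ℕ → (V × ℕ → unitInterval) → V → ℝ
  | 0, _ => 0
  | m + 1, ω => run G β (str ((m : ℤ) - n)) D (ℒ ((m : ℤ) - n)) (noise (eZ ((m : ℤ) - n)) ω)
      (sf β D n ℒ m ω)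

lemma measurable_sf (β : ℝ) (D : Finset V) (n : ℕ) (ℒ : ℤ → List V) (m : ℕ) :
    Measurable (sf G β D n ℒ m) := by
  induction m with
  | zero => exact measurable_const
  | succ m ih =>
    have h1 := measurable_run_comp (G := G) (β := β) (a := str ((m : ℤ) - n))
      (k := eZ ((m : ℤ) - n)) (ℒ ((m : ℤ) - n)) D ih
    exact h1

/-- The states before round `j` do not depend on the noise of round `j`. -/
lemma sf_dep (β : ℝ) (D : Finset V) (n : ℕ) (ℒ : ℤ → List V) {m : ℕ} {j : ℤ}
    (hm : (m : ℤ) - n ≤ j) (u : V) (ω : V × ℕ → unitInterval) (r : unitInterval) :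
    sf G β D n ℒ m (Function.update ω (u, 2 * eZ j + 1) r) = sf G β D n ℒ m ω := by
  induction m with
  | zero => rfl
  | succ m ih =>
    have hm' : (m : ℤ) - n ≤ j := by push_cast at hm; omega
    change run G β (str ((m : ℤ) - n)) D (ℒ ((m : ℤ) - n))
      (noise (eZ ((m : ℤ) - n)) (Function.update ω (u, 2 * eZ j + 1) r))
      (sf G β D n ℒ m (Function.update ω (u, 2 * eZ j + 1) r)) =
      run G β (str ((m : ℤ) - n)) D (ℒ ((m : ℤ) - n)) (noise (eZ ((m : ℤ) - n)) ω)
        (sf G β D n ℒ m ω)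
    rw [ih hm']
    apply run_congr_noise
    intro v _
    unfold noise
    have h : ((v, 2 * eZ ((m : ℤ) - n) + 1) : V × ℕ) ≠ (u, 2 * eZ j + 1) := by
      intro heq
      have h1 := (Prod.mk.inj heq).2
      have h2 : eZ ((m : ℤ) - n) = eZ j := by omega
      have h3 := eZ.injective h2
      push_cast at hm
      omega
    rw [Function.update_of_ne h]

/-- `ℒ` is the family of the sorted lists of the vertices of `F` with label `< 1/2`. -/
structure Sorted (F : Finset V) (ω : V × ℕ → unitInterval) (ℒ : ℤ → List V) : Prop where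
  nodup : ∀ i, (ℒ i).Nodup
  set : ∀ i, (ℒ i).toFinset = F.filter (fun v => label (eZ i) ω v < 1 / 2)
  sorted : ∀ i, (ℒ i).Pairwise (fun x y => label (eZ i) ω x < label (eZ i) ω y)

lemma exists_Sorted (F : Finset V) {ω : V × ℕ → unitInterval}
    (hinj : ∀ k, Function.Injective (label (V := V) k ω)) :
    ∃ ℒ : ℤ → List V, Sorted F ω ℒ := by
  have h : ∀ i : ℤ, ∃ L : List V, L.Nodup ∧
      L.toFinset = F.filter (fun v => label (eZ i) ω v < 1 / 2) ∧
      L.Pairwise (fun x y => label (eZ i) ω x < label (eZ i) ω y) :=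
    fun i => exists_sorted (label (eZ i) ω) _ (hinj (eZ i)).injOn
  choose ℒ hℒ using h
  exact ⟨ℒ, fun i => (hℒ i).1, fun i => (hℒ i).2.1, fun i => (hℒ i).2.2⟩

lemma st_merge (β : ℝ) {F D : Finset V} (hDF : D ⊆ F) (n : ℕ) {ℒ : ℤ → List V}
    {p : (V × ℕ → unitInterval) × (V × ℕ → unitInterval)} (hℒ : Sorted F p.1 ℒ) (m : ℕ) :
    st G β D n m (merge (labSet V) p) = sf G β D n ℒ m p.2 := by
  induction m with
  | zero => rfl
  | succ m ih =>
    change rnd G β (str ((m : ℤ) - n)) D (1 / 2)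
      (label (eZ ((m : ℤ) - n)) (merge (labSet V) p))
      (noise (eZ ((m : ℤ) - n)) (merge (labSet V) p)) (st G β D n m (merge (labSet V) p)) =
      run G β (str ((m : ℤ) - n)) D (ℒ ((m : ℤ) - n)) (noise (eZ ((m : ℤ) - n)) p.2)
        (sf G β D n ℒ m p.2)
    rw [ih, label_merge, noise_merge]
    exact rnd_eq_of_subset β _ hDF _ _ _ (hℒ.nodup _) (hℒ.set _) (hℒ.sorted _)

lemma sj_merge (β : ℝ) {F D : Finset V} (hDF : D ⊆ F) (n : ℕ) {ℒ : ℤ → List V}
    {p : (V × ℕ → unitInterval) × (V × ℕ → unitInterval)} (hℒ : Sorted F p.1 ℒ) {j : ℤ} {l : ℝ}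
    {L : List V} (hnd : L.Nodup) (hL : L.toFinset = F.filter (fun v => label (eZ j) p.1 v < l))
    (hs : L.Pairwise (fun x y => label (eZ j) p.1 x < label (eZ j) p.1 y)) :
    sj G β D n j l (merge (labSet V) p) =
      run G β (str j) D L (noise (eZ j) p.2) (sf G β D n ℒ (j + n).toNat p.2) := by
  unfold sj
  rw [st_merge β hDF n hℒ, label_merge, noise_merge]
  exact rnd_eq_of_subset β _ hDF _ _ _ hnd hL hs

end Vale.Agent.P161C
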