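import Vale.Agent.Lib.P161C.Proc

/-!
P161 critical, module PROC-B: monotonicity of `dd` in the label time, equivariance of the process.
Uses PROC and the existing library (`Process2`, `Process3`, `Equivar`).
-/

open Finset MeasureTheory Filter Topology

namespace Vale.Agent.P161C
open Vale.Agent.P161

variable {V : Type*} [DecidableEq V] {G : SimpleGraph V} [DecidableRel G.Adj] {β : ℝ}

/-- One observation, two volumes, same noise: the second moment of the difference increases. -/
lemma sq_sub_le_integral_step {a : ℝ} (ha0 : 0 ≤ a) (ha : a ≤ 1 / 2) (D D' : Finset V) (x u : V)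
    (h h' : V → ℝ) :
    (mag G β D h x - mag G β D' h' x) ^ 2 ≤
      ∫ r in (0 : ℝ)..1, (mag G β D (stepF G β a D u r h) x -
        mag G β D' (stepF G β a D' u r h') x) ^ 2 := by
  set f : ℝ → ℝ := fun r => mag G β D (stepF G β a D u r h) x -
        mag G β D' (stepF G β a D' u r h') x with hf
  have hm : ∀ (E : Finset V) (k : V → ℝ), Measurable fun r : ℝ =>
      mag G β E (stepF G β a E u r k) x := by
    intro E k
    have h0 : Measurable fun r : ℝ => (r, k) := measurable_id.prodMk measurable_const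
    exact (measurable_mag (G := G) β E x).comp ((measurable_stepF (G := G) β a E u).comp h0)
  have hfm : Measurable f := (hm D h).sub (hm D' h')
  have hfb : ∀ r, |f r| ≤ 2 := by
    intro r
    have h1 := abs_mag_le (G := G) (β := β) (D := D) (h := stepF G β a D u r h) x
    have h2 := abs_mag_le (G := G) (β := β) (D := D') (h := stepF G β a D' u r h') x
    calc |f r| ≤ _ := abs_sub _ _
      _ ≤ 2 := by linarith
  have hi : IntervalIntegrable f volume 0 1 := intervalIntegrable_of_bdd hfm hfb
  have hi2 : IntervalIntegrable (fun r => f r ^ 2) volume 0 1 := by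
    apply intervalIntegrable_of_bdd (hfm.pow_const 2) (c := 4)
    intro r
    rw [abs_of_nonneg (sq_nonneg _), ← sq_abs]
    have := hfb r
    nlinarith [abs_nonneg (f r)]
  have himag : ∀ (E : Finset V) (k : V → ℝ), IntervalIntegrable (fun r : ℝ =>
      mag G β E (stepF G β a E u r k) x) volume 0 1 := fun E k =>
    intervalIntegrable_of_bdd (hm E k) (c := 1) (fun r => abs_mag_le x)
  have hint : ∫ r in (0 : ℝ)..1, f r = mag G β D h x - mag G β D' h' x := by
    rw [hf, intervalIntegral.integral_sub (himag D h) (himag D' h')]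
    have e1 := integral_gx_step (G := G) (β := β) (D := D) (h := h) ha0 ha u (fun S => sp S x)
    have e2 := integral_gx_step (G := G) (β := β) (D := D') (h := h') ha0 ha u (fun S => sp S x)
    unfold mag
    rw [e1, e2]
  set c := mag G β D h x - mag G β D' h' x with hc
  have h0 : 0 ≤ ∫ r in (0 : ℝ)..1, (f r - c) ^ 2 :=
    intervalIntegral.integral_nonneg zero_le_one fun r _ => sq_nonneg _
  have h1 : ∫ r in (0 : ℝ)..1, (f r - c) ^ 2 =
      (∫ r in (0 : ℝ)..1, f r ^ 2) - c ^ 2 := by
    have e : ∀ r, (f r - c) ^ 2 = f r ^ 2 - (2 * c * f r - c ^ 2) := fun r => by ring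
    simp only [e]
    rw [intervalIntegral.integral_sub hi2 ((hi.const_mul _).sub _root_.intervalIntegrable_const),
      intervalIntegral.integral_sub (hi.const_mul _) _root_.intervalIntegrable_const,
      intervalIntegral.integral_const_mul, hint, intervalIntegral.integral_const]
    simp only [sub_zero, smul_eq_mul, one_mul]
    ring
  rw [h1] at h0
  change c ^ 2 ≤ ∫ r in (0 : ℝ)..1, f r ^ 2
  linarith

/-- One observation with the noise of the space. -/
lemma sq_sub_le_one {a : ℝ} (ha0 : 0 ≤ a) (ha : a ≤ 1 / 2) (D D' : Finset V) (x u : V)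
    {Y Y' : (V × ℕ → unitInterval) → V → ℝ} (hY : Measurable Y) (hY' : Measurable Y') {k : ℕ}
    (hYd : ∀ ω r, Y (Function.update ω (u, 2 * k + 1) r) = Y ω)
    (hYd' : ∀ ω r, Y' (Function.update ω (u, 2 * k + 1) r) = Y' ω) :
    ∫ ω, (mag G β D (Y ω) x - mag G β D' (Y' ω) x) ^ 2 ∂iidLaw (V × ℕ) ≤
      ∫ ω, (mag G β D (stepF G β a D u (noise k ω u) (Y ω)) x -
        mag G β D' (stepF G β a D' u (noise k ω u) (Y' ω)) x) ^ 2 ∂iidLaw (V × ℕ) := by
  obtain ⟨F, hF⟩ : ∃ F : (V → ℝ) × (V → ℝ) → unitInterval → ℝ, 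
      F = fun (e : (V → ℝ) × (V → ℝ)) (r : unitInterval) =>
        (mag G β D (stepF G β a D u (r : ℝ) e.1) x -
          mag G β D' (stepF G β a D' u (r : ℝ) e.2) x) ^ 2 := ⟨_, rfl⟩
  have hFm : Measurable (Function.uncurry F) := by
    have h0 : Measurable fun p : ((V → ℝ) × (V → ℝ)) × unitInterval => ((p.2 : ℝ), p.1.1) :=
      (measurable_subtype_coe.comp measurable_snd).prodMk (measurable_fst.comp measurable_fst)
    have h0' : Measurable fun p : ((V → ℝ) × (V → ℝ)) × unitInterval => ((p.2 : ℝ), p.1.2) :=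
      (measurable_subtype_coe.comp measurable_snd).prodMk (measurable_snd.comp measurable_fst)
    have h1 := (measurable_mag (G := G) β D x).comp ((measurable_stepF (G := G) β a D u).comp h0)
    have h1' := (measurable_mag (G := G) β D' x).comp
      ((measurable_stepF (G := G) β a D' u).comp h0')
    rw [hF]
    exact (h1.sub h1').pow_const 2
  have hFb : ∀ e r, |F e r| ≤ 4 := by
    intro e r
    rw [hF]
    exact mag_sub_sq_le x
  have hX2 : Measurable fun ω => (Y ω, Y' ω) := hY.prodMk hY'
  have key := integral_resam (ι := V × ℕ) (u, 2 * k + 1) hX2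
    (fun ω r => by rw [hYd ω r, hYd' ω r]) hFm (c := 4) hFb
  have e1 : ∫ ω, (mag G β D (stepF G β a D u (noise k ω u) (Y ω)) x -
      mag G β D' (stepF G β a D' u (noise k ω u) (Y' ω)) x) ^ 2 ∂iidLaw (V × ℕ) =
      ∫ ω, F (Y ω, Y' ω) (ω (u, 2 * k + 1)) ∂iidLaw (V × ℕ) := by
    rw [hF]; rfl
  rw [e1, key]
  apply integral_mono
  · apply integrable_of_meas_bdd (c := 4)
    · exact (((measurable_mag β D x).comp hY).sub ((measurable_mag β D' x).comp hY')).pow_const 2
    · intro ω; exact mag_sub_sq_le x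
  · apply integrable_of_meas_bdd (c := 4)
    · have h3 : Measurable fun p : (V × ℕ → unitInterval) × unitInterval =>
          F (Y p.1, Y' p.1) p.2 :=
        hFm.comp ((hX2.comp measurable_fst).prodMk measurable_snd)
      exact (h3.stronglyMeasurable.integral_prod_right').measurable
    · intro ω
      have := norm_integral_le_of_norm_le_const (μ := (volume : Measure unitInterval))
        (f := fun r => F (Y ω, Y' ω) r) (C := 4) (Filter.Eventually.of_forall fun r => hFb _ r)
      rw [probReal_univ, mul_one] at this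
      exact this
  · intro ω
    have h4 := sq_sub_le_integral_step (G := G) (β := β) ha0 ha D D' x u (Y ω) (Y' ω)
    have h5 := integral_unitInterval (fun r => (mag G β D (stepF G β a D u r (Y ω)) x -
      mag G β D' (stepF G β a D' u r (Y' ω)) x) ^ 2)
    rw [← h5] at h4
    rw [hF]
    exact h4

/-- Along a list. -/
lemma sq_sub_le_run {a : ℝ} (ha0 : 0 ≤ a) (ha : a ≤ 1 / 2) (D D' : Finset V) (x : V)
    {X X' : (V × ℕ → unitInterval) → V → ℝ} (hX : Measurable X) (hX' : Measurable X') {k : ℕ}
    (L : List V)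
    (hdep : ∀ u ∈ L, ∀ ω r, X (Function.update ω (u, 2 * k + 1) r) = X ω)
    (hdep' : ∀ u ∈ L, ∀ ω r, X' (Function.update ω (u, 2 * k + 1) r) = X' ω)
    (hL : L.Nodup) :
    ∫ ω, (mag G β D (X ω) x - mag G β D' (X' ω) x) ^ 2 ∂iidLaw (V × ℕ) ≤
      ∫ ω, (mag G β D (run G β a D L (noise k ω) (X ω)) x -
        mag G β D' (run G β a D' L (noise k ω) (X' ω)) x) ^ 2 ∂iidLaw (V × ℕ) := by
  induction L using List.reverseRecOn with
  | nil => exact le_rfl
  | append_singleton L u ih =>
    have hnd' := List.nodup_append.mp hL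
    have huL : u ∉ L := by
      intro hmem
      exact hnd'.2.2 u hmem u (by simp) rfl
    refine (ih (fun v hv => hdep v (by simp [hv])) (fun v hv => hdep' v (by simp [hv]))
      hnd'.1).trans ?_
    simp only [run_append]
    exact sq_sub_le_one (G := G) (β := β) ha0 ha D D' x u
      (measurable_run_comp (G := G) (β := β) (a := a) (k := k) L D hX)
      (measurable_run_comp (G := G) (β := β) (a := a) (k := k) L D' hX')
      (run_dep huL D (hdep u (by simp))) (run_dep huL D' (hdep' u (by simp)))

/-- Monotonicity in the label time: for every order of the labels the differences are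
martingales (`integral_sub_sq_run`). -/
lemma dd_mono [Countable V] (β : ℝ) (D D' : Finset V) (n n' : ℕ) (x : V) {j : ℤ}
    (hj : -(n : ℤ) ≤ j) (hj' : -(n' : ℤ) ≤ j) {l₁ l₂ : ℝ} (h0 : 0 ≤ l₁) (h12 : l₁ ≤ l₂)
    (h2 : l₂ ≤ 1 / 2) : dd G β D n D' n' x j l₁ ≤ dd G β D n D' n' x j l₂ := by
  have hmm : ∀ l, Measurable fun ω => (mag G β D (sj G β D n j l ω) x -
      mag G β D' (sj G β D' n' j l ω) x) ^ 2 := fun l =>
    (((measurable_mag β D x).comp (measurable_sj β D n j l)).sub
      ((measurable_mag β D' x).comp (measurable_sj β D' n' j l))).pow_const 2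
  unfold dd
  rw [integral_merge (labSet V) (hmm l₁) (c := 4) (fun ω => mag_sub_sq_le x),
    integral_merge (labSet V) (hmm l₂) (c := 4) (fun ω => mag_sub_sq_le x)]
  apply integral_mono_ae
  · exact integrable_of_meas_bdd (measurable_inner (labSet V) (hmm l₁))
      (abs_inner_le (c := 4) (fun ω => mag_sub_sq_le x))
  · exact integrable_of_meas_bdd (measurable_inner (labSet V) (hmm l₂))
      (abs_inner_le (c := 4) (fun ω => mag_sub_sq_le x))
  · filter_upwards [ae_injective (V := V)] with ω hω
    obtain ⟨ℒ, hℒ⟩ := exists_Sorted (D ∪ D') hω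
    have hinj := (hω (eZ j))
    obtain ⟨L₁, a1, a2, a3⟩ := exists_sorted (label (eZ j) ω)
      ((D ∪ D').filter (fun v => label (eZ j) ω v < l₁)) hinj.injOn
    obtain ⟨L₂, b1, b2, b3⟩ := exists_sorted (label (eZ j) ω)
      ((D ∪ D').filter (fun v => l₁ ≤ label (eZ j) ω v ∧ label (eZ j) ω v < l₂)) hinj.injOn
    have m1 : ∀ v ∈ L₁, label (eZ j) ω v < l₁ := by
      intro v hv
      rw [← List.mem_toFinset, a2, Finset.mem_filter] at hv
      exact hv.2
    have m2 : ∀ v ∈ L₂, l₁ ≤ label (eZ j) ω v := by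
      intro v hv
      rw [← List.mem_toFinset, b2, Finset.mem_filter] at hv
      exact hv.2.1
    have c1 : (L₁ ++ L₂).Nodup := by
      rw [List.nodup_append]
      refine ⟨a1, b1, ?_⟩
      intro y hy z hz hyz
      subst hyz
      exact absurd (m1 y hy) (not_lt.mpr (m2 y hz))
    have c2 : (L₁ ++ L₂).toFinset = (D ∪ D').filter (fun v => label (eZ j) ω v < l₂) := by
      rw [List.toFinset_append, a2, b2]
      ext v
      simp only [Finset.mem_union, Finset.mem_filter]
      constructor
      · rintro (⟨h3, h4⟩ | ⟨h3, h4⟩)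
        · exact ⟨h3, h4.trans_le h12⟩
        · exact ⟨h3, h4.2⟩
      · rintro ⟨h3, h4⟩
        by_cases h5 : label (eZ j) ω v < l₁
        · exact Or.inl ⟨h3, h5⟩
        · exact Or.inr ⟨h3, not_lt.mp h5, h4⟩
    have c3 : (L₁ ++ L₂).Pairwise (fun x y => label (eZ j) ω x < label (eZ j) ω y) := by
      rw [List.pairwise_append]
      refine ⟨a3, b3, ?_⟩
      intro y hy z hz
      exact (m1 y hy).trans_le (m2 z hz)
    have e1 := fun ω' => sj_merge (G := G) β (subset_union_left (s₁ := D) (s₂ := D')) n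
      (p := (ω, ω')) hℒ (j := j) (l := l₁) a1 a2 a3
    have e1' := fun ω' => sj_merge (G := G) β (subset_union_right (s₁ := D) (s₂ := D')) n'
      (p := (ω, ω')) hℒ (j := j) (l := l₁) a1 a2 a3
    have e2 := fun ω' => sj_merge (G := G) β (subset_union_left (s₁ := D) (s₂ := D')) n
      (p := (ω, ω')) hℒ (j := j) (l := l₂) c1 c2 c3
    have e2' := fun ω' => sj_merge (G := G) β (subset_union_right (s₁ := D) (s₂ := D')) n'
      (p := (ω, ω')) hℒ (j := j) (l := l₂) c1 c2 c3
    simp only [e1, e1', e2, e2']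
    have happ : ∀ (E : Finset V) (ξ k : V → ℝ), run G β (str j) E (L₁ ++ L₂) ξ k =
        run G β (str j) E L₂ ξ (run G β (str j) E L₁ ξ k) := by
      intro E ξ k
      unfold run
      rw [List.foldl_append]
    simp only [happ]
    have hdis : ∀ u ∈ L₂, u ∉ L₁ := fun u hu hu' => absurd (m1 u hu') (not_lt.mpr (m2 u hu))
    refine sq_sub_le_run (str_pos j).le ((str_le j).trans (by norm_num)) D D' x
      (measurable_run_comp (G := G) L₁ D (measurable_sf β D n ℒ _))
      (measurable_run_comp (G := G) L₁ D' (measurable_sf β D' n' ℒ _)) L₂ ?_ ?_ b1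
    · intro u hu
      exact run_dep (hdis u hu) D (fun ω r => sf_dep β D n ℒ (by omega) u ω r)
    · intro u hu
      exact run_dep (hdis u hu) D' (fun ω r => sf_dep β D' n' ℒ (by omega) u ω r)

/-! ### Equivariance -/

lemma rnd_map (e : G ≃g G) (β a : ℝ) (D : Finset V) (l : ℝ) (lab ξ h : V → ℝ) :
    rnd G β a D l (fun v => lab (e v)) (fun v => ξ (e v)) (fun v => h (e v)) =
      fun v => rnd G β a (D.map e.toEquiv.toEmbedding) l lab ξ h (e v) := by
  classical
  have hset : (D.map e.toEquiv.toEmbedding).filter (fun v => lab v < l) =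
      (D.filter (fun v => lab (e v) < l)).map e.toEquiv.toEmbedding := by
    ext v
    simp only [Finset.mem_filter, Finset.mem_map]
    constructor
    · rintro ⟨⟨w, hw, rfl⟩, h2⟩
      exact ⟨w, ⟨hw, h2⟩, rfl⟩
    · rintro ⟨w, ⟨hw, h2⟩, rfl⟩
      exact ⟨⟨w, hw, rfl⟩, h2⟩
  ext w
  unfold rnd
  rw [hset]
  set D₁ := D.filter (fun v => lab (e v) < l) with hD₁
  rw [Finset.sum_apply, Finset.sum_apply]
  refine Finset.sum_bij (fun L _ => L.map e) ?_ ?_ ?_ ?_
  · intro L hL
    exact (perms_map e D₁ L).mpr hL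
  · intro L₁ _ L₂ _ h12
    exact List.map_injective_iff.mpr e.injective h12
  · intro L hL
    refine ⟨L.map e.symm, ?_, ?_⟩
    · rw [← perms_map e D₁]
      have : (L.map e.symm).map e = L := by
        rw [List.map_map]
        have : (e ∘ e.symm : V → V) = id := by ext x; simp
        rw [this, List.map_id]
      rw [this]; exact hL
    · rw [List.map_map]
      have : (e ∘ e.symm : V → V) = id := by ext x; simp
      rw [this, List.map_id]
  · intro L _
    have hp : (L.map e).Pairwise (fun x y => lab x < lab y) ↔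
        L.Pairwise (fun x y => lab (e x) < lab (e y)) := List.pairwise_map
    by_cases hL : L.Pairwise (fun x y => lab (e x) < lab (e y))
    · rw [if_pos hL, if_pos (hp.mpr hL), run_map]
    · rw [if_neg hL, if_neg (fun hc => hL (hp.mp hc))]
      rfl

lemma st_map (e : G ≃g G) (β : ℝ) (D : Finset V) (n m : ℕ) (ω : V × ℕ → unitInterval) :
    st G β D n m (shiftL e ω) =
      fun w => st G β (D.map e.toEquiv.toEmbedding) n m ω (e w) := by
  induction m with
  | zero => rfl
  | succ m ih =>
    change rnd G β (str ((m : ℤ) - n)) D (1 / 2) (label (eZ ((m : ℤ) - n)) (shiftL e ω))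
      (noise (eZ ((m : ℤ) - n)) (shiftL e ω)) (st G β D n m (shiftL e ω)) = _
    rw [ih]
    exact rnd_map e β (str ((m : ℤ) - n)) D (1 / 2) (label (eZ ((m : ℤ) - n)) ω)
      (noise (eZ ((m : ℤ) - n)) ω) (st G β (D.map e.toEquiv.toEmbedding) n m ω)

lemma mag_sj_map (e : G ≃g G) (β : ℝ) (D : Finset V) (n : ℕ) (j : ℤ) (l : ℝ)
    (ω : V × ℕ → unitInterval) (v : V) :
    mag G β D (sj G β D n j l (shiftL e ω)) v =
      mag G β (D.map e.toEquiv.toEmbedding)
        (sj G β (D.map e.toEquiv.toEmbedding) n j l ω) (e v) := by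
  have h : sj G β D n j l (shiftL e ω) =
      fun w => sj G β (D.map e.toEquiv.toEmbedding) n j l ω (e w) := by
    unfold sj
    rw [st_map]
    exact rnd_map e β (str j) D l (label (eZ j) ω) (noise (eZ j) ω)
      (st G β (D.map e.toEquiv.toEmbedding) n (j + n).toNat ω)
  rw [h, mag_map]

end Vale.Agent.P161C
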