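import Vale.Agent.Lib.P161C.MuB
import Vale.Agent.Lib.P161C.Fin

/-!
P161 critical: assembly.
-/

open Finset MeasureTheory Filter Topology

namespace Vale.Agent.P161C
open Vale.Agent.P161

variable {V : Type*} {G : SimpleGraph V}

theorem exists_factor_crit (hG : G.IsTree) [G.LocallyFinite] {d : ℕ} (hd : 3 ≤ d)
    (hreg : G.IsRegularOfDegree d) {β : ℝ} (hβ : 0 ≤ β)
    (heq : ((d : ℝ) - 1) * Real.tanh β ^ 2 = 1) :
    ∃ Φ : (V → unitInterval) → (V → ℤˣ), Measurable Φ ∧
      (∀ g : G ≃g G, ∀ᵐ U ∂uniformLabels V, Φ (act g U) = act g (Φ U)) ∧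
      IsFreeIsing G β ((uniformLabels V).map Φ) := by
  classical
  have : Countable V := countable_of_connected hG.connected
  have : Nonempty V := hG.connected.nonempty
  have hC : Crit G (d - 1) β := by
    refine ⟨hG, ?_, by omega, hβ, ?_⟩
    · have h1 : d - 1 + 1 = d := by omega
      rw [h1]; exact hreg
    · rw [Nat.cast_sub (by omega)]; simpa using heq
  obtain ⟨o⟩ := hG.connected.nonempty
  obtain ⟨Φ, hm, heqv, hlaw⟩ := crit_factor hC
    (fun j => muf_eq_zero hC j 0 le_rfl (by norm_num)) o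
  obtain ⟨f, hf, hmap⟩ := MeasureTheory.Measure.exists_measurable_map_eq (iidLaw ℕ)
  have hsplit := map_split (V := V) hf hmap
  have hms := measurable_split (V := V) hf
  have hΦ : Measurable (fun U : V → unitInterval => Φ (split f U)) := hm.comp hms
  refine ⟨fun U => Φ (split f U), hΦ, ?_, ?_⟩
  · intro g
    have h := heqv g.symm
    rw [← hsplit] at h
    have h' := ae_of_ae_map hms.aemeasurable h
    filter_upwards [h'] with U hU
    funext v
    have h1 := hU v
    exact h1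
  · intro D hD η
    have h1 : (uniformLabels V).map (fun U => Φ (split f U)) =
        (iidLaw (V × ℕ)).map Φ := by
      rw [← hsplit, Measure.map_map hm hms]
      rfl
    have h2 := Measure.map_apply (μ := iidLaw (V × ℕ)) hm (measurableSet_cylSet D η)
    rw [h1]
    have h3 := hlaw D hD η
    have h4 : {σ : V → ℤˣ | ∀ v ∈ D, σ v = η v} = cylSet D η := rfl
    rw [h4, h2, ← h3]
    rfl

/-- The closed range `0 ≤ θ ≤ (d-1)^{-1/2}`. -/
theorem free_ising_factor_closed (hG : G.IsTree) [G.LocallyFinite] {d : ℕ} (hd : 3 ≤ d)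
    (hreg : G.IsRegularOfDegree d) {β : ℝ} (hβ : 0 ≤ β)
    (hle : Real.tanh β ≤ 1 / √((d : ℝ) - 1)) :
    (∃! ν : Measure (V → ℤˣ), IsFreeIsing G β ν) ∧
      ∀ ν : Measure (V → ℤˣ), IsFreeIsing G β ν → IsFactorOfIID G ν := by
  rcases lt_or_eq_of_le hle with hlt | heq
  · exact free_ising_factor hG hd hreg hβ hlt
  · have hd' : (3 : ℝ) ≤ d := by exact_mod_cast hd
    have hpos : (0 : ℝ) < (d : ℝ) - 1 := by linarith
    have heq' : ((d : ℝ) - 1) * Real.tanh β ^ 2 = 1 := by
      rw [heq, div_pow, one_pow, Real.sq_sqrt hpos.le]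
      field_simp
    obtain ⟨Φ, hΦ, hequiv, hlaw⟩ := exists_factor_crit hG hd hreg hβ heq'
    refine ⟨⟨_, hlaw, fun ν' hν' => isFreeIsing_unique hG.connected hν' hlaw⟩, fun ν hν => ?_⟩
    exact ⟨Φ, hΦ, hequiv, isFreeIsing_unique hG.connected hlaw hν⟩

end Vale.Agent.P161C
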